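import Vale.Agent.P140.DLMeas

/-! Uniform bounds for an approximating sequence. -/

namespace Vale.Agent.P140

open MeasureTheory Set Filter Topology
open scoped ENNReal

/-- the constant `|log (2π)^(-3/2)|` -/
noncomputable def apBd_L : ℝ := |Real.log ((2 * Real.pi) ^ (-(3 / 2 : ℝ)))|

theorem apBd_L_nonneg : 0 ≤ apBd_L := abs_nonneg _

theorem apBd_eq {s : ℝ} (hs : 0 ≤ s) (v : V) : s * Real.log (s / Mx v) =
    s * Real.log s - s * Real.log ((2 * Real.pi) ^ (-(3 / 2 : ℝ))) + s * ‖v‖ ^ 2 / 2 := by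
  rcases hs.eq_or_lt with rfl | hs
  · simp
  · rw [trEnt_div hs]
    ring

theorem apBd_mul_L {s : ℝ} (hs : 0 ≤ s) :
    -(s * apBd_L) ≤ s * Real.log ((2 * Real.pi) ^ (-(3 / 2 : ℝ))) ∧
      s * Real.log ((2 * Real.pi) ^ (-(3 / 2 : ℝ))) ≤ s * apBd_L := by
  have h1 := mul_le_mul_of_nonneg_left (neg_abs_le (Real.log ((2 * Real.pi) ^ (-(3 / 2 : ℝ))))) hs
  have h2 := mul_le_mul_of_nonneg_left (le_abs_self (Real.log ((2 * Real.pi) ^ (-(3 / 2 : ℝ))))) hs
  unfold apBd_L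
  constructor <;> linarith

theorem apBd_young {s m : ℝ} (hs : 0 ≤ s) (hm : 0 < m) :
    s ≤ s * Real.log (s / m) - s + m + 2 * m := by
  have h := relEnt_integrand_nonneg hs (mul_pos (Real.exp_pos 1) hm)
  have he : Real.exp 1 * m ≤ 3 * m := mul_le_mul_of_nonneg_right Real.exp_one_lt_three.le hm.le
  rcases hs.eq_or_lt with rfl | hs
  · simp only [zero_mul]
    linarith
  · rw [Real.log_div hs.ne' (mul_pos (Real.exp_pos 1) hm).ne', Real.log_mul (Real.exp_pos 1).ne'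
      hm.ne', Real.log_exp] at h
    rw [Real.log_div hs.ne' hm.ne']
    linarith

theorem apBd_mom_le {s : ℝ} (hs : 0 ≤ s) (v : V) : s * (1 + ‖v‖ ^ 2 + |Real.log s|) ≤
    (3 + apBd_L) * (s * Real.log (s / Mx v) - s + Mx v) + 2 * (‖v‖ ^ 2 * s) +
      (5 + 2 * apBd_L) * Mx v := by
  have h0 := relEnt_integrand_nonneg hs (Mx_pos v)
  have h1 := mul_le_mul_of_nonneg_left (apBd_young hs (Mx_pos v))
    (show 0 ≤ 2 + apBd_L by linarith [apBd_L_nonneg])
  have h2 := apBd_eq hs v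
  obtain ⟨h3, h4⟩ := apBd_mul_L hs
  have h5 : 0 ≤ ‖v‖ ^ 2 * s := by positivity
  have h6 := (Mx_pos v).le
  rcases abs_cases (Real.log s) with ⟨e, -⟩ | ⟨e, -⟩ <;> rw [e] <;> nlinarith

theorem apBd_mul_log {s x y : ℝ} (hs : 0 ≤ s) (hx : 0 ≤ x) (hy : y ≤ 1) (h : s ≤ x + y) :
    s * Real.log s ≤ 2 * x * (1 + |Real.log x|) := by
  have h0 : 0 ≤ 2 * x * |Real.log x| := by positivity
  rcases le_total s 1 with h1 | h1
  · have := mul_nonpos_of_nonneg_of_nonpos hs (Real.log_nonpos hs h1)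
    nlinarith
  have hl := Real.log_nonneg h1
  rcases le_total x 1 with h2 | h2
  · have h3 := Real.log_le_sub_one_of_pos (zero_lt_one.trans_le h1)
    have h4 : s * Real.log s ≤ 2 * x := mul_le_mul (by linarith) (by linarith) hl (by norm_num)
    nlinarith
  · have h3 : Real.log s ≤ Real.log (2 * x) :=
      Real.log_le_log (zero_lt_one.trans_le h1) (by linarith)
    rw [Real.log_mul two_ne_zero (zero_lt_one.trans_le h2).ne'] at h3
    have h4 := Real.log_le_sub_one_of_pos (show (0 : ℝ) < 2 by norm_num)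
    exact mul_le_mul (by linarith) (by linarith [le_abs_self (Real.log x)]) hl (by linarith)

theorem apBd_rel_le {s x y : ℝ} (hs : 0 ≤ s) (hx : 0 ≤ x) (hy0 : 0 ≤ y) (hy : y ≤ 1)
    (h : s ≤ x + y) (v : V) : s * Real.log (s / Mx v) - s + Mx v ≤
      (2 + apBd_L) * (x * (1 + ‖v‖ ^ 2 + |Real.log x|)) +
        (1 + apBd_L) * ((1 + ‖v‖) ^ 2 * y) + Mx v := by
  have h1 := apBd_mul_log hs hx hy h
  have h2 := apBd_eq hs v
  have h3 := (apBd_mul_L hs).1
  have hL := apBd_L_nonneg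
  have h4 := mul_le_mul_of_nonneg_right h hL
  have h5 := mul_le_mul_of_nonneg_right h (sq_nonneg ‖v‖)
  have h6 : 0 ≤ s * ‖v‖ ^ 2 := by positivity
  have h7 : 0 ≤ x * ‖v‖ ^ 2 + apBd_L * (x * (‖v‖ ^ 2 + |Real.log x|)) +
      (1 + 2 * ‖v‖) * y + apBd_L * ((2 * ‖v‖ + ‖v‖ ^ 2) * y) := by positivity
  nlinarith

theorem apBd_int_Mx : Integrable (fun z : Om => Mx z.2) := by
  have := integrable_Mx_moment 0
  simp only [pow_zero, one_mul] at this
  exact this.comp_snd _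

theorem apBd_meas_rel {g : Om → ℝ} (hm : Measurable g) :
    Measurable (fun z : Om => g z * Real.log (g z / Mx z.2) - g z + Mx z.2) := by
  have := continuous_Mx.measurable
  fun_prop

theorem apBd_meas_mom {g : Om → ℝ} (hm : Measurable g) :
    Measurable (fun z : Om => g z * (1 + ‖z.2‖ ^ 2 + |Real.log (g z)|)) := by
  fun_prop

theorem apBd_int_mom {g : Om → ℝ} (hm : Measurable g) (h0 : ∀ z, 0 ≤ g z) (h : momEnt g < ⊤) :
    Integrable (fun z : Om => g z * (1 + ‖z.2‖ ^ 2 + |Real.log (g z)|)) :=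
  (lintegral_ofReal_ne_top_iff_integrable (apBd_meas_mom hm).aestronglyMeasurable
    (ae_of_all _ fun z => mul_nonneg (h0 z) (by positivity))).1 h.ne

theorem apBd_int_bd {g : Om → ℝ} (hm : Measurable g) (h0 : ∀ z, 0 ≤ g z) (h : momEnt g < ⊤) :
    Integrable (fun z : Om => (2 + apBd_L) * (g z * (1 + ‖z.2‖ ^ 2 + |Real.log (g z)|)) +
      (1 + apBd_L) * ((1 + ‖z.2‖) ^ 2 * G0 z.2) + Mx z.2) :=
  (((apBd_int_mom hm h0 h).const_mul _).add ((integrable_G0_Om 2).const_mul _)).add apBd_int_Mx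

theorem relEnt_lt_top {g : Om → ℝ} (hm : Measurable g) (h0 : ∀ z, 0 ≤ g z) (h : momEnt g < ⊤) :
    relEnt g < ⊤ := by
  refine lt_of_le_of_lt (lintegral_mono fun z => ENNReal.ofReal_le_ofReal ?_)
    (apBd_int_bd hm h0 h).lintegral_lt_top
  exact apBd_rel_le (h0 z) (h0 z) (G0_pos _).le (G0_le_one _)
    (le_add_of_nonneg_right (G0_pos _).le) _

theorem momEnt_le {C : ℝ≥0∞} (hC : C < ⊤) : ∃ C' : ℝ≥0∞, C' < ⊤ ∧ ∀ g : Om → ℝ, Measurable g →
    (∀ z, 0 ≤ g z) → relEnt g ≤ C → ∫⁻ z, ENNReal.ofReal (‖z.2‖ ^ 2 * g z) ≤ C →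
    momEnt g ≤ C' := by
  have hL := apBd_L_nonneg
  refine ⟨ENNReal.ofReal (3 + apBd_L) * C + ENNReal.ofReal 2 * C +
    ∫⁻ z : Om, ENNReal.ofReal ((5 + 2 * apBd_L) * Mx z.2), ?_, fun g hm h0 h1 h2 => ?_⟩
  · exact ENNReal.add_lt_top.2 ⟨ENNReal.add_lt_top.2 ⟨ENNReal.mul_lt_top ENNReal.ofReal_lt_top hC,
      ENNReal.mul_lt_top ENNReal.ofReal_lt_top hC⟩, (apBd_int_Mx.const_mul _).lintegral_lt_top⟩
  have m1 := (apBd_meas_rel hm).ennreal_ofReal
  have m2 : Measurable fun z : Om => ENNReal.ofReal (‖z.2‖ ^ 2 * g z) := by fun_prop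
  calc momEnt g ≤ ∫⁻ z : Om, (ENNReal.ofReal (3 + apBd_L) *
        ENNReal.ofReal (g z * Real.log (g z / Mx z.2) - g z + Mx z.2) +
        ENNReal.ofReal 2 * ENNReal.ofReal (‖z.2‖ ^ 2 * g z) +
        ENNReal.ofReal ((5 + 2 * apBd_L) * Mx z.2)) := by
        refine lintegral_mono fun z => ?_
        rw [← ENNReal.ofReal_mul (by linarith), ← ENNReal.ofReal_mul (by norm_num)]
        exact (ENNReal.ofReal_le_ofReal (apBd_mom_le (h0 z) z.2)).trans
          (ENNReal.ofReal_add_le.trans (add_le_add ENNReal.ofReal_add_le le_rfl))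
    _ ≤ _ := by
        rw [lintegral_add_left ((m1.const_mul _).fun_add (m2.const_mul _)),
          lintegral_add_left (m1.const_mul _), lintegral_const_mul _ m1, lintegral_const_mul _ m2]
        exact add_le_add (add_le_add (mul_le_mul_right h1 _) (mul_le_mul_right h2 _)) le_rfl

theorem relEnt_sh {g : Om → ℝ} (hm : Measurable g) (t : ℝ) :
    relEnt (fun z => g (sh t z)) = relEnt g := by
  exact lintegral_sh t (apBd_meas_rel hm).ennreal_ofReal

theorem IsDatum.integrable_moment {F0 : Om → ℝ} (h : IsDatum F0) :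
    Integrable (fun z : Om => (1 + ‖z.2‖) ^ 2 * F0 z) := by
  have hm := h.meas
  refine ((apBd_int_mom h.meas h.nonneg h.fin).const_mul 2).mono' (by fun_prop)
    (ae_of_all _ fun z => ?_)
  have h0 := h.nonneg z
  rw [Real.norm_of_nonneg (by positivity)]
  nlinarith [mul_nonneg h0 (sq_nonneg (1 - ‖z.2‖)), mul_nonneg h0 (abs_nonneg (Real.log (F0 z)))]

/-- uniform integrability and tightness from a bound on `momEnt` -/
theorem ui_of_momEnt {C : ℝ≥0∞} (hC : C < ⊤) {ε : ℝ} (hε : 0 < ε) : ∃ (K : ℝ) (R : ℕ), 0 ≤ K ∧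
    ∀ g : Om → ℝ, Measurable g → (∀ z, 0 ≤ g z) → momEnt g ≤ C →
      ∫ z in {z : Om | K < g z ∨ (R : ℝ) < ‖z.2‖}, (1 + ‖z.2‖) * g z ≤ ε := by
  have hc : 0 ≤ C.toReal := ENNReal.toReal_nonneg
  obtain ⟨δ, hδ, hδε⟩ : ∃ δ : ℝ, 0 < δ ∧ δ * C.toReal ≤ ε :=
    ⟨ε / (C.toReal + 1), by positivity, by
      rw [div_mul_eq_mul_div, div_le_iff₀ (by positivity)]
      nlinarith⟩
  obtain ⟨R, hR⟩ := exists_nat_ge (1 + 2 / δ)
  have hd : 0 < 2 / δ := by positivity
  refine ⟨Real.exp ((1 + R) / δ), R, (Real.exp_pos _).le, fun g hm h0 h => ?_⟩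
  have hi := apBd_int_mom hm h0 (h.trans_lt hC)
  have hS : MeasurableSet {z : Om | Real.exp ((1 + R) / δ) < g z ∨ (R : ℝ) < ‖z.2‖} :=
    (measurableSet_lt measurable_const hm).union
      (measurableSet_lt measurable_const measurable_snd.norm)
  have hpt : ∀ z ∈ {z : Om | Real.exp ((1 + R) / δ) < g z ∨ (R : ℝ) < ‖z.2‖},
      (1 + ‖z.2‖) * g z ≤ δ * (g z * (1 + ‖z.2‖ ^ 2 + |Real.log (g z)|)) := by
    intro z hz
    have k : 1 + ‖z.2‖ ≤ δ * (1 + ‖z.2‖ ^ 2 + |Real.log (g z)|) := by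
      rcases lt_or_ge (R : ℝ) ‖z.2‖ with h1 | h1
      · have h2 : 2 / δ ≤ ‖z.2‖ := by linarith
        rw [div_le_iff₀ hδ] at h2
        nlinarith [mul_nonneg hδ.le (abs_nonneg (Real.log (g z))),
          mul_le_mul_of_nonneg_left h2 (norm_nonneg z.2)]
      · have h2 : Real.exp ((1 + R) / δ) < g z := hz.resolve_right (not_lt.2 h1)
        have h3 := (Real.le_log_iff_exp_le ((Real.exp_pos _).trans h2)).2 h2.le
        rw [div_le_iff₀ hδ] at h3
        nlinarith [mul_le_mul_of_nonneg_left (le_abs_self (Real.log (g z))) hδ.le,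
          mul_nonneg hδ.le (sq_nonneg ‖z.2‖)]
    nlinarith [mul_le_mul_of_nonneg_right k (h0 z)]
  have hi2 : IntegrableOn (fun z : Om => (1 + ‖z.2‖) * g z)
      {z : Om | Real.exp ((1 + R) / δ) < g z ∨ (R : ℝ) < ‖z.2‖} := by
    refine (hi.const_mul δ).integrableOn.mono' (by fun_prop) ?_
    filter_upwards [ae_restrict_mem hS] with z hz
    rw [Real.norm_of_nonneg (mul_nonneg (by positivity) (h0 z))]
    exact hpt z hz
  have hn : ∀ z : Om, 0 ≤ g z * (1 + ‖z.2‖ ^ 2 + |Real.log (g z)|) := fun z =>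
    mul_nonneg (h0 z) (by positivity)
  refine (setIntegral_mono_on hi2 (hi.const_mul δ).integrableOn hS hpt).trans
    ((setIntegral_le_integral (hi.const_mul δ)
      (ae_of_all _ fun z => mul_nonneg hδ.le (hn z))).trans (le_trans ?_ hδε))
  rw [integral_const_mul, integral_eq_lintegral_of_nonneg_ae (ae_of_all _ hn)
    hi.aestronglyMeasurable]
  exact mul_le_mul_of_nonneg_left (ENNReal.toReal_mono hC.ne h) hδ.le

namespace Appr

variable {F0 : Om → ℝ} {n : ℕ → ℕ} {f0 : ℕ → Om → ℝ} {f : ℕ → ℝ → Om → ℝ} (A : Appr F0 n f0 f)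
include A

theorem f0_nonneg (i : ℕ) (z : Om) : 0 ≤ f0 i z := by
  rw [← (A.sol i).zero]
  exact (A.sol i).nonneg _ _

theorem tendsto_relEnt : Tendsto (fun i => relEnt (f0 i)) atTop (𝓝 (relEnt F0)) := by
  refine tendsto_lintegral_of_dominated_convergence _
    (fun i => (apBd_meas_rel (A.sol i).meas0).ennreal_ofReal)
    (fun i => ae_of_all _ fun z => ENNReal.ofReal_le_ofReal (apBd_rel_le (A.f0_nonneg i z)
      (A.dat.nonneg z) (G0_pos _).le (G0_le_one _) (A.le i z) _))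
    (apBd_int_bd A.dat.meas A.dat.nonneg A.dat.fin).lintegral_lt_top.ne
    (ae_of_all _ fun z => ENNReal.tendsto_ofReal ?_)
  simp only [apBd_eq (A.f0_nonneg _ z), apBd_eq (A.dat.nonneg z)]
  have h := A.lim z
  exact (((((Real.continuous_mul_log.tendsto _).comp h).sub (h.mul_const _)).add
    ((h.mul_const _).div_const _)).sub h).add_const _

theorem relEnt_bdd : ∃ C : ℝ≥0∞, C < ⊤ ∧ ∀ i, relEnt (f0 i) ≤ C := by
  exact ⟨_, (apBd_int_bd A.dat.meas A.dat.nonneg A.dat.fin).lintegral_lt_top, fun i =>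
    lintegral_mono fun z => ENNReal.ofReal_le_ofReal (apBd_rel_le (A.f0_nonneg i z)
      (A.dat.nonneg z) (G0_pos _).le (G0_le_one _) (A.le i z) _)⟩

theorem tendsto_data :
    Tendsto (fun i => ∫ z : Om, (1 + ‖z.2‖) ^ 2 * |f0 i z - F0 z|) atTop (𝓝 0) := by
  have hm := A.dat.meas
  have key := tendsto_integral_of_dominated_convergence (μ := (volume : Measure Om))
    (F := fun i z => (1 + ‖z.2‖) ^ 2 * |f0 i z - F0 z|) (f := fun _ => (0 : ℝ)) _
    (fun i => by have := (A.sol i).meas0; fun_prop)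
    ((A.dat.integrable_moment.const_mul 2).add (integrable_G0_Om 2))
    (fun i => ae_of_all _ fun z => by
      have h1 : |f0 i z - F0 z| ≤ 2 * F0 z + G0 z.2 := by
        rw [abs_le]
        constructor <;> linarith [A.f0_nonneg i z, A.dat.nonneg z, A.le i z, G0_pos z.2]
      rw [Real.norm_of_nonneg (by positivity), Pi.add_apply]
      nlinarith [mul_le_mul_of_nonneg_left h1 (sq_nonneg (1 + ‖z.2‖))])
    (ae_of_all _ fun z => by
      simpa using (((A.lim z).sub_const (F0 z)).abs).const_mul ((1 + ‖z.2‖) ^ 2))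
  simpa using key

theorem energy_eq (i : ℕ) {t : ℝ} (ht : 0 ≤ t) :
    ∫⁻ z : Om, ENNReal.ofReal (‖z.2‖ ^ 2 * f i t z) =
      ∫⁻ z : Om, ENNReal.ofReal (‖z.2‖ ^ 2 * f0 i z) := by
  have hi : ∀ s, 0 ≤ s → Integrable (fun z : Om => ‖z.2‖ ^ 2 * f i s z) := fun s hs => by
    have hm := (A.sol i).meas_t s
    refine ((A.sol i).integrable_moment 2 hs).mono' (by fun_prop) (ae_of_all _ fun z => ?_)
    have h0 := (A.sol i).nonneg s z
    rw [Real.norm_of_nonneg (by positivity)]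
    nlinarith [mul_nonneg h0 (norm_nonneg z.2)]
  have h0 := hi 0 le_rfl
  simp only [(A.sol i).zero] at h0
  have e := (A.sol i).conserve (ψ := fun v => ‖v‖ ^ 2) (by fun_prop)
    ⟨1, fun v => by
      rw [abs_of_nonneg (sq_nonneg _)]
      nlinarith [norm_nonneg v]⟩ energy_coll ht
  rw [← ofReal_integral_eq_lintegral_ofReal (hi t ht)
      (ae_of_all _ fun z => mul_nonneg (sq_nonneg _) ((A.sol i).nonneg t z)),
    ← ofReal_integral_eq_lintegral_ofReal h0
      (ae_of_all _ fun z => mul_nonneg (sq_nonneg _) (A.f0_nonneg i z))]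
  simp only [mul_comm (‖_‖ ^ 2)]
  rw [e]

theorem tendsto_energy : Tendsto (fun i => ∫⁻ z : Om, ENNReal.ofReal (‖z.2‖ ^ 2 * f0 i z)) atTop
    (𝓝 (∫⁻ z : Om, ENNReal.ofReal (‖z.2‖ ^ 2 * F0 z))) := by
  refine tendsto_lintegral_of_dominated_convergence _
    (fun i => by have := (A.sol i).meas0; fun_prop)
    (fun i => ae_of_all _ fun z => ENNReal.ofReal_le_ofReal ?_)
    (A.dat.integrable_moment.add (integrable_G0_Om 2)).lintegral_lt_top.ne
    (ae_of_all _ fun z => ENNReal.tendsto_ofReal ((A.lim z).const_mul _))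
  rw [Pi.add_apply, ← mul_add]
  exact mul_le_mul (by nlinarith [norm_nonneg z.2]) (A.le i z) (A.f0_nonneg i z) (sq_nonneg _)

theorem mom_bdd : ∃ C : ℝ, 0 ≤ C ∧ ∀ i t, 0 ≤ t → ∫ z : Om, (1 + ‖z.2‖) ^ 2 * f i t z ≤ C := by
  have hB := (A.dat.integrable_moment.add (integrable_G0_Om 2)).const_mul 2
  refine ⟨_, integral_nonneg fun z => ?_, fun i t ht => le_trans ?_ (le_of_eq_of_le
    ((A.sol i).conserve (ψ := fun v => 2 * (1 + ‖v‖ ^ 2)) (by fun_prop) ⟨2, fun v => ?_⟩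
      (fun v w ω => by linarith [energy_coll v w ω]) ht)
    (integral_mono_of_nonneg (ae_of_all _ fun z => ?_) hB (ae_of_all _ fun z => ?_)))⟩
  · have := A.dat.nonneg z
    have := G0_pos z.2
    simp only [Pi.add_apply, Pi.zero_apply]
    positivity
  · have hm := (A.sol i).meas_t t
    refine integral_mono ((A.sol i).integrable_moment 2 ht)
      ((((A.sol i).integrable_moment 2 ht).const_mul 2).mono' (by fun_prop)
        (ae_of_all _ fun z => ?_)) fun z => ?_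
    · have h0 := (A.sol i).nonneg t z
      rw [Real.norm_of_nonneg (by positivity)]
      nlinarith [mul_nonneg h0 (norm_nonneg z.2)]
    · nlinarith [mul_nonneg ((A.sol i).nonneg t z) (sq_nonneg (1 - ‖z.2‖))]
  · rw [abs_of_nonneg (by positivity)]
    nlinarith [norm_nonneg v]
  · exact mul_nonneg (A.f0_nonneg i z) (by positivity)
  · have h1 := mul_le_mul_of_nonneg_left (A.le i z) (sq_nonneg (1 + ‖z.2‖))
    simp only [Pi.add_apply]
    nlinarith [mul_nonneg (A.f0_nonneg i z) (norm_nonneg z.2)]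

theorem momEnt_bdd : ∃ C : ℝ≥0∞, C < ⊤ ∧ ∀ i t, 0 ≤ t → momEnt (f i t) ≤ C := by
  obtain ⟨C1, h1, b1⟩ := A.relEnt_bdd
  obtain ⟨C2, -, b2⟩ := A.mom_bdd
  obtain ⟨C, hC, h⟩ := momEnt_le (C := max C1 (ENNReal.ofReal C2))
    (max_lt h1 ENNReal.ofReal_lt_top)
  refine ⟨C, hC, fun i t ht => h _ ((A.sol i).meas_t t) ((A.sol i).nonneg t)
    (le_max_of_le_left ((le_self_add.trans ((A.sol i).entropy ht)).trans (b1 i)))
    (le_max_of_le_right (le_trans ?_ (ENNReal.ofReal_le_ofReal (b2 i t ht))))⟩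
  rw [ofReal_integral_eq_lintegral_ofReal ((A.sol i).integrable_moment 2 ht)
    (ae_of_all _ fun z => mul_nonneg (sq_nonneg _) ((A.sol i).nonneg t z))]
  exact lintegral_mono fun z => ENNReal.ofReal_le_ofReal (mul_le_mul_of_nonneg_right
    (by nlinarith [norm_nonneg z.2]) ((A.sol i).nonneg t z))

theorem diss_bdd : ∃ C : ℝ≥0∞, C < ⊤ ∧ ∀ i t, 0 ≤ t →
    ∫⁻ s in Ioc 0 t, dissN (n i) (f i s) ≤ C := by
  obtain ⟨C, hC, h⟩ := A.relEnt_bdd
  exact ⟨C, hC, fun i t ht => (le_add_self.trans ((A.sol i).entropy ht)).trans (h i)⟩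

theorem tail {ε : ℝ} (hε : 0 < ε) : ∃ (K : ℝ) (R : ℕ), 0 ≤ K ∧ ∀ i t, 0 ≤ t →
    ∫ z in {z : Om | K < f i t z ∨ (R : ℝ) < ‖z.2‖}, (1 + ‖z.2‖) * f i t z ≤ ε := by
  obtain ⟨C, hC, h⟩ := A.momEnt_bdd
  obtain ⟨K, R, hK, h2⟩ := ui_of_momEnt hC hε
  exact ⟨K, R, hK, fun i t ht => h2 _ ((A.sol i).meas_t t) ((A.sol i).nonneg t) (h i t ht)⟩

end Appr

end Vale.Agent.P140
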