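import Vale.Agent.P140.ApBd

/-! Control of the renormalised gain term. -/

namespace Vale.Agent.P140

open MeasureTheory Set Filter Topology
open scoped ENNReal

theorem ApGain_slice {n : ℕ} {f0 : Om → ℝ} {f : ℝ → Om → ℝ} (h : TrSol n f0 f) {t : ℝ}
    (ht : 0 ≤ t) (x : X) : Integrable (fun v => (1 + ‖v‖) * f t (x, v)) := by
  obtain ⟨C, hC⟩ := h.ub t
  have hm : Measurable fun v => f t (x, v) := (h.meas_t t).comp measurable_prodMk_left
  refine ((integrable_G0_moment 1).const_mul C).mono'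
    ((measurable_const.add measurable_norm).mul hm).aestronglyMeasurable
    (Eventually.of_forall fun v => ?_)
  rw [Real.norm_eq_abs, abs_of_nonneg (mul_nonneg (by positivity) (h.nonneg _ _)), pow_one,
    mul_left_comm]
  exact mul_le_mul_of_nonneg_left (hC t ⟨ht, le_rfl⟩ (x, v)) (by positivity)

theorem ApGain_rho1 {n : ℕ} {f0 : Om → ℝ} {f : ℝ → Om → ℝ} (h : TrSol n f0 f) (T : ℝ) (R : ℕ) :
    IntegrableOn (fun p : ℝ × Om => rho1 (f p.1) p.2.1) (EBT R) (mT T) := by
  obtain ⟨C, hC⟩ := h.ub T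
  have hg : Measurable (Function.uncurry fun p : ℝ × Om => f p.1) :=
    h.meas.comp ((measurable_fst.comp measurable_fst).prodMk measurable_snd)
  refine Measure.integrableOn_of_bounded (mT_EBT_lt_top T R).ne
    (measurable_rho1 hg (measurable_fst.comp measurable_snd)).aestronglyMeasurable
    (M := ∫ v : V, C * ((1 + ‖v‖) ^ 1 * G0 v)) ?_
  filter_upwards [ae_restrict_of_ae (ae_mT_mem T)] with p hp
  rw [Real.norm_eq_abs, abs_of_nonneg (rho1_nonneg (h.nonneg _) _)]
  refine integral_mono (ApGain_slice h hp.1.le _) ((integrable_G0_moment 1).const_mul C) fun v => ?_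
  simp only [pow_one]
  rw [mul_left_comm]
  exact mul_le_mul_of_nonneg_left (hC p.1 ⟨hp.1.le, hp.2⟩ (p.2.1, v)) (by positivity)

/-- the dissipation density -/
noncomputable def ApGain_D (n : ℕ) (g : Om → ℝ) (z : Om) : ℝ≥0∞ :=
  ENNReal.ofReal (kap n g z.1) * ∫⁻ w, ∫⁻ ω, kN n z.2 w ω *
    jE (g (z.1, vp z.2 w ω) * g (z.1, vq z.2 w ω)) (g (z.1, z.2) * g (z.1, w)) ∂sig

theorem ApGain_meas0 (n : ℕ) {α : Type*} [MeasurableSpace α] {g : α → Om → ℝ}
    (hg : Measurable (Function.uncurry g)) {z : α → Om} (hz : Measurable z) :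
    Measurable fun a => ∫⁻ w, ∫⁻ ω, kN n (z a).2 w ω *
      jE (g a ((z a).1, vp (z a).2 w ω) * g a ((z a).1, vq (z a).2 w ω))
        (g a ((z a).1, (z a).2) * g a ((z a).1, w)) ∂sig := by
  refine meas2_QpB ?_
  have h1 : ∀ {u : (α × V) × S2 → V}, Measurable u →
      Measurable fun q : (α × V) × S2 => g q.1.1 ((z q.1.1).1, u q) := fun hu =>
    hg.comp ((measurable_fst.comp measurable_fst).prodMk (Measurable.prodMk (by fun_prop) hu))
  refine ((isKer_kN n).measurable_comp (by fun_prop) (by fun_prop) (by fun_prop)).mul ?_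
  exact measurable_jE.comp (((h1 (by fun_prop)).mul (h1 (by fun_prop))).prodMk
    ((h1 (by fun_prop)).mul (h1 (by fun_prop))))

theorem ApGain_meas (n : ℕ) {f : ℝ → Om → ℝ} (hf : Measurable (Function.uncurry f)) :
    Measurable fun p : ℝ × Om => ApGain_D n (f p.1) p.2 := by
  have hg : Measurable (Function.uncurry fun p : ℝ × Om => f p.1) :=
    hf.comp ((measurable_fst.comp measurable_fst).prodMk measurable_snd)
  exact (measurable_kap n hg (measurable_fst.comp measurable_snd)).ennreal_ofReal.mul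
    (ApGain_meas0 n hg measurable_snd)

theorem ApGain_int (n : ℕ) {g : Om → ℝ} (hm : Measurable g) :
    ∫⁻ z, ApGain_D n g z = 4 * dissN n g := by
  have hg : Measurable (Function.uncurry fun _ : Om => g) := hm.comp measurable_snd
  have h1 : Measurable (ApGain_D n g) :=
    (measurable_kap n hg measurable_fst).ennreal_ofReal.mul (ApGain_meas0 n hg measurable_id)
  rw [lintegral_Om h1, dissN, ← mul_assoc, one_div, ENNReal.mul_inv_cancel (by simp) (by simp),
    one_mul]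
  refine lintegral_congr fun x => ?_
  simp only [ApGain_D]
  rw [lintegral_const_mul' _ _ ENNReal.ofReal_ne_top]
  rfl

theorem ApGain_pt {n : ℕ} {f0 : Om → ℝ} {f : ℝ → Om → ℝ} (h : TrSol n f0 f) {t : ℝ}
    (ht : 0 ≤ t) (z : Om) {K : ℝ} (hK : 1 < K) :
    ENNReal.ofReal (qn n (f t) z) ≤ ENNReal.ofReal (K * (f t z * ln n (f t) z)) +
      ApGain_D n (f t) z / ENNReal.ofReal (Real.log K) := by
  have h1 := Qp_le_diss (isKer_kN n) (g := fun v => f t (z.1, v))
    ((h.meas_t t).comp measurable_prodMk_left) (fun v => h.nonneg _ _) hK z.2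
  rw [h.ofReal_qn' ht, ENNReal.ofReal_mul (by linarith), ENNReal.ofReal_mul (h.nonneg _ _),
    h.ofReal_ln' ht, ApGain_D]
  refine (mul_le_mul_right h1 _).trans (le_of_eq ?_)
  rw [mul_add, mul_div_assoc]
  congr 1
  change _ * (_ * (ENNReal.ofReal (f t z) * Lo (kN n) (eo (f t) z.1) z.2)) = _
  ring

namespace Appr

variable {F0 : Om → ℝ} {n : ℕ → ℕ} {f0 : ℕ → Om → ℝ} {f : ℕ → ℝ → Om → ℝ} (A : Appr F0 n f0 f)
include A

/- PLAN gain_ui: Qp_le_diss at (t,x) with K' large: qn ≤ K' f ln + kap D̃ / log K', f/(1+δ f) ≤ 1/δ, ln_le_rho1,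
∫ kap D̃ = 4 dissN (diss_bdd). -/

theorem ln_le_rho1 (i : ℕ) {t : ℝ} (ht : 0 ≤ t) (z : Om) :
    ln (n i) (f i t) z ≤ 13 * (1 + ‖z.2‖) * rho1 (f i t) z.1 := by
  have h := A.sol i
  have h1 := Lo_le_rho1 (isKer_kN (n i)) (h.meas_t t) (h.nonneg t) z.1
    (ApGain_slice h ht z.1) z.2
  have h2 : 0 ≤ 13 * (1 + ‖z.2‖) * rho1 (f i t) z.1 :=
    mul_nonneg (by positivity) (rho1_nonneg (h.nonneg t) _)
  rw [← ENNReal.ofReal_le_ofReal_iff h2, h.ofReal_ln' ht]
  refine le_trans (mul_le_of_le_one_left' ?_) h1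
  exact ENNReal.ofReal_le_one.2 (kap_le_one _ (h.nonneg t) _)

/-- the renormalised gain term is controlled by the density and the entropy dissipation -/
theorem gain_ui (T : ℝ) (R : ℕ) {δ ε : ℝ} (hδ : 0 < δ) (hε : 0 < ε) : ∃ K : ℝ, 0 ≤ K ∧ ∀ i,
    ∀ ψ : ℝ × Om → ℝ, Measurable ψ → (∀ p, 0 ≤ ψ p ∧ ψ p ≤ 1) →
      ∫ p in EBT R, qn (n i) (f i p.1) p.2 / (1 + δ * f i p.1 p.2) * ψ p ∂(mT T) ≤
        K * (∫ p in EBT R, rho1 (f i p.1) p.2.1 * ψ p ∂(mT T)) + ε := by
  obtain ⟨C, hC, hD⟩ := A.diss_bdd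
  set L : ℝ := 4 * C.toReal / ε + 1 with hL
  have hL0 : 0 < L := by positivity
  have hK : 1 < Real.exp L := Real.one_lt_exp_iff.2 hL0
  refine ⟨Real.exp L * (13 * (1 + R)) / δ, by positivity, fun i ψ hψ hψ1 => ?_⟩
  have h := A.sol i
  have hD' : ∫⁻ s in Ioc 0 T, dissN (n i) (f i s) ≤ C := by
    rcases le_total 0 T with hT | hT
    · exact hD i T hT
    · simp [Ioc_eq_empty (not_lt.2 hT)]
  have hf : Measurable fun p : ℝ × Om => f i p.1 p.2 := h.meas
  have hg : Measurable (Function.uncurry fun p : ℝ × Om => f i p.1) :=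
    h.meas.comp ((measurable_fst.comp measurable_fst).prodMk measurable_snd)
  have hq : Measurable fun p : ℝ × Om => qn (n i) (f i p.1) p.2 :=
    measurable_qn (n i) hg measurable_snd
  have hr : Measurable fun p : ℝ × Om => rho1 (f i p.1) p.2.1 :=
    measurable_rho1 hg (measurable_fst.comp measurable_snd)
  have hr0 : ∀ p : ℝ × Om, 0 ≤ rho1 (f i p.1) p.2.1 * ψ p := fun p =>
    mul_nonneg (rho1_nonneg (h.nonneg _) _) (hψ1 p).1
  have hri : IntegrableOn (fun p : ℝ × Om => rho1 (f i p.1) p.2.1 * ψ p) (EBT R) (mT T) := by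
    refine (ApGain_rho1 h T R).mono' (hr.mul hψ).aestronglyMeasurable
      (Eventually.of_forall fun p => ?_)
    rw [Real.norm_eq_abs, abs_of_nonneg (hr0 p)]
    exact mul_le_of_le_one_right (rho1_nonneg (h.nonneg _) _) (hψ1 p).2
  have hI0 : 0 ≤ ∫ p in EBT R, rho1 (f i p.1) p.2.1 * ψ p ∂(mT T) := integral_nonneg hr0
  rw [integral_eq_lintegral_of_nonneg_ae (Eventually.of_forall fun p =>
      mul_nonneg (div_nonneg (qn_nonneg _ (h.nonneg _) _)
        (add_nonneg zero_le_one (mul_nonneg hδ.le (h.nonneg _ _)))) (hψ1 p).1)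
    ((hq.div (measurable_const.add (measurable_const.mul hf))).mul hψ).aestronglyMeasurable]
  refine ENNReal.toReal_le_of_le_ofReal (by positivity) ?_
  have hpt : ∀ᵐ p ∂((mT T).restrict (EBT R)),
      ENNReal.ofReal (qn (n i) (f i p.1) p.2 / (1 + δ * f i p.1 p.2) * ψ p) ≤
        ENNReal.ofReal (Real.exp L * (13 * (1 + R)) / δ * (rho1 (f i p.1) p.2.1 * ψ p)) +
          ApGain_D (n i) (f i p.1) p.2 / ENNReal.ofReal L := by
    filter_upwards [ae_restrict_mem (measurableSet_EBT R), ae_restrict_of_ae (ae_mT_mem T)]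
      with p hp ht
    have h1 := ApGain_pt h ht.1.le p.2 hK
    rw [Real.log_exp] at h1
    have h2 := A.ln_le_rho1 i ht.1.le p.2
    have hf0 := h.nonneg p.1 p.2
    have hl0 := ln_nonneg (n i) (h.nonneg p.1) p.2
    have hρ := rho1_nonneg (h.nonneg p.1) p.2.1
    have hd : 0 < 1 + δ * f i p.1 p.2 := by positivity
    have hc0 : 0 ≤ ψ p / (1 + δ * f i p.1 p.2) := div_nonneg (hψ1 p).1 hd.le
    have hc1 : ψ p / (1 + δ * f i p.1 p.2) ≤ 1 := by
      rw [div_le_one hd]
      nlinarith [(hψ1 p).2, mul_nonneg hδ.le hf0]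
    rw [div_mul_eq_mul_div, mul_div_assoc, ENNReal.ofReal_mul' hc0]
    refine (mul_le_mul_left h1 _).trans ?_
    rw [add_mul, ← ENNReal.ofReal_mul' hc0]
    refine add_le_add (ENNReal.ofReal_le_ofReal ?_)
      (mul_le_of_le_one_right' (ENNReal.ofReal_le_one.2 hc1))
    have h3 : ln (n i) (f i p.1) p.2 ≤ 13 * (1 + R) * rho1 (f i p.1) p.2.1 := by
      refine h2.trans ?_
      have : ‖p.2.2‖ ≤ R := hp
      gcongr
    have h4 : f i p.1 p.2 / (1 + δ * f i p.1 p.2) ≤ 1 / δ := by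
      rw [div_le_div_iff₀ hd hδ]
      nlinarith
    have hψ0 := (hψ1 p).1
    calc Real.exp L * (f i p.1 p.2 * ln (n i) (f i p.1) p.2) * (ψ p / (1 + δ * f i p.1 p.2))
        = Real.exp L * (f i p.1 p.2 / (1 + δ * f i p.1 p.2)) * ln (n i) (f i p.1) p.2 * ψ p := by
          ring
      _ ≤ Real.exp L * (1 / δ) * (13 * (1 + R) * rho1 (f i p.1) p.2.1) * ψ p := by gcongr
      _ = _ := by ring
  refine (lintegral_mono_ae hpt).trans ?_
  rw [lintegral_add_left (by fun_prop), ← ofReal_integral_eq_lintegral_ofReal (hri.const_mul _)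
    (Eventually.of_forall fun p => mul_nonneg (by positivity) (hr0 p)), integral_const_mul,
    ENNReal.ofReal_add (by positivity) hε.le]
  gcongr
  have hm := ApGain_meas (n i) h.meas
  simp only [div_eq_mul_inv]
  rw [lintegral_mul_const _ hm]
  have h5 : ∫⁻ p in EBT R, ApGain_D (n i) (f i p.1) p.2 ∂(mT T) ≤ 4 * C := by
    refine (setLIntegral_le_lintegral _ _).trans ?_
    rw [lintegral_mT T hm]
    simp only [fun t => ApGain_int (n i) (h.meas_t t)]
    rw [lintegral_const_mul _ (measurable_dissN _ h.meas)]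
    gcongr
  refine (mul_le_mul_left h5 _).trans ?_
  rw [← div_eq_mul_inv, ENNReal.div_le_iff (by simpa using hL0) ENNReal.ofReal_ne_top,
    ← ENNReal.ofReal_mul hε.le, ← ENNReal.ofReal_toReal hC.ne, ← ENNReal.ofReal_ofNat 4,
    ← ENNReal.ofReal_mul (by norm_num)]
  refine ENNReal.ofReal_le_ofReal ?_
  rw [hL, mul_add, mul_div_cancel₀ _ hε.ne']
  linarith

theorem integrable_qn (i : ℕ) (T : ℝ) :
    Integrable (fun p : ℝ × Om => qn (n i) (f i p.1) p.2) (mT T) := by
  have h := A.sol i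
  obtain ⟨C, hC⟩ := h.qn_bdd T
  have hg : Measurable (Function.uncurry fun p : ℝ × Om => f i p.1) :=
    h.meas.comp ((measurable_fst.comp measurable_fst).prodMk measurable_snd)
  have h1 : Integrable (fun p : ℝ × Om => C * ((1 + ‖p.2.2‖) ^ 0 * G0 p.2.2)) (mT T) :=
    ((integrable_G0_Om 0).comp_snd _).const_mul C
  refine h1.mono' (measurable_qn (n i) hg measurable_snd).aestronglyMeasurable ?_
  filter_upwards [ae_mT_mem T] with p hp
  rw [Real.norm_eq_abs, abs_of_nonneg (qn_nonneg _ (h.nonneg _) _), pow_zero, one_mul]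
  exact hC p.1 ⟨hp.1.le, hp.2⟩ p.2

theorem integrableOn_rho1 (i : ℕ) (T : ℝ) (R : ℕ) :
    IntegrableOn (fun p : ℝ × Om => rho1 (f i p.1) p.2.1) (EBT R) (mT T) := by
  exact ApGain_rho1 (A.sol i) T R

end Appr

end Vale.Agent.P140
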