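import Vale.Agent.P140.ApGain

/-! Uniform integrability of an approximating sequence; existence of weak limits. -/

namespace Vale.Agent.P140

open MeasureTheory Set Filter Topology
open scoped ENNReal

theorem one_le_ApUI (v : V) : 1 ≤ 1 + ‖v‖ := le_add_of_nonneg_right (norm_nonneg v)

theorem pos_ApUI (v : V) : 0 < 1 + ‖v‖ := by positivity

theorem intOn_ApUI {α : Type*} [MeasurableSpace α] {μ : Measure α} {s : Set α} (hs : μ s < ⊤)
    {ψ : α → ℝ} (hψ : Measurable ψ) (h : ∀ a, 0 ≤ ψ a ∧ ψ a ≤ 1) : IntegrableOn ψ s μ :=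
  Measure.integrableOn_of_bounded (M := 1) hs.ne hψ.aestronglyMeasurable
    (Eventually.of_forall fun a => WL_bd01 h a)

theorem tail_ApUI {α : Type*} [MeasurableSpace α] {μ : Measure α} {E : ℕ → Set α}
    {u : ℕ → α → ℝ} (h : Fam μ E u) {ε : ℝ} (hε : 0 < ε) :
    ∃ M : ℝ, 0 ≤ M ∧ ∀ i, ∫ a in {a | M < u i a}, u i a ∂μ ≤ ε := by
  obtain ⟨K, R, hK, H⟩ := h.uit (ε / 2) (by positivity)
  obtain ⟨B, hB⟩ := h.bdd
  have hB0 : 0 ≤ B := (integral_nonneg (h.nonneg 0)).trans (hB 0)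
  obtain ⟨M, hM, hM2⟩ : ∃ M : ℝ, 0 < M ∧ K * (B / M) ≤ ε / 2 := by
    refine ⟨2 * K * B / ε + 1, by positivity, ?_⟩
    rw [← mul_div_assoc, div_le_iff₀ (by positivity)]
    have e : ε / 2 * (2 * K * B / ε + 1) = K * B + ε / 2 := by field_simp
    linarith
  refine ⟨M, hM.le, fun i => ?_⟩
  have hS : MeasurableSet {a | M < u i a} := measurableSet_lt measurable_const (h.meas i)
  have hψ : Measurable ({a | M < u i a}.indicator fun _ => (1 : ℝ)) :=
    measurable_const.indicator hS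
  have h01 : ∀ a, 0 ≤ {a | M < u i a}.indicator (fun _ => (1 : ℝ)) a ∧
      {a | M < u i a}.indicator (fun _ => (1 : ℝ)) a ≤ 1 := fun a => by
    unfold indicator
    split_ifs <;> norm_num
  have k := H i _ hψ h01
  have e : ∫ a in {a | M < u i a}, u i a ∂μ =
      ∫ a, u i a * {a | M < u i a}.indicator (fun _ => (1 : ℝ)) a ∂μ := by
    rw [← integral_indicator hS]
    congr 1
    funext a
    unfold indicator
    split_ifs <;> simp
  have k2 : ∫ a in E R, {a | M < u i a}.indicator (fun _ => (1 : ℝ)) a ∂μ ≤ B / M := by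
    calc _ ≤ ∫ a in E R, u i a / M ∂μ := by
          refine integral_mono (intOn_ApUI (h.finE R) hψ h01)
            ((h.int i).div_const M).integrableOn fun a => ?_
          unfold indicator
          split_ifs with ha
          · exact (one_le_div hM).2 (le_of_lt ha)
          · exact div_nonneg (h.nonneg i a) hM.le
      _ ≤ ∫ a, u i a / M ∂μ := setIntegral_le_integral ((h.int i).div_const M)
          (Eventually.of_forall fun a => div_nonneg (h.nonneg i a) hM.le)
      _ ≤ B / M := by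
          rw [integral_div]
          exact div_le_div_of_nonneg_right (hB i) hM.le
  rw [e]
  linarith [mul_le_mul_of_nonneg_left k2 hK]

theorem restrict_ApUI {α : Type*} [MeasurableSpace α] {μ : Measure α} {U : Filter ℕ}
    {u : ℕ → α → ℝ} {v : α → ℝ} (h : WConv U μ u v) {s : Set α} (hs : MeasurableSet s) :
    WConv U (μ.restrict s) u v := by
  rintro ψ hψ ⟨C, hC⟩
  have e : ∀ g : α → ℝ, ∫ a in s, g a * ψ a ∂μ = ∫ a, g a * s.indicator ψ a ∂μ := fun g => by
    rw [← integral_indicator hs]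
    congr 1
    funext a
    unfold indicator
    split_ifs <;> simp
  simp only [e]
  refine h _ (hψ.indicator hs) ⟨|C|, fun a => ?_⟩
  unfold indicator
  split_ifs
  · exact (hC a).trans (le_abs_self C)
  · simp

theorem measLe_ApUI (T : ℝ) : MeasurableSet {p : ℝ × Om | p.1 ≤ T} :=
  measurableSet_le measurable_fst measurable_const

theorem mT_restrict_ApUI {T N : ℝ} (h : T ≤ N) : (mT N).restrict {p | p.1 ≤ T} = mT T := by
  have e : {p : ℝ × Om | p.1 ≤ T} = Iic T ×ˢ univ := by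
    ext p
    simp
  have e2 : Iic T ∩ Ioc 0 N = Ioc 0 T := by
    ext t
    simp only [mem_inter_iff, mem_Iic, mem_Ioc]
    exact ⟨fun k => ⟨k.2.1, k.1⟩, fun k => ⟨k.2, k.1, k.2.trans h⟩⟩
  rw [e, mT, ← Measure.prod_restrict, Measure.restrict_univ,
    Measure.restrict_restrict measurableSet_Iic, e2, mT]

theorem unw_ApUI {α : Type*} [MeasurableSpace α] {μ : Measure α} {U : Filter ℕ}
    {u : ℕ → α → ℝ} {v : α → ℝ} {w : α → V} (hw : Measurable w)
    (h : WConv U μ (fun i a => (1 + ‖w a‖) * u i a) (fun a => (1 + ‖w a‖) * v a)) :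
    WConv U μ u v := by
  have k := h.mul (φ := fun a => (1 + ‖w a‖)⁻¹) (by fun_prop) ⟨1, fun a => by
    rw [abs_of_pos (inv_pos.2 (pos_ApUI _))]
    exact inv_le_one_of_one_le₀ (one_le_ApUI _)⟩
  have e : ∀ (x : ℝ) (a : α), (1 + ‖w a‖) * x * (1 + ‖w a‖)⁻¹ = x := fun x a => by
    have := (pos_ApUI (w a)).ne'
    field_simp
  simpa only [e] using k

theorem unw_int_ApUI {α : Type*} [MeasurableSpace α] {μ : Measure α} {v : α → ℝ} {w : α → V}
    {j : ℕ} (hv : Measurable v) (h0 : ∀ a, 0 ≤ v a)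
    (h : Integrable (fun a => (1 + ‖w a‖) ^ j * v a) μ) : Integrable v μ := by
  refine h.mono' hv.aestronglyMeasurable (Eventually.of_forall fun a => ?_)
  rw [Real.norm_of_nonneg (h0 a)]
  exact le_mul_of_one_le_left (h0 a) (one_le_pow₀ (one_le_ApUI _))

namespace Appr

variable {F0 : Om → ℝ} {n : ℕ → ℕ} {f0 : ℕ → Om → ℝ} {f : ℕ → ℝ → Om → ℝ} (A : Appr F0 n f0 f)
include A

theorem int1_ApUI (i : ℕ) {t : ℝ} (ht : 0 ≤ t) :
    Integrable (fun z : Om => (1 + ‖z.2‖) * f i t z) := by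
  simpa using (A.sol i).integrable_moment 1 ht

theorem ui0 {ε : ℝ} (hε : 0 < ε) : ∃ (K : ℝ) (R : ℕ), 0 ≤ K ∧ ∀ i t, 0 ≤ t →
    ∀ ψ : Om → ℝ, Measurable ψ → (∀ z, 0 ≤ ψ z ∧ ψ z ≤ 1) →
      ∫ z, (1 + ‖z.2‖) * f i t z * ψ z ≤ K * (∫ z in EB R, ψ z) + ε := by
  obtain ⟨K, R, hK, H⟩ := A.tail hε
  refine ⟨(1 + R) * K, R, by positivity, fun i t ht ψ hψ h01 => ?_⟩
  have hm := (A.sol i).meas_t t
  have hS : MeasurableSet {z : Om | K < f i t z ∨ (R : ℝ) < ‖z.2‖} :=
    (measurableSet_lt measurable_const hm).union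
      (measurableSet_lt measurable_const measurable_snd.norm)
  have hi := A.int1_ApUI i ht
  have h1 := (integrable_indicator_iff (measurableSet_EB R)).2
    (intOn_ApUI (volume_EB_lt_top R) hψ h01)
  have h2 := hi.indicator hS
  refine le_trans ?_ (add_le_add le_rfl (H i t ht))
  rw [← integral_indicator (measurableSet_EB R), ← integral_indicator hS, ← integral_const_mul,
    ← integral_add (h1.const_mul _) h2]
  refine integral_mono (WL_int_mul hi hψ (WL_bd01 h01)) ((h1.const_mul _).add h2) fun z => ?_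
  have f0 := (A.sol i).nonneg t z
  have w0 : 0 ≤ (1 + ‖z.2‖) * f i t z := by positivity
  have p0 : 0 ≤ (EB R).indicator ψ z := indicator_nonneg (fun a _ => (h01 a).1) z
  by_cases hz : z ∈ {z : Om | K < f i t z ∨ (R : ℝ) < ‖z.2‖}
  · have := mul_le_of_le_one_right w0 (h01 z).2
    have k : 0 ≤ (1 + R) * K * (EB R).indicator ψ z := by positivity
    simp only [indicator_of_mem hz]
    linarith
  · have k := not_or.1 hz
    have hE : z ∈ EB R := not_lt.1 k.2
    simp only [indicator_of_notMem hz, indicator_of_mem hE, add_zero]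
    exact mul_le_mul_of_nonneg_right
      (mul_le_mul (add_le_add le_rfl (not_lt.1 k.2)) (not_lt.1 k.1) f0 (by positivity)) (h01 z).1

theorem fam_t {t : ℝ} (ht : 0 ≤ t) :
    Fam volume EB (fun i z => (1 + ‖z.2‖) * f i t (sh t z)) := by
  have h : Fam volume EB (fun i z => (1 + ‖z.2‖) * f i t z) :=
    ⟨measurableSet_EB, volume_EB_lt_top,
      fun i => Measurable.mul (by fun_prop) ((A.sol i).meas_t t),
      fun i z => mul_nonneg (pos_ApUI _).le ((A.sol i).nonneg t z), fun i => A.int1_ApUI i ht,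
      fun ε hε => by
        obtain ⟨K, R, hK, H⟩ := A.ui0 hε
        exact ⟨K, R, hK, fun i => H i t ht⟩⟩
  exact h.comp (e' := sh (-t)) (measurePreserving_sh t) (by fun_prop)
    (fun z => by rw [sh_sh, neg_add_cancel, sh_zero]) (fun z => by rw [sh_sh, add_neg_cancel, sh_zero])

theorem fam_0 : Fam volume EB f0 := by
  refine (A.fam_t le_rfl).of_le (C := 1) (fun i => (A.sol i).meas0) A.f0_nonneg fun i z => ?_
  rw [one_mul, sh_zero, (A.sol i).zero]
  exact le_mul_of_one_le_left (A.f0_nonneg i z) (one_le_ApUI _)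

theorem wconv_0 : WConv atTop volume f0 F0 := by
  rintro ψ hψ ⟨C, hC⟩
  have h1 : Integrable F0 := unw_int_ApUI A.dat.meas A.dat.nonneg A.dat.integrable_moment
  have h2 : Integrable (fun z : Om => G0 z.2) := by simpa using integrable_G0_Om 0
  refine tendsto_integral_of_dominated_convergence (fun z => (F0 z + G0 z.2) * C)
    (fun i => ((A.sol i).meas0.mul hψ).aestronglyMeasurable) ((h1.add h2).mul_const C)
    (fun i => Eventually.of_forall fun z => ?_)
    (Eventually.of_forall fun z => (A.lim z).mul_const _)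
  rw [Real.norm_eq_abs, abs_mul, abs_of_nonneg (A.f0_nonneg i z)]
  exact mul_le_mul (A.le i z) (hC z) (abs_nonneg _) ((A.f0_nonneg i z).trans (A.le i z))

theorem integrable_mT (j : ℕ) (i : ℕ) (T : ℝ) :
    Integrable (fun p : ℝ × Om => (1 + ‖p.2.2‖) ^ j * f i p.1 p.2) (mT T) := by
  obtain ⟨C, hC⟩ := (A.sol i).ub T
  have h1 : Integrable (fun p : ℝ × Om => C * ((1 + ‖p.2.2‖) ^ j * G0 p.2.2)) (mT T) :=
    ((integrable_G0_Om j).comp_snd ((volume : Measure ℝ).restrict (Ioc 0 T))).const_mul C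
  refine h1.mono' (Measurable.mul (by fun_prop) (A.sol i).meas).aestronglyMeasurable ?_
  filter_upwards [ae_mT_mem T] with p hp
  have w0 : 0 ≤ (1 + ‖p.2.2‖) ^ j := by positivity
  rw [Real.norm_of_nonneg (mul_nonneg w0 ((A.sol i).nonneg _ _))]
  have := mul_le_mul_of_nonneg_left (hC p.1 (Ioc_subset_Icc_self hp) p.2) w0
  linarith

theorem fam_T (T : ℝ) : Fam (mT T) EBT (fun i p => (1 + ‖p.2.2‖) * f i p.1 p.2) := by
  have hi : ∀ i, Integrable (fun p : ℝ × Om => (1 + ‖p.2.2‖) * f i p.1 p.2) (mT T) := fun i => by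
    simpa using A.integrable_mT 1 i T
  refine ⟨measurableSet_EBT, mT_EBT_lt_top T, fun i => Measurable.mul (by fun_prop) (A.sol i).meas,
    fun i p => mul_nonneg (pos_ApUI _).le ((A.sol i).nonneg _ _), hi, fun ε hε => ?_⟩
  obtain ⟨K, R, hK, H⟩ := A.ui0 (ε := ε / (|T| + 1)) (by positivity)
  refine ⟨K, R, hK, fun i ψ hψ h01 => ?_⟩
  have h1 := WL_int_mul (hi i) hψ (WL_bd01 h01)
  have h2 := (integrable_indicator_iff (measurableSet_EBT R)).2
    (intOn_ApUI (mT_EBT_lt_top T R) hψ h01)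
  have e : ∀ t, ∫ z, (EBT R).indicator ψ (t, z) = ∫ z in EB R, ψ (t, z) := fun t =>
    integral_indicator (f := fun z => ψ (t, z)) (measurableSet_EB R)
  have h3 : IntegrableOn (fun t => ∫ z, (EBT R).indicator ψ (t, z)) (Ioc 0 T) :=
    Integrable.integral_prod_left h2
  have h4 : IntegrableOn (fun _ : ℝ => ε / (|T| + 1)) (Ioc 0 T) := integrableOn_const (by simp)
  have h5 : ∫ _ in Ioc 0 T, ε / (|T| + 1) ≤ ε := by
    rw [setIntegral_const, Real.volume_real_Ioc, sub_zero, smul_eq_mul, ← mul_div_assoc,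
      div_le_iff₀ (by positivity)]
    have : max T 0 ≤ |T| + 1 := max_le (by linarith [le_abs_self T]) (by positivity)
    nlinarith
  rw [integral_mT T h1, ← integral_indicator (measurableSet_EBT R), integral_mT T h2]
  refine le_trans ?_ (add_le_add le_rfl h5)
  rw [← integral_const_mul, ← integral_add (h3.const_mul K) h4]
  refine setIntegral_mono_on (Integrable.integral_prod_left h1) ((h3.const_mul K).add h4)
    measurableSet_Ioc fun t ht => ?_
  rw [e]
  exact H i t ht.1.le (fun z => ψ (t, z)) (hψ.comp measurable_prodMk_left) fun z => h01 _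

theorem fam_rho1 (T : ℝ) :
    Fam (mY T) (fun _ => univ) (fun i y => rho1 (f i y.1) y.2) := by
  have F := A.fam_T T
  refine ⟨fun _ => MeasurableSet.univ, fun _ => measure_lt_top _ _,
    fun i => measurable_rho1 (g := fun y : ℝ × X => f i y.1)
      ((A.sol i).meas.comp (measurable_fst.fst.prodMk measurable_snd)) measurable_snd,
    fun i y => rho1_nonneg ((A.sol i).nonneg _) _, fun i => (integrable_mT_Y T (F.int i)).1,
    fun ε hε => ?_⟩
  obtain ⟨K, R, hK, H⟩ := F.uit ε hε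
  refine ⟨K * (volume : Measure V).real (Metric.closedBall 0 R), R, by positivity,
    fun i ψ hψ h01 => ?_⟩
  have hψ' : Measurable (fun p : ℝ × Om => ψ (p.1, p.2.1)) :=
    hψ.comp (measurable_fst.prodMk measurable_snd.fst)
  have k := H i (fun p => ψ (p.1, p.2.1)) hψ' fun p => h01 _
  have h1 := WL_int_mul (F.int i) hψ' fun p => WL_bd01 h01 _
  have h2 := (integrable_indicator_iff (measurableSet_EBT R)).2
    (intOn_ApUI (mT_EBT_lt_top T R) hψ' fun p => h01 _)
  rw [integral_mT_Y T h1, ← integral_indicator (measurableSet_EBT R), integral_mT_Y T h2] at k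
  have e : ∀ y : ℝ × X, ∫ v, (EBT R).indicator (fun p : ℝ × Om => ψ (p.1, p.2.1)) (y.1, (y.2, v)) =
      (volume : Measure V).real (Metric.closedBall 0 R) * ψ y := fun y => by
    rw [← smul_eq_mul, ← setIntegral_const, ← integral_indicator measurableSet_closedBall]
    congr 1
    funext v
    by_cases hv : ‖v‖ ≤ R
    · rw [indicator_of_mem (show (y.1, (y.2, v)) ∈ EBT R from hv),
        indicator_of_mem (mem_closedBall_zero_iff.2 hv)]
    · rw [indicator_of_notMem (show (y.1, (y.2, v)) ∉ EBT R from hv),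
        indicator_of_notMem fun k => hv (mem_closedBall_zero_iff.1 k)]
  simp only [e, integral_mul_const, integral_const_mul] at k
  rw [Measure.restrict_univ, mul_assoc]
  exact k

theorem rho1_tail (T : ℝ) {ε : ℝ} (hε : 0 < ε) : ∃ M : ℝ, 0 ≤ M ∧ ∀ i,
    ∫ y in {y : ℝ × X | M < rho1 (f i y.1) y.2}, rho1 (f i y.1) y.2 ∂(mY T) ≤ ε := by
  exact tail_ApUI (A.fam_rho1 T) hε

theorem small_beta {ε : ℝ} (hε : 0 < ε) : ∃ δ0 : ℝ, 0 < δ0 ∧ ∀ δ, 0 < δ → δ ≤ δ0 →
    ∀ i t, 0 ≤ t → ∫ z, f i t z * min 1 (δ * f i t z) ≤ ε := by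
  obtain ⟨K, R, hK, H⟩ := A.ui0 (ε := ε / 2) (by positivity)
  obtain ⟨B, hB0, hB⟩ := A.mom_bdd
  refine ⟨ε / (2 * (K * B + 1)), by positivity, fun δ hδ hδ0 i t ht => ?_⟩
  have hm := (A.sol i).meas_t t
  have h0 := (A.sol i).nonneg t
  have hψ : Measurable (fun z => min 1 (δ * f i t z)) := measurable_const.min (hm.const_mul δ)
  have h01 : ∀ z, 0 ≤ min 1 (δ * f i t z) ∧ min 1 (δ * f i t z) ≤ 1 := fun z =>
    ⟨le_min zero_le_one (mul_nonneg hδ.le (h0 z)), min_le_left _ _⟩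
  have k := H i t ht _ hψ h01
  have hi := (A.sol i).integrable_t ht
  have hi2 := (A.sol i).integrable_moment 2 ht
  have k1 : ∫ z, f i t z * min 1 (δ * f i t z) ≤
      ∫ z : Om, (1 + ‖z.2‖) * f i t z * min 1 (δ * f i t z) :=
    integral_mono (WL_int_mul hi hψ (WL_bd01 h01))
      (WL_int_mul (A.int1_ApUI i ht) hψ (WL_bd01 h01)) fun z =>
        mul_le_mul_of_nonneg_right (le_mul_of_one_le_left (h0 z) (one_le_ApUI _)) (h01 z).1
  have k2 : ∫ z in EB R, min 1 (δ * f i t z) ≤ δ * B := by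
    calc _ ≤ ∫ z in EB R, δ * ((1 + ‖z.2‖) ^ 2 * f i t z) :=
          integral_mono (intOn_ApUI (volume_EB_lt_top R) hψ h01) (hi2.const_mul δ).integrableOn
            fun z => (min_le_right _ _).trans (mul_le_mul_of_nonneg_left
              (le_mul_of_one_le_left (h0 z) (one_le_pow₀ (one_le_ApUI _))) hδ.le)
      _ ≤ ∫ z : Om, δ * ((1 + ‖z.2‖) ^ 2 * f i t z) := setIntegral_le_integral (hi2.const_mul δ)
          (Eventually.of_forall fun z => mul_nonneg hδ.le (mul_nonneg (by positivity) (h0 z)))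
      _ ≤ δ * B := by
          rw [integral_const_mul]
          exact mul_le_mul_of_nonneg_left (hB i t ht) hδ.le
  rw [le_div_iff₀ (by positivity)] at hδ0
  have k3 := mul_le_mul_of_nonneg_left k2 hK
  linarith

theorem exists_lim (U : Ultrafilter ℕ) (hU : (U : Filter ℕ) ≤ atTop) : ∃ ft, IsLim U f ft := by
  choose v vm v0 vi vc using fun N : ℕ => (A.fam_T N).exists_wlim U
  have uniq : ∀ k N : ℕ, k ≤ N → v k =ᵐ[mT k] v N := by
    intro k N hk
    have e := mT_restrict_ApUI (T := k) (N := N) (Nat.cast_le.2 hk)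
    have c := restrict_ApUI (vc N) (measLe_ApUI k)
    have i2 := (vi N).restrict (s := {p | p.1 ≤ (k : ℝ)})
    rw [e] at c i2
    have hi := (A.fam_T k).int
    exact EventuallyLE.antisymm
      ((vc k).ae_le c hi hi (vm k) (vm N) (vi k) i2 fun _ => EventuallyLE.rfl)
      (c.ae_le (vc k) hi hi (vm N) (vm k) i2 (vi k) fun _ => EventuallyLE.rfl)
  have key : ∀ N : ℕ, v N =ᵐ[mT N] fun p => v ⌈p.1⌉₊ p := by
    intro N
    have h1 : ∀ᵐ p ∂(mT N), ∀ k : ℕ, k ≤ N → p.1 ≤ (k : ℝ) → v k p = v N p := by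
      refine ae_all_iff.2 fun k => ?_
      by_cases hk : k ≤ N
      · have h2 := uniq k N hk
        rw [← mT_restrict_ApUI (T := k) (N := N) (Nat.cast_le.2 hk), EventuallyEq,
          ae_restrict_iff' (measLe_ApUI k)] at h2
        filter_upwards [h2] with p hp _ hp2 using hp hp2
      · exact Eventually.of_forall fun p h => absurd h hk
    filter_upwards [h1, ae_mT_mem N] with p hp hm
    exact (hp _ (Nat.ceil_le.2 hm.2) (Nat.le_ceil _)).symm
  have hm : Measurable (fun p : ℝ × Om => v ⌈p.1⌉₊ p) :=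
    (measurable_from_prod_countable_left (f := fun q : (ℝ × Om) × ℕ => v q.2 q.1) vm).comp
      (measurable_id.prodMk measurable_fst.nat_ceil)
  have e : (fun p : ℝ × Om => (1 + ‖p.2.2‖) * (v ⌈p.1⌉₊ (p.1, p.2) / (1 + ‖p.2.2‖))) =
      fun p => v ⌈p.1⌉₊ p := funext fun p => mul_div_cancel₀ _ (pos_ApUI _).ne'
  have key2 : ∀ T : ℝ, v ⌈T⌉₊ =ᵐ[mT T] fun p => v ⌈p.1⌉₊ p := fun T => by
    rw [← mT_restrict_ApUI (Nat.le_ceil T)]
    exact ae_restrict_of_ae (key _)
  refine ⟨fun t z => v ⌈t⌉₊ (t, z) / (1 + ‖z.2‖), hU, hm.div (by fun_prop),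
    fun t z => div_nonneg (v0 _ _) (pos_ApUI _).le, fun T => ?_, fun T => ?_⟩
  · rw [e]
    refine Integrable.congr ?_ (key2 T)
    rw [← mT_restrict_ApUI (Nat.le_ceil T)]
    exact (vi _).restrict
  · rw [e]
    refine WConv.congr ?_ (key2 T)
    rw [← mT_restrict_ApUI (Nat.le_ceil T)]
    exact restrict_ApUI (vc _) (measLe_ApUI T)

theorem exists_limT (U : Ultrafilter ℕ) {t : ℝ} (ht : 0 ≤ t) : ∃ h, IsLimT U f t h := by
  obtain ⟨v, vm, v0, vi, vc⟩ := (A.fam_t ht).exists_wlim U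
  have e : (fun z : Om => (1 + ‖z.2‖) * (v z / (1 + ‖z.2‖))) = v :=
    funext fun z => mul_div_cancel₀ _ (pos_ApUI _).ne'
  refine ⟨fun z => v z / (1 + ‖z.2‖), vm.div (by fun_prop),
    fun z => div_nonneg (v0 _) (pos_ApUI _).le, ?_, ?_⟩
  · rwa [e]
  · rwa [e]

end Appr

theorem IsLim.conv0 {U : Ultrafilter ℕ} {f : ℕ → ℝ → Om → ℝ} {ft : ℝ → Om → ℝ}
    (L : IsLim U f ft) (T : ℝ) :
    WConv U (mT T) (fun i p => f i p.1 p.2) (fun p => ft p.1 p.2) := by
  exact unw_ApUI (w := fun p : ℝ × Om => p.2.2) measurable_snd.snd (L.conv T)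

theorem IsLim.int0 {U : Ultrafilter ℕ} {f : ℕ → ℝ → Om → ℝ} {ft : ℝ → Om → ℝ}
    (L : IsLim U f ft) (T : ℝ) : Integrable (fun p : ℝ × Om => ft p.1 p.2) (mT T) := by
  exact unw_int_ApUI (w := fun p : ℝ × Om => p.2.2) (j := 1) L.meas (fun p => L.nonneg _ _)
    (by simpa using L.int T)

theorem IsLim.conv_sh {U : Ultrafilter ℕ} {f : ℕ → ℝ → Om → ℝ} {ft : ℝ → Om → ℝ}
    (L : IsLim U f ft) (T : ℝ) :
    WConv U (mT T) (fun i p => f i p.1 (sh p.1 p.2)) (fun p => ft p.1 (sh p.1 p.2)) := by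
  exact (L.conv0 T).comp (e' := fun p : ℝ × Om => (p.1, sh (-p.1) p.2)) (measurePreserving_shT T)
    (by fun_prop) (fun p => by simp only [sh_sh, neg_add_cancel, sh_zero])
    (fun p => by simp only [sh_sh, add_neg_cancel, sh_zero])

theorem IsLimT.conv0 {U : Ultrafilter ℕ} {f : ℕ → ℝ → Om → ℝ} {t : ℝ} {h : Om → ℝ}
    (L : IsLimT U f t h) : WConv U volume (fun i z => f i t (sh t z)) h := by
  exact unw_ApUI (w := fun z : Om => z.2) measurable_snd L.conv

theorem IsLimT.int0 {U : Ultrafilter ℕ} {f : ℕ → ℝ → Om → ℝ} {t : ℝ} {h : Om → ℝ}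
    (L : IsLimT U f t h) : Integrable h := by
  exact unw_int_ApUI (w := fun z : Om => z.2) (j := 1) L.meas L.nonneg (by simpa using L.int)

end Vale.Agent.P140
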