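import Mathlib

/-! Weak limits in L¹ along an ultrafilter (Dunford-Pettis substitute). -/

namespace Vale.Agent.P140

open MeasureTheory Set Filter Topology
open scoped ENNReal

variable {α : Type*} [MeasurableSpace α]

/-- a nonnegative, uniformly integrable and tight family; `E R` is an exhaustion by sets of
finite measure -/
structure Fam (μ : Measure α) (E : ℕ → Set α) (u : ℕ → α → ℝ) : Prop where
  measE : ∀ R, MeasurableSet (E R)
  finE : ∀ R, μ (E R) < ⊤
  meas : ∀ i, Measurable (u i)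
  nonneg : ∀ i a, 0 ≤ u i a
  int : ∀ i, Integrable (u i) μ
  uit : ∀ ε : ℝ, 0 < ε → ∃ (K : ℝ) (R : ℕ), 0 ≤ K ∧ ∀ i, ∀ ψ : α → ℝ, Measurable ψ →
    (∀ a, 0 ≤ ψ a ∧ ψ a ≤ 1) → ∫ a, u i a * ψ a ∂μ ≤ K * (∫ a in E R, ψ a ∂μ) + ε

/-- weak `L¹` convergence along a filter -/
def WConv (U : Filter ℕ) (μ : Measure α) (u : ℕ → α → ℝ) (v : α → ℝ) : Prop :=
  ∀ ψ : α → ℝ, Measurable ψ → (∃ C, ∀ a, |ψ a| ≤ C) →
    Tendsto (fun i => ∫ a, u i a * ψ a ∂μ) U (𝓝 (∫ a, v a * ψ a ∂μ))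


theorem WL_int_mul {μ : Measure α} {u ψ : α → ℝ} (hu : Integrable u μ) (hψ : Measurable ψ) {C : ℝ}
    (hC : ∀ a, |ψ a| ≤ C) : Integrable (fun a => u a * ψ a) μ :=
  hu.mul_bdd hψ.aestronglyMeasurable (Eventually.of_forall hC)

omit [MeasurableSpace α] in
theorem WL_bd01 {ψ : α → ℝ} (h : ∀ a, 0 ≤ ψ a ∧ ψ a ≤ 1) (a : α) : |ψ a| ≤ 1 := by
  rw [abs_of_nonneg (h a).1]; exact (h a).2

theorem Fam.bdd {μ : Measure α} {E : ℕ → Set α} {u : ℕ → α → ℝ} (h : Fam μ E u) :
    ∃ C : ℝ, ∀ i, ∫ a, u i a ∂μ ≤ C := by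
  obtain ⟨K, R, -, hK⟩ := h.uit 1 one_pos
  refine ⟨K * (∫ _ in E R, (1 : ℝ) ∂μ) + 1, fun i => ?_⟩
  simpa using hK i (fun _ => 1) measurable_const (fun _ => ⟨zero_le_one, le_rfl⟩)

theorem Fam.of_le {μ : Measure α} {E : ℕ → Set α} {u w : ℕ → α → ℝ} (h : Fam μ E u) {C : ℝ}
    (hm : ∀ i, Measurable (w i)) (h0 : ∀ i a, 0 ≤ w i a) (hle : ∀ i a, w i a ≤ C * u i a) :
    Fam μ E w := by
  have hC : 0 < |C| + 1 := by positivity
  have hle' : ∀ i a, w i a ≤ (|C| + 1) * u i a := fun i a =>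
    (hle i a).trans (mul_le_mul_of_nonneg_right (by linarith [le_abs_self C]) (h.nonneg i a))
  have hint : ∀ i, Integrable (w i) μ := fun i =>
    ((h.int i).const_mul (|C| + 1)).mono' (hm i).aestronglyMeasurable
      (Eventually.of_forall fun a => by
        rw [Real.norm_eq_abs, abs_of_nonneg (h0 i a)]; exact hle' i a)
  refine ⟨h.measE, h.finE, hm, h0, hint, fun ε hε => ?_⟩
  obtain ⟨K, R, hK0, hK⟩ := h.uit (ε / (|C| + 1)) (by positivity)
  refine ⟨(|C| + 1) * K, R, by positivity, fun i ψ hψ hψ1 => ?_⟩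
  calc ∫ a, w i a * ψ a ∂μ ≤ ∫ a, (|C| + 1) * (u i a * ψ a) ∂μ := by
        refine integral_mono (WL_int_mul (hint i) hψ (WL_bd01 hψ1))
          ((WL_int_mul (h.int i) hψ (WL_bd01 hψ1)).const_mul _) fun a => ?_
        simp only
        rw [← mul_assoc]
        exact mul_le_mul_of_nonneg_right (hle' i a) (hψ1 a).1
    _ = (|C| + 1) * ∫ a, u i a * ψ a ∂μ := integral_const_mul _ _
    _ ≤ (|C| + 1) * (K * (∫ a in E R, ψ a ∂μ) + ε / (|C| + 1)) :=
        mul_le_mul_of_nonneg_left (hK i ψ hψ hψ1) hC.le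
    _ = (|C| + 1) * K * (∫ a in E R, ψ a ∂μ) + ε := by field_simp


theorem WL_simple_approx {ψ : α → ℝ} (hψ : Measurable ψ) {C : ℝ} (hC : ∀ a, |ψ a| ≤ C) {δ : ℝ}
    (hδ : 0 < δ) : ∃ s : SimpleFunc α ℝ, ∀ a, |ψ a - s a| ≤ δ := by
  have hm : Measurable fun a => δ * (⌊ψ a / δ⌋ : ℝ) := by
    have : Measurable fun a => ⌊ψ a / δ⌋ := (hψ.div_const δ).floor
    exact ((measurable_from_top (f := fun j : ℤ => (j : ℝ))).comp this).const_mul δ
  refine ⟨⟨fun a => δ * (⌊ψ a / δ⌋ : ℝ), fun x => hm (measurableSet_singleton x), ?_⟩, fun a => ?_⟩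
  · refine ((Set.finite_Icc ⌊-C / δ⌋ ⌊C / δ⌋).image fun j : ℤ => δ * (j : ℝ)).subset ?_
    rintro _ ⟨a, rfl⟩
    have := abs_le.mp (hC a)
    exact ⟨_, ⟨Int.floor_mono (div_le_div_of_nonneg_right this.1 hδ.le),
      Int.floor_mono (div_le_div_of_nonneg_right this.2 hδ.le)⟩, rfl⟩
  · change |ψ a - δ * (⌊ψ a / δ⌋ : ℝ)| ≤ δ
    have h1 := Int.floor_le (ψ a / δ)
    have h2 := Int.lt_floor_add_one (ψ a / δ)
    rw [le_div_iff₀ hδ] at h1
    rw [div_lt_iff₀ hδ] at h2
    rw [abs_le]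
    constructor <;> nlinarith

theorem WL_int_close (m : Measure α) [IsFiniteMeasure m] {ψ : α → ℝ} (hψ : Measurable ψ) {C : ℝ}
    (hC : ∀ a, |ψ a| ≤ C) (s : SimpleFunc α ℝ) {δ : ℝ} (hs : ∀ a, |ψ a - s a| ≤ δ) :
    |∫ a, ψ a ∂m - ∫ a, s a ∂m| ≤ δ * m.real univ := by
  have h1 : Integrable ψ m :=
    Integrable.of_bound hψ.aestronglyMeasurable C (Eventually.of_forall hC)
  rw [← integral_sub h1 s.integrable_of_isFiniteMeasure]
  exact norm_integral_le_of_norm_le_const (f := fun a => ψ a - s a) (Eventually.of_forall hs)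

theorem WL_setwise {U : Filter ℕ} (m : ℕ → Measure α) (ν : Measure α)
    [∀ i, IsFiniteMeasure (m i)] [IsFiniteMeasure ν] {B : ℝ} (hB : ∀ i, (m i).real univ ≤ B)
    (hset : ∀ A, MeasurableSet A → Tendsto (fun i => (m i).real A) U (𝓝 (ν.real A)))
    {ψ : α → ℝ} (hψ : Measurable ψ) {C : ℝ} (hC : ∀ a, |ψ a| ≤ C) :
    Tendsto (fun i => ∫ a, ψ a ∂(m i)) U (𝓝 (∫ a, ψ a ∂ν)) := by
  rw [Metric.tendsto_nhds]
  intro ε hε
  have hB0 : 0 ≤ B := measureReal_nonneg.trans (hB 0)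
  have hν : 0 ≤ ν.real univ := measureReal_nonneg
  set δ := ε / (2 * (B + ν.real univ + 1)) with hδ
  have hδ0 : 0 < δ := by positivity
  obtain ⟨s, hs⟩ := WL_simple_approx hψ hC hδ0
  have h1 : Tendsto (fun i => ∫ a, s a ∂(m i)) U (𝓝 (∫ a, s a ∂ν)) := by
    simp only [s.integral_eq_sum s.integrable_of_isFiniteMeasure]
    exact tendsto_finsetSum _ fun x _ => (hset _ (s.measurableSet_fiber x)).smul_const x
  filter_upwards [Metric.tendsto_nhds.mp h1 (ε / 2) (by positivity)] with i hi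
  rw [Real.dist_eq] at hi ⊢
  have h2 := WL_int_close (m i) hψ hC s hs
  have h3 := WL_int_close ν hψ hC s hs
  have h4 : δ * (m i).real univ ≤ δ * B := mul_le_mul_of_nonneg_left (hB i) hδ0.le
  have h5 : δ * (B + ν.real univ + 1) = ε / 2 := by rw [hδ]; field_simp
  rw [abs_le] at h2 h3
  rw [abs_lt] at hi ⊢
  constructor <;> nlinarith

theorem WL_dens_le {μ : Measure α} {E : ℕ → Set α} {u : ℕ → α → ℝ} (h : Fam μ E u) {ε : ℝ}
    (hε : 0 < ε) : ∃ (K : ℝ) (R : ℕ), ∀ i A, MeasurableSet A →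
      (μ.withDensity fun a => ENNReal.ofReal (u i a)) A ≤
        ENNReal.ofReal (K * μ.real (A ∩ E R) + ε) := by
  obtain ⟨K, R, -, hK⟩ := h.uit ε hε
  refine ⟨K, R, fun i A hA => ?_⟩
  rw [withDensity_apply _ hA, ← ofReal_integral_eq_lintegral_ofReal (h.int i).integrableOn
    (Eventually.of_forall (h.nonneg i))]
  refine ENNReal.ofReal_le_ofReal ?_
  have h1 := hK i (A.indicator 1) (measurable_one.indicator hA) (fun a => by
    by_cases ha : a ∈ A <;> simp [ha])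
  rw [integral_indicator_one hA, measureReal_restrict_apply hA] at h1
  refine le_trans (le_of_eq ?_) h1
  rw [← integral_indicator hA]
  congr 1
  funext a
  by_cases ha : a ∈ A <;> simp [ha]

theorem WL_exists_meas {μ : Measure α} {E : ℕ → Set α} {u : ℕ → α → ℝ} (h : Fam μ E u)
    (U : Ultrafilter ℕ) : ∃ ν : Measure α, ∀ A, MeasurableSet A →
      Tendsto (fun i => (μ.withDensity fun a => ENNReal.ofReal (u i a)) A) U (𝓝 (ν A)) := by
  set m : ℕ → Measure α := fun i => μ.withDensity fun a => ENNReal.ofReal (u i a) with hm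
  let L : Set α → ℝ≥0∞ := fun A => (U.map fun i => m i A).lim
  have hL : ∀ A, Tendsto (fun i => m i A) U (𝓝 (L A)) := fun A =>
    (U.map fun i => m i A).le_nhds_lim
  refine ⟨Measure.ofMeasurable (fun A _ => L A) ?_ ?_, fun A hA => ?_⟩
  · refine tendsto_nhds_unique (hL ∅) ?_
    simp
  · intro f hf hd
    let B : ℕ → Set α := fun N => (⋃ n, f n) \ ⋃ n ∈ Finset.range N, f n
    have hfin : ∀ N, MeasurableSet (⋃ n ∈ Finset.range N, f n) := fun N =>
      Finset.measurableSet_biUnion _ fun n _ => hf n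
    have hB : ∀ N, MeasurableSet (B N) := fun N => (MeasurableSet.iUnion hf).diff (hfin N)
    have h1 : ∀ N, L (⋃ n, f n) = ∑ n ∈ Finset.range N, L (f n) + L (B N) := by
      intro N
      refine tendsto_nhds_unique (hL _) ?_
      have e : ∀ i, m i (⋃ n, f n) = ∑ n ∈ Finset.range N, m i (f n) + m i (B N) := by
        intro i
        rw [← measure_biUnion_finset (fun a _ b _ hab => hd hab) (fun n _ => hf n),
          ← measure_union disjoint_sdiff_right (hB N), union_sdiff_cancel]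
        exact iUnion₂_subset fun n _ => subset_iUnion f n
      simp only [e]
      exact (tendsto_finsetSum _ fun n _ => hL _).add (hL _)
    have h2 : Tendsto (fun N => L (B N)) atTop (𝓝 0) := by
      rw [ENNReal.tendsto_nhds_zero]
      intro ε hε
      obtain ⟨δ, hδ0, hδ, hδε⟩ := ENNReal.lt_iff_exists_real_btwn.mp hε
      have hδ' : 0 < δ := by simpa using hδ
      obtain ⟨K, R, hK⟩ := WL_dens_le h (half_pos hδ')
      have h3 : Tendsto (μ ∘ fun N => B N ∩ E R) atTop (𝓝 (μ (⋂ N, B N ∩ E R))) := by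
        refine tendsto_measure_iInter_atTop
          (fun N => ((hB N).inter (h.measE R)).nullMeasurableSet) ?_
          ⟨0, ((measure_mono inter_subset_right).trans_lt (h.finE R)).ne⟩
        intro a b hab
        refine inter_subset_inter_left _ (sdiff_subset_sdiff_right ?_)
        exact biUnion_subset_biUnion_left (Finset.range_mono hab)
      have h4 : (⋂ N, B N ∩ E R) = ∅ := by
        rw [eq_empty_iff_forall_notMem]
        intro a ha
        rw [mem_iInter] at ha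
        obtain ⟨n, hn⟩ := mem_iUnion.mp (ha 0).1.1
        exact (ha (n + 1)).1.2 (mem_biUnion (Finset.self_mem_range_succ n) hn)
      rw [h4, measure_empty] at h3
      have h5 : Tendsto (fun N => K * μ.real (B N ∩ E R) + δ / 2) atTop (𝓝 (K * 0 + δ / 2)) :=
        (((ENNReal.tendsto_toReal ENNReal.zero_ne_top).comp h3).const_mul K).add_const _
      have h6 : K * 0 + δ / 2 < δ := by linarith
      filter_upwards [h5.eventually (gt_mem_nhds h6)] with N hN
      refine le_trans (le_of_tendsto' (hL _) fun i => hK i _ (hB N)) ?_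
      exact (ENNReal.ofReal_le_ofReal hN.le).trans hδε.le
    have h3 := (ENNReal.tendsto_nat_tsum fun n => L (f n)).add h2
    simp only [← h1, add_zero] at h3
    exact tendsto_nhds_unique tendsto_const_nhds h3
  · rw [Measure.ofMeasurable_apply A hA]
    exact hL A

theorem Fam.exists_wlim {μ : Measure α} [SigmaFinite μ] {E : ℕ → Set α} {u : ℕ → α → ℝ}
    (h : Fam μ E u) (U : Ultrafilter ℕ) :
    ∃ v : α → ℝ, Measurable v ∧ (∀ a, 0 ≤ v a) ∧ Integrable v μ ∧ WConv U μ u v := by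
  obtain ⟨ν, hν⟩ := WL_exists_meas h U
  obtain ⟨B, hB⟩ := h.bdd
  set m : ℕ → Measure α := fun i => μ.withDensity fun a => ENNReal.ofReal (u i a) with hm
  have hmu : ∀ i, m i univ = ENNReal.ofReal (∫ a, u i a ∂μ) := by
    intro i
    rw [hm]
    simp only
    rw [withDensity_apply _ MeasurableSet.univ, Measure.restrict_univ,
      ofReal_integral_eq_lintegral_ofReal (h.int i) (Eventually.of_forall (h.nonneg i))]
  have : ∀ i, IsFiniteMeasure (m i) := fun i => ⟨by rw [hmu]; exact ENNReal.ofReal_lt_top⟩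
  have : IsFiniteMeasure ν := ⟨by
    refine lt_of_le_of_lt (le_of_tendsto' (hν _ MeasurableSet.univ) fun i => ?_)
      (ENNReal.ofReal_lt_top (r := B))
    exact (hmu i).le.trans (ENNReal.ofReal_le_ofReal (hB i))⟩
  have hac : ν ≪ μ := Measure.AbsolutelyContinuous.mk fun A hA h0 => by
    refine tendsto_nhds_unique (hν A hA) ?_
    have : ∀ i, (μ.withDensity fun a => ENNReal.ofReal (u i a)) A = 0 := fun i =>
      withDensity_absolutelyContinuous μ _ h0
    simp only [this]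
    exact tendsto_const_nhds
  refine ⟨fun a => (ν.rnDeriv μ a).toReal, (Measure.measurable_rnDeriv ν μ).ennreal_toReal,
    fun a => ENNReal.toReal_nonneg, Measure.integrable_toReal_rnDeriv, ?_⟩
  rintro ψ hψ ⟨C, hC⟩
  rw [integral_toReal_rnDeriv_mul hac]
  have e : ∀ i, ∫ a, u i a * ψ a ∂μ = ∫ a, ψ a ∂(m i) := by
    intro i
    rw [hm]
    simp only
    rw [integral_withDensity_eq_integral_toReal_smul (h.meas i).ennreal_ofReal
      (Eventually.of_forall fun _ => ENNReal.ofReal_lt_top)]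
    simp only [ENNReal.toReal_ofReal (h.nonneg i _), smul_eq_mul]
  simp only [e]
  refine WL_setwise m ν (B := B) (fun i => ?_) (fun A hA => ?_) hψ hC
  · rw [measureReal_def, hmu, ENNReal.toReal_ofReal (integral_nonneg (h.nonneg i))]
    exact hB i
  · exact (ENNReal.tendsto_toReal (measure_ne_top ν A)).comp (hν A hA)

/-- the weak limit inherits uniform integrability -/
theorem Fam.uit_lim {μ : Measure α} {E : ℕ → Set α} {u : ℕ → α → ℝ} (h : Fam μ E u)
    {U : Filter ℕ} [U.NeBot] {v : α → ℝ} (hv : WConv U μ u v) {ε : ℝ} (hε : 0 < ε) :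
    ∃ (K : ℝ) (R : ℕ), 0 ≤ K ∧
      (∀ i, ∀ ψ : α → ℝ, Measurable ψ → (∀ a, 0 ≤ ψ a ∧ ψ a ≤ 1) →
        ∫ a, u i a * ψ a ∂μ ≤ K * (∫ a in E R, ψ a ∂μ) + ε) ∧
      (∀ ψ : α → ℝ, Measurable ψ → (∀ a, 0 ≤ ψ a ∧ ψ a ≤ 1) →
        ∫ a, v a * ψ a ∂μ ≤ K * (∫ a in E R, ψ a ∂μ) + ε) := by
  obtain ⟨K, R, hK0, hK⟩ := h.uit ε hε
  exact ⟨K, R, hK0, hK, fun ψ hψ h1 =>
    le_of_tendsto' (hv ψ hψ ⟨1, WL_bd01 h1⟩) fun i => hK i ψ hψ h1⟩

/-- product of a weakly convergent family with a bounded family converging in `L¹_loc` -/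
theorem Fam.tendsto_mul {μ : Measure α} {E : ℕ → Set α} {u : ℕ → α → ℝ} (h : Fam μ E u)
    {U : Filter ℕ} {v : α → ℝ} (hv : WConv U μ u v) {ψ : ℕ → α → ℝ} {φ : α → ℝ} {C : ℝ}
    (hψ : ∀ i, Measurable (ψ i)) (hφ : Measurable φ) (hψC : ∀ i a, |ψ i a| ≤ C)
    (hφC : ∀ a, |φ a| ≤ C)
    (hc : ∀ R, Tendsto (fun i => ∫ a in E R, |ψ i a - φ a| ∂μ) U (𝓝 0)) :
    Tendsto (fun i => ∫ a, u i a * ψ i a ∂μ) U (𝓝 (∫ a, v a * φ a ∂μ)) := by
  have h1 : Tendsto (fun i => ∫ a, u i a * ψ i a ∂μ - ∫ a, u i a * φ a ∂μ) U (𝓝 0) := by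
    rw [Metric.tendsto_nhds]
    intro ε hε
    set D := 2 * |C| + 1 with hD
    have hD0 : 0 < D := by positivity
    obtain ⟨K, R, hK0, hK⟩ := h.uit (ε / (2 * D)) (by positivity)
    have h2 : Tendsto (fun i => K * ∫ a in E R, |ψ i a - φ a| ∂μ) U (𝓝 (K * 0)) :=
      (hc R).const_mul K
    have h3 : K * 0 < ε / 2 := by linarith
    filter_upwards [h2.eventually (gt_mem_nhds h3)] with i hi
    have hb : ∀ a, |ψ i a - φ a| ≤ D := fun a => by
      have := abs_sub (ψ i a) (φ a)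
      linarith [hψC i a, hφC a, le_abs_self C]
    have h4 := hK i (fun a => |ψ i a - φ a| / D) (((hψ i).sub hφ).abs.div_const D) (fun a =>
      ⟨by positivity, (div_le_one hD0).mpr (hb a)⟩)
    simp only [← mul_div_assoc, integral_div] at h4
    rw [← integral_sub (WL_int_mul (h.int i) (hψ i) (hψC i)) (WL_int_mul (h.int i) hφ hφC),
      dist_zero_right]
    refine lt_of_le_of_lt (norm_integral_le_integral_norm _) ?_
    have e : ∀ a, ‖u i a * ψ i a - u i a * φ a‖ = u i a * |ψ i a - φ a| := fun a => by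
      rw [← mul_sub, Real.norm_eq_abs, abs_mul, abs_of_nonneg (h.nonneg i a)]
    simp only [e]
    rw [div_le_iff₀ hD0] at h4
    have e2 : ((K * ∫ a in E R, |ψ i a - φ a| ∂μ) / D + ε / (2 * D)) * D =
        (K * ∫ a in E R, |ψ i a - φ a| ∂μ) + ε / 2 := by field_simp
    linarith
  simpa using h1.add (hv φ hφ ⟨C, hφC⟩)

theorem ae_le_of_tests {μ : Measure α} {v w : α → ℝ} (hvm : Measurable v) (hwm : Measurable w)
    (hv : Integrable v μ) (hw : Integrable w μ)
    (h : ∀ ψ : α → ℝ, Measurable ψ → (∀ a, 0 ≤ ψ a ∧ ψ a ≤ 1) →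
      ∫ a, v a * ψ a ∂μ ≤ ∫ a, w a * ψ a ∂μ) : v ≤ᵐ[μ] w := by
  refine ae_le_of_forall_setIntegral_le hv hw fun s hs _ => ?_
  have h1 := h (s.indicator 1) (measurable_one.indicator hs) (fun a => by
    by_cases ha : a ∈ s <;> simp [ha])
  have e : ∀ g : α → ℝ, ∫ a, g a * s.indicator 1 a ∂μ = ∫ a in s, g a ∂μ := fun g => by
    rw [← integral_indicator hs]
    congr 1
    funext a
    by_cases ha : a ∈ s <;> simp [ha]
  rwa [e, e] at h1

theorem WConv.ae_le {μ : Measure α} {U : Filter ℕ} [U.NeBot] {u u' : ℕ → α → ℝ} {v v' : α → ℝ}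
    (h : WConv U μ u v) (h' : WConv U μ u' v') (hu : ∀ i, Integrable (u i) μ)
    (hu' : ∀ i, Integrable (u' i) μ) (hvm : Measurable v) (hvm' : Measurable v')
    (hv : Integrable v μ) (hv' : Integrable v' μ) (hle : ∀ i, u i ≤ᵐ[μ] u' i) : v ≤ᵐ[μ] v' := by
  refine ae_le_of_tests hvm hvm' hv hv' fun ψ hψ h1 => ?_
  refine le_of_tendsto_of_tendsto' (h ψ hψ ⟨1, WL_bd01 h1⟩) (h' ψ hψ ⟨1, WL_bd01 h1⟩) fun i => ?_
  refine integral_mono_ae (WL_int_mul (hu i) hψ (WL_bd01 h1)) (WL_int_mul (hu' i) hψ (WL_bd01 h1)) ?_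
  filter_upwards [hle i] with a ha
  exact mul_le_mul_of_nonneg_right ha (h1 a).1

theorem WConv.congr {μ : Measure α} {U : Filter ℕ} {u : ℕ → α → ℝ} {v v' : α → ℝ}
    (h : WConv U μ u v) (hv : v =ᵐ[μ] v') : WConv U μ u v' := by
  intro ψ hψ hC
  have e : ∫ a, v' a * ψ a ∂μ = ∫ a, v a * ψ a ∂μ :=
    integral_congr_ae (by filter_upwards [hv] with a ha; rw [ha])
  rw [e]
  exact h ψ hψ hC

/-- multiplication by a fixed bounded function -/
theorem WConv.mul {μ : Measure α} {U : Filter ℕ} {u : ℕ → α → ℝ} {v φ : α → ℝ}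
    (h : WConv U μ u v) (hφ : Measurable φ) (hC : ∃ C, ∀ a, |φ a| ≤ C) :
    WConv U μ (fun i a => u i a * φ a) (fun a => v a * φ a) := by
  rintro ψ hψ ⟨D, hD⟩
  obtain ⟨C, hC⟩ := hC
  simp only [mul_assoc]
  refine h (fun a => φ a * ψ a) (hφ.mul hψ) ⟨C * D, fun a => ?_⟩
  rw [abs_mul]
  exact mul_le_mul (hC a) (hD a) (abs_nonneg _) ((abs_nonneg _).trans (hC a))


theorem WL_emb {β : Type*} [MeasurableSpace β] {e : β → α} {e' : α → β} (he : Measurable e)
    (he' : Measurable e') (h1 : ∀ b, e' (e b) = b) (h2 : ∀ a, e (e' a) = a) :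
    MeasurableEmbedding e :=
  (MeasurableEquiv.mk ⟨e, e', h1, h2⟩ he he').measurableEmbedding

/-- transport by a measure preserving measurable bijection with measurable inverse -/
theorem WConv.comp {β : Type*} [MeasurableSpace β] {μ : Measure α} {ν : Measure β} {U : Filter ℕ}
    {u : ℕ → α → ℝ} {v : α → ℝ} (h : WConv U μ u v) {e : β → α} {e' : α → β}
    (he : MeasurePreserving e ν μ) (he' : Measurable e') (h1 : ∀ b, e' (e b) = b)
    (h2 : ∀ a, e (e' a) = a) :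
    WConv U ν (fun i b => u i (e b)) (fun b => v (e b)) := by
  rintro ψ hψ ⟨C, hC⟩
  have hemb := WL_emb he.measurable he' h1 h2
  have e1 : ∀ g : α → ℝ, ∫ b, g (e b) * ψ b ∂ν = ∫ a, g a * ψ (e' a) ∂μ := fun g => by
    rw [← he.integral_comp hemb]
    simp only [h1]
  simp only [e1]
  exact h (fun a => ψ (e' a)) (hψ.comp he') ⟨C, fun a => hC _⟩

theorem Fam.comp {β : Type*} [MeasurableSpace β] {μ : Measure α} {ν : Measure β}
    {E : ℕ → Set α} {u : ℕ → α → ℝ} (h : Fam μ E u) {e : β → α} {e' : α → β}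
    (he : MeasurePreserving e ν μ) (he' : Measurable e') (h1 : ∀ b, e' (e b) = b)
    (h2 : ∀ a, e (e' a) = a) :
    Fam ν (fun R => e ⁻¹' E R) (fun i b => u i (e b)) := by
  have hemb := WL_emb he.measurable he' h1 h2
  refine ⟨fun R => he.measurable (h.measE R), fun R => ?_, fun i => (h.meas i).comp he.measurable,
    fun i b => h.nonneg i _, fun i => (he.integrable_comp_emb hemb).mpr (h.int i), fun ε hε => ?_⟩
  · rw [he.measure_preimage (h.measE R).nullMeasurableSet]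
    exact h.finE R
  · obtain ⟨K, R, hK0, hK⟩ := h.uit ε hε
    refine ⟨K, R, hK0, fun i ψ hψ hψ1 => ?_⟩
    have h3 := hK i (fun a => ψ (e' a)) (hψ.comp he') (fun a => hψ1 _)
    rw [← he.integral_comp hemb, ← he.setIntegral_preimage_emb hemb] at h3
    simpa only [h1] using h3

/-- a uniform integral bound `∫ |u i - u' i| ≤ ε` passes to weak limits -/
theorem WConv.integral_abs_sub_le {μ : Measure α} {U : Filter ℕ} [U.NeBot]
    {u u' : ℕ → α → ℝ} {v v' : α → ℝ}
    (h : WConv U μ u v) (h' : WConv U μ u' v') (hu : ∀ i, Integrable (u i) μ)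
    (hu' : ∀ i, Integrable (u' i) μ) (hvm : Measurable v) (hvm' : Measurable v')
    (hv : Integrable v μ) (hv' : Integrable v' μ) {ε : ℝ}
    (hle : ∀ i, ∫ a, |u i a - u' i a| ∂μ ≤ ε) : ∫ a, |v a - v' a| ∂μ ≤ ε := by
  let ψ : α → ℝ := fun a => if v' a ≤ v a then 1 else -1
  have hψ : Measurable ψ :=
    Measurable.ite (measurableSet_le hvm' hvm) measurable_const measurable_const
  have hψ1 : ∀ a, |ψ a| ≤ 1 := fun a => by
    simp only [ψ]; split_ifs <;> simp
  have e : ∫ a, |v a - v' a| ∂μ = ∫ a, v a * ψ a ∂μ - ∫ a, v' a * ψ a ∂μ := by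
    rw [← integral_sub (WL_int_mul hv hψ hψ1) (WL_int_mul hv' hψ hψ1)]
    congr 1
    funext a
    simp only [ψ]
    split_ifs with hh
    · rw [abs_of_nonneg (sub_nonneg.mpr hh)]; ring
    · rw [abs_of_neg (by linarith [not_le.mp hh])]; ring
  rw [e]
  refine le_of_tendsto' ((h ψ hψ ⟨1, hψ1⟩).sub (h' ψ hψ ⟨1, hψ1⟩)) fun i => ?_
  rw [← integral_sub (WL_int_mul (hu i) hψ hψ1) (WL_int_mul (hu' i) hψ hψ1)]
  refine le_trans (integral_mono ((WL_int_mul (hu i) hψ hψ1).sub (WL_int_mul (hu' i) hψ hψ1))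
    ((hu i).sub (hu' i)).abs fun a => ?_) (hle i)
  simp only
  rw [← sub_mul]
  refine (le_abs_self _).trans ?_
  rw [abs_mul]
  exact mul_le_of_le_one_right (abs_nonneg _) (hψ1 a)

/-- lower semicontinuity against an unbounded nonnegative weight -/
theorem WConv.lintegral_mul_le {μ : Measure α} {U : Filter ℕ} [U.NeBot] {u : ℕ → α → ℝ}
    {v w : α → ℝ} (h : WConv U μ u v) (hu : ∀ i, Integrable (u i) μ) (hu0 : ∀ i a, 0 ≤ u i a)
    (hvm : Measurable v) (hv0 : ∀ a, 0 ≤ v a) (hv : Integrable v μ) (hw : Measurable w)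
    (hw0 : ∀ a, 0 ≤ w a) {c : ℝ≥0∞}
    (hle : ∀ᶠ i in U, ∫⁻ a, ENNReal.ofReal (w a * u i a) ∂μ ≤ c) :
    ∫⁻ a, ENNReal.ofReal (w a * v a) ∂μ ≤ c := by
  have hb : ∀ (k : ℕ) a, |min (w a) k| ≤ k := fun k a => by
    rw [abs_of_nonneg (le_min (hw0 a) k.cast_nonneg)]; exact min_le_right _ _
  have hm : ∀ k : ℕ, Measurable fun a => min (w a) k := fun k => hw.min measurable_const
  have e : (fun a => ENNReal.ofReal (w a * v a)) =
      fun a => ⨆ k : ℕ, ENNReal.ofReal (v a * min (w a) k) := by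
    funext a
    apply le_antisymm
    · obtain ⟨k, hk⟩ := exists_nat_ge (w a)
      refine le_iSup_of_le k ?_
      rw [min_eq_left hk, mul_comm]
    · refine iSup_le fun k => ENNReal.ofReal_le_ofReal ?_
      rw [mul_comm]
      exact mul_le_mul_of_nonneg_right (min_le_left _ _) (hv0 a)
  rw [e, lintegral_iSup (f := fun (k : ℕ) a => ENNReal.ofReal (v a * min (w a) k)) (fun k => (hvm.mul (hm k)).ennreal_ofReal) (fun k l hkl a =>
    ENNReal.ofReal_le_ofReal (mul_le_mul_of_nonneg_left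
      (min_le_min_left _ (Nat.cast_le.mpr hkl)) (hv0 a)))]
  refine iSup_le fun k => ?_
  rw [← ofReal_integral_eq_lintegral_ofReal (WL_int_mul hv (hm k) (hb k))
    (Eventually.of_forall fun a => mul_nonneg (hv0 a) (le_min (hw0 a) k.cast_nonneg))]
  refine le_of_tendsto ((ENNReal.continuous_ofReal.tendsto _).comp (h _ (hm k) ⟨k, hb k⟩)) ?_
  filter_upwards [hle] with i hi
  refine le_trans ?_ hi
  simp only [Function.comp]
  rw [ofReal_integral_eq_lintegral_ofReal (WL_int_mul (hu i) (hm k) (hb k))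
    (Eventually.of_forall fun a => mul_nonneg (hu0 i a) (le_min (hw0 a) k.cast_nonneg))]
  refine lintegral_mono fun a => ENNReal.ofReal_le_ofReal ?_
  rw [mul_comm]
  exact mul_le_mul_of_nonneg_right (min_le_left _ _) (hu0 i a)

/-- weak convergence against a weight `w ≥ 1` when the weighted family is uniformly integrable -/
theorem WConv.weight {μ : Measure α} [SigmaFinite μ] {E : ℕ → Set α} {U : Ultrafilter ℕ}
    {u : ℕ → α → ℝ} {v w : α → ℝ} (h : WConv U μ u v) (hum : ∀ i, Measurable (u i))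
    (hu0 : ∀ i a, 0 ≤ u i a) (hvm : Measurable v) (hv0 : ∀ a, 0 ≤ v a) (hv : Integrable v μ)
    (hw : Measurable w) (hw1 : ∀ a, 1 ≤ w a) (hF : Fam μ E (fun i a => w a * u i a)) :
    Integrable (fun a => w a * v a) μ ∧
      WConv U μ (fun i a => w a * u i a) (fun a => w a * v a) := by
  obtain ⟨v', hv'm, -, hv'i, hv'⟩ := hF.exists_wlim U
  have hw0 : ∀ a, w a ≠ 0 := fun a => by linarith [hw1 a]
  have hb : ∀ a, |(w a)⁻¹| ≤ 1 := fun a => by
    rw [abs_of_nonneg (inv_nonneg.mpr (by linarith [hw1 a]))]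
    exact inv_le_one_of_one_le₀ (hw1 a)
  have hwi : Measurable fun a => (w a)⁻¹ := hw.inv
  have h1 := hv'.mul hwi ⟨1, hb⟩
  have e : (fun i a => w a * u i a * (w a)⁻¹) = u := by
    funext i a
    field_simp [hw0 a]
  rw [e] at h1
  have hui : ∀ i, Integrable (u i) μ := fun i =>
    (hF.int i).mono' (hum i).aestronglyMeasurable (Eventually.of_forall fun a => by
      rw [Real.norm_eq_abs, abs_of_nonneg (hu0 i a)]
      exact le_mul_of_one_le_left (hu0 i a) (hw1 a))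
  have hi := WL_int_mul hv'i hwi hb
  have h2 := h.ae_le h1 hui hui hvm (hv'm.mul hwi) hv hi fun i => EventuallyLE.refl _ _
  have h3 := h1.ae_le h hui hui (hv'm.mul hwi) hvm hi hv fun i => EventuallyLE.refl _ _
  have h4 : v' =ᵐ[μ] fun a => w a * v a := by
    filter_upwards [h2, h3] with a ha hb
    rw [le_antisymm ha hb]
    field_simp [hw0 a]
  exact ⟨hv'i.congr h4, hv'.congr h4⟩

end Vale.Agent.P140
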