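import Vale.Agent.P140.Tor
import Vale.Agent.P140.WL

/-! The compactness behind the velocity averaging lemma. -/

namespace Vale.Agent.P140

open MeasureTheory Set Filter Topology
open scoped ENNReal

/-- time integral along free trajectories -/
noncomputable def Ps (a b : ℝ) (φ : ℝ × X → ℝ) (z : Om) : ℝ :=
  ∫ t in Ioc a b, φ (t, z.1 + pr (t • z.2))

/-- mollification in the space variable -/
noncomputable def mol (η : V → ℝ) (φ : ℝ × X → ℝ) (p : ℝ × X) : ℝ :=
  ∫ y, η y * φ (p.1, p.2 - pr y)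

theorem tendsto_integral_translate {g : V → ℝ} (hg : Integrable g) :
    Tendsto (fun h : V => ∫ y, |g (y + h) - g y|) (𝓝 0) (𝓝 0) := by
  let G : C(V × V, V) := ⟨fun p => p.2 + p.1, by fun_prop⟩
  have hu1 : MemLp g 1 (volume : Measure V) := memLp_one_iff_integrable.2 hg
  have hmp : ∀ h : V, MeasurePreserving (G.curry h) volume volume := fun h =>
    measurePreserving_add_right volume h
  have hc : Continuous fun h : V => Lp.compMeasurePreserving (G.curry h) (hmp h) (hu1.toLp g) :=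
    Continuous.compMeasurePreservingLp (f := fun _ : V => hu1.toLp g) continuous_const
      G.curry.continuous hmp ENNReal.one_ne_top
  have hae : ∀ h : V, (Lp.compMeasurePreserving (G.curry h) (hmp h) (hu1.toLp g) :
      V → ℝ) =ᵐ[volume] fun z => g (z + h) := fun h =>
    (Lp.coeFn_compMeasurePreserving _ _).trans
      ((hmp h).quasiMeasurePreserving.ae_eq_comp hu1.coeFn_toLp)
  refine (tendsto_iff_norm_sub_tendsto_zero.1 (hc.tendsto 0)).congr fun t => ?_
  rw [L1.norm_eq_integral_norm]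
  refine integral_congr_ae ?_
  filter_upwards [hae t, hae 0, Lp.coeFn_sub
    (Lp.compMeasurePreserving (G.curry t) (hmp t) (hu1.toLp g))
    (Lp.compMeasurePreserving (G.curry 0) (hmp 0) (hu1.toLp g))] with z h1 h2 h3
  rw [h3, Pi.sub_apply, h1, h2, Real.norm_eq_abs, add_zero]

theorem measurable_Ps (a b : ℝ) {φ : ℝ × X → ℝ} (hφ : Measurable φ) : Measurable (Ps a b φ) := by
  have h : Measurable fun q : Om × ℝ => φ (q.2, q.1.1 + pr (q.2 • q.1.2)) := by fun_prop
  exact (h.stronglyMeasurable.integral_prod_right' (ν := volume.restrict (Ioc a b))).measurable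

theorem measurable_mol {η : V → ℝ} (hη : Measurable η) {φ : ℝ × X → ℝ} (hφ : Measurable φ) :
    Measurable (mol η φ) := by
  have h : Measurable fun q : (ℝ × X) × V => η q.2 * φ (q.1.1, q.1.2 - pr q.2) := by fun_prop
  exact (h.stronglyMeasurable.integral_prod_right' (ν := volume)).measurable


theorem CF_abs_le {α : Type*} [MeasurableSpace α] {μ : Measure α} {f g : α → ℝ}
    (hg : Integrable g μ) (h : ∀ x, |f x| ≤ g x) : |∫ x, f x ∂μ| ≤ ∫ x, g x ∂μ :=
  norm_integral_le_of_norm_le (f := f) hg (Eventually.of_forall h)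

theorem CF_abs_set_le {α : Type*} [MeasurableSpace α] {μ : Measure α} {f : α → ℝ} {s : Set α}
    {C : ℝ} (hs : μ s < ⊤) (h : ∀ x ∈ s, |f x| ≤ C) : |∫ x in s, f x ∂μ| ≤ C * μ.real s :=
  norm_setIntegral_le_of_norm_le_const (f := f) hs h

theorem CF_abs_mul_le {α : Type*} [MeasurableSpace α] {μ : Measure α} {η g : α → ℝ}
    (hη : Integrable η μ) {C : ℝ} (hg : ∀ y, |g y| ≤ C) :
    |∫ y, η y * g y ∂μ| ≤ C * ∫ y, |η y| ∂μ := by
  rw [← integral_const_mul]
  refine CF_abs_le (hη.abs.const_mul C) fun y => ?_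
  rw [abs_mul, mul_comm]
  exact mul_le_mul_of_nonneg_right (hg y) (abs_nonneg _)

theorem CF_mol_le {η : V → ℝ} (hη : Integrable η) {φ : ℝ × X → ℝ} (h1 : ∀ p, |φ p| ≤ 1)
    (p : ℝ × X) : |mol η φ p| ≤ ∫ y, |η y| := by
  simpa [mol] using CF_abs_mul_le hη (g := fun y => φ (p.1, p.2 - pr y)) fun y => h1 _

theorem CF_Ps_le (a b : ℝ) {φ : ℝ × X → ℝ} {C : ℝ} (h1 : ∀ p, |φ p| ≤ C) (z : Om) :
    |Ps a b φ z| ≤ C * volume.real (Ioc a b) :=
  CF_abs_set_le measure_Ioc_lt_top fun _ _ => h1 _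

theorem CF_int_bd {α : Type*} [MeasurableSpace α] {μ : Measure α} [IsFiniteMeasure μ] {g : α → ℝ}
    (hg : Measurable g) {C : ℝ} (h1 : ∀ p, |g p| ≤ C) : Integrable g μ :=
  Integrable.of_bound hg.aestronglyMeasurable C (Eventually.of_forall h1)

theorem CF_Ps_sub (a b : ℝ) {φ φ' : ℝ × X → ℝ} (hφ : Measurable φ) (hφ' : Measurable φ') {C : ℝ}
    (h1 : ∀ p, |φ p| ≤ C) (h1' : ∀ p, |φ' p| ≤ C) (z : Om) :
    Ps a b φ z - Ps a b φ' z = Ps a b (fun p => φ p - φ' p) z := by
  unfold Ps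
  rw [← integral_sub (CF_int_bd (by fun_prop) fun t => h1 _)
    (CF_int_bd (by fun_prop) fun t => h1' _)]

/-- the averaged high-frequency part at a nonzero time lag -/
theorem CF_far {χ η : V → ℝ} (hχ : Integrable χ) (hη : Integrable η) (hη0 : ∀ y, 0 ≤ η y)
    (hη1 : ∫ y, η y = 1) {φ : X → ℝ} (hφ : Measurable φ) (h1 : ∀ x, |φ x| ≤ 1) (x : X) {τ ω : ℝ}
    (hτ : τ ≠ 0) (hω : ∀ y, η y ≠ 0 → ∫ v, |χ (v + τ⁻¹ • y) - χ v| ≤ ω) :
    |∫ v, χ v * (φ (x + pr (τ • v)) - ∫ y, η y * φ (x + pr (τ • v) - pr y))| ≤ ω := by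
  have hI : Integrable (Function.uncurry fun v y : V =>
      χ v * η y * φ (x + pr (τ • v) - pr y)) (volume.prod volume) :=
    WL_int_mul (hχ.mul_prod hη) (by fun_prop) fun q => h1 _
  have hA : Integrable fun v => χ v * φ (x + pr (τ • v)) :=
    WL_int_mul hχ (by fun_prop) fun q => h1 _
  have hB : ∀ y : V, Integrable fun v => χ (v + τ⁻¹ • y) * φ (x + pr (τ • v)) := fun y =>
    WL_int_mul (hχ.comp_add_right _) (by fun_prop) fun q => h1 _
  have e1 : ∀ v, χ v * (φ (x + pr (τ • v)) - ∫ y, η y * φ (x + pr (τ • v) - pr y)) =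
      χ v * φ (x + pr (τ • v)) - ∫ y, χ v * η y * φ (x + pr (τ • v) - pr y) := by
    intro v
    simp only [mul_sub, mul_assoc, integral_const_mul]
  have e2 : ∀ y, ∫ v, χ v * η y * φ (x + pr (τ • v) - pr y) =
      η y * ∫ v, χ (v + τ⁻¹ • y) * φ (x + pr (τ • v)) := by
    intro y
    rw [← integral_add_right_eq_self _ (τ⁻¹ • y), ← integral_const_mul]
    congr 1
    funext v
    rw [smul_add, smul_smul, mul_inv_cancel₀ hτ, one_smul, pr_add, ← add_assoc,
      add_sub_cancel_right]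
    ring
  have hI2 := hI.integral_prod_right
  have hI3 := hI.integral_prod_left
  simp only [Function.uncurry, e2] at hI2 hI3
  simp only [e1]
  rw [integral_sub hA hI3, integral_integral_swap hI]
  simp only [e2]
  have e3 : ∫ v, χ v * φ (x + pr (τ • v)) = ∫ y, η y * ∫ v, χ v * φ (x + pr (τ • v)) := by
    rw [integral_mul_const, hη1, one_mul]
  rw [e3, ← integral_sub (hη.mul_const _) hI2]
  have e4 : ω = ∫ y, η y * ω := by rw [integral_mul_const, hη1, one_mul]
  rw [e4]
  refine CF_abs_le (hη.mul_const _) fun y => ?_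
  rw [← mul_sub, abs_mul, abs_of_nonneg (hη0 y)]
  by_cases hy : η y = 0
  · simp [hy]
  refine mul_le_mul_of_nonneg_left (le_trans ?_ (hω y hy)) (hη0 y)
  rw [abs_sub_comm, ← integral_sub (hB y) hA]
  simp only [← sub_mul]
  simpa using CF_abs_mul_le ((hχ.comp_add_right (τ⁻¹ • y)).sub hχ)
    (g := fun v => φ (x + pr (τ • v))) fun v => h1 _

theorem CF_inner (a b : ℝ) {χ : V → ℝ} (hχ : Integrable χ) {u : ℝ × X → ℝ} (hu : Measurable u)
    (h2 : ∀ p, |u p| ≤ 2) {τ0 ω : ℝ} (hτ0 : 0 ≤ τ0) (hω : 0 ≤ ω)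
    (hW : ∀ s x τ, τ0 < |τ| → |∫ v, χ v * u (s, x + pr (τ • v))| ≤ ω) (t : ℝ) (x : X) :
    |∫ v, χ v * Ps a b u (sh (-t) (x, v))| ≤
      ω * volume.real (Ioc a b) + 2 * (∫ v, |χ v|) * (2 * τ0) := by
  have e1 : ∀ v, χ v * Ps a b u (sh (-t) (x, v)) =
      ∫ s in Ioc a b, χ v * u (s, x + pr ((s - t) • v)) := by
    intro v
    rw [integral_const_mul]
    simp only [Ps, sh, sub_smul, pr_sub, neg_smul, pr_neg]
    congr 2
    funext s
    congr 2
    abel
  have hI : Integrable (Function.uncurry fun (v : V) (s : ℝ) =>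
      χ v * u (s, x + pr ((s - t) • v))) (volume.prod (volume.restrict (Ioc a b))) :=
    WL_int_mul (hχ.comp_fst _) (by fun_prop) fun q => h2 _
  simp only [e1]
  rw [integral_integral_swap hI]
  have hN : 0 ≤ 2 * ∫ v, |χ v| := by positivity
  have hind : Integrable ((Icc (t - τ0) (t + τ0)).indicator fun _ : ℝ => 2 * ∫ v, |χ v|) :=
    (integrable_indicator_iff measurableSet_Icc).mpr (integrableOn_const measure_Icc_lt_top.ne)
  refine le_trans (CF_abs_le (g := fun s => ω +
    (Icc (t - τ0) (t + τ0)).indicator (fun _ => 2 * ∫ v, |χ v|) s)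
    ((integrable_const ω).add hind.integrableOn) fun s => ?_) ?_
  · by_cases hs : s ∈ Icc (t - τ0) (t + τ0)
    · rw [indicator_of_mem hs]
      exact (CF_abs_mul_le hχ fun v => h2 _).trans (le_add_of_nonneg_left hω)
    · rw [indicator_of_notMem hs, add_zero]
      refine hW s x _ (not_le.mp fun h => hs ?_)
      rw [abs_le] at h
      constructor <;> linarith [h.1, h.2]
  · rw [integral_add (integrable_const ω) hind.integrableOn, integral_const, smul_eq_mul,
      measureReal_restrict_apply_univ, mul_comm]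
    refine add_le_add_right ?_ _
    refine le_trans (setIntegral_le_integral hind (Eventually.of_forall fun s =>
      indicator_nonneg (fun _ _ => hN) s)) (le_of_eq ?_)
    rw [integral_indicator measurableSet_Icc, setIntegral_const, smul_eq_mul,
      Real.volume_real_Icc_of_le (by linarith)]
    ring

theorem CF_TT (a b : ℝ) {χ : V → ℝ} (hχ : Integrable χ) {u : ℝ × X → ℝ} (hu : Measurable u)
    (h2 : ∀ p, |u p| ≤ 2) {β : ℝ}
    (hβ : ∀ t x, |∫ v, χ v * Ps a b u (sh (-t) (x, v))| ≤ β) :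
    ∫ z : Om, χ z.2 * Ps a b u z ^ 2 ≤ 2 * β * volume.real (Ioc a b) := by
  have hP := measurable_Ps a b hu
  have hPb := CF_Ps_le a b h2
  have hχ2 : Integrable (fun z : Om => χ z.2) volume := hχ.comp_snd (volume : Measure X)
  have e1 : ∀ z : Om, χ z.2 * Ps a b u z ^ 2 =
      ∫ t in Ioc a b, χ z.2 * Ps a b u z * u (t, z.1 + pr (t • z.2)) := by
    intro z
    rw [integral_const_mul, sq, ← mul_assoc]
    rfl
  have hI : Integrable (Function.uncurry fun (z : Om) (t : ℝ) =>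
      χ z.2 * Ps a b u z * u (t, z.1 + pr (t • z.2)))
      (volume.prod (volume.restrict (Ioc a b))) :=
    WL_int_mul ((WL_int_mul hχ2 hP hPb).comp_fst _) (by fun_prop) fun q => h2 _
  simp only [e1]
  rw [integral_integral_swap hI]
  refine le_trans (le_abs_self _) (CF_abs_set_le measure_Ioc_lt_top fun t _ => ?_)
  rw [← integral_sh (-t)]
  have e2 : ∀ z : Om, χ (sh (-t) z).2 * Ps a b u (sh (-t) z) *
      u (t, (sh (-t) z).1 + pr (t • (sh (-t) z).2)) =
      χ z.2 * Ps a b u (sh (-t) z) * u (t, z.1) := by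
    intro z
    simp only [sh, neg_smul, pr_neg, neg_add_cancel_right]
  simp only [e2]
  have hJ : Integrable (fun z : Om => χ z.2 * Ps a b u (sh (-t) z) * u (t, z.1))
      ((volume : Measure X).prod volume) :=
    WL_int_mul (WL_int_mul hχ2 (by fun_prop) fun z => hPb _) (by fun_prop) fun q => h2 _
  rw [Measure.volume_eq_prod, integral_prod _ hJ]
  simp only [integral_mul_const]
  have := norm_integral_le_of_norm_le_const (μ := (volume : Measure X))
    (f := fun x => (∫ v, χ v * Ps a b u (sh (-t) (x, v))) * u (t, x)) (C := 2 * β)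
    (Eventually.of_forall fun x => by
      rw [Real.norm_eq_abs, abs_mul, mul_comm]
      exact mul_le_mul (h2 _) (hβ t x) (abs_nonneg _) zero_le_two)
  simpa using this

/-- the `T T^*` estimate: the high-frequency part is small after averaging along trajectories -/
theorem Ps_high (a b R : ℝ) (hab : a ≤ b) {ε : ℝ} (hε : 0 < ε) : ∃ κ : ℝ, 0 < κ ∧
    ∀ η : V → ℝ, Measurable η → (∀ y, 0 ≤ η y) → Integrable η → ∫ y, η y = 1 →
      (∀ y, κ < ‖y‖ → η y = 0) →
      ∀ φ : ℝ × X → ℝ, Measurable φ → (∀ p, |φ p| ≤ 1) →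
        ∫ z in {z : Om | ‖z.2‖ ≤ R}, |Ps a b φ z - Ps a b (mol η φ) z| ≤ ε := by
  set B : Set Om := {z : Om | ‖z.2‖ ≤ R} with hB
  have hBm : MeasurableSet B := measurableSet_le (by fun_prop) measurable_const
  have hBf : volume B < ⊤ := volume_velBall_lt_top R
  let χ : V → ℝ := (Metric.closedBall (0 : V) R).indicator fun _ => 1
  have hχ : Integrable χ := (integrable_indicator_iff measurableSet_closedBall).mpr
    (integrableOn_const measure_closedBall_lt_top.ne)
  set m := volume.real (Ioc a b) with hm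
  have hm0 : 0 ≤ m := measureReal_nonneg
  set N := ∫ v, |χ v| with hN
  have hN0 : 0 ≤ N := by positivity
  have hB0 : 0 ≤ volume.real B := measureReal_nonneg
  set δ := ε / (2 * (volume.real B + 1)) with hδ
  have hδ0 : 0 < δ := by positivity
  set ω := δ * ε / (8 * (m + 1) ^ 2) with hω
  have hω0 : 0 < ω := by positivity
  set τ0 := δ * ε / (32 * (N + 1) * (m + 1)) with hτ0
  have hτ00 : 0 < τ0 := by positivity
  obtain ⟨ρ, hρ0, hρ⟩ := Metric.eventually_nhds_iff.mp
    ((tendsto_integral_translate hχ).eventually (ge_mem_nhds hω0))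
  refine ⟨ρ * τ0 / 2, by positivity, fun η hηm hη0 hη hη1 hηs φ hφ h1 => ?_⟩
  have hmol : ∀ p, |mol η φ p| ≤ 1 := fun p => by
    have := CF_mol_le hη h1 p
    simp only [abs_of_nonneg (hη0 _)] at this
    rwa [hη1] at this
  have hmm := measurable_mol hηm hφ
  set u : ℝ × X → ℝ := fun p => φ p - mol η φ p with hu
  have hum : Measurable u := hφ.sub hmm
  have h2 : ∀ p, |u p| ≤ 2 := fun p => (abs_sub _ _).trans (by linarith [h1 p, hmol p])
  simp only [CF_Ps_sub a b hφ hmm h1 hmol]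
  have hW : ∀ s x τ, τ0 < |τ| → |∫ v, χ v * u (s, x + pr (τ • v))| ≤ ω := by
    intro s x τ hτ
    have hτ' : 0 < |τ| := hτ00.trans hτ
    refine CF_far hχ hη hη0 hη1 (φ := fun x => φ (s, x)) (by fun_prop) (fun x => h1 _) x
      (abs_pos.mp hτ') fun y hy => hρ ?_
    have h3 : ‖y‖ ≤ ρ * τ0 / 2 := not_lt.mp fun h => hy (hηs y h)
    rw [dist_zero_right, norm_smul, norm_inv, Real.norm_eq_abs, inv_mul_lt_iff₀ hτ']
    nlinarith
  have hTT := CF_TT a b hχ hum h2 (CF_inner a b hχ hum h2 hτ00.le hω0.le hW)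
  have hP := measurable_Ps a b hum
  have hPb := CF_Ps_le a b h2
  have e1 : ∫ z : Om, χ z.2 * Ps a b u z ^ 2 = ∫ z in B, Ps a b u z ^ 2 := by
    rw [← integral_indicator hBm]
    congr 1
    funext z
    by_cases hz : ‖z.2‖ ≤ R <;> simp [χ, hB, indicator, hz]
  rw [e1, ← hm, ← hN] at hTT
  have : IsFiniteMeasure (volume.restrict B) := isFiniteMeasure_restrict.mpr hBf.ne
  have hI1 : Integrable (fun z => |Ps a b u z|) (volume.restrict B) := (CF_int_bd hP hPb).abs
  have hI2 : Integrable (fun z => Ps a b u z ^ 2) (volume.restrict B) :=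
    CF_int_bd (hP.pow_const 2) (C := (2 * m) ^ 2) fun z => by
      rw [abs_pow]; exact pow_le_pow_left₀ (abs_nonneg _) (hPb z) 2
  have h4 : ∫ z in B, |Ps a b u z| ≤ ∫ z in B, (δ + δ⁻¹ * Ps a b u z ^ 2) := by
    refine integral_mono hI1 ((integrable_const δ).add (hI2.const_mul _)) fun z => ?_
    simp only
    rw [← sq_abs, ← mul_le_mul_iff_right₀ hδ0, mul_add, ← mul_assoc, mul_inv_cancel₀ hδ0.ne']
    nlinarith [sq_nonneg (|Ps a b u z| - δ), abs_nonneg (Ps a b u z)]
  rw [integral_add (integrable_const δ) (hI2.const_mul _), integral_const, smul_eq_mul,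
    measureReal_restrict_apply_univ, integral_const_mul] at h4
  have h5 : volume.real B * δ ≤ ε / 2 := by
    have : (volume.real B + 1) * δ = ε / 2 := by rw [hδ]; field_simp
    nlinarith
  have h6 : 2 * (ω * m + 2 * N * (2 * τ0)) * m ≤ δ * ε / 2 := by
    have k1 : ω * (m + 1) ^ 2 = δ * ε / 8 := by rw [hω]; field_simp
    have k2 : τ0 * ((N + 1) * (m + 1)) = δ * ε / 32 := by rw [hτ0]; field_simp
    have k3 : ω * m * m ≤ ω * (m + 1) ^ 2 := by nlinarith
    have k4 : τ0 * (N * m) ≤ τ0 * ((N + 1) * (m + 1)) :=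
      mul_le_mul_of_nonneg_left (by nlinarith) hτ00.le
    nlinarith
  have h7 : δ⁻¹ * ∫ z in B, Ps a b u z ^ 2 ≤ ε / 2 := by
    rw [inv_mul_le_iff₀ hδ0]
    linarith
  exact h4.trans (by linarith)


theorem CF_isOpenMap_pr : IsOpenMap pr :=
  (IsOpenQuotientMap.piMap fun _ : Fin 3 => QuotientAddGroup.isOpenQuotientMap_mk).isOpenMap.comp
    (EuclideanSpace.equiv (Fin 3) ℝ).toHomeomorph.isOpenMap

theorem CF_mol_sub {η : V → ℝ} (hη : Integrable η) {φ : ℝ × X → ℝ} (hφ : Measurable φ)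
    (h1 : ∀ p, |φ p| ≤ 1) (t : ℝ) (x : X) (h : V) :
    |mol η φ (t, x + pr h) - mol η φ (t, x)| ≤ ∫ y, |η (y + h) - η y| := by
  have e : mol η φ (t, x + pr h) = ∫ y, η (y + h) * φ (t, x - pr y) := by
    rw [mol, ← integral_add_right_eq_self _ h]
    simp only [pr_add, add_sub_add_right_eq_sub]
  rw [e, mol, ← integral_sub (WL_int_mul (hη.comp_add_right h) (by fun_prop) fun y => h1 _)
    (WL_int_mul hη (by fun_prop) fun y => h1 _)]
  simp only [← sub_mul]
  simpa using CF_abs_mul_le ((hη.comp_add_right h).sub hη) (g := fun y => φ (t, x - pr y))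
    fun y => h1 _

/-- the low-frequency parts form an equicontinuous family -/
theorem Ps_low (a b : ℝ) {η : V → ℝ} (hηm : Measurable η) (hη : Integrable η) {ι : Type*}
    {φ : ι → ℝ × X → ℝ} (hφ : ∀ i, Measurable (φ i)) (h1 : ∀ i p, |φ i p| ≤ 1) :
    Equicontinuous (fun i => Ps a b (mol η (φ i))) := by
  intro z0
  rw [Metric.equicontinuousAt_iff_right]
  intro ε hε
  set m := volume.real (Ioc a b) with hm
  have hm0 : 0 ≤ m := measureReal_nonneg
  have hε' : 0 < ε / (m + 1) := by positivity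
  have hN := CF_isOpenMap_pr.image_mem_nhds
    ((tendsto_integral_translate hη).eventually (ge_mem_nhds hε'))
  rw [pr_zero] at hN
  have hev : ∀ᶠ z : Om in 𝓝 z0, ∀ t ∈ Icc a b, z.1 - z0.1 + pr (t • (z.2 - z0.2)) ∈
      pr '' {h : V | ∫ y, |η (y + h) - η y| ≤ ε / (m + 1)} := by
    refine isCompact_Icc.eventually_forall_of_forall_eventually fun t _ => ?_
    have hc : Continuous fun q : Om × ℝ => q.1.1 - z0.1 + pr (q.2 • (q.1.2 - z0.2)) := by
      fun_prop
    refine hc.continuousAt.eventually_mem ?_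
    simpa [pr_zero] using hN
  filter_upwards [hev] with z hz i
  have hmm := measurable_mol hηm (hφ i)
  have hb := CF_mol_le hη (h1 i)
  rw [dist_comm, Real.dist_eq, Ps, Ps, ← integral_sub (CF_int_bd (by fun_prop) fun t => hb _)
    (CF_int_bd (by fun_prop) fun t => hb _)]
  refine lt_of_le_of_lt (CF_abs_set_le (C := ε / (m + 1))
    measure_Ioc_lt_top fun t ht => ?_) ?_
  · obtain ⟨h, hh, e⟩ := hz t (Ioc_subset_Icc_self ht)
    have e2 : z.1 + pr (t • z.2) = z0.1 + pr (t • z0.2) + pr h := by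
      rw [e, smul_sub, pr_sub]; abel
    rw [e2]
    exact (CF_mol_sub hη (hφ i) (h1 i) t _ h).trans hh
  · rw [← hm, div_mul_eq_mul_div, div_lt_iff₀ (by positivity)]
    nlinarith


theorem CF_exists_eta {κ : ℝ} (hκ : 0 < κ) : ∃ η : V → ℝ, Measurable η ∧ (∀ y, 0 ≤ η y) ∧
    Integrable η ∧ ∫ y, η y = 1 ∧ ∀ y, κ < ‖y‖ → η y = 0 := by
  have h0 : 0 < volume.real (Metric.closedBall (0 : V) κ) :=
    ENNReal.toReal_pos (Metric.measure_closedBall_pos volume 0 hκ).ne'
      measure_closedBall_lt_top.ne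
  refine ⟨(Metric.closedBall (0 : V) κ).indicator
    fun _ => (volume.real (Metric.closedBall (0 : V) κ))⁻¹,
    measurable_const.indicator measurableSet_closedBall,
    fun y => indicator_nonneg (fun _ _ => by positivity) y,
    (integrable_indicator_iff measurableSet_closedBall).mpr
      (integrableOn_const measure_closedBall_lt_top.ne), ?_, fun y hy => ?_⟩
  · rw [integral_indicator measurableSet_closedBall, setIntegral_const, smul_eq_mul,
      mul_inv_cancel₀ h0.ne']
  · exact indicator_of_notMem (by simpa using hy) _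

/-- bounded equicontinuous families converge locally uniformly along an ultrafilter -/
theorem CF_low_lim (U : Ultrafilter ℕ) {L : ℕ → Om → ℝ} (hL : Equicontinuous L) {C : ℝ}
    (hb : ∀ i z, |L i z| ≤ C) : ∃ M : Om → ℝ, Continuous M ∧ (∀ z, |M z| ≤ C) ∧
      ∀ R : ℝ, Tendsto (fun i => ∫ z in {z : Om | ‖z.2‖ ≤ R}, |L i z - M z|) U (𝓝 0) := by
  have h1 : ∀ z, ∃ y ∈ Icc (-C) C, Tendsto (fun i => L i z) U (𝓝 y) := fun z =>
    isCompact_Icc.ultrafilter_le_nhds' (U.map fun i => L i z)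
      (Ultrafilter.mem_map.mpr (univ_mem' fun i => abs_le.mp (hb i z)))
  choose M hM hM' using h1
  have hc : Continuous M := (tendsto_pi_nhds.mpr hM').continuous_of_equicontinuous hL
  refine ⟨M, hc, fun z => abs_le.mpr (hM z), fun R => ?_⟩
  set B : Set Om := {z : Om | ‖z.2‖ ≤ R} with hB
  have hK : IsCompact B := by
    have e : B = (univ : Set X) ×ˢ Metric.closedBall (0 : V) R := by
      ext z; simp [hB]
    rw [e]
    exact isCompact_univ.prod (isCompact_closedBall 0 R)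
  rw [Metric.tendsto_nhds]
  intro ε hε
  have hB0 : 0 ≤ volume.real B := measureReal_nonneg
  set δ := ε / (3 * (volume.real B + 1)) with hδ
  have hδ0 : 0 < δ := by positivity
  have h2 : {q : ℕ × Om | |L q.1 q.2 - M q.2| ≤ 3 * δ} ∈ (U : Filter ℕ) ×ˢ 𝓝ˢ B := by
    refine hK.mem_prod_nhdsSet_of_forall fun y _ => ?_
    have a1 := Metric.tendsto_nhds.mp (hM' y) δ hδ0
    have a2 := Metric.equicontinuousAt_iff_right.mp (hL y) δ hδ0
    have a3 := Metric.tendsto_nhds.mp (hc.tendsto y) δ hδ0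
    filter_upwards [a1.prod_mk (a2.and a3)] with q hq
    obtain ⟨b1, b2, b3⟩ := hq
    have b4 := b2 q.1
    rw [Real.dist_eq, abs_lt] at b1 b3 b4
    rw [abs_le]
    constructor <;> linarith [b1.1, b1.2, b3.1, b3.2, b4.1, b4.2]
  obtain ⟨s, hs, t, ht, hst⟩ := mem_prod_iff.mp h2
  filter_upwards [hs] with i hi
  rw [dist_zero_right]
  refine lt_of_le_of_lt (norm_setIntegral_le_of_norm_le_const (C := 3 * δ)
    (volume_velBall_lt_top R) fun z hz => ?_) ?_
  · rw [Real.norm_eq_abs, abs_abs]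
    exact hst (mk_mem_prod hi (subset_of_mem_nhdsSet ht hz))
  · have : 3 * δ * (volume.real B + 1) = ε := by rw [hδ]; field_simp
    nlinarith

theorem CF_high_le {w H : Om → ℝ} (hw0 : ∀ z, 0 ≤ w z) (hH : Measurable H) {D : ℝ} (hD : 0 < D)
    (hHD : ∀ z, |H z| ≤ D) {K ε : ℝ} {B : Set Om}
    (hK : ∀ ψ : Om → ℝ, Measurable ψ → (∀ a, 0 ≤ ψ a ∧ ψ a ≤ 1) →
      ∫ a, w a * ψ a ≤ K * (∫ a in B, ψ a) + ε) :
    |∫ z, w z * H z| ≤ K * (∫ z in B, |H z|) + ε * D := by
  have h4 := hK (fun a => |H a| / D) (hH.abs.div_const D) (fun a =>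
    ⟨by positivity, (div_le_one hD).mpr (hHD a)⟩)
  simp only [← mul_div_assoc, integral_div] at h4
  refine le_trans abs_integral_le_integral_abs ?_
  have e : ∀ a, |w a * H a| = w a * |H a| := fun a => by
    rw [abs_mul, abs_of_nonneg (hw0 a)]
  simp only [e]
  rw [div_le_iff₀ hD, add_mul, div_mul_cancel₀ _ hD.ne'] at h4
  exact h4

theorem tendsto_Ps {u : ℕ → Om → ℝ} {v : Om → ℝ} (U : Ultrafilter ℕ)
    (hu : Fam volume (fun R => {z : Om | ‖z.2‖ ≤ R}) u) (hv : WConv U volume u v)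
    (hvi : Integrable v) (hvm : Measurable v) (hv0 : ∀ z, 0 ≤ v z) (a b : ℝ) (hab : a ≤ b)
    {φ : ℕ → ℝ × X → ℝ} (hφ : ∀ i, Measurable (φ i)) (h1 : ∀ i p, |φ i p| ≤ 1)
    {ψ : Om → ℝ} (hψ : Measurable ψ) (hψ1 : ∀ z, |ψ z| ≤ 1) :
    Tendsto (fun i => ∫ z, (u i z - v z) * (ψ z * Ps a b (φ i) z)) U (𝓝 0) := by
  have hvF : Fam volume (fun R : ℕ => {z : Om | ‖z.2‖ ≤ R}) (fun _ => v) := by
    refine ⟨hu.measE, hu.finE, fun _ => hvm, fun _ => hv0, fun _ => hvi, fun ε hε => ?_⟩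
    obtain ⟨K, R, hK0, -, hK⟩ := hu.uit_lim hv hε
    exact ⟨K, R, hK0, fun _ => hK⟩
  have hvv : WConv U volume (fun _ => v) v := fun _ _ _ => tendsto_const_nhds
  rw [Metric.tendsto_nhds]
  intro ε hε
  set m := volume.real (Ioc a b) with hm
  have hm0 : 0 ≤ m := measureReal_nonneg
  set D := 2 * m + 1 with hD
  have hD0 : 0 < D := by positivity
  obtain ⟨K, R, hK0, hKu, hKv⟩ := hu.uit_lim hv (ε := ε / (8 * D)) (by positivity)
  obtain ⟨κ, hκ, hhigh⟩ := Ps_high a b R hab (ε := ε / (8 * (K + 1))) (by positivity)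
  obtain ⟨η, hηm, hη0, hη, hη1, hηs⟩ := CF_exists_eta hκ
  have hmol : ∀ i p, |mol η (φ i) p| ≤ 1 := fun i p => by
    have := CF_mol_le hη (h1 i) p
    simp only [abs_of_nonneg (hη0 _)] at this
    rwa [hη1] at this
  set L : ℕ → Om → ℝ := fun i => Ps a b (mol η (φ i)) with hL
  have hLm : ∀ i, Measurable (L i) := fun i => measurable_Ps a b (measurable_mol hηm (hφ i))
  have hLb : ∀ i z, |L i z| ≤ m := fun i z => (CF_Ps_le a b (hmol i) z).trans_eq (one_mul _)
  have hPb : ∀ i z, |Ps a b (φ i) z| ≤ m := fun i z => (CF_Ps_le a b (h1 i) z).trans_eq (one_mul _)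
  obtain ⟨M, hMc, hMb, hM⟩ := CF_low_lim U (Ps_low a b hηm hη hφ h1) hLb
  have hψb : ∀ (g : Om → ℝ) (z : Om), |ψ z * g z| ≤ |g z| := fun g z => by
    rw [abs_mul]; exact mul_le_of_le_one_left (abs_nonneg _) (hψ1 z)
  have hconv : ∀ R : ℕ, Tendsto (fun i => ∫ z in {z : Om | ‖z.2‖ ≤ R},
      |ψ z * L i z - ψ z * M z|) U (𝓝 0) := by
    intro R
    have : IsFiniteMeasure (volume.restrict {z : Om | ‖z.2‖ ≤ R}) :=
      isFiniteMeasure_restrict.mpr (volume_velBall_lt_top R).ne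
    refine squeeze_zero (fun i => by positivity) (fun i => ?_) (hM R)
    refine integral_mono_of_nonneg (Eventually.of_forall fun z => abs_nonneg _)
      ((CF_int_bd (hLm i) (hLb i)).sub (CF_int_bd hMc.measurable hMb)).abs
      (Eventually.of_forall fun z => ?_)
    simp only [← mul_sub]
    exact hψb (fun z => L i z - M z) z
  have hψLm : ∀ i, Measurable fun z => ψ z * L i z := fun i => hψ.mul (hLm i)
  have hψMm : Measurable fun z => ψ z * M z := hψ.mul hMc.measurable
  have t1 := hu.tendsto_mul hv hψLm hψMm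
    (fun i z => (hψb _ z).trans (hLb i z)) (fun z => (hψb _ z).trans (hMb z)) hconv
  have t2 := hvF.tendsto_mul hvv hψLm hψMm
    (fun i z => (hψb _ z).trans (hLb i z)) (fun z => (hψb _ z).trans (hMb z)) hconv
  have t3 := t1.sub t2
  rw [sub_self] at t3
  filter_upwards [Metric.tendsto_nhds.mp t3 (ε / 2) (by positivity)] with i hi
  set H : Om → ℝ := fun z => ψ z * (Ps a b (φ i) z - L i z) with hH
  have hHm : Measurable H := hψ.mul ((measurable_Ps a b (hφ i)).sub (hLm i))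
  have hHD : ∀ z, |H z| ≤ D := fun z =>
    (hψb (fun z => Ps a b (φ i) z - L i z) z).trans
      ((abs_sub _ _).trans (by linarith [hPb i z, hLb i z]))
  have hHB : ∫ z in {z : Om | ‖z.2‖ ≤ R}, |H z| ≤ ε / (8 * (K + 1)) := by
    have : IsFiniteMeasure (volume.restrict {z : Om | ‖z.2‖ ≤ R}) :=
      isFiniteMeasure_restrict.mpr (volume_velBall_lt_top R).ne
    refine le_trans ?_ (hhigh η hηm hη0 hη hη1 hηs (φ i) (hφ i) (h1 i))
    refine integral_mono_of_nonneg (Eventually.of_forall fun z => abs_nonneg _)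
      ((CF_int_bd (measurable_Ps a b (hφ i)) (hPb i)).sub (CF_int_bd (hLm i) (hLb i))).abs
      (Eventually.of_forall fun z => ?_)
    exact hψb (fun z => Ps a b (φ i) z - L i z) z
  have k1 := CF_high_le (hu.nonneg i) hHm hD0 hHD (hKu i)
  have k2 := CF_high_le hv0 hHm hD0 hHD hKv
  have k3 : K * (∫ z in {z : Om | ‖z.2‖ ≤ R}, |H z|) + ε / (8 * D) * D ≤ ε / 4 := by
    have a1 : ε / (8 * D) * D = ε / 8 := by field_simp
    have a2 : (K + 1) * (ε / (8 * (K + 1))) = ε / 8 := by field_simp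
    have a3 : 0 ≤ ε / (8 * (K + 1)) := by positivity
    nlinarith [mul_le_mul_of_nonneg_left hHB hK0]
  have hψL : ∀ z, |ψ z * L i z| ≤ m := fun z => (hψb _ z).trans (hLb i z)
  have i1 := WL_int_mul (hu.int i) (hψLm i) hψL
  have i2 := WL_int_mul hvi (hψLm i) hψL
  have i3 := WL_int_mul (hu.int i) hHm hHD
  have i4 := WL_int_mul hvi hHm hHD
  have e : ∫ z, (u i z - v z) * (ψ z * Ps a b (φ i) z) =
      ((∫ z, u i z * (ψ z * L i z)) - ∫ z, v z * (ψ z * L i z)) +
        ((∫ z, u i z * H z) - ∫ z, v z * H z) := by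
    rw [← integral_sub i1 i2, ← integral_sub i3 i4]
    refine Eq.trans ?_ (integral_add (i1.sub i2) (i3.sub i4))
    congr 1
    funext z
    simp only [hH]
    ring
  rw [e]
  rw [Real.dist_eq, sub_zero, abs_lt] at hi ⊢
  rw [abs_le] at k1 k2
  constructor <;> linarith [hi.1, hi.2, k1.1, k1.2, k2.1, k2.2]

end Vale.Agent.P140
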