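import Vale.Agent.P140.Kin

/-! Basic properties of the gain operator and of the collision frequency. -/

namespace Vale.Agent.P140

open MeasureTheory Set Filter Topology
open scoped ENNReal

theorem meas2_QpB {α : Type*} [MeasurableSpace α] {Φ : α → V → S2 → ℝ≥0∞}
    (h : Measurable (fun q : (α × V) × S2 => Φ q.1.1 q.1.2 q.2)) :
    Measurable (fun a => ∫⁻ w, ∫⁻ ω, Φ a w ω ∂sig) :=
  Measurable.lintegral_prod_right' (f := fun p : α × V => ∫⁻ ω, Φ p.1 p.2 ω ∂sig)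
    (Measurable.lintegral_prod_right' (f := fun q : (α × V) × S2 => Φ q.1.1 q.1.2 q.2) h)

theorem I2_eq_QpB {Φ : V → S2 → ℝ≥0∞} (h : Measurable (fun p : V × S2 => Φ p.1 p.2)) :
    ∫⁻ w, ∫⁻ ω, Φ w ω ∂sig = ∫⁻ p, Φ p.1 p.2 ∂((volume : Measure V).prod sig) :=
  (lintegral_prod (fun q : V × S2 => Φ q.1 q.2) h.aemeasurable).symm

theorem I2_add_QpB {Φ Ψ : V → S2 → ℝ≥0∞} (h : Measurable (fun p : V × S2 => Φ p.1 p.2))
    (h' : Measurable (fun p : V × S2 => Ψ p.1 p.2)) :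
    ∫⁻ w, ∫⁻ ω, Φ w ω + Ψ w ω ∂sig = (∫⁻ w, ∫⁻ ω, Φ w ω ∂sig) + ∫⁻ w, ∫⁻ ω, Ψ w ω ∂sig := by
  rw [I2_eq_QpB h, I2_eq_QpB h', I2_eq_QpB (h.add h'), lintegral_add_left h]

theorem I2_mul_QpB {Φ : V → S2 → ℝ≥0∞} (h : Measurable (fun p : V × S2 => Φ p.1 p.2))
    (c : ℝ≥0∞) : ∫⁻ w, ∫⁻ ω, c * Φ w ω ∂sig = c * ∫⁻ w, ∫⁻ ω, Φ w ω ∂sig := by
  rw [I2_eq_QpB h, I2_eq_QpB (h.const_mul c), lintegral_const_mul c h]

theorem I2_mul_right_QpB {Φ : V → S2 → ℝ≥0∞} (h : Measurable (fun p : V × S2 => Φ p.1 p.2))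
    (c : ℝ≥0∞) : ∫⁻ w, ∫⁻ ω, Φ w ω * c ∂sig = (∫⁻ w, ∫⁻ ω, Φ w ω ∂sig) * c := by
  rw [mul_comm, ← I2_mul_QpB h]
  simp only [mul_comm]

theorem mb_QpB {b : V → V → S2 → ℝ≥0∞} (hb : IsKer b) (v : V) :
    Measurable (fun p : V × S2 => b v p.1 p.2) :=
  hb.measurable_comp measurable_const measurable_fst measurable_snd

theorem mq_QpB {b : V → V → S2 → ℝ≥0∞} (hb : IsKer b) {F G : V → ℝ≥0∞} (hF : Measurable F)
    (hG : Measurable G) (v : V) :
    Measurable (fun p : V × S2 => b v p.1 p.2 * (F (vp v p.1 p.2) * G (vq v p.1 p.2))) :=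
  (mb_QpB hb v).mul ((hF.comp (measurable_vp measurable_const measurable_fst measurable_snd)).mul
    (hG.comp (measurable_vq measurable_const measurable_fst measurable_snd)))

theorem ml_QpB {b : V → V → S2 → ℝ≥0∞} (hb : IsKer b) {G : V → ℝ≥0∞} (hG : Measurable G)
    (v : V) : Measurable (fun p : V × S2 => b v p.1 p.2 * G p.1) :=
  (mb_QpB hb v).mul (hG.comp measurable_fst)

theorem measurable_Qp {b : V → V → S2 → ℝ≥0∞} (hb : IsKer b) {α : Type*} [MeasurableSpace α]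
    {F G : α → V → ℝ≥0∞} {v : α → V} (hF : Measurable (Function.uncurry F))
    (hG : Measurable (Function.uncurry G)) (hv : Measurable v) :
    Measurable (fun a => Qp b (F a) (G a) (v a)) := by
  have hv' : Measurable (fun q : (α × V) × S2 => v q.1.1) := hv.comp measurable_fst.fst
  exact meas2_QpB (Φ := fun a w ω => b (v a) w ω * (F a (vp (v a) w ω) * G a (vq (v a) w ω)))
    ((hb.measurable_comp hv' measurable_fst.snd measurable_snd).mul
      ((hF.comp (measurable_fst.fst.prodMk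
        (measurable_vp hv' measurable_fst.snd measurable_snd))).mul
      (hG.comp (measurable_fst.fst.prodMk
        (measurable_vq hv' measurable_fst.snd measurable_snd)))))

theorem measurable_Lo {b : V → V → S2 → ℝ≥0∞} (hb : IsKer b) {α : Type*} [MeasurableSpace α]
    {G : α → V → ℝ≥0∞} {v : α → V} (hG : Measurable (Function.uncurry G)) (hv : Measurable v) :
    Measurable (fun a => Lo b (G a) (v a)) := by
  have hv' : Measurable (fun q : (α × V) × S2 => v q.1.1) := hv.comp measurable_fst.fst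
  exact meas2_QpB (Φ := fun a w ω => b (v a) w ω * G a w)
    ((hb.measurable_comp hv' measurable_fst.snd measurable_snd).mul (hG.comp measurable_fst))

theorem Qp_mono {b b' : V → V → S2 → ℝ≥0∞} {F F' G G' : V → ℝ≥0∞}
    (hb : ∀ v w ω, b v w ω ≤ b' v w ω) (hF : ∀ v, F v ≤ F' v) (hG : ∀ v, G v ≤ G' v) (v : V) :
    Qp b F G v ≤ Qp b' F' G' v := by
  exact lintegral_mono fun w => lintegral_mono fun ω =>
    mul_le_mul' (hb v w ω) (mul_le_mul' (hF _) (hG _))

theorem Lo_mono {b b' : V → V → S2 → ℝ≥0∞} {G G' : V → ℝ≥0∞}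
    (hb : ∀ v w ω, b v w ω ≤ b' v w ω) (hG : ∀ v, G v ≤ G' v) (v : V) :
    Lo b G v ≤ Lo b' G' v := by
  exact lintegral_mono fun w => lintegral_mono fun ω => mul_le_mul' (hb v w ω) (hG _)

theorem Qp_add_left {b : V → V → S2 → ℝ≥0∞} (hb : IsKer b) {F F' G : V → ℝ≥0∞}
    (hF : Measurable F) (hF' : Measurable F') (hG : Measurable G) (v : V) :
    Qp b (fun u => F u + F' u) G v = Qp b F G v + Qp b F' G v := by
  unfold Qp
  rw [← I2_add_QpB (mq_QpB hb hF hG v) (mq_QpB hb hF' hG v)]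
  simp only [add_mul, mul_add]

theorem Qp_add_right {b : V → V → S2 → ℝ≥0∞} (hb : IsKer b) {F G G' : V → ℝ≥0∞}
    (hF : Measurable F) (hG : Measurable G) (hG' : Measurable G') (v : V) :
    Qp b F (fun u => G u + G' u) v = Qp b F G v + Qp b F G' v := by
  unfold Qp
  rw [← I2_add_QpB (mq_QpB hb hF hG v) (mq_QpB hb hF hG' v)]
  simp only [mul_add]

theorem Qp_const_mul_left {b : V → V → S2 → ℝ≥0∞} (hb : IsKer b) {F G : V → ℝ≥0∞}
    (hF : Measurable F) (hG : Measurable G) (c : ℝ≥0∞) (v : V) :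
    Qp b (fun u => c * F u) G v = c * Qp b F G v := by
  unfold Qp
  rw [← I2_mul_QpB (mq_QpB hb hF hG v)]
  refine lintegral_congr fun w => lintegral_congr fun ω => ?_
  ring

theorem Qp_const_mul_right {b : V → V → S2 → ℝ≥0∞} (hb : IsKer b) {F G : V → ℝ≥0∞}
    (hF : Measurable F) (hG : Measurable G) (c : ℝ≥0∞) (v : V) :
    Qp b F (fun u => c * G u) v = c * Qp b F G v := by
  unfold Qp
  rw [← I2_mul_QpB (mq_QpB hb hF hG v)]
  refine lintegral_congr fun w => lintegral_congr fun ω => ?_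
  ring

theorem Qp_zero_left (b : V → V → S2 → ℝ≥0∞) (G : V → ℝ≥0∞) (v : V) :
    Qp b (fun _ => 0) G v = 0 := by
  simp [Qp]

theorem Lo_add {b : V → V → S2 → ℝ≥0∞} (hb : IsKer b) {G G' : V → ℝ≥0∞}
    (hG : Measurable G) (hG' : Measurable G') (v : V) :
    Lo b (fun u => G u + G' u) v = Lo b G v + Lo b G' v := by
  unfold Lo
  rw [← I2_add_QpB (ml_QpB hb hG v) (ml_QpB hb hG' v)]
  simp only [mul_add]

theorem Lo_const_mul {b : V → V → S2 → ℝ≥0∞} (hb : IsKer b) {G : V → ℝ≥0∞}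
    (hG : Measurable G) (c : ℝ≥0∞) (v : V) :
    Lo b (fun u => c * G u) v = c * Lo b G v := by
  unfold Lo
  rw [← I2_mul_QpB (ml_QpB hb hG v)]
  refine lintegral_congr fun w => lintegral_congr fun ω => ?_
  ring

theorem Lo_eq {b : V → V → S2 → ℝ≥0∞} (hb : IsKer b) {G : V → ℝ≥0∞} (hG : Measurable G) (v : V) :
    Lo b G v = ∫⁻ w, G w * ∫⁻ ω, b v w ω ∂sig := by
  refine lintegral_congr fun w => ?_
  rw [mul_comm]
  exact lintegral_mul_const _ (hb.measurable_comp measurable_const measurable_const measurable_id)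

theorem lintegral_ker_le {b : V → V → S2 → ℝ≥0∞} (hb : IsKer b) (v w : V) :
    ∫⁻ ω, b v w ω ∂sig ≤ ENNReal.ofReal (13 * ‖v - w‖) := by
  calc ∫⁻ ω, b v w ω ∂sig ≤ ∫⁻ _, ENNReal.ofReal ‖v - w‖ ∂sig :=
        lintegral_mono fun ω => (hb.le v w ω).trans (ENNReal.ofReal_le_ofReal (abs_aa_le v w ω))
    _ = ENNReal.ofReal ‖v - w‖ * sig univ := lintegral_const _
    _ ≤ ENNReal.ofReal ‖v - w‖ * 13 := mul_le_mul' le_rfl sig_univ_le
    _ = _ := by rw [ENNReal.ofReal_mul (by norm_num), ENNReal.ofReal_ofNat, mul_comm]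

theorem Lo_le {b : V → V → S2 → ℝ≥0∞} (hb : IsKer b) {G : V → ℝ≥0∞} (hG : Measurable G) (v : V) :
    Lo b G v ≤ ∫⁻ w, ENNReal.ofReal (13 * ‖v - w‖) * G w := by
  rw [Lo_eq hb hG]
  refine lintegral_mono fun w => ?_
  rw [mul_comm]
  exact mul_le_mul' (lintegral_ker_le hb v w) le_rfl

theorem Qp_I3_QpB {b : V → V → S2 → ℝ≥0∞} (hb : IsKer b) {F G ψ : V → ℝ≥0∞}
    (hF : Measurable F) (hG : Measurable G) :
    ∫⁻ v, Qp b F G v * ψ v =
      I3 (fun v w ω => b v w ω * (F (vp v w ω) * G (vq v w ω)) * ψ v) :=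
  lintegral_congr fun v => (I2_mul_right_QpB (mq_QpB hb hF hG v) (ψ v)).symm

theorem m3_QpB {b : V → V → S2 → ℝ≥0∞} (hb : IsKer b) {F G ψ : V → ℝ≥0∞}
    (hF : Measurable F) (hG : Measurable G) (hψ : Measurable ψ) {u : V × V × S2 → V}
    (hu : Measurable u) :
    Measurable (fun p : V × V × S2 => b p.1 p.2.1 p.2.2 * (F p.1 * G p.2.1) * ψ (u p)) :=
  (hb.meas.mul ((hF.comp measurable_fst).mul (hG.comp measurable_snd.fst))).mul (hψ.comp hu)

theorem mvp_QpB : Measurable (fun p : V × V × S2 => vp p.1 p.2.1 p.2.2) := by fun_prop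

theorem mvq_QpB : Measurable (fun p : V × V × S2 => vq p.1 p.2.1 p.2.2) := by fun_prop

/-- weak form of the gain term -/
theorem lintegral_Qp_mul {b : V → V → S2 → ℝ≥0∞} (hb : IsKer b) {F G ψ : V → ℝ≥0∞}
    (hF : Measurable F) (hG : Measurable G) (hψ : Measurable ψ) :
    ∫⁻ v, Qp b F G v * ψ v = I3 (fun v w ω => b v w ω * (F v * G w) * ψ (vp v w ω)) := by
  rw [Qp_I3_QpB hb hF hG, ← I3_coll (Φ := fun v w ω => b v w ω * (F v * G w) * ψ (vp v w ω))
    (m3_QpB hb hF hG hψ mvp_QpB)]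
  simp only [hb.coll, vp_coll]

theorem lintegral_Qp_mul' {b : V → V → S2 → ℝ≥0∞} (hb : IsKer b) {F G ψ : V → ℝ≥0∞}
    (hF : Measurable F) (hG : Measurable G) (hψ : Measurable ψ) :
    ∫⁻ v, Qp b F G v * ψ v = I3 (fun v w ω => b v w ω * (G v * F w) * ψ (vq v w ω)) := by
  rw [lintegral_Qp_mul hb hF hG hψ,
    ← I3_swap (Φ := fun v w ω => b v w ω * (F v * G w) * ψ (vp v w ω))
      (m3_QpB hb hF hG hψ mvp_QpB)]
  congr 1
  funext v w ω
  rw [hb.swap v w, vp_swap v w, mul_comm (F w)]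

/-- symmetrised weak form -/
theorem two_lintegral_Qp_mul {b : V → V → S2 → ℝ≥0∞} (hb : IsKer b) {F ψ : V → ℝ≥0∞}
    (hF : Measurable F) (hψ : Measurable ψ) :
    2 * ∫⁻ v, Qp b F F v * ψ v =
      I3 (fun v w ω => b v w ω * (F v * F w) * (ψ (vp v w ω) + ψ (vq v w ω))) := by
  simp only [mul_add]
  rw [I3_add (m3_QpB hb hF hF hψ mvp_QpB) (m3_QpB hb hF hF hψ mvq_QpB),
    ← lintegral_Qp_mul hb hF hF hψ, ← lintegral_Qp_mul' hb hF hF hψ, two_mul]

theorem lintegral_Lo_mul {b : V → V → S2 → ℝ≥0∞} (hb : IsKer b) {F G ψ : V → ℝ≥0∞}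
    (hF : Measurable F) (hG : Measurable G) (hψ : Measurable ψ) :
    ∫⁻ v, F v * Lo b G v * ψ v = I3 (fun v w ω => b v w ω * (F v * G w) * ψ v) := by
  refine lintegral_congr fun v => ?_
  unfold Lo
  rw [← I2_mul_QpB (ml_QpB hb hG v), ← I2_mul_right_QpB ((ml_QpB hb hG v).const_mul (F v))]
  refine lintegral_congr fun w => lintegral_congr fun ω => ?_
  ring

theorem two_lintegral_Lo_mul {b : V → V → S2 → ℝ≥0∞} (hb : IsKer b) {F ψ : V → ℝ≥0∞}
    (hF : Measurable F) (hψ : Measurable ψ) :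
    2 * ∫⁻ v, F v * Lo b F v * ψ v =
      I3 (fun v w ω => b v w ω * (F v * F w) * (ψ v + ψ w)) := by
  simp only [mul_add]
  rw [I3_add (m3_QpB hb hF hF hψ measurable_fst) (m3_QpB hb hF hF hψ measurable_snd.fst),
    two_mul, lintegral_Lo_mul hb hF hF hψ]
  congr 1
  rw [← I3_swap (Φ := fun v w ω => b v w ω * (F v * F w) * ψ v)
    (m3_QpB hb hF hF hψ measurable_fst)]
  congr 1
  funext v w ω
  rw [hb.swap v w, mul_comm (F w)]

theorem gain_eq {g : V → ℝ} (hg : ∀ v, 0 ≤ g v) (v : V) :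
    gain g v = Qp kI (fun u => ENNReal.ofReal (g u)) (fun u => ENNReal.ofReal (g u)) v := by
  refine lintegral_congr fun w => lintegral_congr fun ω => ?_
  rw [mul_assoc, ENNReal.ofReal_mul (abs_nonneg _), ENNReal.ofReal_mul (hg _)]
  rfl

theorem loss_eq {g : V → ℝ} (hm : Measurable g) (hg : ∀ v, 0 ≤ g v) (v : V) :
    loss g v = ENNReal.ofReal (g v) * Lo kI (fun u => ENNReal.ofReal (g u)) v := by
  unfold Lo
  rw [← I2_mul_QpB (ml_QpB isKer_kI hm.ennreal_ofReal v)]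
  refine lintegral_congr fun w => lintegral_congr fun ω => ?_
  rw [mul_assoc, ENNReal.ofReal_mul (abs_nonneg _), ENNReal.ofReal_mul (hg _), kI]
  ring

/-- `Qp` only depends on the a.e. classes (for a.e. `v`) -/
theorem Qp_congr_ae {b : V → V → S2 → ℝ≥0∞} (hb : IsKer b) {F F' G G' : V → ℝ≥0∞}
    (hF : F =ᵐ[volume] F') (hG : G =ᵐ[volume] G') :
    ∀ᵐ v, Qp b F G v = Qp b F' G' v := by
  have q := measurePreserving_coll.quasiMeasurePreserving
  have q1 := (Measure.quasiMeasurePreserving_fst.comp q).ae hF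
  have q2 := ((Measure.quasiMeasurePreserving_fst.comp
    Measure.quasiMeasurePreserving_snd).comp q).ae hG
  filter_upwards [Measure.ae_ae_of_ae_prod (q1.and q2)] with v hv
  refine lintegral_congr_ae ?_
  filter_upwards [Measure.ae_ae_of_ae_prod hv] with w hw
  refine lintegral_congr_ae ?_
  filter_upwards [hw] with ω h
  have h1 : F (vp v w ω) = F' (vp v w ω) := h.1
  have h2 : G (vq v w ω) = G' (vq v w ω) := h.2
  rw [h1, h2]

theorem Lo_congr_ae (b : V → V → S2 → ℝ≥0∞) {G G' : V → ℝ≥0∞}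
    (hG : G =ᵐ[volume] G') (v : V) : Lo b G v = Lo b G' v := by
  refine lintegral_congr_ae ?_
  filter_upwards [hG] with w hw
  rw [hw]

/-- the elementary inequality behind `Q⁺ ≤ K Q⁻ + D / log K` -/
theorem ofReal_le_jE {p q K : ℝ} (hp : 0 ≤ p) (hq : 0 ≤ q) (hK : 1 < K) :
    ENNReal.ofReal p ≤ ENNReal.ofReal (K * q) + jE p q / ENNReal.ofReal (Real.log K) := by
  have hl : 0 < Real.log K := Real.log_pos hK
  rcases le_or_gt p (K * q) with h | h
  · exact (ENNReal.ofReal_le_ofReal h).trans le_self_add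
  have hKq : q ≤ K * q := le_mul_of_one_le_left hq hK.le
  have hp0 : 0 < p := (hq.trans hKq).trans_lt h
  rcases hq.eq_or_lt with h0 | h0
  · have e : jE p q = ⊤ := by
      unfold jE
      rw [if_neg fun k => hp0.ne' k.1, if_pos (Or.inr h0.symm)]
    rw [e, ENNReal.top_div_of_ne_top ENNReal.ofReal_ne_top, add_top]
    exact le_top
  · have e : jE p q = ENNReal.ofReal ((p - q) * Real.log (p / q)) := by
      unfold jE
      rw [if_neg fun k => hp0.ne' k.1, if_neg (not_or.2 ⟨hp0.ne', h0.ne'⟩)]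
    have h1 : Real.log K ≤ Real.log (p / q) :=
      Real.log_le_log (by linarith) (by rw [le_div_iff₀ h0]; exact h.le)
    have h2 : p - q ≤ (p - q) * Real.log (p / q) / Real.log K := by
      rw [le_div_iff₀ hl]
      exact mul_le_mul_of_nonneg_left h1 (by linarith)
    rw [e, ← ENNReal.ofReal_div_of_pos hl,
      ← ENNReal.ofReal_add (hq.trans hKq) (le_trans (by linarith) h2)]
    exact ENNReal.ofReal_le_ofReal (by linarith)

theorem measurable_jE : Measurable (fun p : ℝ × ℝ => jE p.1 p.2) := by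
  have h1 : MeasurableSet {p : ℝ × ℝ | p.1 = 0} :=
    measurableSet_eq_fun measurable_fst measurable_const
  have h2 : MeasurableSet {p : ℝ × ℝ | p.2 = 0} :=
    measurableSet_eq_fun measurable_snd measurable_const
  unfold jE
  exact Measurable.ite (h1.inter h2) measurable_const
    (Measurable.ite (h1.union h2) measurable_const (by fun_prop))

theorem jE_mul {p q c : ℝ} (hp : 0 ≤ p) (hq : 0 ≤ q) (hc : 0 ≤ c) :
    jE (c * p) (c * q) = ENNReal.ofReal c * jE p q := by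
  rcases hc.eq_or_lt with h | h
  · simp [← h, jE]
  · unfold jE
    simp only [mul_eq_zero, h.ne', false_or]
    split_ifs
    · rw [mul_zero]
    · rw [ENNReal.mul_top (ENNReal.ofReal_pos.2 h).ne']
    · rw [mul_div_mul_left _ _ h.ne', ← mul_sub, mul_assoc, ENNReal.ofReal_mul hc]

/-- pointwise form of `Q⁺ ≤ K Q⁻ + D / log K` -/
theorem Qp_le_diss {b : V → V → S2 → ℝ≥0∞} (hb : IsKer b) {g : V → ℝ} (hm : Measurable g)
    (hg : ∀ v, 0 ≤ g v) {K : ℝ} (hK : 1 < K) (v : V) :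
    Qp b (fun u => ENNReal.ofReal (g u)) (fun u => ENNReal.ofReal (g u)) v ≤
      ENNReal.ofReal K * (ENNReal.ofReal (g v) * Lo b (fun u => ENNReal.ofReal (g u)) v) +
      (∫⁻ w, ∫⁻ ω, b v w ω * jE (g (vp v w ω) * g (vq v w ω)) (g v * g w) ∂sig) /
        ENNReal.ofReal (Real.log K) := by
  have hj : Measurable (fun p : V × S2 =>
      b v p.1 p.2 * jE (g (vp v p.1 p.2) * g (vq v p.1 p.2)) (g v * g p.1)) :=
    (mb_QpB hb v).mul (measurable_jE.comp
      (((hm.comp (measurable_vp measurable_const measurable_fst measurable_snd)).mul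
        (hm.comp (measurable_vq measurable_const measurable_fst measurable_snd))).prodMk
        ((hm.comp measurable_fst).const_mul (g v))))
  have hl := ml_QpB hb hm.ennreal_ofReal v
  unfold Qp Lo
  rw [div_eq_mul_inv, ← I2_mul_right_QpB hj, ← mul_assoc, ← I2_mul_QpB hl,
    ← I2_add_QpB (hl.const_mul _) (hj.mul_const _)]
  refine lintegral_mono fun w => lintegral_mono fun ω => ?_
  have k := ofReal_le_jE (mul_nonneg (hg (vp v w ω)) (hg (vq v w ω))) (mul_nonneg (hg v) (hg w)) hK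
  rw [ENNReal.ofReal_mul (hg _), ENNReal.ofReal_mul (by linarith), ENNReal.ofReal_mul (hg _),
    div_eq_mul_inv] at k
  refine (mul_le_mul' le_rfl k).trans (le_of_eq ?_)
  ring

end Vale.Agent.P140
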