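import Vale.Agent.P140.PlB
import Vale.Agent.P140.QpB

/-! Carleman representation and the swap symmetry. -/

namespace Vale.Agent.P140

open MeasureTheory Set Filter Topology
open scoped ENNReal

theorem carl_polar {Ψ : V → ℝ≥0∞} (hΨ : Measurable Ψ) :
    ∫⁻ q, Ψ q = ∫⁻ ω : S2, (∫⁻ a in Ioi (0 : ℝ),
      ENNReal.ofReal (a ^ 2) * Ψ (a • (ω : V))) ∂sig := by
  have h := (volume : Measure V).measurePreserving_homeomorphUnitSphereProd
  have hd : Module.finrank ℝ V - 1 = 2 := by simp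
  rw [hd] at h
  have hm : Measurable fun p : S2 × Ioi (0 : ℝ) => Ψ ((p.2 : ℝ) • (p.1 : V)) := by fun_prop
  have h1 := h.lintegral_comp hm
  have h2 : ∀ x : ({0}ᶜ : Set V), ((homeomorphUnitSphereProd V x).2 : ℝ) •
      ((homeomorphUnitSphereProd V x).1 : V) = x := by
    intro x
    have hx : ‖(x : V)‖ ≠ 0 := norm_ne_zero_iff.2 x.2
    rw [homeomorphUnitSphereProd_apply_snd_coe, homeomorphUnitSphereProd_apply_fst_coe,
      smul_smul, mul_inv_cancel₀ hx, one_smul]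
  simp only [h2] at h1
  rw [lintegral_subtype_comap (measurableSet_singleton _).compl Ψ,
    restrict_compl_singleton] at h1
  rw [h1, lintegral_prod _ hm.aemeasurable]
  refine lintegral_congr fun ω => ?_
  rw [Measure.volumeIoiPow, lintegral_withDensity_eq_lintegral_mul _ (by fun_prop) (by fun_prop),
    ← lintegral_subtype_comap measurableSet_Ioi]
  rfl

theorem carl_split (f : ℝ → ℝ≥0∞) :
    ∫⁻ a, f a = (∫⁻ a in Ioi (0 : ℝ), f a) + ∫⁻ a in Ioi (0 : ℝ), f (-a) := by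
  rw [← lintegral_add_compl f (measurableSet_Ioi (a := (0 : ℝ))), compl_Ioi]
  congr 1
  have h := (Measure.measurePreserving_neg (volume : Measure ℝ)).setLIntegral_comp_preimage_emb
    (MeasurableEquiv.neg ℝ).measurableEmbedding f (Iio 0)
  rw [← setLIntegral_congr Iio_ae_eq_Iic, ← h]
  congr 2
  ext a
  simp

/-- polar coordinates over the whole line -/
theorem lintegral_polar {Φ : V → ℝ≥0∞} (hΦ : Measurable Φ) :
    ∫⁻ ω : S2, (∫⁻ a : ℝ, ENNReal.ofReal |a| * Φ (a • (ω : V))) ∂sig =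
      2 * ∫⁻ q, (ENNReal.ofReal ‖q‖)⁻¹ * Φ q := by
  have key : ∀ {Ψ : V → ℝ≥0∞}, Measurable Ψ →
      ∫⁻ ω : S2, (∫⁻ a in Ioi (0 : ℝ), ENNReal.ofReal |a| * Ψ (a • (ω : V))) ∂sig =
        ∫⁻ q, (ENNReal.ofReal ‖q‖)⁻¹ * Ψ q := by
    intro Ψ hΨ
    rw [carl_polar (Ψ := fun q => (ENNReal.ofReal ‖q‖)⁻¹ * Ψ q) (by fun_prop)]
    refine lintegral_congr fun ω => setLIntegral_congr_fun measurableSet_Ioi fun a ha => ?_
    have ha' : 0 < a := ha
    have h1 : ‖a • (ω : V)‖ = a := by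
      rw [norm_smul, norm_eq_of_mem_sphere, mul_one, Real.norm_of_nonneg ha'.le]
    simp only [h1]
    rw [← mul_assoc, abs_of_pos ha', ← ENNReal.ofReal_inv_of_pos ha',
      ← ENNReal.ofReal_mul (sq_nonneg a)]
    congr 2
    field_simp
  have hsplit : ∀ ω : S2, ∫⁻ a : ℝ, ENNReal.ofReal |a| * Φ (a • (ω : V)) =
      (∫⁻ a in Ioi (0 : ℝ), ENNReal.ofReal |a| * Φ (a • (ω : V))) +
        ∫⁻ a in Ioi (0 : ℝ), ENNReal.ofReal |a| * Φ (-(a • (ω : V))) := by
    intro ω
    rw [carl_split]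
    simp only [abs_neg, neg_smul]
  have hm : Measurable fun ω : S2 =>
      ∫⁻ a in Ioi (0 : ℝ), ENNReal.ofReal |a| * Φ (a • (ω : V)) :=
    Measurable.lintegral_prod_right' (f := fun p : S2 × ℝ =>
      ENNReal.ofReal |p.2| * Φ (p.2 • (p.1 : V))) (by fun_prop)
  simp only [hsplit]
  rw [lintegral_add_left hm, key hΦ,
    key (Ψ := fun q => Φ (-q)) (by fun_prop), two_mul]
  congr 1
  rw [← lintegral_neg_eq_self]
  simp only [norm_neg, neg_neg]

theorem carl_meas {H : V → V → ℝ≥0∞} (hH : Measurable (Function.uncurry H)) :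
    Measurable fun p : V × S2 => ENNReal.ofReal |inner ℝ p.1 (p.2 : V)| *
      H (inner ℝ p.1 (p.2 : V) • (p.2 : V)) (p.1 - inner ℝ p.1 (p.2 : V) • (p.2 : V)) := by
  have h1 : Measurable fun p : V × S2 => inner ℝ p.1 (p.2 : V) := by fun_prop
  have h2 : Measurable fun p : V × S2 => inner ℝ p.1 (p.2 : V) • (p.2 : V) := by fun_prop
  exact (h1.abs.ennreal_ofReal).mul (hH.comp (h2.prodMk (measurable_fst.sub h2)))

theorem carleman {H : V → V → ℝ≥0∞} (hH : Measurable (Function.uncurry H)) :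
    ∫⁻ g : V, ∫⁻ ω : S2, ENNReal.ofReal |inner ℝ g (ω : V)| *
        H (inner ℝ g (ω : V) • (ω : V)) (g - inner ℝ g (ω : V) • (ω : V)) ∂sig =
      2 * ∫⁻ q, (ENNReal.ofReal ‖q‖)⁻¹ * Pl q (H q) := by
  have hm : Measurable (Function.uncurry fun (g : V) (ω : S2) =>
      ENNReal.ofReal |inner ℝ g (ω : V)| *
        H (inner ℝ g (ω : V) • (ω : V)) (g - inner ℝ g (ω : V) • (ω : V))) :=
    carl_meas hH
  rw [lintegral_lintegral_swap hm.aemeasurable,
    ← lintegral_polar (Φ := fun q => Pl q (H q)) (measurable_Pl measurable_id hH)]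
  refine lintegral_congr fun ω => ?_
  have hω : ‖(ω : V)‖ = 1 := norm_eq_of_mem_sphere ω
  have hω0 : (ω : V) ≠ 0 := norm_ne_zero_iff.1 (by rw [hω]; exact one_ne_zero)
  have hK : Measurable (Function.uncurry fun (a : ℝ) (p : V) =>
      ENNReal.ofReal |a| * H (a • (ω : V)) p) := by
    have : Measurable fun z : ℝ × V => H (z.1 • (ω : V)) z.2 :=
      hH.comp (f := fun z : ℝ × V => (z.1 • (ω : V), z.2)) (by fun_prop)
    exact Measurable.mul (by fun_prop) this
  rw [lintegral_decomp hω hK]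
  refine lintegral_congr fun a => ?_
  have hHa : Measurable (H (a • (ω : V))) := hH.of_uncurry_left
  rw [Pl_const_mul _ hHa]
  rcases eq_or_ne a 0 with rfl | ha
  · simp
  · rw [Pl_smul hω0 ha hHa]

/-- the point with coordinates `(y.1, y.2, s)` -/
noncomputable def carlE (y : ℝ × ℝ) (s : ℝ) : V := WithLp.toLp 2 ![y.1, y.2, s]

theorem carl_meas_E {α : Type*} [MeasurableSpace α] {y : α → ℝ × ℝ} {s : α → ℝ}
    (hy : Measurable y) (hs : Measurable s) : Measurable fun a => carlE (y a) (s a) := by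
  refine (MeasurableEquiv.toLp 2 (Fin 3 → ℝ)).measurable.comp
    (f := fun a => ![(y a).1, (y a).2, s a]) (measurable_pi_lambda _ fun i => ?_)
  fin_cases i
  · exact hy.fst
  · exact hy.snd
  · exact hs

theorem carl_coord {F : V → ℝ≥0∞} (hF : Measurable F) :
    ∫⁻ q, F q = ∫⁻ s : ℝ, ∫⁻ y : ℝ × ℝ, F (carlE y s) := by
  rw [lintegral_frame (n := EuclideanSpace.single 2 1) (e1 := EuclideanSpace.single 0 1)
    (e2 := EuclideanSpace.single 1 1) (by simp) (by simp) (by simp)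
    (by simp [EuclideanSpace.inner_single_left]) (by simp [EuclideanSpace.inner_single_left])
    (by simp [EuclideanSpace.inner_single_left]) hF]
  refine lintegral_congr fun s => lintegral_congr fun y => ?_
  congr 1
  ext i
  fin_cases i <;> simp [carlE]

theorem carl_meas_K {H : V → V → ℝ≥0∞} (hH : Measurable (Function.uncurry H))
    {α : Type*} [MeasurableSpace α] {y z : α → ℝ × ℝ} {s : α → ℝ}
    (hy : Measurable y) (hz : Measurable z) (hs : Measurable s) :
    Measurable fun a => (ENNReal.ofReal |s a|)⁻¹ * H (carlE (y a) (s a))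
      (carlE (z a) (-((z a).1 * (y a).1 + (z a).2 * (y a).2) / s a)) :=
  (hs.abs.ennreal_ofReal.inv).mul
    (hH.comp ((carl_meas_E hy hs).prodMk (carl_meas_E hz (by fun_prop))))

theorem carl_meas_J {H : V → V → ℝ≥0∞} (hH : Measurable (Function.uncurry H)) :
    Measurable (Function.uncurry fun y z : ℝ × ℝ => ∫⁻ s : ℝ, (ENNReal.ofReal |s|)⁻¹ *
      H (carlE y s) (carlE z (-(z.1 * y.1 + z.2 * y.2) / s))) :=
  Measurable.lintegral_prod_right' (carl_meas_K hH (α := ((ℝ × ℝ) × (ℝ × ℝ)) × ℝ)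
    measurable_fst.fst measurable_fst.snd measurable_snd)

theorem carl_graph {H : V → V → ℝ≥0∞} (hH : Measurable (Function.uncurry H)) :
    ∫⁻ q, (ENNReal.ofReal ‖q‖)⁻¹ * Pl q (H q) =
      ∫⁻ y : ℝ × ℝ, ∫⁻ z : ℝ × ℝ, ∫⁻ s : ℝ, (ENNReal.ofReal |s|)⁻¹ *
        H (carlE y s) (carlE z (-(z.1 * y.1 + z.2 * y.2) / s)) := by
  have hP : Measurable fun q => Pl q (H q) := measurable_Pl measurable_id hH
  rw [carl_coord (F := fun q => (ENNReal.ofReal ‖q‖)⁻¹ * Pl q (H q)) (by fun_prop)]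
  have h1 : ∀ s : ℝ, s ≠ 0 → ∀ y : ℝ × ℝ,
      (ENNReal.ofReal ‖carlE y s‖)⁻¹ * Pl (carlE y s) (H (carlE y s)) =
        ∫⁻ z : ℝ × ℝ, (ENNReal.ofReal |s|)⁻¹ *
          H (carlE y s) (carlE z (-(z.1 * y.1 + z.2 * y.2) / s)) := by
    intro s hs y
    have h2 : carlE y s 2 = s := rfl
    have hq : carlE y s 2 ≠ 0 := hs
    have hn : 0 < ‖carlE y s‖ := norm_pos_iff.2 fun h => hq (by rw [h]; rfl)
    have hm : Measurable fun z : ℝ × ℝ =>
        H (carlE y s) (carlE z (-(z.1 * y.1 + z.2 * y.2) / s)) :=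
      hH.of_uncurry_left.comp (carl_meas_E measurable_id (by fun_prop))
    rw [Pl_graph hq hH.of_uncurry_left, lintegral_const_mul _ hm, ← mul_assoc,
      ← ENNReal.ofReal_inv_of_pos hn, ← ENNReal.ofReal_mul (inv_nonneg.2 hn.le), h2,
      ← ENNReal.ofReal_inv_of_pos (abs_pos.2 hs)]
    congr 2
    field_simp
  have h3 : ∫⁻ s : ℝ, ∫⁻ y : ℝ × ℝ,
      (ENNReal.ofReal ‖carlE y s‖)⁻¹ * Pl (carlE y s) (H (carlE y s)) =
      ∫⁻ s : ℝ, ∫⁻ y : ℝ × ℝ, ∫⁻ z : ℝ × ℝ, (ENNReal.ofReal |s|)⁻¹ *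
        H (carlE y s) (carlE z (-(z.1 * y.1 + z.2 * y.2) / s)) := by
    refine lintegral_congr_ae ?_
    filter_upwards
      [(compl_mem_ae_iff.2 (measure_singleton (0 : ℝ)) : ∀ᵐ s : ℝ, s ∉ ({0} : Set ℝ))] with s hs
    exact lintegral_congr fun y => h1 s hs y
  rw [h3, lintegral_lintegral_swap]
  · refine lintegral_congr fun y => lintegral_lintegral_swap ?_
    exact (carl_meas_K hH (α := ℝ × ℝ × ℝ) measurable_const measurable_snd
      measurable_fst).aemeasurable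
  · exact (Measurable.lintegral_prod_right' (carl_meas_K hH (α := (ℝ × ℝ × ℝ) × ℝ × ℝ)
      measurable_fst.snd measurable_snd measurable_fst.fst)).aemeasurable

theorem carl_inv {c : ℝ} (hc : c ≠ 0) (G : ℝ → ℝ≥0∞) :
    ∫⁻ s : ℝ, (ENNReal.ofReal |s|)⁻¹ * G s =
      ∫⁻ s : ℝ, (ENNReal.ofReal |s|)⁻¹ * G (-c / s) := by
  have hd : ∀ x ∈ ({0}ᶜ : Set ℝ), HasDerivWithinAt (fun x : ℝ => -c / x) (c / x ^ 2) {0}ᶜ x := by
    intro x hx
    have hx' : x ≠ 0 := hx
    have h := (hasDerivAt_inv hx').const_mul (-c)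
    have e : c / x ^ 2 = -c * -(x ^ 2)⁻¹ := by rw [neg_mul_neg, div_eq_mul_inv]
    simp only [div_eq_mul_inv (-c), e]
    exact h.hasDerivWithinAt
  have hi : InjOn (fun x : ℝ => -c / x) {0}ᶜ := by
    intro x hx y hy h
    have hx' : x ≠ 0 := hx
    have hy' : y ≠ 0 := hy
    have h' : -c / x = -c / y := h
    field_simp at h'
    linarith
  have him : (fun x : ℝ => -c / x) '' {0}ᶜ = {0}ᶜ := by
    ext y
    simp only [mem_image, mem_compl_iff, mem_singleton_iff]
    constructor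
    · rintro ⟨x, hx, rfl⟩
      exact div_ne_zero (neg_ne_zero.2 hc) hx
    · intro hy
      exact ⟨-c / y, div_ne_zero (neg_ne_zero.2 hc) hy, by field_simp⟩
  have h := lintegral_image_eq_lintegral_abs_deriv_mul (measurableSet_singleton (0 : ℝ)).compl
    hd hi fun s => (ENNReal.ofReal |s|)⁻¹ * G s
  rw [him, restrict_compl_singleton] at h
  rw [h]
  refine lintegral_congr_ae ?_
  filter_upwards
    [(compl_mem_ae_iff.2 (measure_singleton (0 : ℝ)) : ∀ᵐ s : ℝ, s ∉ ({0} : Set ℝ))] with s hs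
  have hs' : s ≠ 0 := hs
  have h1 : 0 < |-c / s| := abs_pos.2 (div_ne_zero (neg_ne_zero.2 hc) hs')
  have h2 : 0 < |s| := abs_pos.2 hs'
  have h3 : 0 < |c| := abs_pos.2 hc
  rw [← mul_assoc, ← ENNReal.ofReal_inv_of_pos h1, ← ENNReal.ofReal_mul (abs_nonneg _),
    ← ENNReal.ofReal_inv_of_pos h2]
  congr 2
  rw [abs_div, abs_div, abs_neg, abs_pow]
  field_simp

theorem carl_ae_ne : ∀ᵐ y : ℝ × ℝ, y ≠ 0 :=
  compl_mem_ae_iff.2 (measure_singleton (0 : ℝ × ℝ))

theorem carl_ae_dot {y : ℝ × ℝ} (hy : y ≠ 0) : ∀ᵐ z : ℝ × ℝ, z.1 * y.1 + z.2 * y.2 ≠ 0 := by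
  let L : ℝ × ℝ →ₗ[ℝ] ℝ := y.1 • LinearMap.fst ℝ ℝ ℝ + y.2 • LinearMap.snd ℝ ℝ ℝ
  have hL : ∀ z : ℝ × ℝ, L z = z.1 * y.1 + z.2 * y.2 := fun z => by
    simp only [L, LinearMap.add_apply, LinearMap.smul_apply, LinearMap.fst_apply,
      LinearMap.snd_apply, smul_eq_mul]
    ring
  have hne : LinearMap.ker L ≠ ⊤ := by
    intro h
    have h1 : y ∈ LinearMap.ker L := h ▸ Submodule.mem_top
    rw [LinearMap.mem_ker, hL] at h1
    exact hy (Prod.ext (by simp only [Prod.fst_zero]; nlinarith)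
      (by simp only [Prod.snd_zero]; nlinarith))
  have h0 := Measure.addHaar_submodule (volume : Measure (ℝ × ℝ)) _ hne
  filter_upwards [compl_mem_ae_iff.2 h0] with z hz
  rw [← hL]
  exact hz

/-- the measure `|q|⁻¹ dq dσ_{q^⊥}(p)` on orthogonal pairs is symmetric -/
theorem carleman_swap {H : V → V → ℝ≥0∞} (hH : Measurable (Function.uncurry H)) :
    ∫⁻ q, (ENNReal.ofReal ‖q‖)⁻¹ * Pl q (H q) =
      ∫⁻ q, (ENNReal.ofReal ‖q‖)⁻¹ * Pl q (fun p => H p q) := by
  have hH' : Measurable (Function.uncurry fun q p => H p q) := hH.comp measurable_swap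
  rw [carl_graph hH, carl_graph hH',
    lintegral_lintegral_swap (carl_meas_J hH').aemeasurable]
  refine lintegral_congr_ae ?_
  filter_upwards [carl_ae_ne] with y hy
  refine lintegral_congr_ae ?_
  filter_upwards [carl_ae_dot hy] with z hz
  rw [carl_inv hz]
  refine lintegral_congr_ae ?_
  filter_upwards [(compl_mem_ae_iff.2 (measure_singleton (0 : ℝ)) : ∀ᵐ s : ℝ, s ∉ ({0} : Set ℝ))]
    with s hs
  have hs' : s ≠ 0 := hs
  have e1 : -(z.1 * y.1 + z.2 * y.2) / (-(z.1 * y.1 + z.2 * y.2) / s) = s := by field_simp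
  have e2 : y.1 * z.1 + y.2 * z.2 = z.1 * y.1 + z.2 * y.2 := by ring
  simp only [e1, e2]

theorem coll_carl {H : V → V → ℝ≥0∞} (hH : Measurable (Function.uncurry H)) (v : V) :
    ∫⁻ w, ∫⁻ ω, kI v w ω * H (vp v w ω) (vq v w ω) ∂sig =
      2 * ∫⁻ q, (ENNReal.ofReal ‖q‖)⁻¹ * Pl q (fun p => H (v - q) (v - p)) := by
  have hH' : Measurable (Function.uncurry fun q p => H (v - q) (v - p)) :=
    hH.comp (f := fun z : V × V => (v - z.1, v - z.2)) (by fun_prop)
  rw [← carleman hH', ← lintegral_sub_left_eq_self _ v]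
  refine lintegral_congr fun g => lintegral_congr fun ω => ?_
  have e : v - g + inner ℝ g (ω : V) • (ω : V) = v - (g - inner ℝ g (ω : V) • (ω : V)) := by abel
  simp only [kI, vp, vq, aa, sub_sub_cancel, e]

theorem coll_swap {H : V → V → ℝ≥0∞} (hH : Measurable (Function.uncurry H)) (v : V) :
    ∫⁻ w, ∫⁻ ω, kI v w ω * H (vp v w ω) (vq v w ω) ∂sig =
      ∫⁻ w, ∫⁻ ω, kI v w ω * H (vq v w ω) (vp v w ω) ∂sig := by
  have hH' : Measurable (Function.uncurry fun q p => H (v - q) (v - p)) :=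
    hH.comp (f := fun z : V × V => (v - z.1, v - z.2)) (by fun_prop)
  rw [coll_carl hH, coll_carl (H := fun a b => H b a) (hH.comp measurable_swap),
    carleman_swap hH']

theorem Qp_carl {F G : V → ℝ≥0∞} (hF : Measurable F) (hG : Measurable G) (v : V) :
    Qp kI F G v = 2 * ∫⁻ q, (ENNReal.ofReal ‖q‖)⁻¹ * (F (v - q) * Pl q (fun p => G (v - p))) := by
  have h := coll_carl (H := fun a b => F a * G b)
    ((hF.comp measurable_fst).mul (hG.comp measurable_snd)) v
  rw [Qp, h]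
  congr 1
  refine lintegral_congr fun q => ?_
  rw [Pl_const_mul q (F := fun p => G (v - p)) (by fun_prop)]

theorem Qp_comm {F G : V → ℝ≥0∞} (hF : Measurable F) (hG : Measurable G) (v : V) :
    Qp kI F G v = Qp kI G F v := by
  have h := coll_swap (H := fun a b => F a * G b)
    ((hF.comp measurable_fst).mul (hG.comp measurable_snd)) v
  rw [Qp, h, Qp]
  simp only [mul_comm (F _)]

/-- sphere-level symmetry, for almost every relative velocity -/
theorem sphere_swap_ae {F : V → ℝ≥0∞} (hF : Measurable F) :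
    ∀ᵐ g : V, ∫⁻ ω : S2, ENNReal.ofReal |inner ℝ g (ω : V)| *
        F (g - inner ℝ g (ω : V) • (ω : V)) ∂sig =
      ∫⁻ ω : S2, ENNReal.ofReal |inner ℝ g (ω : V)| * F (inner ℝ g (ω : V) • (ω : V)) ∂sig := by
  have m1 := carl_meas (H := fun _ p => F p) (hF.comp measurable_snd)
  have m2 := carl_meas (H := fun q _ => F q) (hF.comp measurable_fst)
  refine ae_eq_of_forall_setLIntegral_eq_of_sigmaFinite
    (Measurable.lintegral_prod_right' m1) (Measurable.lintegral_prod_right' m2) fun s hs _ => ?_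
  have hI : Measurable (s.indicator (fun _ => (1 : ℝ≥0∞))) := measurable_const.indicator hs
  have hH : Measurable (Function.uncurry fun q p : V =>
      s.indicator (fun _ => (1 : ℝ≥0∞)) (q + p) * F p) :=
    (hI.comp measurable_add).mul (hF.comp measurable_snd)
  have h := carleman hH
  rw [carleman_swap hH, ← carleman (H := fun q p : V =>
    s.indicator (fun _ => (1 : ℝ≥0∞)) (p + q) * F q) (hH.comp measurable_swap)] at h
  rw [← lintegral_indicator hs, ← lintegral_indicator hs]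
  refine (lintegral_congr fun g => ?_).trans (h.trans (lintegral_congr fun g => ?_))
  · by_cases hg : g ∈ s <;> simp [hg]
  · by_cases hg : g ∈ s <;> simp [hg]

end Vale.Agent.P140
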