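import Vale.Agent.P140.Defs

/-! Internal definitions for the P140 project (see notes/P140.md). -/

namespace Vale.Agent.P140

open MeasureTheory Set Filter Topology
open scoped ENNReal

noncomputable section

/-- phase space -/
abbrev Om : Type := X × V

/-- free flow on phase space -/
def sh (t : ℝ) (z : Om) : Om := (z.1 + pr (t • z.2), z.2)

/-- reference Gaussian -/
def G0 (v : V) : ℝ := Real.exp (-2 * ‖v‖ ^ 2)

/-- full hard-sphere kernel -/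
def kI (v w : V) (ω : S2) : ℝ≥0∞ := ENNReal.ofReal |aa v w ω|

/-- truncated kernel -/
def kN (n : ℕ) (v w : V) (ω : S2) : ℝ≥0∞ :=
  if ‖v‖ ^ 2 + ‖w‖ ^ 2 ≤ (n : ℝ) ^ 2 ∧ 1 / (n : ℝ) ≤ |aa v w ω| then
    ENNReal.ofReal |aa v w ω| else 0

/-- admissible kernels -/
structure IsKer (b : V → V → S2 → ℝ≥0∞) : Prop where
  meas : Measurable (fun p : V × V × S2 => b p.1 p.2.1 p.2.2)
  le : ∀ v w ω, b v w ω ≤ kI v w ω
  swap : ∀ v w ω, b w v ω = b v w ω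
  coll : ∀ v w ω, b (vp v w ω) (vq v w ω) ω = b v w ω

/-- bilinear gain operator -/
def Qp (b : V → V → S2 → ℝ≥0∞) (F G : V → ℝ≥0∞) (v : V) : ℝ≥0∞ :=
  ∫⁻ w, ∫⁻ ω, b v w ω * (F (vp v w ω) * G (vq v w ω)) ∂sig

/-- collision frequency -/
def Lo (b : V → V → S2 → ℝ≥0∞) (G : V → ℝ≥0∞) (v : V) : ℝ≥0∞ :=
  ∫⁻ w, ∫⁻ ω, b v w ω * G w ∂sig

/-- integral over all collision parameters -/
def I3 (Φ : V → V → S2 → ℝ≥0∞) : ℝ≥0∞ := ∫⁻ v, ∫⁻ w, ∫⁻ ω, Φ v w ω ∂sig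

/-- the collision map -/
def coll (p : V × V × S2) : V × V × S2 := (vp p.1 p.2.1 p.2.2, vq p.1 p.2.1 p.2.2, p.2.2)

/-- velocity slice of a phase-space density, as an `ℝ≥0∞`-valued function -/
def eo (g : Om → ℝ) (x : X) : V → ℝ≥0∞ := fun v => ENNReal.ofReal (g (x, v))

/-- mass density -/
def den (g : Om → ℝ) (x : X) : ℝ := ∫ v, g (x, v)

/-- DiPerna-Lions normalisation -/
def kap (n : ℕ) (g : Om → ℝ) (x : X) : ℝ := 1 / (1 + den g x / n)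

/-- truncated normalised gain -/
def qn (n : ℕ) (g : Om → ℝ) (z : Om) : ℝ :=
  kap n g z.1 * (Qp (kN n) (eo g z.1) (eo g z.1) z.2).toReal

/-- truncated normalised collision frequency -/
def ln (n : ℕ) (g : Om → ℝ) (z : Om) : ℝ :=
  kap n g z.1 * (Lo (kN n) (eo g z.1) z.2).toReal

/-- optical depth along the characteristic through `z` at time `0` -/
def LamN (n : ℕ) (f : ℝ → Om → ℝ) (s t : ℝ) (z : Om) : ℝ := ∫ τ in s..t, ln n (f τ) (sh τ z)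

/-- truncated dissipation -/
def dissN (n : ℕ) (g : Om → ℝ) : ℝ≥0∞ :=
  (1 / 4) * ∫⁻ x, ENNReal.ofReal (kap n g x) * I3 (fun v w ω => kN n v w ω *
    jE (g (x, vp v w ω) * g (x, vq v w ω)) (g (x, v) * g (x, w)))

/-- global mild solution of the truncated equation -/
structure TrSol (n : ℕ) (f0 : Om → ℝ) (f : ℝ → Om → ℝ) : Prop where
  npos : 1 ≤ n
  meas0 : Measurable f0
  meas : Measurable (Function.uncurry f)
  nonneg : ∀ t z, 0 ≤ f t z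
  ub : ∀ T : ℝ, ∃ C : ℝ, ∀ t ∈ Icc 0 T, ∀ z, f t z ≤ C * G0 z.2
  lb : ∀ T : ℝ, ∃ c : ℝ, 0 < c ∧ ∀ t ∈ Icc 0 T, ∀ z, c * G0 z.2 ≤ f t z
  mild : ∀ t, 0 ≤ t → ∀ z, f t (sh t z) = f0 z * Real.exp (-LamN n f 0 t z) +
    ∫ s in (0 : ℝ)..t, Real.exp (-LamN n f s t z) * qn n (f s) (sh s z)

/-- an approximating sequence for the datum `F0` -/
structure Appr (F0 : Om → ℝ) (n : ℕ → ℕ) (f0 : ℕ → Om → ℝ) (f : ℕ → ℝ → Om → ℝ) : Prop where
  dat : IsDatum F0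
  ntop : Tendsto n atTop atTop
  sol : ∀ i, TrSol (n i) (f0 i) (f i)
  le : ∀ i z, f0 i z ≤ F0 z + G0 z.2
  lim : ∀ z, Tendsto (fun i => f0 i z) atTop (𝓝 (F0 z))

/-- space-time measure on `(0,T] × Ω` -/
def mT (T : ℝ) : Measure (ℝ × Om) := ((volume : Measure ℝ).restrict (Ioc 0 T)).prod volume

/-- axial unit vector -/
def e0 : V := EuclideanSpace.single 0 1

/-- in-plane part of a vector -/
def vb (v : V) : V := v - v 0 • e0

/-- integral over the plane orthogonal to `q` (for `q ≠ 0`) -/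
def Pl (q : V) (F : V → ℝ≥0∞) : ℝ≥0∞ :=
  ∫⁻ g : V, (Icc (0 : ℝ) 1).indicator (fun _ => (1 : ℝ≥0∞)) (inner ℝ g (‖q‖⁻¹ • q)) *
    F (g - inner ℝ g (‖q‖⁻¹ • q) • (‖q‖⁻¹ • q))

/-- representative in `(-1/2, 1/2]` -/
def rep (y : UnitAddCircle) : ℝ := ((AddCircle.equivIoc 1 (-(1 / 2)) y : Ioc (-(1 / 2) : ℝ) (-(1 / 2) + 1)) : ℝ)

/-- in-plane lift of a point of the torus -/
def xt (x : X) : V := WithLp.toLp 2 ![0, rep (x 1), rep (x 2)]

/-- distance to the axis -/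
def rr (x : X) : ℝ := ‖xt x‖

/-- radial unit vector (zero on the axis) -/
def xh (x : X) : V := (rr x)⁻¹ • xt x

end

end Vale.Agent.P140
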