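import Vale.Agent.P140.DLEqui
import Vale.Agent.P140.CF

/-! Velocity averaging: strong convergence of velocity averages. -/

namespace Vale.Agent.P140

open MeasureTheory Set Filter Topology
open scoped ENNReal

private theorem dlav_fam {α : Type*} [MeasurableSpace α] {μ : Measure α} {E : ℕ → Set α}
    {u : ℕ → α → ℝ} (h : Fam μ E u) {s : Set α} (hs : MeasurableSet s) :
    Fam (μ.restrict s) E u := by
  refine ⟨h.measE, fun R => (Measure.restrict_apply_le _ _).trans_lt (h.finE R), h.meas, h.nonneg,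
    fun i => (h.int i).restrict, fun ε hε => ?_⟩
  obtain ⟨K, R, hK, h1⟩ := h.uit ε hε
  refine ⟨K, R, hK, fun i ψ hψ hψ1 => ?_⟩
  have h2 := h1 i (s.indicator ψ) (hψ.indicator hs) fun a => by
    by_cases ha : a ∈ s
    · simpa [ha] using hψ1 a
    · simp [ha]
  rw [integral_indicator hs, Measure.restrict_comm hs] at h2
  simp only [← indicator_mul_right] at h2
  rwa [integral_indicator hs] at h2

private theorem dlav_wconv {α : Type*} [MeasurableSpace α] {μ : Measure α} {U : Filter ℕ}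
    {u : ℕ → α → ℝ} {v : α → ℝ} (h : WConv U μ u v) {s : Set α} (hs : MeasurableSet s) :
    WConv U (μ.restrict s) u v := by
  rintro ψ hψ ⟨C, hC⟩
  have h2 := h (s.indicator ψ) (hψ.indicator hs) ⟨|C|, fun a => by
    by_cases ha : a ∈ s
    · simpa [ha] using (hC a).trans (le_abs_self C)
    · simp [ha]⟩
  simp only [← indicator_mul_right] at h2
  simpa only [integral_indicator hs] using h2

/-- space-time measure on `(a,b] × Ω` -/
private noncomputable def mI (a b : ℝ) : Measure (ℝ × Om) :=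
  ((volume : Measure ℝ).restrict (Ioc a b)).prod volume

private theorem dlav_restrict {a b T : ℝ} (ha : 0 ≤ a) (hb : b ≤ T) :
    (mT T).restrict (Ioc a b ×ˢ univ) = mI a b := by
  rw [mT, ← Measure.prod_restrict, Measure.restrict_univ,
    Measure.restrict_restrict measurableSet_Ioc, inter_eq_left.2 (Ioc_subset_Ioc ha hb), mI]

/-- time integral -/
private noncomputable def tI (a b : ℝ) (g : ℝ × Om → ℝ) (z : Om) : ℝ := ∫ t in Ioc a b, g (t, z)

private theorem dlav_tI_meas (a b : ℝ) {g : ℝ × Om → ℝ} (hg : Measurable g) :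
    Measurable (tI a b g) :=
  (hg.stronglyMeasurable.integral_prod_left' (μ := (volume : Measure ℝ).restrict (Ioc a b))).measurable

private theorem dlav_tI_int {a b : ℝ} {g : ℝ × Om → ℝ} (hg : Integrable g (mI a b)) :
    Integrable (tI a b g) :=
  Integrable.integral_prod_right (μ := (volume : Measure ℝ).restrict (Ioc a b)) hg

private theorem dlav_tI_le {a b : ℝ} (hab : a ≤ b) {θ : ℝ × Om → ℝ} (h1 : ∀ p, |θ p| ≤ 1)
    (z : Om) : |tI a b θ z| ≤ b - a := by
  have := norm_setIntegral_le_of_norm_le_const (μ := (volume : Measure ℝ)) (s := Ioc a b)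
    (f := fun t => θ (t, z)) (C := 1) measure_Ioc_lt_top fun t _ => h1 _
  rwa [one_mul, Real.volume_real_Ioc_of_le hab] at this

private theorem dlav_I1 {a b : ℝ} {g : ℝ × Om → ℝ} (hg : Integrable g (mI a b)) {χ : Om → ℝ}
    (hχ : Measurable χ) {C : ℝ} (hC : ∀ z, |χ z| ≤ C) :
    ∫ p, g p * χ p.2 ∂(mI a b) = ∫ z, tI a b g z * χ z := by
  have h : Integrable (fun p : ℝ × Om => g p * χ p.2) (mI a b) :=
    WL_int_mul hg (hχ.comp measurable_snd) (C := C) fun p => hC p.2
  rw [mI, integral_prod_symm _ h]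
  simp only [integral_mul_const, tI]

private theorem dlav_I2 (a b : ℝ) {g : Om → ℝ} (hg : Integrable g) {θ : ℝ × Om → ℝ}
    (hθ : Measurable θ) (h1 : ∀ p, |θ p| ≤ 1) :
    ∫ p, g p.2 * θ p ∂(mI a b) = ∫ z, g z * tI a b θ z := by
  have h0 : Integrable (fun p : ℝ × Om => g p.2) (mI a b) := hg.comp_snd _
  have h := WL_int_mul h0 hθ h1
  rw [mI, integral_prod_symm _ h]
  simp only [integral_const_mul, tI]

private theorem dlav_osc {a b ε : ℝ} (hab : a ≤ b) {u : ℝ × Om → ℝ} (hu : Integrable u (mI a b))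
    (he : ∀ s ∈ Ioc a b, ∀ t ∈ Ioc a b, ∫ z, |u (t, z) - u (s, z)| ≤ ε) :
    ∫ p, |(b - a) * u p - tI a b u p.2| ∂(mI a b) ≤ ε * (b - a) ^ 2 := by
  have h0 : Integrable (fun p : ℝ × Om => tI a b u p.2) (mI a b) := (dlav_tI_int hu).comp_snd _
  have hI : Integrable (fun p : ℝ × Om => |(b - a) * u p - tI a b u p.2|) (mI a b) :=
    ((hu.const_mul _).sub h0).abs
  have hv : ((volume : Measure ℝ).restrict (Ioc a b)).real univ = b - a := by
    rw [measureReal_restrict_apply_univ, Real.volume_real_Ioc_of_le hab]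
  rw [mI, integral_prod _ hI]
  have e : ε * (b - a) ^ 2 = ∫ _t in Ioc a b, ε * (b - a) := by
    rw [integral_const, hv, smul_eq_mul]
    ring
  rw [e]
  refine integral_mono_ae hI.integral_prod_left (integrable_const _) ?_
  filter_upwards [Integrable.prod_right_ae (μ := (volume : Measure ℝ).restrict (Ioc a b)) hu,
    ae_restrict_mem measurableSet_Ioc] with t ht htm
  have h1 : Integrable (fun p : ℝ × Om => |u (t, p.2) - u p|)
      (((volume : Measure ℝ).restrict (Ioc a b)).prod volume) := ((ht.comp_snd _).sub hu).abs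
  calc ∫ z, |(b - a) * u (t, z) - tI a b u z| ≤ ∫ z, ∫ s in Ioc a b, |u (t, z) - u (s, z)| := by
        refine integral_mono_of_nonneg (Eventually.of_forall fun z => abs_nonneg _)
          h1.integral_prod_right ?_
        filter_upwards [Integrable.prod_left_ae (μ := (volume : Measure ℝ).restrict (Ioc a b)) hu]
          with z hz
        have e2 : (b - a) * u (t, z) - tI a b u z = ∫ s in Ioc a b, (u (t, z) - u (s, z)) := by
          rw [integral_sub (integrable_const _) hz, integral_const, hv, smul_eq_mul, tI]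
        rw [e2]
        exact abs_integral_le_integral_abs
    _ = ∫ s in Ioc a b, ∫ z, |u (t, z) - u (s, z)| :=
        (integral_prod_symm _ h1).symm.trans (integral_prod _ h1)
    _ ≤ ∫ _s in Ioc a b, ε := by
        refine integral_mono_ae h1.integral_prod_left (integrable_const _) ?_
        filter_upwards [ae_restrict_mem measurableSet_Ioc] with s hs
        exact he s hs t htm
    _ = ε * (b - a) := by rw [integral_const, hv, smul_eq_mul, mul_comm]

private theorem dlav_split {a b : ℝ} (hab : a ≤ b) {u θ : ℝ × Om → ℝ}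
    (hu : Integrable u (mI a b)) (hθ : Measurable θ) (h1 : ∀ p, |θ p| ≤ 1) :
    ∫ p, u p * ((b - a) * θ p - tI a b θ p.2) ∂(mI a b) =
      (b - a) * (∫ p, u p * θ p ∂(mI a b)) - ∫ z, tI a b u z * tI a b θ z := by
  have h2 : Integrable (fun p : ℝ × Om => u p * tI a b θ p.2) (mI a b) :=
    WL_int_mul hu ((dlav_tI_meas a b hθ).comp measurable_snd) fun p => dlav_tI_le hab h1 p.2
  rw [← dlav_I1 hu (dlav_tI_meas a b hθ) (dlav_tI_le hab h1), ← integral_const_mul,
    ← integral_sub ((WL_int_mul hu hθ h1).const_mul _) h2]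
  congr 1
  ext p
  ring

private theorem dlav_key {a b ε : ℝ} (hab : a ≤ b) {u θ : ℝ × Om → ℝ}
    (hu : Integrable u (mI a b))
    (he : ∀ s ∈ Ioc a b, ∀ t ∈ Ioc a b, ∫ z, |u (t, z) - u (s, z)| ≤ ε)
    (hθ : Measurable θ) (h1 : ∀ p, |θ p| ≤ 1) :
    |∫ p, u p * ((b - a) * θ p - tI a b θ p.2) ∂(mI a b)| ≤ ε * (b - a) ^ 2 := by
  have h0 : Integrable (fun p : ℝ × Om => tI a b u p.2) (mI a b) := (dlav_tI_int hu).comp_snd _
  rw [dlav_split hab hu hθ h1, ← dlav_I2 a b (dlav_tI_int hu) hθ h1, ← integral_const_mul,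
    ← integral_sub ((WL_int_mul hu hθ h1).const_mul _) (WL_int_mul h0 hθ h1)]
  refine le_trans abs_integral_le_integral_abs (le_trans ?_ (dlav_osc hab hu he))
  refine integral_mono (((WL_int_mul hu hθ h1).const_mul _).sub (WL_int_mul h0 hθ h1)).abs
    ((hu.const_mul _).sub h0).abs fun p => ?_
  have e : (b - a) * (u p * θ p) - tI a b u p.2 * θ p = ((b - a) * u p - tI a b u p.2) * θ p := by
    ring
  simp only [e, abs_mul]
  exact mul_le_of_le_one_right (abs_nonneg _) (h1 p)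

private theorem dlav_famI {a b : ℝ} (hab : a ≤ b) {u : ℕ → ℝ × Om → ℝ}
    (hF : Fam (mI a b) EBT u) :
    Fam volume (fun R => {z : Om | ‖z.2‖ ≤ R}) (fun i => tI a b (u i)) := by
  refine ⟨measurableSet_EB, volume_EB_lt_top, fun i => dlav_tI_meas a b (hF.meas i),
    fun i z => integral_nonneg fun t => hF.nonneg i _, fun i => dlav_tI_int (hF.int i),
    fun ε hε => ?_⟩
  obtain ⟨K, R, hK, h1⟩ := hF.uit ε hε
  refine ⟨K * (b - a), R, mul_nonneg hK (sub_nonneg.2 hab), fun i ψ hψ hψ1 => ?_⟩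
  have h2 := h1 i (fun p => ψ p.2) (hψ.comp measurable_snd) fun p => hψ1 p.2
  rw [dlav_I1 (hF.int i) hψ (WL_bd01 hψ1)] at h2
  have e : EBT R = (univ : Set ℝ) ×ˢ EB R := by
    ext p
    simp [EBT, EB]
  have h3 := setIntegral_prod_mul (μ := (volume : Measure ℝ).restrict (Ioc a b))
    (ν := (volume : Measure Om)) (fun _ => (1 : ℝ)) ψ univ (EB R)
  simp only [one_mul, Measure.restrict_univ, integral_const, smul_eq_mul, mul_one,
    measureReal_restrict_apply_univ, Real.volume_real_Ioc_of_le hab] at h3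
  rw [e, mI, h3, ← mul_assoc] at h2
  exact h2

private theorem dlav_block {a b ε : ℝ} (hab : a < b) (hε : 0 < ε) {U : Ultrafilter ℕ}
    {u : ℕ → ℝ × Om → ℝ} {w : ℝ × Om → ℝ} (hF : Fam (mI a b) EBT u) (hc : WConv U (mI a b) u w)
    (hwm : Measurable w) (hw0 : ∀ p, 0 ≤ w p) (hw : Integrable w (mI a b))
    (he : ∀ i, ∀ s ∈ Ioc a b, ∀ t ∈ Ioc a b, ∫ z, |u i (t, z) - u i (s, z)| ≤ ε)
    {φ : ℕ → ℝ × X → ℝ} (hφ : ∀ i, Measurable (φ i)) (h1 : ∀ i p, |φ i p| ≤ 1)
    {ψ : V → ℝ} (hψ : Measurable ψ) (hψ1 : ∀ v, |ψ v| ≤ 1) :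
    ∀ᶠ i in (U : Filter ℕ), ∫ p, (u i p - w p) *
      (ψ p.2.2 * φ i (p.1, (sh p.1 p.2).1)) ∂(mI a b) ≤ 3 * ε * (b - a) := by
  have hh : 0 < b - a := sub_pos.2 hab
  have hlim : ∀ θ : ℝ × Om → ℝ, Measurable θ → (∀ p, |θ p| ≤ 1) →
      |∫ p, w p * ((b - a) * θ p - tI a b θ p.2) ∂(mI a b)| ≤ ε * (b - a) ^ 2 := by
    intro θ hθ hθ1
    have hm := dlav_tI_meas a b hθ
    refine le_of_tendsto' (hc _ (by fun_prop) ⟨(b - a) + (b - a), fun p => ?_⟩).abs
      fun i => dlav_key hab.le (hF.int i) (he i) hθ hθ1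
    refine (abs_sub _ _).trans (add_le_add ?_ (dlav_tI_le hab.le hθ1 _))
    rw [abs_mul, abs_of_pos hh]
    exact mul_le_of_le_one_right hh.le (hθ1 p)
  have hcI : WConv U volume (fun i => tI a b (u i)) (tI a b w) := by
    rintro χ hχ ⟨C, hC⟩
    have := hc (fun p => χ p.2) (hχ.comp measurable_snd) ⟨C, fun p => hC p.2⟩
    rw [dlav_I1 hw hχ hC] at this
    simpa only [fun i => dlav_I1 (hF.int i) hχ hC] using this
  have hP := tendsto_Ps U (dlav_famI hab.le hF) hcI (dlav_tI_int hw) (dlav_tI_meas a b hwm)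
    (fun z => integral_nonneg fun t => hw0 _) a b hab.le hφ h1 (ψ := fun z => ψ z.2)
    (hψ.comp measurable_snd) fun z => hψ1 z.2
  filter_upwards [hP.eventually (gt_mem_nhds (show (0 : ℝ) < ε * (b - a) ^ 2 by positivity))]
    with i hi
  set θ : ℝ × Om → ℝ := fun p => ψ p.2.2 * φ i (p.1, (sh p.1 p.2).1) with hθd
  have hθ : Measurable θ := by
    have := hφ i
    fun_prop
  have hθ1 : ∀ p, |θ p| ≤ 1 := fun p => by
    rw [hθd, abs_mul]
    exact mul_le_one₀ (hψ1 _) (abs_nonneg _) (h1 _ _)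
  have e : ∀ z, tI a b θ z = ψ z.2 * Ps a b (φ i) z := fun z => by
    simp only [tI, hθd, Ps, integral_const_mul, sh]
  have k1 := dlav_key hab.le (hF.int i) (he i) hθ hθ1
  have k2 := hlim θ hθ hθ1
  rw [dlav_split hab.le (hF.int i) hθ hθ1] at k1
  rw [dlav_split hab.le hw hθ hθ1] at k2
  have hm := dlav_tI_meas a b hθ
  simp only [← e, sub_mul] at hi
  rw [integral_sub (WL_int_mul (dlav_tI_int (hF.int i)) hm (dlav_tI_le hab.le hθ1))
    (WL_int_mul (dlav_tI_int hw) hm (dlav_tI_le hab.le hθ1))] at hi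
  change ∫ p, (u i p - w p) * θ p ∂(mI a b) ≤ _
  simp only [sub_mul]
  rw [integral_sub (WL_int_mul (hF.int i) hθ hθ1) (WL_int_mul hw hθ hθ1)]
  refine le_of_mul_le_mul_left ?_ hh
  rw [abs_le] at k1 k2
  nlinarith [k1.2, k2.1]

private theorem dlav_sum {T : ℝ} (hT : 0 < T) {N : ℕ} (hN : 0 < N) {F : ℝ × Om → ℝ}
    (hF : Integrable F (mT T)) :
    ∫ p, F p ∂(mT T) = ∑ l ∈ Finset.range N, ∫ p, F p ∂(mI (l * (T / N)) ((l + 1 : ℕ) * (T / N))) := by
  have hN' : (0 : ℝ) < N := by exact_mod_cast hN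
  have hd : 0 < T / N := by positivity
  have hle : ∀ l : ℕ, l < N → ((l + 1 : ℕ) : ℝ) * (T / N) ≤ T := fun l hl => by
    have : ((l + 1 : ℕ) : ℝ) ≤ N := by exact_mod_cast hl
    calc _ ≤ N * (T / N) := by gcongr
      _ = T := by field_simp
  have hlt : ∀ l : ℕ, (l : ℝ) * (T / N) ≤ ((l + 1 : ℕ) : ℝ) * (T / N) := fun l => by
    gcongr
    omega
  have hI : ∀ l : ℕ, l < N → Integrable F (mI (l * (T / N)) ((l + 1 : ℕ) * (T / N))) :=
    fun l hl => by
      rw [← dlav_restrict (by positivity) (hle l hl)]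
      exact hF.restrict
  have h1 := intervalIntegral.sum_integral_adjacent_intervals (μ := (volume : Measure ℝ))
    (f := fun t => ∫ z, F (t, z)) (a := fun l : ℕ => l * (T / N)) (n := N) fun l hl => by
      rw [intervalIntegrable_iff_integrableOn_Ioc_of_le (hlt l)]
      exact Integrable.integral_prod_left (hI l hl)
  have e : (N : ℝ) * (T / N) = T := by field_simp
  simp only [Nat.cast_zero, zero_mul, e] at h1
  rw [integral_mT T hF, ← intervalIntegral.integral_of_le hT.le, ← h1]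
  refine Finset.sum_congr rfl fun l hl => ?_
  rw [intervalIntegral.integral_of_le (hlt l), mI, integral_prod _ (hI l (Finset.mem_range.1 hl))]

private theorem dlav_sign {T : ℝ} {g h : ℝ × Om → ℝ} (hgm : Measurable g) (hhm : Measurable h)
    (hg : Integrable g (mT T)) (hh : Integrable h (mT T)) {ψ : V → ℝ} (hψ : Measurable ψ)
    (hψ1 : ∀ v, |ψ v| ≤ 1) : ∃ φ : ℝ × X → ℝ, Measurable φ ∧ (∀ y, |φ y| ≤ 1) ∧
      ∫ y, |(∫ v, g (y.1, (y.2, v)) * ψ v) - ∫ v, h (y.1, (y.2, v)) * ψ v| ∂(mY T) =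
        ∫ p, (g (p.1, sh p.1 p.2) - h (p.1, sh p.1 p.2)) *
          (ψ p.2.2 * φ (p.1, (sh p.1 p.2).1)) ∂(mT T) := by
  set D : ℝ × X → ℝ := fun y =>
    (∫ v, g (y.1, (y.2, v)) * ψ v) - ∫ v, h (y.1, (y.2, v)) * ψ v with hD
  have hDm : Measurable D := by
    refine Measurable.sub ?_ ?_
    · exact (StronglyMeasurable.integral_prod_right' (ν := (volume : Measure V))
        (f := fun q : (ℝ × X) × V => g (q.1.1, (q.1.2, q.2)) * ψ q.2)
        (by fun_prop : Measurable _).stronglyMeasurable).measurable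
    · exact (StronglyMeasurable.integral_prod_right' (ν := (volume : Measure V))
        (f := fun q : (ℝ × X) × V => h (q.1.1, (q.1.2, q.2)) * ψ q.2)
        (by fun_prop : Measurable _).stronglyMeasurable).measurable
  set φ : ℝ × X → ℝ := fun y => if 0 ≤ D y then 1 else -1 with hφ
  have hφm : Measurable φ :=
    Measurable.ite (measurableSet_le measurable_const hDm) measurable_const measurable_const
  have hφ1 : ∀ y, |φ y| ≤ 1 := fun y => by
    simp only [hφ]
    split_ifs <;> simp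
  refine ⟨φ, hφm, hφ1, ?_⟩
  set F : ℝ × Om → ℝ := fun p => (g p - h p) * (ψ p.2.2 * φ (p.1, p.2.1)) with hF
  have hFm : Measurable F := by fun_prop
  have hFi : Integrable F (mT T) := WL_int_mul (hg.sub hh) (by fun_prop) (C := 1) fun p => by
    rw [abs_mul]
    exact mul_le_one₀ (hψ1 _) (abs_nonneg _) (hφ1 _)
  have e2 : ∫ p, F (p.1, sh p.1 p.2) ∂(mT T) = ∫ p, F p ∂(mT T) := by
    have := integral_map (μ := mT T) (φ := fun p : ℝ × Om => (p.1, sh p.1 p.2))
      (measurePreserving_shT T).measurable.aemeasurable (f := F) hFm.aestronglyMeasurable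
    rw [(measurePreserving_shT T).map_eq] at this
    exact this.symm
  refine Eq.trans ?_ e2.symm
  rw [integral_mT_Y T hFi]
  refine integral_congr_ae ?_
  filter_upwards [(integrable_mT_Y T hg).2, (integrable_mT_Y T hh).2] with y h1 h2
  have e : ∀ v, F (y.1, (y.2, v)) =
      (g (y.1, (y.2, v)) * ψ v - h (y.1, (y.2, v)) * ψ v) * φ y := fun v => by
    simp only [hF]
    ring
  simp only [e]
  rw [integral_mul_const, integral_sub (WL_int_mul h1 hψ hψ1) (WL_int_mul h2 hψ hψ1)]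
  change |D y| = D y * φ y
  simp only [hφ]
  split_ifs with hc
  · rw [abs_of_nonneg hc, mul_one]
  · rw [abs_of_neg (not_le.1 hc), mul_neg_one]

private theorem dlav_tail {T : ℝ} {g : ℝ × Om → ℝ} (hgm : Measurable g) (hg0 : ∀ p, 0 ≤ g p)
    (hg : Integrable (fun p : ℝ × Om => (1 + ‖p.2.2‖) * g p) (mT T)) {ψ : V → ℝ}
    (hψ : Measurable ψ) (hb : ∀ v, |ψ v| ≤ 1 + ‖v‖) (R : ℕ) :
    Integrable (fun y : ℝ × X => ∫ v, g (y.1, (y.2, v)) * ψ v) (mY T) ∧
    Integrable (fun y : ℝ × X => ∫ v, g (y.1, (y.2, v)) *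
      (if ‖v‖ ≤ R then ψ v / (1 + R) else 0)) (mY T) ∧
    ∫ y, |(∫ v, g (y.1, (y.2, v)) * ψ v) - (1 + R) * ∫ v, g (y.1, (y.2, v)) *
      (if ‖v‖ ≤ R then ψ v / (1 + R) else 0)| ∂(mY T) ≤
      ∫ p, (1 + ‖p.2.2‖) * g p * (EBT R)ᶜ.indicator (fun _ => (1 : ℝ)) p ∂(mT T) := by
  have hR : (0 : ℝ) < 1 + R := by positivity
  have gen : ∀ χ : V → ℝ, Measurable χ → (∀ v, |χ v| ≤ 1 + ‖v‖) →
      Integrable (fun p : ℝ × Om => g p * χ p.2.2) (mT T) := fun χ hχ hχb => by
    refine hg.mono' (by fun_prop : Measurable _).aestronglyMeasurable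
      (Eventually.of_forall fun p => ?_)
    rw [Real.norm_eq_abs, abs_mul, abs_of_nonneg (hg0 p), mul_comm]
    exact mul_le_mul_of_nonneg_right (hχb _) (hg0 p)
  have hm2 : Measurable fun v : V => if ‖v‖ ≤ R then ψ v / (1 + R) else 0 :=
    Measurable.ite (measurableSet_le measurable_norm measurable_const) (by fun_prop)
      measurable_const
  have i1 := integrable_mT_Y T (gen ψ hψ hb)
  have i2 := integrable_mT_Y T (gen _ hm2 fun v => by
    split_ifs
    · rw [abs_div, abs_of_pos hR]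
      exact (div_le_self (abs_nonneg _) (by linarith [Nat.cast_nonneg (α := ℝ) R])).trans (hb v)
    · rw [abs_zero]
      positivity)
  have hi3 : Integrable (fun p : ℝ × Om =>
      (1 + ‖p.2.2‖) * g p * (EBT R)ᶜ.indicator (fun _ => (1 : ℝ)) p) (mT T) :=
    WL_int_mul hg (measurable_const.indicator (measurableSet_EBT R).compl) (C := 1) fun p => by
      by_cases h : p ∈ (EBT R)ᶜ <;> simp [h]
  have i3 := integrable_mT_Y T hi3
  refine ⟨i1.1, i2.1, ?_⟩
  rw [integral_mT_Y T hi3]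
  refine integral_mono_of_nonneg (Eventually.of_forall fun y => abs_nonneg _) i3.1 ?_
  filter_upwards [i1.2, i2.2, i3.2] with y h1 h2 h3
  rw [← integral_const_mul, ← integral_sub h1 (h2.const_mul _)]
  refine le_trans abs_integral_le_integral_abs
    (integral_mono_of_nonneg (Eventually.of_forall fun v => abs_nonneg _) h3
      (Eventually.of_forall fun v => ?_))
  by_cases hv : ‖v‖ ≤ R
  · have e : g (y.1, (y.2, v)) * ψ v - (1 + R) * (g (y.1, (y.2, v)) * (ψ v / (1 + R))) = 0 := by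
      field_simp
      ring
    simp only [hv, if_true, e, abs_zero]
    rw [indicator_of_notMem (show ((y.1, (y.2, v)) : ℝ × Om) ∉ (EBT R)ᶜ from fun h => h hv),
      mul_zero]
  · simp only [hv, if_false, mul_zero, sub_zero]
    rw [indicator_of_mem (show ((y.1, (y.2, v)) : ℝ × Om) ∈ (EBT R)ᶜ from hv), mul_one, abs_mul,
      abs_of_nonneg (hg0 _), mul_comm]
    exact mul_le_mul_of_nonneg_right (hb v) (hg0 _)

variable {F0 : Om → ℝ} {n : ℕ → ℕ} {f0 : ℕ → Om → ℝ} {f : ℕ → ℝ → Om → ℝ} (A : Appr F0 n f0 f)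
  {U : Ultrafilter ℕ} {ft : ℝ → Om → ℝ} (L : IsLim U f ft)
include A L

/- PLAN: see the comment in DLEqui.lean (PLAN av). -/

private theorem dlav_bdd (T : ℝ) {ψ : V → ℝ} (hψ : Measurable ψ) (hψ1 : ∀ v, |ψ v| ≤ 1) :
    Tendsto (fun i => ∫ y, |(∫ v, f i y.1 (y.2, v) * ψ v) - ∫ v, ft y.1 (y.2, v) * ψ v| ∂(mY T))
      U (𝓝 0) := by
  rcases le_or_gt T 0 with hT | hT
  · simp only [mY, Ioc_eq_empty (not_lt.2 hT), Measure.restrict_empty, Measure.zero_prod,
      integral_zero_measure]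
    exact tendsto_const_nhds
  have hfi : ∀ i, Integrable (fun p : ℝ × Om => f i p.1 p.2) (mT T) := fun i => by
    simpa using A.integrable_mT 0 i T
  choose φ hφm hφ1 hφ using fun i => dlav_sign (T := T) (g := fun p => f i p.1 p.2)
    (h := fun p => ft p.1 p.2) (A.sol i).meas L.meas (hfi i) (L.int0 T) hψ hψ1
  rw [Metric.tendsto_nhds]
  intro ε hε
  have hε' : 0 < ε / (4 * T) := by positivity
  obtain ⟨δ, hδ, he⟩ := A.equi T hε'
  obtain ⟨N, hN⟩ := exists_nat_gt (T / δ)
  have hN' : (0 : ℝ) < N := lt_trans (by positivity) hN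
  have hN0 : 0 < N := by exact_mod_cast hN'
  have hd : 0 < T / N := by positivity
  have hdδ : T / N ≤ δ := by
    rw [div_le_iff₀ hN']
    rw [div_lt_iff₀ hδ] at hN
    linarith
  have hle : ∀ l : ℕ, l < N → ((l + 1 : ℕ) : ℝ) * (T / N) ≤ T := fun l hl => by
    have : ((l + 1 : ℕ) : ℝ) ≤ N := by exact_mod_cast hl
    calc _ ≤ N * (T / N) := by gcongr
      _ = T := by field_simp
  have hsub : ∀ l : ℕ, ((l + 1 : ℕ) : ℝ) * (T / N) - l * (T / N) = T / N := fun l => by
    push_cast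
    ring
  have hF0 : Fam (mT T) EBT (fun i p => f i p.1 p.2) :=
    (A.fam_T T).of_le (C := 1) (fun i => (A.sol i).meas) (fun i p => (A.sol i).nonneg _ _)
      fun i p => by
        have := (A.sol i).nonneg p.1 p.2
        nlinarith [norm_nonneg p.2.2]
  have hF : Fam (mT T) EBT (fun i p => f i p.1 (sh p.1 p.2)) :=
    hF0.comp (e' := fun p : ℝ × Om => (p.1, sh (-p.1) p.2)) (measurePreserving_shT T)
      (by fun_prop) (fun p => by simp only [sh_sh, neg_add_cancel, sh_zero])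
      (fun p => by simp only [sh_sh, add_neg_cancel, sh_zero])
  have hw : Integrable (fun p : ℝ × Om => ft p.1 (sh p.1 p.2)) (mT T) :=
    (measurePreserving_shT T).integrable_comp_of_integrable (L.int0 T)
  have hwm : Measurable (fun p : ℝ × Om => ft p.1 (sh p.1 p.2)) :=
    L.meas.comp (measurePreserving_shT T).measurable
  have hms : ∀ a b : ℝ, MeasurableSet (Ioc a b ×ˢ (univ : Set Om)) := fun a b =>
    measurableSet_Ioc.prod MeasurableSet.univ
  have hblock : ∀ l ∈ Finset.range N, ∀ᶠ i in (U : Filter ℕ),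
      ∫ p, (f i p.1 (sh p.1 p.2) - ft p.1 (sh p.1 p.2)) * (ψ p.2.2 * φ i (p.1, (sh p.1 p.2).1))
        ∂(mI (l * (T / N)) ((l + 1 : ℕ) * (T / N))) ≤ 3 * (ε / (4 * T)) * (T / N) := by
    intro l hl
    have hl' := hle l (Finset.mem_range.1 hl)
    have h0 : (0 : ℝ) ≤ l * (T / N) := by positivity
    have e := dlav_restrict h0 hl'
    have := dlav_block (a := l * (T / N)) (b := (l + 1 : ℕ) * (T / N))
      (by linarith [hsub l]) hε' (e ▸ dlav_fam hF (hms _ _)) (e ▸ dlav_wconv (L.conv_sh T) (hms _ _))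
      hwm (fun p => L.nonneg _ _) (e ▸ hw.restrict) (fun i s hs t ht => he i s
        ⟨h0.trans hs.1.le, hs.2.trans hl'⟩ t ⟨h0.trans ht.1.le, ht.2.trans hl'⟩ (by
          rw [abs_le]
          constructor <;> linarith [hsub l, hs.1, hs.2, ht.1, ht.2])) hφm hφ1 hψ hψ1
    rwa [hsub l] at this
  filter_upwards [(eventually_all_finset _).2 hblock] with i hi
  have hint : Integrable (fun p : ℝ × Om => (f i p.1 (sh p.1 p.2) - ft p.1 (sh p.1 p.2)) *
      (ψ p.2.2 * φ i (p.1, (sh p.1 p.2).1))) (mT T) :=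
    WL_int_mul ((hF.int i).sub hw) (by have := hφm i; fun_prop) (C := 1) fun p => by
      rw [abs_mul]
      exact mul_le_one₀ (hψ1 _) (abs_nonneg _) (hφ1 _ _)
  rw [Real.dist_eq, sub_zero, abs_of_nonneg (integral_nonneg fun y => abs_nonneg _), hφ i]
  refine (dlav_sum hT hN0 hint).trans_lt ((Finset.sum_le_sum hi).trans_lt ?_)
  rw [Finset.sum_const, Finset.card_range, nsmul_eq_mul]
  have e : (N : ℝ) * (3 * (ε / (4 * T)) * (T / N)) = 3 / 4 * ε := by field_simp
  linarith

theorem Appr.av (T : ℝ) {ψ : V → ℝ} (hψ : Measurable ψ) (hb : ∀ v, |ψ v| ≤ 1 + ‖v‖) :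
    Tendsto (fun i => ∫ y, |(∫ v, f i y.1 (y.2, v) * ψ v) - ∫ v, ft y.1 (y.2, v) * ψ v| ∂(mY T))
      U (𝓝 0) := by
  rw [Metric.tendsto_nhds]
  intro ε hε
  have hε' : 0 < ε / 3 := by positivity
  obtain ⟨K, R, -, h1, h2⟩ := (A.fam_T T).uit_lim (L.conv T) hε'
  have hR : (0 : ℝ) < 1 + R := by positivity
  have hm : Measurable ((EBT R)ᶜ.indicator fun _ => (1 : ℝ)) :=
    measurable_const.indicator (measurableSet_EBT R).compl
  have h01 : ∀ p, 0 ≤ (EBT R)ᶜ.indicator (fun _ => (1 : ℝ)) p ∧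
      (EBT R)ᶜ.indicator (fun _ => (1 : ℝ)) p ≤ 1 := fun p => by
    by_cases h : p ∈ (EBT R)ᶜ <;> simp [h]
  have hz : ∫ p in EBT R, (EBT R)ᶜ.indicator (fun _ => (1 : ℝ)) p ∂(mT T) = 0 :=
    setIntegral_eq_zero_of_forall_eq_zero fun p hp =>
      indicator_of_notMem (show p ∉ (EBT R)ᶜ from fun h => h hp) _
  have hm2 : Measurable fun v : V => if ‖v‖ ≤ R then ψ v / (1 + R) else 0 :=
    Measurable.ite (measurableSet_le measurable_norm measurable_const) (by fun_prop)
      measurable_const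
  have hB := dlav_bdd A L T hm2 fun v => by
    split_ifs with h
    · rw [abs_div, abs_of_pos hR, div_le_one hR]
      exact (hb v).trans (by linarith)
    · simp
  obtain ⟨b1, b2, b3⟩ := dlav_tail (T := T) (g := fun p => ft p.1 p.2) L.meas
    (fun p => L.nonneg _ _) (L.int T) hψ hb R
  have b4 := h2 _ hm h01
  filter_upwards [hB.eventually (gt_mem_nhds (show 0 < ε / 3 / (1 + R) by positivity))] with i hi
  obtain ⟨a1, a2, a3⟩ := dlav_tail (T := T) (g := fun p => f i p.1 p.2) (A.sol i).meas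
    (fun p => (A.sol i).nonneg _ _) (by simpa using A.integrable_mT 1 i T) hψ hb R
  have a4 := h1 i _ hm h01
  rw [hz, mul_zero, zero_add] at a4 b4
  rw [Real.dist_eq, sub_zero, abs_of_nonneg (integral_nonneg fun y => abs_nonneg _)]
  rw [lt_div_iff₀ hR, ← integral_mul_const] at hi
  have j1 := (a1.sub (a2.const_mul (1 + R))).abs
  have j2 := (b1.sub (b2.const_mul (1 + R))).abs
  have j3 := (a2.sub b2).abs.mul_const (1 + (R : ℝ))
  have hle := integral_mono (a1.sub b1).abs ((j1.add j2).add j3) fun y => by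
    simp only [Pi.add_apply, Pi.sub_apply]
    have key : ∀ x x' y y' : ℝ, |x - y| ≤ |x - (1 + R) * x'| + |y - (1 + R) * y'| +
        |x' - y'| * (1 + R) := fun x x' y y' => by
      have e : x - y = (x - (1 + R) * x') - (y - (1 + R) * y') + (x' - y') * (1 + R) := by ring
      rw [e]
      refine (abs_add_le _ _).trans (add_le_add (abs_sub _ _) ?_)
      rw [abs_mul, abs_of_pos hR]
    exact key _ _ _ _
  rw [integral_add' (j1.add j2) j3, integral_add' j1 j2] at hle
  simp only [Pi.sub_apply] at hle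
  linarith

end Vale.Agent.P140
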