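import Vale.Agent.P140.DLTens

/-! Weak convergence of the collision densities. -/

namespace Vale.Agent.P140

open MeasureTheory Set Filter Topology
open scoped ENNReal

section
variable {α β : Type*} [MeasurableSpace α] [MeasurableSpace β] {μ : Measure α} [SFinite μ]
  {σ : Measure β} [IsFiniteMeasure σ]

theorem dlc_int {u : α → ℝ} (hu : Integrable u μ) {ψ : α × β → ℝ} (hψ : Measurable ψ) {C : ℝ}
    (hC : ∀ p, |ψ p| ≤ C) :
    ∫ p, u p.1 * ψ p ∂μ.prod σ = ∫ a, u a * ∫ b, ψ (a, b) ∂σ ∂μ := by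
  rw [integral_prod _ (WL_int_mul (hu.comp_fst σ) hψ hC)]
  simp only [integral_const_mul]

omit [SFinite μ] in
theorem dlc_meas {ψ : α × β → ℝ} (hψ : Measurable ψ) : Measurable fun a => ∫ b, ψ (a, b) ∂σ :=
  hψ.stronglyMeasurable.integral_prod_right'.measurable

omit [MeasurableSpace α] in
theorem dlc_bd {ψ : α × β → ℝ} {C : ℝ} (hC : ∀ p, |ψ p| ≤ C) (a : α) :
    |∫ b, ψ (a, b) ∂σ| ≤ C * σ.real univ :=
  (Real.norm_eq_abs _).symm.trans_le
    (norm_integral_le_of_norm_le_const (Eventually.of_forall fun b => hC (a, b)))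

theorem dlc_wconv {U : Filter ℕ} {u : ℕ → α → ℝ} {v : α → ℝ} (h : WConv U μ u v)
    (hu : ∀ i, Integrable (u i) μ) (hv : Integrable v μ) :
    WConv U (μ.prod σ) (fun i p => u i p.1) (fun p => v p.1) := by
  rintro ψ hψ ⟨C, hC⟩
  simp only [dlc_int (hu _) hψ hC, dlc_int hv hψ hC]
  exact h _ (dlc_meas hψ) ⟨_, dlc_bd hC⟩

theorem dlc_fam {E : ℕ → Set α} {u : ℕ → α → ℝ} (h : Fam μ E u) :
    Fam (μ.prod σ) (fun R => E R ×ˢ univ) (fun i p => u i p.1) := by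
  have hf : ∀ R, μ.prod σ (E R ×ˢ univ) < ⊤ := fun R => by
    rw [Measure.prod_prod]
    exact ENNReal.mul_lt_top (h.finE R) (measure_lt_top _ _)
  refine ⟨fun R => (h.measE R).prod .univ, hf, fun i => (h.meas i).comp measurable_fst,
    fun i p => h.nonneg i _, fun i => (h.int i).comp_fst σ, fun ε hε => ?_⟩
  have hs : 0 < σ.real univ + 1 := by positivity
  obtain ⟨K, R, hK0, hK⟩ := h.uit (ε / (σ.real univ + 1)) (by positivity)
  refine ⟨K, R, hK0, fun i ψ hψ h1 => ?_⟩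
  have h2 := hK i (fun a => (∫ b, ψ (a, b) ∂σ) / (σ.real univ + 1))
    ((dlc_meas hψ).div_const _) fun a => ⟨div_nonneg (integral_nonneg fun b => (h1 _).1) hs.le,
      (div_le_one hs).2 ((le_abs_self _).trans ((dlc_bd (WL_bd01 h1) a).trans (by linarith)))⟩
  rw [dlc_int (h.int i) hψ (WL_bd01 h1), setIntegral_prod _ (Measure.integrableOn_of_bounded
    (hf R).ne hψ.aestronglyMeasurable (Eventually.of_forall (WL_bd01 h1))), Measure.restrict_univ]
  simp only [← mul_div_assoc, integral_div, ← add_div] at h2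
  exact (div_le_div_iff_of_pos_right hs).1 h2

omit [SFinite μ] in
theorem dlc_mono {E E' : ℕ → Set α} {u : ℕ → α → ℝ} (h : Fam μ E u)
    (hm : ∀ R, MeasurableSet (E' R)) (hf : ∀ R, μ (E' R) < ⊤) (hs : ∀ R, ∃ R', E R ⊆ E' R') :
    Fam μ E' u := by
  refine ⟨hm, hf, h.meas, h.nonneg, h.int, fun ε hε => ?_⟩
  obtain ⟨K, R, hK0, hK⟩ := h.uit ε hε
  obtain ⟨R', hR⟩ := hs R
  refine ⟨K, R', hK0, fun i ψ hψ h1 => (hK i ψ hψ h1).trans (add_le_add_left
    (mul_le_mul_of_nonneg_left (setIntegral_mono_set (Measure.integrableOn_of_bounded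
    (hf R').ne hψ.aestronglyMeasurable (Eventually.of_forall (WL_bd01 h1)))
    (Eventually.of_forall fun a => (h1 a).1) hR.eventuallyLE) hK0) _)⟩

end

theorem dlc_assoc (T : ℝ) : MeasurePreserving
    (fun p : (ℝ × X) × V × V × S2 => (((p.1, p.2.1, p.2.2.1), p.2.2.2) : ((ℝ × X) × V × V) × S2))
    (mC T) ((mV2 T).prod sig) :=
  ((measurePreserving_prodAssoc (mY T) ((volume : Measure V).prod volume) sig).symm _).comp
    ((MeasurePreserving.id (mY T)).prod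
      ((measurePreserving_prodAssoc (volume : Measure V) (volume : Measure V) sig).symm _))

/-- the kernel divided by the velocity weights -/
noncomputable def dlcK (b : V → V → S2 → ℝ≥0∞) (p : (ℝ × X) × V × V × S2) : ℝ :=
  (b p.2.1 p.2.2.1 p.2.2.2).toReal / ((1 + ‖p.2.1‖) * (1 + ‖p.2.2.1‖))

theorem dlcK_meas {b : V → V → S2 → ℝ≥0∞} (hb : IsKer b) : Measurable (dlcK b) :=
  (hb.meas.comp measurable_snd).ennreal_toReal.div (by fun_prop)

theorem dlcK_bd {b : V → V → S2 → ℝ≥0∞} (hb : IsKer b) (p : (ℝ × X) × V × V × S2) :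
    0 ≤ dlcK b p ∧ dlcK b p ≤ 1 := by
  refine ⟨by unfold dlcK; positivity, (div_le_one (by positivity)).2 ?_⟩
  have h1 := ENNReal.toReal_le_of_le_ofReal (abs_nonneg _) (hb.le p.2.1 p.2.2.1 p.2.2.2)
  have h2 := abs_aa_le p.2.1 p.2.2.1 p.2.2.2
  have h3 := norm_sub_le p.2.1 p.2.2.1
  nlinarith [mul_nonneg (norm_nonneg p.2.1) (norm_nonneg p.2.2.1)]

theorem dlc_cw (n : ℕ) (ζ : ℝ) (g : Om → ℝ) (p : (ℝ × X) × V × V × S2) :
    cw n ζ g p.1.2 p.2 = tw n ζ g p.1.2 p.2.1 p.2.2.1 * dlcK (kN n) p := by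
  unfold cw tw dlcK
  rw [div_eq_mul_inv _ (1 + ζ * _), div_eq_mul_inv _ (1 + ζ * _)]
  generalize (1 + ζ * rho1 g p.1.2)⁻¹ = y
  field_simp

theorem dlc_cwI (ζ : ℝ) (g : Om → ℝ) (p : (ℝ × X) × V × V × S2) :
    cwI ζ g p.1.2 p.2 = twI ζ g p.1.2 p.2.1 p.2.2.1 * dlcK kI p := by
  unfold cwI twI dlcK kI
  rw [div_eq_mul_inv _ (1 + ζ * _), div_eq_mul_inv _ (1 + ζ * _),
    ENNReal.toReal_ofReal (abs_nonneg _)]
  generalize (1 + ζ * rho1 g p.1.2)⁻¹ = y
  field_simp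

theorem dlc_inv_meas : Measurable fun q : ((ℝ × X) × V × V) × S2 =>
    ((q.1.1, q.1.2.1, q.1.2.2, q.2) : (ℝ × X) × V × V × S2) := by fun_prop

theorem dlc_coll_meas : Measurable fun p : (ℝ × X) × V × V × S2 => (p.1, coll p.2) :=
  measurable_fst.prodMk (measurable_coll.comp measurable_snd)

theorem dlc_coll_coll (p : (ℝ × X) × V × V × S2) : (p.1, coll (coll p.2)) = p := by
  rw [coll_coll]

variable {F0 : Om → ℝ} {n : ℕ → ℕ} {f0 : ℕ → Om → ℝ} {f : ℕ → ℝ → Om → ℝ} (A : Appr F0 n f0 f)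
  {U : Ultrafilter ℕ} {ft : ℝ → Om → ℝ} (L : IsLim U f ft)
include A L

/- PLAN. cw = tw * kN/((1+|v|)(1+|w|)), the factor is ≤ 1. For a test ψ(y,v,w,ω) integrate ω first:
ψ_i(y,v,w) = ∫ kN ψ dω /((1+|v|)(1+|w|)), bounded by 13 sup|ψ|, converges in L¹(E2 R) (dominated convergence
along atTop, kN_eventually, then U ≤ atTop): Fam.tendsto_mul. Primed versions: Fam.comp / WConv.comp with the
collision map (E3 is invariant). Gain: qn/(1+ζ rho1) = ∫∫ cw(coll) dw dω (for t ≥ 0), a marginal: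
test ψ(t,x,v); E3 R ⊆ {|v| ≤ R, |w| ≤ R}. -/

omit L in
theorem Appr.dlc_famT (T : ℝ) {ζ : ℝ} (hζ : 0 < ζ) :
    Fam (mC T) E3 (fun i p => tw (n i) ζ (f i p.1.1) p.1.2 p.2.1 p.2.2.1) := by
  refine dlc_mono ((dlc_fam (A.fam_tw T hζ)).comp (dlc_assoc T) dlc_inv_meas (fun _ => rfl)
    fun _ => rfl) measurableSet_E3 (mC_E3_lt_top T) fun R => ⟨2 * R, fun p hp => ?_⟩
  have h1 : ‖p.2.1‖ ≤ R := hp.1.1
  have h2 : ‖p.2.2.1‖ ≤ R := hp.1.2
  change ‖p.2.1‖ ^ 2 + ‖p.2.2.1‖ ^ 2 ≤ ((2 * R : ℕ) : ℝ) ^ 2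
  push_cast
  nlinarith [norm_nonneg p.2.1, norm_nonneg p.2.2.1]

omit L in
theorem Appr.fam_cw (T : ℝ) {ζ : ℝ} (hζ : 0 < ζ) :
    Fam (mC T) E3 (fun i p => cw (n i) ζ (f i p.1.1) p.1.2 p.2) := by
  refine (A.dlc_famT T hζ).of_le (C := 1) (fun i => measurable_cw (A.sol i).meas _ _)
    (fun i p => ?_) fun i p => ?_
  · rw [dlc_cw]
    exact mul_nonneg ((A.dlc_famT T hζ).nonneg i p) (dlcK_bd (isKer_kN _) p).1
  · rw [dlc_cw, one_mul]
    exact mul_le_of_le_one_right ((A.dlc_famT T hζ).nonneg i p) (dlcK_bd (isKer_kN _) p).2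

omit A in
theorem IsLim.integrable_cwI (T : ℝ) {ζ : ℝ} (hζ : 0 < ζ) :
    Integrable (fun p : (ℝ × X) × V × V × S2 => cwI ζ (ft p.1.1) p.1.2 p.2) (mC T) := by
  simp only [dlc_cwI]
  exact WL_int_mul ((dlc_assoc T).integrable_comp_of_integrable
    ((L.integrable_twI T hζ).comp_fst sig)) (dlcK_meas isKer_kI) (WL_bd01 (dlcK_bd isKer_kI))

theorem Appr.wconv_cw (T : ℝ) {ζ : ℝ} (hζ : 0 < ζ) :
    WConv U (mC T) (fun i p => cw (n i) ζ (f i p.1.1) p.1.2 p.2)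
      (fun p => cwI ζ (ft p.1.1) p.1.2 p.2) := by
  rintro ψ hψ ⟨C, hC⟩
  have hw := (dlc_wconv (σ := sig) (A.wconv_tw L T hζ) (A.fam_tw T hζ).int
    (L.integrable_twI T hζ)).comp (dlc_assoc T) dlc_inv_meas (fun _ => rfl) fun _ => rfl
  have hb : ∀ {b}, IsKer b → ∀ p, |dlcK b p * ψ p| ≤ C := fun hb p => by
    rw [abs_mul]
    exact (mul_le_of_le_one_left (abs_nonneg _) (WL_bd01 (dlcK_bd hb) p)).trans (hC p)
  simp only [dlc_cw, dlc_cwI, mul_assoc]
  refine (A.dlc_famT T hζ).tendsto_mul hw (fun i => (dlcK_meas (isKer_kN (n i))).fun_mul hψ)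
    ((dlcK_meas isKer_kI).fun_mul hψ) (fun i => hb (isKer_kN _)) (hb isKer_kI) fun R => ?_
  have := (isFiniteMeasure_restrict.2 (mC_E3_lt_top T R).ne :
    IsFiniteMeasure ((mC T).restrict (E3 R)))
  have h1 := tendsto_integral_filter_of_dominated_convergence (μ := (mC T).restrict (E3 R))
    (l := atTop) (F := fun i p => |dlcK (kN (n i)) p * ψ p - dlcK kI p * ψ p|) (f := fun _ => 0)
    (fun _ => C + C) (Eventually.of_forall fun i => (((dlcK_meas (isKer_kN (n i))).fun_mul hψ).sub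
      ((dlcK_meas isKer_kI).fun_mul hψ)).abs.aestronglyMeasurable)
    (Eventually.of_forall fun i => Eventually.of_forall fun p => by
      rw [Real.norm_eq_abs, abs_abs]
      exact (abs_sub _ _).trans (add_le_add (hb (isKer_kN _) p) (hb isKer_kI p)))
    (integrable_const _) (Eventually.of_forall fun p => tendsto_const_nhds.congr'
      ((A.ntop.eventually (kN_eventually p.2.1 p.2.2.1 p.2.2.2)).mono fun i hi => by
        simp only [dlcK, hi, sub_self, abs_zero]))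
  rw [integral_zero] at h1
  exact h1.mono_left L.le

omit L in
theorem Appr.fam_cw' (T : ℝ) {ζ : ℝ} (hζ : 0 < ζ) :
    Fam (mC T) E3 (fun i p => cw (n i) ζ (f i p.1.1) p.1.2 (coll p.2)) := by
  have h := (A.fam_cw T hζ).comp (measurePreserving_collT T) dlc_coll_meas dlc_coll_coll
    dlc_coll_coll
  refine dlc_mono h measurableSet_E3 (mC_E3_lt_top T) fun R => ⟨R, fun p hp => ?_⟩
  exact (energy_coll p.2.1 p.2.2.1 p.2.2.2).symm.trans_le hp

omit A in
theorem IsLim.integrable_cwI' (T : ℝ) {ζ : ℝ} (hζ : 0 < ζ) :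
    Integrable (fun p : (ℝ × X) × V × V × S2 => cwI ζ (ft p.1.1) p.1.2 (coll p.2)) (mC T) := by
  have h := (measurePreserving_collT T).integrable_comp_of_integrable (L.integrable_cwI T hζ)
  exact h

theorem Appr.wconv_cw' (T : ℝ) {ζ : ℝ} (hζ : 0 < ζ) :
    WConv U (mC T) (fun i p => cw (n i) ζ (f i p.1.1) p.1.2 (coll p.2))
      (fun p => cwI ζ (ft p.1.1) p.1.2 (coll p.2)) := by
  have h := (A.wconv_cw L T hζ).comp (measurePreserving_collT T) dlc_coll_meas dlc_coll_coll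
    dlc_coll_coll
  exact h

end Vale.Agent.P140
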