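import Vale.Agent.P140.TrApi

/-! The H-theorem for the truncated equation. -/

namespace Vale.Agent.P140

open MeasureTheory Set Filter Topology
open scoped ENNReal

theorem Mx_pos (v : V) : 0 < Mx v := by
  unfold Mx
  positivity

@[fun_prop]
theorem continuous_Mx : Continuous Mx := by
  unfold Mx
  fun_prop

theorem integrable_Mx_moment (j : ℕ) : Integrable (fun v : V => (1 + ‖v‖) ^ j * Mx v) := by
  refine (((integrable_G0_moment j).comp_smul (R := (2⁻¹ : ℝ)) (by norm_num)).const_mul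
    (2 ^ j * (2 * Real.pi) ^ (-(3 / 2 : ℝ)))).mono' (by fun_prop) (Eventually.of_forall fun v => ?_)
  have h1 : G0 ((2⁻¹ : ℝ) • v) = Real.exp (-‖v‖ ^ 2 / 2) := by
    rw [G0, norm_smul, Real.norm_eq_abs, abs_of_pos (by norm_num)]
    exact congrArg _ (by ring)
  have h2 : (1 + ‖v‖) ^ j ≤ 2 ^ j * (1 + ‖(2⁻¹ : ℝ) • v‖) ^ j := by
    rw [← mul_pow, norm_smul, Real.norm_eq_abs, abs_of_pos (by norm_num)]
    exact pow_le_pow_left₀ (by positivity) (by linarith) j
  rw [Real.norm_of_nonneg (mul_nonneg (by positivity) (Mx_pos v).le), h1, Mx]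
  exact (mul_le_mul_of_nonneg_right h2 (by positivity)).trans_eq (by ring)

theorem relEnt_integrand_nonneg {s m : ℝ} (hs : 0 ≤ s) (hm : 0 < m) :
    0 ≤ s * Real.log (s / m) - s + m := by
  rcases hs.eq_or_lt with rfl | hs
  · simpa using hm.le
  · have h := mul_le_mul_of_nonneg_left (Real.one_sub_inv_le_log_of_pos (div_pos hs hm)) hs.le
    rw [inv_div, mul_sub, mul_one, mul_div_cancel₀ _ hs.ne'] at h
    linarith

theorem trEnt_div {y : ℝ} (hy : 0 < y) (v : V) : Real.log (y / Mx v) =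
    Real.log y - Real.log ((2 * Real.pi) ^ (-(3 / 2 : ℝ))) + ‖v‖ ^ 2 / 2 := by
  rw [Real.log_div hy.ne' (Mx_pos v).ne', Mx, Real.log_mul (by positivity) (Real.exp_pos _).ne',
    Real.log_exp]
  ring

theorem trEnt_log (M : ℝ) {c : ℝ} (hc : 0 < c) : ∃ K C : ℝ, ∀ (v : V) (y : ℝ), c * G0 v ≤ y →
    y ≤ M * G0 v → Real.log (y / Mx v) ≤ K ∧ |Real.log (y / Mx v)| ≤ C * (1 + ‖v‖) ^ 2 := by
  obtain ⟨L, hL⟩ : ∃ L, L = Real.log ((2 * Real.pi) ^ (-(3 / 2 : ℝ))) := ⟨_, rfl⟩
  refine ⟨Real.log M - L, |Real.log M - L| + |Real.log c - L| + 2, fun v y h1 h2 => ?_⟩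
  have h3 := G0_pos v
  have h4 := (mul_pos hc h3).trans_le h1
  have h5 := Real.log_le_log (mul_pos hc h3) h1
  have h6 := Real.log_le_log h4 h2
  have h7 : 0 < M := (mul_pos_iff_of_pos_right h3).1 (h4.trans_le h2)
  rw [Real.log_mul hc.ne' h3.ne', G0, Real.log_exp] at h5
  rw [Real.log_mul h7.ne' h3.ne', G0, Real.log_exp] at h6
  have h8 : 1 + ‖v‖ ^ 2 ≤ (1 + ‖v‖) ^ 2 := by nlinarith [norm_nonneg v]
  have h9 := mul_le_mul_of_nonneg_left h8
    (by positivity : 0 ≤ |Real.log M - L| + |Real.log c - L| + 2)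
  have h10 := mul_nonneg (add_nonneg (abs_nonneg (Real.log M - L)) (abs_nonneg (Real.log c - L)))
    (sq_nonneg ‖v‖)
  rw [trEnt_div h4, ← hL, abs_le]
  have := sq_nonneg ‖v‖
  refine ⟨by linarith, ?_, ?_⟩ <;>
    linarith [le_abs_self (Real.log M - L), neg_abs_le (Real.log c - L),
      abs_nonneg (Real.log M - L), abs_nonneg (Real.log c - L)]

theorem trEnt_arith {a b : ℝ} {D : ℝ≥0∞} (hb : 0 ≤ b) (ha : 0 ≤ a)
    (h : D + (2 * ENNReal.ofReal b + 2 * ENNReal.ofReal b) =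
      2 * ENNReal.ofReal a + 2 * ENNReal.ofReal a) :
    1 / 4 * D = ENNReal.ofReal (a - b) ∧ b ≤ a := by
  have h1 : D ≠ ⊤ := ne_top_of_le_ne_top (by finiteness) (le_self_add.trans_eq h)
  lift D to NNReal using h1
  lift a to NNReal using ha
  lift b to NNReal using hb
  simp only [ENNReal.ofReal_coe_nnreal] at h
  have h2 : (D : ℝ) + (2 * b + 2 * b) = 2 * a + 2 * a := by exact_mod_cast h
  refine ⟨?_, by linarith [D.2]⟩
  rw [show (a : ℝ) - b = 1 / 4 * D by linarith, ENNReal.ofReal_mul (by norm_num),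
    ENNReal.ofReal_coe_nnreal, ENNReal.ofReal_div_of_pos (by norm_num)]
  simp

theorem trEnt_weak {n : ℕ} (hn : 1 ≤ n) {g : Om → ℝ} (hm : Measurable g) (h0 : ∀ z, 0 ≤ g z)
    {M : ℝ} (hM : ∀ z, g z ≤ M * G0 z.2) (x : X) {ψ : V → ℝ} (hψ : Measurable ψ)
    (p1 : ∀ v, 0 ≤ ψ v) {C : ℝ} (p2 : ∀ v, ψ v ≤ C * (1 + ‖v‖) ^ 2) :
    Integrable (fun v => qn n g (x, v) * ψ v) ∧
    Integrable (fun v => ln n g (x, v) * g (x, v) * ψ v) ∧
    2 * ENNReal.ofReal (∫ v, qn n g (x, v) * ψ v) = ENNReal.ofReal (kap n g x) *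
      I3 (fun v w ω => kN n v w ω * (eo g x v * eo g x w) *
        (ENNReal.ofReal (ψ (vp v w ω)) + ENNReal.ofReal (ψ (vq v w ω)))) ∧
    2 * ENNReal.ofReal (∫ v, ln n g (x, v) * g (x, v) * ψ v) = ENNReal.ofReal (kap n g x) *
      I3 (fun v w ω => kN n v w ω * (eo g x v * eo g x w) *
        (ENNReal.ofReal (ψ v) + ENNReal.ofReal (ψ w))) := by
  have hi : ∀ {u : V → ℝ} {B : ℝ}, Measurable u → (∀ v, 0 ≤ u v) → (∀ v, u v ≤ B * G0 v) →
      Integrable fun v => u v * ψ v := fun {u B} h1 h2 h3 =>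
    ((integrable_G0_moment 2).const_mul (B * C)).mono' (h1.mul hψ).aestronglyMeasurable
      (Eventually.of_forall fun v => by
        rw [Real.norm_of_nonneg (mul_nonneg (h2 v) (p1 v))]
        exact (mul_le_mul (h3 v) (p2 v) (p1 v) ((h2 v).trans (h3 v))).trans_eq (by ring))
  have q0 := fun v => qn_nonneg n h0 (x, v)
  have l0 := fun v => ln_nonneg n h0 (x, v)
  have hg : Measurable (Function.uncurry fun _ : V => g) := hm.comp measurable_snd
  have i1 := hi (u := fun v => qn n g (x, v)) (measurable_qn n hg measurable_prodMk_left) q0 fun v => qn_le hn hm h0 hM (x, v)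
  have i2 := hi (u := fun v => ln n g (x, v) * g (x, v)) (B := 26 * (n : ℝ) ^ 2 * M)
    ((measurable_ln n hg measurable_prodMk_left).fun_mul
    (hm.comp measurable_prodMk_left)) (fun v => mul_nonneg (l0 v) (h0 _)) fun v =>
      (mul_le_mul (ln_le hn hm h0 hM (x, v)) (hM (x, v)) (h0 _) (by positivity)).trans_eq
        (mul_assoc _ _ _).symm
  refine ⟨i1, i2, ?_, ?_⟩
  · rw [← two_lintegral_Qp_mul (isKer_kN n) (measurable_eo' hm x) hψ.ennreal_ofReal,
      ofReal_integral_eq_lintegral_ofReal i1 (Eventually.of_forall fun v => mul_nonneg (q0 v) (p1 v)),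
      mul_left_comm, ← lintegral_const_mul' _ _ ENNReal.ofReal_ne_top]
    refine congrArg _ (lintegral_congr fun v => ?_)
    rw [ENNReal.ofReal_mul (q0 v), ofReal_qn hn hm h0 hM, mul_assoc]
  · rw [← two_lintegral_Lo_mul (isKer_kN n) (measurable_eo' hm x) hψ.ennreal_ofReal,
      ofReal_integral_eq_lintegral_ofReal i2 (Eventually.of_forall fun v =>
        mul_nonneg (mul_nonneg (l0 v) (h0 _)) (p1 v)),
      mul_left_comm, ← lintegral_const_mul' _ _ ENNReal.ofReal_ne_top]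
    refine congrArg _ (lintegral_congr fun v => ?_)
    rw [ENNReal.ofReal_mul (mul_nonneg (l0 v) (h0 _)), ENNReal.ofReal_mul (l0 v),
      ofReal_ln hn hm h0 hM, eo]
    ring

theorem trEnt_I3 {A B D : V → V → S2 → ℝ≥0∞}
    (hD : Measurable (fun p : V × V × S2 => D p.1 p.2.1 p.2.2))
    (hB : Measurable (fun p : V × V × S2 => B p.1 p.2.1 p.2.2))
    (hA : Measurable (fun p : V × V × S2 => A p.1 p.2.1 p.2.2))
    (h : ∀ v w ω, D v w ω + (B v w ω + B (vp v w ω) (vq v w ω) ω) =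
      A v w ω + A (vp v w ω) (vq v w ω) ω) : I3 D + (I3 B + I3 B) = I3 A + I3 A := by
  have h1 := I3_add (Ψ := fun v w ω => B (vp v w ω) (vq v w ω) ω) hB (hB.comp measurable_coll)
  have h2 := I3_add (Ψ := fun v w ω => A (vp v w ω) (vq v w ω) ω) hA (hA.comp measurable_coll)
  have h3 := I3_add (Ψ := fun v w ω => B v w ω + B (vp v w ω) (vq v w ω) ω) hD
    (hB.add (hB.comp measurable_coll))
  rw [I3_coll hB] at h1
  rw [I3_coll hA] at h2
  rw [← h1, ← h2, ← h3]
  exact congrArg I3 (funext fun v => funext fun w => funext fun ω => h v w ω)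

theorem trEnt_sym (n : ℕ) {g ψ : V → ℝ} (hg : Measurable g) (hp : ∀ v, 0 < g v)
    (hψ : Measurable ψ) (p1 : ∀ v, 0 ≤ ψ v)
    (he : ∀ v w ω, Real.log (g (vp v w ω) * g (vq v w ω) / (g v * g w)) =
      ψ v + ψ w - (ψ (vp v w ω) + ψ (vq v w ω))) :
    I3 (fun v w ω => kN n v w ω * jE (g (vp v w ω) * g (vq v w ω)) (g v * g w)) +
      (I3 (fun v w ω => kN n v w ω * (ENNReal.ofReal (g v) * ENNReal.ofReal (g w)) *
        (ENNReal.ofReal (ψ v) + ENNReal.ofReal (ψ w))) +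
      I3 (fun v w ω => kN n v w ω * (ENNReal.ofReal (g v) * ENNReal.ofReal (g w)) *
        (ENNReal.ofReal (ψ v) + ENNReal.ofReal (ψ w)))) =
      I3 (fun v w ω => kN n v w ω * (ENNReal.ofReal (g v) * ENNReal.ofReal (g w)) *
        (ENNReal.ofReal (ψ (vp v w ω)) + ENNReal.ofReal (ψ (vq v w ω)))) +
      I3 (fun v w ω => kN n v w ω * (ENNReal.ofReal (g v) * ENNReal.ofReal (g w)) *
        (ENNReal.ofReal (ψ (vp v w ω)) + ENNReal.ofReal (ψ (vq v w ω)))) := by
  have hk := (isKer_kN n).meas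
  have m1 : Measurable fun p : V × V × S2 => kN n p.1 p.2.1 p.2.2 *
      (ENNReal.ofReal (g p.1) * ENNReal.ofReal (g p.2.1)) *
        (ENNReal.ofReal (ψ p.1) + ENNReal.ofReal (ψ p.2.1)) := by fun_prop
  have m2 : Measurable fun p : V × V × S2 => kN n p.1 p.2.1 p.2.2 *
      (ENNReal.ofReal (g p.1) * ENNReal.ofReal (g p.2.1)) *
        (ENNReal.ofReal (ψ (vp p.1 p.2.1 p.2.2)) + ENNReal.ofReal (ψ (vq p.1 p.2.1 p.2.2))) := by
    fun_prop
  have m0 : Measurable fun p : V × V × S2 => kN n p.1 p.2.1 p.2.2 *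
      jE (g (vp p.1 p.2.1 p.2.2) * g (vq p.1 p.2.1 p.2.2)) (g p.1 * g p.2.1) :=
    hk.mul (measurable_jE.comp (f := fun p : V × V × S2 =>
      (g (vp p.1 p.2.1 p.2.2) * g (vq p.1 p.2.1 p.2.2), g p.1 * g p.2.1)) (by fun_prop))
  refine trEnt_I3 m0 m1 m2 fun v w ω => ?_
  have h1 := mul_pos (hp v) (hp w)
  have h2 := mul_pos (hp (vp v w ω)) (hp (vq v w ω))
  have h3 := add_nonneg (p1 v) (p1 w)
  have h4 := add_nonneg (p1 (vp v w ω)) (p1 (vq v w ω))
  have h5 : 0 ≤ (g (vp v w ω) * g (vq v w ω) - g v * g w) *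
      Real.log (g (vp v w ω) * g (vq v w ω) / (g v * g w)) := by
    rcases le_total (g v * g w) (g (vp v w ω) * g (vq v w ω)) with h | h
    · exact mul_nonneg (sub_nonneg.2 h) (Real.log_nonneg ((one_le_div h1).2 h))
    · exact mul_nonneg_of_nonpos_of_nonpos (sub_nonpos.2 h)
        (Real.log_nonpos (div_pos h2 h1).le ((div_le_one h1).2 h))
  rw [(isKer_kN n).coll, vp_coll, vq_coll, jE, if_neg fun h => h1.ne' h.2,
    if_neg (not_or.2 ⟨h2.ne', h1.ne'⟩)]
  simp only [mul_assoc (kN n v w ω), ← mul_add (kN n v w ω), ← ENNReal.ofReal_mul (hp _).le,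
    ← ENNReal.ofReal_add (p1 _) (p1 _), ← ENNReal.ofReal_mul h1.le, ← ENNReal.ofReal_mul h2.le]
  rw [← ENNReal.ofReal_add (mul_nonneg h1.le h3) (mul_nonneg h2.le h4),
    ← ENNReal.ofReal_add (mul_nonneg h1.le h4) (mul_nonneg h2.le h3),
    ← ENNReal.ofReal_add h5 (add_nonneg (mul_nonneg h1.le h3) (mul_nonneg h2.le h4)), he]
  exact congrArg _ (congrArg _ (by ring))

/-- entropy production of the truncated collision operator at a point `x` -/
theorem integral_coll_log {n : ℕ} (hn : 1 ≤ n) {g : Om → ℝ} (hm : Measurable g) {c M : ℝ}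
    (hc : 0 < c) (hl : ∀ z, c * G0 z.2 ≤ g z) (hM : ∀ z, g z ≤ M * G0 z.2) (x : X) :
    (1 / 4 : ℝ≥0∞) * (ENNReal.ofReal (kap n g x) * I3 (fun v w ω => kN n v w ω *
      jE (g (x, vp v w ω) * g (x, vq v w ω)) (g (x, v) * g (x, w)))) =
    ENNReal.ofReal
      (-∫ v, (qn n g (x, v) - ln n g (x, v) * g (x, v)) * Real.log (g (x, v) / Mx v)) ∧
    ∫ v, (qn n g (x, v) - ln n g (x, v) * g (x, v)) * Real.log (g (x, v) / Mx v) ≤ 0 := by
  obtain ⟨K, C, hK⟩ := trEnt_log M hc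
  have hp : ∀ z, 0 < g z := fun z => (mul_pos hc (G0_pos _)).trans_le (hl z)
  have h0 : ∀ z, 0 ≤ g z := fun z => (hp z).le
  obtain ⟨ψ, hψ⟩ : ∃ ψ : V → ℝ, ψ = fun v => K - Real.log (g (x, v) / Mx v) := ⟨_, rfl⟩
  have hx : Measurable fun v => g (x, v) := hm.comp measurable_prodMk_left
  have m1 : Measurable ψ := hψ ▸ (hx.div continuous_Mx.measurable).log.const_sub K
  have p1 : ∀ v, 0 ≤ ψ v := hψ ▸ fun v => sub_nonneg.2 (hK v _ (hl (x, v)) (hM (x, v))).1
  obtain ⟨a1, a2, a3, a4⟩ := trEnt_weak hn hm h0 hM x m1 p1 (C := |K| + C) fun v => by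
    have h1 := (abs_le.1 (hK v _ (hl (x, v)) (hM (x, v))).2).1
    have h2 : |K| ≤ |K| * (1 + ‖v‖) ^ 2 := le_mul_of_one_le_right (abs_nonneg K)
      (one_le_pow₀ (le_add_of_nonneg_right (norm_nonneg v)))
    simp only [hψ]
    linarith [le_abs_self K]
  obtain ⟨b1, b2, b3, b4⟩ := trEnt_weak hn hm h0 hM x (ψ := fun _ => 1) measurable_const
    (fun _ => zero_le_one) (C := 1) fun v => by
      rw [one_mul]
      exact one_le_pow₀ (le_add_of_nonneg_right (norm_nonneg v))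
  have q0 := fun v => qn_nonneg n h0 (x, v)
  have l0 := fun v => mul_nonneg (ln_nonneg n h0 (x, v)) (h0 (x, v))
  have b5 : ∫ v, qn n g (x, v) * 1 = ∫ v, ln n g (x, v) * g (x, v) * 1 :=
    (ENNReal.ofReal_eq_ofReal_iff (integral_nonneg fun v => mul_nonneg (q0 v) zero_le_one)
      (integral_nonneg fun v => mul_nonneg (l0 v) zero_le_one)).1
      ((ENNReal.mul_right_inj two_ne_zero ENNReal.ofNat_ne_top).1 (b3.trans b4.symm))
  have e1 : ∫ v, (qn n g (x, v) - ln n g (x, v) * g (x, v)) * Real.log (g (x, v) / Mx v) =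
      -((∫ v, qn n g (x, v) * ψ v) - ∫ v, ln n g (x, v) * g (x, v) * ψ v) := by
    have h1 := integral_sub ((b1.sub b2).const_mul K) (a1.sub a2)
    rw [integral_const_mul, integral_sub' b1 b2, integral_sub' a1 a2, b5, sub_self, mul_zero,
      zero_sub] at h1
    refine Eq.trans (integral_congr_ae (Eventually.of_forall fun v => ?_)) h1
    simp only [hψ, Pi.sub_apply]
    ring
  have e2 := trEnt_sym n (g := fun v => g (x, v)) (ψ := ψ) hx (fun v => hp (x, v)) m1 p1
    fun v w ω => by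
      have h1 := energy_coll v w ω
      simp only [hψ]
      rw [Real.log_div (mul_pos (hp _) (hp _)).ne' (mul_pos (hp _) (hp _)).ne',
        Real.log_mul (hp _).ne' (hp _).ne', Real.log_mul (hp _).ne' (hp _).ne',
        trEnt_div (hp _), trEnt_div (hp _), trEnt_div (hp _), trEnt_div (hp _)]
      linarith
  have e3 := congrArg (HMul.hMul (ENNReal.ofReal (kap n g x))) e2
  rw [mul_add, mul_add, mul_add] at e3
  unfold eo at a3 a4
  rw [← a3, ← a4] at e3
  have i0 : 0 ≤ ∫ v, ln n g (x, v) * g (x, v) * ψ v :=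
    integral_nonneg fun v => mul_nonneg (l0 v) (p1 v)
  have i1 : 0 ≤ ∫ v, qn n g (x, v) * ψ v := integral_nonneg fun v => mul_nonneg (q0 v) (p1 v)
  rw [e1, neg_neg, neg_nonpos, sub_nonneg]
  exact trEnt_arith i0 i1 e3

theorem TrSol.entropy {n : ℕ} {f0 : Om → ℝ} {f : ℝ → Om → ℝ} (h : TrSol n f0 f) {t : ℝ}
    (ht : 0 ≤ t) : relEnt (f t) + ∫⁻ s in Ioc 0 t, dissN n (f s) ≤ relEnt f0 := by
  rcases eq_or_ne (relEnt f0) ⊤ with h0 | h0
  · exact h0 ▸ le_top
  obtain ⟨M, hM⟩ := h.ub t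
  obtain ⟨c, hc, hl⟩ := h.lb t
  obtain ⟨B, hB⟩ := h.qn_bdd t
  obtain ⟨K, C, hK⟩ := trEnt_log M hc
  let Φ : ℝ × Om → ℝ := fun p => (qn n (f p.1) p.2 - ln n (f p.1) p.2 * f p.1 p.2) *
    Real.log (f p.1 p.2 / Mx p.2.2)
  let β : (Om → ℝ) → Om → ℝ := fun g z => g z * Real.log (g z / Mx z.2) - g z + Mx z.2
  have mM : Measurable fun z : Om => Mx z.2 := continuous_Mx.measurable.comp measurable_snd
  have mβ : ∀ {g}, Measurable g → Measurable (β g) := fun hg =>
    ((hg.mul (hg.div mM).log).sub hg).add mM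
  have hf : Measurable (Function.uncurry fun p : ℝ × Om => f p.1) :=
    h.meas.comp ((measurable_fst.comp measurable_fst).prodMk measurable_snd)
  have mΦ : Measurable Φ := ((measurable_qn n hf measurable_snd).sub
    ((measurable_ln n hf measurable_snd).mul h.meas)).mul
      (h.meas.div (mM.comp measurable_snd)).log
  have bΦ : ∀ s ∈ Ioc 0 t, ∀ z, ‖Φ (s, z)‖ ≤
      (B + 26 * (n : ℝ) ^ 2 * M) * C * ((1 + ‖z.2‖) ^ 2 * G0 z.2) := fun s hs z => by
    have hs' := Ioc_subset_Icc_self hs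
    have h1 := hB s hs' z
    have h2 := mul_le_mul (h.ln_bdd hs.1.le z) (hM s hs' z) (h.nonneg s z) (by positivity)
    have h3 := qn_nonneg n (h.nonneg s) z
    have h4 := mul_nonneg (ln_nonneg n (h.nonneg s) z) (h.nonneg s z)
    have h5 : |qn n (f s) z - ln n (f s) z * f s z| ≤ (B + 26 * (n : ℝ) ^ 2 * M) * G0 z.2 :=
      abs_le.2 ⟨by linarith, by linarith⟩
    rw [Real.norm_eq_abs, abs_mul]
    exact (mul_le_mul h5 (hK _ _ (hl s hs' z) (hM s hs' z)).2 (abs_nonneg _)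
      ((abs_nonneg _).trans h5)).trans_eq (by ring)
  have iG := (integrable_G0_Om 2).const_mul ((B + 26 * (n : ℝ) ^ 2 * M) * C)
  have i1 : Integrable Φ ((volume.restrict (Ioc 0 t)).prod volume) := by
    refine (iG.comp_snd _).mono' mΦ.aestronglyMeasurable ?_
    rw [Measure.ae_prod_iff_ae_ae (measurableSet_le mΦ.norm (by
      have := continuous_G0.measurable
      fun_prop))]
    exact (ae_restrict_mem measurableSet_Ioc).mono fun s hs => Eventually.of_forall (bΦ s hs)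
  have i2 : Integrable (Function.uncurry fun s z => Φ (s, sh s z))
      ((volume.restrict (Ioc 0 t)).prod volume) :=
    (measurePreserving_shST _).integrable_comp_of_integrable i1
  have i3 : Integrable (β f0) := (lintegral_ofReal_ne_top_iff_integrable
    (mβ h.meas0).aestronglyMeasurable (Eventually.of_forall fun z =>
      relEnt_integrand_nonneg (h.zero z ▸ h.nonneg 0 z) (Mx_pos _))).1 h0
  have i4 : Integrable fun z => ∫ s in Ioc 0 t, Φ (s, sh s z) := i2.integral_prod_right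
  have e1 : ∀ z, β (f t) (sh t z) = β f0 z + ∫ s in Ioc 0 t, Φ (s, sh s z) := fun z => by
    have h1 := ((h.prim ht z).chain ht (β := fun y => y * Real.log (y / Mx z.2) - y + Mx z.2)
      (β' := fun y => Real.log (y / Mx z.2)) (convex_Ioi 0) (fun s hs => h.pos hs.1 _)
      (fun y hy => ?_) (continuousOn_id.div_const _ |>.log fun y hy =>
        (div_pos hy (Mx_pos _)).ne')).2 t ⟨ht, le_rfl⟩
    · rw [intervalIntegral.integral_of_le ht] at h1
      simp only [sh_zero, h.zero] at h1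
      exact h1.trans (congrArg _ (integral_congr_ae (Eventually.of_forall fun s => mul_comm _ _)))
    · refine HasDerivAt.hasDerivWithinAt (HasDerivAt.congr_deriv ((((hasDerivAt_id' y).fun_mul
        (((hasDerivAt_id' y).div_const _).log (div_pos hy (Mx_pos _)).ne')).fun_sub
        (hasDerivAt_id' y)).add_const _) ?_)
      have h2 := (Mx_pos z.2).ne'
      have h3 : y ≠ 0 := ne_of_gt hy
      field_simp
      ring
  have e2 : ∀ s ∈ Ioc 0 t, dissN n (f s) = ENNReal.ofReal (-∫ z, Φ (s, z)) ∧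
      0 ≤ -∫ z, Φ (s, z) := fun s hs => by
    have hs' := Ioc_subset_Icc_self hs
    have h1 := integral_coll_log h.npos (h.meas_t s) hc (hl s hs') (hM s hs')
    have h2 : Integrable (fun z => Φ (s, z)) (volume.prod volume) :=
      iG.mono' (mΦ.comp measurable_prodMk_left).aestronglyMeasurable
        (Eventually.of_forall (bΦ s hs))
    have h3 : ∀ x, 0 ≤ -∫ v, Φ (s, x, v) := fun x => neg_nonneg.2 (h1 x).2
    rw [Measure.volume_eq_prod, integral_prod _ h2, ← integral_neg,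
      ofReal_integral_eq_lintegral_ofReal (f := fun x => -∫ v, Φ (s, x, v))
        h2.integral_prod_left.neg (Eventually.of_forall h3),
      dissN, ← lintegral_const_mul' _ _ (by simp)]
    exact ⟨lintegral_congr fun x => (h1 x).1, integral_nonneg h3⟩
  have e3 : ∀ᵐ s ∂volume.restrict (Ioc 0 t), 0 ≤ -∫ z, Φ (s, z) :=
    (ae_restrict_mem measurableSet_Ioc).mono fun s hs => (e2 s hs).2
  have e4 : ∀ z, 0 ≤ β f0 z + ∫ s in Ioc 0 t, Φ (s, sh s z) := fun z =>
    e1 z ▸ relEnt_integrand_nonneg (h.nonneg t _) (Mx_pos _)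
  have e5 : relEnt (f t) =
      ENNReal.ofReal (∫ z, (β f0 z + ∫ s in Ioc 0 t, Φ (s, sh s z))) := by
    rw [ofReal_integral_eq_lintegral_ofReal (f := fun z => β f0 z + ∫ s in Ioc 0 t, Φ (s, sh s z))
      (i3.add i4) (Eventually.of_forall e4), relEnt, ← lintegral_sh t (mβ (h.meas_t t)).ennreal_ofReal]
    exact lintegral_congr fun z => congrArg _ (e1 z)
  rw [setLIntegral_congr_fun measurableSet_Ioc fun s hs => (e2 s hs).1,
    ← ofReal_integral_eq_lintegral_ofReal (f := fun s => -∫ z, Φ (s, z))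
      i1.integral_prod_left.neg e3, e5,
    ← ENNReal.ofReal_add (integral_nonneg e4) (integral_nonneg_of_ae e3),
    integral_add i3 i4, ← integral_integral_swap i2, integral_neg]
  have e6 : ∀ s, ∫ z, Φ (s, sh s z) = ∫ z, Φ (s, z) := fun s => integral_sh s fun z => Φ (s, z)
  simp only [e6, add_neg_cancel_right]
  exact (ofReal_integral_eq_lintegral_ofReal i3 (Eventually.of_forall fun z =>
    relEnt_integrand_nonneg (h.zero z ▸ h.nonneg 0 z) (Mx_pos _))).le

end Vale.Agent.P140
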