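import Vale.Agent.P140.TrCons
import Vale.Agent.P140.TrEnt
import Vale.Agent.P140.WL

/-! Definitions for the DiPerna-Lions stability argument. -/

namespace Vale.Agent.P140

open MeasureTheory Set Filter Topology
open scoped ENNReal

noncomputable section

/-- velocity balls in phase space -/
def EB (R : ℕ) : Set Om := {z | ‖z.2‖ ≤ R}

/-- velocity balls in space-time phase space -/
def EBT (R : ℕ) : Set (ℝ × Om) := {p | ‖p.2.2‖ ≤ R}

/-- measure on `(0,T] × 𝕋³` -/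
def mY (T : ℝ) : Measure (ℝ × X) := ((volume : Measure ℝ).restrict (Ioc 0 T)).prod volume

/-- measure on `(0,T] × 𝕋³ × ℝ³ × ℝ³` -/
def mV2 (T : ℝ) : Measure ((ℝ × X) × V × V) := (mY T).prod ((volume : Measure V).prod volume)

/-- measure on `(0,T] × 𝕋³ × ℝ³ × ℝ³ × S²` -/
def mC (T : ℝ) : Measure ((ℝ × X) × V × V × S2) :=
  (mY T).prod ((volume : Measure V).prod ((volume : Measure V).prod sig))

def E2 (R : ℕ) : Set ((ℝ × X) × V × V) := {p | ‖p.2.1‖ ≤ R ∧ ‖p.2.2‖ ≤ R}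

def E3 (R : ℕ) : Set ((ℝ × X) × V × V × S2) := {p | ‖p.2.1‖ ^ 2 + ‖p.2.2.1‖ ^ 2 ≤ (R : ℝ) ^ 2}

/-- weighted density -/
def rho1 (g : Om → ℝ) (x : X) : ℝ := ∫ v, (1 + ‖v‖) * g (x, v)

/-- full collision frequency -/
def lI (g : Om → ℝ) (z : Om) : ℝ := (Lo kI (eo g z.1) z.2).toReal

/-- full gain term -/
def qI (g : Om → ℝ) (z : Om) : ℝ≥0∞ := Qp kI (eo g z.1) (eo g z.1) z.2

def LamI (ft : ℝ → Om → ℝ) (s t : ℝ) (z : Om) : ℝ := ∫ τ in s..t, lI (ft τ) (sh τ z)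

/-- the exponential (mild) formula with the coefficients of `ft`, along characteristics -/
def FF (F0 : Om → ℝ) (ft : ℝ → Om → ℝ) (t : ℝ) (z : Om) : ℝ≥0∞ :=
  ENNReal.ofReal (F0 z * Real.exp (-LamI ft 0 t z)) +
    ∫⁻ τ in Ioc 0 t, ENNReal.ofReal (Real.exp (-LamI ft τ t z)) * qI (ft τ) (sh τ z)

/-- the limit solution -/
def FL (F0 : Om → ℝ) (ft : ℝ → Om → ℝ) (t : ℝ) (z : Om) : ℝ := (FF F0 ft t (sh (-t) z)).toReal

/-- normalised weighted tensor product -/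
def tw (n : ℕ) (ζ : ℝ) (g : Om → ℝ) (x : X) (v w : V) : ℝ :=
  kap n g x * (((1 + ‖v‖) * g (x, v)) * ((1 + ‖w‖) * g (x, w)) / (1 + ζ * rho1 g x))

def twI (ζ : ℝ) (g : Om → ℝ) (x : X) (v w : V) : ℝ :=
  ((1 + ‖v‖) * g (x, v)) * ((1 + ‖w‖) * g (x, w)) / (1 + ζ * rho1 g x)

/-- normalised collision density -/
def cw (n : ℕ) (ζ : ℝ) (g : Om → ℝ) (x : X) (c : V × V × S2) : ℝ :=
  (kN n c.1 c.2.1 c.2.2).toReal * (kap n g x * (g (x, c.1) * g (x, c.2.1) / (1 + ζ * rho1 g x)))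

def cwI (ζ : ℝ) (g : Om → ℝ) (x : X) (c : V × V × S2) : ℝ :=
  |aa c.1 c.2.1 c.2.2| * (g (x, c.1) * g (x, c.2.1) / (1 + ζ * rho1 g x))

/-- `ft` is the space-time weak limit of `f i` along the ultrafilter `U` -/
structure IsLim (U : Ultrafilter ℕ) (f : ℕ → ℝ → Om → ℝ) (ft : ℝ → Om → ℝ) : Prop where
  le : (U : Filter ℕ) ≤ atTop
  meas : Measurable (Function.uncurry ft)
  nonneg : ∀ t z, 0 ≤ ft t z
  int : ∀ T, Integrable (fun p : ℝ × Om => (1 + ‖p.2.2‖) * ft p.1 p.2) (mT T)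
  conv : ∀ T, WConv U (mT T) (fun i p => (1 + ‖p.2.2‖) * f i p.1 p.2)
    (fun p => (1 + ‖p.2.2‖) * ft p.1 p.2)

/-- `h` is the weak limit of `f i t ∘ sh t` along `U` -/
structure IsLimT (U : Ultrafilter ℕ) (f : ℕ → ℝ → Om → ℝ) (t : ℝ) (h : Om → ℝ) : Prop where
  meas : Measurable h
  nonneg : ∀ z, 0 ≤ h z
  int : Integrable (fun z : Om => (1 + ‖z.2‖) * h z)
  conv : WConv U volume (fun i z => (1 + ‖z.2‖) * f i t (sh t z)) (fun z => (1 + ‖z.2‖) * h z)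

instance isFiniteMeasure_mY (T : ℝ) : IsFiniteMeasure (mY T) := by
  unfold mY; infer_instance

instance sigmaFinite_mV2 (T : ℝ) : SigmaFinite (mV2 T) := by
  unfold mV2; infer_instance

instance sigmaFinite_mC (T : ℝ) : SigmaFinite (mC T) := by
  unfold mC
  haveI : SigmaFinite ((volume : Measure V).prod sig) := inferInstance
  haveI : SigmaFinite ((volume : Measure V).prod ((volume : Measure V).prod sig)) := inferInstance
  infer_instance

end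

end Vale.Agent.P140
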