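import Vale.Agent.P140.DLColl

/-! Lower semicontinuity of entropy and entropy dissipation. -/

namespace Vale.Agent.P140

open MeasureTheory Set Filter Topology
open scoped ENNReal

/- PLAN relEnt_le: for bounded measurable π: s log(s/m) - s + m ≥ s π - m (e^π - 1); take
π_K = clamp of log(v/M) to [-K,K] (value -K where v = 0); the limit integrand v π_K - M(e^{π_K} - 1) is ≥ 0 and tends to
the entropy integrand: Fatou (lintegral_liminf_le).
PLAN diss_le: for r > 0, p(r) = log r + 1 - 1/r, q(r) = -log r + 1 - r: jE a b ≥ p a + q b for a,b ≥ 0 (ofReal);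
with W' = cwI∘coll, W = cwI, r = clamp(W'/W) to [1/K,K] (K if W = 0 < W', 1/K if W' = 0 < W, 1 if both vanish):
p W' + q W ≥ j_K(W',W) := |W' - W| min(|log(W'/W)|, log K) (log K if exactly one vanishes) ↑ jE W' W.
dissN ≥ (1/4) ∫ jE(cw∘coll, cw) by jE_mul (kN∘coll = kN, 1/(1+ζ rho1) ≤ 1). Then K → ∞, ζ → 0 (monotone convergence
or Fatou), jE(W',W) = |a|/(1+ζ rho1) jE(ft' ft'_*, ft ft_*). -/

section
variable {α : Type*} [MeasurableSpace α] {μ : Measure α}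

theorem dld_add {U : Filter ℕ} {u u' : ℕ → α → ℝ} {v v' : α → ℝ} (h : WConv U μ u v)
    (h' : WConv U μ u' v') (hu : ∀ i, Integrable (u i) μ) (hu' : ∀ i, Integrable (u' i) μ)
    (hv : Integrable v μ) (hv' : Integrable v' μ) :
    WConv U μ (fun i a => u i a + u' i a) (fun a => v a + v' a) := by
  rintro ψ hψ ⟨C, hC⟩
  simp only [add_mul, integral_add (WL_int_mul (hu _) hψ hC) (WL_int_mul (hu' _) hψ hC),
    integral_add (WL_int_mul hv hψ hC) (WL_int_mul hv' hψ hC)]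
  exact (h ψ hψ ⟨C, hC⟩).add (h' ψ hψ ⟨C, hC⟩)

theorem dld_ofReal {g : α → ℝ} (hg : Integrable g μ) :
    ENNReal.ofReal (∫ a, g a ∂μ) ≤ ∫⁻ a, ENNReal.ofReal (g a) ∂μ := by
  refine (ENNReal.ofReal_le_ofReal (integral_mono hg hg.pos_part fun a => le_max_left _ _)).trans ?_
  rw [ofReal_integral_eq_lintegral_ofReal hg.pos_part (Eventually.of_forall fun a =>
    le_max_right _ _)]
  simp

theorem dld_lsc {U : Filter ℕ} [U.NeBot] {u : ℕ → α → ℝ} {v : α → ℝ} (h : WConv U μ u v)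
    (hu : ∀ i, Integrable (u i) μ) (hv : Integrable v μ) (hm : Measurable v) {c : ℝ≥0∞}
    (hc : ∀ᶠ i in U, ∫⁻ a, ENNReal.ofReal (u i a) ∂μ ≤ c) :
    ∫⁻ a, ENNReal.ofReal (v a) ∂μ ≤ c := by
  let ψ : α → ℝ := fun a => if 0 ≤ v a then 1 else 0
  have m1 : Measurable ψ :=
    Measurable.ite (measurableSet_le measurable_const hm) measurable_const measurable_const
  have b1 : ∀ a, |ψ a| ≤ 1 := fun a => by
    simp only [ψ]
    split_ifs <;> simp
  have e1 : ∫⁻ a, ENNReal.ofReal (v a) ∂μ = ENNReal.ofReal (∫ a, v a * ψ a ∂μ) := by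
    rw [ofReal_integral_eq_lintegral_ofReal (WL_int_mul hv m1 b1) (Eventually.of_forall fun a => by
      simp only [ψ]
      split_ifs with h1 <;> simp [h1])]
    refine lintegral_congr fun a => ?_
    simp only [ψ]
    split_ifs with h1
    · rw [mul_one]
    · rw [mul_zero, ENNReal.ofReal_zero, ENNReal.ofReal_of_nonpos (not_le.1 h1).le]
  rw [e1]
  refine le_of_tendsto (ENNReal.tendsto_ofReal (h ψ m1 ⟨1, b1⟩)) (hc.mono fun i hi => ?_)
  refine (dld_ofReal (WL_int_mul (hu i) m1 b1)).trans (le_trans (lintegral_mono fun a => ?_) hi)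
  simp only [ψ]
  split_ifs <;> simp

theorem dld_fatou {G : ℕ → α → ℝ≥0∞} (hG : ∀ k, Measurable (G k)) {D : α → ℝ≥0∞}
    (hD : ∀ a, D a ≤ liminf (fun k => G k a) atTop) {c : ℝ≥0∞} (hc : ∀ k, ∫⁻ a, G k a ∂μ ≤ c) :
    ∫⁻ a, D a ∂μ ≤ c :=
  (lintegral_mono hD).trans ((lintegral_liminf_le hG).trans
    (liminf_le_of_frequently_le' (Frequently.of_forall hc)))

end

/-- the clamped ratio -/
noncomputable def dldR (k : ℕ) (a b : ℝ) : ℝ :=
  if b = 0 then (k : ℝ) + 1 else max ((k : ℝ) + 1)⁻¹ (min ((k : ℝ) + 1) (a / b))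

theorem dldR_meas (k : ℕ) {α : Type*} [MeasurableSpace α] {a b : α → ℝ} (ha : Measurable a)
    (hb : Measurable b) : Measurable fun x => dldR k (a x) (b x) :=
  Measurable.ite (hb (measurableSet_singleton 0)) measurable_const
    (measurable_const.max (measurable_const.min (ha.div hb)))

theorem dldR_mem (k : ℕ) (a b : ℝ) : ((k : ℝ) + 1)⁻¹ ≤ dldR k a b ∧ dldR k a b ≤ (k : ℝ) + 1 := by
  have h1 : (1 : ℝ) ≤ k + 1 := le_add_of_nonneg_left k.cast_nonneg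
  have h2 := (inv_le_one_of_one_le₀ h1).trans h1
  unfold dldR
  split_ifs
  · exact ⟨h2, le_rfl⟩
  · exact ⟨le_max_left _ _, max_le h2 (min_le_left _ _)⟩

theorem dldR_pos (k : ℕ) (a b : ℝ) : 0 < dldR k a b :=
  lt_of_lt_of_le (by positivity) (dldR_mem k a b).1

theorem dldR_bd (k : ℕ) : ∃ C : ℝ, ∀ a b, |Real.log (dldR k a b)| ≤ C ∧ |1 - dldR k a b| ≤ C ∧
    |Real.log (dldR k a b) + 1 - (dldR k a b)⁻¹| ≤ C ∧
    |-Real.log (dldR k a b) + 1 - dldR k a b| ≤ C := by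
  refine ⟨2 * (k + 1) + 1, fun a b => ?_⟩
  have h0 := dldR_pos k a b
  obtain ⟨h1, h2⟩ := dldR_mem k a b
  have h3 := inv_le_of_inv_le₀ (by positivity) h1
  have h4 := Real.log_le_sub_one_of_pos h0
  have h5 := Real.one_sub_inv_le_log_of_pos h0
  have h6 := inv_pos.2 h0
  simp only [abs_le]
  refine ⟨⟨?_, ?_⟩, ⟨?_, ?_⟩, ⟨?_, ?_⟩, ?_, ?_⟩ <;> linarith

theorem dldR_eventually {a b : ℝ} (ha : 0 < a) (hb : 0 < b) :
    ∀ᶠ k : ℕ in atTop, dldR k a b = a / b := by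
  have h1 := tendsto_atTop_add_const_right atTop (1 : ℝ) tendsto_natCast_atTop_atTop
  filter_upwards [h1.eventually_ge_atTop (a / b), h1.eventually_ge_atTop (a / b)⁻¹] with k h2 h3
  rw [dldR, if_neg hb.ne', min_eq_right h2,
    max_eq_right (inv_le_of_inv_le₀ (by positivity) h3)]

theorem dldR_zero (k : ℕ) {b : ℝ} (hb : 0 < b) : dldR k 0 b = ((k : ℝ) + 1)⁻¹ := by
  rw [dldR, if_neg hb.ne', zero_div, min_eq_right (by positivity), max_eq_left (by positivity)]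

theorem dld_log {s m r : ℝ} (hs : 0 ≤ s) (hm : 0 < m) (hr : 0 < r) :
    s * Real.log r - m * r ≤ s * Real.log (s / m) - s := by
  rcases hs.eq_or_lt with rfl | hs'
  · simpa using (mul_pos hm hr).le
  · have h := relEnt_integrand_nonneg hs (mul_pos hm hr)
    rw [← div_div, Real.log_div (div_pos hs' hm).ne' hr.ne'] at h
    linarith

theorem dld_ent_lim {s m : ℝ} (hs : 0 ≤ s) (hm : 0 < m) :
    Tendsto (fun k : ℕ => ENNReal.ofReal (s * Real.log (dldR k s m) + m * (1 - dldR k s m))) atTop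
      (𝓝 (ENNReal.ofReal (s * Real.log (s / m) - s + m))) := by
  refine ENNReal.tendsto_ofReal ?_
  rcases hs.eq_or_lt with rfl | hs
  · simp only [dldR_zero _ hm, zero_mul, zero_add, sub_zero]
    simpa using (tendsto_inv_atTop_zero.comp (tendsto_atTop_add_const_right atTop (1 : ℝ)
      tendsto_natCast_atTop_atTop)).const_sub 1 |>.const_mul m
  · refine tendsto_const_nhds.congr' ((dldR_eventually hs hm).mono fun k hk => ?_)
    simp only [hk, mul_sub, mul_div_cancel₀ _ hm.ne']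
    ring

/-- the affine minorant of `jE` with parameter `r` -/
noncomputable def dldJ (r a b : ℝ) : ℝ :=
  a * (Real.log r + 1 - r⁻¹) + b * (-Real.log r + 1 - r)

theorem dldJ_le {r a b : ℝ} (hr : 0 < r) (ha : 0 ≤ a) (hb : 0 ≤ b) :
    ENNReal.ofReal (dldJ r a b) ≤ jE a b := by
  unfold jE
  split_ifs with h1 h2
  · simp [dldJ, h1.1, h1.2]
  · exact le_top
  · have ha' := ha.lt_of_ne' (not_or.1 h2).1
    have hb' := hb.lt_of_ne' (not_or.1 h2).2
    have h3 := dld_log ha hb' hr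
    have h4 := dld_log hb ha' (inv_pos.2 hr)
    rw [Real.log_inv, ← inv_div, Real.log_inv] at h4
    exact ENNReal.ofReal_le_ofReal (by unfold dldJ; linarith)

theorem dldJ_lim {a b : ℝ} (ha : 0 ≤ a) (hb : 0 ≤ b) :
    Tendsto (fun k : ℕ => ENNReal.ofReal (dldJ (dldR k a b) a b)) atTop (𝓝 (jE a b)) := by
  have h1 := tendsto_atTop_add_const_right atTop (1 : ℝ) tendsto_natCast_atTop_atTop
  have h2 : Tendsto (fun k : ℕ => Real.log ((k : ℝ) + 1) + 1 - ((k : ℝ) + 1)⁻¹) atTop atTop := by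
    refine tendsto_atTop_mono (fun k => ?_) (Real.tendsto_log_atTop.comp h1)
    have := inv_le_one_of_one_le₀ (le_add_of_nonneg_left k.cast_nonneg : (1 : ℝ) ≤ k + 1)
    simp only [Function.comp]
    linarith
  rcases ha.eq_or_lt with rfl | ha' <;> rcases hb.eq_or_lt with rfl | hb'
  · simp [dldJ, jE]
  · rw [jE, if_neg fun h => hb'.ne' h.2, if_pos (Or.inl rfl)]
    simp only [dldR_zero _ hb', dldJ, zero_mul, zero_add, Real.log_inv, neg_neg]
    exact ENNReal.tendsto_ofReal_atTop.comp (h2.const_mul_atTop hb')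
  · rw [jE, if_neg fun h => ha'.ne' h.1, if_pos (Or.inr rfl)]
    simp only [dldR, dldJ, zero_mul, add_zero, if_true]
    exact ENNReal.tendsto_ofReal_atTop.comp (h2.const_mul_atTop ha')
  · rw [jE, if_neg fun h => ha'.ne' h.1, if_neg (not_or.2 ⟨ha'.ne', hb'.ne'⟩)]
    refine tendsto_const_nhds.congr' ((dldR_eventually ha' hb').mono fun k hk => ?_)
    simp only [hk, dldJ]
    refine congrArg _ ?_
    field_simp
    ring

theorem dld_cw (n : ℕ) (ζ r : ℝ) (g : Om → ℝ) (x : X) (c : V × V × S2) :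
    cw n ζ g x (coll c) * (Real.log r + 1 - r⁻¹) + cw n ζ g x c * (-Real.log r + 1 - r) =
      kap n g x * (kN n c.1 c.2.1 c.2.2).toReal * (1 + ζ * rho1 g x)⁻¹ *
        dldJ r (g (x, vp c.1 c.2.1 c.2.2) * g (x, vq c.1 c.2.1 c.2.2))
          (g (x, c.1) * g (x, c.2.1)) := by
  simp only [cw, coll, (isKer_kN n).coll, dldJ]
  ring

theorem dld_cwI (ζ r : ℝ) (g : Om → ℝ) (x : X) (c : V × V × S2) :
    cwI ζ g x (coll c) * (Real.log r + 1 - r⁻¹) + cwI ζ g x c * (-Real.log r + 1 - r) =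
      |aa c.1 c.2.1 c.2.2| * (1 + ζ * rho1 g x)⁻¹ *
        dldJ r (g (x, vp c.1 c.2.1 c.2.2) * g (x, vq c.1 c.2.1 c.2.2))
          (g (x, c.1) * g (x, c.2.1)) := by
  simp only [cwI, coll, aa_coll, abs_neg, dldJ]
  ring

theorem dld_lim {α ρ a b : ℝ} (hα : 0 ≤ α) (hρ : 0 ≤ ρ) (ha : 0 ≤ a) (hb : 0 ≤ b) :
    ENNReal.ofReal α * jE a b ≤ liminf (fun k : ℕ => ENNReal.ofReal
      (α * (1 + ((k : ℝ) + 1)⁻¹ * ρ)⁻¹ * dldJ (dldR k a b) a b)) atTop := by
  rcases hα.eq_or_lt with rfl | hα'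
  · simp
  have h1 := ((((tendsto_inv_atTop_zero.comp (tendsto_atTop_add_const_right atTop (1 : ℝ)
    tendsto_natCast_atTop_atTop)).mul_const ρ).const_add 1).inv₀ (by simp)).const_mul α
  rw [zero_mul, add_zero, inv_one, mul_one] at h1
  refine (Tendsto.congr (fun k => ?_) (ENNReal.Tendsto.mul (ENNReal.tendsto_ofReal h1)
    (Or.inl (ENNReal.ofReal_pos.2 hα').ne') (dldJ_lim ha hb)
    (Or.inr ENNReal.ofReal_ne_top))).liminf_eq.ge
  exact (ENNReal.ofReal_mul (mul_nonneg hα (inv_nonneg.2 (add_nonneg zero_le_one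
    (mul_nonneg (inv_nonneg.2 (Nat.cast_add_one_pos k).le) hρ))))).symm

section
variable {g : ℝ → Om → ℝ} (hg : Measurable (Function.uncurry g))
include hg

theorem dld_mP : Measurable fun p : (ℝ × X) × V × V × S2 =>
    g p.1.1 (p.1.2, p.2.1) * g p.1.1 (p.1.2, p.2.2.1) :=
  (hg.comp (f := fun p : (ℝ × X) × V × V × S2 => (p.1.1, p.1.2, p.2.1)) (by fun_prop)).mul
    (hg.comp (f := fun p : (ℝ × X) × V × V × S2 => (p.1.1, p.1.2, p.2.2.1)) (by fun_prop))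

theorem dld_mP' : Measurable fun p : (ℝ × X) × V × V × S2 =>
    g p.1.1 (p.1.2, vp p.2.1 p.2.2.1 p.2.2.2) * g p.1.1 (p.1.2, vq p.2.1 p.2.2.1 p.2.2.2) :=
  (dld_mP hg).comp dlc_coll_meas

theorem dld_mJ : Measurable fun p : (ℝ × X) × V × V × S2 =>
    jE (g p.1.1 (p.1.2, vp p.2.1 p.2.2.1 p.2.2.2) * g p.1.1 (p.1.2, vq p.2.1 p.2.2.1 p.2.2.2))
      (g p.1.1 (p.1.2, p.2.1) * g p.1.1 (p.1.2, p.2.2.1)) :=
  measurable_jE.comp ((dld_mP' hg).prodMk (dld_mP hg))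

theorem dld_dissN (n : ℕ) (t : ℝ) : ∫⁻ s in Ioc 0 t, dissN n (g s) = 1 / 4 * ∫⁻ p,
    ENNReal.ofReal (kap n (g p.1.1) p.1.2) * (kN n p.2.1 p.2.2.1 p.2.2.2 *
    jE (g p.1.1 (p.1.2, vp p.2.1 p.2.2.1 p.2.2.2) * g p.1.1 (p.1.2, vq p.2.1 p.2.2.1 p.2.2.2))
      (g p.1.1 (p.1.2, p.2.1) * g p.1.1 (p.1.2, p.2.2.1))) ∂mC t := by
  rw [lintegral_mC t ((measurable_kap n (g := fun p : (ℝ × X) × V × V × S2 => g p.1.1)
    (hg.comp (f := fun q : ((ℝ × X) × V × V × S2) × Om => (q.1.1.1, q.2)) (by fun_prop))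
    measurable_fst.snd).ennreal_ofReal.fun_mul
    (((isKer_kN n).measurable_comp (by fun_prop) (by fun_prop) (by fun_prop)).fun_mul
      (dld_mJ hg))),
    ← lintegral_const_mul' _ _ (by simp)]
  simp only [dissN, I3, lintegral_const_mul' _ _ ENNReal.ofReal_ne_top]

theorem dld_dissip (t : ℝ) : ∫⁻ s in Ioc 0 t, dissip (g s) = 1 / 4 * ∫⁻ p,
    ENNReal.ofReal |aa p.2.1 p.2.2.1 p.2.2.2| *
    jE (g p.1.1 (p.1.2, vp p.2.1 p.2.2.1 p.2.2.2) * g p.1.1 (p.1.2, vq p.2.1 p.2.2.1 p.2.2.2))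
      (g p.1.1 (p.1.2, p.2.1) * g p.1.1 (p.1.2, p.2.2.1)) ∂mC t := by
  rw [lintegral_mC t (Measurable.fun_mul (by fun_prop) (dld_mJ hg)),
    ← lintegral_const_mul' _ _ (by simp)]
  rfl

end

theorem relEnt_le {U : Filter ℕ} [U.NeBot] {u : ℕ → Om → ℝ} {v : Om → ℝ}
    (h : WConv U volume u v) (hum : ∀ i, Measurable (u i)) (hu0 : ∀ i z, 0 ≤ u i z)
    (hu : ∀ i, Integrable (u i)) (hvm : Measurable v) (hv0 : ∀ z, 0 ≤ v z) (hv : Integrable v)
    {c : ℝ≥0∞} (hc : ∀ᶠ i in U, relEnt (u i) ≤ c) : relEnt v ≤ c := by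
  have mM : Measurable fun z : Om => Mx z.2 := continuous_Mx.measurable.comp measurable_snd
  have iM : Integrable fun z : Om => Mx z.2 := by
    have h1 := (integrable_Mx_moment 0).comp_snd (volume : Measure X)
    simp only [pow_zero, one_mul] at h1
    exact h1
  have mr : ∀ k, Measurable fun z => dldR k (v z) (Mx z.2) := fun k => dldR_meas k hvm mM
  refine dld_fatou (G := fun k z => ENNReal.ofReal (v z * Real.log (dldR k (v z) (Mx z.2)) +
    Mx z.2 * (1 - dldR k (v z) (Mx z.2))))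
    (fun k => ((hvm.mul (mr k).log).add (mM.mul ((mr k).const_sub 1))).ennreal_ofReal)
    (fun z => (dld_ent_lim (hv0 z) (Mx_pos _)).liminf_eq.ge) fun k => ?_
  obtain ⟨C, hC⟩ := dldR_bd k
  have i1 := WL_int_mul iM ((mr k).const_sub 1) fun z => (hC _ _).2.1
  refine dld_lsc (dld_add (h.mul (mr k).log ⟨C, fun z => (hC _ _).1⟩)
    (u' := fun _ z => Mx z.2 * (1 - dldR k (v z) (Mx z.2))) (fun _ _ _ => tendsto_const_nhds)
    (fun i => WL_int_mul (hu i) (mr k).log fun z => (hC _ _).1) (fun _ => i1)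
    (WL_int_mul hv (mr k).log fun z => (hC _ _).1) i1)
    (fun i => (WL_int_mul (hu i) (mr k).log fun z => (hC _ _).1).add i1)
    ((WL_int_mul hv (mr k).log fun z => (hC _ _).1).add i1)
    ((hvm.mul (mr k).log).add (mM.mul ((mr k).const_sub 1))) (hc.mono fun i hi => ?_)
  refine le_trans (lintegral_mono fun z => ENNReal.ofReal_le_ofReal ?_) hi
  have h1 := dld_log (hu0 i z) (Mx_pos z.2) (dldR_pos k (v z) (Mx z.2))
  linarith

variable {F0 : Om → ℝ} {n : ℕ → ℕ} {f0 : ℕ → Om → ℝ} {f : ℕ → ℝ → Om → ℝ} (A : Appr F0 n f0 f)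
  {U : Ultrafilter ℕ} {ft : ℝ → Om → ℝ} (L : IsLim U f ft)
include A L

theorem Appr.diss_le {t : ℝ} (ht : 0 ≤ t) {c : ℝ≥0∞}
    (hc : ∀ᶠ i in (U : Filter ℕ), ∫⁻ s in Ioc 0 t, dissN (n i) (f i s) ≤ c) :
    ∫⁻ s in Ioc 0 t, dissip (ft s) ≤ c := by
  have h4 : ∀ x : ℝ≥0∞, 4 * (1 / 4 * x) = x := fun x => by
    rw [← mul_assoc, one_div, ENNReal.mul_inv_cancel (by simp) (by simp), one_mul]
  have h5 : 1 / 4 * (4 * c) = c := by
    rw [mul_left_comm, h4]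
  rw [dld_dissip L.meas, ← h5]
  refine mul_le_mul_right ?_ _
  obtain ⟨r, hr⟩ : ∃ r : ℕ → (ℝ × X) × V × V × S2 → ℝ, ∀ k p, r k p = dldR k
    (ft p.1.1 (p.1.2, vp p.2.1 p.2.2.1 p.2.2.2) * ft p.1.1 (p.1.2, vq p.2.1 p.2.2.1 p.2.2.2))
    (ft p.1.1 (p.1.2, p.2.1) * ft p.1.1 (p.1.2, p.2.2.1)) := ⟨_, fun _ _ => rfl⟩
  have mr : ∀ k, Measurable (r k) := fun k =>
    funext (hr k) ▸ dldR_meas k (dld_mP' L.meas) (dld_mP L.meas)
  have m1 : ∀ k, Measurable fun p => Real.log (r k p) + 1 - (r k p)⁻¹ := fun k =>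
    ((mr k).log.add_const 1).sub (mr k).inv
  have m2 : ∀ k, Measurable fun p => -Real.log (r k p) + 1 - r k p := fun k =>
    ((mr k).log.neg.add_const 1).sub (mr k)
  have m3 : ∀ k : ℕ, Measurable fun p : (ℝ × X) × V × V × S2 =>
      cwI ((k : ℝ) + 1)⁻¹ (ft p.1.1) p.1.2 (coll p.2) * (Real.log (r k p) + 1 - (r k p)⁻¹) +
      cwI ((k : ℝ) + 1)⁻¹ (ft p.1.1) p.1.2 p.2 * (-Real.log (r k p) + 1 - r k p) := fun k =>
    (((measurable_cwI L.meas _).comp dlc_coll_meas).mul (m1 k)).add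
      ((measurable_cwI L.meas _).mul (m2 k))
  refine dld_fatou (fun k => (m3 k).ennreal_ofReal) (fun p => ?_) fun k => ?_
  · simp only [dld_cwI, hr]
    exact dld_lim (abs_nonneg _) (rho1_nonneg (L.nonneg _) _)
      (mul_nonneg (L.nonneg _ _) (L.nonneg _ _)) (mul_nonneg (L.nonneg _ _) (L.nonneg _ _))
  obtain ⟨C, hC⟩ := dldR_bd k
  have b1 : ∀ p, |Real.log (r k p) + 1 - (r k p)⁻¹| ≤ C := fun p => hr k p ▸ (hC _ _).2.2.1
  have b2 : ∀ p, |-Real.log (r k p) + 1 - r k p| ≤ C := fun p => hr k p ▸ (hC _ _).2.2.2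
  have hζ : 0 < ((k : ℝ) + 1)⁻¹ := by positivity
  have i1 := fun i => WL_int_mul ((A.fam_cw' t hζ).int i) (m1 k) b1
  have i2 := fun i => WL_int_mul ((A.fam_cw t hζ).int i) (m2 k) b2
  have i3 := WL_int_mul (L.integrable_cwI' t hζ) (m1 k) b1
  have i4 := WL_int_mul (L.integrable_cwI t hζ) (m2 k) b2
  refine dld_lsc (dld_add ((A.wconv_cw' L t hζ).mul (m1 k) ⟨C, b1⟩)
    ((A.wconv_cw L t hζ).mul (m2 k) ⟨C, b2⟩) i1 i2 i3 i4) (fun i => (i1 i).add (i2 i)) (i3.add i4)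
    (m3 k) (hc.mono fun i hi => ?_)
  rw [dld_dissN (A.sol i).meas] at hi
  refine le_trans (lintegral_mono fun p => ?_) ((h4 _).symm.trans_le (mul_le_mul_right hi 4))
  have h0 := (A.sol i).nonneg p.1.1
  have h1 := (kap_pos (n i) h0 p.1.2).le
  have h2 := mul_nonneg hζ.le (rho1_nonneg h0 p.1.2)
  rw [dld_cw, ENNReal.ofReal_mul (by positivity), ← mul_assoc]
  refine mul_le_mul' ?_ (dldJ_le (hr k p ▸ dldR_pos _ _ _) (mul_nonneg (h0 _) (h0 _))
    (mul_nonneg (h0 _) (h0 _)))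
  refine (ENNReal.ofReal_le_ofReal (mul_le_of_le_one_right (by positivity)
    (inv_le_one_of_one_le₀ (le_add_of_nonneg_right h2)))).trans ?_
  rw [ENNReal.ofReal_mul h1, ENNReal.ofReal_toReal ((isKer_kN _).lt_top _ _ _).ne]

end Vale.Agent.P140
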