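import Vale.Agent.P140.ApUI

/-! Equicontinuity in time along characteristics. -/

namespace Vale.Agent.P140

open MeasureTheory Set Filter Topology
open scoped ENNReal

/- PLAN equi: β(s) = s/(1+δ s), |s - β s| ≤ s min(1, δ s) (small_beta); cut |v| ≤ R (tail);
abs_beta_sub_le + Fubini + unshear: ∫_{EBT R} over times in (s,t] of qn/(1+δ f) + ln/δ;
gain_ui with ψ = indicator of (s,t]; ln_le_rho1; ∫_x rho1 ≤ C (mom_bdd) so both are ≤ K' (t-s) + ε.
PLAN av: cut ψ at |v| ≤ R (weights: tail; the limit inherits it) and rescale to |ψ| ≤ 1.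
φ i = sign(ρ_i - ρ); ∫ |ρ_i - ρ| = ∫_{mT} (f_i♯ - ft♯)(t,z) ψ(v) φ_i(t, x + t v).
Partition (0,T] into N intervals I_l; replace θ_i(t,z) = ψ φ_i(t,x+tv) by its time average on I_l
(= ψ * Ps a b φ_i / |I_l|): error ≤ 2 ε T by equi, because ∫ u (θ - Pθ) = ∫ (u - P u) θ, and for the limit
ft♯ the bound ∫ ft♯ (θ - Pθ) ≤ ε T passes to the limit for every fixed bounded θ (conv_sh).
Main part: tendsto_Ps with u i z = ∫_{I_l} f_i♯(t,z) dt (a Fam by ui0, WConv to ∫_{I_l} ft♯). -/

private theorem dlequi_beta {δ a : ℝ} (hδ : 0 < δ) (ha : 0 ≤ a) :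
    |a - a / (1 + δ * a)| ≤ a * min 1 (δ * a) := by
  have h1 : 0 < 1 + δ * a := by positivity
  have e : a - a / (1 + δ * a) = a * (δ * a / (1 + δ * a)) := by
    field_simp
    ring
  rw [e, abs_of_nonneg (by positivity)]
  refine mul_le_mul_of_nonneg_left (le_min ?_ ?_) ha
  · rw [div_le_one h1]
    linarith
  · exact div_le_self (by positivity) (by nlinarith [mul_nonneg hδ.le ha])

private theorem dlequi_rho {g : Om → ℝ} (hg : Integrable (fun z : Om => (1 + ‖z.2‖) * g z))
    (R : ℕ) : ∫ z in EB R, rho1 g z.1 =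
      (∫ z : Om, (1 + ‖z.2‖) * g z) * (volume : Measure V).real (Metric.closedBall 0 R) := by
  have e : EB R = (univ : Set X) ×ˢ Metric.closedBall (0 : V) R := by
    ext z
    simp [EB]
  have h1 := setIntegral_prod_mul (μ := (volume : Measure X)) (ν := (volume : Measure V))
    (fun x => rho1 g x) (fun _ => (1 : ℝ)) univ (Metric.closedBall (0 : V) R)
  simp only [mul_one, Measure.restrict_univ, integral_const, smul_eq_mul,
    measureReal_restrict_apply_univ] at h1
  rw [e, Measure.volume_eq_prod, h1, integral_prod _ hg]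
  rfl

private theorem dlequi_J {F0 : Om → ℝ} {n : ℕ → ℕ} {f0 : ℕ → Om → ℝ} {f : ℕ → ℝ → Om → ℝ}
    (A : Appr F0 n f0 f) (R : ℕ) : ∃ B : ℝ, 0 ≤ B ∧ ∀ (T : ℝ) (i : ℕ) (s t : ℝ), s ≤ t →
      ∫ p in EBT R, rho1 (f i p.1) p.2.1 * (Ioc s t).indicator (fun _ => (1 : ℝ)) p.1 ∂(mT T) ≤
        B * (t - s) := by
  obtain ⟨C, hC0, hC⟩ := A.mom_bdd
  refine ⟨C * (volume : Measure V).real (Metric.closedBall 0 R), by positivity,
    fun T i s t hst => ?_⟩
  set B := C * (volume : Measure V).real (Metric.closedBall 0 R) with hB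
  have hB0 : 0 ≤ B := by positivity
  have hψ : Measurable fun p : ℝ × Om => (Ioc s t).indicator (fun _ => (1 : ℝ)) p.1 :=
    (measurable_const.indicator measurableSet_Ioc).comp measurable_fst
  have hψ1 : ∀ τ : ℝ, 0 ≤ (Ioc s t).indicator (fun _ => (1 : ℝ)) τ ∧
      (Ioc s t).indicator (fun _ => (1 : ℝ)) τ ≤ 1 := fun τ => by
    by_cases h : τ ∈ Ioc s t <;> simp [h]
  have hI : IntegrableOn (fun p : ℝ × Om => rho1 (f i p.1) p.2.1 *
      (Ioc s t).indicator (fun _ => (1 : ℝ)) p.1) (EBT R) (mT T) :=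
    WL_int_mul (A.integrableOn_rho1 i T R) hψ (C := 1) fun p => WL_bd01 hψ1 p.1
  rw [← integral_indicator (measurableSet_EBT R),
    integral_mT T ((integrable_indicator_iff (measurableSet_EBT R)).2 hI)]
  have hb : IntegrableOn (fun τ : ℝ => (Ioc s t).indicator (fun _ => B) τ) (Ioc 0 T) :=
    (integrable_const B).indicator measurableSet_Ioc
  have h2 : ∫ τ in Ioc 0 T, (Ioc s t).indicator (fun _ => B) τ ≤ B * (t - s) := by
    rw [integral_indicator measurableSet_Ioc, integral_const, smul_eq_mul, mul_comm]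
    refine mul_le_mul_of_nonneg_left ?_ hB0
    rw [measureReal_restrict_apply_univ, measureReal_restrict_apply measurableSet_Ioc]
    refine (measureReal_mono inter_subset_left measure_Ioc_lt_top.ne).trans ?_
    rw [Real.volume_real_Ioc_of_le hst]
  refine le_trans ?_ h2
  refine integral_mono_of_nonneg (Eventually.of_forall fun τ => integral_nonneg fun z => ?_) hb ?_
  · exact indicator_nonneg (fun p _ => mul_nonneg (rho1_nonneg ((A.sol i).nonneg _) _)
      (hψ1 _).1) _
  · filter_upwards [ae_restrict_mem measurableSet_Ioc] with τ hτ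
    have e : ∀ z : Om, (EBT R).indicator (fun p : ℝ × Om => rho1 (f i p.1) p.2.1 *
        (Ioc s t).indicator (fun _ => (1 : ℝ)) p.1) (τ, z) =
        (EB R).indicator (fun z : Om => rho1 (f i τ) z.1) z *
          (Ioc s t).indicator (fun _ => (1 : ℝ)) τ := by
      intro z
      by_cases hz : z ∈ EB R
      · rw [indicator_of_mem hz, indicator_of_mem (show (τ, z) ∈ EBT R from hz)]
      · rw [indicator_of_notMem hz, indicator_of_notMem (show (τ, z) ∉ EBT R from hz), zero_mul]
    simp only [e]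
    have h1 := (A.sol i).integrable_moment 1 hτ.1.le
    simp only [pow_one] at h1
    rw [integral_mul_const, integral_indicator (measurableSet_EB R), dlequi_rho h1]
    have h3 : ∫ z : Om, (1 + ‖z.2‖) * f i τ z ≤ C := by
      refine le_trans (integral_mono h1 ((A.sol i).integrable_moment 2 hτ.1.le) fun z => ?_)
        (hC i τ hτ.1.le)
      refine mul_le_mul_of_nonneg_right ?_ ((A.sol i).nonneg _ _)
      nlinarith [norm_nonneg z.2]
    by_cases h : τ ∈ Ioc s t
    · rw [indicator_of_mem h, indicator_of_mem h, mul_one, hB]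
      gcongr
    · rw [indicator_of_notMem h, indicator_of_notMem h, mul_zero]

private theorem dlequi_G {F0 : Om → ℝ} {n : ℕ → ℕ} {f0 : ℕ → Om → ℝ} {f : ℕ → ℝ → Om → ℝ}
    (A : Appr F0 n f0 f) (T : ℝ) (R : ℕ) {δ ε : ℝ} (hδ : 0 < δ) (hε : 0 < ε) :
    ∃ B : ℝ, 0 ≤ B ∧ ∀ (i : ℕ) (s t : ℝ), 0 ≤ s → s ≤ t → t ≤ T →
      ∃ G : Om → ℝ, Integrable G ∧ (∀ z, 0 ≤ G z) ∧ ∫ z, G z ≤ B * (t - s) + ε ∧
        ∀ z ∈ EB R, |f i t (sh t z) / (1 + δ * f i t (sh t z)) -
          f i s (sh s z) / (1 + δ * f i s (sh s z))| ≤ G z := by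
  obtain ⟨B, hB0, hB⟩ := dlequi_J A R
  obtain ⟨K, hK0, hK⟩ := A.gain_ui T R hδ hε
  refine ⟨(K + 13 * (1 + R) / δ) * B, by positivity, fun i s t hs hst ht => ?_⟩
  have hS := A.sol i
  set ψ : ℝ × Om → ℝ := fun p => (Ioc s t).indicator (fun _ => (1 : ℝ)) p.1 with hψd
  have hψ : Measurable ψ := (measurable_const.indicator measurableSet_Ioc).comp measurable_fst
  have hψ1 : ∀ p, 0 ≤ ψ p ∧ ψ p ≤ 1 := fun p => by
    by_cases h : p.1 ∈ Ioc s t <;> simp [hψd, h]
  have hg : Measurable (Function.uncurry fun p : ℝ × Om => f i p.1) :=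
    hS.meas.comp (by fun_prop : Measurable fun p : (ℝ × Om) × Om => (p.1.1, p.2))
  have hqm : Measurable fun p : ℝ × Om => qn (n i) (f i p.1) p.2 :=
    measurable_qn _ hg measurable_snd
  have hlm : Measurable fun p : ℝ × Om => ln (n i) (f i p.1) p.2 :=
    measurable_ln _ hg measurable_snd
  have hfm : Measurable fun p : ℝ × Om => f i p.1 p.2 := hS.meas
  have hq0 : ∀ p : ℝ × Om, 0 ≤ qn (n i) (f i p.1) p.2 / (1 + δ * f i p.1 p.2) := fun p =>
    div_nonneg (qn_nonneg _ (hS.nonneg _) _) (by have := hS.nonneg p.1 p.2; positivity)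
  have hl0 : ∀ p : ℝ × Om, 0 ≤ ln (n i) (f i p.1) p.2 / δ := fun p =>
    div_nonneg (ln_nonneg _ (hS.nonneg _) _) hδ.le
  have hI1 : Integrable (fun p : ℝ × Om =>
      qn (n i) (f i p.1) p.2 / (1 + δ * f i p.1 p.2) * ψ p) (mT T) := by
    refine WL_int_mul ?_ hψ (C := 1) (WL_bd01 hψ1)
    refine (A.integrable_qn i T).mono' (by fun_prop : Measurable _).aestronglyMeasurable
      (Eventually.of_forall fun p => ?_)
    rw [Real.norm_of_nonneg (hq0 p)]
    exact div_le_self (qn_nonneg _ (hS.nonneg _) _)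
      (by nlinarith [mul_nonneg hδ.le (hS.nonneg p.1 p.2)])
  have hle : ∀ᵐ p ∂(mT T).restrict (EBT R), ln (n i) (f i p.1) p.2 / δ * ψ p ≤
      13 * (1 + R) / δ * (rho1 (f i p.1) p.2.1 * ψ p) := by
    rw [ae_restrict_iff' (measurableSet_EBT R)]
    filter_upwards [ae_mT_mem T] with p hp hR
    have hR' : ‖p.2.2‖ ≤ R := hR
    have h1 := A.ln_le_rho1 i hp.1.le p.2
    have h2 := rho1_nonneg (hS.nonneg p.1) p.2.1
    rw [← mul_assoc]
    refine mul_le_mul_of_nonneg_right ?_ (hψ1 p).1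
    rw [div_mul_eq_mul_div]
    gcongr
    exact h1.trans (by gcongr)
  have hIr : IntegrableOn (fun p : ℝ × Om => rho1 (f i p.1) p.2.1 * ψ p) (EBT R) (mT T) :=
    WL_int_mul (A.integrableOn_rho1 i T R) hψ (C := 1) (WL_bd01 hψ1)
  have hI2 : IntegrableOn (fun p : ℝ × Om => ln (n i) (f i p.1) p.2 / δ * ψ p) (EBT R) (mT T) := by
    refine (hIr.const_mul (13 * (1 + R) / δ)).mono'
      (by fun_prop : Measurable _).aestronglyMeasurable ?_
    filter_upwards [hle] with p hp
    rwa [Real.norm_of_nonneg (mul_nonneg (hl0 p) (hψ1 p).1)]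
  set H : ℝ × Om → ℝ := (EBT R).indicator fun p =>
    qn (n i) (f i p.1) p.2 / (1 + δ * f i p.1 p.2) * ψ p + ln (n i) (f i p.1) p.2 / δ * ψ p
    with hHd
  have hH : Integrable H (mT T) :=
    (integrable_indicator_iff (measurableSet_EBT R)).2 (hI1.integrableOn.add hI2)
  have hHm : Measurable H := Measurable.indicator (by fun_prop) (measurableSet_EBT R)
  have hH0 : ∀ p, 0 ≤ H p := fun p => indicator_nonneg (fun p _ =>
    add_nonneg (mul_nonneg (hq0 p) (hψ1 p).1) (mul_nonneg (hl0 p) (hψ1 p).1)) _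
  have hH' := (measurePreserving_shT T).integrable_comp_of_integrable hH
  refine ⟨fun z => ∫ τ in Ioc 0 T, H (τ, sh τ z), Integrable.integral_prod_right
    (μ := (volume : Measure ℝ).restrict (Ioc 0 T)) (ν := (volume : Measure Om)) hH',
    fun z => integral_nonneg fun τ => hH0 _, ?_, fun z hz => ?_⟩
  · have e1 := integral_mT_swap T hH'
    have e2 : ∫ p, (H ∘ fun p : ℝ × Om => (p.1, sh p.1 p.2)) p ∂(mT T) = ∫ p, H p ∂(mT T) := by
      have := integral_map (μ := mT T) (φ := fun p : ℝ × Om => (p.1, sh p.1 p.2))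
        (measurePreserving_shT T).measurable.aemeasurable (f := H) hHm.aestronglyMeasurable
      rw [(measurePreserving_shT T).map_eq] at this
      exact this.symm
    have e3 : ∫ z, ∫ τ in Ioc 0 T, H (τ, sh τ z) = ∫ p, H p ∂(mT T) := e1.symm.trans e2
    rw [e3, hHd, integral_indicator (measurableSet_EBT R), integral_add hI1.integrableOn hI2]
    have a1 := hK i ψ hψ hψ1
    have a2 := integral_mono_ae hI2 (hIr.const_mul (13 * (1 + R) / δ)) hle
    rw [integral_const_mul] at a2
    have a3 := hB T i s t hst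
    have a4 : 0 ≤ 13 * (1 + (R : ℝ)) / δ := by positivity
    nlinarith [mul_le_mul_of_nonneg_left a3 hK0, mul_le_mul_of_nonneg_left a3 a4]
  · refine (hS.abs_beta_sub_le hδ hs hst z).trans (le_of_eq ?_)
    have e : ∀ τ : ℝ, H (τ, sh τ z) = (Ioc s t).indicator (fun τ =>
        qn (n i) (f i τ) (sh τ z) / (1 + δ * f i τ (sh τ z)) + ln (n i) (f i τ) (sh τ z) / δ) τ := by
      intro τ
      rw [hHd, indicator_of_mem (show (τ, sh τ z) ∈ EBT R from hz)]
      by_cases h : τ ∈ Ioc s t <;> simp [hψd, h]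
    simp only [e]
    rw [integral_indicator measurableSet_Ioc, Measure.restrict_restrict measurableSet_Ioc,
      inter_eq_left.2 (Ioc_subset_Ioc hs ht), intervalIntegral.integral_of_le hst]

theorem Appr.equi {F0 : Om → ℝ} {n : ℕ → ℕ} {f0 : ℕ → Om → ℝ} {f : ℕ → ℝ → Om → ℝ}
    (A : Appr F0 n f0 f) (T : ℝ) {ε : ℝ} (hε : 0 < ε) : ∃ δ : ℝ, 0 < δ ∧ ∀ i,
    ∀ s ∈ Icc (0 : ℝ) T, ∀ t ∈ Icc (0 : ℝ) T, |t - s| ≤ δ →
      ∫ z, |f i t (sh t z) - f i s (sh s z)| ≤ ε := by
  have hε' : 0 < ε / 6 := by positivity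
  obtain ⟨δ, hδ, hβ⟩ := A.small_beta hε'
  obtain ⟨K, R, hK0, hK⟩ := A.tail hε'
  obtain ⟨B, hB0, hB⟩ := dlequi_G A T R hδ hε'
  have main : ∀ i, ∀ s t : ℝ, 0 ≤ s → s ≤ t → t ≤ T → t - s ≤ ε / 6 / (B + 1) →
      ∫ z, |f i t (sh t z) - f i s (sh s z)| ≤ ε := by
    intro i s t hs hst ht hd
    have hS := A.sol i
    obtain ⟨G, hG, hG0, hGi, hGle⟩ := hB i s t hs hst ht
    set W : ℝ → Om → ℝ := fun τ z => f i τ z * min 1 (δ * f i τ z) +
      (EB R)ᶜ.indicator (f i τ) z with hW
    have hW1 : ∀ τ, 0 ≤ τ → Integrable fun z => f i τ z * min 1 (δ * f i τ z) := fun τ hτ => by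
      have hm := hS.meas_t τ
      refine WL_int_mul (hS.integrable_t hτ) (by fun_prop) (C := 1) (WL_bd01 fun z => ?_)
      exact ⟨le_min zero_le_one (mul_nonneg hδ.le (hS.nonneg _ _)), min_le_left _ _⟩
    have hWi : ∀ τ, 0 ≤ τ → Integrable (W τ) := fun τ hτ =>
      (hW1 τ hτ).add ((hS.integrable_t hτ).indicator (measurableSet_EB R).compl)
    have hWle : ∀ τ, 0 ≤ τ → ∫ z, W τ (sh τ z) ≤ ε / 3 := fun τ hτ => by
      rw [integral_sh τ (W τ), hW, integral_add (hW1 τ hτ)
        ((hS.integrable_t hτ).indicator (measurableSet_EB R).compl),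
        integral_indicator (measurableSet_EB R).compl]
      have h1 := hβ δ hδ le_rfl i τ hτ
      have h2 := hK i τ hτ
      have h3 := hS.integrable_moment 1 hτ
      simp only [pow_one] at h3
      have h4 : ∫ z in (EB R)ᶜ, f i τ z ≤ ∫ z in (EB R)ᶜ, (1 + ‖z.2‖) * f i τ z :=
        integral_mono (hS.integrable_t hτ).integrableOn h3.integrableOn fun z => by
          have := hS.nonneg τ z
          nlinarith [norm_nonneg z.2]
      have h5 : ∫ z in (EB R)ᶜ, (1 + ‖z.2‖) * f i τ z ≤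
          ∫ z in {z : Om | K < f i τ z ∨ (R : ℝ) < ‖z.2‖}, (1 + ‖z.2‖) * f i τ z :=
        setIntegral_mono_set h3.integrableOn (Eventually.of_forall fun z =>
          mul_nonneg (by positivity) (hS.nonneg τ z))
          (LE.le.eventuallyLE fun z hz => Or.inr (not_le.1 hz))
      linarith
    have ht0 := hs.trans hst
    have i1 : Integrable fun z => W t (sh t z) := (measurePreserving_sh t).integrable_comp_of_integrable (hWi t ht0)
    have i2 : Integrable fun z => W s (sh s z) := (measurePreserving_sh s).integrable_comp_of_integrable (hWi s hs)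
    have hle : ∫ z, |f i t (sh t z) - f i s (sh s z)| ≤
        ∫ z, (W t (sh t z) + W s (sh s z) + G z) := by
      refine integral_mono_of_nonneg (Eventually.of_forall fun z => abs_nonneg _)
        ((i1.add i2).add hG) (Eventually.of_forall fun z => ?_)
      have a0 := hS.nonneg t (sh t z)
      have b0 := hS.nonneg s (sh s z)
      have a1 := dlequi_beta hδ a0
      have b1 := dlequi_beta hδ b0
      simp only [hW]
      by_cases hz : z ∈ EB R
      · rw [indicator_of_notMem (show sh t z ∉ (EB R)ᶜ from fun h => h hz),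
          indicator_of_notMem (show sh s z ∉ (EB R)ᶜ from fun h => h hz)]
        have c := hGle z hz
        rw [abs_le] at *
        constructor <;> linarith [a1.1, a1.2, b1.1, b1.2, c.1, c.2]
      · rw [indicator_of_mem (show sh t z ∈ (EB R)ᶜ from hz),
          indicator_of_mem (show sh s z ∈ (EB R)ᶜ from hz)]
        have c := hG0 z
        have a2 := (abs_nonneg _).trans a1
        have b2 := (abs_nonneg _).trans b1
        rw [abs_le]
        constructor <;> linarith
    rw [integral_add (f := fun z => W t (sh t z) + W s (sh s z)) (i1.add i2) hG,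
      integral_add i1 i2] at hle
    have h1 := hWle t ht0
    have h2 := hWle s hs
    have h3 : B * (t - s) ≤ ε / 6 := by
      rw [le_div_iff₀ (by positivity)] at hd
      nlinarith
    linarith
  refine ⟨ε / 6 / (B + 1), by positivity, fun i s hs t ht hd => ?_⟩
  rcases le_total s t with h | h
  · exact main i s t hs.1 h ht.2 ((le_abs_self _).trans hd)
  · simp only [abs_sub_comm (f i t _)]
    exact main i t s ht.1 h hs.2 (by rw [abs_sub_comm] at hd; exact (le_abs_self _).trans hd)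

end Vale.Agent.P140
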