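import Vale.Agent.P140.DLInt
import Vale.Agent.P140.ApBd

/-! From the exponential formula to the renormalised equation. -/

namespace Vale.Agent.P140

open MeasureTheory Set Filter Topology
open scoped ENNReal

/- PLAN. For a.e. z: lI♯ is interval integrable on every [0,N], FF N z < ⊤ for all N : ℕ; since
exp(-LamI τ N) ≥ exp(-LamI 0 N) > 0 the function qI♯ has finite integral on (0,N], so y t = (FF t z).toReal = FL t (sh t z)
satisfies prim_of_mild with q = qI♯.toReal. Prim.chain for β(·/M) on Ici 0, Prim.mul with φ♯ (IsTest.hasDerivAt,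
continuous_transp); at T beyond the support: 0 = M β(F0/M) φ(0) + ∫_0^T [...]. Integrate in z (Fubini: |M β(G)| ≤ C F,
|β'(G)| Q^± ≤ C Q^±/(1+G), gainInt_of / lossInt_of, IsTest.bdd), unshear, replace ft by FL (lI_congr, qI_congr),
and ∫_{Ici 0} = ∫_{Ioc 0 T} because the integrands vanish for t ≥ T. -/

private theorem DLRen_meas {α : Type*} [MeasurableSpace α] {β : ℝ → ℝ}
    (hβ : ContinuousOn β (Ici 0)) {g : α → ℝ} (hg : Measurable g) (h0 : ∀ a, 0 ≤ g a) :
    Measurable (fun a => β (g a)) := by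
  have hc : Continuous fun s : ℝ => β (max s 0) :=
    hβ.comp_continuous (by fun_prop) fun s => le_max_right s 0
  have e : (fun a => β (g a)) = fun a => β (max (g a) 0) := by
    funext a
    rw [max_eq_left (h0 a)]
  rw [e]
  exact hc.measurable.comp hg

private theorem DLRen_int {T : ℝ} {g : ℝ × Om → ℝ≥0∞} {d : ℝ × Om → ℝ}
    (hg : Measurable fun p => (g p).toReal) (hd : Measurable d) (hd0 : ∀ p, 0 < d p)
    (h : ∫⁻ t in Icc 0 T, ∫⁻ z : Om, g (t, z) / ENNReal.ofReal (d (t, z)) < ⊤) :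
    Integrable (fun p => (g p).toReal / d p) (mT T) := by
  have hm : Measurable fun p => (g p).toReal / d p := hg.div hd
  refine ⟨hm.aestronglyMeasurable, ?_⟩
  rw [hasFiniteIntegral_iff_ofReal (Eventually.of_forall fun p =>
    div_nonneg ENNReal.toReal_nonneg (hd0 p).le), lintegral_mT T hm.ennreal_ofReal]
  refine lt_of_le_of_lt ?_ h
  refine le_trans (lintegral_mono fun t => lintegral_mono fun z => ?_)
    (lintegral_mono_set Ioc_subset_Icc_self)
  rw [ENNReal.ofReal_div_of_pos (hd0 _)]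
  exact ENNReal.div_le_div_right ENNReal.ofReal_toReal_le _

private theorem DLRen_Ici {T : ℝ} {g : ℝ → ℝ} (h : ∀ t, T ≤ t → g t = 0) :
    ∫ t in Ici (0 : ℝ), g t = ∫ t in Ioc 0 T, g t := by
  rw [integral_Ici_eq_integral_Ioi]
  refine setIntegral_eq_of_subset_of_forall_sdiff_eq_zero measurableSet_Ioi Ioc_subset_Ioi_self
    fun t ht => h t ?_
  by_contra hc
  exact ht.2 ⟨ht.1, (not_le.1 hc).le⟩

private theorem DLRen_prim {F0 : Om → ℝ} (hF0 : ∀ z, 0 ≤ F0 z) {ft : ℝ → Om → ℝ}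
    (hm : Measurable (Function.uncurry ft)) {T : ℝ} (hT : 0 ≤ T) {z : Om}
    (hl : IntervalIntegrable (fun τ => lI (ft τ) (sh τ z)) volume 0 T) (hfin : FF F0 ft T z < ⊤) :
    Prim T (fun t => (FF F0 ft t z).toReal) (fun t => (qI (ft t) (sh t z)).toReal -
      lI (ft t) (sh t z) * (FF F0 ft t z).toReal) := by
  have hQ : Measurable fun τ => qI (ft τ) (sh τ z) := measurable_qI hm (by fun_prop)
  have hsub : ∀ s ∈ Icc (0 : ℝ) T, ∀ t ∈ Icc (0 : ℝ) T,
      IntervalIntegrable (fun τ => lI (ft τ) (sh τ z)) volume s t := fun s hs t ht => by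
    refine hl.mono_set ?_
    rw [uIcc_of_le hT]
    exact uIcc_subset_Icc hs ht
  have h1 : ∫⁻ τ in Ioc 0 T, qI (ft τ) (sh τ z) < ⊤ := by
    have h2 : ENNReal.ofReal (Real.exp (-LamI ft 0 T z)) * ∫⁻ τ in Ioc 0 T, qI (ft τ) (sh τ z) ≤
        FF F0 ft T z := by
      rw [← lintegral_const_mul _ hQ]
      refine le_trans (setLIntegral_mono' measurableSet_Ioc fun τ hτ => ?_) le_add_self
      refine mul_le_mul_left (ENNReal.ofReal_le_ofReal (Real.exp_le_exp.2 (neg_le_neg ?_))) _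
      have h3 : LamI ft 0 τ z + LamI ft τ T z = LamI ft 0 T z :=
        intervalIntegral.integral_add_adjacent_intervals
          (hsub 0 ⟨le_rfl, hT⟩ τ (Ioc_subset_Icc_self hτ))
          (hsub τ (Ioc_subset_Icc_self hτ) T ⟨hT, le_rfl⟩)
      linarith [LamI_nonneg ft hτ.1.le z]
    by_contra hc
    rw [not_lt, top_le_iff] at hc
    rw [hc, ENNReal.mul_top (ENNReal.ofReal_pos.2 (Real.exp_pos _)).ne'] at h2
    exact hfin.ne (top_le_iff.1 h2)
  have hq : IntervalIntegrable (fun τ => (qI (ft τ) (sh τ z)).toReal) volume 0 T :=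
    (intervalIntegrable_iff_integrableOn_Ioc_of_le hT).2
      (integrable_toReal_of_lintegral_ne_top hQ.aemeasurable h1.ne)
  refine prim_of_mild (y0 := F0 z) hT hq hl fun t ht => ?_
  have hE : Measurable fun τ => ENNReal.ofReal (Real.exp (-LamI ft τ t z)) * qI (ft τ) (sh τ z) := by
    refine Measurable.mul (Measurable.ennreal_ofReal (Measurable.exp (Measurable.neg ?_))) hQ
    exact (measurable_LamI hm).comp (f := fun τ : ℝ => (τ, t, z)) (by fun_prop)
  have h4 : ∫⁻ τ in Ioc 0 t, ENNReal.ofReal (Real.exp (-LamI ft τ t z)) * qI (ft τ) (sh τ z) < ⊤ := by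
    refine lt_of_le_of_lt ?_ h1
    refine le_trans (setLIntegral_mono' measurableSet_Ioc fun τ hτ => ?_)
      (lintegral_mono_set (Ioc_subset_Ioc_right ht.2))
    refine mul_le_of_le_one_left' (ENNReal.ofReal_le_one.2 (Real.exp_le_one_iff.2 ?_))
    exact neg_nonpos.2 (LamI_nonneg ft hτ.2 z)
  rw [FF, ENNReal.toReal_add ENNReal.ofReal_ne_top h4.ne,
    ENNReal.toReal_ofReal (mul_nonneg (hF0 z) (Real.exp_pos _).le),
    ← integral_toReal hE.aemeasurable (ae_lt_top hE h4.ne)]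
  refine congrArg₂ (· + ·) rfl (Eq.trans (integral_congr_ae (Eventually.of_forall fun τ => ?_))
    (intervalIntegral.integral_of_le ht.1).symm)
  beta_reduce
  rw [ENNReal.toReal_mul, ENNReal.toReal_ofReal (Real.exp_pos _).le]
  rfl

private theorem DLRen_char {T M : ℝ} (hT : 0 ≤ T) (hM : 0 < M) {y g u u' β β' : ℝ → ℝ}
    (hy : Prim T y g) (hy0 : ∀ t, 0 ≤ y t) (hu : Prim T u u') (huT : u T = 0)
    (hβ : ∀ s, 0 ≤ s → HasDerivWithinAt β (β' s) (Ici 0) s) (hβ' : ContinuousOn β' (Ici 0)) :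
    ∫ t in Ioc 0 T, (M * β (y t / M) * u' t + β' (y t / M) * g t * u t) =
      -(M * β (y 0 / M) * u 0) := by
  have h1 := (hy.const_mul M⁻¹).chain hT (convex_Ici 0)
    (fun t _ => mul_nonneg (inv_pos.2 hM).le (hy0 t)) (fun x hx => hβ x hx) hβ'
  have h2 := ((h1.const_mul M).mul hT hu).2 T ⟨hT, le_rfl⟩
  beta_reduce at h2
  rw [huT, mul_zero, intervalIntegral.integral_of_le hT] at h2
  have h3 : ∫ t in Ioc 0 T, (M * β (y t / M) * u' t + β' (y t / M) * g t * u t) =
      ∫ t in Ioc 0 T, (M * (β' (M⁻¹ * y t) * (M⁻¹ * g t)) * u t + M * β (M⁻¹ * y t) * u' t) := by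
    refine integral_congr_ae (Eventually.of_forall fun t => ?_)
    beta_reduce
    rw [← div_eq_inv_mul (y t)]
    field_simp
    ring
  rw [h3, div_eq_inv_mul (y 0)]
  linarith

theorem renorm_of {F0 : Om → ℝ} (hF0 : IsDatum F0) {ft : ℝ → Om → ℝ}
    (hm : Measurable (Function.uncurry ft)) (h0 : ∀ t z, 0 ≤ ft t z)
    (hi : ∀ T, Integrable (fun p : ℝ × Om => (1 + ‖p.2.2‖) * ft p.1 p.2) (mT T))
    (hl : ∀ᵐ z : Om, ∀ T : ℝ, 0 ≤ T →
      IntervalIntegrable (fun τ => lI (ft τ) (sh τ z)) volume 0 T)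
    (hfin : ∀ t, 0 ≤ t → ∀ᵐ z : Om, FF F0 ft t z < ⊤)
    (hae : ∀ T, ∀ᵐ p ∂(mT T), FL F0 ft p.1 p.2 = ft p.1 p.2)
    (hD : ∀ T, 0 ≤ T → ∫⁻ s in Ioc 0 T, dissip (ft s) < ⊤)
    (β β' : ℝ → ℝ) (hβ : ∀ s, 0 ≤ s → HasDerivWithinAt β (β' s) (Ici 0) s)
    (hβ' : ContinuousOn β' (Ici 0)) (hβ0 : β 0 = 0)
    (hβC : ∃ C, ∀ s, 0 ≤ s → |β' s| ≤ C / (1 + s)) (φ : ℝ × X × V → ℝ) (hφ : IsTest φ) :
    (∫ t in Ici (0 : ℝ), ∫ z : X × V,
        Mx z.2 * β (FL F0 ft t z / Mx z.2) * transp φ t z.1 z.2)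
      + (∫ z : X × V, Mx z.2 * β (F0 z / Mx z.2) * φ (0, z.1, z.2))
      + (∫ t in Ici (0 : ℝ), ∫ z : X × V, β' (FL F0 ft t z / Mx z.2) *
          ((gain (fun v => FL F0 ft t (z.1, v)) z.2).toReal -
            (loss (fun v => FL F0 ft t (z.1, v)) z.2).toReal) * φ (t, z.1, z.2)) = 0 := by
  obtain ⟨T, C, hT, hφC, htC, hφT⟩ := hφ.bdd
  obtain ⟨K, hK⟩ := hβC
  set F := FL F0 ft with hF
  have mF : Measurable (Function.uncurry F) := measurable_FL hm hF0.meas
  have F0' : ∀ t z, 0 ≤ F t z := fun t z => ENNReal.toReal_nonneg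
  have hK0 : 0 ≤ K := by
    have := (abs_nonneg _).trans (hK 0 le_rfl)
    simpa using this
  have hC0 : 0 ≤ C := (abs_nonneg _).trans (hφC (0, 0, 0))
  have hβc : ContinuousOn β (Ici 0) := fun s hs => (hβ s hs).continuousWithinAt
  have hβb : ∀ s, 0 ≤ s → |β s| ≤ K * s := by
    intro s hs
    have := (convex_Ici (0 : ℝ)).norm_image_sub_le_of_norm_hasDerivWithin_le (C := K)
      (fun x hx => hβ x hx) (fun x hx => (hK x hx).trans
        (div_le_self hK0 (by linarith [mem_Ici.1 hx]))) (mem_Ici.2 le_rfl) hs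
    rwa [hβ0, sub_zero, sub_zero, Real.norm_of_nonneg hs] at this
  have hiF : Integrable (fun p : ℝ × Om => (1 + ‖p.2.2‖) * F p.1 p.2) (mT T) :=
    (hi T).congr ((hae T).mono fun p hp => by beta_reduce; rw [hp])
  have hDF : ∫⁻ s in Ioc 0 T, dissip (F s) < ⊤ := by
    rw [dissip_congr mF hm T (hae T)]
    exact hD T hT
  have mF1 : Measurable fun p : ℝ × Om => F p.1 p.2 := mF
  have mF2 : Measurable (Function.uncurry fun p : ℝ × Om => F p.1) :=
    mF.comp (f := fun q : (ℝ × Om) × Om => (q.1.1, q.2)) (by fun_prop)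
  have mM : Measurable fun p : ℝ × Om => Mx p.2.2 :=
    continuous_Mx.measurable.comp (by fun_prop)
  have mG : Measurable fun p : ℝ × Om => F p.1 p.2 / Mx p.2.2 := mF1.div mM
  have G0' : ∀ p : ℝ × Om, 0 ≤ F p.1 p.2 / Mx p.2.2 := fun p =>
    div_nonneg (F0' _ _) (Mx_pos _).le
  have mg : Measurable fun p : ℝ × Om => (gain (fun v => F p.1 (p.2.1, v)) p.2.2).toReal := by
    simp only [gain_eq_qI mF F0']
    exact (measurable_qI mF2 measurable_snd).ennreal_toReal
  have ml : Measurable fun p : ℝ × Om => (loss (fun v => F p.1 (p.2.1, v)) p.2.2).toReal := by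
    simp only [loss_toReal mF F0']
    exact mF1.mul (measurable_lI mF2 measurable_snd)
  have d0 : ∀ p : ℝ × Om, 0 < 1 + F p.1 p.2 / Mx p.2.2 := fun p => by linarith [G0' p]
  have ig := DLRen_int (T := T) mg (mG.const_add 1) d0 (gainInt_of mF F0' T hiF hDF)
  have il := DLRen_int (T := T) ml (mG.const_add 1) d0 (lossInt_of mF F0' T hiF)
  set A : ℝ × Om → ℝ := fun p => Mx p.2.2 * β (F p.1 p.2 / Mx p.2.2) * transp φ p.1 p.2.1 p.2.2
    with hA
  set B : ℝ × Om → ℝ := fun p => β' (F p.1 p.2 / Mx p.2.2) *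
    ((gain (fun v => F p.1 (p.2.1, v)) p.2.2).toReal -
      (loss (fun v => F p.1 (p.2.1, v)) p.2.2).toReal) * φ (p.1, p.2.1, p.2.2) with hB
  set B' : ℝ × Om → ℝ := fun p => β' (F p.1 p.2 / Mx p.2.2) *
    ((qI (ft p.1) p.2).toReal - lI (ft p.1) p.2 * F p.1 p.2) * φ (p.1, p.2.1, p.2.2) with hB'
  have iA : Integrable A (mT T) := by
    refine (hiF.const_mul (K * C)).mono' ((mM.mul (DLRen_meas hβc mG G0')).mul
      (continuous_transp hφ.1).measurable).aestronglyMeasurable (Eventually.of_forall fun p => ?_)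
    have h1 : |Mx p.2.2 * β (F p.1 p.2 / Mx p.2.2)| ≤ K * F p.1 p.2 := by
      rw [abs_mul, abs_of_pos (Mx_pos _)]
      refine (mul_le_mul_of_nonneg_left (hβb _ (G0' p)) (Mx_pos _).le).trans (le_of_eq ?_)
      have := (Mx_pos p.2.2).ne'
      field_simp
    rw [hA, Real.norm_eq_abs, abs_mul]
    refine (mul_le_mul h1 (htC _ _ _) (abs_nonneg _) (mul_nonneg hK0 (F0' _ _))).trans ?_
    have h2 := mul_nonneg (mul_nonneg hK0 hC0) (mul_nonneg (norm_nonneg p.2.2) (F0' p.1 p.2))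
    nlinarith
  have iB : Integrable B (mT T) := by
    refine ((ig.add il).const_mul (K * C)).mono' (((DLRen_meas hβ' mG G0').mul (mg.sub ml)).mul
      (continuous_test hφ.1).measurable).aestronglyMeasurable (Eventually.of_forall fun p => ?_)
    rw [hB, Real.norm_eq_abs, abs_mul, abs_mul]
    have h1 : |(gain (fun v => F p.1 (p.2.1, v)) p.2.2).toReal -
        (loss (fun v => F p.1 (p.2.1, v)) p.2.2).toReal| ≤
        (gain (fun v => F p.1 (p.2.1, v)) p.2.2).toReal +
          (loss (fun v => F p.1 (p.2.1, v)) p.2.2).toReal := by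
      refine (abs_sub _ _).trans (le_of_eq ?_)
      rw [abs_of_nonneg ENNReal.toReal_nonneg, abs_of_nonneg ENNReal.toReal_nonneg]
    refine (mul_le_mul (mul_le_mul (hK _ (G0' p)) h1 (abs_nonneg _) (div_nonneg hK0 (d0 p).le))
      (hφC _) (abs_nonneg _) (mul_nonneg (div_nonneg hK0 (d0 p).le) (by positivity))).trans
      (le_of_eq ?_)
    simp only [Pi.add_apply]
    ring
  have eB : B =ᵐ[mT T] B' := by
    filter_upwards [lI_congr mF hm T (hae T), qI_congr mF hm T (hae T)] with p h1 h2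
    simp only [hB, hB']
    rw [gain_eq_qI mF F0', loss_toReal mF F0', h1, h2, mul_comm (F p.1 p.2)]
  have iB' : Integrable B' (mT T) := iB.congr eB
  have iS : Integrable (fun p => A p + B' p) (mT T) := iA.add iB'
  have iS' : Integrable (fun p : ℝ × Om => A (p.1, sh p.1 p.2) + B' (p.1, sh p.1 p.2)) (mT T) :=
    (measurePreserving_shT T).integrable_comp_of_integrable iS
  have key : ∀ᵐ z : Om, ∫ t in Ioc 0 T, (A (t, sh t z) + B' (t, sh t z)) =
      -(Mx z.2 * β (F0 z / Mx z.2) * φ (0, z.1, z.2)) := by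
    filter_upwards [hl, hfin T hT] with z h1 h2
    have e : ∀ t, F t (sh t z) = (FF F0 ft t z).toReal := fun t => by
      rw [hF, FL, sh_sh, neg_add_cancel, sh_zero]
    have hu : Prim T (fun s => φ (s, (sh s z).1, z.2)) (fun t => transp φ t (sh t z).1 z.2) :=
      Prim.of_hasDerivAt hT (fun t _ => IsTest.hasDerivAt hφ.1 z t)
        ((continuous_transp hφ.1).comp (f := fun t : ℝ => (t, (sh t z).1, z.2))
          (by fun_prop)).continuousOn
    have h3 := DLRen_char hT (Mx_pos z.2) (DLRen_prim hF0.nonneg hm hT (h1 T hT) h2)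
      (fun t => ENNReal.toReal_nonneg) hu (hφT T _ _ le_rfl).1 hβ hβ'
    simp only [← e] at h3
    rw [sh_zero, hF, FL_zero hF0.nonneg] at h3
    exact h3
  have e1 : ∫ p, (A p + B' p) ∂(mT T) =
      -∫ z : Om, Mx z.2 * β (F0 z / Mx z.2) * φ (0, z.1, z.2) := by
    rw [← integral_neg, ← integral_congr_ae key, ← integral_mT_swap T iS', integral_mT T iS',
      integral_mT T iS]
    refine integral_congr_ae (Eventually.of_forall fun t => ?_)
    exact (integral_sh t fun z => A (t, z) + B' (t, z)).symm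
  rw [integral_add iA iB', ← integral_congr_ae eB, integral_mT T iA, integral_mT T iB] at e1
  rw [DLRen_Ici (T := T) (fun t ht => by simp only [(hφT t _ _ ht).2, mul_zero, integral_zero]),
    DLRen_Ici (T := T) (fun t ht => by simp only [(hφT t _ _ ht).1, mul_zero, integral_zero])]
  simp only [hA, hB] at e1
  linarith

end Vale.Agent.P140
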