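import Vale.Agent.P140.DLId
import Vale.Agent.P140.DLDiss
import Vale.Agent.P140.DLRen

/-! The limit is a renormalized entropy solution. -/

namespace Vale.Agent.P140

open MeasureTheory Set Filter Topology
open scoped ENNReal

private theorem fin_pos (v : V) : 0 < 1 + ‖v‖ := by positivity

private theorem fin_int0 {α : Type*} [MeasurableSpace α] {μ : Measure α} {g : α → ℝ} {v : α → V}
    (hg : AEStronglyMeasurable g μ) (hi : Integrable (fun a => (1 + ‖v a‖) * g a) μ) :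
    Integrable g μ := by
  refine hi.mono hg (Eventually.of_forall fun a => ?_)
  rw [norm_mul, Real.norm_of_nonneg (fin_pos _).le]
  nlinarith [norm_nonneg (v a), norm_nonneg (g a)]

private theorem fin_coord (v : V) (j : Fin 3) : |v j| ≤ ‖v‖ := by
  simpa using PiLp.norm_apply_le v j

private theorem fin_smul {g : Om → ℝ} (hg : Measurable g)
    (hi : Integrable (fun z : Om => (1 + ‖z.2‖) * g z)) (j : Fin 3) :
    (∫ z : Om, g z • z.2) j = ∫ z : Om, g z * z.2 j := by
  have h1 : Integrable (fun z : Om => g z • z.2) := by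
    refine hi.mono (hg.smul measurable_snd).aestronglyMeasurable (Eventually.of_forall fun z => ?_)
    rw [norm_smul, norm_mul, Real.norm_of_nonneg (fin_pos _).le]
    nlinarith [norm_nonneg z.2, norm_nonneg (g z)]
  have := (EuclideanSpace.proj (𝕜 := ℝ) j : V →L[ℝ] ℝ).integral_comp_comm h1
  simpa using this.symm

private theorem fin_mom1 {g : Om → ℝ} (hg : Measurable g)
    (hi : Integrable (fun z : Om => (1 + ‖z.2‖) ^ 2 * g z)) :
    Integrable (fun z : Om => (1 + ‖z.2‖) * g z) := by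
  refine fin_int0 (v := fun z : Om => z.2)
    ((measurable_const.add measurable_snd.norm).mul hg).aestronglyMeasurable ?_
  simpa only [pow_two, mul_assoc] using hi

private theorem fin_intj {g : Om → ℝ} (hg : Measurable g)
    (hi : Integrable (fun z : Om => (1 + ‖z.2‖) ^ 2 * g z)) (j : Fin 3) :
    Integrable (fun z : Om => g z * z.2 j) := by
  refine (fin_mom1 hg hi).mono (hg.mul (by fun_prop)).aestronglyMeasurable
    (Eventually.of_forall fun z => ?_)
  rw [norm_mul, norm_mul, Real.norm_of_nonneg (fin_pos _).le, Real.norm_eq_abs (z.2 j)]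
  nlinarith [fin_coord z.2 j, norm_nonneg (g z)]

private theorem fin_lim (U : Ultrafilter ℕ) (a : ℕ → ℝ≥0∞) : ∃ c, Tendsto a U (𝓝 c) := by
  obtain ⟨c, -, hc⟩ := isCompact_univ.ultrafilter_le_nhds (U.map a) (by simp)
  exact ⟨c, hc⟩

private theorem fin_le {U : Filter ℕ} {a : ℕ → ℝ≥0∞} {c x : ℝ≥0∞} (h : Tendsto a U (𝓝 c))
    (hx : ∀ d, (∀ᶠ i in U, a i ≤ d) → x ≤ d) : x ≤ c :=
  le_of_forall_gt_imp_ge_of_dense fun d hd => hx d (h.eventually (ge_mem_nhds hd))

variable {F0 : Om → ℝ} {n : ℕ → ℕ} {f0 : ℕ → Om → ℝ} {f : ℕ → ℝ → Om → ℝ} (A : Appr F0 n f0 f)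
  {U : Ultrafilter ℕ} {ft : ℝ → Om → ℝ} (L : IsLim U f ft)
include A L

private theorem fin_meas : Measurable (Function.uncurry (FL F0 ft)) :=
  measurable_FL L.meas A.dat.meas

private theorem fin_meas_t (t : ℝ) : Measurable (FL F0 ft t) :=
  (fin_meas A L).of_uncurry_left

private theorem fin_int_t {t : ℝ} (ht : 0 ≤ t) : Integrable (FL F0 ft t) :=
  fin_int0 (v := fun z : Om => z.2) (fin_meas_t A L t).aestronglyMeasurable (A.integrable_FL L ht)

private theorem fin_intT (T : ℝ) :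
    Integrable (fun p : ℝ × Om => (1 + ‖p.2.2‖) * FL F0 ft p.1 p.2) (mT T) :=
  (L.int T).congr ((A.FL_ae_eq L T).mono fun p hp => by simp only [hp])

theorem Appr.FL_energy {t : ℝ} (ht : 0 ≤ t) :
    ∫⁻ z : X × V, ENNReal.ofReal (‖z.2‖ ^ 2 * FL F0 ft t z) ≤
      ∫⁻ z : X × V, ENNReal.ofReal (‖z.2‖ ^ 2 * F0 z) := by
  refine fin_le (A.tendsto_energy.mono_left L.le) fun d hd => ?_
  refine (A.wconv_FL0 L ht).lintegral_mul_le (w := fun z : Om => ‖z.2‖ ^ 2)
    (fun i => (A.sol i).integrable_t ht) (fun i z => (A.sol i).nonneg t z) (fin_meas_t A L t)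
    (fun z => ENNReal.toReal_nonneg) (fin_int_t A L ht) (by fun_prop) (fun z => sq_nonneg _) ?_
  filter_upwards [hd] with i hi
  rw [A.energy_eq i ht]
  exact hi

omit L in
private theorem fin_data (j : Fin 3) :
    Tendsto (fun i => ∫ z : Om, f0 i z * z.2 j) atTop (𝓝 (∫ z : Om, F0 z * z.2 j)) := by
  have hi : ∀ i, Integrable (fun z : Om => (1 + ‖z.2‖) ^ 2 * f0 i z) := fun i => by
    simpa only [(A.sol i).zero] using (A.sol i).integrable_moment 2 le_rfl
  rw [tendsto_iff_norm_sub_tendsto_zero]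
  refine squeeze_zero (fun i => norm_nonneg _) (fun i => ?_) A.tendsto_data
  rw [← integral_sub (fin_intj (A.sol i).meas0 (hi i) j)
    (fin_intj A.dat.meas A.dat.integrable_moment j)]
  refine norm_integral_le_of_norm_le ?_ (Eventually.of_forall fun z => ?_)
  · refine ((hi i).sub A.dat.integrable_moment).abs.congr (Eventually.of_forall fun z => ?_)
    simp only [Pi.sub_apply]
    rw [← mul_sub, abs_mul, abs_of_nonneg (sq_nonneg _)]
  · rw [← sub_mul, Real.norm_eq_abs, abs_mul, mul_comm]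
    refine mul_le_mul_of_nonneg_right ((fin_coord z.2 j).trans ?_) (abs_nonneg _)
    nlinarith [norm_nonneg z.2]

theorem Appr.FL_momentum {t : ℝ} (ht : 0 ≤ t) :
    ∫ z : X × V, FL F0 ft t z • z.2 = ∫ z : X × V, F0 z • z.2 := by
  ext j
  rw [fin_smul (fin_meas_t A L t) (A.integrable_FL L ht),
    fin_smul A.dat.meas (fin_mom1 A.dat.meas A.dat.integrable_moment)]
  have h1 := A.wconv_FL L ht (fun z => z.2 j / (1 + ‖z.2‖)) (by fun_prop) ⟨1, fun z => by
    rw [abs_div, abs_of_pos (fin_pos _), div_le_one (fin_pos _)]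
    linarith [fin_coord z.2 j]⟩
  have e : ∀ (a : ℝ) (v : V), (1 + ‖v‖) * a * (v j / (1 + ‖v‖)) = a * v j := fun a v => by
    have := fin_pos v
    field_simp
  simp only [e] at h1
  have h2 : ∀ i, ∫ z : Om, f i t z * z.2 j = ∫ z : Om, f0 i z * z.2 j := fun i =>
    (A.sol i).conserve (ψ := fun v => v j) (by fun_prop)
      ⟨1, fun v => (fin_coord v j).trans (by nlinarith [norm_nonneg v])⟩
      (fun v w ω => by
        have := congrArg (fun u : V => u j) (vp_add_vq v w ω)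
        simpa using this) ht
  simp only [h2] at h1
  exact tendsto_nhds_unique h1 ((fin_data A j).mono_left L.le)

private theorem fin_diss (T : ℝ) :
    ∫⁻ s in Ioc 0 T, dissip (FL F0 ft s) = ∫⁻ s in Ioc 0 T, dissip (ft s) :=
  dissip_congr (hm := fin_meas A L) (hGm := L.meas) T (A.FL_ae_eq L T)

theorem Appr.FL_entropy {t : ℝ} (ht : 0 ≤ t) :
    relEnt (FL F0 ft t) + ∫⁻ s in Icc 0 t, dissip (FL F0 ft s) ≤ relEnt F0 := by
  obtain ⟨a, ha⟩ := fin_lim U (fun i => relEnt (f i t))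
  obtain ⟨b, hb⟩ := fin_lim U (fun i => ∫⁻ s in Ioc 0 t, dissN (n i) (f i s))
  have h1 : a + b ≤ relEnt F0 :=
    le_of_tendsto_of_tendsto' (ha.add hb) (A.tendsto_relEnt.mono_left L.le)
      fun i => (A.sol i).entropy ht
  rw [← setLIntegral_congr Ioc_ae_eq_Icc, fin_diss A L t]
  refine le_trans (add_le_add ?_ ?_) h1
  · exact fin_le ha fun d hd => relEnt_le (A.wconv_FL0 L ht) (fun i => (A.sol i).meas_t t)
      (fun i z => (A.sol i).nonneg t z) (fun i => (A.sol i).integrable_t ht) (fin_meas_t A L t)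
      (fun z => ENNReal.toReal_nonneg) (fin_int_t A L ht) hd
  · exact fin_le hb fun d hd => A.diss_le L ht hd

theorem Appr.FL_massLoc {φ : ℝ × X → ℝ} (hφ : IsTestX φ) :
    (∫ t in Ici (0 : ℝ), ∫ z : X × V,
        FL F0 ft t z * transp (fun p => φ (p.1, p.2.1)) t z.1 z.2)
      + (∫ z : X × V, F0 z * φ (0, z.1)) = 0 := by
  obtain ⟨T, C, hT, b1, b2, b3⟩ := hφ.bdd
  have c1 : Continuous (fun q : ℝ × X × V => φ (q.1, q.2.1)) := continuous_test hφ.contDiff
  have c2 : Continuous (fun p : ℝ × Om =>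
      transp (fun q => φ (q.1, q.2.1)) p.1 p.2.1 p.2.2) := continuous_transp hφ.contDiff
  have c3 : Continuous (fun z : Om => φ (0, z.1)) :=
    c1.comp (f := fun z : Om => ((0 : ℝ), z)) (by fun_prop)
  have m2 : Measurable (fun p : ℝ × Om =>
      transp (fun q => φ (q.1, q.2.1)) p.1 p.2.1 p.2.2 / (1 + ‖p.2.2‖)) :=
    c2.measurable.div (by fun_prop)
  have k2 : ∀ p : ℝ × Om,
      |transp (fun q => φ (q.1, q.2.1)) p.1 p.2.1 p.2.2 / (1 + ‖p.2.2‖)| ≤ C := fun p => by
    rw [abs_div, abs_of_pos (fin_pos _), div_le_iff₀ (fin_pos _)]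
    exact b2 _ _ _
  have e : ∀ (a b : ℝ) (v : V), (1 + ‖v‖) * a * (b / (1 + ‖v‖)) = a * b := fun a b v => by
    have := fin_pos v
    field_simp
  have h1 := L.conv T _ m2 ⟨C, k2⟩
  simp only [e] at h1
  have h2 := (A.wconv_0 _ c3.measurable ⟨C, fun z => b1 _⟩).mono_left L.le
  have h3 := h1.add h2
  simp only [fun i => (A.sol i).massLoc hφ hT fun x => (b3 T x 0 le_rfl).1] at h3
  have h4 := tendsto_nhds_unique h3 tendsto_const_nhds
  have h5 : Integrable (fun p : ℝ × Om =>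
      FL F0 ft p.1 p.2 * transp (fun q => φ (q.1, q.2.1)) p.1 p.2.1 p.2.2) (mT T) := by
    simpa only [e] using WL_int_mul (fin_intT A L T) m2 k2
  refine Eq.trans ?_ h4
  rw [integral_Ici_eq_integral_Ioi,
    setIntegral_eq_of_subset_of_forall_sdiff_eq_zero (s := Ioc 0 T) measurableSet_Ioi
      Ioc_subset_Ioi_self]
  · refine congrArg₂ (· + ·) ((integral_mT T h5).symm.trans ?_) rfl
    exact integral_congr_ae ((A.FL_ae_eq L T).mono fun p hp => by simp only [hp])
  · intro t ht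
    have : T ≤ t := by
      by_contra hc
      exact ht.2 ⟨ht.1, (not_le.1 hc).le⟩
    simp only [fun x v => (b3 t x v this).2, mul_zero, integral_zero]

omit L in
private theorem fin_en : ∫⁻ z : Om, ENNReal.ofReal (‖z.2‖ ^ 2 * F0 z) < ⊤ := by
  refine lt_of_le_of_lt (lintegral_mono fun z => ENNReal.ofReal_le_ofReal ?_)
    A.dat.integrable_moment.lintegral_lt_top
  exact mul_le_mul_of_nonneg_right (by nlinarith [norm_nonneg z.2]) (A.dat.nonneg z)

private theorem fin_dfin (T : ℝ) : ∫⁻ s in Ioc 0 T, dissip (FL F0 ft s) < ⊤ := by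
  rcases le_or_gt 0 T with hT | hT
  · have := A.FL_entropy L hT
    rw [← setLIntegral_congr Ioc_ae_eq_Icc] at this
    exact lt_of_le_of_lt (le_add_self.trans this)
      (relEnt_lt_top A.dat.meas A.dat.nonneg A.dat.fin)
  · simp [Ioc_eq_empty (not_lt.2 hT.le)]

theorem Appr.isSol_FL : IsSol F0 (FL F0 ft) := by
  have h0 : ∀ t z, 0 ≤ FL F0 ft t z := fun _ _ => ENNReal.toReal_nonneg
  refine ⟨fin_meas A L, fun t _ z => h0 t z, fun t ht => fin_int_t A L ht,
    fun ψ hψ hC => A.weakCont L hψ hC, Eventually.of_forall (FL_zero A.dat.nonneg ft), fun T => ?_,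
    fun T => gainInt_of (fin_meas A L) h0 T (fin_intT A L T) (fin_dfin A L T),
    fun T => lossInt_of (fin_meas A L) h0 T (fin_intT A L T), ?_,
    fun φ hφ => A.FL_massLoc L hφ, fun t ht => A.FL_momentum L ht, fun t ht => A.FL_energy L ht,
    fun t ht => A.FL_entropy L ht⟩
  · obtain ⟨C, hC, h⟩ := momEnt_le (ENNReal.add_lt_top.2
      ⟨relEnt_lt_top A.dat.meas A.dat.nonneg A.dat.fin, fin_en A⟩)
    exact ⟨C, hC, fun t ht => h _ (fin_meas_t A L t) (h0 t)
      ((le_self_add.trans (A.FL_entropy L ht.1)).trans le_self_add)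
      ((A.FL_energy L ht.1).trans le_add_self)⟩
  · exact renorm_of A.dat L.meas L.nonneg L.int L.ae_ii_lI (fun t ht => A.FF_lt_top L ht)
      (A.FL_ae_eq L) fun T _ => fin_diss A L T ▸ fin_dfin A L T

omit L in
/-- DiPerna-Lions stability -/
theorem Appr.exists_sol : ∃ F : ℝ → Om → ℝ, IsSol F0 F ∧
    (∀ T, Integrable (fun p : ℝ × Om => F p.1 p.2) (mT T)) ∧
    ∀ (T c : ℝ) (χ : ℝ × Om → ℝ), Measurable χ → (∀ p, 0 ≤ χ p ∧ χ p ≤ 1) →
      ((∀ i, ∫ p, f i p.1 p.2 * χ p ∂(mT T) ≤ c) → ∫ p, F p.1 p.2 * χ p ∂(mT T) ≤ c) ∧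
      ((∀ i, c ≤ ∫ p, f i p.1 p.2 * χ p ∂(mT T)) → c ≤ ∫ p, F p.1 p.2 * χ p ∂(mT T)) := by
  obtain ⟨ft, L⟩ := A.exists_lim (hyperfilter ℕ) Nat.hyperfilter_le_atTop
  refine ⟨FL F0 ft, A.isSol_FL L, fun T =>
    (L.int0 T).congr ((A.FL_ae_eq L T).mono fun p hp => hp.symm), fun T c χ hχ h1 => ?_⟩
  have h := (L.conv0 T).congr ((A.FL_ae_eq L T).mono fun p hp => hp.symm) χ hχ ⟨1, WL_bd01 h1⟩
  exact ⟨fun hc => le_of_tendsto' h hc, fun hc => ge_of_tendsto' h hc⟩

end Vale.Agent.P140
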