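import Vale.Agent.P140.DLColl

/-! Weak convergence of the normalised gain term. -/

namespace Vale.Agent.P140

open MeasureTheory Set Filter Topology
open scoped ENNReal

/-- coordinates of the collision space over phase space -/
def DLGain_e (q : (ℝ × Om) × V × S2) : (ℝ × X) × V × V × S2 :=
  ((q.1.1, q.1.2.1), q.1.2.2, q.2)

theorem DLGain_meas_e : Measurable DLGain_e := by
  unfold DLGain_e; fun_prop

theorem DLGain_mp (T : ℝ) :
    MeasurePreserving DLGain_e ((mT T).prod ((volume : Measure V).prod sig)) (mC T) := by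
  refine ⟨DLGain_meas_e, ?_⟩
  refine Measure.ext_of_lintegral _ (fun F hF => ?_)
  have hm : Measurable (fun q => F (DLGain_e q)) := hF.comp DLGain_meas_e
  rw [lintegral_map hF DLGain_meas_e, lintegral_prod _ hm.aemeasurable,
    lintegral_mT_Y T hm.lintegral_prod_right']
  unfold mC
  rw [lintegral_prod _ hF.aemeasurable]
  refine lintegral_congr (fun y => ?_)
  have hy : Measurable (fun c : V × V × S2 => F (y, c)) := hF.comp measurable_prodMk_left
  rw [lintegral_prod _ hy.aemeasurable]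
  rfl

/-- marginal over the collision partner and the impact direction -/
noncomputable def DLGain_marg (W : (ℝ × X) × V × V × S2 → ℝ) (p : ℝ × Om) : ℝ :=
  ∫ c, W (DLGain_e (p, c)) ∂((volume : Measure V).prod sig)

theorem DLGain_int_e {T : ℝ} {W : (ℝ × X) × V × V × S2 → ℝ} (hW : Integrable W (mC T)) :
    Integrable (fun q => W (DLGain_e q)) ((mT T).prod ((volume : Measure V).prod sig)) :=
  (DLGain_mp T).integrable_comp_of_integrable hW

theorem DLGain_int_marg {T : ℝ} {W : (ℝ × X) × V × V × S2 → ℝ} (hW : Integrable W (mC T)) :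
    Integrable (DLGain_marg W) (mT T) :=
  (DLGain_int_e hW).integral_prod_left

theorem DLGain_meas_pi :
    Measurable (fun q : (ℝ × X) × V × V × S2 => ((q.1.1, (q.1.2, q.2.1)) : ℝ × Om)) := by
  fun_prop

theorem DLGain_test {T : ℝ} {W : (ℝ × X) × V × V × S2 → ℝ} (hWm : Measurable W)
    (hW : Integrable W (mC T)) {ψ : ℝ × Om → ℝ} (hψ : Measurable ψ) {C : ℝ}
    (hC : ∀ p, |ψ p| ≤ C) :
    ∫ p, DLGain_marg W p * ψ p ∂(mT T) =
      ∫ q, W q * ψ (q.1.1, (q.1.2, q.2.1)) ∂(mC T) := by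
  have hm : Measurable (fun q : (ℝ × X) × V × V × S2 => ψ (q.1.1, (q.1.2, q.2.1))) :=
    hψ.comp DLGain_meas_pi
  have hI : Integrable (fun q : (ℝ × X) × V × V × S2 => W q * ψ (q.1.1, (q.1.2, q.2.1)))
      (mC T) := WL_int_mul hW hm (fun q => hC _)
  have h1 : ∫ q, W q * ψ (q.1.1, (q.1.2, q.2.1)) ∂(mC T) =
      ∫ q, W (DLGain_e q) * ψ q.1 ∂((mT T).prod ((volume : Measure V).prod sig)) := by
    have hmm : Measurable (fun q : (ℝ × X) × V × V × S2 => W q * ψ (q.1.1, (q.1.2, q.2.1))) :=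
      hWm.mul hm
    rw [← (DLGain_mp T).map_eq, integral_map DLGain_meas_e.aemeasurable
      hmm.aestronglyMeasurable]
    rfl
  have hI' : Integrable (fun q : (ℝ × Om) × V × S2 => W (DLGain_e q) * ψ q.1)
      ((mT T).prod ((volume : Measure V).prod sig)) := DLGain_int_e hI
  rw [h1, integral_prod _ hI']
  refine integral_congr_ae (Eventually.of_forall (fun p => ?_))
  simp only [DLGain_marg]
  rw [integral_mul_const]

theorem DLGain_wconv {T : ℝ} {U : Filter ℕ} {W : ℕ → (ℝ × X) × V × V × S2 → ℝ}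
    {W0 : (ℝ × X) × V × V × S2 → ℝ} (h : WConv U (mC T) W W0) (hm : ∀ i, Measurable (W i))
    (hi : ∀ i, Integrable (W i) (mC T)) (hm0 : Measurable W0) (hi0 : Integrable W0 (mC T))
    {u : ℕ → ℝ × Om → ℝ} {u0 : ℝ × Om → ℝ} (hu : ∀ i p, DLGain_marg (W i) p = u i p)
    (hu0 : ∀ p, DLGain_marg W0 p = u0 p) : WConv U (mT T) u u0 := by
  rintro ψ hψ ⟨C, hC⟩
  have h1 := h (fun q => ψ (q.1.1, (q.1.2, q.2.1))) (hψ.comp DLGain_meas_pi) ⟨C, fun q => hC _⟩
  rw [← DLGain_test hm0 hi0 hψ hC] at h1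
  simp only [hu0] at h1
  refine h1.congr (fun i => ?_)
  rw [← DLGain_test (hm i) (hi i) hψ hC]
  simp only [hu]

/-- the marginal of a gain density -/
theorem DLGain_lint {b : V → V → S2 → ℝ≥0∞} (hb : IsKer b) {g : Om → ℝ} (hm : Measurable g)
    (h0 : ∀ z, 0 ≤ g z) {k : ℝ} (hk : 0 ≤ k) (x : X) (v : V) :
    ∫⁻ c : V × S2, ENNReal.ofReal ((b (vp v c.1 c.2) (vq v c.1 c.2) c.2).toReal *
        (k * (g (x, vp v c.1 c.2) * g (x, vq v c.1 c.2)))) ∂((volume : Measure V).prod sig) =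
      ENNReal.ofReal k * Qp b (eo g x) (eo g x) v := by
  have hq := mq_QpB hb (measurable_eo' hm x) (measurable_eo' hm x) v
  unfold Qp
  rw [I2_eq_QpB hq, ← lintegral_const_mul _ hq]
  refine lintegral_congr (fun c => ?_)
  rw [hb.coll, ENNReal.ofReal_mul ENNReal.toReal_nonneg, ENNReal.ofReal_toReal (hb.lt_top _ _ _).ne,
    ENNReal.ofReal_mul hk, ENNReal.ofReal_mul (h0 _)]
  simp only [eo]
  ring

theorem DLGain_integral {b : V → V → S2 → ℝ≥0∞} (hb : IsKer b) {g : Om → ℝ} (hm : Measurable g)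
    (h0 : ∀ z, 0 ≤ g z) {k : ℝ} (hk : 0 ≤ k) (x : X) (v : V) :
    ∫ c : V × S2, ((b (vp v c.1 c.2) (vq v c.1 c.2) c.2).toReal *
        (k * (g (x, vp v c.1 c.2) * g (x, vq v c.1 c.2)))) ∂((volume : Measure V).prod sig) =
      k * (Qp b (eo g x) (eo g x) v).toReal := by
  have hvp : Measurable (fun c : V × S2 => vp v c.1 c.2) :=
    measurable_vp measurable_const measurable_fst measurable_snd
  have hvq : Measurable (fun c : V × S2 => vq v c.1 c.2) :=
    measurable_vq measurable_const measurable_fst measurable_snd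
  have hmeas : Measurable (fun c : V × S2 => ((b (vp v c.1 c.2) (vq v c.1 c.2) c.2).toReal *
        (k * (g (x, vp v c.1 c.2) * g (x, vq v c.1 c.2))))) :=
    (hb.measurable_comp hvp hvq measurable_snd).ennreal_toReal.mul (measurable_const.mul
      ((hm.comp (measurable_const.prodMk hvp)).mul (hm.comp (measurable_const.prodMk hvq))))
  rw [integral_eq_lintegral_of_nonneg_ae (Eventually.of_forall (fun c =>
      mul_nonneg ENNReal.toReal_nonneg (mul_nonneg hk (mul_nonneg (h0 _) (h0 _)))))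
    hmeas.aestronglyMeasurable, DLGain_lint hb hm h0 hk, ENNReal.toReal_mul,
    ENNReal.toReal_ofReal hk]

theorem DLGain_den_pos {g : Om → ℝ} (h0 : ∀ z, 0 ≤ g z) {ζ : ℝ} (hζ : 0 < ζ) (x : X) :
    0 < 1 + ζ * rho1 g x := by
  have := rho1_nonneg h0 x
  positivity

theorem DLGain_cw_eq (m : ℕ) (ζ : ℝ) (g : Om → ℝ) (x : X) (v : V) (c : V × S2) :
    cw m ζ g x (coll (v, c)) = (kN m (vp v c.1 c.2) (vq v c.1 c.2) c.2).toReal *
      (kap m g x / (1 + ζ * rho1 g x) * (g (x, vp v c.1 c.2) * g (x, vq v c.1 c.2))) := by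
  simp only [cw, coll]
  ring

theorem DLGain_cwI_eq (ζ : ℝ) (g : Om → ℝ) (x : X) (v : V) (c : V × S2) :
    cwI ζ g x (coll (v, c)) = (kI (vp v c.1 c.2) (vq v c.1 c.2) c.2).toReal *
      (1 / (1 + ζ * rho1 g x) * (g (x, vp v c.1 c.2) * g (x, vq v c.1 c.2))) := by
  simp only [cwI, coll, kI, ENNReal.toReal_ofReal (abs_nonneg _)]
  ring

theorem DLGain_marg_cw (m : ℕ) {ζ : ℝ} (hζ : 0 < ζ) {g : ℝ → Om → ℝ}
    (hm : Measurable (Function.uncurry g)) (h0 : ∀ t z, 0 ≤ g t z) (p : ℝ × Om) :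
    DLGain_marg (fun q => cw m ζ (g q.1.1) q.1.2 (coll q.2)) p =
      qn m (g p.1) p.2 / (1 + ζ * rho1 (g p.1) p.2.1) := by
  have hk : 0 ≤ kap m (g p.1) p.2.1 / (1 + ζ * rho1 (g p.1) p.2.1) :=
    div_nonneg (kap_pos m (h0 _) _).le (DLGain_den_pos (h0 _) hζ _).le
  simp only [DLGain_marg, DLGain_e, DLGain_cw_eq]
  rw [DLGain_integral (g := g p.1) (isKer_kN m) (hm.comp measurable_prodMk_left) (h0 p.1) hk]
  simp only [qn]
  ring

theorem DLGain_marg_cwI {ζ : ℝ} (hζ : 0 < ζ) {g : ℝ → Om → ℝ}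
    (hm : Measurable (Function.uncurry g)) (h0 : ∀ t z, 0 ≤ g t z) (p : ℝ × Om) :
    DLGain_marg (fun q => cwI ζ (g q.1.1) q.1.2 (coll q.2)) p =
      (qI (g p.1) p.2).toReal / (1 + ζ * rho1 (g p.1) p.2.1) := by
  have hk : 0 ≤ 1 / (1 + ζ * rho1 (g p.1) p.2.1) :=
    div_nonneg zero_le_one (DLGain_den_pos (h0 _) hζ _).le
  simp only [DLGain_marg, DLGain_e, DLGain_cwI_eq]
  rw [DLGain_integral (g := g p.1) isKer_kI (hm.comp measurable_prodMk_left) (h0 p.1) hk]
  simp only [qI]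
  ring

theorem DLGain_meas_collT :
    Measurable (fun p : (ℝ × X) × V × V × S2 => (p.1, coll p.2)) :=
  measurable_fst.prodMk (measurable_coll.comp measurable_snd)

/-- the marginal of the indicator of `E3 R` -/
theorem DLGain_E3 (T : ℝ) (R : ℕ) : ∃ c : ℝ, 0 ≤ c ∧ ∀ ψ : ℝ × Om → ℝ, Measurable ψ →
    (∀ p, 0 ≤ ψ p ∧ ψ p ≤ 1) →
    ∫ q in E3 R, ψ (q.1.1, (q.1.2, q.2.1)) ∂(mC T) ≤ c * ∫ p in EBT R, ψ p ∂(mT T) := by
  set B : Set (V × S2) := Metric.closedBall (0 : V) R ×ˢ (univ : Set S2) with hB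
  have hBm : MeasurableSet B := Metric.isClosed_closedBall.measurableSet.prod MeasurableSet.univ
  have hBf : ((volume : Measure V).prod sig) B ≠ ⊤ := by
    rw [hB, Measure.prod_prod]
    exact ENNReal.mul_ne_top measure_closedBall_lt_top.ne (measure_ne_top _ _)
  refine ⟨((volume : Measure V).prod sig).real B, measureReal_nonneg, fun ψ hψ h1 => ?_⟩
  have hWm : Measurable ((E3 R).indicator (fun _ => (1 : ℝ))) :=
    measurable_const.indicator (measurableSet_E3 R)
  have hW : Integrable ((E3 R).indicator (fun _ => (1 : ℝ))) (mC T) :=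
    (integrable_indicator_iff (measurableSet_E3 R)).2
      (integrableOn_const (mC_E3_lt_top T R).ne)
  have e1 : ∫ q in E3 R, ψ (q.1.1, (q.1.2, q.2.1)) ∂(mC T) =
      ∫ p, DLGain_marg ((E3 R).indicator (fun _ => (1 : ℝ))) p * ψ p ∂(mT T) := by
    rw [DLGain_test hWm hW hψ (WL_bd01 h1), ← integral_indicator (measurableSet_E3 R)]
    refine integral_congr_ae (Eventually.of_forall (fun q => ?_))
    by_cases hq : q ∈ E3 R <;> simp [hq]
  have hψi : IntegrableOn ψ (EBT R) (mT T) := by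
    have : IsFiniteMeasure ((mT T).restrict (EBT R)) :=
      ⟨by simpa using mT_EBT_lt_top T R⟩
    exact Integrable.of_bound hψ.aestronglyMeasurable 1
      (Eventually.of_forall (fun p => WL_bd01 h1 p))
  rw [e1, ← integral_const_mul, ← integral_indicator (measurableSet_EBT R)]
  refine integral_mono (WL_int_mul (DLGain_int_marg hW) hψ (WL_bd01 h1))
    ((integrable_indicator_iff (measurableSet_EBT R)).2 (hψi.const_mul _)) (fun p => ?_)
  by_cases hp : p ∈ EBT R
  · simp only [indicator_of_mem hp]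
    refine mul_le_mul_of_nonneg_right ?_ (h1 p).1
    rw [← integral_indicator_one hBm]
    refine integral_mono_of_nonneg (Eventually.of_forall (fun c => ?_))
      ((integrable_indicator_iff hBm).2 (integrableOn_const hBf)) (Eventually.of_forall (fun c => ?_))
    · exact indicator_nonneg (fun _ _ => zero_le_one) _
    · by_cases hc : DLGain_e (p, c) ∈ E3 R
      · have hcB : c ∈ B := by
          refine ⟨?_, mem_univ _⟩
          rw [mem_closedBall_zero_iff]
          have h2 : ‖p.2.2‖ ^ 2 + ‖c.1‖ ^ 2 ≤ (R : ℝ) ^ 2 := hc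
          have h3 : ‖c.1‖ ^ 2 ≤ (R : ℝ) ^ 2 := by nlinarith [sq_nonneg ‖p.2.2‖]
          exact (pow_le_pow_iff_left₀ (norm_nonneg _) (Nat.cast_nonneg R) two_ne_zero).1 h3
        simp [hc, hcB]
      · simp only [indicator_of_notMem hc]
        exact indicator_nonneg (fun _ _ => zero_le_one) _
  · simp only [indicator_of_notMem hp]
    have hz : DLGain_marg ((E3 R).indicator (fun _ => (1 : ℝ))) p = 0 := by
      simp only [DLGain_marg]
      refine integral_eq_zero_of_ae (Eventually.of_forall (fun c => ?_))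
      refine indicator_of_notMem (fun hc => hp ?_) _
      have h2 : ‖p.2.2‖ ^ 2 + ‖c.1‖ ^ 2 ≤ (R : ℝ) ^ 2 := hc
      have h3 : ‖p.2.2‖ ^ 2 ≤ (R : ℝ) ^ 2 := by nlinarith [sq_nonneg ‖c.1‖]
      exact (pow_le_pow_iff_left₀ (norm_nonneg _) (Nat.cast_nonneg R) two_ne_zero).1 h3
    rw [hz, zero_mul]

theorem DLGain_exp01 {a : ℝ} (ha : 0 ≤ a) : 0 ≤ Real.exp (-a) ∧ Real.exp (-a) ≤ 1 :=
  ⟨(Real.exp_pos _).le, Real.exp_le_one_iff.2 (by linarith)⟩

theorem DLGain_LamN_nonneg (m : ℕ) {g : ℝ → Om → ℝ} (h0 : ∀ t z, 0 ≤ g t z) {s t : ℝ}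
    (hst : s ≤ t) (z : Om) : 0 ≤ LamN m g s t z :=
  intervalIntegral.integral_nonneg hst (fun τ _ => ln_nonneg m (h0 τ) _)

theorem DLGain_abs_mul {a b c : ℝ} (hc : 0 ≤ c ∧ c ≤ 1) : |a * c - b * c| ≤ |a - b| := by
  rw [← sub_mul, abs_mul, abs_of_nonneg hc.1]
  exact mul_le_of_le_one_right (abs_nonneg _) hc.2

theorem DLGain_abs01 {a c : ℝ} (ha : 0 ≤ a ∧ a ≤ 1) (hc : 0 ≤ c ∧ c ≤ 1) : |a * c| ≤ 1 := by
  rw [abs_of_nonneg (mul_nonneg ha.1 hc.1)]
  exact mul_le_one₀ ha.2 hc.1 hc.2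

theorem DLGain_abs_sub01 {a b : ℝ} (ha : 0 ≤ a ∧ a ≤ 1) (hb : 0 ≤ b ∧ b ≤ 1) : |a - b| ≤ 1 := by
  rw [abs_le]; constructor <;> linarith [ha.1, ha.2, hb.1, hb.2]

variable {F0 : Om → ℝ} {n : ℕ → ℕ} {f0 : ℕ → Om → ℝ} {f : ℕ → ℝ → Om → ℝ} (A : Appr F0 n f0 f)
  {U : Ultrafilter ℕ} {ft : ℝ → Om → ℝ} (L : IsLim U f ft)
include A L

/- PLAN: see DLColl.lean (Gain). -/

omit L in
theorem Appr.fam_gain (T : ℝ) {ζ : ℝ} (hζ : 0 < ζ) :
    Fam (mT T) EBT (fun i p => qn (n i) (f i p.1) p.2 / (1 + ζ * rho1 (f i p.1) p.2.1)) := by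
  have hF := A.fam_cw' T hζ
  have hE : ∀ i, (fun p : ℝ × Om => qn (n i) (f i p.1) p.2 / (1 + ζ * rho1 (f i p.1) p.2.1)) =
      DLGain_marg (fun q => cw (n i) ζ (f i q.1.1) q.1.2 (coll q.2)) := fun i =>
    funext (fun p => (DLGain_marg_cw (n i) hζ (A.sol i).meas (A.sol i).nonneg p).symm)
  refine ⟨measurableSet_EBT, mT_EBT_lt_top T, fun i => ?_, fun i p => ?_, fun i => ?_,
    fun ε hε => ?_⟩
  · have hg : Measurable (Function.uncurry (fun p : ℝ × Om => f i p.1)) :=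
      (A.sol i).meas.comp ((measurable_fst.comp measurable_fst).prodMk measurable_snd)
    exact (measurable_qn (n i) hg measurable_snd).div (measurable_const.add
      (measurable_const.mul (measurable_rho1 hg (measurable_fst.comp measurable_snd))))
  · exact div_nonneg (qn_nonneg _ ((A.sol i).nonneg _) _)
      (DLGain_den_pos ((A.sol i).nonneg _) hζ _).le
  · rw [hE i]; exact DLGain_int_marg (hF.int i)
  · obtain ⟨K, R, hK, h⟩ := hF.uit ε hε
    obtain ⟨c, hc, hcR⟩ := DLGain_E3 T R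
    refine ⟨K * c, R, mul_nonneg hK hc, fun i ψ hψ h1 => ?_⟩
    have e1 : ∫ p, qn (n i) (f i p.1) p.2 / (1 + ζ * rho1 (f i p.1) p.2.1) * ψ p ∂(mT T) =
        ∫ q, cw (n i) ζ (f i q.1.1) q.1.2 (coll q.2) * ψ (q.1.1, (q.1.2, q.2.1)) ∂(mC T) := by
      rw [← DLGain_test (hF.meas i) (hF.int i) hψ (WL_bd01 h1), ← hE i]
    have h2 := h i (fun q => ψ (q.1.1, (q.1.2, q.2.1))) (hψ.comp DLGain_meas_pi)
      (fun q => h1 _)
    have h3 := mul_le_mul_of_nonneg_left (hcR ψ hψ h1) hK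
    rw [e1, mul_assoc]
    linarith

omit A in
theorem IsLim.qI_lt_top (T : ℝ) : ∀ᵐ p ∂(mT T), qI (ft p.1) p.2 < ⊤ := by
  have hI := (DLGain_int_e (L.integrable_cwI' T one_pos)).prod_right_ae
  filter_upwards [hI] with p hp
  have hpos : 0 < 1 / (1 + 1 * rho1 (ft p.1) p.2.1) :=
    one_div_pos.2 (DLGain_den_pos (L.nonneg _) one_pos _)
  have h1 := hp.lintegral_lt_top
  simp only [DLGain_e, DLGain_cwI_eq] at h1
  rw [DLGain_lint (g := ft p.1) isKer_kI (L.meas.comp measurable_prodMk_left) (L.nonneg p.1)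
    hpos.le] at h1
  by_contra h
  have h2 : Qp kI (eo (ft p.1) p.2.1) (eo (ft p.1) p.2.1) p.2.2 = ⊤ := top_le_iff.1 (not_lt.1 h)
  have h3 : ENNReal.ofReal (1 / (1 + 1 * rho1 (ft p.1) p.2.1)) ≠ 0 :=
    (ENNReal.ofReal_pos.2 hpos).ne'
  rw [h2, ENNReal.mul_top h3] at h1
  exact lt_irrefl _ h1

omit A in
theorem IsLim.integrable_gain (T : ℝ) {ζ : ℝ} (hζ : 0 < ζ) :
    Integrable (fun p : ℝ × Om => (qI (ft p.1) p.2).toReal / (1 + ζ * rho1 (ft p.1) p.2.1))
      (mT T) := by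
  have h := DLGain_int_marg (L.integrable_cwI' T hζ)
  exact h.congr (Eventually.of_forall (fun p => DLGain_marg_cwI hζ L.meas L.nonneg p))

theorem Appr.wconv_gain (T : ℝ) {ζ : ℝ} (hζ : 0 < ζ) :
    WConv U (mT T) (fun i p => qn (n i) (f i p.1) p.2 / (1 + ζ * rho1 (f i p.1) p.2.1))
      (fun p => (qI (ft p.1) p.2).toReal / (1 + ζ * rho1 (ft p.1) p.2.1)) := by
  have hF := A.fam_cw' T hζ
  have hm : Measurable (fun p : (ℝ × X) × V × V × S2 => cwI ζ (ft p.1.1) p.1.2 (coll p.2)) := by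
    have := (measurable_cwI L.meas ζ).comp DLGain_meas_collT
    exact this
  exact DLGain_wconv (A.wconv_cw' L T hζ) hF.meas hF.int hm (L.integrable_cwI' T hζ)
    (fun i p => DLGain_marg_cw (n i) hζ (A.sol i).meas (A.sol i).nonneg p)
    (fun p => DLGain_marg_cwI hζ L.meas L.nonneg p)

/-- the form used in the super- and subsolution arguments (characteristic coordinates) -/
theorem Appr.tendsto_gain_exp {t : ℝ} (ht : 0 ≤ t) {ζ : ℝ} (hζ : 0 < ζ) {φ : Om → ℝ}
    (hφ : Measurable φ) (h1 : ∀ z, 0 ≤ φ z ∧ φ z ≤ 1) :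
    Tendsto (fun i => ∫ p, qn (n i) (f i p.1) (sh p.1 p.2) /
        (1 + ζ * rho1 (f i p.1) (sh p.1 p.2).1) *
        (Real.exp (-LamN (n i) (f i) p.1 t p.2) * φ p.2) ∂(mT t)) U
      (𝓝 (∫ p, (qI (ft p.1) (sh p.1 p.2)).toReal / (1 + ζ * rho1 (ft p.1) (sh p.1 p.2).1) *
        (Real.exp (-LamI ft p.1 t p.2) * φ p.2) ∂(mT t))) := by
  have he' : Measurable (fun p : ℝ × Om => (p.1, sh (-p.1) p.2)) :=
    measurable_fst.prodMk (measurable_sh measurable_fst.neg measurable_snd)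
  have e1 : ∀ p : ℝ × Om, (fun p : ℝ × Om => (p.1, sh (-p.1) p.2))
      ((fun p : ℝ × Om => (p.1, sh p.1 p.2)) p) = p := fun p => by
    simp only [sh_sh, neg_add_cancel, sh_zero]
  have e2 : ∀ p : ℝ × Om, (fun p : ℝ × Om => (p.1, sh p.1 p.2))
      ((fun p : ℝ × Om => (p.1, sh (-p.1) p.2)) p) = p := fun p => by
    simp only [sh_sh, add_neg_cancel, sh_zero]
  have hF := (A.fam_gain t hζ).comp (measurePreserving_shT t) he' e1 e2
  have hW := (A.wconv_gain L t hζ).comp (measurePreserving_shT t) he' e1 e2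
  have hS : MeasurableSet {p : ℝ × Om | p.1 ≤ t} := measurableSet_le measurable_fst measurable_const
  have hmap : Measurable (fun p : ℝ × Om => ((p.1, t, p.2) : ℝ × ℝ × Om)) := by fun_prop
  have mN : ∀ i, Measurable (fun p : ℝ × Om => Real.exp (-LamN (n i) (f i) p.1 t p.2)) :=
    fun i => ((measurable_LamN (n i) (A.sol i).meas).comp hmap).neg.exp
  have mI : Measurable (fun p : ℝ × Om => Real.exp (-LamI ft p.1 t p.2)) :=
    ((measurable_LamI L.meas).comp hmap).neg.exp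
  have bN : ∀ i (p : ℝ × Om), p.1 ≤ t → 0 ≤ Real.exp (-LamN (n i) (f i) p.1 t p.2) ∧
      Real.exp (-LamN (n i) (f i) p.1 t p.2) ≤ 1 := fun i p hp =>
    DLGain_exp01 (DLGain_LamN_nonneg _ (A.sol i).nonneg hp _)
  have bI : ∀ p : ℝ × Om, p.1 ≤ t → 0 ≤ Real.exp (-LamI ft p.1 t p.2) ∧
      Real.exp (-LamI ft p.1 t p.2) ≤ 1 := fun p hp => DLGain_exp01 (LamI_nonneg ft hp _)
  have hae : ∀ᵐ p ∂(mT t), p.1 ≤ t := (ae_mT_mem t).mono (fun p hp => hp.2)
  have key := hF.tendsto_mul hW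
    (ψ := fun i p => if p.1 ≤ t then Real.exp (-LamN (n i) (f i) p.1 t p.2) * φ p.2 else 0)
    (φ := fun p => if p.1 ≤ t then Real.exp (-LamI ft p.1 t p.2) * φ p.2 else 0) (C := 1)
    (fun i => Measurable.ite hS ((mN i).mul (hφ.comp measurable_snd)) measurable_const)
    (Measurable.ite hS (mI.mul (hφ.comp measurable_snd)) measurable_const)
    (fun i p => by
      split_ifs with hp
      · exact DLGain_abs01 (bN i p hp) (h1 _)
      · simp)
    (fun p => by
      split_ifs with hp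
      · exact DLGain_abs01 (bI p hp) (h1 _)
      · simp)
    (fun R => by
      refine squeeze_zero (fun i => integral_nonneg (fun p => abs_nonneg _)) (fun i => ?_)
        (A.tendsto_exp L ht R)
      have : IsFiniteMeasure ((mT t).restrict (EBT R)) :=
        ⟨by simpa using mT_EBT_lt_top t R⟩
      have hi : Integrable (fun p : ℝ × Om => |Real.exp (-LamN (n i) (f i) p.1 t p.2) -
          Real.exp (-LamI ft p.1 t p.2)|) ((mT t).restrict (EBT R)) := by
        refine Integrable.of_bound ((mN i).sub mI).abs.aestronglyMeasurable 1 ?_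
        filter_upwards [ae_restrict_of_ae hae] with p hp
        rw [Real.norm_eq_abs, abs_abs]
        exact DLGain_abs_sub01 (bN i p hp) (bI p hp)
      refine integral_mono_of_nonneg (Eventually.of_forall (fun p => abs_nonneg _)) hi
        (Eventually.of_forall (fun p => ?_))
      dsimp only
      split_ifs with hp
      · exact DLGain_abs_mul (h1 _)
      · simp)
  have c1 : ∀ (u w : ℝ × Om → ℝ), ∫ p, u p * (if p.1 ≤ t then w p else 0) ∂(mT t) =
      ∫ p, u p * w p ∂(mT t) := fun u w =>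
    integral_congr_ae (hae.mono (fun p hp => by simp only [if_pos hp]))
  simp only [c1] at key
  exact key

theorem Appr.tendsto_data_exp {t : ℝ} (ht : 0 ≤ t) {φ : Om → ℝ}
    (hφ : Measurable φ) (h1 : ∀ z, 0 ≤ φ z ∧ φ z ≤ 1) :
    Tendsto (fun i => ∫ z, f0 i z * (Real.exp (-LamN (n i) (f i) 0 t z) * φ z)) U
      (𝓝 (∫ z, F0 z * (Real.exp (-LamI ft 0 t z) * φ z))) := by
  have hW : WConv U volume f0 F0 := fun ψ hψ hC => (A.wconv_0 ψ hψ hC).mono_left L.le
  have hmap : Measurable (fun z : Om => (((0 : ℝ), t, z) : ℝ × ℝ × Om)) := by fun_prop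
  have mN : ∀ i, Measurable (fun z : Om => Real.exp (-LamN (n i) (f i) 0 t z)) :=
    fun i => ((measurable_LamN (n i) (A.sol i).meas).comp hmap).neg.exp
  have mI : Measurable (fun z : Om => Real.exp (-LamI ft 0 t z)) :=
    ((measurable_LamI L.meas).comp hmap).neg.exp
  have bN : ∀ i (z : Om), 0 ≤ Real.exp (-LamN (n i) (f i) 0 t z) ∧
      Real.exp (-LamN (n i) (f i) 0 t z) ≤ 1 := fun i z =>
    DLGain_exp01 (DLGain_LamN_nonneg _ (A.sol i).nonneg ht _)
  have bI : ∀ z : Om, 0 ≤ Real.exp (-LamI ft 0 t z) ∧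
      Real.exp (-LamI ft 0 t z) ≤ 1 := fun z => DLGain_exp01 (LamI_nonneg ft ht _)
  refine A.fam_0.tendsto_mul hW (C := 1) (fun i => (mN i).mul hφ) (mI.mul hφ)
    (fun i z => DLGain_abs01 (bN i z) (h1 z)) (fun z => DLGain_abs01 (bI z) (h1 z)) (fun R => ?_)
  refine squeeze_zero (fun i => integral_nonneg (fun p => abs_nonneg _)) (fun i => ?_)
    (A.tendsto_exp0 L ht R)
  have : IsFiniteMeasure ((volume : Measure Om).restrict (EB R)) :=
    ⟨by simpa using volume_EB_lt_top R⟩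
  have hi : Integrable (fun z : Om => |Real.exp (-LamN (n i) (f i) 0 t z) -
      Real.exp (-LamI ft 0 t z)|) ((volume : Measure Om).restrict (EB R)) := by
    refine Integrable.of_bound ((mN i).sub mI).abs.aestronglyMeasurable 1
      (Eventually.of_forall (fun z => ?_))
    rw [Real.norm_eq_abs, abs_abs]
    exact DLGain_abs_sub01 (bN i z) (bI z)
  exact integral_mono_of_nonneg (Eventually.of_forall (fun p => abs_nonneg _)) hi
    (Eventually.of_forall (fun z => DLGain_abs_mul (h1 z)))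

end Vale.Agent.P140
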