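import Vale.Agent.P140.DLSub

/-! Identification of the limit. -/

namespace Vale.Agent.P140

open MeasureTheory Set Filter Topology
open scoped ENNReal

variable {F0 : Om → ℝ} {n : ℕ → ℕ} {f0 : ℕ → Om → ℝ} {f : ℕ → ℝ → Om → ℝ} (A : Appr F0 n f0 f)
  {U : Ultrafilter ℕ} {ft : ℝ → Om → ℝ} (L : IsLim U f ft)
include A L

/- PLAN. FL t (sh t z) = (FF t z).toReal = h z a.e. (super, sub). equi passes to the limit
(WConv.integral_abs_sub_le). FL_ae_eq: for a bounded test φ(z) the functions t ↦ ∫ f_i♯(t) φ are equicontinuous on [0,T],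
so they converge uniformly along U to t ↦ ∫ FL♯(t) φ; hence ∫_{I × B} ft♯ = ∫_{I × B} FL♯ for rectangles; Measure.ext_prod
for the finite measures withDensity; unshear. weakCont: FL_equi + tendsto_integral_sh. -/

omit A L in
theorem dlid_sh1 (t : ℝ) (z : Om) : sh (-t) (sh t z) = z := by
  rw [sh_sh, neg_add_cancel, sh_zero]

omit A L in
theorem dlid_sh2 (t : ℝ) (z : Om) : sh t (sh (-t) z) = z := by
  rw [sh_sh, add_neg_cancel, sh_zero]

omit A L in
theorem dlid_meas1 {g : ℝ → Om → ℝ} (hg : Measurable (Function.uncurry g)) :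
    Measurable fun p : ℝ × Om => g p.1 (sh p.1 p.2) :=
  hg.comp (measurable_fst.prodMk (measurable_sh measurable_fst measurable_snd))

omit A L in
theorem dlid_meas2 {g : ℝ → Om → ℝ} (hg : Measurable (Function.uncurry g)) (t : ℝ) :
    Measurable fun z : Om => g t (sh t z) :=
  hg.comp (measurable_const.prodMk (measurePreserving_sh t).measurable)

theorem Appr.dlid_meas : Measurable fun p : ℝ × Om => FL F0 ft p.1 (sh p.1 p.2) :=
  dlid_meas1 (measurable_FL L.meas A.dat.meas)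

omit L in
theorem Appr.dlid_int (i : ℕ) {t : ℝ} (ht : 0 ≤ t) : Integrable fun z => f i t (sh t z) :=
  (measurePreserving_sh t).integrable_comp_of_integrable ((A.sol i).integrable_t ht)

theorem Appr.FF_lt_top {t : ℝ} (ht : 0 ≤ t) : ∀ᵐ z : Om, FF F0 ft t z < ⊤ := by
  obtain ⟨h, H⟩ := A.exists_limT U ht
  filter_upwards [A.super L ht H] with z hz
  exact hz.trans_lt ENNReal.ofReal_lt_top

theorem Appr.isLimT_FL {t : ℝ} (ht : 0 ≤ t) :
    IsLimT U f t (fun z => FL F0 ft t (sh t z)) := by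
  obtain ⟨h, H⟩ := A.exists_limT U ht
  have e : (fun z : Om => (1 + ‖z.2‖) * h z) =ᵐ[volume]
      fun z => (1 + ‖z.2‖) * FL F0 ft t (sh t z) := by
    filter_upwards [A.super L ht H, A.sub L ht H] with z h1 h2
    rw [FL, dlid_sh1, le_antisymm h1 h2, ENNReal.toReal_ofReal (H.nonneg z)]
  exact ⟨dlid_meas2 (measurable_FL L.meas A.dat.meas) t,
    fun _ => ENNReal.toReal_nonneg, H.int.congr e, H.conv.congr e⟩

theorem Appr.integrable_FL {t : ℝ} (ht : 0 ≤ t) :
    Integrable (fun z : Om => (1 + ‖z.2‖) * FL F0 ft t z) := by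
  have := (measurePreserving_sh (-t)).integrable_comp_of_integrable (A.isLimT_FL L ht).int
  refine this.congr (Eventually.of_forall fun z => ?_)
  simp only [Function.comp_apply, dlid_sh2]
  rfl

theorem Appr.wconv_FL {t : ℝ} (ht : 0 ≤ t) :
    WConv U volume (fun i z => (1 + ‖z.2‖) * f i t z) (fun z => (1 + ‖z.2‖) * FL F0 ft t z) := by
  have := (A.isLimT_FL L ht).conv.comp (measurePreserving_sh (-t))
    (measurePreserving_sh t).measurable (dlid_sh2 t) (dlid_sh1 t)
  simp only [dlid_sh2] at this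
  exact this

theorem Appr.wconv_FL0 {t : ℝ} (ht : 0 ≤ t) : WConv U volume (fun i => f i t) (FL F0 ft t) := by
  have := (A.isLimT_FL L ht).conv0.comp (measurePreserving_sh (-t))
    (measurePreserving_sh t).measurable (dlid_sh2 t) (dlid_sh1 t)
  simp only [dlid_sh2] at this
  exact this

theorem Appr.FL_equi (T : ℝ) {ε : ℝ} (hε : 0 < ε) : ∃ δ : ℝ, 0 < δ ∧
    ∀ s ∈ Icc (0 : ℝ) T, ∀ t ∈ Icc (0 : ℝ) T, |t - s| ≤ δ →
      ∫ z, |FL F0 ft t (sh t z) - FL F0 ft s (sh s z)| ≤ ε := by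
  obtain ⟨δ, hδ, h⟩ := A.equi T hε
  refine ⟨δ, hδ, fun s hs t ht hst => ?_⟩
  have H1 := A.isLimT_FL L ht.1
  have H2 := A.isLimT_FL L hs.1
  exact H1.conv0.integral_abs_sub_le H2.conv0 (fun i => A.dlid_int i ht.1)
    (fun i => A.dlid_int i hs.1) H1.meas H2.meas H1.int0 H2.int0 fun i => h i s hs t ht hst

omit A L in
theorem dlid_diff {u w φ : Om → ℝ} (hu : Integrable u) (hw : Integrable w) (hφ : Measurable φ)
    {C : ℝ} (h1 : ∀ z, |φ z| ≤ C) :
    |(∫ z, u z * φ z) - ∫ z, w z * φ z| ≤ C * ∫ z, |u z - w z| := by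
  rw [← integral_sub (WL_int_mul hu hφ h1) (WL_int_mul hw hφ h1), ← integral_const_mul]
  rw [← Real.norm_eq_abs]
  refine norm_integral_le_of_norm_le ((hu.sub hw).abs.const_mul C)
    (Eventually.of_forall fun z => ?_)
  rw [← sub_mul, Real.norm_eq_abs, abs_mul, mul_comm]
  exact mul_le_mul_of_nonneg_right (h1 z) (abs_nonneg _)

theorem Appr.dlid_unif (T : ℝ) {φ : Om → ℝ} (hφ : Measurable φ) (h1 : ∀ z, |φ z| ≤ 1) {ε : ℝ}
    (hε : 0 < ε) : ∀ᶠ i in (U : Filter ℕ), ∀ t ∈ Icc (0 : ℝ) T,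
      |(∫ z, f i t (sh t z) * φ z) - ∫ z, FL F0 ft t (sh t z) * φ z| ≤ ε := by
  obtain ⟨δ1, hδ1, e1⟩ := A.equi T (ε := ε / 3) (by positivity)
  obtain ⟨δ2, hδ2, e2⟩ := A.FL_equi L T (ε := ε / 3) (by positivity)
  obtain ⟨S, hS, hfin, hcov⟩ := finite_cover_balls_of_compact (isCompact_Icc (a := 0) (b := T))
    (lt_min hδ1 hδ2)
  have ev : ∀ᶠ i in (U : Filter ℕ), ∀ s ∈ S,
      |(∫ z, f i s (sh s z) * φ z) - ∫ z, FL F0 ft s (sh s z) * φ z| < ε / 3 :=
    (eventually_all_finite hfin).2 fun s hs => Metric.tendsto_nhds.1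
      ((A.isLimT_FL L (hS hs).1).conv0 φ hφ ⟨1, h1⟩) _ (by positivity)
  filter_upwards [ev] with i hi t ht
  obtain ⟨s, hs, hts⟩ := mem_iUnion₂.1 (hcov ht)
  have hts' : |t - s| < min δ1 δ2 := hts
  have a1 := (dlid_diff (A.dlid_int i ht.1) (A.dlid_int i (hS hs).1) hφ h1).trans_eq (one_mul _)
  have a2 := (dlid_diff (A.isLimT_FL L ht.1).int0 (A.isLimT_FL L (hS hs).1).int0 hφ
    h1).trans_eq (one_mul _)
  have b1 := a1.trans (e1 i s (hS hs) t ht (hts'.le.trans (min_le_left _ _)))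
  have b2 := a2.trans (e2 s (hS hs) t ht (hts'.le.trans (min_le_right _ _)))
  have b3 := (hi s hs).le
  rw [abs_le] at b1 b2 b3 ⊢
  constructor <;> linarith [b1.1, b1.2, b2.1, b2.2, b3.1, b3.2]

theorem Appr.dlid_mass : ∃ C : ℝ, ∀ t, 0 ≤ t → ∫ z, FL F0 ft t (sh t z) ≤ C := by
  obtain ⟨C, -, hC⟩ := A.mom_bdd
  refine ⟨C, fun t ht => ?_⟩
  have h := (A.isLimT_FL L ht).conv0 (fun _ => 1) measurable_const ⟨1, fun _ => by simp⟩
  simp only [mul_one] at h
  refine le_of_tendsto' h fun i => le_trans ?_ (hC i t ht)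
  rw [integral_sh t (f i t)]
  refine integral_mono ((A.sol i).integrable_t ht) ((A.sol i).integrable_moment 2 ht) fun z => ?_
  exact le_mul_of_one_le_left ((A.sol i).nonneg t z)
    (one_le_pow₀ (le_add_of_nonneg_right (norm_nonneg _)))

theorem Appr.dlid_intT (T : ℝ) :
    Integrable (fun p : ℝ × Om => FL F0 ft p.1 (sh p.1 p.2)) (mT T) := by
  obtain ⟨C, hC⟩ := A.dlid_mass L
  have hm := (A.dlid_meas L).stronglyMeasurable
  refine (integrable_prod_iff hm.aestronglyMeasurable).2 ⟨?_, ?_⟩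
  · filter_upwards [ae_restrict_mem measurableSet_Ioc] with t ht
    exact (A.isLimT_FL L ht.1.le).int0
  · refine Integrable.of_bound hm.norm.integral_prod_right'.aestronglyMeasurable C ?_
    filter_upwards [ae_restrict_mem measurableSet_Ioc] with t ht
    rw [Real.norm_of_nonneg (integral_nonneg fun _ => norm_nonneg _)]
    refine le_trans (le_of_eq (integral_congr_ae (Eventually.of_forall fun z => ?_))) (hC t ht.1.le)
    exact Real.norm_of_nonneg ENNReal.toReal_nonneg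

theorem Appr.dlid_rect (T : ℝ) {θ : ℝ → ℝ} {φ : Om → ℝ} (hθ : Measurable θ) (hφ : Measurable φ)
    (h1 : ∀ t, |θ t| ≤ 1) (h2 : ∀ z, |φ z| ≤ 1) :
    ∫ p, FL F0 ft p.1 (sh p.1 p.2) * (θ p.1 * φ p.2) ∂(mT T) =
      ∫ p, ft p.1 (sh p.1 p.2) * (θ p.1 * φ p.2) ∂(mT T) := by
  have hm : Measurable fun p : ℝ × Om => θ p.1 * φ p.2 :=
    (hθ.comp measurable_fst).mul (hφ.comp measurable_snd)
  have hb : ∀ p : ℝ × Om, |θ p.1 * φ p.2| ≤ 1 := fun p => by
    rw [abs_mul]
    exact mul_le_one₀ (h1 _) (abs_nonneg _) (h2 _)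
  refine tendsto_nhds_unique ?_ (L.conv_sh T _ hm ⟨1, hb⟩)
  have ig := WL_int_mul (A.dlid_intT L T) hm hb
  refine Metric.tendsto_nhds.2 fun ε hε => ?_
  have hv : 0 ≤ (volume : Measure ℝ).real (Ioc 0 T) := measureReal_nonneg
  filter_upwards [A.dlid_unif L T hφ h2 (ε := ε / (volume.real (Ioc (0 : ℝ) T) + 1))
    (by positivity)] with i hi
  have i0 : Integrable (fun p : ℝ × Om => f i p.1 (sh p.1 p.2)) (mT T) := by
    have := (measurePreserving_shT T).integrable_comp_of_integrable (A.integrable_mT 0 i T)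
    simpa only [Function.comp_def, pow_zero, one_mul] using this
  have i1 := WL_int_mul i0 hm hb
  have i2 : Integrable (fun p : ℝ × Om => f i p.1 (sh p.1 p.2) * (θ p.1 * φ p.2) -
      FL F0 ft p.1 (sh p.1 p.2) * (θ p.1 * φ p.2)) (mT T) := i1.sub ig
  rw [dist_eq_norm, ← integral_sub i1 ig, integral_mT T i2]
  refine (norm_setIntegral_le_of_norm_le_const (C := ε / (volume.real (Ioc (0 : ℝ) T) + 1))
    measure_Ioc_lt_top fun t ht => ?_).trans_lt ?_
  · have e : ∫ z, (f i t (sh t z) * (θ t * φ z) - FL F0 ft t (sh t z) * (θ t * φ z)) =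
        θ t * ((∫ z, f i t (sh t z) * φ z) - ∫ z, FL F0 ft t (sh t z) * φ z) := by
      rw [← integral_sub (WL_int_mul (A.dlid_int i ht.1.le) hφ h2)
        (WL_int_mul (A.isLimT_FL L ht.1.le).int0 hφ h2), ← integral_const_mul]
      exact integral_congr_ae (Eventually.of_forall fun z => by ring)
    refine (congrArg norm e).trans_le ?_
    rw [Real.norm_eq_abs, abs_mul]
    exact (mul_le_of_le_one_left (abs_nonneg _) (h1 t)).trans (hi t ⟨ht.1.le, ht.2⟩)
  · rw [div_mul_eq_mul_div, div_lt_iff₀ (by positivity)]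
    linarith

omit A L in
theorem dlid_ext {μ : Measure (ℝ × Om)} {g k : ℝ × Om → ℝ} (hg : Integrable g μ)
    (hk : Integrable k μ) (g0 : ∀ p, 0 ≤ g p) (k0 : ∀ p, 0 ≤ k p)
    (h : ∀ (θ : ℝ → ℝ) (φ : Om → ℝ), Measurable θ → Measurable φ → (∀ t, |θ t| ≤ 1) →
      (∀ z, |φ z| ≤ 1) → ∫ p, g p * (θ p.1 * φ p.2) ∂μ = ∫ p, k p * (θ p.1 * φ p.2) ∂μ) :
    ∀ᵐ p ∂μ, g p = k p := by
  have := isFiniteMeasure_withDensity_ofReal hg.2
  have hb : ∀ {β : Type} (s : Set β) (b : β), |s.indicator (1 : β → ℝ) b| ≤ 1 := fun s b => by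
    by_cases hb : b ∈ s <;> simp [hb]
  have key : ∀ u : ℝ × Om → ℝ, Integrable u μ → (∀ p, 0 ≤ u p) → ∀ (s : Set ℝ) (t : Set Om),
      MeasurableSet s → MeasurableSet t → (μ.withDensity fun p => ENNReal.ofReal (u p)) (s ×ˢ t) =
        ENNReal.ofReal (∫ p, u p * (s.indicator 1 p.1 * t.indicator 1 p.2) ∂μ) := by
    intro u hu u0 s t hs ht
    rw [withDensity_apply _ (hs.prod ht), ← ofReal_integral_eq_lintegral_ofReal hu.integrableOn
      (Eventually.of_forall u0), ← integral_indicator (hs.prod ht)]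
    congr 2
    funext p
    by_cases h1 : p.1 ∈ s <;> by_cases h2 : p.2 ∈ t <;> simp [indicator, h1, h2]
  have e : (μ.withDensity fun p => ENNReal.ofReal (g p)) =
      μ.withDensity fun p => ENNReal.ofReal (k p) := by
    refine Measure.ext_prod fun {s t} hs ht => ?_
    rw [key g hg g0 s t hs ht, key k hk k0 s t hs ht, h _ _ (measurable_one.indicator hs)
      (measurable_one.indicator ht) (hb s) (hb t)]
  have e2 := (withDensity_eq_iff hg.1.aemeasurable.ennreal_ofReal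
    hk.1.aemeasurable.ennreal_ofReal hg.lintegral_lt_top.ne).1 e
  filter_upwards [e2] with p hp
  exact (ENNReal.ofReal_eq_ofReal_iff (g0 p) (k0 p)).1 hp

theorem Appr.FL_ae_eq (T : ℝ) : ∀ᵐ p ∂(mT T), FL F0 ft p.1 p.2 = ft p.1 p.2 := by
  have ig := A.dlid_intT L T
  have ik : Integrable (fun p : ℝ × Om => ft p.1 (sh p.1 p.2)) (mT T) :=
    (measurePreserving_shT T).integrable_comp_of_integrable (L.int0 T)
  have h := dlid_ext ig ik (fun _ => ENNReal.toReal_nonneg) (fun p => L.nonneg _ _)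
    fun θ φ hθ hφ h1 h2 => A.dlid_rect L T hθ hφ h1 h2
  filter_upwards [(measurePreserving_shST' (volume.restrict (Ioc 0 T))).quasiMeasurePreserving.ae
    h] with p hp
  simpa only [dlid_sh2] using hp

theorem Appr.weakCont {ψ : Om → ℝ} (hψ : Measurable ψ) (hC : ∃ C, ∀ z, |ψ z| ≤ C) :
    ContinuousOn (fun t => ∫ z, FL F0 ft t z * ψ z) (Ici 0) := by
  obtain ⟨C, hC⟩ := hC
  intro s hs
  have i0 : ∀ t, 0 ≤ t → Integrable (FL F0 ft t) := fun t ht => by
    have := (measurePreserving_sh (-t)).integrable_comp_of_integrable (A.isLimT_FL L ht).int0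
    simpa only [Function.comp_def, dlid_sh2] using this
  have hu := (A.isLimT_FL L hs).int0
  have t1 : Tendsto (fun t => ∫ z, |FL F0 ft t z - FL F0 ft s z|) (𝓝[Ici 0] s) (𝓝 0) := by
    refine Metric.tendsto_nhds.2 fun ε hε => ?_
    obtain ⟨δ, hδ, h⟩ := A.FL_equi L (s + 1) (ε := ε / 2) (by positivity)
    have a1 := Metric.tendsto_nhds.1 ((tendsto_integral_sh hu (-s)).comp
      (continuous_neg.tendsto s)) (ε / 2) (by positivity)
    filter_upwards [self_mem_nhdsWithin, nhdsWithin_le_nhds a1,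
      nhdsWithin_le_nhds (Metric.ball_mem_nhds s (lt_min hδ one_pos))] with t ht h1 h2
    have h2' : |t - s| < min δ 1 := h2
    have h3 := h s ⟨hs, by linarith⟩ t
      ⟨ht, by linarith [(abs_lt.1 (h2'.trans_le (min_le_right _ _))).2]⟩
      (h2'.le.trans (min_le_left _ _))
    rw [← integral_sh (-t)] at h3
    have h4 : ∫ z, |FL F0 ft s (sh s (sh (-t) z)) - FL F0 ft s (sh s (sh (-s) z))| < ε / 2 :=
      (le_abs_self _).trans_lt (by simpa only [Function.comp_apply, dist_zero_right,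
        Real.norm_eq_abs] using h1)
    simp only [dlid_sh2] at h3 h4
    have iu : Integrable fun z => FL F0 ft s (sh s (sh (-t) z)) :=
      (measurePreserving_sh (-t)).integrable_comp_of_integrable hu
    have h5 : ∫ z, |FL F0 ft t z - FL F0 ft s z| ≤
        (∫ z, |FL F0 ft t z - FL F0 ft s (sh s (sh (-t) z))|) +
          ∫ z, |FL F0 ft s (sh s (sh (-t) z)) - FL F0 ft s z| := by
      exact (integral_mono ((i0 t ht).sub (i0 s hs)).abs
        (((i0 t ht).sub iu).abs.add (iu.sub (i0 s hs)).abs) fun z => abs_sub_le _ _ _).trans_eq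
        (integral_add ((i0 t ht).sub iu).abs (iu.sub (i0 s hs)).abs)
    rw [dist_zero_right, Real.norm_of_nonneg (integral_nonneg fun _ => abs_nonneg _)]
    linarith
  have t2 := t1.const_mul C
  rw [mul_zero] at t2
  refine tendsto_iff_dist_tendsto_zero.2 (squeeze_zero' (Eventually.of_forall fun _ => dist_nonneg)
    ?_ t2)
  filter_upwards [self_mem_nhdsWithin] with t ht
  exact dlid_diff (i0 t ht) (i0 s hs) hψ hC

end Vale.Agent.P140
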