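import Vale.Agent.P140.DLMeas

/-! Integrability of the renormalised collision terms; a.e. congruence. -/

namespace Vale.Agent.P140

open MeasureTheory Set Filter Topology
open scoped ENNReal

/- PLAN. loss/(1+F/M) ≤ M(v) Lo(F)(v) ≤ 13 M(v)(1+|v|) rho1; gain ≤ K loss + D̃/log K (Qp_le_diss, K = 2),
∫ D̃ = 4 dissip. Congruences: for a.e. (t,x) the velocity slices agree a.e.; Lo_congr_ae, Qp_congr_ae; for dissip use
that the collision map is measure preserving (quasi-measure-preserving is enough). -/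

variable {F : ℝ → Om → ℝ} (hm : Measurable (Function.uncurry F)) (h0 : ∀ t z, 0 ≤ F t z)
include hm h0

omit h0 in
theorem DLInt_slice (t : ℝ) (x : X) : Measurable fun v => F t (x, v) :=
  hm.comp (measurable_const.prodMk (measurable_const.prodMk measurable_id))

omit h0 in
theorem DLInt_measB :
    Measurable fun p : ℝ × Om => ENNReal.ofReal (Mx p.2.2) * Lo kI (eo (F p.1) p.2.1) p.2.2 := by
  refine (continuous_Mx.measurable.comp measurable_snd.snd).ennreal_ofReal.mul ?_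
  refine measurable_Lo isKer_kI (G := fun p : ℝ × Om => eo (F p.1) p.2.1) ?_ measurable_snd.snd
  exact (hm.comp (measurable_fst.fst.prodMk
    (measurable_fst.snd.fst.prodMk measurable_snd))).ennreal_ofReal

theorem DLInt_B (T : ℝ) (hi : Integrable (fun p : ℝ × Om => (1 + ‖p.2.2‖) * F p.1 p.2) (mT T)) :
    ∫⁻ t in Ioc 0 T, ∫⁻ z : Om, ENNReal.ofReal (Mx z.2) * Lo kI (eo (F t) z.1) z.2 < ⊤ := by
  have hB := DLInt_measB hm
  obtain ⟨h1, h2⟩ := integrable_mT_Y T hi
  have hM : Integrable fun v : V => 13 * ((1 + ‖v‖) ^ 1 * Mx v) :=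
    (integrable_Mx_moment 1).const_mul 13
  rw [← lintegral_mT T hB, lintegral_mT_Y T hB]
  have h3 : ∀ᵐ y ∂(mY T), ∫⁻ v, ENNReal.ofReal (Mx v) * Lo kI (eo (F y.1) y.2) v ≤
      (∫⁻ v : V, ENNReal.ofReal (13 * ((1 + ‖v‖) ^ 1 * Mx v))) *
        ENNReal.ofReal (rho1 (F y.1) y.2) := by
    filter_upwards [h2] with y hy
    rw [← lintegral_mul_const' _ _ ENNReal.ofReal_ne_top]
    refine lintegral_mono fun v => ?_
    have h4 := Lo_le_rho1 isKer_kI (g := F y.1) (hm.comp (measurable_const.prodMk measurable_id))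
      (h0 y.1) y.2 hy v
    refine (mul_le_mul' le_rfl h4).trans (le_of_eq ?_)
    have hv := (Mx_pos v).le
    rw [← ENNReal.ofReal_mul hv, ← ENNReal.ofReal_mul (by positivity)]
    congr 1
    ring
  refine (lintegral_mono_ae h3).trans_lt ?_
  rw [lintegral_const_mul' _ _ hM.lintegral_lt_top.ne]
  exact ENNReal.mul_lt_top hM.lintegral_lt_top h1.lintegral_lt_top

omit hm h0 in
theorem DLInt_pt (t : ℝ) (z : Om) (L : ℝ≥0∞) :
    ENNReal.ofReal (F t z) * L / ENNReal.ofReal (1 + F t z / Mx z.2) ≤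
      ENNReal.ofReal (Mx z.2) * L := by
  have hM := Mx_pos z.2
  refine ENNReal.div_le_of_le_mul ?_
  rw [mul_right_comm, ← ENNReal.ofReal_mul hM.le]
  refine mul_le_mul' (ENNReal.ofReal_le_ofReal ?_) le_rfl
  rw [mul_add, mul_one, mul_div_cancel₀ _ hM.ne']
  linarith

theorem lossInt_of (T : ℝ) (hi : Integrable (fun p : ℝ × Om => (1 + ‖p.2.2‖) * F p.1 p.2) (mT T)) :
    ∫⁻ t in Icc 0 T, ∫⁻ z : X × V,
      loss (fun v => F t (z.1, v)) z.2 / ENNReal.ofReal (1 + F t z / Mx z.2) < ⊤ := by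
  rw [← restrict_Ioc_eq_restrict_Icc]
  refine lt_of_le_of_lt (lintegral_mono fun t => lintegral_mono fun z => ?_) (DLInt_B hm h0 T hi)
  rw [loss_eq (DLInt_slice hm t z.1) (fun v => h0 t _)]
  exact DLInt_pt t z _

theorem gainInt_of (T : ℝ) (hi : Integrable (fun p : ℝ × Om => (1 + ‖p.2.2‖) * F p.1 p.2) (mT T))
    (hD : ∫⁻ s in Ioc 0 T, dissip (F s) < ⊤) :
    ∫⁻ t in Icc 0 T, ∫⁻ z : X × V,
      gain (fun v => F t (z.1, v)) z.2 / ENNReal.ofReal (1 + F t z / Mx z.2) < ⊤ := by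
  rw [← restrict_Ioc_eq_restrict_Icc]
  have hB := DLInt_measB hm
  have hl : ENNReal.ofReal (Real.log 2) ≠ 0 :=
    (ENNReal.ofReal_pos.2 (Real.log_pos one_lt_two)).ne'
  have hc : (ENNReal.ofReal (Real.log 2))⁻¹ ≠ ⊤ := ENNReal.inv_ne_top.2 hl
  have h1 : ∀ t, ∫⁻ z : X × V,
      gain (fun v => F t (z.1, v)) z.2 / ENNReal.ofReal (1 + F t z / Mx z.2) ≤
      ENNReal.ofReal 2 * (∫⁻ z : Om, ENNReal.ofReal (Mx z.2) * Lo kI (eo (F t) z.1) z.2) +
        4 * (ENNReal.ofReal (Real.log 2))⁻¹ * dissip (F t) := by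
    intro t
    have hBt : Measurable fun z : Om => ENNReal.ofReal (Mx z.2) * Lo kI (eo (F t) z.1) z.2 :=
      hB.comp (f := fun z : Om => ((t, z) : ℝ × Om)) measurable_prodMk_left
    have h2 : ∀ z : X × V,
        gain (fun v => F t (z.1, v)) z.2 / ENNReal.ofReal (1 + F t z / Mx z.2) ≤
        ENNReal.ofReal 2 * (ENNReal.ofReal (Mx z.2) * Lo kI (eo (F t) z.1) z.2) +
        (∫⁻ w, ∫⁻ ω, ENNReal.ofReal |aa z.2 w ω| * jE (F t (z.1, vp z.2 w ω) * F t (z.1, vq z.2 w ω))
          (F t (z.1, z.2) * F t (z.1, w)) ∂sig) * (ENNReal.ofReal (Real.log 2))⁻¹ := by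
      intro z
      rw [gain_eq (fun v => h0 t _)]
      refine (ENNReal.div_le_div_right
        (Qp_le_diss isKer_kI (DLInt_slice hm t z.1) (fun v => h0 t _) one_lt_two z.2) _).trans ?_
      rw [ENNReal.add_div, mul_div_assoc]
      refine add_le_add (mul_le_mul' le_rfl (DLInt_pt t z _)) ?_
      refine ENNReal.div_le_of_le_mul (le_mul_of_one_le_right' ?_)
      rw [← ENNReal.ofReal_one]
      exact ENNReal.ofReal_le_ofReal
        (le_add_of_nonneg_right (div_nonneg (h0 t z) (Mx_pos z.2).le))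
    refine (lintegral_mono h2).trans ?_
    rw [lintegral_add_left (hBt.const_mul _), lintegral_const_mul _ hBt,
      lintegral_mul_const' _ _ hc]
    refine add_le_add le_rfl ?_
    rw [mul_right_comm]
    refine mul_le_mul' ((lintegral_prod_le _).trans (le_of_eq ?_)) le_rfl
    rw [dissip, ← mul_assoc, one_div, ENNReal.mul_inv_cancel (by norm_num) (by norm_num), one_mul]
  have hc4 : 4 * (ENNReal.ofReal (Real.log 2))⁻¹ ≠ ⊤ := ENNReal.mul_ne_top (by norm_num) hc
  refine (lintegral_mono h1).trans_lt ?_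
  rw [lintegral_add_right _ ((measurable_dissip hm).const_mul _),
    lintegral_const_mul' _ _ ENNReal.ofReal_ne_top, lintegral_const_mul' _ _ hc4]
  exact ENNReal.add_lt_top.2 ⟨ENNReal.mul_lt_top ENNReal.ofReal_lt_top (DLInt_B hm h0 T hi),
    ENNReal.mul_lt_top hc4.lt_top hD⟩

theorem gain_eq_qI (t : ℝ) (z : Om) : gain (fun v => F t (z.1, v)) z.2 = qI (F t) z := by
  have _ := hm
  exact gain_eq (fun v => h0 t _) z.2

theorem loss_toReal (t : ℝ) (z : Om) :
    (loss (fun v => F t (z.1, v)) z.2).toReal = F t z * lI (F t) z := by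
  rw [loss_eq (DLInt_slice hm t z.1) (fun v => h0 t _), ENNReal.toReal_mul,
    ENNReal.toReal_ofReal (h0 t _)]
  rfl

variable {G : ℝ → Om → ℝ} (hGm : Measurable (Function.uncurry G))
include hGm

omit h0 in
theorem lI_congr (T : ℝ) (h : ∀ᵐ p ∂(mT T), F p.1 p.2 = G p.1 p.2) :
    ∀ᵐ p ∂(mT T), lI (F p.1) p.2 = lI (G p.1) p.2 := by
  have _ := hm
  have _ := hGm
  have h1 := ae_mT_of_ae_mY T (P := fun y => ∀ᵐ v, F y.1 (y.2, v) = G y.1 (y.2, v))
    (ae_mY_of_ae_mT T h)
  filter_upwards [h1] with p hp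
  unfold lI
  rw [Lo_congr_ae kI (G' := eo (G p.1) p.2.1)]
  filter_upwards [hp] with v hv
  exact congrArg ENNReal.ofReal hv

omit h0 in
theorem qI_congr (T : ℝ) (h : ∀ᵐ p ∂(mT T), F p.1 p.2 = G p.1 p.2) :
    ∀ᵐ p ∂(mT T), qI (F p.1) p.2 = qI (G p.1) p.2 := by
  have hs : MeasurableSet {p : ℝ × Om | qI (F p.1) p.2 = qI (G p.1) p.2} :=
    measurableSet_eq_fun
      (measurable_qI (g := fun p : ℝ × Om => F p.1)
        (hm.comp (measurable_fst.fst.prodMk measurable_snd)) measurable_snd)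
      (measurable_qI (g := fun p : ℝ × Om => G p.1)
        (hGm.comp (measurable_fst.fst.prodMk measurable_snd)) measurable_snd)
  have mp := measurePreserving_assoc T
  have h1 := ae_mY_of_ae_mT T h
  rw [← mp.map_eq]
  refine (ae_map_iff mp.measurable.aemeasurable hs).2 ?_
  refine (Measure.ae_prod_iff_ae_ae (mp.measurable hs)).2 ?_
  filter_upwards [h1] with y hy
  have h2 : eo (F y.1) y.2 =ᵐ[volume] eo (G y.1) y.2 := by
    filter_upwards [hy] with v hv
    exact congrArg ENNReal.ofReal hv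
  exact Qp_congr_ae isKer_kI h2 h2

omit h0 in
theorem dissip_congr (T : ℝ) (h : ∀ᵐ p ∂(mT T), F p.1 p.2 = G p.1 p.2) :
    ∫⁻ s in Ioc 0 T, dissip (F s) = ∫⁻ s in Ioc 0 T, dissip (G s) := by
  have _ := hm
  have _ := hGm
  refine lintegral_congr_ae ?_
  filter_upwards [Measure.ae_ae_of_ae_prod h] with t ht
  unfold dissip
  congr 1
  refine lintegral_congr_ae ?_
  filter_upwards [Measure.ae_ae_of_ae_prod (μ := (volume : Measure X)) (ν := (volume : Measure V))
    ht] with x hx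
  have q := measurePreserving_coll.quasiMeasurePreserving
  have q1 := (Measure.quasiMeasurePreserving_fst.comp q).ae hx
  have q2 := ((Measure.quasiMeasurePreserving_fst.comp
    Measure.quasiMeasurePreserving_snd).comp q).ae hx
  refine lintegral_congr_ae ?_
  filter_upwards [Measure.ae_ae_of_ae_prod (q1.and q2), hx] with v hv hv0
  refine lintegral_congr_ae ?_
  filter_upwards [Measure.ae_ae_of_ae_prod hv, hx] with w hw hw0
  refine lintegral_congr_ae ?_
  filter_upwards [hw] with ω k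
  have h1 : F t (x, vp v w ω) = G t (x, vp v w ω) := k.1
  have h2 : F t (x, vq v w ω) = G t (x, vq v w ω) := k.2
  have h3 : F t (x, v) = G t (x, v) := hv0
  have h4 : F t (x, w) = G t (x, w) := hw0
  rw [h1, h2, h3, h4]

end Vale.Agent.P140
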