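import Vale.Agent.P140.DLLoss1

/-! Strong convergence of the collision frequency. -/

namespace Vale.Agent.P140

open MeasureTheory Set Filter Topology
open scoped ENNReal

/-- angular average of a kernel -/
private noncomputable def dla (b : V → V → S2 → ℝ≥0∞) (v w : V) : ℝ :=
  (∫⁻ ω, b v w ω ∂sig).toReal

private theorem dla_nonneg (b : V → V → S2 → ℝ≥0∞) (v w : V) : 0 ≤ dla b v w :=
  ENNReal.toReal_nonneg

private theorem dl_ne_top {b : V → V → S2 → ℝ≥0∞} (hb : IsKer b) (v w : V) :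
    ∫⁻ ω, b v w ω ∂sig ≠ ⊤ :=
  ne_top_of_le_ne_top ENNReal.ofReal_ne_top (lintegral_ker_le hb v w)

private theorem dla_le {b : V → V → S2 → ℝ≥0∞} (hb : IsKer b) (v w : V) :
    dla b v w ≤ 13 * ‖v - w‖ :=
  ENNReal.toReal_le_of_le_ofReal (by positivity) (lintegral_ker_le hb v w)

private theorem dla_le' {b : V → V → S2 → ℝ≥0∞} (hb : IsKer b) (v w : V) :
    dla b v w ≤ 13 * (1 + ‖v‖) * (1 + ‖w‖) := by
  have h1 := dla_le hb v w
  have h2 := norm_sub_le v w
  nlinarith [mul_nonneg (norm_nonneg v) (norm_nonneg w)]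

private theorem dla_meas {b : V → V → S2 → ℝ≥0∞} (hb : IsKer b) (v : V) :
    Measurable (dla b v) := by
  have h : Measurable fun q : V × S2 => b v q.1 q.2 :=
    hb.measurable_comp measurable_const measurable_fst measurable_snd
  exact (h.lintegral_prod_right' (ν := sig)).ennreal_toReal

private theorem dl_Lo {b : V → V → S2 → ℝ≥0∞} (hb : IsKer b) {g : Om → ℝ} (hm : Measurable g)
    (h0 : ∀ z, 0 ≤ g z) (x : X) (v : V) :
    (Lo b (eo g x) v).toReal = ∫ w, g (x, w) * dla b v w := by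
  have hg : Measurable fun w : V => g (x, w) := hm.comp measurable_prodMk_left
  rw [Lo_eq hb (measurable_eo' hm x), integral_eq_lintegral_of_nonneg_ae
    (Eventually.of_forall fun w => mul_nonneg (h0 _) (dla_nonneg b v w))
    (hg.mul (dla_meas hb v)).aestronglyMeasurable]
  congr 1
  refine lintegral_congr fun w => ?_
  rw [ENNReal.ofReal_mul (h0 _), dla, ENNReal.ofReal_toReal (dl_ne_top hb v w)]
  rfl

private theorem dla_lip (v v' w : V) : |dla kI v w - dla kI v' w| ≤ 13 * ‖v - v'‖ := by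
  have key : ∀ a a' : V, dla kI a w ≤ dla kI a' w + 13 * ‖a - a'‖ := by
    intro a a'
    have h := ENNReal.toReal_mono
      (ENNReal.add_ne_top.2 ⟨dl_ne_top isKer_kI a' w, ENNReal.ofReal_ne_top⟩)
      (lintegral_kI_le a a' w)
    rwa [ENNReal.toReal_add (dl_ne_top isKer_kI a' w) ENNReal.ofReal_ne_top,
      ENNReal.toReal_ofReal (by positivity)] at h
  have h1 := key v v'
  have h2 := key v' v
  rw [norm_sub_rev] at h2
  rw [abs_le]
  constructor <;> linarith

private theorem dla_kN_le (n : ℕ) (v w : V) : dla (kN n) v w ≤ dla kI v w :=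
  ENNReal.toReal_mono (dl_ne_top isKer_kI v w) (lintegral_mono fun ω => (isKer_kN n).le v w ω)

private theorem dl_arith {N R a b : ℝ} (hN : 1 ≤ N) (ha0 : 0 ≤ a) (ha : a ≤ R) (hb : 0 ≤ b)
    (h : N ^ 2 < a ^ 2 + b ^ 2) : 13 * (a + b) ≤ 13 * (1 + R) ^ 2 / N * (1 + b) ^ 2 := by
  have h1 : N < a + b := by
    refine lt_of_pow_lt_pow_left₀ 2 (by positivity) ?_
    nlinarith [mul_nonneg ha0 hb]
  have hR : 0 ≤ R := ha0.trans ha
  have h2 : a + b ≤ (1 + R) * (1 + b) := by nlinarith [mul_nonneg hR hb]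
  have h3 : (a + b) * N ≤ ((1 + R) * (1 + b)) ^ 2 := by
    have : (a + b) * N ≤ (a + b) * (a + b) := mul_le_mul_of_nonneg_left h1.le (by positivity)
    nlinarith
  rw [div_mul_eq_mul_div, le_div_iff₀ (by linarith)]
  nlinarith

private theorem dla_trunc {n : ℕ} (hn : 1 ≤ n) {R : ℝ} {v : V} (hv : ‖v‖ ≤ R) (w : V) :
    dla kI v w ≤ dla (kN n) v w + 13 * (1 + R) ^ 2 / n * (1 + ‖w‖) ^ 2 := by
  have hn' : (1 : ℝ) ≤ n := by exact_mod_cast hn
  have hR : 0 ≤ R := (norm_nonneg v).trans hv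
  by_cases h : ‖v‖ ^ 2 + ‖w‖ ^ 2 ≤ (n : ℝ) ^ 2
  · have h1 := ENNReal.toReal_mono
      (ENNReal.add_ne_top.2 ⟨dl_ne_top (isKer_kN n) v w, ENNReal.ofReal_ne_top⟩)
      (kI_le_kN_add hn h)
    rw [ENNReal.toReal_add (dl_ne_top (isKer_kN n) v w) ENNReal.ofReal_ne_top,
      ENNReal.toReal_ofReal (by positivity)] at h1
    have h2 : (13 : ℝ) / n ≤ 13 * (1 + R) ^ 2 / n * (1 + ‖w‖) ^ 2 := by
      rw [div_mul_eq_mul_div]
      refine div_le_div_of_nonneg_right ?_ (by linarith)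
      have a1 : 1 ≤ (1 + R) ^ 2 := one_le_pow₀ (by linarith)
      have a2 : 1 ≤ (1 + ‖w‖) ^ 2 := one_le_pow₀ (by linarith [norm_nonneg w])
      nlinarith
    exact h1.trans (by unfold dla; linarith)
  · have h1 := dl_arith hn' (norm_nonneg v) hv (norm_nonneg w) (not_le.1 h)
    have h2 := dla_le isKer_kI v w
    have h3 := norm_sub_le v w
    have h4 := dla_nonneg (kN n) v w
    linarith

private theorem dl_int_a {b : V → V → S2 → ℝ≥0∞} (hb : IsKer b) {u : V → ℝ} (hm : Measurable u)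
    (h0 : ∀ w, 0 ≤ u w) (hi : Integrable (fun w => (1 + ‖w‖) * u w)) (v : V) :
    Integrable (fun w => u w * dla b v w) := by
  refine (hi.const_mul (13 * (1 + ‖v‖))).mono' (hm.mul (dla_meas hb v)).aestronglyMeasurable
    (Eventually.of_forall fun w => ?_)
  rw [Real.norm_of_nonneg (mul_nonneg (h0 w) (dla_nonneg b v w))]
  have := mul_le_mul_of_nonneg_left (dla_le' hb v w) (h0 w)
  linarith

private theorem dl_lip_int {u : V → ℝ} (hm : Measurable u)
    (h0 : ∀ w, 0 ≤ u w) (hi : Integrable (fun w => (1 + ‖w‖) * u w)) {v v' : V} {δ : ℝ}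
    (hδ : ‖v - v'‖ ≤ δ) :
    |(∫ w, u w * dla kI v w) - ∫ w, u w * dla kI v' w| ≤ 13 * δ * ∫ w, (1 + ‖w‖) * u w := by
  rw [← integral_sub (dl_int_a isKer_kI hm h0 hi v) (dl_int_a isKer_kI hm h0 hi v'),
    ← integral_const_mul, ← Real.norm_eq_abs]
  refine norm_integral_le_of_norm_le (hi.const_mul _) (Eventually.of_forall fun w => ?_)
  rw [← mul_sub, Real.norm_eq_abs, abs_mul, abs_of_nonneg (h0 w)]
  have h1 := dla_lip v v' w
  have h2 : |dla kI v w - dla kI v' w| ≤ 13 * δ * (1 + ‖w‖) := by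
    have : 0 ≤ δ := (norm_nonneg _).trans hδ
    nlinarith [mul_nonneg this (norm_nonneg w)]
  have := mul_le_mul_of_nonneg_left h2 (h0 w)
  linarith

private theorem dl_w1 {u : V → ℝ} (hm : Measurable u) (h0 : ∀ w, 0 ≤ u w)
    (hi : Integrable (fun w => (1 + ‖w‖) ^ 2 * u w)) : Integrable (fun w => (1 + ‖w‖) * u w) := by
  refine hi.mono' (by fun_prop : Measurable fun w : V => (1 + ‖w‖) * u w).aestronglyMeasurable
    (Eventually.of_forall fun w => ?_)
  have h1 := norm_nonneg w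
  rw [Real.norm_of_nonneg (mul_nonneg (by positivity) (h0 w))]
  exact mul_le_mul_of_nonneg_right (by nlinarith) (h0 w)

private theorem dl_trunc_int {n : ℕ} (hn : 1 ≤ n) {g : Om → ℝ} (hm : Measurable g)
    (h0 : ∀ z, 0 ≤ g z) (x : X) (hi : Integrable (fun w => (1 + ‖w‖) ^ 2 * g (x, w)))
    {R : ℝ} {v : V} (hv : ‖v‖ ≤ R) :
    |ln n g (x, v) - ∫ w, g (x, w) * dla kI v w| ≤
      13 * (1 + R) * ((1 - kap n g x) * rho1 g x) +
        13 * (1 + R) ^ 2 / n * ∫ w, (1 + ‖w‖) ^ 2 * g (x, w) := by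
  have hg : Measurable fun w : V => g (x, w) := hm.comp measurable_prodMk_left
  have h1 := dl_w1 hg (fun w => h0 _) hi
  have iI := dl_int_a isKer_kI hg (fun w => h0 _) h1 v
  have iN := dl_int_a (isKer_kN n) hg (fun w => h0 _) h1 v
  have e : ln n g (x, v) = kap n g x * ∫ w, g (x, w) * dla (kN n) v w := by
    rw [← dl_Lo (isKer_kN n) hm h0]; rfl
  have b1 : ∫ w, g (x, w) * dla (kN n) v w ≤ ∫ w, g (x, w) * dla kI v w :=
    integral_mono iN iI fun w => mul_le_mul_of_nonneg_left (dla_kN_le n v w) (h0 _)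
  have b2 : ∫ w, g (x, w) * dla kI v w ≤ (∫ w, g (x, w) * dla (kN n) v w) +
      13 * (1 + R) ^ 2 / n * ∫ w, (1 + ‖w‖) ^ 2 * g (x, w) := by
    rw [← integral_const_mul, ← integral_add iN (hi.const_mul _)]
    refine integral_mono iI (iN.add (hi.const_mul _)) fun w => ?_
    have := mul_le_mul_of_nonneg_left (dla_trunc hn hv w) (h0 (x, w))
    simp only
    linarith
  have b3 : ∫ w, g (x, w) * dla (kN n) v w ≤ 13 * (1 + R) * rho1 g x := by
    rw [rho1, ← integral_const_mul]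
    refine integral_mono iN (h1.const_mul _) fun w => ?_
    have a1 := dla_le' (isKer_kN n) v w
    have a2 : 13 * (1 + ‖v‖) * (1 + ‖w‖) ≤ 13 * (1 + R) * (1 + ‖w‖) := by gcongr
    have := mul_le_mul_of_nonneg_left (a1.trans a2) (h0 (x, w))
    simp only
    linarith
  have b4 : 0 ≤ ∫ w, g (x, w) * dla (kN n) v w :=
    integral_nonneg fun w => mul_nonneg (h0 _) (dla_nonneg _ v w)
  have k1 : 0 ≤ 1 - kap n g x := sub_nonneg.2 (kap_le_one n h0 x)
  have c1 := mul_le_mul_of_nonneg_left b3 k1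
  have c2 := mul_nonneg k1 b4
  rw [e, abs_sub_comm, abs_of_nonneg (by linarith)]
  linarith

private theorem dl_point {n : ℕ} (hn : 1 ≤ n) {g h : Om → ℝ} (hm : Measurable g)
    (hm' : Measurable h) (h0 : ∀ z, 0 ≤ g z) (h0' : ∀ z, 0 ≤ h z) (x : X)
    (hi : Integrable (fun w => (1 + ‖w‖) ^ 2 * g (x, w)))
    (hi' : Integrable (fun w => (1 + ‖w‖) * h (x, w)))
    {R δ : ℝ} {v v' : V} (hv : ‖v‖ ≤ R) (hδ : ‖v - v'‖ ≤ δ) :
    |ln n g (x, v) - lI h (x, v)| ≤
      |(∫ w, g (x, w) * dla kI v' w) - ∫ w, h (x, w) * dla kI v' w| +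
        (13 * δ * (rho1 g x + rho1 h x) + (13 * (1 + R) * ((1 - kap n g x) * rho1 g x) +
          13 * (1 + R) ^ 2 / n * ∫ w, (1 + ‖w‖) ^ 2 * g (x, w))) := by
  have hg : Measurable fun w : V => g (x, w) := hm.comp measurable_prodMk_left
  have hh : Measurable fun w : V => h (x, w) := hm'.comp measurable_prodMk_left
  have e : lI h (x, v) = ∫ w, h (x, w) * dla kI v w := dl_Lo isKer_kI hm' h0' x v
  have b1 := dl_trunc_int hn hm h0 x hi hv
  have b2 := dl_lip_int hg (fun w => h0 _) (dl_w1 hg (fun w => h0 _) hi) hδ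
  have b3 := dl_lip_int hh (fun w => h0' _) hi' hδ
  have b4 := le_abs_self ((∫ w, g (x, w) * dla kI v' w) - ∫ w, h (x, w) * dla kI v' w)
  have b5 := neg_abs_le ((∫ w, g (x, w) * dla kI v' w) - ∫ w, h (x, w) * dla kI v' w)
  rw [abs_le] at b1 b2 b3
  rw [e, abs_le]
  unfold rho1 at b1 ⊢
  constructor <;> linarith [b1.1, b1.2, b2.1, b2.2, b3.1, b3.2]

private theorem dl_cyl (T : ℝ) (R : ℕ) {F : ℝ × Om → ℝ} {G : ℝ × X → ℝ}
    (hG : Integrable G (mY T)) (hF : ∀ p, 0 ≤ F p)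
    (h : ∀ᵐ p ∂(mT T), p ∈ EBT R → F p ≤ G (p.1, p.2.1)) :
    ∫ p in EBT R, F p ∂(mT T) ≤
      (∫ y, G y ∂(mY T)) * volume.real (Metric.closedBall (0 : V) R) := by
  have hp : MeasurePreserving (MeasurableEquiv.prodAssoc : (ℝ × X) × V ≃ᵐ ℝ × X × V)
      ((mY T).prod volume) (mT T) := measurePreserving_assoc T
  obtain ⟨χ, hχ⟩ : ∃ χ : V → ℝ, χ = (Metric.closedBall (0 : V) R).indicator fun _ => 1 := ⟨_, rfl⟩
  have hχi : Integrable χ := by
    rw [hχ, integrable_indicator_iff Metric.isClosed_closedBall.measurableSet]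
    exact integrableOn_const measure_closedBall_lt_top.ne
  have e : (EBT R).indicator (fun p : ℝ × Om => G (p.1, p.2.1)) =
      fun p => G (p.1, p.2.1) * χ p.2.2 := by
    funext p
    by_cases hp : p ∈ EBT R
    · have : p.2.2 ∈ Metric.closedBall (0 : V) R := mem_closedBall_zero_iff.2 hp
      rw [indicator_of_mem hp, hχ, indicator_of_mem this, mul_one]
    · have : p.2.2 ∉ Metric.closedBall (0 : V) R := fun h => hp (mem_closedBall_zero_iff.1 h)
      rw [indicator_of_notMem hp, hχ, indicator_of_notMem this, mul_zero]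
  have hi : Integrable (fun p : ℝ × Om => G (p.1, p.2.1) * χ p.2.2) (mT T) :=
    (hp.integrable_comp_emb MeasurableEquiv.prodAssoc.measurableEmbedding).1 (hG.mul_prod hχi)
  have hi2 : IntegrableOn (fun p : ℝ × Om => G (p.1, p.2.1)) (EBT R) (mT T) := by
    rw [← integrable_indicator_iff (measurableSet_EBT R), e]
    exact hi
  calc ∫ p in EBT R, F p ∂(mT T) ≤ ∫ p in EBT R, G (p.1, p.2.1) ∂(mT T) :=
        integral_mono_of_nonneg (Eventually.of_forall hF) hi2
          ((ae_restrict_iff' (measurableSet_EBT R)).2 h)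
    _ = ∫ q, G q.1 * χ q.2 ∂((mY T).prod volume) := by
        rw [← integral_indicator (measurableSet_EBT R), e, ← hp.integral_comp']
        rfl
    _ = _ := by
        rw [integral_prod_mul, hχ, integral_indicator_const _ Metric.isClosed_closedBall.measurableSet,
          smul_eq_mul, mul_one]

private theorem dl_squeeze {U : Filter ℕ} {a : ℕ → ℝ} {C : ℝ} (h0 : ∀ i, 0 ≤ a i)
    (h : ∀ δ : ℝ, 0 < δ → ∃ b : ℕ → ℝ, Tendsto b U (𝓝 0) ∧ ∀ i, a i ≤ b i + δ * C) :
    Tendsto a U (𝓝 0) := by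
  refine tendsto_order.2 ⟨fun c hc => Eventually.of_forall fun i => hc.trans_le (h0 i),
    fun c hc => ?_⟩
  have hC : 0 < |C| + 1 := by positivity
  obtain ⟨b, hb, hab⟩ := h (c / 2 / (|C| + 1)) (by positivity)
  filter_upwards [(tendsto_order.1 hb).2 (c / 2) (by positivity)] with i hi
  have h1 : c / 2 / (|C| + 1) * C ≤ c / 2 := by
    rw [div_mul_eq_mul_div, div_le_iff₀ hC]
    exact mul_le_mul_of_nonneg_left (by linarith [le_abs_self C]) (by positivity)
  linarith [hab i]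

private theorem dl_int_Y (T : ℝ) {g : ℝ → Om → ℝ} (hm : Measurable (Function.uncurry g))
    (h0 : ∀ t z, 0 ≤ g t z)
    (hi : Integrable (fun p : ℝ × Om => (1 + ‖p.2.2‖) * g p.1 p.2) (mT T)) (v : V) :
    Integrable (fun y : ℝ × X => ∫ w, g y.1 (y.2, w) * dla kI v w) (mY T) := by
  have h : Integrable (fun p : ℝ × Om => g p.1 p.2 * dla kI v p.2.2) (mT T) := by
    refine (hi.const_mul (13 * (1 + ‖v‖))).mono'
      (Measurable.mul hm ((dla_meas isKer_kI v).comp measurable_snd.snd)).aestronglyMeasurable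
      (Eventually.of_forall fun p => ?_)
    rw [Real.norm_of_nonneg (mul_nonneg (h0 _ _) (dla_nonneg _ v _))]
    have := mul_le_mul_of_nonneg_left (dla_le' isKer_kI v p.2.2) (h0 p.1 p.2)
    linarith
  exact (integrable_mT_Y T h).1

private theorem dl_exp {a b : ℝ} (ha : 0 ≤ a) (hb : 0 ≤ b) :
    |Real.exp (-a) - Real.exp (-b)| ≤ |a - b| := by
  have key : ∀ c d : ℝ, 0 ≤ c → Real.exp (-c) - Real.exp (-d) ≤ |c - d| := by
    intro c d hc
    have h1 : Real.exp (-d) = Real.exp (-c) * Real.exp (c - d) := by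
      rw [← Real.exp_add]; congr 1; ring
    have h2 := Real.add_one_le_exp (c - d)
    have h3 := Real.exp_pos (-c)
    have h4 : Real.exp (-c) ≤ 1 := Real.exp_le_one_iff.2 (by linarith)
    have h5 := neg_abs_le (c - d)
    have h6 := abs_nonneg (c - d)
    have h7 := mul_le_mul_of_nonneg_left h2 h3.le
    have h8 := mul_le_mul_of_nonneg_left h5 h3.le
    have h9 := mul_le_mul_of_nonneg_right h4 h6
    linarith
  have h1 := key a b ha
  have h2 := key b a hb
  rw [abs_sub_comm b a] at h2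
  rw [abs_le]
  constructor <;> linarith

variable {F0 : Om → ℝ} {n : ℕ → ℕ} {f0 : ℕ → Om → ℝ} {f : ℕ → ℝ → Om → ℝ} (A : Appr F0 n f0 f)
  {U : Ultrafilter ℕ} {ft : ℝ → Om → ℝ} (L : IsLim U f ft)
include A L

private theorem dl_av (T : ℝ) (v : V) :
    Tendsto (fun i => ∫ y, |(∫ w, f i y.1 (y.2, w) * dla kI v w) -
      ∫ w, ft y.1 (y.2, w) * dla kI v w| ∂(mY T)) U (𝓝 0) := by
  have hc : 0 < 13 * (1 + ‖v‖) := by positivity
  have h := (A.av L T (ψ := fun w => dla kI v w / (13 * (1 + ‖v‖)))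
    ((dla_meas isKer_kI v).div_const _) (fun w => by
      rw [abs_of_nonneg (div_nonneg (dla_nonneg _ _ _) hc.le), div_le_iff₀ hc]
      linarith [dla_le' isKer_kI v w])).const_mul (13 * (1 + ‖v‖))
  rw [mul_zero] at h
  refine h.congr fun i => ?_
  rw [← integral_const_mul]
  refine integral_congr_ae (Eventually.of_forall fun y => ?_)
  simp only [← mul_div_assoc, integral_div, ← sub_div, abs_div, abs_of_pos hc]
  field_simp

omit L in
private theorem dl_m2 (T : ℝ) : ∃ C : ℝ, ∀ i,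
    ∫ y, (∫ w, (1 + ‖w‖) ^ 2 * f i y.1 (y.2, w)) ∂(mY T) ≤ C := by
  obtain ⟨C, hC0, hC⟩ := A.mom_bdd
  refine ⟨C * volume.real (Ioc 0 T), fun i => ?_⟩
  have h := A.integrable_mT 2 i T
  rw [← integral_mT_Y T h, integral_mT T h]
  refine (Real.le_norm_self _).trans
    (norm_setIntegral_le_of_norm_le_const measure_Ioc_lt_top fun t ht => ?_)
  rw [Real.norm_of_nonneg (integral_nonneg fun z =>
    mul_nonneg (by positivity) ((A.sol i).nonneg _ _))]
  exact hC i t ht.1.le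

/- PLAN. a(v,w) = (∫⁻ kI v w ω).toReal ≤ 13 |v-w|, Lipschitz in v (lintegral_kI_le).
lI g (x,v) = ∫ g(x,w) a(v,w) dw (Lo_eq). For fixed v0: av with ψ = a(v0,.)/(13(1+|v0|)); finite net of the ball
|v| ≤ R and |lI g (x,v) - lI g (x,v0)| ≤ 13 |v - v0| rho1. Truncation: 0 ≤ lI(f_i) - ln_i ≤ (1-kap) lI(f_i)
+ (13/n) rho1 + 13 (1+R) ∫_{|w|² > n² - R²} (1+|w|) f (kI_le_kN_add, mom_bdd); (1-kap) ≤ min(1, rho1/n), rho1_tail.
Exponentials: |e^{-a} - e^{-b}| ≤ |a - b| for a,b ≥ 0 and |LamN - LamI| ≤ ∫_0^t |ln♯ - lI♯|; unshear. -/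

theorem Appr.tendsto_ln (T : ℝ) (R : ℕ) :
    Tendsto (fun i => ∫ p in EBT R, |ln (n i) (f i p.1) p.2 - lI (ft p.1) p.2| ∂(mT T))
      U (𝓝 0) := by
  obtain ⟨C1, hC1⟩ := (A.fam_rho1 T).bdd
  obtain ⟨C2, hC2⟩ := dl_m2 A T
  obtain ⟨W, hW⟩ : ∃ W : ℝ, W = volume.real (Metric.closedBall (0 : V) R) := ⟨_, rfl⟩
  have hW0 : 0 ≤ W := hW ▸ measureReal_nonneg
  refine dl_squeeze (C := 13 * (C1 + ∫ y, rho1 (ft y.1) y.2 ∂(mY T)) * W)
    (fun i => integral_nonneg fun p => abs_nonneg _) fun δ hδ => ?_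
  obtain ⟨S, -, hSf, hS⟩ := finite_cover_balls_of_compact
    (isCompact_closedBall (0 : V) R) hδ
  lift S to Finset V using hSf
  refine ⟨fun i => ((∑ v ∈ S, ∫ y, |(∫ w, f i y.1 (y.2, w) * dla kI v w) -
      ∫ w, ft y.1 (y.2, w) * dla kI v w| ∂(mY T)) + (13 * (1 + R) *
      (∫ y, (1 - kap (n i) (f i y.1) y.2) * rho1 (f i y.1) y.2 ∂(mY T)) +
        13 * (1 + R) ^ 2 / n i * C2)) * W, ?_, fun i => ?_⟩
  · have h1 := tendsto_finsetSum S fun v _ => dl_av A L T v
    have h2 := (A.tendsto_kap L T).const_mul (13 * (1 + (R : ℝ)))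
    have h3 : Tendsto (fun i => 13 * (1 + (R : ℝ)) ^ 2 / n i * C2) U (𝓝 (0 * C2)) :=
      (((tendsto_natCast_atTop_atTop.comp A.ntop).mono_left L.le).const_div_atTop _).mul_const _
    simpa using (h1.add (h2.add h3)).mul_const W
  have hs := A.sol i
  have i1 := (A.fam_rho1 T).int i
  have i2 := L.integrable_rho1 T
  have i3 := integrable_mT_Y T (A.integrable_mT 2 i T)
  have i4 : Integrable (fun y : ℝ × X => (1 - kap (n i) (f i y.1) y.2) * rho1 (f i y.1) y.2)
      (mY T) := by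
    have hk : Measurable fun y : ℝ × X => kap (n i) (f i y.1) y.2 :=
      measurable_kap (n i) (g := fun y : ℝ × X => f i y.1)
        (hs.meas.comp (measurable_fst.fst.prodMk measurable_snd)) measurable_snd
    refine i1.bdd_mul (c := 1) (measurable_const.sub hk).aestronglyMeasurable
      (Eventually.of_forall fun y => ?_)
    have a1 := kap_pos (n i) (hs.nonneg y.1) y.2
    have a2 := kap_le_one (n i) (hs.nonneg y.1) y.2
    rw [Real.norm_of_nonneg (by linarith)]
    linarith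
  have i5 : ∀ v : V, Integrable (fun y : ℝ × X => |(∫ w, f i y.1 (y.2, w) * dla kI v w) -
      ∫ w, ft y.1 (y.2, w) * dla kI v w|) (mY T) := fun v =>
    ((dl_int_Y T hs.meas hs.nonneg (by simpa using A.integrable_mT 1 i T) v).sub
      (dl_int_Y T L.meas L.nonneg (L.int T) v)).abs
  have i6 := integrable_finsetSum S fun v _ => i5 v
  have i7 := (i1.add i2).const_mul (13 * δ)
  have i8 := i4.const_mul (13 * (1 + (R : ℝ)))
  have i9 := i3.1.const_mul (13 * (1 + (R : ℝ)) ^ 2 / n i)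
  refine (dl_cyl T R (i6.add (i7.add (i8.add i9))) (fun p => abs_nonneg _) ?_).trans ?_
  · filter_upwards [ae_mT_of_ae_mY T i3.2, ae_mT_of_ae_mY T (L.ae_slice T)] with p h1 h2 hp
    obtain ⟨v, hv, hpv⟩ := mem_iUnion₂.1 (hS (mem_closedBall_zero_iff.2 hp))
    have h3 := dl_point hs.npos (hs.meas_t p.1) (L.meas.comp measurable_prodMk_left)
      (hs.nonneg p.1) (L.nonneg p.1) p.2.1 h1 h2 hp
      (by simpa [dist_eq_norm] using (Metric.mem_ball.1 hpv).le : ‖p.2.2 - v‖ ≤ δ)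
    refine h3.trans (add_le_add_left ?_ _)
    exact Finset.single_le_sum (f := fun v : V => |(∫ w, f i p.1 (p.2.1, w) * dla kI v w) -
      ∫ w, ft p.1 (p.2.1, w) * dla kI v w|) (fun _ _ => abs_nonneg _) hv
  · rw [← hW, integral_add' i6 (i7.add (i8.add i9)), integral_add' i7 (i8.add i9),
      integral_add' i8 i9, integral_finsetSum S fun v _ => i5 v, integral_const_mul,
      integral_const_mul, integral_const_mul, integral_add' i1 i2]
    have a1 := mul_le_mul_of_nonneg_left (hC2 i)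
      (by positivity : 0 ≤ 13 * (1 + (R : ℝ)) ^ 2 / n i)
    have a2 := mul_le_mul_of_nonneg_left (hC1 i) (by positivity : 0 ≤ 13 * δ)
    have a3 := mul_le_mul_of_nonneg_right (add_le_add a1 a2) hW0
    simp only at a3 ⊢
    linarith

private theorem dl_W (t : ℝ) (R i : ℕ) :
    IntegrableOn (fun z => ∫ τ in Ioc 0 t, |ln (n i) (f i τ) (sh τ z) - lI (ft τ) (sh τ z)|) (EB R) ∧
    ∫ z in EB R, ∫ τ in Ioc 0 t, |ln (n i) (f i τ) (sh τ z) - lI (ft τ) (sh τ z)| =
      ∫ p in EBT R, |ln (n i) (f i p.1) p.2 - lI (ft p.1) p.2| ∂(mT t) := by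
  have hs := A.sol i
  obtain ⟨H, hH⟩ : ∃ H : ℝ × Om → ℝ,
    H = (EBT R).indicator fun p => |ln (n i) (f i p.1) p.2 - lI (ft p.1) p.2| := ⟨_, rfl⟩
  have i1 : IntegrableOn (fun p : ℝ × Om => ln (n i) (f i p.1) p.2) (EBT R) (mT t) := by
    have hm : Measurable fun p : ℝ × Om => ln (n i) (f i p.1) p.2 :=
      measurable_ln (n i) (g := fun p : ℝ × Om => f i p.1)
        (hs.meas.comp (measurable_fst.fst.prodMk measurable_snd)) measurable_snd
    refine Measure.integrableOn_of_bounded (M := 26 * (n i : ℝ) ^ 2) (mT_EBT_lt_top t R).ne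
      hm.aestronglyMeasurable (ae_restrict_of_ae ?_)
    filter_upwards [ae_mT_mem t] with p hp
    rw [Real.norm_of_nonneg (ln_nonneg _ (hs.nonneg _) _)]
    exact hs.ln_bdd hp.1.le _
  have i2 : Integrable H (mT t) := by
    rw [hH, integrable_indicator_iff (measurableSet_EBT R)]
    exact (i1.sub (L.integrableOn_lI t R)).abs
  have hp := measurePreserving_shT t
  have i3 : Integrable (fun p : ℝ × Om => H (p.1, sh p.1 p.2)) (mT t) :=
    hp.integrable_comp_of_integrable i2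
  have e1 : ∫ p, H (p.1, sh p.1 p.2) ∂(mT t) = ∫ p, H p ∂(mT t) := by
    have h := integral_map (μ := mT t) hp.measurable.aemeasurable
      (f := H) (by rw [hp.map_eq]; exact i2.aestronglyMeasurable)
    rw [hp.map_eq] at h
    exact h.symm
  have e2 : (fun z : Om => ∫ τ in Ioc 0 t, H (τ, sh τ z)) = (EB R).indicator
      fun z => ∫ τ in Ioc 0 t, |ln (n i) (f i τ) (sh τ z) - lI (ft τ) (sh τ z)| := by
    funext z
    by_cases hz : z ∈ EB R
    · rw [indicator_of_mem hz, hH]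
      exact integral_congr_ae (Eventually.of_forall fun τ =>
        indicator_of_mem (show (τ, sh τ z) ∈ EBT R from hz) _)
    · rw [indicator_of_notMem hz, hH]
      exact integral_eq_zero_of_ae (Eventually.of_forall fun τ =>
        indicator_of_notMem (show (τ, sh τ z) ∉ EBT R from hz) _)
  constructor
  · rw [← integrable_indicator_iff (measurableSet_EB R), ← e2]
    exact Integrable.integral_prod_right (f := fun p : ℝ × Om => H (p.1, sh p.1 p.2)) i3
  · rw [← integral_indicator (measurableSet_EB R), ← e2, ← integral_indicator (measurableSet_EBT R),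
      ← hH, ← e1, integral_mT_swap t i3]

private theorem dl_ae {t : ℝ} (ht : 0 ≤ t) (i : ℕ) : ∀ᵐ z : Om, ∀ s ∈ Icc 0 t,
    |Real.exp (-LamN (n i) (f i) s t z) - Real.exp (-LamI ft s t z)| ≤
      ∫ τ in Ioc 0 t, |ln (n i) (f i τ) (sh τ z) - lI (ft τ) (sh τ z)| := by
  have hs := A.sol i
  filter_upwards [L.ae_ii_lI] with z hz s hst
  have i1 := (hs.ii_ln le_rfl ht z).sub (hz t ht)
  have hsub : uIcc s t ⊆ uIcc 0 t := by
    rw [uIcc_of_le hst.2, uIcc_of_le ht]
    exact Icc_subset_Icc_left hst.1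
  refine (dl_exp (hs.LamN_nonneg hst.1 hst.2 z) (LamI_nonneg ft hst.2 z)).trans ?_
  rw [LamN, LamI, ← intervalIntegral.integral_sub (hs.ii_ln hst.1 ht z) ((hz t ht).mono_set hsub)]
  refine (intervalIntegral.abs_integral_le_integral_abs hst.2).trans ?_
  rw [intervalIntegral.integral_of_le hst.2]
  exact setIntegral_mono_set i1.abs.1 (Eventually.of_forall fun _ => abs_nonneg _)
    (Ioc_subset_Ioc_left hst.1).eventuallyLE

theorem Appr.tendsto_exp0 {t : ℝ} (ht : 0 ≤ t) (R : ℕ) :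
    Tendsto (fun i => ∫ z in EB R,
      |Real.exp (-LamN (n i) (f i) 0 t z) - Real.exp (-LamI ft 0 t z)|) U (𝓝 0) := by
  refine squeeze_zero (fun i => integral_nonneg fun _ => abs_nonneg _) (fun i => ?_)
    (A.tendsto_ln L t R)
  rw [← (dl_W A L t R i).2]
  refine integral_mono_of_nonneg (Eventually.of_forall fun _ => abs_nonneg _) (dl_W A L t R i).1
    (ae_restrict_of_ae ?_)
  filter_upwards [dl_ae A L ht i] with z hz
  exact hz 0 ⟨le_rfl, ht⟩

theorem Appr.tendsto_exp {t : ℝ} (ht : 0 ≤ t) (R : ℕ) :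
    Tendsto (fun i => ∫ p in EBT R,
      |Real.exp (-LamN (n i) (f i) p.1 t p.2) - Real.exp (-LamI ft p.1 t p.2)| ∂(mT t))
      U (𝓝 0) := by
  have h := (A.tendsto_ln L t R).const_mul (((volume : Measure ℝ).restrict (Ioc 0 t)).real univ)
  rw [mul_zero] at h
  refine squeeze_zero (fun i => integral_nonneg fun _ => abs_nonneg _) (fun i => ?_) h
  have e : (mT t).restrict (EBT R) =
      ((volume : Measure ℝ).restrict (Ioc 0 t)).prod (volume.restrict (EB R)) := by
    have e1 : EBT R = (univ : Set ℝ) ×ˢ EB R := by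
      ext p; simp [EBT, EB]
    rw [e1, mT, ← Measure.prod_restrict, Measure.restrict_univ]
  rw [← (dl_W A L t R i).2, ← smul_eq_mul, ← integral_fun_snd, ← e]
  refine integral_mono_of_nonneg (Eventually.of_forall fun _ => abs_nonneg _) ?_
    (ae_restrict_of_ae ?_)
  · rw [e]
    exact Integrable.comp_snd (dl_W A L t R i).1 _
  · have h2 : ∀ᵐ p ∂(mT t), ∀ s ∈ Icc 0 t,
        |Real.exp (-LamN (n i) (f i) s t p.2) - Real.exp (-LamI ft s t p.2)| ≤
          ∫ τ in Ioc 0 t, |ln (n i) (f i τ) (sh τ p.2) - lI (ft τ) (sh τ p.2)| :=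
      Measure.quasiMeasurePreserving_snd.ae (dl_ae A L ht i)
    filter_upwards [h2, ae_mT_mem t] with p hp hp1
    exact hp p.1 ⟨hp1.1.le, hp1.2⟩

end Vale.Agent.P140
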