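import Vale.Agent.P140.DLAv

/-! Strong convergence of the collision frequency. -/

namespace Vale.Agent.P140

open MeasureTheory Set Filter Topology
open scoped ENNReal

variable {F0 : Om → ℝ} {n : ℕ → ℕ} {f0 : ℕ → Om → ℝ} {f : ℕ → ℝ → Om → ℝ} (A : Appr F0 n f0 f)
  {U : Ultrafilter ℕ} {ft : ℝ → Om → ℝ} (L : IsLim U f ft)
include A L

/- PLAN: av with ψ = 1 + |v|; (1-kap) ≤ min(1, rho1/n) and rho1_tail; Lo_le_rho1; Fubini. -/

theorem Appr.tendsto_rho1 (T : ℝ) :
    Tendsto (fun i => ∫ y, |rho1 (f i y.1) y.2 - rho1 (ft y.1) y.2| ∂(mY T)) U (𝓝 0) := by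
  have h := A.av L T (ψ := fun v => 1 + ‖v‖) (by fun_prop)
    (fun v => (abs_of_nonneg (by positivity)).le)
  simpa only [rho1, mul_comm] using h

theorem Appr.tendsto_kap (T : ℝ) :
    Tendsto (fun i => ∫ y, (1 - kap (n i) (f i y.1) y.2) * rho1 (f i y.1) y.2 ∂(mY T))
      U (𝓝 0) := by
  rw [Metric.tendsto_nhds]
  intro ε hε
  obtain ⟨M, hM0, hM⟩ := A.rho1_tail T (half_pos hε)
  have hn : Tendsto (fun i => M ^ 2 * (mY T).real univ / (n i : ℝ)) U (𝓝 0) :=
    (tendsto_const_div_atTop_nhds_zero_nat _).comp (A.ntop.mono_left L.le)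
  filter_upwards [hn.eventually (gt_mem_nhds (half_pos hε))] with i hi
  have hS := A.sol i
  have hI := integrable_mT_Y T (A.integrable_mT 1 i T)
  simp only [pow_one] at hI
  have hr : Integrable (fun y : ℝ × X => rho1 (f i y.1) y.2) (mY T) := hI.1
  have hrm : Measurable (fun y : ℝ × X => rho1 (f i y.1) y.2) :=
    measurable_rho1 (g := fun y : ℝ × X => f i y.1) (hS.meas.comp (by fun_prop :
      Measurable fun p : (ℝ × X) × Om => (p.1.1, p.2))) measurable_snd
  have hsm : MeasurableSet {y : ℝ × X | M < rho1 (f i y.1) y.2} :=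
    measurableSet_lt measurable_const hrm
  have hn0 : (0 : ℝ) < n i := by exact_mod_cast hS.npos
  have h0 : ∀ y : ℝ × X, 0 ≤ (1 - kap (n i) (f i y.1) y.2) * rho1 (f i y.1) y.2 := fun y =>
    mul_nonneg (sub_nonneg.2 (kap_le_one _ (hS.nonneg _) _)) (rho1_nonneg (hS.nonneg _) _)
  rw [Real.dist_eq, sub_zero, abs_of_nonneg (integral_nonneg h0)]
  have hle : ∫ y, (1 - kap (n i) (f i y.1) y.2) * rho1 (f i y.1) y.2 ∂(mY T) ≤
      ∫ y, ({y : ℝ × X | M < rho1 (f i y.1) y.2}.indicator (fun y => rho1 (f i y.1) y.2) y +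
        M ^ 2 / n i) ∂(mY T) := by
    refine integral_mono_of_nonneg (Eventually.of_forall h0)
      ((hr.indicator hsm).add (integrable_const _)) ?_
    filter_upwards [hI.2] with y hy
    have hr0 := rho1_nonneg (hS.nonneg y.1) y.2
    have hk0 := kap_pos (n i) (hS.nonneg y.1) y.2
    have hq : 0 ≤ M ^ 2 / (n i : ℝ) := by positivity
    by_cases hc : M < rho1 (f i y.1) y.2
    · rw [indicator_of_mem (show y ∈ {y : ℝ × X | M < rho1 (f i y.1) y.2} from hc)]
      nlinarith
    · rw [indicator_of_notMem (show y ∉ {y : ℝ × X | M < rho1 (f i y.1) y.2} from hc), zero_add]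
      push Not at hc
      have hd0 : 0 ≤ den (f i y.1) y.2 := integral_nonneg fun v => hS.nonneg _ _
      have hd : den (f i y.1) y.2 ≤ rho1 (f i y.1) y.2 := by
        refine integral_mono_of_nonneg (Eventually.of_forall fun v => hS.nonneg _ _) hy
          (Eventually.of_forall fun v => ?_)
        have := hS.nonneg y.1 (y.2, v)
        nlinarith [norm_nonneg v]
      have hk : 1 - kap (n i) (f i y.1) y.2 ≤ M / n i := by
        have e : 0 ≤ den (f i y.1) y.2 / n i := by positivity
        have e2 : den (f i y.1) y.2 / n i ≤ M / n i := by gcongr; linarith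
        unfold kap
        rw [sub_le_iff_le_add, ← sub_le_iff_le_add', le_div_iff₀ (by linarith)]
        nlinarith
      calc _ ≤ M / n i * M := mul_le_mul hk hc hr0 (by positivity)
        _ = _ := by ring
  rw [integral_add (hr.indicator hsm) (integrable_const _), integral_indicator hsm,
    integral_const, smul_eq_mul] at hle
  have := hM i
  have e : (mY T).real univ * (M ^ 2 / n i) = M ^ 2 * (mY T).real univ / n i := by ring
  linarith

omit A in
theorem IsLim.integrable_rho1 (T : ℝ) : Integrable (fun y : ℝ × X => rho1 (ft y.1) y.2) (mY T) := by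
  exact (integrable_mT_Y T (L.int T)).1

omit A in
theorem IsLim.ae_slice (T : ℝ) :
    ∀ᵐ y ∂(mY T), Integrable (fun v => (1 + ‖v‖) * ft y.1 (y.2, v)) := by
  exact (integrable_mT_Y T (L.int T)).2

omit A in
theorem IsLim.integrableOn_lI (T : ℝ) (R : ℕ) :
    IntegrableOn (fun p : ℝ × Om => lI (ft p.1) p.2) (EBT R) (mT T) := by
  have hg : Measurable (Function.uncurry fun p : ℝ × Om => ft p.1) :=
    L.meas.comp (by fun_prop : Measurable fun p : (ℝ × Om) × Om => (p.1.1, p.2))
  have hrm : Measurable (fun p : ℝ × Om => rho1 (ft p.1) p.2.1) :=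
    measurable_rho1 hg (by fun_prop)
  have hlm : Measurable (fun p : ℝ × Om => lI (ft p.1) p.2) := measurable_lI hg measurable_snd
  have h1 : IntegrableOn (fun p : ℝ × Om => rho1 (ft p.1) p.2.1) (EBT R) (mT T) := by
    rw [← integrable_indicator_iff (measurableSet_EBT R),
      ← (measurePreserving_assoc T).integrable_comp
        (hrm.indicator (measurableSet_EBT R)).aestronglyMeasurable]
    have h2 : Integrable ((Metric.closedBall (0 : V) R).indicator fun _ => (1 : ℝ)) :=
      (integrable_indicator_iff measurableSet_closedBall).2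
        (integrableOn_const measure_closedBall_lt_top.ne)
    refine ((L.integrable_rho1 T).mul_prod h2).congr (Eventually.of_forall fun q => ?_)
    by_cases hq : ‖q.2‖ ≤ R
    · have e1 : q.2 ∈ Metric.closedBall (0 : V) R := mem_closedBall_zero_iff.2 hq
      have e2 : ((q.1.1, (q.1.2, q.2)) : ℝ × Om) ∈ EBT R := hq
      simp only [Function.comp, indicator_of_mem e1, indicator_of_mem e2, mul_one]
    · have e1 : q.2 ∉ Metric.closedBall (0 : V) R := fun h => hq (mem_closedBall_zero_iff.1 h)
      have e2 : ((q.1.1, (q.1.2, q.2)) : ℝ × Om) ∉ EBT R := hq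
      simp only [Function.comp, indicator_of_notMem e1, indicator_of_notMem e2, mul_zero]
  refine (h1.const_mul (13 * (1 + R))).mono' hlm.aestronglyMeasurable ?_
  rw [ae_restrict_iff' (measurableSet_EBT R)]
  filter_upwards [ae_mT_of_ae_mY T (L.ae_slice T)] with p hp hR
  have hm : Measurable (ft p.1) := L.meas.of_uncurry_left
  have h2 := Lo_le_rho1 isKer_kI hm (L.nonneg p.1) p.2.1 hp p.2.2
  have hr0 := rho1_nonneg (L.nonneg p.1) p.2.1
  unfold lI
  rw [Real.norm_of_nonneg ENNReal.toReal_nonneg]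
  refine (ENNReal.toReal_le_of_le_ofReal (by positivity) h2).trans ?_
  have hR' : ‖p.2.2‖ ≤ R := hR
  gcongr

omit A in
theorem IsLim.ae_ii_lI :
    ∀ᵐ z : Om, ∀ T : ℝ, 0 ≤ T → IntervalIntegrable (fun τ => lI (ft τ) (sh τ z)) volume 0 T := by
  have key : ∀ N : ℕ, ∀ᵐ z : Om, ‖z.2‖ ≤ N →
      IntegrableOn (fun τ => lI (ft τ) (sh τ z)) (Ioc 0 (N : ℝ)) := by
    intro N
    have h1 := (integrable_indicator_iff (measurableSet_EBT N)).2 (L.integrableOn_lI N N)
    have h2 := (measurePreserving_shT N).integrable_comp_of_integrable h1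
    have h3 := Integrable.prod_left_ae (μ := (volume : Measure ℝ).restrict (Ioc 0 (N : ℝ)))
      (ν := (volume : Measure Om)) h2
    filter_upwards [h3] with z hz hN
    refine hz.congr (Eventually.of_forall fun τ => ?_)
    have : ((τ, sh τ z) : ℝ × Om) ∈ EBT N := hN
    simp only [Function.comp, indicator_of_mem this]
  filter_upwards [ae_all_iff.2 key] with z hz T hT
  obtain ⟨N, hN⟩ := exists_nat_ge (max T ‖z.2‖)
  rw [intervalIntegrable_iff_integrableOn_Ioc_of_le hT]
  exact (hz N ((le_max_right _ _).trans hN)).mono_set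
    (Ioc_subset_Ioc_right ((le_max_left _ _).trans hN))

end Vale.Agent.P140
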