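import Vale.Agent.P140.DLDefs

/-! Measurability and Fubini lemmas for the stability argument. -/

namespace Vale.Agent.P140

open MeasureTheory Set Filter Topology
open scoped ENNReal

theorem measurableSet_EB (R : ℕ) : MeasurableSet (EB R) := by
  exact measurableSet_le (by fun_prop) measurable_const

theorem measurableSet_EBT (R : ℕ) : MeasurableSet (EBT R) := by
  exact measurableSet_le (by fun_prop) measurable_const

theorem measurableSet_E2 (R : ℕ) : MeasurableSet (E2 R) := by
  exact (measurableSet_le (f := fun p : (ℝ × X) × V × V => ‖p.2.1‖) (by fun_prop)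
    measurable_const).inter
    (measurableSet_le (f := fun p : (ℝ × X) × V × V => ‖p.2.2‖) (by fun_prop) measurable_const)

theorem measurableSet_E3 (R : ℕ) : MeasurableSet (E3 R) := by
  exact measurableSet_le (by fun_prop) measurable_const

theorem volume_EB_lt_top (R : ℕ) : volume (EB R) < ⊤ := by
  exact volume_velBall_lt_top R

theorem mT_EBT_lt_top (T : ℝ) (R : ℕ) : mT T (EBT R) < ⊤ := by
  exact mT_velBall_lt_top T R

theorem mV2_E2_lt_top (T : ℝ) (R : ℕ) : mV2 T (E2 R) < ⊤ := by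
  have h : E2 R ⊆ univ ×ˢ (Metric.closedBall (0 : V) R ×ˢ Metric.closedBall (0 : V) R) :=
    fun p hp => ⟨mem_univ _, mem_closedBall_zero_iff.2 hp.1, mem_closedBall_zero_iff.2 hp.2⟩
  refine (measure_mono h).trans_lt ?_
  rw [mV2, Measure.prod_prod, Measure.prod_prod]
  exact ENNReal.mul_lt_top (measure_lt_top _ _)
    (ENNReal.mul_lt_top measure_closedBall_lt_top measure_closedBall_lt_top)

theorem mC_E3_lt_top (T : ℝ) (R : ℕ) : mC T (E3 R) < ⊤ := by
  have h : E3 R ⊆ univ ×ˢ (Metric.closedBall (0 : V) R ×ˢ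
      (Metric.closedBall (0 : V) R ×ˢ univ)) := fun p hp => by
    have h1 : ‖p.2.1‖ ^ 2 + ‖p.2.2.1‖ ^ 2 ≤ (R : ℝ) ^ 2 := hp
    refine ⟨mem_univ _, mem_closedBall_zero_iff.2 ?_, mem_closedBall_zero_iff.2 ?_, mem_univ _⟩
    · exact (abs_le_of_sq_le_sq' (by linarith [sq_nonneg ‖p.2.2.1‖]) (Nat.cast_nonneg R)).2
    · exact (abs_le_of_sq_le_sq' (by linarith [sq_nonneg ‖p.2.1‖]) (Nat.cast_nonneg R)).2
  refine (measure_mono h).trans_lt ?_
  rw [mC, Measure.prod_prod, Measure.prod_prod, Measure.prod_prod]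
  exact ENNReal.mul_lt_top (measure_lt_top _ _) (ENNReal.mul_lt_top measure_closedBall_lt_top
    (ENNReal.mul_lt_top measure_closedBall_lt_top (measure_lt_top _ _)))

/-- reassociation `(ℝ × X) × V ≃ ℝ × (X × V)` -/
theorem measurePreserving_assoc (T : ℝ) :
    MeasurePreserving (fun q : (ℝ × X) × V => ((q.1.1, (q.1.2, q.2)) : ℝ × Om))
      ((mY T).prod volume) (mT T) := by
  exact measurePreserving_prodAssoc ((volume : Measure ℝ).restrict (Ioc 0 T))
    (volume : Measure X) (volume : Measure V)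

theorem lintegral_mT_Y (T : ℝ) {F : ℝ × Om → ℝ≥0∞} (hF : Measurable F) :
    ∫⁻ p, F p ∂(mT T) = ∫⁻ y, (∫⁻ v, F (y.1, (y.2, v))) ∂(mY T) := by
  rw [← (measurePreserving_assoc T).lintegral_comp hF]
  exact lintegral_prod _ (hF.comp (measurePreserving_assoc T).measurable).aemeasurable

theorem integral_mT_Y (T : ℝ) {F : ℝ × Om → ℝ} (hF : Integrable F (mT T)) :
    ∫ p, F p ∂(mT T) = ∫ y, (∫ v, F (y.1, (y.2, v))) ∂(mY T) := by
  have h := (measurePreserving_assoc T).integrable_comp_of_integrable hF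
  have e := (measurePreserving_assoc T).integral_comp
    (MeasurableEquiv.prodAssoc (α := ℝ) (β := X) (γ := V)).measurableEmbedding F
  rw [← e]
  exact integral_prod _ h

theorem integrable_mT_Y (T : ℝ) {F : ℝ × Om → ℝ} (hF : Integrable F (mT T)) :
    Integrable (fun y : ℝ × X => ∫ v, F (y.1, (y.2, v))) (mY T) ∧
      ∀ᵐ y ∂(mY T), Integrable (fun v => F (y.1, (y.2, v))) := by
  have h := (measurePreserving_assoc T).integrable_comp_of_integrable hF
  exact ⟨h.integral_prod_left, h.prod_right_ae⟩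

theorem ae_mT_of_ae_mY (T : ℝ) {P : ℝ × X → Prop} (h : ∀ᵐ y ∂(mY T), P y) :
    ∀ᵐ p ∂(mT T), P (p.1, p.2.1) := by
  have h1 : MeasurePreserving (MeasurableEquiv.prodAssoc (α := ℝ) (β := X) (γ := V))
      ((mY T).prod volume) (mT T) := measurePreserving_assoc T
  exact ((Measure.quasiMeasurePreserving_fst (μ := mY T) (ν := (volume : Measure V))).comp
    (h1.symm _).quasiMeasurePreserving).ae h

theorem ae_mY_of_ae_mT (T : ℝ) {P : ℝ × Om → Prop} (h : ∀ᵐ p ∂(mT T), P p) :
    ∀ᵐ y ∂(mY T), ∀ᵐ v, P (y.1, (y.2, v)) := by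
  exact Measure.ae_ae_of_ae_prod ((measurePreserving_assoc T).quasiMeasurePreserving.ae h)

theorem integral_mT (T : ℝ) {F : ℝ × Om → ℝ} (hF : Integrable F (mT T)) :
    ∫ p, F p ∂(mT T) = ∫ t in Ioc 0 T, ∫ z, F (t, z) := by
  exact integral_prod _ hF

theorem integral_mT_swap (T : ℝ) {F : ℝ × Om → ℝ} (hF : Integrable F (mT T)) :
    ∫ p, F p ∂(mT T) = ∫ z, ∫ t in Ioc 0 T, F (t, z) := by
  exact integral_prod_symm _ hF

theorem lintegral_mT_swap (T : ℝ) {F : ℝ × Om → ℝ≥0∞} (hF : Measurable F) :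
    ∫⁻ p, F p ∂(mT T) = ∫⁻ z, ∫⁻ t in Ioc 0 T, F (t, z) := by
  exact lintegral_prod_symm _ hF.aemeasurable

theorem ae_mT_mem (T : ℝ) : ∀ᵐ p ∂(mT T), p.1 ∈ Ioc 0 T := by
  exact (Measure.quasiMeasurePreserving_fst (μ := (volume : Measure ℝ).restrict (Ioc 0 T))
    (ν := (volume : Measure Om))).ae (ae_restrict_mem measurableSet_Ioc)

theorem measurePreserving_shT (T : ℝ) :
    MeasurePreserving (fun p : ℝ × Om => (p.1, sh p.1 p.2)) (mT T) (mT T) := by
  exact measurePreserving_shST _

theorem lintegral_mC (T : ℝ) {F : (ℝ × X) × V × V × S2 → ℝ≥0∞} (hF : Measurable F) :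
    ∫⁻ p, F p ∂(mC T) = ∫⁻ t in Ioc 0 T, ∫⁻ x, I3 (fun v w ω => F ((t, x), v, w, ω)) := by
  have h1 : Measurable fun y : ℝ × X => I3 (fun v w ω => F (y, v, w, ω)) :=
    measurable_I3 (Φ := fun y v w ω => F (y, v, w, ω)) hF
  rw [mC, lintegral_prod _ hF.aemeasurable]
  refine Eq.trans (lintegral_congr fun y => ?_) (lintegral_prod _ h1.aemeasurable)
  exact (I3_eq (Φ := fun v w ω => F (y, v, w, ω)) (hF.comp measurable_prodMk_left)).symm

theorem measurePreserving_collT (T : ℝ) :
    MeasurePreserving (fun p : (ℝ × X) × V × V × S2 => (p.1, coll p.2)) (mC T) (mC T) := by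
  exact (MeasurePreserving.id (mY T)).prod measurePreserving_coll

section
variable {α : Type*} [MeasurableSpace α] {g : α → Om → ℝ} (hg : Measurable (Function.uncurry g))
include hg

theorem measurable_rho1 {x : α → X} (hx : Measurable x) :
    Measurable (fun a => rho1 (g a) (x a)) := by
  have h : Measurable (fun p : α × V => Function.uncurry g (p.1, (x p.1, p.2))) :=
    hg.comp (measurable_fst.prodMk ((hx.comp measurable_fst).prodMk measurable_snd))
  have h2 : Measurable (fun p : α × V => (1 + ‖p.2‖) * g p.1 (x p.1, p.2)) :=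
    (measurable_const.add measurable_snd.norm).mul h
  exact (h2.stronglyMeasurable.integral_prod_right' (ν := (volume : Measure V))).measurable

theorem measurable_lI {z : α → Om} (hz : Measurable z) : Measurable (fun a => lI (g a) (z a)) := by
  exact (measurable_Lo isKer_kI (measurable_eo hg (measurable_fst.comp hz))
    (measurable_snd.comp hz)).ennreal_toReal

theorem measurable_qI {z : α → Om} (hz : Measurable z) : Measurable (fun a => qI (g a) (z a)) := by
  have h := measurable_eo hg (measurable_fst.comp hz)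
  exact measurable_Qp isKer_kI h h (measurable_snd.comp hz)

end

section
variable {g : ℝ → Om → ℝ} (hg : Measurable (Function.uncurry g))
include hg

theorem measurable_LamI : Measurable (fun p : ℝ × ℝ × Om => LamI g p.1 p.2.1 p.2.2) := by
  have hl : Measurable (fun q : (ℝ × ℝ × Om) × ℝ => lI (g q.2) (sh q.2 q.1.2.2)) := by
    refine measurable_lI (g := fun q : (ℝ × ℝ × Om) × ℝ => g q.2) ?_ ?_
    · exact hg.comp ((measurable_snd.comp measurable_fst).prodMk measurable_snd)
    · exact measurable_sh measurable_snd (by fun_prop)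
  have key : ∀ a b : ℝ × ℝ × Om → ℝ, Measurable a → Measurable b →
      Measurable (fun p : ℝ × ℝ × Om => ∫ τ in Ioc (a p) (b p), lI (g τ) (sh τ p.2.2)) := by
    intro a b ha hb
    have hs : MeasurableSet {q : (ℝ × ℝ × Om) × ℝ | a q.1 < q.2 ∧ q.2 ≤ b q.1} :=
      (measurableSet_lt (ha.comp measurable_fst) measurable_snd).inter
        (measurableSet_le measurable_snd (hb.comp measurable_fst))
    have h2 := ((hl.indicator hs).stronglyMeasurable.integral_prod_right'
      (ν := (volume : Measure ℝ))).measurable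
    have e : (fun p : ℝ × ℝ × Om => ∫ τ in Ioc (a p) (b p), lI (g τ) (sh τ p.2.2)) =
        fun p => ∫ τ, {q : (ℝ × ℝ × Om) × ℝ | a q.1 < q.2 ∧ q.2 ≤ b q.1}.indicator
          (fun q => lI (g q.2) (sh q.2 q.1.2.2)) (p, τ) := by
      funext p
      rw [← integral_indicator measurableSet_Ioc]
      rfl
    rw [e]
    exact h2
  unfold LamI intervalIntegral
  exact (key _ _ measurable_fst (by fun_prop)).sub (key _ _ (by fun_prop) measurable_fst)

theorem measurable_FF {F0 : Om → ℝ} (h0 : Measurable F0) :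
    Measurable (fun p : ℝ × Om => FF F0 g p.1 p.2) := by
  have hL := measurable_LamI hg
  have h1 : Measurable (fun p : ℝ × Om => LamI g 0 p.1 p.2) :=
    hL.comp (f := fun p : ℝ × Om => ((0 : ℝ), p)) measurable_prodMk_left
  have h2 : Measurable (fun q : (ℝ × Om) × ℝ => LamI g q.2 q.1.1 q.1.2) :=
    hL.comp (f := fun q : (ℝ × Om) × ℝ => (q.2, q.1)) measurable_swap
  have h3 : Measurable (fun q : (ℝ × Om) × ℝ => qI (g q.2) (sh q.2 q.1.2)) := by
    refine measurable_qI (g := fun q : (ℝ × Om) × ℝ => g q.2) ?_ ?_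
    · exact hg.comp ((measurable_snd.comp measurable_fst).prodMk measurable_snd)
    · exact measurable_sh measurable_snd (by fun_prop)
  have hs : MeasurableSet {q : (ℝ × Om) × ℝ | 0 < q.2 ∧ q.2 ≤ q.1.1} :=
    (measurableSet_lt measurable_const measurable_snd).inter
      (measurableSet_le measurable_snd (measurable_fst.comp measurable_fst))
  have h4 := ((h2.neg.exp.ennreal_ofReal.mul h3).indicator hs).lintegral_prod_right'
    (ν := (volume : Measure ℝ))
  have e : (fun p : ℝ × Om => ∫⁻ τ in Ioc 0 p.1,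
      ENNReal.ofReal (Real.exp (-LamI g τ p.1 p.2)) * qI (g τ) (sh τ p.2)) =
      fun p => ∫⁻ τ, {q : (ℝ × Om) × ℝ | 0 < q.2 ∧ q.2 ≤ q.1.1}.indicator
        (fun q => ENNReal.ofReal (Real.exp (-LamI g q.2 q.1.1 q.1.2)) *
          qI (g q.2) (sh q.2 q.1.2)) (p, τ) := by
    funext p
    rw [← lintegral_indicator measurableSet_Ioc]
    rfl
  refine ((h0.comp measurable_snd).mul h1.neg.exp).ennreal_ofReal.add ?_
  rw [e]
  exact h4

theorem measurable_FL {F0 : Om → ℝ} (h0 : Measurable F0) :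
    Measurable (Function.uncurry (FL F0 g)) := by
  exact ((measurable_FF hg h0).comp (f := fun p : ℝ × Om => (p.1, sh (-p.1) p.2))
    (measurable_fst.prodMk (measurable_sh measurable_fst.neg measurable_snd))).ennreal_toReal

theorem dlm_ev {β : Type} [MeasurableSpace β] {u : (ℝ × X) × β → V} (hu : Measurable u) :
    Measurable (fun p : (ℝ × X) × β => g p.1.1 (p.1.2, u p)) :=
  hg.comp ((measurable_fst.comp measurable_fst).prodMk
    ((measurable_snd.comp measurable_fst).prodMk hu))

theorem dlm_unc {β : Type} [MeasurableSpace β] :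
    Measurable (Function.uncurry fun p : (ℝ × X) × β => g p.1.1) :=
  hg.comp ((measurable_fst.comp (measurable_fst.comp measurable_fst)).prodMk measurable_snd)

theorem dlm_den {β : Type} [MeasurableSpace β] (ζ : ℝ) :
    Measurable (fun p : (ℝ × X) × β => 1 + ζ * rho1 (g p.1.1) p.1.2) :=
  measurable_const.add
    ((measurable_rho1 (dlm_unc hg) (measurable_snd.comp measurable_fst)).const_mul ζ)

theorem dlm_kap {β : Type} [MeasurableSpace β] (n : ℕ) :
    Measurable (fun p : (ℝ × X) × β => kap n (g p.1.1) p.1.2) :=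
  measurable_kap n (dlm_unc hg) (measurable_snd.comp measurable_fst)

theorem dlm_twI (ζ : ℝ) :
    Measurable (fun p : (ℝ × X) × V × V => twI ζ (g p.1.1) p.1.2 p.2.1 p.2.2) := by
  have a : Measurable (fun p : (ℝ × X) × V × V => p.2.1) := measurable_fst.comp measurable_snd
  have b : Measurable (fun p : (ℝ × X) × V × V => p.2.2) := measurable_snd.comp measurable_snd
  exact (((measurable_const.add a.norm).mul (dlm_ev hg a)).mul
    ((measurable_const.add b.norm).mul (dlm_ev hg b))).div (dlm_den hg ζ)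

theorem dlm_c (ζ : ℝ) : Measurable (fun p : (ℝ × X) × V × V × S2 =>
    g p.1.1 (p.1.2, p.2.1) * g p.1.1 (p.1.2, p.2.2.1) / (1 + ζ * rho1 (g p.1.1) p.1.2)) :=
  ((dlm_ev hg (measurable_fst.comp measurable_snd)).mul
    (dlm_ev hg (measurable_fst.comp (measurable_snd.comp measurable_snd)))).div (dlm_den hg ζ)

theorem measurable_tw (n : ℕ) (ζ : ℝ) :
    Measurable (fun p : (ℝ × X) × V × V => tw n ζ (g p.1.1) p.1.2 p.2.1 p.2.2) := by
  exact (dlm_kap hg n).mul (dlm_twI hg ζ)

theorem measurable_twI (ζ : ℝ) :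
    Measurable (fun p : (ℝ × X) × V × V => twI ζ (g p.1.1) p.1.2 p.2.1 p.2.2) := by
  exact dlm_twI hg ζ

theorem measurable_cw (n : ℕ) (ζ : ℝ) :
    Measurable (fun p : (ℝ × X) × V × V × S2 => cw n ζ (g p.1.1) p.1.2 p.2) := by
  exact ((isKer_kN n).meas.comp measurable_snd).ennreal_toReal.mul
    ((dlm_kap hg n).mul (dlm_c hg ζ))

theorem measurable_cwI (ζ : ℝ) :
    Measurable (fun p : (ℝ × X) × V × V × S2 => cwI ζ (g p.1.1) p.1.2 p.2) := by
  have h : Measurable (fun p : (ℝ × X) × V × V × S2 => aa p.2.1 p.2.2.1 p.2.2.2) :=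
    measurable_aa (by fun_prop) (by fun_prop) (by fun_prop)
  exact h.abs.mul (dlm_c hg ζ)

theorem measurable_dissip : Measurable (fun t => dissip (g t)) := by
  have hI : Measurable (fun q : ℝ × X => I3 (fun v w ω => kI v w ω *
      jE (g q.1 (q.2, vp v w ω) * g q.1 (q.2, vq v w ω)) (g q.1 (q.2, v) * g q.1 (q.2, w)))) := by
    refine measurable_I3 (Φ := fun (q : ℝ × X) v w ω => kI v w ω *
      jE (g q.1 (q.2, vp v w ω) * g q.1 (q.2, vq v w ω)) (g q.1 (q.2, v) * g q.1 (q.2, w))) ?_
    refine Measurable.mul (isKer_kI.meas.comp measurable_snd) ?_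
    exact measurable_jE.comp (((dlm_ev hg (mvp_QpB.comp measurable_snd)).mul
      (dlm_ev hg (mvq_QpB.comp measurable_snd))).prodMk
      ((dlm_ev hg (measurable_fst.comp measurable_snd)).mul
        (dlm_ev hg (measurable_fst.comp (measurable_snd.comp measurable_snd)))))
  exact (hI.lintegral_prod_right' (ν := (volume : Measure X))).const_mul _

end

theorem rho1_nonneg {g : Om → ℝ} (hg : ∀ z, 0 ≤ g z) (x : X) : 0 ≤ rho1 g x := by
  exact integral_nonneg fun v => mul_nonneg (by positivity) (hg _)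

theorem LamI_nonneg (ft : ℝ → Om → ℝ) {s t : ℝ} (hst : s ≤ t) (z : Om) : 0 ≤ LamI ft s t z := by
  exact intervalIntegral.integral_nonneg hst fun _ _ => ENNReal.toReal_nonneg

theorem FL_zero {F0 : Om → ℝ} (h0 : ∀ z, 0 ≤ F0 z) (ft : ℝ → Om → ℝ) (z : Om) :
    FL F0 ft 0 z = F0 z := by
  simp [FL, FF, LamI, sh_zero, h0 z]

/-- collision frequency bounded by the weighted density -/
theorem Lo_le_rho1 {b : V → V → S2 → ℝ≥0∞} (hb : IsKer b) {g : Om → ℝ} (hm : Measurable g)
    (h0 : ∀ z, 0 ≤ g z) (x : X) (hi : Integrable (fun v => (1 + ‖v‖) * g (x, v))) (v : V) :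
    Lo b (eo g x) v ≤ ENNReal.ofReal (13 * (1 + ‖v‖) * rho1 g x) := by
  refine (Lo_le hb (measurable_eo' hm x) v).trans ?_
  rw [rho1, ← integral_const_mul, ofReal_integral_eq_lintegral_ofReal (hi.const_mul _)
    (Eventually.of_forall fun w => mul_nonneg (by positivity)
      (mul_nonneg (by positivity) (h0 _)))]
  refine lintegral_mono fun w => ?_
  rw [eo, ← ENNReal.ofReal_mul (by positivity), ← mul_assoc]
  refine ENNReal.ofReal_le_ofReal (mul_le_mul_of_nonneg_right ?_ (h0 _))
  nlinarith [norm_sub_le v w, mul_nonneg (norm_nonneg v) (norm_nonneg w)]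

end Vale.Agent.P140
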