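import Vale.Agent.P140.DLSub1

/-! The limit is a subsolution. -/

namespace Vale.Agent.P140

open MeasureTheory Set Filter Topology
open scoped ENNReal

theorem dlsub_meas3 {F : ℝ → ℝ → Om → ℝ} (hF : Measurable fun p : ℝ × ℝ × Om => F p.1 p.2.1 p.2.2)
    {α : Type} [MeasurableSpace α] {s t : α → ℝ} {z : α → Om} (hs : Measurable s)
    (ht : Measurable t) (hz : Measurable z) : Measurable fun a => F (s a) (t a) (z a) :=
  hF.comp (hs.prodMk (ht.prodMk hz))

theorem dlsub_shT (T : ℝ) {G : ℝ × Om → ℝ} (hG : Measurable G) :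
    ∫ p, G (p.1, sh p.1 p.2) ∂(mT T) = ∫ p, G p ∂(mT T) := by
  have h := measurePreserving_shT T
  have h1 := integral_map (μ := mT T) h.measurable.aemeasurable (f := G) hG.aestronglyMeasurable
  rw [h.map_eq] at h1
  exact h1.symm

theorem dlsub_ofReal {α : Type} [MeasurableSpace α] {μ : Measure α} {g : α → ℝ}
    (h0 : ∀ a, 0 ≤ g a) : ENNReal.ofReal (∫ a, g a ∂μ) ≤ ∫⁻ a, ENNReal.ofReal (g a) ∂μ := by
  by_cases hi : Integrable g μ
  · exact (ofReal_integral_eq_lintegral_ofReal hi (Eventually.of_forall h0)).le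
  · rw [integral_undef hi, ENNReal.ofReal_zero]
    exact zero_le

theorem dlsub_abs {α : Type} [MeasurableSpace α] {μ : Measure α} {q y l r W χ : α → ℝ}
    {δ ζ c : ℝ} (hδ : 0 < δ) (hζ : 0 < ζ) (my : Measurable y) (ml : Measurable l)
    (mr : Measurable r) (mW : Measurable W) (mχ : Measurable χ) (hq : Integrable q μ)
    (hy : Integrable y μ) (q0 : ∀ a, 0 ≤ q a) (y0 : ∀ a, 0 ≤ y a) (l0 : ∀ a, 0 ≤ l a)
    (r0 : ∀ a, 0 ≤ r a) (hl : ∀ᵐ a ∂μ, l a ≤ c) (hW : ∀ᵐ a ∂μ, 0 ≤ W a ∧ W a ≤ χ a)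
    (hχ : ∀ a, 0 ≤ χ a ∧ χ a ≤ 1) :
    Integrable (fun a => (q a / (1 + δ * y a) ^ 2 + l a * (δ * y a ^ 2 / (1 + δ * y a) ^ 2)) * W a) μ ∧
    ∫ a, (q a / (1 + δ * y a) ^ 2 + l a * (δ * y a ^ 2 / (1 + δ * y a) ^ 2)) * W a ∂μ ≤
      ∫ a, q a / (1 + ζ * r a) * W a ∂μ +
      ∫ a, χ a * (q a / (1 + δ * y a) * (ζ * r a / (1 + ζ * r a))) ∂μ +
      ∫ a, l a * (δ * y a ^ 2 / (1 + δ * y a) ^ 2) * W a ∂μ := by
  have mq := hq.aestronglyMeasurable.aemeasurable
  have hy1 : ∀ a, 1 ≤ 1 + δ * y a := fun a => le_add_of_nonneg_right (mul_nonneg hδ.le (y0 a))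
  have hr1 : ∀ a, 1 ≤ 1 + ζ * r a := fun a => le_add_of_nonneg_right (mul_nonneg hζ.le (r0 a))
  have hψ : ∀ a, 0 ≤ ζ * r a / (1 + ζ * r a) ∧ ζ * r a / (1 + ζ * r a) ≤ 1 := fun a =>
    ⟨div_nonneg (mul_nonneg hζ.le (r0 a)) (by linarith [hr1 a]),
      div_le_one_of_le₀ (by linarith) (by linarith [hr1 a])⟩
  have i1 : Integrable (fun a => q a / (1 + δ * y a) ^ 2 * W a) μ := by
    refine hq.mono' (AEMeasurable.aestronglyMeasurable (by fun_prop)) ?_
    filter_upwards [hW] with a ha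
    have a1 : q a / (1 + δ * y a) ^ 2 ≤ q a := div_le_self (q0 a) (one_le_pow₀ (hy1 a))
    have a2 : 0 ≤ q a / (1 + δ * y a) ^ 2 := div_nonneg (q0 a) (sq_nonneg _)
    rw [Real.norm_eq_abs, abs_of_nonneg (mul_nonneg a2 ha.1)]
    exact (mul_le_of_le_one_right a2 (ha.2.trans (hχ a).2)).trans a1
  have i2 : Integrable (fun a => q a / (1 + ζ * r a) * W a) μ := by
    refine hq.mono' (AEMeasurable.aestronglyMeasurable (by fun_prop)) ?_
    filter_upwards [hW] with a ha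
    have a1 : q a / (1 + ζ * r a) ≤ q a := div_le_self (q0 a) (hr1 a)
    have a2 : 0 ≤ q a / (1 + ζ * r a) := div_nonneg (q0 a) (by linarith [hr1 a])
    rw [Real.norm_eq_abs, abs_of_nonneg (mul_nonneg a2 ha.1)]
    exact (mul_le_of_le_one_right a2 (ha.2.trans (hχ a).2)).trans a1
  have i3 : Integrable (fun a => χ a * (q a / (1 + δ * y a) * (ζ * r a / (1 + ζ * r a)))) μ := by
    refine hq.mono' (AEMeasurable.aestronglyMeasurable (by fun_prop))
      (Eventually.of_forall fun a => ?_)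
    have a1 : q a / (1 + δ * y a) ≤ q a := div_le_self (q0 a) (hy1 a)
    have a2 : 0 ≤ q a / (1 + δ * y a) := div_nonneg (q0 a) (by linarith [hy1 a])
    have a3 := mul_nonneg a2 (hψ a).1
    rw [Real.norm_eq_abs, abs_of_nonneg (mul_nonneg (hχ a).1 a3)]
    exact (mul_le_of_le_one_left a3 (hχ a).2).trans ((mul_le_of_le_one_right a2 (hψ a).2).trans a1)
  have i4 : Integrable (fun a => l a * (δ * y a ^ 2 / (1 + δ * y a) ^ 2) * W a) μ := by
    refine (hy.const_mul c).mono' (Measurable.aestronglyMeasurable (by fun_prop)) ?_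
    filter_upwards [hW, hl] with a ha hc
    have a0 := mul_nonneg hδ.le (y0 a)
    have a1 : δ * y a ^ 2 / (1 + δ * y a) ^ 2 ≤ y a := by
      rw [div_le_iff₀ (by positivity)]
      nlinarith [mul_nonneg (y0 a) a0, mul_nonneg (mul_nonneg (y0 a) a0) a0, y0 a]
    have a2 : 0 ≤ δ * y a ^ 2 / (1 + δ * y a) ^ 2 := by positivity
    have a3 := mul_nonneg (l0 a) a2
    rw [Real.norm_eq_abs, abs_of_nonneg (mul_nonneg a3 ha.1)]
    exact (mul_le_of_le_one_right a3 (ha.2.trans (hχ a).2)).trans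
      (mul_le_mul hc a1 a2 ((l0 a).trans hc))
  have e : (fun a => (q a / (1 + δ * y a) ^ 2 + l a * (δ * y a ^ 2 / (1 + δ * y a) ^ 2)) * W a) =
      fun a => q a / (1 + δ * y a) ^ 2 * W a + l a * (δ * y a ^ 2 / (1 + δ * y a) ^ 2) * W a := by
    funext a
    ring
  rw [e]
  refine ⟨i1.add i4, ?_⟩
  rw [integral_add i1 i4, ← integral_add i2 i3]
  refine add_le_add_left (integral_mono_ae i1 (i2.add i3) ?_) _
  filter_upwards [hW] with a ha
  have a1 : q a / (1 + δ * y a) ^ 2 ≤ q a / (1 + δ * y a) :=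
    div_le_div_of_nonneg_left (q0 a) (by linarith [hy1 a]) (le_self_pow₀ (hy1 a) two_ne_zero)
  have a2 : 0 ≤ q a / (1 + δ * y a) := div_nonneg (q0 a) (by linarith [hy1 a])
  have a3 : q a / (1 + δ * y a) = q a / (1 + δ * y a) / (1 + ζ * r a) +
      q a / (1 + δ * y a) * (ζ * r a / (1 + ζ * r a)) := by
    have := hr1 a
    generalize q a / (1 + δ * y a) = x
    field_simp
  have a4 : q a / (1 + δ * y a) / (1 + ζ * r a) ≤ q a / (1 + ζ * r a) :=
    div_le_div_of_nonneg_right (div_le_self (q0 a) (hy1 a)) (by linarith [hr1 a])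
  have a5 := mul_le_mul_of_nonneg_left ha.2 (mul_nonneg a2 (hψ a).1)
  have a6 := mul_le_mul_of_nonneg_right (a1.trans (a3.le.trans (add_le_add_left a4 _))) ha.1
  simp only [Pi.add_apply]
  linarith

theorem dlsub_FF {F0 : Om → ℝ} (m0 : Measurable F0) (h0 : ∀ z, 0 ≤ F0 z) {ft : ℝ → Om → ℝ}
    (hm : Measurable (Function.uncurry ft)) (hft : ∀ t z, 0 ≤ ft t z) (t : ℝ) {ζ : ℝ} (hζ : 0 < ζ)
    {φ : Om → ℝ} (hφ : Measurable φ) (h1 : ∀ z, 0 ≤ φ z) (hfin : ∀ᵐ z : Om, FF F0 ft t z ≠ ⊤)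
    (hi : Integrable fun z => (FF F0 ft t z).toReal * φ z) :
    (∫ z, F0 z * (Real.exp (-LamI ft 0 t z) * φ z)) +
      ∫ p, (qI (ft p.1) (sh p.1 p.2)).toReal / (1 + ζ * rho1 (ft p.1) (sh p.1 p.2).1) *
        (Real.exp (-LamI ft p.1 t p.2) * φ p.2) ∂(mT t) ≤ ∫ z, (FF F0 ft t z).toReal * φ z := by
  have mL := dlsub_meas3 (F := LamI ft) (measurable_LamI hm) measurable_fst
    (measurable_const (a := t)) measurable_snd
  have mL0 := dlsub_meas3 (F := LamI ft) (measurable_LamI hm) (measurable_const (a := (0 : ℝ)))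
    (measurable_const (a := t)) measurable_id'
  have mg : Measurable (Function.uncurry fun p : ℝ × Om => ft p.1) :=
    hm.comp (measurable_fst.fst.prodMk measurable_snd)
  have mq : Measurable fun p : ℝ × Om => qI (ft p.1) (sh p.1 p.2) :=
    measurable_qI mg (measurable_sh measurable_fst measurable_snd)
  have mφ : Measurable fun p : ℝ × Om => ENNReal.ofReal (φ p.2) :=
    (hφ.comp measurable_snd).ennreal_ofReal
  have mI : Measurable fun p : ℝ × Om => ENNReal.ofReal (Real.exp (-LamI ft p.1 t p.2)) *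
      qI (ft p.1) (sh p.1 p.2) * ENNReal.ofReal (φ p.2) :=
    (mL.neg.exp.ennreal_ofReal.mul mq).mul mφ
  have mJ : Measurable fun z => ENNReal.ofReal (F0 z * (Real.exp (-LamI ft 0 t z) * φ z)) :=
    (m0.mul (mL0.neg.exp.mul hφ)).ennreal_ofReal
  have a1 := dlsub_ofReal (μ := volume) (g := fun z => F0 z * (Real.exp (-LamI ft 0 t z) * φ z))
    fun z => mul_nonneg (h0 z) (mul_nonneg (Real.exp_pos _).le (h1 z))
  have hr : ∀ p : ℝ × Om, 1 ≤ 1 + ζ * rho1 (ft p.1) (sh p.1 p.2).1 := fun p =>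
    le_add_of_nonneg_right (mul_nonneg hζ.le (rho1_nonneg (hft _) _))
  have a2 := dlsub_ofReal (μ := mT t) (g := fun p => (qI (ft p.1) (sh p.1 p.2)).toReal /
      (1 + ζ * rho1 (ft p.1) (sh p.1 p.2).1) * (Real.exp (-LamI ft p.1 t p.2) * φ p.2))
    fun p => mul_nonneg (div_nonneg ENNReal.toReal_nonneg (zero_le_one.trans (hr p)))
      (mul_nonneg (Real.exp_pos _).le (h1 _))
  have a3 : ∫⁻ p, ENNReal.ofReal ((qI (ft p.1) (sh p.1 p.2)).toReal /
      (1 + ζ * rho1 (ft p.1) (sh p.1 p.2).1) * (Real.exp (-LamI ft p.1 t p.2) * φ p.2)) ∂(mT t) ≤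
      ∫⁻ p, ENNReal.ofReal (Real.exp (-LamI ft p.1 t p.2)) * qI (ft p.1) (sh p.1 p.2) *
        ENNReal.ofReal (φ p.2) ∂(mT t) := by
    refine lintegral_mono fun p => ?_
    rw [ENNReal.ofReal_mul' (mul_nonneg (Real.exp_pos _).le (h1 _)),
      ENNReal.ofReal_mul (Real.exp_pos _).le, ← mul_assoc, mul_comm (ENNReal.ofReal (_ / _))]
    gcongr
    exact (ENNReal.ofReal_le_ofReal (div_le_self ENNReal.toReal_nonneg (hr p))).trans
      ENNReal.ofReal_toReal_le
  rw [lintegral_mT_swap t mI] at a3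
  have a4 : (∫⁻ z, ENNReal.ofReal (F0 z * (Real.exp (-LamI ft 0 t z) * φ z))) +
      ∫⁻ z, ∫⁻ τ in Ioc 0 t, ENNReal.ofReal (Real.exp (-LamI ft τ t z)) * qI (ft τ) (sh τ z) *
        ENNReal.ofReal (φ z) = ∫⁻ z, ENNReal.ofReal ((FF F0 ft t z).toReal * φ z) := by
    rw [← lintegral_add_left mJ]
    refine lintegral_congr_ae ?_
    filter_upwards [hfin] with z hz
    rw [ENNReal.ofReal_mul ENNReal.toReal_nonneg, ENNReal.ofReal_toReal hz, FF, add_mul,
      lintegral_mul_const' _ _ ENNReal.ofReal_ne_top, ← mul_assoc, ENNReal.ofReal_mul' (h1 z)]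
  have hn : ∀ z, 0 ≤ (FF F0 ft t z).toReal * φ z := fun z =>
    mul_nonneg ENNReal.toReal_nonneg (h1 z)
  rw [← ofReal_integral_eq_lintegral_ofReal hi (Eventually.of_forall hn)] at a4
  exact (ENNReal.ofReal_le_ofReal_iff (integral_nonneg hn)).1
    (ENNReal.ofReal_add_le.trans ((add_le_add a1 (a2.trans a3)).trans a4.le))

theorem dlsub_rho {F0 : Om → ℝ} {n : ℕ → ℕ} {f0 : ℕ → Om → ℝ} {f : ℕ → ℝ → Om → ℝ}
    (A : Appr F0 n f0 f) (t : ℝ) (R : ℕ) {K ε : ℝ} (hK : 0 ≤ K) (hε : 0 < ε) :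
    ∃ ζ : ℝ, 0 < ζ ∧ ∀ i, K * ∫ p in EBT R, rho1 (f i p.1) p.2.1 *
      (ζ * rho1 (f i p.1) p.2.1 / (1 + ζ * rho1 (f i p.1) p.2.1)) ∂(mT t) ≤ 2 * ε := by
  set c : ℝ := ∫ v : V, ({v : V | ‖v‖ ≤ R}.indicator (fun _ => (1 : ℝ)) v) with hc
  have hc0 : 0 ≤ c := integral_nonneg fun v => indicator_nonneg (fun _ _ => zero_le_one) v
  obtain ⟨M, hM0, hM⟩ := A.rho1_tail t (ε := ε / (K * c + 1)) (by positivity)
  set m : ℝ := (mY t).real univ with hm
  have hm0 : 0 ≤ m := measureReal_nonneg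
  refine ⟨ε / (K * c + 1) / (M ^ 2 * m + 1), by positivity, fun i => ?_⟩
  set ζ : ℝ := ε / (K * c + 1) / (M ^ 2 * m + 1) with hζ
  have hζ0 : 0 < ζ := by positivity
  have hF := A.fam_rho1 t
  set r : ℝ × X → ℝ := fun y => rho1 (f i y.1) y.2 with hr
  have mr : Measurable r := hF.meas i
  have r0 : ∀ y, 0 ≤ r y := hF.nonneg i
  have ir : Integrable r (mY t) := hF.int i
  have hψ : ∀ y, 0 ≤ ζ * r y / (1 + ζ * r y) ∧ ζ * r y / (1 + ζ * r y) ≤ 1 := fun y =>
    ⟨div_nonneg (mul_nonneg hζ0.le (r0 y)) (by have := r0 y; positivity),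
      div_le_one_of_le₀ (by linarith) (by have := r0 y; positivity)⟩
  have mψ : Measurable fun y => ζ * r y / (1 + ζ * r y) := by fun_prop
  have mp : Measurable fun p : ℝ × Om => (p.1, p.2.1) := measurable_fst.prodMk measurable_snd.fst
  have i1 : IntegrableOn (fun p : ℝ × Om => r (p.1, p.2.1) *
      (ζ * r (p.1, p.2.1) / (1 + ζ * r (p.1, p.2.1)))) (EBT R) (mT t) :=
    WL_int_mul (A.integrableOn_rho1 i t R) (mψ.comp mp) fun p => WL_bd01 hψ _
  have a1 : ∫ p in EBT R, r (p.1, p.2.1) * (ζ * r (p.1, p.2.1) / (1 + ζ * r (p.1, p.2.1))) ∂(mT t) =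
      c * ∫ y, r y * (ζ * r y / (1 + ζ * r y)) ∂(mY t) := by
    rw [← integral_indicator (measurableSet_EBT R),
      integral_mT_Y t ((integrable_indicator_iff (measurableSet_EBT R)).2 i1), ← integral_const_mul]
    refine integral_congr_ae (Eventually.of_forall fun y => ?_)
    dsimp only
    rw [hc, ← integral_mul_const]
    refine integral_congr_ae (Eventually.of_forall fun v => ?_)
    by_cases hv : ‖v‖ ≤ R <;> simp [indicator, EBT, hv]
  have mS : MeasurableSet {y | M < r y} := measurableSet_lt measurable_const mr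
  have a2 : ∫ y, r y * (ζ * r y / (1 + ζ * r y)) ∂(mY t) ≤
      ∫ y, ({y | M < r y}.indicator r y + ζ * M ^ 2) ∂(mY t) := by
    refine integral_mono (WL_int_mul ir mψ (WL_bd01 hψ)) ((ir.indicator mS).add
      (integrable_const _)) fun y => ?_
    dsimp only
    have b0 := r0 y
    by_cases hy : M < r y
    · rw [indicator_of_mem (show y ∈ {y | M < r y} from hy)]
      exact (mul_le_of_le_one_right b0 (hψ y).2).trans (le_add_of_nonneg_right (by positivity))
    · rw [indicator_of_notMem (show y ∉ {y | M < r y} from hy), zero_add]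
      have b1 : ζ * r y / (1 + ζ * r y) ≤ ζ * r y :=
        div_le_self (by positivity) (le_add_of_nonneg_right (by positivity))
      have b2 := mul_le_mul_of_nonneg_left (pow_le_pow_left₀ b0 (not_lt.1 hy) 2) hζ0.le
      nlinarith [mul_le_mul_of_nonneg_left b1 b0]
  rw [integral_add (ir.indicator mS) (integrable_const _), integral_indicator mS, integral_const,
    smul_eq_mul, ← hm] at a2
  have a3 : m * (ζ * M ^ 2) ≤ ε / (K * c + 1) := by
    have : m * (ζ * M ^ 2) = ε / (K * c + 1) * (M ^ 2 * m / (M ^ 2 * m + 1)) := by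
      rw [hζ]
      ring
    rw [this]
    exact mul_le_of_le_one_right (by positivity)
      (div_le_one_of_le₀ (by linarith) (by positivity))
  have a4 : K * c * (ε / (K * c + 1)) ≤ ε := by
    rw [mul_div_assoc', div_le_iff₀ (by positivity)]
    linarith
  have a5 := mul_le_mul_of_nonneg_left (a2.trans (add_le_add (hM i) a3)) (mul_nonneg hK hc0)
  change K * ∫ p in EBT R, r (p.1, p.2.1) * (ζ * r (p.1, p.2.1) / (1 + ζ * r (p.1, p.2.1))) ∂(mT t) ≤ _
  rw [a1]
  linarith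

theorem dlsub_step {F0 : Om → ℝ} {n : ℕ → ℕ} {f0 : ℕ → Om → ℝ} {f : ℕ → ℝ → Om → ℝ}
    (A : Appr F0 n f0 f) (i : ℕ) {t δ ζ : ℝ} (ht : 0 ≤ t) (hδ : 0 < δ) (hζ : 0 < ζ) (R : ℕ)
    {φ : Om → ℝ} (hφ : Measurable φ) (h1 : ∀ z, 0 ≤ φ z ∧ φ z ≤ 1)
    (hsupp : ∀ z, φ z ≠ 0 → z ∈ EB R) :
    ∫ z, f i t (sh t z) * φ z ≤ (∫ z, f i t z * min 1 (δ * f i t z)) +
      ((∫ z, f0 i z * (Real.exp (-LamN (n i) (f i) 0 t z) * φ z)) +
      (∫ p, qn (n i) (f i p.1) (sh p.1 p.2) / (1 + ζ * rho1 (f i p.1) (sh p.1 p.2).1) *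
        (Real.exp (-LamN (n i) (f i) p.1 t p.2) * φ p.2) ∂(mT t) +
      ∫ p in EBT R, qn (n i) (f i p.1) p.2 / (1 + δ * f i p.1 p.2) *
        (ζ * rho1 (f i p.1) p.2.1 / (1 + ζ * rho1 (f i p.1) p.2.1)) ∂(mT t) +
      ∫ p, ln (n i) (f i p.1) (sh p.1 p.2) *
        (δ * f i p.1 (sh p.1 p.2) ^ 2 / (1 + δ * f i p.1 (sh p.1 p.2)) ^ 2) *
        (Real.exp (-LamN (n i) (f i) p.1 t p.2) * φ p.2) ∂(mT t))) := by
  have S := A.sol i
  have mg : Measurable (Function.uncurry fun p : ℝ × Om => f i p.1) :=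
    S.meas.comp (measurable_fst.fst.prodMk measurable_snd)
  have msh : Measurable fun p : ℝ × Om => sh p.1 p.2 := measurable_sh measurable_fst measurable_snd
  have mL := dlsub_meas3 (F := LamN (n i) (f i)) (measurable_LamN _ S.meas) measurable_fst
    (measurable_const (a := t)) measurable_snd
  have mL0 := dlsub_meas3 (F := LamN (n i) (f i)) (measurable_LamN _ S.meas)
    (measurable_const (a := (0 : ℝ))) (measurable_const (a := t)) measurable_id'
  have my : Measurable fun p : ℝ × Om => f i p.1 (sh p.1 p.2) :=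
    S.meas.comp (measurable_fst.prodMk msh)
  have mφ : Measurable fun p : ℝ × Om => φ p.2 := hφ.comp measurable_snd
  have mW : Measurable fun p : ℝ × Om => Real.exp (-LamN (n i) (f i) p.1 t p.2) * φ p.2 :=
    mL.neg.exp.mul mφ
  have mW0 : Measurable fun z => Real.exp (-LamN (n i) (f i) 0 t z) * φ z := mL0.neg.exp.mul hφ
  have mχ : Measurable ((EBT R).indicator fun _ => (1 : ℝ)) :=
    measurable_const.indicator (measurableSet_EBT R)
  have iq : Integrable (fun p : ℝ × Om => qn (n i) (f i p.1) (sh p.1 p.2)) (mT t) :=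
    (measurePreserving_shT t).integrable_comp_of_integrable (A.integrable_qn i t)
  have iy : Integrable (fun p : ℝ × Om => f i p.1 (sh p.1 p.2)) (mT t) := by
    have := (measurePreserving_shT t).integrable_comp_of_integrable (A.integrable_mT 0 i t)
    simpa only [pow_zero, one_mul, Function.comp_def] using this
  obtain ⟨iH, hH⟩ := dlsub_abs (μ := mT t) (c := 26 * (n i : ℝ) ^ 2) hδ hζ my
    (measurable_ln (n i) mg msh) (measurable_rho1 mg msh.fst) mW mχ iq iy
    (fun p => qn_nonneg _ (S.nonneg _) _) (fun p => S.nonneg _ _)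
    (fun p => ln_nonneg _ (S.nonneg _) _) (fun p => rho1_nonneg (S.nonneg _) _)
    ((ae_mT_mem t).mono fun p hp => S.ln_bdd hp.1.le _)
    ((ae_mT_mem t).mono fun p hp => by
      refine ⟨mul_nonneg (Real.exp_pos _).le (h1 _).1, ?_⟩
      by_cases h0 : φ p.2 = 0
      · rw [h0, mul_zero]
        exact indicator_nonneg (fun _ _ => zero_le_one) p
      · rw [indicator_of_mem (show p ∈ EBT R from hsupp _ h0)]
        exact mul_le_one₀ (Real.exp_le_one_iff.2 (neg_nonpos.2 (S.LamN_nonneg hp.1.le hp.2 _)))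
          (h1 _).1 (h1 _).2)
    (fun p => by by_cases hp : p ∈ EBT R <;> simp [hp])
  have a1 : ∫ p, (EBT R).indicator (fun _ => (1 : ℝ)) p * (qn (n i) (f i p.1) (sh p.1 p.2) /
      (1 + δ * f i p.1 (sh p.1 p.2)) * (ζ * rho1 (f i p.1) (sh p.1 p.2).1 /
        (1 + ζ * rho1 (f i p.1) (sh p.1 p.2).1))) ∂(mT t) =
      ∫ p in EBT R, qn (n i) (f i p.1) p.2 / (1 + δ * f i p.1 p.2) *
        (ζ * rho1 (f i p.1) p.2.1 / (1 + ζ * rho1 (f i p.1) p.2.1)) ∂(mT t) := by
    have b1 := measurable_qn (n i) mg measurable_snd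
    have b2 := measurable_rho1 mg measurable_snd.fst
    have b3 : Measurable fun p : ℝ × Om => f i p.1 p.2 := S.meas
    have b4 : Measurable fun p : ℝ × Om => qn (n i) (f i p.1) p.2 / (1 + δ * f i p.1 p.2) *
        (ζ * rho1 (f i p.1) p.2.1 / (1 + ζ * rho1 (f i p.1) p.2.1)) :=
      (b1.div ((b3.const_mul δ).const_add 1)).mul ((b2.const_mul ζ).div
        ((b2.const_mul ζ).const_add 1))
    rw [← integral_indicator (measurableSet_EBT R),
      ← dlsub_shT t (b4.indicator (measurableSet_EBT R))]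
    refine integral_congr_ae (Eventually.of_forall fun p => ?_)
    dsimp only
    by_cases hp : p ∈ EBT R
    · rw [indicator_of_mem hp, indicator_of_mem (show (p.1, sh p.1 p.2) ∈ EBT R from hp), one_mul]
    · rw [indicator_of_notMem hp, indicator_of_notMem (show (p.1, sh p.1 p.2) ∉ EBT R from hp),
        zero_mul]
  rw [a1, integral_mT_swap t iH] at hH
  have i0 : Integrable fun z => f0 i z * (Real.exp (-LamN (n i) (f i) 0 t z) * φ z) :=
    WL_int_mul (A.fam_0.int i) mW0 (WL_bd01 fun z =>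
      ⟨mul_nonneg (Real.exp_pos _).le (h1 z).1, mul_le_one₀ (Real.exp_le_one_iff.2
        (neg_nonpos.2 (S.LamN_nonneg le_rfl ht z))) (h1 z).1 (h1 z).2⟩)
  have it : Integrable fun z => f i t (sh t z) :=
    (measurePreserving_sh t).integrable_comp_of_integrable (S.integrable_t ht)
  have mt : Measurable fun z => f i t (sh t z) := (S.meas_t t).comp (measurePreserving_sh t).measurable
  have im : Integrable fun z => f i t (sh t z) * min 1 (δ * f i t (sh t z)) :=
    WL_int_mul it (measurable_const.min (mt.const_mul δ)) (WL_bd01 fun z =>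
      ⟨le_min zero_le_one (mul_nonneg hδ.le (S.nonneg _ _)), min_le_left _ _⟩)
  have iI := Integrable.integral_prod_right iH
  rw [← integral_sh t fun z => f i t z * min 1 (δ * f i t z)]
  refine le_trans ?_ (add_le_add_right (add_le_add_right hH _) _)
  rw [← integral_add i0 iI]
  refine le_trans (integral_mono (WL_int_mul it hφ (WL_bd01 h1)) (im.add (i0.add iI)) fun z => ?_)
    (integral_add im (i0.add iI)).le
  have c1 := S.mild_beta hδ ht z
  rw [intervalIntegral.integral_of_le ht] at c1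
  have c2 : ∫ τ in Ioc 0 t, (qn (n i) (f i τ) (sh τ z) / (1 + δ * f i τ (sh τ z)) ^ 2 +
      ln (n i) (f i τ) (sh τ z) * (δ * f i τ (sh τ z) ^ 2 / (1 + δ * f i τ (sh τ z)) ^ 2)) *
      (Real.exp (-LamN (n i) (f i) τ t z) * φ z) =
      (∫ τ in Ioc 0 t, Real.exp (-LamN (n i) (f i) τ t z) *
        (qn (n i) (f i τ) (sh τ z) / (1 + δ * f i τ (sh τ z)) ^ 2 + ln (n i) (f i τ) (sh τ z) *
          (δ * f i τ (sh τ z) ^ 2 / (1 + δ * f i τ (sh τ z)) ^ 2))) * φ z := by
    rw [← integral_mul_const]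
    refine integral_congr_ae (Eventually.of_forall fun τ => ?_)
    ring
  have c3 : ∀ s : ℝ, 0 ≤ s → s - s / (1 + δ * s) ≤ s * min 1 (δ * s) := by
    intro s hs
    have d0 := mul_nonneg hδ.le hs
    have d1 : s - s / (1 + δ * s) = s * (δ * s / (1 + δ * s)) := by
      field_simp
      ring
    rw [d1]
    exact mul_le_mul_of_nonneg_left (le_min (div_le_one_of_le₀ (by linarith) (by linarith))
      (div_le_self d0 (by linarith))) hs
  have c4 := c3 _ (S.nonneg t (sh t z))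
  have c5 : f0 i z / (1 + δ * f0 i z) ≤ f0 i z := div_le_self (A.f0_nonneg i z)
    (le_add_of_nonneg_right (mul_nonneg hδ.le (A.f0_nonneg i z)))
  have c6 := mul_le_mul_of_nonneg_right c5
    (mul_nonneg (Real.exp_pos (-LamN (n i) (f i) 0 t z)).le (h1 z).1)
  have c7 := mul_le_mul_of_nonneg_right c4 (h1 z).1
  have c8 := mul_le_of_le_one_right (mul_nonneg (S.nonneg t (sh t z))
    (le_min zero_le_one (mul_nonneg hδ.le (S.nonneg t (sh t z))))) (h1 z).2
  have c9 := congrArg (· * φ z) c1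
  simp only [Pi.add_apply] at c9 ⊢
  rw [c2]
  linarith

variable {F0 : Om → ℝ} {n : ℕ → ℕ} {f0 : ℕ → Om → ℝ} {f : ℕ → ℝ → Om → ℝ} (A : Appr F0 n f0 f)
  {U : Ultrafilter ℕ} {ft : ℝ → Om → ℝ} (L : IsLim U f ft)
include A L

/- PLAN: see DLSub1. -/

theorem dlsub_test {t : ℝ} (ht : 0 ≤ t) {h : Om → ℝ} (H : IsLimT U f t h) (R : ℕ)
    {φ : Om → ℝ} (hφ : Measurable φ) (h1 : ∀ z, 0 ≤ φ z ∧ φ z ≤ 1)
    (hsupp : ∀ z, φ z ≠ 0 → z ∈ EB R ∧ LamI ft 0 t z ≤ R) (hfin : ∀ᵐ z : Om, FF F0 ft t z ≠ ⊤)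
    (hi : Integrable fun z => (FF F0 ft t z).toReal) :
    ∫ z, h z * φ z ≤ ∫ z, (FF F0 ft t z).toReal * φ z := by
  refine le_of_forall_pos_le_add fun ε hε => ?_
  have hε' : 0 < ε / 5 := by positivity
  obtain ⟨δ1, hδ1, hb⟩ := A.small_beta hε'
  obtain ⟨δ2, hδ2, hT⟩ := A.T3_le L ht H R R hφ h1 hsupp hε'
  have hδ : 0 < min δ1 δ2 := lt_min hδ1 hδ2
  obtain ⟨K, hK, hG⟩ := A.gain_ui t R hδ hε'
  obtain ⟨ζ, hζ, hr⟩ := dlsub_rho A t R hK hε'
  have l1 := H.conv0 φ hφ ⟨1, WL_bd01 h1⟩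
  have l2 := ((A.tendsto_data_exp L ht hφ h1).add (A.tendsto_gain_exp L ht hζ hφ h1)).add_const ε
  refine (le_of_tendsto_of_tendsto l1 l2 ?_).trans (add_le_add_left (dlsub_FF A.dat.meas
    A.dat.nonneg L.meas L.nonneg t hζ hφ (fun z => (h1 z).1) hfin
      (WL_int_mul hi hφ (WL_bd01 h1))) ε)
  filter_upwards [hT _ hδ (min_le_right _ _)] with i hi3
  have mr : Measurable fun p : ℝ × Om => rho1 (f i p.1) p.2.1 :=
    ((A.fam_rho1 t).meas i).comp (measurable_fst.prodMk measurable_snd.fst)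
  have a1 := dlsub_step A i ht hδ hζ R hφ h1 fun z hz => (hsupp z hz).1
  have a2 := hb _ hδ (min_le_left _ _) i t ht
  have a3 := hG i (fun p => ζ * rho1 (f i p.1) p.2.1 / (1 + ζ * rho1 (f i p.1) p.2.1))
    ((mr.const_mul ζ).div ((mr.const_mul ζ).const_add 1)) (fun p => by
      have := mul_nonneg hζ.le (rho1_nonneg ((A.sol i).nonneg p.1) p.2.1)
      exact ⟨div_nonneg this (by linarith), div_le_one_of_le₀ (by linarith) (by linarith)⟩)
  have a4 := hr i
  linarith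

theorem Appr.sub {t : ℝ} (ht : 0 ≤ t) {h : Om → ℝ} (H : IsLimT U f t h) :
    ∀ᵐ z : Om, ENNReal.ofReal (h z) ≤ FF F0 ft t z := by
  have hsup := A.super L ht H
  have hfin : ∀ᵐ z : Om, FF F0 ft t z ≠ ⊤ :=
    hsup.mono fun z hz => ne_top_of_le_ne_top ENNReal.ofReal_ne_top hz
  have mF : Measurable fun z => (FF F0 ft t z).toReal :=
    ((measurable_FF L.meas A.dat.meas).comp (measurable_const.prodMk measurable_id)).ennreal_toReal
  have hi : Integrable fun z => (FF F0 ft t z).toReal := by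
    refine H.int0.mono' mF.aestronglyMeasurable (hsup.mono fun z hz => ?_)
    rw [Real.norm_eq_abs, abs_of_nonneg ENNReal.toReal_nonneg]
    exact ENNReal.toReal_le_of_le_ofReal (H.nonneg z) hz
  have mL0 := dlsub_meas3 (F := LamI ft) (measurable_LamI L.meas) (measurable_const (a := (0 : ℝ)))
    (measurable_const (a := t)) measurable_id'
  have key : ∀ R : ℕ, ∀ᵐ z : Om, z ∈ EB R ∧ LamI ft 0 t z ≤ R → h z ≤ (FF F0 ft t z).toReal := by
    intro R
    obtain ⟨S, hS, mS⟩ : ∃ S : Set Om, (∀ z, z ∈ S ↔ z ∈ EB R ∧ LamI ft 0 t z ≤ R) ∧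
        MeasurableSet S := ⟨EB R ∩ {z | LamI ft 0 t z ≤ R}, fun z => Iff.rfl,
      (measurableSet_EB R).inter (measurableSet_le mL0 measurable_const)⟩
    have := ae_le_of_tests (H.meas.indicator mS) (mF.indicator mS) (H.int0.indicator mS)
      (hi.indicator mS) fun ψ hψ h1 => by
        have b1 := dlsub_test A L ht H R (hψ.indicator mS) (fun z => by
          by_cases hz : z ∈ S
          · rw [indicator_of_mem hz]
            exact h1 z
          · rw [indicator_of_notMem hz]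
            exact ⟨le_rfl, zero_le_one⟩) (fun z hz => (hS z).1 (mem_of_indicator_ne_zero hz)) hfin hi
        have b2 : ∀ g : Om → ℝ, (fun z => S.indicator g z * ψ z) =
            fun z => g z * S.indicator ψ z := fun g => by
          funext z
          by_cases hz : z ∈ S <;> simp [hz]
        rw [b2, b2]
        exact b1
    filter_upwards [this] with z hz hm
    rwa [indicator_of_mem ((hS z).2 hm), indicator_of_mem ((hS z).2 hm)] at hz
  filter_upwards [ae_all_iff.2 key] with z hz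
  obtain ⟨R, hR⟩ := exists_nat_ge (max ‖z.2‖ (LamI ft 0 t z))
  exact (ENNReal.ofReal_le_ofReal (hz R ⟨(le_max_left _ _).trans hR,
    (le_max_right _ _).trans hR⟩)).trans ENNReal.ofReal_toReal_le

end Vale.Agent.P140
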