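import Vale.Agent.P140.DLSup

/-! The remainder term in the subsolution argument. -/

namespace Vale.Agent.P140

open MeasureTheory Set Filter Topology
open scoped ENNReal

variable {F0 : Om → ℝ} {n : ℕ → ℕ} {f0 : ℕ → Om → ℝ} {f : ℕ → ℝ → Om → ℝ} (A : Appr F0 n f0 f)
  {U : Ultrafilter ℕ} {ft : ℝ → Om → ℝ} (L : IsLim U f ft)
include A L

/- PLAN. Fix φ ∈ [0,1] supported in EB R ∩ {LamI 0 t ≤ M', τ ↦ lI♯ integrable}; such sets exhaust a.e.
It suffices to show ∫ h φ ≤ ∫ (FF).toReal φ (FF ≤ ofReal h a.e. by super, so it is integrable).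
mild_beta: ∫ β(f_i♯(t)) φ = T1 + T2 + T3, ∫ f_i♯(t) φ ≤ ∫ β φ + ε (small_beta).
T1 ≤ ∫ f0 e^{-Λ} φ → (tendsto_data_exp). T2 ≤ ∫ qn♯/(1+ζ rho1♯) e^{-Λ} φ + ∫ qn/(1+δ f) min(1, ζ rho1) (gain_ui with
ψ = ζ rho1/(1+ζ rho1), rho1_tail ⇒ ≤ ε for small ζ), and the limit is ≤ ∫∫ e^{-Λ} qI♯ φ.
T3 (lemma T3_le): r_δ(s) = δ s²/(1+δ s)² ≤ min(1/δ, s min(1,δ s)); weak limit r̃ of r_δ(f_i♯) on mT t (Fam.of_le),
r̃ ≤ ft♯ a.e., ∫ r̃ ≤ ε t; T3 ≤ ‖ln - lI‖/δ + (1/δ) ∫ lI 1_{lI > M} + ∫ r_δ(f_i♯) min(lI♯,M) e^{-Λ_i} φ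
→ (M → ∞) ∫ r̃ lI♯ e^{-Λ} φ ≤ M1 ∫ r̃ + ∫ 1_{lI♯ > M1} lI♯ h φ (two_time), small since ∫ lI♯ dτ h φ ≤ M' ∫ h. -/

omit A L in
theorem DLSub1_pt {δ M l l' s E φ F : ℝ} (hδ : 0 < δ) (hM : 0 ≤ M) (hs : 0 ≤ s) (hE : 0 ≤ E)
    (hE1 : E ≤ 1) (hφ : 0 ≤ φ) (hφ1 : φ ≤ 1) (hF : s * E ≤ F) :
    l * (δ * s ^ 2 / (1 + δ * s) ^ 2) * (E * φ) ≤
      |l - l'| / δ + M * (s * min 1 (δ * s)) + max (l' - M) 0 * φ * F := by
  have h0 : 0 ≤ δ * s := mul_nonneg hδ.le hs
  have h1 : δ * s ^ 2 / (1 + δ * s) ^ 2 ≤ 1 / δ := by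
    rw [div_le_div_iff₀ (by positivity) hδ]
    nlinarith
  have h2 : δ * s ^ 2 / (1 + δ * s) ^ 2 ≤ s * min 1 (δ * s) := by
    rw [mul_min_of_nonneg _ _ hs, le_min_iff, div_le_iff₀ (by positivity),
      div_le_iff₀ (by positivity)]
    constructor
    · nlinarith [mul_nonneg hs h0, mul_nonneg hs (sq_nonneg (δ * s))]
    · nlinarith [mul_nonneg (mul_nonneg hs h0) h0, mul_nonneg (mul_nonneg hs h0) (sq_nonneg (δ * s))]
  have h3 : 0 ≤ δ * s ^ 2 / (1 + δ * s) ^ 2 := by positivity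
  generalize δ * s ^ 2 / (1 + δ * s) ^ 2 = r at h1 h2 h3
  have h4 : r * (E * φ) ≤ r := mul_le_of_le_one_right h3 (mul_le_one₀ hE1 hφ hφ1)
  have h5 : r * (E * φ) ≤ φ * F := by
    have := mul_le_mul_of_nonneg_right (h2.trans (mul_le_of_le_one_right hs (min_le_left _ _))) hE
    nlinarith
  have h6 : l ≤ |l - l'| + M + max (l' - M) 0 := by
    linarith [le_abs_self (l - l'), le_max_left (l' - M) 0]
  have h7 := mul_le_mul_of_nonneg_right h6 (show 0 ≤ r * (E * φ) by positivity)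
  have h8 := mul_le_mul_of_nonneg_left (h4.trans h1) (abs_nonneg (l - l'))
  have h9 := mul_le_mul_of_nonneg_left (h4.trans h2) hM
  have h10 := mul_le_mul_of_nonneg_left h5 (le_max_right (l' - M) 0)
  rw [mul_one_div] at h8
  linarith

omit A L in
theorem DLSub1_sh {T : ℝ} {R : ℕ} {G : ℝ × Om → ℝ} (h : IntegrableOn G (EBT R) (mT T)) :
    IntegrableOn (fun p : ℝ × Om => G (p.1, sh p.1 p.2)) (EBT R) (mT T) ∧
      ∫ p in EBT R, G (p.1, sh p.1 p.2) ∂(mT T) = ∫ p in EBT R, G p ∂(mT T) := by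
  have e : MeasurePreserving (fun p : ℝ × Om => (p.1, sh p.1 p.2)) ((mT T).restrict (EBT R))
      ((mT T).restrict (EBT R)) :=
    (measurePreserving_shT T).restrict_preimage (measurableSet_EBT R)
  refine ⟨e.integrable_comp_of_integrable h, ?_⟩
  rw [← integral_map e.measurable.aemeasurable (e.map_eq.symm ▸ h.aestronglyMeasurable), e.map_eq]

theorem DLSub1_tail {t : ℝ} (ht : 0 ≤ t) (R : ℕ) (M' : ℝ)
    {φ : Om → ℝ} (hφ : Measurable φ) (h1 : ∀ z, 0 ≤ φ z ∧ φ z ≤ 1)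
    (hsupp : ∀ z, φ z ≠ 0 → z ∈ EB R ∧ LamI ft 0 t z ≤ M') {ε : ℝ} (hε : 0 < ε) :
    ∃ M : ℕ, ∀ i, Integrable (fun p : ℝ × Om =>
      max (lI (ft p.1) (sh p.1 p.2) - M) 0 * φ p.2 * f i t (sh t p.2)) (mT t) ∧
      ∫ p, max (lI (ft p.1) (sh p.1 p.2) - M) 0 * φ p.2 * f i t (sh t p.2) ∂(mT t) ≤ ε := by
  have hl : Measurable fun p : ℝ × Om => lI (ft p.1) (sh p.1 p.2) :=
    measurable_lI (g := fun p : ℝ × Om => ft p.1)
      (L.meas.comp (measurable_fst.fst.prodMk measurable_snd))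
      (measurable_sh measurable_fst measurable_snd)
  have l0 : ∀ g z, 0 ≤ lI g z := fun _ _ => ENNReal.toReal_nonneg
  have hF : ∀ i, Measurable fun z => f i t (sh t z) := fun i =>
    ((A.sol i).meas_t t).comp (measurable_sh measurable_const measurable_id)
  have hc : 0 < max M' 1 := lt_max_of_lt_right one_pos
  obtain ⟨K, R', hK, hu⟩ := ((A.fam_t ht).of_le (C := 1) hF (fun i z => (A.sol i).nonneg _ _)
    fun i z => by nlinarith [(A.sol i).nonneg t (sh t z), norm_nonneg z.2]).uit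
    (ε / 2 / max M' 1) (by positivity)
  obtain ⟨G, hG⟩ : ∃ G : ℕ → ℝ × Om → ℝ,
      ∀ M p, G M p = max (lI (ft p.1) (sh p.1 p.2) - M) 0 * φ p.2 := ⟨_, fun _ _ => rfl⟩
  simp only [← hG]
  have Gm : ∀ M, Measurable (G M) := fun M => funext (hG M) ▸
    ((hl.sub_const _).max measurable_const).mul (hφ.comp measurable_snd)
  have G0' : ∀ M p, 0 ≤ G M p := fun M p => hG M p ▸ mul_nonneg (le_max_right _ _) (h1 _).1
  have G1 : ∀ M p, G M p ≤ lI (ft p.1) (sh p.1 p.2) := fun M p => hG M p ▸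
    (mul_le_of_le_one_right (le_max_right _ _) (h1 _).2).trans
      (max_le (sub_le_self _ M.cast_nonneg) (l0 _ _))
  have i1 := (integrable_indicator_iff (measurableSet_EBT R)).2
    (DLSub1_sh (L.integrableOn_lI t R)).1
  have G2 : ∀ M p, ‖G M p‖ ≤ (EBT R).indicator (fun p => lI (ft p.1) (sh p.1 p.2)) p :=
    fun M p => by
    rw [Real.norm_of_nonneg (G0' M p)]
    by_cases h0 : φ p.2 = 0
    · rw [hG, h0, mul_zero]
      exact indicator_nonneg (fun _ _ => l0 _ _) _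
    · rw [indicator_of_mem (show p ∈ EBT R from (hsupp _ h0).1)]
      exact G1 M p
  have h2 := tendsto_integral_of_dominated_convergence (f := fun _ => (0 : ℝ)) _
    (fun M => (Gm M).aestronglyMeasurable) i1 (fun M => .of_forall (G2 M)) (.of_forall fun p =>
      tendsto_const_nhds.congr' ((tendsto_natCast_atTop_atTop.eventually_ge_atTop
        (lI (ft p.1) (sh p.1 p.2))).mono fun M hM => by
          simp only [hG, max_eq_right (sub_nonpos.2 hM), zero_mul]))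
  rw [integral_zero] at h2
  obtain ⟨M, hM⟩ := ((h2.const_mul K).eventually
    (gt_mem_nhds (show K * 0 < ε / 2 by simpa using hε))).exists
  refine ⟨M, fun i => ?_⟩
  have i2 : Integrable (G M) (mT t) := i1.mono' (Gm M).aestronglyMeasurable (.of_forall (G2 M))
  obtain ⟨C, hC⟩ := (A.sol i).ub t
  have i3 : Integrable (fun p => G M p * f i t (sh t p.2)) (mT t) :=
    WL_int_mul i2 ((hF i).comp measurable_snd) (C := |C|) fun p => by
      rw [abs_of_nonneg ((A.sol i).nonneg _ _)]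
      exact (hC t ⟨ht, le_rfl⟩ _).trans ((mul_le_mul_of_nonneg_right (le_abs_self C)
        (G0_pos _).le).trans (mul_le_of_le_one_right (abs_nonneg C) (G0_le_one _)))
  refine ⟨i3, ?_⟩
  have t0 : ∀ z, 0 ≤ (∫ τ in Ioc 0 t, G M (τ, z)) / max M' 1 := fun z =>
    div_nonneg (integral_nonneg fun τ => G0' M _) hc.le
  have tm : Measurable fun z => min 1 ((∫ τ in Ioc 0 t, G M (τ, z)) / max M' 1) :=
    measurable_const.min
      ((Gm M).stronglyMeasurable.integral_prod_left'.measurable.div_const _)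
  have ti : Integrable fun z => (∫ τ in Ioc 0 t, G M (τ, z)) / max M' 1 :=
    (Integrable.integral_prod_right i2).div_const _
  have te : ∀ᵐ z, min 1 ((∫ τ in Ioc 0 t, G M (τ, z)) / max M' 1) =
      (∫ τ in Ioc 0 t, G M (τ, z)) / max M' 1 := L.ae_ii_lI.mono fun z hz => by
    refine min_eq_right ((div_le_one hc).2 ?_)
    by_cases h0 : φ z = 0
    · simp [hG, h0]
    · refine le_max_of_le_left (le_trans ?_ (hsupp z h0).2)
      rw [LamI, intervalIntegral.integral_of_le ht]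
      exact integral_mono_of_nonneg (.of_forall fun τ => G0' M _) (hz t ht).1
        (.of_forall fun τ => G1 M (τ, z))
  have h3 := hu i _ tm fun z => ⟨le_min zero_le_one (t0 z), min_le_left _ _⟩
  have h4 := setIntegral_le_integral (s := EB R') ti (.of_forall t0)
  rw [integral_congr_ae (ae_restrict_of_ae te), integral_congr_ae (te.mono fun z hz => by
    rw [hz, mul_div_assoc', mul_comm, ← integral_mul_const]), integral_div,
    ← integral_mT_swap t i3, div_le_iff₀ hc] at h3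
  rw [integral_div _ fun z => ∫ τ in Ioc 0 t, G M (τ, z), integral_div,
    ← integral_mT_swap t i2] at h4
  have h5 := mul_le_mul_of_nonneg_left ((div_le_div_iff_of_pos_right hc).1 h4) hK
  rw [integral_div, add_mul, mul_assoc, div_mul_cancel₀ _ hc.ne', div_mul_cancel₀ _ hc.ne'] at h3
  linarith

theorem Appr.T3_le {t : ℝ} (ht : 0 ≤ t) {h : Om → ℝ} (H : IsLimT U f t h) (R : ℕ) (M' : ℝ)
    {φ : Om → ℝ} (hφ : Measurable φ) (h1 : ∀ z, 0 ≤ φ z ∧ φ z ≤ 1)
    (hsupp : ∀ z, φ z ≠ 0 → z ∈ EB R ∧ LamI ft 0 t z ≤ M') {ε : ℝ} (hε : 0 < ε) :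
    ∃ δ0 : ℝ, 0 < δ0 ∧ ∀ δ, 0 < δ → δ ≤ δ0 → ∀ᶠ i in (U : Filter ℕ),
      ∫ p, ln (n i) (f i p.1) (sh p.1 p.2) *
        (δ * f i p.1 (sh p.1 p.2) ^ 2 / (1 + δ * f i p.1 (sh p.1 p.2)) ^ 2) *
        (Real.exp (-LamN (n i) (f i) p.1 t p.2) * φ p.2) ∂(mT t) ≤ ε := by
  obtain ⟨M, hM⟩ := DLSub1_tail A L ht R M' hφ h1 hsupp (show 0 < ε / 3 by positivity)
  have hM0 : (0 : ℝ) ≤ M := M.cast_nonneg
  obtain ⟨ε', hε', h2⟩ := exists_pos_mul_lt (show 0 < ε / 3 by positivity) (M * t)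
  obtain ⟨δ0, hδ0, h3⟩ := A.small_beta hε'
  refine ⟨δ0, hδ0, fun δ hδ hδ' => ?_⟩
  filter_upwards [(A.tendsto_ln L t R).eventually
    (gt_mem_nhds (show 0 < ε / 3 * δ by positivity))] with i hi
  have S := A.sol i
  have hs : Measurable fun p : ℝ × Om => sh p.1 p.2 := measurable_sh measurable_fst measurable_snd
  have hf : Measurable fun p : ℝ × Om => f i p.1 (sh p.1 p.2) :=
    S.meas.comp (measurable_fst.prodMk hs)
  have i1 : IntegrableOn (fun p : ℝ × Om => |ln (n i) (f i p.1) p.2 - lI (ft p.1) p.2|) (EBT R)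
      (mT t) := by
    refine (Integrable.sub ?_ (L.integrableOn_lI t R)).abs
    refine Measure.integrableOn_of_bounded (mT_EBT_lt_top t R).ne
      (measurable_ln (n i) (g := fun p : ℝ × Om => f i p.1)
        (S.meas.comp (measurable_fst.fst.prodMk measurable_snd))
        measurable_snd).aestronglyMeasurable (M := 26 * (n i : ℝ) ^ 2)
      (ae_restrict_of_ae ((ae_mT_mem t).mono fun p hp => ?_))
    rw [Real.norm_of_nonneg (ln_nonneg _ (S.nonneg _) _)]
    exact S.ln_bdd hp.1.le _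
  obtain ⟨i2, e2⟩ := DLSub1_sh i1
  have i3 : Integrable (fun p : ℝ × Om => f i p.1 (sh p.1 p.2) *
      min 1 (δ * f i p.1 (sh p.1 p.2))) (mT t) := by
    have := (measurePreserving_shT t).integrable_comp_of_integrable (A.integrable_mT 0 i t)
    simp only [pow_zero, one_mul] at this
    exact WL_int_mul this (measurable_const.min (hf.const_mul δ))
      (WL_bd01 fun p => ⟨le_min zero_le_one (mul_nonneg hδ.le (S.nonneg _ _)), min_le_left _ _⟩)
  have e3 : ∫ p, f i p.1 (sh p.1 p.2) * min 1 (δ * f i p.1 (sh p.1 p.2)) ∂(mT t) ≤ ε' * t := by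
    rw [integral_mT t i3]
    refine (Real.le_norm_self _).trans ((norm_setIntegral_le_of_norm_le_const (C := ε')
      measure_Ioc_lt_top fun τ hτ => ?_).trans_eq
        (by rw [Real.volume_real_Ioc_of_le ht, sub_zero]))
    rw [integral_sh τ fun z => f i τ z * min 1 (δ * f i τ z), Real.norm_of_nonneg
      (integral_nonneg fun z => mul_nonneg (S.nonneg _ _)
        (le_min zero_le_one (mul_nonneg hδ.le (S.nonneg _ _))))]
    exact h3 δ hδ hδ' i τ hτ.1.le
  obtain ⟨i4, e4⟩ := hM i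
  have i5 := ((integrable_indicator_iff (measurableSet_EBT R)).2 i2).div_const δ
  refine (integral_mono_of_nonneg (.of_forall fun p => ?_) ((i5.add (i3.const_mul M)).add i4)
    ((ae_mT_mem t).mono fun p hp => ?_)).trans ?_
  · exact mul_nonneg (mul_nonneg (ln_nonneg _ (S.nonneg _) _) (by positivity))
      (mul_nonneg (Real.exp_pos _).le (h1 _).1)
  · simp only [Pi.add_apply]
    by_cases h0 : φ p.2 = 0
    · simp only [h0, mul_zero, zero_mul, add_zero]
      exact add_nonneg (div_nonneg (indicator_nonneg (fun _ _ => abs_nonneg _) _) hδ.le)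
        (mul_nonneg hM0 (mul_nonneg (S.nonneg _ _)
          (le_min zero_le_one (mul_nonneg hδ.le (S.nonneg _ _)))))
    rw [indicator_of_mem (show p ∈ EBT R from (hsupp _ h0).1)]
    exact DLSub1_pt hδ hM0 (S.nonneg _ _) (Real.exp_pos _).le
      (Real.exp_le_one_iff.2 (neg_nonpos.2 (S.LamN_nonneg hp.1.le hp.2 _))) (h1 _).1 (h1 _).2
      (S.two_time hp.1.le hp.2 _)
  · rw [integral_add' (i5.add (i3.const_mul M)) i4, integral_add' i5 (i3.const_mul M),
      integral_div, integral_const_mul, integral_indicator (measurableSet_EBT R), e2]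
    have h4 := (div_lt_iff₀ hδ).2 hi
    have h5 := mul_le_mul_of_nonneg_left e3 hM0
    linarith

end Vale.Agent.P140
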