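import Vale.Agent.P140.DLGain

/-! The limit is a supersolution. -/

namespace Vale.Agent.P140

open MeasureTheory Set Filter Topology
open scoped ENNReal

theorem DLSup_wconv_mul {α : Type*} [MeasurableSpace α] {μ : Measure α} {E : ℕ → Set α}
    {u : ℕ → α → ℝ} (h : Fam μ E u) {U : Filter ℕ} {v : α → ℝ} (hv : WConv U μ u v)
    {ψ : ℕ → α → ℝ} {φ : α → ℝ} (hψ : ∀ i, Measurable (ψ i)) (hφ : Measurable φ)
    (hψC : ∀ i a, |ψ i a| ≤ 1) (hφC : ∀ a, |φ a| ≤ 1)
    (hc : ∀ R, Tendsto (fun i => ∫ a in E R, |ψ i a - φ a| ∂μ) U (𝓝 0)) :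
    WConv U μ (fun i a => u i a * ψ i a) (fun a => v a * φ a) := by
  rintro θ hθ ⟨C, hC⟩
  have hb : ∀ {x : ℝ} (a : α), |x| ≤ 1 → |x * θ a| ≤ |C| := by
    intro x a hx
    rw [abs_mul]
    have := mul_le_mul hx ((hC a).trans (le_abs_self C)) (abs_nonneg _) zero_le_one
    rwa [one_mul] at this
  have := h.tendsto_mul hv (ψ := fun i a => ψ i a * θ a) (φ := fun a => φ a * θ a) (C := |C|)
    (fun i => (hψ i).mul hθ) (hφ.mul hθ) (fun i a => hb a (hψC i a)) (fun a => hb a (hφC a))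
    (fun R => ?_)
  · simpa only [mul_assoc] using this
  · have t := (hc R).const_mul |C|
    rw [mul_zero] at t
    refine squeeze_zero (fun i => integral_nonneg fun a => abs_nonneg _) (fun i => ?_) t
    rw [← integral_const_mul]
    have : IsFiniteMeasure (μ.restrict (E R)) := isFiniteMeasure_restrict.2 (h.finE R).ne
    refine integral_mono_of_nonneg (Eventually.of_forall fun a => abs_nonneg _) ?_
      (Eventually.of_forall fun a => ?_)
    · refine Integrable.const_mul ?_ _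
      refine Integrable.of_bound (C := 2) ((hψ i).sub hφ).abs.aestronglyMeasurable
        (Eventually.of_forall fun a => ?_)
      rw [Real.norm_eq_abs, abs_abs]
      have := abs_sub (ψ i a) (φ a)
      linarith [hψC i a, hφC a]
    · show |ψ i a * θ a - φ a * θ a| ≤ |C| * |ψ i a - φ a|
      rw [← sub_mul, abs_mul, mul_comm]
      exact mul_le_mul_of_nonneg_right ((hC a).trans (le_abs_self C)) (abs_nonneg _)

theorem DLSup_int_snd (t : ℝ) {u : Om → ℝ} (hu : Integrable u) :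
    Integrable (fun p : ℝ × Om => u p.2) (mT t) :=
  hu.comp_snd _

theorem DLSup_wconv_snd (t : ℝ) {U : Filter ℕ} {u : ℕ → Om → ℝ} {v : Om → ℝ}
    (h : WConv U volume u v) (hu : ∀ i, Integrable (u i)) (hv : Integrable v) :
    WConv U (mT t) (fun i p => u i p.2) (fun p => v p.2) := by
  rintro θ hθ ⟨C, hC⟩
  have e : ∀ w : Om → ℝ, Integrable w →
      ∫ p, w p.2 * θ p ∂(mT t) = ∫ z, w z * ∫ τ in Ioc 0 t, θ (τ, z) := by
    intro w hw
    rw [integral_mT_swap t (WL_int_mul (DLSup_int_snd t hw) hθ hC)]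
    simp only [integral_const_mul]
  have hm : Measurable fun z : Om => ∫ τ in Ioc 0 t, θ (τ, z) :=
    (hθ.stronglyMeasurable.integral_prod_left').measurable
  have := h _ hm ⟨C * (volume : Measure ℝ).real (Ioc 0 t), fun z => ?_⟩
  · rw [e v hv]
    simpa only [e _ (hu _)] using this
  · exact norm_setIntegral_le_of_norm_le_const (f := fun τ => θ (τ, z)) (by simp) fun τ _ => hC _

theorem DLSup_min {x : ℝ} (hx : 0 ≤ x) : min 1 (Real.exp (-x)) = Real.exp (-x) :=
  min_eq_right (Real.exp_le_one_iff.2 (by linarith))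

theorem DLSup_abs_min (x : ℝ) : |min 1 (Real.exp x)| ≤ 1 := by
  rw [abs_of_nonneg (le_min zero_le_one (Real.exp_pos x).le)]
  exact min_le_left _ _

theorem DLSup_meas_LamI {g : ℝ → Om → ℝ} (hg : Measurable (Function.uncurry g)) (t : ℝ) :
    Measurable fun p : ℝ × Om => Real.exp (-LamI g p.1 t p.2) := by
  have h1 : Measurable fun p : ℝ × Om => ((p.1, t, p.2) : ℝ × ℝ × Om) :=
    measurable_fst.prodMk (measurable_const.prodMk measurable_snd)
  exact ((measurable_LamI hg).comp h1).neg.exp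

theorem DLSup_meas_LamN (n : ℕ) {g : ℝ → Om → ℝ} (hg : Measurable (Function.uncurry g)) (t : ℝ) :
    Measurable fun p : ℝ × Om => Real.exp (-LamN n g p.1 t p.2) := by
  have h1 : Measurable fun p : ℝ × Om => ((p.1, t, p.2) : ℝ × ℝ × Om) :=
    measurable_fst.prodMk (measurable_const.prodMk measurable_snd)
  exact ((measurable_LamN n hg).comp h1).neg.exp

theorem DLSup_exp_le {x : ℝ} (hx : 0 ≤ x) : ‖Real.exp (-x)‖ ≤ 1 := by
  rw [Real.norm_eq_abs, abs_of_pos (Real.exp_pos _)]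
  exact Real.exp_le_one_iff.2 (by linarith)

theorem DLSup_int_sh (t : ℝ) {G : ℝ × Om → ℝ} (hG : Integrable G (mT t)) :
    Integrable (fun p : ℝ × Om => G (p.1, sh p.1 p.2)) (mT t) :=
  (measurePreserving_shT t).integrable_comp_of_integrable hG

theorem DLSup_uncurry {g : ℝ → Om → ℝ} (hg : Measurable (Function.uncurry g)) :
    Measurable (Function.uncurry fun p : ℝ × Om => g p.1) :=
  hg.comp (measurable_fst.fst.prodMk measurable_snd)

theorem DLSup_meas_sh : Measurable fun p : ℝ × Om => sh p.1 p.2 :=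
  measurable_sh measurable_fst measurable_snd

theorem DLSup_sec1 {G : ℝ × Om → ℝ} (hG : Measurable G) (s : ℝ) : Measurable fun z => G (s, z) :=
  hG.comp measurable_prodMk_left

theorem DLSup_sec2 {G : ℝ × Om → ℝ} (hG : Measurable G) (z : Om) : Measurable fun s => G (s, z) :=
  hG.comp measurable_prodMk_right

/-- the tested mild inequality for one truncated solution -/
theorem DLSup_mild {m : ℕ} {g0 : Om → ℝ} {g : ℝ → Om → ℝ} (S : TrSol m g0 g) {t : ℝ} (ht : 0 ≤ t)
    {ζ : ℝ} (hζ : 0 < ζ)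
    (hi : Integrable (fun p : ℝ × Om => qn m (g p.1) p.2 / (1 + ζ * rho1 (g p.1) p.2.1)) (mT t))
    {φ : Om → ℝ} (hφ : Measurable φ) (h1 : ∀ z, 0 ≤ φ z ∧ φ z ≤ 1) :
    (∫ z, g0 z * (Real.exp (-LamN m g 0 t z) * φ z)) +
      ∫ p, qn m (g p.1) (sh p.1 p.2) / (1 + ζ * rho1 (g p.1) (sh p.1 p.2).1) *
        (Real.exp (-LamN m g p.1 t p.2) * φ p.2) ∂(mT t) ≤ ∫ z, g t (sh t z) * φ z := by
  have hE := DLSup_meas_LamN m S.meas t
  have hb : ∀ s ∈ Icc 0 t, ∀ z, ‖Real.exp (-LamN m g s t z) * φ z‖ ≤ 1 := by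
    intro s hs z
    rw [norm_mul]
    exact mul_le_one₀ (DLSup_exp_le (S.LamN_nonneg hs.1 hs.2 z)) (norm_nonneg _) (WL_bd01 h1 z)
  have i1 : Integrable (fun p : ℝ × Om => qn m (g p.1) (sh p.1 p.2) /
      (1 + ζ * rho1 (g p.1) (sh p.1 p.2).1) * (Real.exp (-LamN m g p.1 t p.2) * φ p.2)) (mT t) := by
    refine (DLSup_int_sh t hi).mul_bdd (c := 1)
      (hE.mul (hφ.comp measurable_snd)).aestronglyMeasurable ?_
    filter_upwards [ae_mT_mem t] with p hp
    exact hb _ (Ioc_subset_Icc_self hp) _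
  have i0 : Integrable g0 := by
    have := S.integrable_t le_rfl
    rwa [show g 0 = g0 from funext S.zero] at this
  have hE0 : Measurable fun z : Om => Real.exp (-LamN m g 0 t z) :=
    (DLSup_sec1 hE 0 :)
  have i2 : Integrable (fun z => g0 z * (Real.exp (-LamN m g 0 t z) * φ z)) :=
    i0.mul_bdd (c := 1) (hE0.mul hφ).aestronglyMeasurable
      (Eventually.of_forall (hb 0 ⟨le_rfl, ht⟩))
  have i3 : Integrable (fun z => g t (sh t z) * φ z) :=
    WL_int_mul ((measurePreserving_sh t).integrable_comp_of_integrable (S.integrable_t ht)) hφ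
      (WL_bd01 h1)
  rw [integral_mT_swap t i1, ← integral_add i2 i1.integral_prod_right]
  refine integral_mono (i2.add i1.integral_prod_right) i3 fun z => ?_
  show _ + _ ≤ g t (sh t z) * φ z
  rw [S.mild t ht z, add_mul, mul_assoc, intervalIntegral.integral_of_le ht, ← integral_mul_const]
  refine add_le_add le_rfl ?_
  have q0 : ∀ τ, 0 ≤ qn m (g τ) (sh τ z) := fun τ => qn_nonneg m (S.nonneg τ) _
  have d1 : ∀ τ, 1 ≤ 1 + ζ * rho1 (g τ) (sh τ z).1 := fun τ =>
    le_add_of_nonneg_right (mul_nonneg hζ.le (rho1_nonneg (S.nonneg τ) _))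
  refine integral_mono_of_nonneg (Eventually.of_forall fun τ => ?_) ?_
    (Eventually.of_forall fun τ => ?_)
  · exact mul_nonneg (div_nonneg (q0 τ) (zero_le_one.trans (d1 τ)))
      (mul_nonneg (Real.exp_pos _).le (h1 z).1)
  · refine Integrable.mul_const ?_ _
    have hEz : Measurable fun τ : ℝ => Real.exp (-LamN m g τ t z) :=
      (DLSup_sec2 hE z :)
    refine Integrable.bdd_mul (c := 1) (S.ii_qn le_rfl ht z).1 hEz.aestronglyMeasurable ?_
    filter_upwards [ae_restrict_mem measurableSet_Ioc] with τ hτ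
    exact DLSup_exp_le (S.LamN_nonneg hτ.1.le hτ.2 z)
  · show qn m (g τ) (sh τ z) / (1 + ζ * rho1 (g τ) (sh τ z).1) *
      (Real.exp (-LamN m g τ t z) * φ z) ≤ Real.exp (-LamN m g τ t z) * qn m (g τ) (sh τ z) * φ z
    rw [mul_comm (Real.exp _) (qn _ _ _), mul_assoc]
    exact mul_le_mul_of_nonneg_right (div_le_self (q0 τ) (d1 τ))
      (mul_nonneg (Real.exp_pos _).le (h1 z).1)

/-- monotone convergence in the regularisation parameter -/
theorem DLSup_mono {μ : Measure ℝ} {q : ℝ → ℝ≥0∞} {r e : ℝ → ℝ} {a b : ℝ} (ha : 0 ≤ a)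
    (hq : ∀ᵐ τ ∂μ, q τ < ⊤) (hr : ∀ τ, 0 ≤ r τ) (he : ∀ τ, 0 ≤ e τ)
    (hi : ∀ m : ℕ, Integrable (fun τ => (q τ).toReal / (1 + 1 / ((m : ℝ) + 1) * r τ) * e τ) μ)
    (hle : ∀ m : ℕ, a + ∫ τ, (q τ).toReal / (1 + 1 / ((m : ℝ) + 1) * r τ) * e τ ∂μ ≤ b) :
    ENNReal.ofReal a + ∫⁻ τ, ENNReal.ofReal (e τ) * q τ ∂μ ≤ ENNReal.ofReal b := by
  have h0 : ∀ (m : ℕ) τ, 0 ≤ (q τ).toReal / (1 + 1 / ((m : ℝ) + 1) * r τ) * e τ := by
    intro m τ
    have := hr τ
    have := he τ
    positivity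
  have t : Tendsto (fun m : ℕ => ∫⁻ τ, ENNReal.ofReal
      ((q τ).toReal / (1 + 1 / ((m : ℝ) + 1) * r τ) * e τ) ∂μ) atTop
      (𝓝 (∫⁻ τ, ENNReal.ofReal (e τ) * q τ ∂μ)) := by
    refine lintegral_tendsto_of_tendsto_of_monotone
      (fun m => (hi m).aestronglyMeasurable.aemeasurable.ennreal_ofReal)
      (Eventually.of_forall fun τ m m' hm => ?_) ?_
    · have h1 := hr τ
      have h2 := he τ
      have h3 : (m : ℝ) ≤ m' := by exact_mod_cast hm
      refine ENNReal.ofReal_le_ofReal ?_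
      gcongr
    · filter_upwards [hq] with τ hτ
      have e1 : ENNReal.ofReal (e τ) * q τ =
          ENNReal.ofReal ((q τ).toReal / (1 + 0 * r τ) * e τ) := by
        rw [zero_mul, add_zero, div_one, mul_comm (q τ).toReal, ENNReal.ofReal_mul (he τ),
          ENNReal.ofReal_toReal hτ.ne]
      rw [e1]
      refine ENNReal.tendsto_ofReal (Tendsto.mul_const _ (tendsto_const_nhds.div
        (tendsto_const_nhds.add (tendsto_one_div_add_atTop_nhds_zero_nat.mul_const _)) ?_))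
      simp
  refine le_of_tendsto' (tendsto_const_nhds.add t) fun m => ?_
  rw [← ofReal_integral_eq_lintegral_ofReal (hi m) (Eventually.of_forall (h0 m)),
    ← ENNReal.ofReal_add ha (integral_nonneg (h0 m))]
  exact ENNReal.ofReal_le_ofReal (hle m)

variable {F0 : Om → ℝ} {n : ℕ → ℕ} {f0 : ℕ → Om → ℝ} {f : ℕ → ℝ → Om → ℝ} (A : Appr F0 n f0 f)
  {U : Ultrafilter ℕ} {ft : ℝ → Om → ℝ} (L : IsLim U f ft)
include A L

/- PLAN super: test with φ ∈ [0,1]: mild ⇒ ∫ f_i♯(t) φ ≥ ∫ f0 e^{-Λ} φ + ∫_{mT t} qn♯/(1+ζ rho1♯) e^{-Λ} φ; limits by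
tendsto_data_exp, tendsto_gain_exp; so h ≥ F0 e^{-Λ} + ∫_0^t qI♯/(1+ζ rho1♯) e^{-Λ} a.e. (ae_le_of_tests) for ζ = 1/(m+1);
monotone convergence m → ∞ (qI < ⊤ a.e., or directly in ℝ≥0∞).
two_time: TrSol.two_time tested with θ(τ,z) ∈ [0,1] on mT t; left side by Fam.tendsto_mul (fam_T unsheared, tendsto_exp),
right side ∫ f_i♯(t,z) (∫ θ dτ) dz by the weak convergence at time t. -/

omit A in
theorem IsLim.DLSup_int_gain (t : ℝ) {ζ : ℝ} (hζ : 0 < ζ) :
    Integrable (fun p : ℝ × Om => (qI (ft p.1) (sh p.1 p.2)).toReal /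
      (1 + ζ * rho1 (ft p.1) (sh p.1 p.2).1) * Real.exp (-LamI ft p.1 t p.2)) (mT t) := by
  refine (DLSup_int_sh t (L.integrable_gain t hζ)).mul_bdd (c := 1)
    (DLSup_meas_LamI L.meas t).aestronglyMeasurable ?_
  filter_upwards [ae_mT_mem t] with p hp
  exact DLSup_exp_le (LamI_nonneg ft hp.2 _)

theorem Appr.DLSup_zeta {t : ℝ} (ht : 0 ≤ t) {h : Om → ℝ} (H : IsLimT U f t h) {ζ : ℝ}
    (hζ : 0 < ζ) :
    ∀ᵐ z : Om, F0 z * Real.exp (-LamI ft 0 t z) + ∫ τ in Ioc 0 t, (qI (ft τ) (sh τ z)).toReal /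
      (1 + ζ * rho1 (ft τ) (sh τ z).1) * Real.exp (-LamI ft τ t z) ≤ h z := by
  have hE := DLSup_meas_LamI L.meas t
  have hE0 : Measurable fun z : Om => Real.exp (-LamI ft 0 t z) :=
    (DLSup_sec1 hE 0 :)
  have i1 := L.DLSup_int_gain t hζ
  have iF : Integrable F0 := by
    refine A.dat.integrable_moment.mono' A.dat.meas.aestronglyMeasurable
      (Eventually.of_forall fun z => ?_)
    rw [Real.norm_eq_abs, abs_of_nonneg (A.dat.nonneg z)]
    exact le_mul_of_one_le_left (A.dat.nonneg z)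
      (one_le_pow₀ (le_add_of_nonneg_right (norm_nonneg _)))
  have i2 : Integrable (fun z => F0 z * Real.exp (-LamI ft 0 t z)) :=
    iF.mul_bdd (c := 1) hE0.aestronglyMeasurable
      (Eventually.of_forall fun z => DLSup_exp_le (LamI_nonneg ft ht z))
  have m1 : Measurable fun p : ℝ × Om => (qI (ft p.1) (sh p.1 p.2)).toReal :=
    (measurable_qI (DLSup_uncurry L.meas) DLSup_meas_sh).ennreal_toReal
  have m2 : Measurable fun p : ℝ × Om => rho1 (ft p.1) (sh p.1 p.2).1 :=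
    measurable_rho1 (DLSup_uncurry L.meas) DLSup_meas_sh.fst
  have m3 : Measurable fun p : ℝ × Om => (qI (ft p.1) (sh p.1 p.2)).toReal /
      (1 + ζ * rho1 (ft p.1) (sh p.1 p.2).1) * Real.exp (-LamI ft p.1 t p.2) :=
    (m1.div ((m2.const_mul ζ).const_add 1)).mul hE
  have m4 : Measurable fun z : Om => ∫ τ in Ioc 0 t, (qI (ft τ) (sh τ z)).toReal /
      (1 + ζ * rho1 (ft τ) (sh τ z).1) * Real.exp (-LamI ft τ t z) :=
    (m3.stronglyMeasurable.integral_prod_left').measurable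
  refine ae_le_of_tests ((A.dat.meas.mul hE0).add m4) H.meas (i2.add i1.integral_prod_right)
    H.int0 fun φ hφ h1 => ?_
  have t1 := (A.tendsto_data_exp L ht hφ h1).add (A.tendsto_gain_exp L ht hζ hφ h1)
  have t2 := H.conv0 φ hφ ⟨1, WL_bd01 h1⟩
  have key := le_of_tendsto_of_tendsto' t1 t2 fun i =>
    DLSup_mild (A.sol i) ht hζ ((A.fam_gain t hζ).int i) hφ h1
  refine le_trans (le_of_eq ?_) key
  have i3 := WL_int_mul i1 (hφ.comp measurable_snd) (fun p => WL_bd01 h1 p.2)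
  simp only [Function.comp_def, mul_assoc] at i3
  rw [integral_mT_swap t i3, ← integral_add ?_ i3.integral_prod_right]
  · refine integral_congr_ae (Eventually.of_forall fun z => ?_)
    simp only [add_mul, ← integral_mul_const, mul_assoc]
  · simpa only [mul_assoc] using WL_int_mul i2 hφ (WL_bd01 h1)

theorem Appr.super {t : ℝ} (ht : 0 ≤ t) {h : Om → ℝ} (H : IsLimT U f t h) :
    ∀ᵐ z : Om, FF F0 ft t z ≤ ENNReal.ofReal (h z) := by
  have h1 := ae_all_iff.2 fun m : ℕ =>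
    A.DLSup_zeta L ht H (ζ := 1 / ((m : ℝ) + 1)) (by positivity)
  have h2 := ae_all_iff.2 fun m : ℕ =>
    (L.DLSup_int_gain t (ζ := 1 / ((m : ℝ) + 1)) (by positivity)).prod_left_ae
  have h3 := (measurePreserving_shT t).quasiMeasurePreserving.ae (L.qI_lt_top t)
  have h4 := Measure.ae_ae_of_ae_prod (Measure.measurePreserving_swap.quasiMeasurePreserving.ae h3)
  filter_upwards [h1, h2, h4] with z z1 z2 z4
  exact DLSup_mono (q := fun τ => qI (ft τ) (sh τ z)) (r := fun τ => rho1 (ft τ) (sh τ z).1)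
    (e := fun τ => Real.exp (-LamI ft τ t z))
    (mul_nonneg (A.dat.nonneg z) (Real.exp_pos _).le) z4
    (fun τ => rho1_nonneg (L.nonneg τ) _) (fun τ => (Real.exp_pos _).le) z2 z1

theorem Appr.two_time {t : ℝ} (ht : 0 ≤ t) {h : Om → ℝ} (H : IsLimT U f t h) :
    ∀ᵐ p ∂(mT t), ft p.1 (sh p.1 p.2) * Real.exp (-LamI ft p.1 t p.2) ≤ h p.2 := by
  have F1 : Fam (mT t) EBT (fun i p => (1 + ‖p.2.2‖) * f i p.1 (sh p.1 p.2)) :=
    (A.fam_T t).comp (measurePreserving_shT t) (e' := fun p : ℝ × Om => (p.1, sh (-p.1) p.2))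
      (measurable_fst.prodMk (measurable_sh measurable_fst.neg measurable_snd))
      (fun p => by simp only [sh_sh, neg_add_cancel, sh_zero])
      (fun p => by simp only [sh_sh, add_neg_cancel, sh_zero])
  have ms : ∀ {g : ℝ → Om → ℝ}, Measurable (Function.uncurry g) →
      Measurable fun p : ℝ × Om => g p.1 (sh p.1 p.2) :=
    fun hg => hg.comp (measurable_fst.prodMk DLSup_meas_sh)
  have F2 : Fam (mT t) EBT (fun i p => f i p.1 (sh p.1 p.2)) :=
    F1.of_le (C := 1) (fun i => ms (A.sol i).meas) (fun i p => (A.sol i).nonneg _ _) fun i p => by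
      rw [one_mul]
      exact le_mul_of_one_le_left ((A.sol i).nonneg _ _) (le_add_of_nonneg_right (norm_nonneg _))
  have mN : ∀ i, Measurable fun p : ℝ × Om => min 1 (Real.exp (-LamN (n i) (f i) p.1 t p.2)) :=
    fun i => measurable_const.min (DLSup_meas_LamN (n i) (A.sol i).meas t)
  have mI : Measurable fun p : ℝ × Om => min 1 (Real.exp (-LamI ft p.1 t p.2)) :=
    measurable_const.min (DLSup_meas_LamI L.meas t)
  have W1 := DLSup_wconv_mul F2 (L.conv_sh t) mN mI (fun i p => DLSup_abs_min _)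
    (fun p => DLSup_abs_min _) fun R => (A.tendsto_exp L ht R).congr fun i => by
      refine integral_congr_ae ?_
      filter_upwards [ae_restrict_of_ae (ae_mT_mem t)] with p hp
      rw [DLSup_min ((A.sol i).LamN_nonneg hp.1.le hp.2 _), DLSup_min (LamI_nonneg ft hp.2 _)]
  have it : ∀ i, Integrable fun z => f i t (sh t z) := fun i =>
    (measurePreserving_sh t).integrable_comp_of_integrable ((A.sol i).integrable_t ht)
  have W2 := DLSup_wconv_snd t H.conv0 it H.int0
  have key := W1.ae_le W2 (fun i => WL_int_mul (F2.int i) (mN i) fun p => DLSup_abs_min _)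
    (fun i => DLSup_int_snd t (it i)) ((ms L.meas).mul mI) (H.meas.comp measurable_snd)
    (WL_int_mul (DLSup_int_sh t (L.int0 t)) mI fun p => DLSup_abs_min _)
    (DLSup_int_snd t H.int0) fun i => by
      filter_upwards [ae_mT_mem t] with p hp
      rw [DLSup_min ((A.sol i).LamN_nonneg hp.1.le hp.2 _)]
      exact (A.sol i).two_time hp.1.le hp.2 _
  filter_upwards [key, ae_mT_mem t] with p h1 hp
  rwa [DLSup_min (LamI_nonneg ft hp.2 _)] at h1

end Vale.Agent.P140
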