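import Vale.Agent.P140.DLLoss

/-! Weak convergence of the normalised tensor product. -/

namespace Vale.Agent.P140

open MeasureTheory Set Filter Topology
open scoped ENNReal

section
variable {Y W : Type*} [MeasurableSpace Y] [MeasurableSpace W] {μ : Measure Y} {ν : Measure W}
  [SigmaFinite μ] [SigmaFinite ν]

theorem DLTens_meas {a b : Y × W → ℝ} {c : Y → ℝ} (ha : Measurable a) (hb : Measurable b)
    (hc : Measurable c) :
    Measurable (fun p : Y × W × W => c p.1 * (a (p.1, p.2.1) * b (p.1, p.2.2))) :=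
  (hc.comp measurable_fst).mul ((ha.comp (measurable_fst.prodMk measurable_snd.fst)).mul
    (hb.comp (measurable_fst.prodMk measurable_snd.snd)))

theorem DLTens_mint {a : Y × W → ℝ} (ha : Measurable a) : Measurable fun y => ∫ v, a (y, v) ∂ν :=
  (ha.stronglyMeasurable.integral_prod_right' (ν := ν)).measurable

omit [MeasurableSpace Y] in
theorem DLTens_inner (a b : Y × W → ℝ) (c : ℝ) (y : Y) :
    ∫ q : W × W, c * (a (y, q.1) * b (y, q.2)) ∂(ν.prod ν) =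
      c * ((∫ v, a (y, v) ∂ν) * ∫ w, b (y, w) ∂ν) := by
  rw [integral_const_mul, integral_prod_mul (fun v => a (y, v)) (fun w => b (y, w))]

theorem DLTens_dom {u a b : Y × W → ℝ} {c : Y → ℝ} {C : ℝ} (ha : Measurable a) (hb : Measurable b)
    (hc : Measurable c) (a0 : ∀ q, 0 ≤ a q) (b0 : ∀ q, 0 ≤ b q) (c0 : ∀ y, 0 ≤ c y)
    (au : ∀ q, a q ≤ u q) (bu : ∀ q, b q ≤ u q) (iu : Integrable u (μ.prod ν))
    (hC : ∀ y, c y * ∫ w, u (y, w) ∂ν ≤ C) :
    Integrable (fun p : Y × W × W => c p.1 * (a (p.1, p.2.1) * b (p.1, p.2.2)))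
      (μ.prod (ν.prod ν)) ∧
    Integrable (fun y => c y * ((∫ v, a (y, v) ∂ν) * ∫ w, b (y, w) ∂ν)) μ ∧
    ∫ p, c p.1 * (a (p.1, p.2.1) * b (p.1, p.2.2)) ∂(μ.prod (ν.prod ν)) =
      ∫ y, c y * ((∫ v, a (y, v) ∂ν) * ∫ w, b (y, w) ∂ν) ∂μ ∧
    ∫ p, c p.1 * (a (p.1, p.2.1) * b (p.1, p.2.2)) ∂(μ.prod (ν.prod ν)) ≤
      C * ∫ q, a q ∂(μ.prod ν) ∧
    ∫ p, c p.1 * (a (p.1, p.2.1) * b (p.1, p.2.2)) ∂(μ.prod (ν.prod ν)) ≤
      C * ∫ q, b q ∂(μ.prod ν) := by
  have hm := DLTens_meas ha hb hc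
  have ia : Integrable a (μ.prod ν) := iu.mono' ha.aestronglyMeasurable
    (Eventually.of_forall fun q => by rw [Real.norm_of_nonneg (a0 q)]; exact au q)
  have ib : Integrable b (μ.prod ν) := iu.mono' hb.aestronglyMeasurable
    (Eventually.of_forall fun q => by rw [Real.norm_of_nonneg (b0 q)]; exact bu q)
  have ga : ∀ᵐ y ∂μ, c y * ((∫ v, a (y, v) ∂ν) * ∫ w, b (y, w) ∂ν) ≤ C * ∫ v, a (y, v) ∂ν := by
    filter_upwards [iu.prod_right_ae, ib.prod_right_ae] with y h1 h2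
    have k1 : ∫ w, b (y, w) ∂ν ≤ ∫ w, u (y, w) ∂ν := integral_mono h2 h1 fun w => bu _
    have k2 := (mul_le_mul_of_nonneg_left k1 (c0 y)).trans (hC y)
    have k3 := mul_le_mul_of_nonneg_right k2 (integral_nonneg (μ := ν) fun v => a0 (y, v))
    linarith
  have gb : ∀ᵐ y ∂μ, c y * ((∫ v, a (y, v) ∂ν) * ∫ w, b (y, w) ∂ν) ≤ C * ∫ v, b (y, v) ∂ν := by
    filter_upwards [iu.prod_right_ae, ia.prod_right_ae] with y h1 h2
    have k1 : ∫ w, a (y, w) ∂ν ≤ ∫ w, u (y, w) ∂ν := integral_mono h2 h1 fun w => au _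
    have k2 := (mul_le_mul_of_nonneg_left k1 (c0 y)).trans (hC y)
    have k3 := mul_le_mul_of_nonneg_right k2 (integral_nonneg (μ := ν) fun v => b0 (y, v))
    linarith
  have hI : Integrable (fun y => c y * ((∫ v, a (y, v) ∂ν) * ∫ w, b (y, w) ∂ν)) μ := by
    refine (ia.integral_prod_left.const_mul C).mono'
      (hc.mul ((DLTens_mint ha).mul (DLTens_mint hb))).aestronglyMeasurable ?_
    filter_upwards [ga] with y hy
    rw [Real.norm_of_nonneg (mul_nonneg (c0 y)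
      (mul_nonneg (integral_nonneg fun v => a0 _) (integral_nonneg fun v => b0 _)))]
    exact hy
  have h1 : Integrable (fun p : Y × W × W => c p.1 * (a (p.1, p.2.1) * b (p.1, p.2.2)))
      (μ.prod (ν.prod ν)) := by
    rw [integrable_prod_iff hm.aestronglyMeasurable]
    constructor
    · filter_upwards [ia.prod_right_ae, ib.prod_right_ae] with y h1 h2
      exact (h1.mul_prod h2).const_mul _
    · refine hI.congr (Eventually.of_forall fun y => ?_)
      simp only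
      rw [← DLTens_inner]
      congr 1
      funext q
      rw [Real.norm_of_nonneg (mul_nonneg (c0 _) (mul_nonneg (a0 _) (b0 _)))]
  have e : ∫ p, c p.1 * (a (p.1, p.2.1) * b (p.1, p.2.2)) ∂(μ.prod (ν.prod ν)) =
      ∫ y, c y * ((∫ v, a (y, v) ∂ν) * ∫ w, b (y, w) ∂ν) ∂μ := by
    rw [integral_prod _ h1]
    simp only [DLTens_inner]
  refine ⟨h1, hI, e, ?_, ?_⟩
  · rw [e, integral_prod _ ia, ← integral_const_mul]
    exact integral_mono_ae hI (ia.integral_prod_left.const_mul C) ga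
  · rw [e, integral_prod _ ib, ← integral_const_mul]
    exact integral_mono_ae hI (ib.integral_prod_left.const_mul C) gb

theorem DLTens_fam {E : ℕ → Set (Y × W)} {E' : ℕ → Set (Y × W × W)} {u : ℕ → Y × W → ℝ}
    {c : ℕ → Y → ℝ} {C : ℝ} (h : Fam (μ.prod ν) E u) (mE : ∀ R, MeasurableSet (E' R))
    (fE : ∀ R, μ.prod (ν.prod ν) (E' R) < ⊤)
    (hE : ∀ R (p : Y × W × W), (p.1, p.2.1) ∈ E R → (p.1, p.2.2) ∈ E R → p ∈ E' R)
    (hc : ∀ i, Measurable (c i)) (c0 : ∀ i y, 0 ≤ c i y) (c1 : ∀ i y, c i y ≤ 1) (hC0 : 0 < C)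
    (hC : ∀ i y, c i y * ∫ w, u i (y, w) ∂ν ≤ C) :
    Fam (μ.prod (ν.prod ν)) E' (fun i p => c i p.1 * (u i (p.1, p.2.1) * u i (p.1, p.2.2))) := by
  have hI : ∀ i, Integrable (fun p : Y × W × W => c i p.1 * (u i (p.1, p.2.1) * u i (p.1, p.2.2)))
      (μ.prod (ν.prod ν)) := fun i =>
    (DLTens_dom (h.meas i) (h.meas i) (hc i) (h.nonneg i) (h.nonneg i) (c0 i) (fun _ => le_rfl)
      (fun _ => le_rfl) (h.int i) (hC i)).1
  refine ⟨mE, fE, fun i => DLTens_meas (h.meas i) (h.meas i) (hc i),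
    fun i p => mul_nonneg (c0 _ _) (mul_nonneg (h.nonneg _ _) (h.nonneg _ _)), hI, fun ε hε => ?_⟩
  have hδ : 0 < ε / (4 * C) := by positivity
  obtain ⟨K, R, -, HK⟩ := h.uit _ hδ
  obtain ⟨M, hM, HM⟩ := tail_ApUI h hδ
  refine ⟨M ^ 2, R, by positivity, fun i ψ hψ h01 => ?_⟩
  have hS1 : MeasurableSet {q | M < u i q} := measurableSet_lt measurable_const (h.meas i)
  have hS2 : MeasurableSet (E R)ᶜ := (h.measE R).compl
  set S : Set (Y × W) := {q | M < u i q} ∪ (E R)ᶜ with hS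
  have mS : MeasurableSet S := hS1.union hS2
  have am : Measurable (S.indicator (u i)) := (h.meas i).indicator mS
  have a0 : ∀ q, 0 ≤ S.indicator (u i) q := fun q => indicator_nonneg (fun q _ => h.nonneg i q) q
  have au : ∀ q, S.indicator (u i) q ≤ u i q := fun q =>
    indicator_le_self' (fun q _ => h.nonneg i q) q
  have k1 : ∫ q in (E R)ᶜ, u i q ∂(μ.prod ν) ≤ ε / (4 * C) := by
    have k := HK i ((E R)ᶜ.indicator 1) (measurable_one.indicator hS2) (fun a => by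
      by_cases ha : a ∈ (E R)ᶜ <;> simp [ha])
    rw [setIntegral_eq_zero_of_forall_eq_zero (t := E R) (fun q hq =>
      indicator_of_notMem (notMem_compl_iff.2 hq) _), mul_zero, zero_add] at k
    refine le_trans (le_of_eq ?_) k
    rw [← integral_indicator hS2]
    congr 1
    funext a
    by_cases ha : a ∈ (E R)ᶜ <;> simp [ha]
  have k2 : ∫ q, S.indicator (u i) q ∂(μ.prod ν) ≤ 2 * (ε / (4 * C)) := by
    have i1 := (h.int i).indicator hS1
    have i2 := (h.int i).indicator hS2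
    have k := HM i
    rw [← integral_indicator hS1] at k
    rw [← integral_indicator hS2] at k1
    have k3 : ∫ q, S.indicator (u i) q ∂(μ.prod ν) ≤
        ∫ q, ({q | M < u i q}.indicator (u i) q + (E R)ᶜ.indicator (u i) q) ∂(μ.prod ν) := by
      refine integral_mono ((h.int i).indicator mS) (i1.add i2) fun q => ?_
      have p1 : 0 ≤ {q | M < u i q}.indicator (u i) q :=
        indicator_nonneg (fun q _ => h.nonneg i q) q
      have p2 : 0 ≤ (E R)ᶜ.indicator (u i) q := indicator_nonneg (fun q _ => h.nonneg i q) q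
      by_cases hq : q ∈ S
      · rcases hq with hq | hq
        · simp only [indicator_of_mem hq] at p1 ⊢
          linarith [au q]
        · simp only [indicator_of_mem hq] at p2 ⊢
          linarith [au q]
      · simp only [indicator_of_notMem hq]
        linarith
    rw [integral_add i1 i2] at k3
    linarith
  obtain ⟨j1, -, -, l1, -⟩ := DLTens_dom am (h.meas i) (hc i) a0 (h.nonneg i) (c0 i) au
    (fun _ => le_rfl) (h.int i) (hC i)
  obtain ⟨j2, -, -, -, l2⟩ := DLTens_dom (h.meas i) am (hc i) (h.nonneg i) a0 (c0 i)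
    (fun _ => le_rfl) au (h.int i) (hC i)
  have j0 := ((integrable_indicator_iff (mE R)).2 (intOn_ApUI (fE R) hψ h01)).const_mul (M ^ 2)
  have k4 : ∫ p, c i p.1 * (u i (p.1, p.2.1) * u i (p.1, p.2.2)) * ψ p ∂(μ.prod (ν.prod ν)) ≤
      ∫ p, (M ^ 2 * (E' R).indicator ψ p +
        (c i p.1 * (S.indicator (u i) (p.1, p.2.1) * u i (p.1, p.2.2)) +
          c i p.1 * (u i (p.1, p.2.1) * S.indicator (u i) (p.1, p.2.2)))) ∂(μ.prod (ν.prod ν)) := by
    refine integral_mono (WL_int_mul (hI i) hψ (WL_bd01 h01)) (j0.add (j1.add j2)) fun p => ?_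
    have p0 : 0 ≤ M ^ 2 * (E' R).indicator ψ p :=
      mul_nonneg (sq_nonneg M) (indicator_nonneg (fun a _ => (h01 a).1) p)
    have p1 : 0 ≤ c i p.1 * (S.indicator (u i) (p.1, p.2.1) * u i (p.1, p.2.2)) :=
      mul_nonneg (c0 _ _) (mul_nonneg (a0 _) (h.nonneg _ _))
    have p2 : 0 ≤ c i p.1 * (u i (p.1, p.2.1) * S.indicator (u i) (p.1, p.2.2)) :=
      mul_nonneg (c0 _ _) (mul_nonneg (h.nonneg _ _) (a0 _))
    have p3 : 0 ≤ c i p.1 * (u i (p.1, p.2.1) * u i (p.1, p.2.2)) :=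
      mul_nonneg (c0 _ _) (mul_nonneg (h.nonneg _ _) (h.nonneg _ _))
    have p4 := mul_le_of_le_one_right p3 (h01 p).2
    by_cases q1 : (p.1, p.2.1) ∈ S
    · simp only [indicator_of_mem q1] at p1 ⊢
      linarith
    by_cases q2 : (p.1, p.2.2) ∈ S
    · simp only [indicator_of_mem q2] at p2 ⊢
      linarith
    have r1 := not_or.1 q1
    have r2 := not_or.1 q2
    have hp : p ∈ E' R := hE R p (notMem_compl_iff.1 r1.2) (notMem_compl_iff.1 r2.2)
    have b1 : u i (p.1, p.2.1) * u i (p.1, p.2.2) ≤ M ^ 2 := by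
      rw [sq]
      exact mul_le_mul (not_lt.1 r1.1) (not_lt.1 r2.1) (h.nonneg _ _) hM
    have b2 := (mul_le_of_le_one_left (mul_nonneg (h.nonneg i (p.1, p.2.1))
      (h.nonneg i (p.1, p.2.2))) (c1 i p.1)).trans b1
    have b3 := mul_le_mul_of_nonneg_right b2 (h01 p).1
    simp only [indicator_of_mem hp] at p0 ⊢
    linarith
  have j3 : Integrable (fun p : Y × W × W =>
      c i p.1 * (S.indicator (u i) (p.1, p.2.1) * u i (p.1, p.2.2)) +
        c i p.1 * (u i (p.1, p.2.1) * S.indicator (u i) (p.1, p.2.2))) (μ.prod (ν.prod ν)) :=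
    j1.add j2
  rw [integral_add j0 j3, integral_add j1 j2, integral_const_mul,
    integral_indicator (mE R)] at k4
  have k5 := mul_le_mul_of_nonneg_left k2 hC0.le
  have k6 : C * (2 * (ε / (4 * C))) = ε / 2 := by field_simp; ring
  linarith

theorem DLTens_alg0 {ζ a b c a' b' c' : ℝ} (hζ : 0 < ζ) (b0 : 0 ≤ b) (bc : b ≤ c)
    (a0' : 0 ≤ a') (b0' : 0 ≤ b') (ac' : a' ≤ c') (bc' : b' ≤ c') (h : c' ≤ c) :
    |1 / (1 + ζ * c) * (a * b) - 1 / (1 + ζ * c') * (a' * b')| ≤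
      ζ⁻¹ * (|a - a'| + |b - b'| + |c - c'|) := by
  have c0' : 0 ≤ c' := a0'.trans ac'
  have c0 : 0 ≤ c := c0'.trans h
  have d1 : 0 < 1 + ζ * c := by positivity
  have d2 : 0 < 1 + ζ * c' := by positivity
  have e : 1 / (1 + ζ * c) * (a * b) - 1 / (1 + ζ * c') * (a' * b') =
      (b / (1 + ζ * c)) * (a - a') + (a' / (1 + ζ * c)) * (b - b') -
        (ζ * (a' / (1 + ζ * c)) * (b' / (1 + ζ * c'))) * (c - c') := by
    field_simp
    ring
  have q : ∀ {x y : ℝ}, 0 ≤ y → x ≤ y → x / (1 + ζ * y) ≤ ζ⁻¹ := fun {x y} hy hxy => by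
    rw [div_le_iff₀ (by positivity), mul_add, ← mul_assoc, inv_mul_cancel₀ hζ.ne']
    have : 0 < ζ⁻¹ := inv_pos.2 hζ
    linarith
  have q1 := q c0 bc
  have q2 := q c0 (ac'.trans h)
  have q3 := q c0' bc'
  have n1 : 0 ≤ b / (1 + ζ * c) := by positivity
  have n2 : 0 ≤ a' / (1 + ζ * c) := by positivity
  have n3 : 0 ≤ b' / (1 + ζ * c') := by positivity
  have q4 : ζ * (a' / (1 + ζ * c)) * (b' / (1 + ζ * c')) ≤ ζ⁻¹ := by
    have k : ζ * (a' / (1 + ζ * c)) ≤ 1 := by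
      have := mul_le_mul_of_nonneg_left q2 hζ.le
      rwa [mul_inv_cancel₀ hζ.ne'] at this
    exact (mul_le_of_le_one_left n3 k).trans q3
  have n4 : 0 ≤ ζ * (a' / (1 + ζ * c)) * (b' / (1 + ζ * c')) := by positivity
  rw [e]
  refine (abs_sub _ _).trans ((add_le_add (abs_add_le _ _) le_rfl).trans ?_)
  rw [abs_mul, abs_mul, abs_mul, abs_of_nonneg n1, abs_of_nonneg n2, abs_of_nonneg n4]
  have s1 := mul_le_mul_of_nonneg_right q1 (abs_nonneg (a - a'))
  have s2 := mul_le_mul_of_nonneg_right q2 (abs_nonneg (b - b'))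
  have s3 := mul_le_mul_of_nonneg_right q4 (abs_nonneg (c - c'))
  linarith

theorem DLTens_alg {κ σ ζ a b c a' b' c' : ℝ} (hζ : 0 < ζ) (k1 : κ ≤ 1) (s0 : 0 ≤ σ) (s1 : σ ≤ 1)
    (a0 : 0 ≤ a) (b0 : 0 ≤ b) (ac : a ≤ c) (bc : b ≤ c)
    (a0' : 0 ≤ a') (b0' : 0 ≤ b') (ac' : a' ≤ c') (bc' : b' ≤ c') :
    |σ * (κ / (1 + ζ * c)) * (a * b) - σ * (1 / (1 + ζ * c')) * (a' * b')| ≤
      ζ⁻¹ * ((1 - κ) * c + (|a - a'| + (|b - b'| + |c - c'|))) := by
  have c0 : 0 ≤ c := a0.trans ac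
  have h1 : |1 / (1 + ζ * c) * (a * b) - 1 / (1 + ζ * c') * (a' * b')| ≤
      ζ⁻¹ * (|a - a'| + |b - b'| + |c - c'|) := by
    rcases le_total c' c with h | h
    · exact DLTens_alg0 hζ b0 bc a0' b0' ac' bc' h
    · rw [abs_sub_comm, abs_sub_comm a, abs_sub_comm b, abs_sub_comm c]
      exact DLTens_alg0 hζ b0' bc' a0 b0 ac bc h
  have q : b / (1 + ζ * c) ≤ ζ⁻¹ := by
    rw [div_le_iff₀ (by positivity), mul_add, ← mul_assoc, inv_mul_cancel₀ hζ.ne']
    have : 0 < ζ⁻¹ := inv_pos.2 hζ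
    linarith
  have n1 : 0 ≤ b / (1 + ζ * c) := by positivity
  have h2 : a * (b / (1 + ζ * c)) ≤ c * ζ⁻¹ := mul_le_mul ac q n1 c0
  have h3 := mul_le_mul_of_nonneg_left h2 (sub_nonneg.2 k1)
  have n2 : 0 ≤ (1 - κ) * (a * (b / (1 + ζ * c))) := mul_nonneg (sub_nonneg.2 k1) (by positivity)
  have e : σ * (κ / (1 + ζ * c)) * (a * b) - σ * (1 / (1 + ζ * c')) * (a' * b') =
      σ * ((1 / (1 + ζ * c) * (a * b) - 1 / (1 + ζ * c') * (a' * b')) -
        (1 - κ) * (a * (b / (1 + ζ * c)))) := by ring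
  rw [e, abs_mul, abs_of_nonneg s0]
  refine (mul_le_of_le_one_left (abs_nonneg _) s1).trans ((abs_sub _ _).trans ?_)
  rw [abs_of_nonneg n2]
  linarith

theorem DLTens_ext {v w : Y × W × W → ℝ} {m : Measure (Y × W × W)} (hv : Measurable v)
    (hw : Measurable w) (v0 : ∀ p, 0 ≤ v p) (w0 : ∀ p, 0 ≤ w p) (iv : Integrable v m)
    (iw : Integrable w m)
    (h : ∀ s t r, MeasurableSet s → MeasurableSet t → MeasurableSet r →
      ∫ p, v p * (s ×ˢ t ×ˢ r).indicator 1 p ∂m = ∫ p, w p * (s ×ˢ t ×ˢ r).indicator 1 p ∂m) :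
    v =ᵐ[m] w := by
  have e : ∀ {g : Y × W × W → ℝ}, (∀ p, 0 ≤ g p) → Integrable g m → ∀ {S}, MeasurableSet S →
      (m.withDensity fun p => ENNReal.ofReal (g p)) S =
        ENNReal.ofReal (∫ p, g p * S.indicator 1 p ∂m) := fun {g} g0 ig {S} hS => by
    rw [withDensity_apply _ hS, ← ofReal_integral_eq_lintegral_ofReal ig.integrableOn
      (Eventually.of_forall g0), ← integral_indicator hS]
    congr 2
    funext a
    by_cases ha : a ∈ S <;> simp [ha]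
  haveI := isFiniteMeasure_withDensity_ofReal iv.2
  have h1 : (m.withDensity fun p => ENNReal.ofReal (v p)) =
      m.withDensity fun p => ENNReal.ofReal (w p) :=
    Measure.ext_prod₃ fun hs ht hr => by
      rw [e v0 iv (hs.prod (ht.prod hr)), e w0 iw (hs.prod (ht.prod hr)), h _ _ _ hs ht hr]
  have h2 := (withDensity_eq_iff hv.ennreal_ofReal.aemeasurable hw.ennreal_ofReal.aemeasurable (by
    rw [← ofReal_integral_eq_lintegral_ofReal iv (Eventually.of_forall v0)]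
    exact ENNReal.ofReal_ne_top)).1 h1
  filter_upwards [h2] with p hp
  exact (ENNReal.ofReal_eq_ofReal_iff (v0 p) (w0 p)).1 hp

theorem DLTens_cu {κ ζ r : ℝ} (hζ : 0 < ζ) (k0 : 0 ≤ κ) (k1 : κ ≤ 1) (r0 : 0 ≤ r) :
    0 ≤ κ / (1 + ζ * r) ∧ κ / (1 + ζ * r) ≤ 1 ∧ κ / (1 + ζ * r) * r ≤ ζ⁻¹ := by
  have d : 0 < 1 + ζ * r := by positivity
  have z : 0 ≤ ζ * r := by positivity
  refine ⟨by positivity, (div_le_one d).2 (by linarith), ?_⟩
  rw [div_mul_eq_mul_div, div_le_iff₀ d, mul_add, ← mul_assoc, inv_mul_cancel₀ hζ.ne']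
  have : 0 < ζ⁻¹ := inv_pos.2 hζ
  have := mul_le_of_le_one_left r0 k1
  linarith

/-- the integral of the tensor product over a box -/
theorem DLTens_box {u : Y × W → ℝ} {k : Y → ℝ} {ζ : ℝ} (hζ : 0 < ζ) (um : Measurable u)
    (u0 : ∀ q, 0 ≤ u q) (ui : Integrable u (μ.prod ν)) (km : Measurable k) (k0 : ∀ y, 0 ≤ k y)
    (k1 : ∀ y, k y ≤ 1) {s : Set Y} {t r : Set W} (hs : MeasurableSet s) (ht : MeasurableSet t)
    (hr : MeasurableSet r) :
    Integrable (fun y => s.indicator 1 y * (k y / (1 + ζ * ∫ w, u (y, w) ∂ν)) *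
      ((∫ v, u (y, v) * t.indicator 1 v ∂ν) * ∫ w, u (y, w) * r.indicator 1 w ∂ν)) μ ∧
    ∫ p, k p.1 / (1 + ζ * ∫ w, u (p.1, w) ∂ν) * (u (p.1, p.2.1) * u (p.1, p.2.2)) *
        (s ×ˢ t ×ˢ r).indicator 1 p ∂(μ.prod (ν.prod ν)) =
      ∫ y, s.indicator 1 y * (k y / (1 + ζ * ∫ w, u (y, w) ∂ν)) *
        ((∫ v, u (y, v) * t.indicator 1 v ∂ν) * ∫ w, u (y, w) * r.indicator 1 w ∂ν) ∂μ := by
  have i01 : ∀ {Z : Type _} (S : Set Z) (z : Z), 0 ≤ S.indicator (1 : Z → ℝ) z ∧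
      S.indicator (1 : Z → ℝ) z ≤ 1 := fun S z => by
    by_cases ha : z ∈ S <;> simp [ha]
  have i02 : ∀ y, 0 ≤ s.indicator (1 : Y → ℝ) y ∧ s.indicator (1 : Y → ℝ) y ≤ 1 := fun z => by
    by_cases ha : z ∈ s <;> simp [ha]
  have cu := fun y => DLTens_cu hζ (k0 y) (k1 y) (integral_nonneg (μ := ν) fun w => u0 (y, w))
  obtain ⟨-, h2, h3, -⟩ := DLTens_dom (μ := μ) (ν := ν) (u := u) (C := ζ⁻¹)
    (a := fun q => u q * t.indicator 1 q.2) (b := fun q => u q * r.indicator 1 q.2)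
    (c := fun y => s.indicator 1 y * (k y / (1 + ζ * ∫ w, u (y, w) ∂ν)))
    (um.mul ((measurable_one.indicator ht).comp measurable_snd))
    (um.mul ((measurable_one.indicator hr).comp measurable_snd))
    ((measurable_one.indicator hs).mul (km.div (((DLTens_mint um).const_mul ζ).const_add 1)))
    (fun q => mul_nonneg (u0 q) (i01 _ _).1) (fun q => mul_nonneg (u0 q) (i01 _ _).1)
    (fun y => mul_nonneg (i02 y).1 (cu y).1)
    (fun q => mul_le_of_le_one_right (u0 q) (i01 _ _).2)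
    (fun q => mul_le_of_le_one_right (u0 q) (i01 _ _).2) ui (fun y => by
      rw [mul_assoc]
      exact (mul_le_of_le_one_left (mul_nonneg (cu y).1
        (integral_nonneg fun w => u0 (y, w))) (i02 y).2).trans (cu y).2.2)
  refine ⟨h2, Eq.trans ?_ h3⟩
  congr 1
  funext p
  by_cases h1 : p.1 ∈ s <;> by_cases h2 : p.2.1 ∈ t <;> by_cases h3 : p.2.2 ∈ r <;>
    simp [indicator, h1, h2, h3]

theorem DLTens_wconv {U : Ultrafilter ℕ} {E' : ℕ → Set (Y × W × W)} {u : ℕ → Y × W → ℝ}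
    {v : Y × W → ℝ} {k : ℕ → Y → ℝ} {ζ : ℝ} (hζ : 0 < ζ)
    (hF : Fam (μ.prod (ν.prod ν)) E' (fun i p => k i p.1 / (1 + ζ * ∫ w, u i (p.1, w) ∂ν) *
      (u i (p.1, p.2.1) * u i (p.1, p.2.2))))
    (um : ∀ i, Measurable (u i)) (u0 : ∀ i q, 0 ≤ u i q) (ui : ∀ i, Integrable (u i) (μ.prod ν))
    (vm : Measurable v) (v0 : ∀ q, 0 ≤ v q) (vi : Integrable v (μ.prod ν))
    (km : ∀ i, Measurable (k i)) (k0 : ∀ i y, 0 ≤ k i y) (k1 : ∀ i y, k i y ≤ 1)
    (hk : Tendsto (fun i => ∫ y, (1 - k i y) * ∫ w, u i (y, w) ∂ν ∂μ) U (𝓝 0))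
    (h1 : Tendsto (fun i => ∫ y, |(∫ w, u i (y, w) ∂ν) - ∫ w, v (y, w) ∂ν| ∂μ) U (𝓝 0))
    (hav : ∀ B : Set W, MeasurableSet B → Tendsto (fun i => ∫ y,
      |(∫ w, u i (y, w) * B.indicator 1 w ∂ν) - ∫ w, v (y, w) * B.indicator 1 w ∂ν| ∂μ) U (𝓝 0)) :
    WConv U (μ.prod (ν.prod ν)) (fun i p => k i p.1 / (1 + ζ * ∫ w, u i (p.1, w) ∂ν) *
      (u i (p.1, p.2.1) * u i (p.1, p.2.2)))
      (fun p => 1 / (1 + ζ * ∫ w, v (p.1, w) ∂ν) * (v (p.1, p.2.1) * v (p.1, p.2.2))) := by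
  obtain ⟨w, wm, w0, wi, hw⟩ := hF.exists_wlim U
  have cu := fun y => DLTens_cu hζ zero_le_one le_rfl (integral_nonneg (μ := ν) fun x => v0 (y, x))
  have cm : Measurable fun y => 1 / (1 + ζ * ∫ x, v (y, x) ∂ν) :=
    measurable_const.div (((DLTens_mint vm).const_mul ζ).const_add 1)
  refine hw.congr (DLTens_ext wm (DLTens_meas vm vm cm) w0
    (fun p => mul_nonneg (cu _).1 (mul_nonneg (v0 _) (v0 _))) wi
    (DLTens_dom vm vm cm v0 v0 (fun y => (cu y).1) (fun _ => le_rfl) (fun _ => le_rfl) vi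
      fun y => (cu y).2.2).1 fun s t r hs ht hr => ?_)
  have i01 : ∀ {Z : Type _} (S : Set Z) (z : Z), 0 ≤ S.indicator (1 : Z → ℝ) z ∧
      S.indicator (1 : Z → ℝ) z ≤ 1 := fun S z => by
    by_cases ha : z ∈ S <;> simp [ha]
  have i02 : ∀ y, 0 ≤ s.indicator (1 : Y → ℝ) y ∧ s.indicator (1 : Y → ℝ) y ≤ 1 := fun z => by
    by_cases ha : z ∈ s <;> simp [ha]
  have i03 : ∀ p, |(s ×ˢ t ×ˢ r).indicator (1 : Y × W × W → ℝ) p| ≤ 1 := fun z => by
    by_cases ha : z ∈ s ×ˢ t ×ˢ r <;> simp [ha]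
  refine tendsto_nhds_unique (hw _ (measurable_one.indicator (hs.prod (ht.prod hr))) ⟨1, i03⟩) ?_
  have bu := fun i => DLTens_box hζ (um i) (u0 i) (ui i) (km i) (k0 i) (k1 i) hs ht hr
  have bv := DLTens_box hζ vm v0 vi (k := fun _ => 1) measurable_const (fun _ => zero_le_one)
    (fun _ => le_rfl) hs ht hr
  simp only [fun i => (bu i).2, bv.2]
  have jB : ∀ {g : Y × W → ℝ}, Integrable g (μ.prod ν) → ∀ {B : Set W}, MeasurableSet B →
      Integrable (fun q : Y × W => g q * B.indicator 1 q.2) (μ.prod ν) := fun {g} gi {B} hB =>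
    WL_int_mul gi ((measurable_one.indicator hB).comp measurable_snd) (C := 1) fun q =>
      WL_bd01 (i01 B) q.2
  have lim := ((hk.add ((hav t ht).add ((hav r hr).add h1))).const_mul ζ⁻¹)
  simp only [add_zero, mul_zero] at lim
  rw [← tendsto_sub_nhds_zero_iff]
  refine squeeze_zero_norm (fun i => ?_) lim
  have j1 : Integrable (fun y => (1 - k i y) * ∫ x, u i (y, x) ∂ν) μ :=
    (ui i).integral_prod_left.bdd_mul (c := 1) (measurable_const.sub (km i)).aestronglyMeasurable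
      (Eventually.of_forall fun y => by
        rw [Real.norm_of_nonneg (sub_nonneg.2 (k1 i y))]
        linarith [k0 i y])
  have j2 := ((jB (ui i) ht).integral_prod_left.sub (jB vi ht).integral_prod_left).abs
  have j3 := ((jB (ui i) hr).integral_prod_left.sub (jB vi hr).integral_prod_left).abs
  have j4 := ((ui i).integral_prod_left.sub vi.integral_prod_left).abs
  simp only [Pi.sub_apply] at j2 j3 j4
  have j5 := j3.fun_add j4
  have j6 := j2.fun_add j5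
  rw [← integral_sub (bu i).1 bv.1, ← integral_add j3 j4, ← integral_add j2 j5,
    ← integral_add j1 j6, ← integral_const_mul]
  refine norm_integral_le_of_norm_le ((j1.fun_add j6).const_mul _) ?_
  have le : ∀ {g : Y × W → ℝ}, (∀ q, 0 ≤ g q) → Integrable g (μ.prod ν) → ∀ {B : Set W},
      MeasurableSet B → ∀ᵐ y ∂μ, 0 ≤ ∫ x, g (y, x) * B.indicator 1 x ∂ν ∧
        ∫ x, g (y, x) * B.indicator 1 x ∂ν ≤ ∫ x, g (y, x) ∂ν := fun {g} g0 gi {B} hB => by
    filter_upwards [gi.prod_right_ae, (jB gi hB).prod_right_ae] with y p1 p2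
    exact ⟨integral_nonneg fun x => mul_nonneg (g0 _) (i01 B x).1,
      integral_mono p2 p1 fun x => mul_le_of_le_one_right (g0 _) (i01 B x).2⟩
  filter_upwards [le (u0 i) (ui i) ht, le (u0 i) (ui i) hr, le v0 vi ht, le v0 vi hr]
    with y p1 p2 p3 p4
  exact DLTens_alg hζ (k1 i y) (i02 y).1 (i02 y).2 p1.1 p2.1 p1.2 p2.2 p3.1 p4.1 p3.2 p4.2

end

theorem DLTens_tw (n : ℕ) (ζ : ℝ) (g : Om → ℝ) (x : X) (v w : V) :
    tw n ζ g x v w = kap n g x / (1 + ζ * ∫ w, (1 + ‖w‖) * g (x, w)) *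
      ((1 + ‖v‖) * g (x, v) * ((1 + ‖w‖) * g (x, w))) := by
  unfold tw rho1
  ring

theorem DLTens_twI (ζ : ℝ) (g : Om → ℝ) (x : X) (v w : V) :
    twI ζ g x v w = 1 / (1 + ζ * ∫ w, (1 + ‖w‖) * g (x, w)) *
      ((1 + ‖v‖) * g (x, v) * ((1 + ‖w‖) * g (x, w))) := by
  unfold twI rho1
  ring

theorem DLTens_mu {g : ℝ → Om → ℝ} (hg : Measurable (Function.uncurry g)) :
    Measurable fun q : (ℝ × X) × V => (1 + ‖q.2‖) * g q.1.1 (q.1.2, q.2) :=
  (measurable_const.add measurable_snd.norm).mul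
    (hg.comp (measurable_fst.fst.prodMk (measurable_fst.snd.prodMk measurable_snd)))

theorem DLTens_mk (n : ℕ) {g : ℝ → Om → ℝ} (hg : Measurable (Function.uncurry g)) :
    Measurable fun y : ℝ × X => kap n (g y.1) y.2 :=
  measurable_kap n (g := fun y : ℝ × X => g y.1)
    (hg.comp (measurable_fst.fst.prodMk measurable_snd)) measurable_snd

variable {F0 : Om → ℝ} {n : ℕ → ℕ} {f0 : ℕ → Om → ℝ} {f : ℕ → ℝ → Om → ℝ} (A : Appr F0 n f0 f)
  {U : Ultrafilter ℕ} {ft : ℝ → Om → ℝ} (L : IsLim U f ft)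
include A L

/- PLAN. Fam: on {|v|,|w| ≤ R, f ≤ K, f_* ≤ K} tw ≤ (1+R)² K²; on {f > K or |v| > R} integrate w first:
∫ (1+|w|) f_* / (1+ζ rho1) ≤ 1/ζ, then `tail`; symmetric. Take the weak limit W (exists_wlim) and identify it with
twI via Measure.ext_prod₃ (finite measures withDensity): on A ×ˢ B ×ˢ C the integral is ∫_A kap Φ(ρ_B, ρ_C, rho1),
Φ(a,b,c) = a b/(1+ζ c) is (1/ζ)-Lipschitz in each variable on 0 ≤ a,b ≤ c; use av (ψ = (1+|v|) 1_B), tendsto_kap. -/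

omit L in
theorem Appr.fam_tw (T : ℝ) {ζ : ℝ} (hζ : 0 < ζ) :
    Fam (mV2 T) E2 (fun i p => tw (n i) ζ (f i p.1.1) p.1.2 p.2.1 p.2.2) := by
  have h := (A.fam_T T).comp (e' := fun p : ℝ × Om => ((p.1, p.2.1), p.2.2))
    (measurePreserving_assoc T) (by fun_prop) (fun _ => rfl) (fun _ => rfl)
  have cu := fun i (y : ℝ × X) => DLTens_cu hζ (kap_pos (n i) ((A.sol i).nonneg y.1) y.2).le
    (kap_le_one (n i) ((A.sol i).nonneg y.1) y.2) (rho1_nonneg ((A.sol i).nonneg y.1) y.2)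
  simp only [DLTens_tw]
  exact DLTens_fam (μ := mY T) (ν := volume) (C := ζ⁻¹)
    (u := fun i (q : (ℝ × X) × V) => (1 + ‖q.2‖) * f i q.1.1 (q.1.2, q.2))
    (c := fun i y => kap (n i) (f i y.1) y.2 / (1 + ζ * ∫ w, (1 + ‖w‖) * f i y.1 (y.2, w))) h
    measurableSet_E2 (mV2_E2_lt_top T) (fun R p h1 h2 => ⟨h1, h2⟩)
    (fun i => (DLTens_mk (n i) (A.sol i).meas).div
      (((DLTens_mint (DLTens_mu (A.sol i).meas)).const_mul ζ).const_add 1))
    (fun i y => (cu i y).1) (fun i y => (cu i y).2.1) (inv_pos.2 hζ) (fun i y => (cu i y).2.2)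

omit A in
theorem IsLim.integrable_twI (T : ℝ) {ζ : ℝ} (hζ : 0 < ζ) :
    Integrable (fun p : (ℝ × X) × V × V => twI ζ (ft p.1.1) p.1.2 p.2.1 p.2.2) (mV2 T) := by
  have vm := DLTens_mu L.meas
  have v0 : ∀ q : (ℝ × X) × V, 0 ≤ (1 + ‖q.2‖) * ft q.1.1 (q.1.2, q.2) := fun q =>
    mul_nonneg (pos_ApUI _).le (L.nonneg _ _)
  have cu := fun y : ℝ × X => DLTens_cu hζ zero_le_one le_rfl (rho1_nonneg (L.nonneg y.1) y.2)
  simp only [DLTens_twI]
  exact (DLTens_dom (μ := mY T) (ν := volume) (C := ζ⁻¹)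
    (c := fun y => 1 / (1 + ζ * ∫ w, (1 + ‖w‖) * ft y.1 (y.2, w))) vm vm
    (measurable_const.div (((DLTens_mint vm).const_mul ζ).const_add 1)) v0 v0 (fun y => (cu y).1)
    (fun _ => le_rfl) (fun _ => le_rfl)
    ((measurePreserving_assoc T).integrable_comp_of_integrable (L.int T)) fun y => (cu y).2.2).1

theorem Appr.wconv_tw (T : ℝ) {ζ : ℝ} (hζ : 0 < ζ) :
    WConv U (mV2 T) (fun i p => tw (n i) ζ (f i p.1.1) p.1.2 p.2.1 p.2.2)
      (fun p => twI ζ (ft p.1.1) p.1.2 p.2.1 p.2.2) := by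
  have hF := A.fam_tw T hζ
  simp only [DLTens_tw, DLTens_twI] at hF ⊢
  refine DLTens_wconv (μ := mY T) (ν := volume)
    (u := fun i (q : (ℝ × X) × V) => (1 + ‖q.2‖) * f i q.1.1 (q.1.2, q.2))
    (v := fun q : (ℝ × X) × V => (1 + ‖q.2‖) * ft q.1.1 (q.1.2, q.2))
    (k := fun i y => kap (n i) (f i y.1) y.2) hζ hF (fun i => DLTens_mu (A.sol i).meas)
    (fun i q => mul_nonneg (pos_ApUI _).le ((A.sol i).nonneg _ _))
    (fun i => (measurePreserving_assoc T).integrable_comp_of_integrable ((A.fam_T T).int i))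
    (DLTens_mu L.meas) (fun q => mul_nonneg (pos_ApUI _).le (L.nonneg _ _))
    ((measurePreserving_assoc T).integrable_comp_of_integrable (L.int T))
    (fun i => DLTens_mk (n i) (A.sol i).meas)
    (fun i y => (kap_pos (n i) ((A.sol i).nonneg y.1) y.2).le)
    (fun i y => kap_le_one (n i) ((A.sol i).nonneg y.1) y.2) (A.tendsto_kap L T)
    (A.tendsto_rho1 L T) fun B hB => ?_
  have h := A.av L T (ψ := fun v => (1 + ‖v‖) * B.indicator 1 v)
    ((measurable_const.add measurable_norm).mul (measurable_one.indicator hB)) fun v => by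
      by_cases hv : v ∈ B
      · simp [hv, abs_of_pos (pos_ApUI v)]
      · simp [hv, (pos_ApUI v).le]
  have e : ∀ (a b c : ℝ), a * (b * c) = b * a * c := fun a b c => by ring
  simp only [e] at h
  exact h

end Vale.Agent.P140
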