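import Vale.Agent.P140.IV2

/-! Accounting of the value: births near the axis are controlled by births far from it. -/

namespace Vale.Agent.P140

open MeasureTheory Set Filter Topology
open scoped ENNReal

open Classical

variable {P : Par} {A : ℕ} {ϱ : ℝ}

/- PLAN Th_le_births: with ψ = ofReal ∘ ps0, ∫ f Th = kap · J, J = I3 (kN f(v) 1_{Prod2 v w} f(w) (ψ v' + ψ w')). By I3_swap
(vp_swap, vq_swap, isKer_kN.swap) J = J' with Prod2 w v. Prod2 v w and Prod2 w v exclude each other (LayR_unique, η < c), so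
2 J ≤ I3 (kN f f (ψ v' + ψ w')) = 2 ∫ Qp ψ (two_lintegral_Qp_mul); ofReal_qn'.
acc1: TrSol.dual with Θ = Th; ValI bounds the left side below by 11/10 (Sin + Cin); lintegral_Om and Th_le_births bound the right side
by Bth (psI + psO) = Cin + Cout. Cin < ⊤ (qn_bdd, ps0_le, integrable_G0_Om), so cancel. -/

theorem iacc_gen {b : V → V → S2 → ℝ≥0∞} (hb : IsKer b) {F ψ : V → ℝ≥0∞} (hF : Measurable F)
    (hψ : Measurable ψ) (hF' : ∀ v, F v ≠ ⊤) {p : V → V → Prop}
    (hp : MeasurableSet {q : V × V × S2 | p q.1 q.2.1}) (hx : ∀ v w, p v w → ¬ p w v) :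
    ∫⁻ v, F v * ∫⁻ w, ∫⁻ ω, b v w ω *
      ((if p v w then F w else 0) * (ψ (vp v w ω) + ψ (vq v w ω))) ∂sig ≤
      ∫⁻ v, Qp b F F v * ψ v := by
  obtain ⟨Φ, hΦ⟩ : ∃ Φ : V → V → S2 → ℝ≥0∞, Φ = fun v w ω => F v * (b v w ω *
    ((if p v w then F w else 0) * (ψ (vp v w ω) + ψ (vq v w ω)))) := ⟨_, rfl⟩
  have hm : Measurable fun q : V × V × S2 => Φ q.1 q.2.1 q.2.2 := by
    rw [hΦ]
    exact (hF.comp measurable_fst).mul (hb.meas.mul
      ((Measurable.ite hp (hF.comp measurable_snd.fst) measurable_const).mul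
        ((hψ.comp (measurable_vp measurable_fst measurable_snd.fst measurable_snd.snd)).add
          (hψ.comp (measurable_vq measurable_fst measurable_snd.fst measurable_snd.snd)))))
  have hm' : Measurable fun q : V × V × S2 => Φ q.2.1 q.1 q.2.2 :=
    hm.comp (f := fun q : V × V × S2 => (q.2.1, q.1, q.2.2))
      (measurable_snd.fst.prodMk (measurable_fst.prodMk measurable_snd.snd))
  have e : ∫⁻ v, F v * ∫⁻ w, ∫⁻ ω, b v w ω *
      ((if p v w then F w else 0) * (ψ (vp v w ω) + ψ (vq v w ω))) ∂sig = I3 Φ := by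
    rw [hΦ, I3]
    refine lintegral_congr fun v => ?_
    rw [← lintegral_const_mul' _ _ (hF' v)]
    refine lintegral_congr fun w => ?_
    rw [← lintegral_const_mul' _ _ (hF' v)]
  rw [e]
  refine (ENNReal.mul_le_mul_iff_right (a := 2) (by norm_num) (by norm_num)).1 ?_
  rw [two_lintegral_Qp_mul hb hF hψ, two_mul]
  nth_rewrite 2 [← I3_swap hm]
  rw [← I3_add (Ψ := fun v w ω => Φ w v ω) hm hm']
  refine I3_mono fun v w ω => ?_
  simp only [hΦ]
  rw [vp_swap v w, vq_swap v w, hb.swap v w, add_comm (ψ (vq v w ω))]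
  by_cases h1 : p v w
  · rw [if_pos h1, if_neg (hx v w h1)]
    refine le_of_eq ?_
    ring
  · rw [if_neg h1]
    by_cases h2 : p w v
    · rw [if_pos h2]
      refine le_of_eq ?_
      ring
    · rw [if_neg h2]
      simp

theorem Sm.Th_le_births (S : Sm P A ϱ) (k : ℕ) {n : ℕ} {f0 : Om → ℝ} {f : ℝ → Om → ℝ}
    (h : TrSol n f0 f) {s : ℝ} (hs : 0 ≤ s) (x : X) :
    ∫⁻ v, ENNReal.ofReal (f s (x, v)) * Th P ϱ k n f s x v ≤
      ∫⁻ v, ENNReal.ofReal (qn n (f s) (x, v)) * ENNReal.ofReal (ps0 P ϱ k s x v) := by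
  have hF := measurable_eo' (h.meas_t s) x
  have hψ : Measurable fun v => ENNReal.ofReal (ps0 P ϱ k s x v) :=
    (measurable_ps0 P ϱ k measurable_const measurable_const measurable_id).ennreal_ofReal
  have h1 := iacc_gen (isKer_kN n) hF hψ (fun _ => ENNReal.ofReal_ne_top)
    (p := fun v w => Prod2 P ϱ k s x v w)
    (measurableSet_Prod2 P ϱ k measurable_const measurable_const measurable_fst measurable_snd.fst)
    (by
      rintro v w ⟨i, -, a1, a2, a3⟩ ⟨j, -, b1, b2, b3⟩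
      obtain rfl := S.LayR_unique a1 b1
      have c1 := S.et_le_lam i
      have c2 := S.et_pos i
      have c3 := S.ok.lamc
      nlinarith)
  simp only [h.ofReal_qn' hs, Th, mul_assoc, mul_left_comm _ (ENNReal.ofReal (kap n (f s) x))]
  rw [lintegral_const_mul' _ _ ENNReal.ofReal_ne_top, lintegral_const_mul' _ _ ENNReal.ofReal_ne_top]
  exact mul_le_mul_right h1 _

theorem Sm.Bth_lt_top (S : Sm P A ϱ) (k : ℕ) {n : ℕ} {f0 : Om → ℝ} {f : ℝ → Om → ℝ}
    (h : TrSol n f0 f) : Bth P ϱ n f (psI P ϱ k) < ⊤ := by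
  obtain ⟨C, hC⟩ := h.qn_bdd (TT P ϱ)
  obtain ⟨K, hK⟩ : ∃ K, K = (1 / ar P ϱ (k + 1)) ^ 66 := ⟨_, rfl⟩
  have hi : Integrable (fun z : Om => C * G0 z.2) := by
    simpa using (integrable_G0_Om 0).const_mul C
  have h1 : Bth P ϱ n f (psI P ϱ k) ≤ ∫⁻ _ in Ioc 0 (TT P ϱ),
      (∫⁻ z : Om, ENNReal.ofReal (C * G0 z.2)) * ENNReal.ofReal K := by
    refine setLIntegral_mono' measurableSet_Ioc fun s hs => ?_
    rw [← lintegral_mul_const' _ _ ENNReal.ofReal_ne_top]
    refine lintegral_mono fun z => mul_le_mul' (ENNReal.ofReal_le_ofReal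
      (hC s ⟨hs.1.le, hs.2⟩ z)) ?_
    unfold psI
    split_ifs
    · exact ENNReal.ofReal_le_ofReal (hK ▸ S.ps0_le k hs.1.le z.1 z.2)
    · exact bot_le
  refine h1.trans_lt ?_
  rw [setLIntegral_const]
  exact ENNReal.mul_lt_top (ENNReal.mul_lt_top hi.lintegral_lt_top ENNReal.ofReal_lt_top)
    measure_Ioc_lt_top

theorem Run.acc1 {k n : ℕ} {ς N : ℝ} {f : ℝ → Om → ℝ} (R : Run P A ϱ k n ς N f)
    (hv : ValI P ϱ k n f) :
    Sin P ϱ k ς ≤ Bth P ϱ n f (psO P ϱ k) ∧
      Bth P ϱ n f (psI P ϱ k) ≤ 10 * Bth P ϱ n f (psO P ϱ k) := by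
  have S := R.sm
  have h := R.sol
  have hT := S.TT_pos.le
  have hΘ := measurable_Th P ϱ k n h.meas
  have h1 := h.dual hT hΘ
  have hq : Measurable fun p : ℝ × Om => ENNReal.ofReal (qn n (f p.1) p.2) :=
    h.trDual_mq measurable_fst measurable_snd
  have hI : Measurable fun p : ℝ × Om =>
      ENNReal.ofReal (qn n (f p.1) p.2) * psI P ϱ k p.1 p.2.1 p.2.2 :=
    hq.mul (measurable_psI P ϱ k measurable_fst measurable_snd.fst measurable_snd.snd)
  have l1 : ENNReal.ofReal (11 / 10) * Sin P ϱ k ς ≤ ∫⁻ z : Om, ENNReal.ofReal (dat P ϱ k ς z) *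
      Fw n f (TT P ϱ) (Th P ϱ k n f) 0 z.1 z.2 := by
    rw [Sin, ← lintegral_const_mul' _ _ ENNReal.ofReal_ne_top]
    refine lintegral_mono fun z => ?_
    rw [mul_left_comm]
    exact mul_le_mul_right (hv 0 ⟨le_rfl, hT⟩ z.1 z.2) _
  have l2 : ENNReal.ofReal (11 / 10) * Bth P ϱ n f (psI P ϱ k) ≤ ∫⁻ s in Ioc 0 (TT P ϱ),
      ∫⁻ z : Om, ENNReal.ofReal (qn n (f s) z) * Fw n f (TT P ϱ) (Th P ϱ k n f) s z.1 z.2 := by
    rw [Bth, ← lintegral_const_mul' _ _ ENNReal.ofReal_ne_top]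
    refine setLIntegral_mono' measurableSet_Ioc fun s hs => ?_
    rw [← lintegral_const_mul' _ _ ENNReal.ofReal_ne_top]
    refine lintegral_mono fun z => ?_
    rw [mul_left_comm]
    exact mul_le_mul_right (hv s ⟨hs.1.le, hs.2⟩ z.1 z.2) _
  have l3 : ∫⁻ t in Ioc 0 (TT P ϱ), ∫⁻ z : Om, ENNReal.ofReal (f t z) * Th P ϱ k n f t z.1 z.2 ≤
      Bth P ϱ n f (psI P ϱ k) + Bth P ϱ n f (psO P ϱ k) := by
    rw [Bth, Bth, ← lintegral_add_left hI.lintegral_prod_right']
    refine setLIntegral_mono' measurableSet_Ioc fun s hs => ?_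
    have m1 : Measurable fun z : Om => ENNReal.ofReal (f s z) * Th P ϱ k n f s z.1 z.2 :=
      (h.meas_t s).ennreal_ofReal.mul (hΘ.comp (f := fun z : Om => (s, z))
        (measurable_const.prodMk measurable_id))
    have m2 : Measurable fun z : Om =>
        ENNReal.ofReal (qn n (f s) z) * ENNReal.ofReal (ps0 P ϱ k s z.1 z.2) :=
      (h.trDual_mq measurable_const measurable_id).mul
        (measurable_ps0 P ϱ k measurable_const measurable_fst measurable_snd).ennreal_ofReal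
    have m3 : Measurable fun z : Om => ENNReal.ofReal (qn n (f s) z) * psI P ϱ k s z.1 z.2 :=
      hI.comp (f := fun z : Om => (s, z)) (measurable_const.prodMk measurable_id)
    rw [← lintegral_add_left m3, lintegral_Om m1]
    refine (lintegral_mono fun x => S.Th_le_births k h hs.1.le x).trans ?_
    rw [← lintegral_Om m2]
    refine lintegral_mono fun z => le_of_eq ?_
    simp only [psI, psO]
    split_ifs <;> simp
  have h2 := ((add_le_add l1 l2).trans h1).trans l3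
  have h3 := (S.Bth_lt_top k h).ne
  generalize Bth P ϱ n f (psI P ϱ k) = a at h2 h3 ⊢
  generalize Bth P ϱ n f (psO P ϱ k) = c at h2 ⊢
  generalize Sin P ϱ k ς = d at h2 ⊢
  have e : ENNReal.ofReal (11 / 10) = 1 + ENNReal.ofReal (1 / 10) := by
    rw [← ENNReal.ofReal_one, ← ENNReal.ofReal_add (by norm_num) (by norm_num)]
    norm_num
  have e2 : (10 : ℝ≥0∞) * ENNReal.ofReal (1 / 10) = 1 := by
    rw [← ENNReal.ofReal_ofNat 10, ← ENNReal.ofReal_mul (by norm_num)]
    norm_num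
  rw [e] at h2
  have h4 : a + ((d + ENNReal.ofReal (1 / 10) * d) + ENNReal.ofReal (1 / 10) * a) ≤ a + c :=
    le_of_eq_of_le (by ring) h2
  have h5 := (ENNReal.add_le_add_iff_left h3).1 h4
  refine ⟨(le_self_add.trans le_self_add).trans h5, ?_⟩
  calc a = 10 * (ENNReal.ofReal (1 / 10) * a) := by rw [← mul_assoc, e2, one_mul]
    _ ≤ 10 * c := mul_le_mul_right (le_add_self.trans h5) _

end Vale.Agent.P140
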