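import Vale.Agent.P140.IV2

/-! The observable controls the births far from the axis; the seed is controlled by its value. -/

namespace Vale.Agent.P140

open MeasureTheory Set Filter Topology
open scoped ENNReal

open Classical

/- PLAN exists_Cout: psO ≠ 0 forces ϱ/4 < r ≤ ϱ/2, τ ≤ y0, so x lies in a layer j ≤ k, and psO ≤ (4/ϱ)^66. If W_j v ≤ lam² and
W_j w ≤ lam² then W_j v' ≤ 2 lam² (Wf_energy), ‖vb v'‖ < 3 lam ≤ Lam lam (Wf_ge_vb) and psO v' = 0; otherwise chi v + chi w ≥ 1.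
ofReal_qn', kap ≤ 1, lintegral_Qp_mul, I3_swap, lintegral_ker_le, |v - w| ≤ (1+‖v‖)(1+‖w‖), exists_den (rbar ≤ 4 C0/ϱ).
exists_seed: dat ≥ ς G0; on τ ≤ r ≤ 2τ (le_volume_rr, 8τ ≤ ϱ) and the ball of radius 1/4 around EuclideanSpace.single 1 (1/2)
(le_volume_ball): ‖vb v‖ ≥ 1/4 ≥ Lam lam, ‖v‖ ≤ 3/4, psI ≥ (1/(2τ))^66 / 2, G0 ≥ exp(-2).
exists_O: where chi ≠ 0 we have f ≤ N gam (chi_cold); 1 + ‖v‖ ≤ M + (1+‖v‖)²/M; exists_gam_int, T ≤ 1, volume_X_univ;
f chi is integrable for mT (TrSol.ub), ofReal_integral_eq_lintegral_ofReal, lintegral_mT. -/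

theorem iacc2_pair {a b : V → ℝ≥0∞} (ha : Measurable a) (hb : Measurable b) (c : ℝ≥0∞) :
    ∫⁻ v, ∫⁻ w, c * (a v * b w + b v * a w) = c * (2 * (∫⁻ w, b w) * ∫⁻ v, a v) := by
  have h1 : ∀ v, ∫⁻ w, c * (a v * b w + b v * a w) =
      c * (a v * (∫⁻ w, b w) + b v * ∫⁻ w, a w) := fun v => by
    rw [lintegral_const_mul _ ((hb.const_mul _).fun_add (ha.const_mul _)),
      lintegral_add_left (hb.const_mul _), lintegral_const_mul _ hb, lintegral_const_mul _ ha]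
  simp only [h1]
  rw [lintegral_const_mul _ ((ha.mul_const _).fun_add (hb.mul_const _)),
    lintegral_add_left (ha.mul_const _), lintegral_mul_const _ ha, lintegral_mul_const _ hb]
  ring

theorem iacc2_ps {P : Par} {A : ℕ} {ϱ : ℝ} (S : Sm P A ϱ) (k : ℕ) {j : ℕ} {s : ℝ} {x : X}
    (hj : Lay P ϱ j s x) (v w : V) (ω : S2) :
    psO P ϱ k s x (vp v w ω) ≤ ENNReal.ofReal ((4 / ϱ) ^ 66) *
      (ENNReal.ofReal (chi P ϱ (s, x, v)) + ENNReal.ofReal (chi P ϱ (s, x, w))) := by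
  have hρ := S.pos
  have hl := S.ok.lam0
  rw [psO]
  split_ifs with h1
  · exact zero_le
  rw [ps0]
  split_ifs with h2
  swap
  · simp
  have h3 : ENNReal.ofReal ((1 / rr x) ^ 66 * max (1 - rr x * ‖vp v w ω‖ ^ 2) 0) ≤
      ENNReal.ofReal ((4 / ϱ) ^ 66) := by
    have h4 : 0 < rr x := by linarith
    refine ENNReal.ofReal_le_ofReal ((mul_le_of_le_one_right (by positivity)
      (max_le (sub_le_self _ (by positivity)) zero_le_one)).trans
      (pow_le_pow_left₀ (by positivity) ?_ _))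
    rw [div_le_div_iff₀ h4 hρ]
    linarith
  refine h3.trans (le_mul_of_one_le_right' ?_)
  have key : ∀ u : V, P.lam ^ 2 < Wf P (sg j) x u → ENNReal.ofReal (chi P ϱ (s, x, u)) = 1 :=
    fun u hu => by rw [chi, if_pos ⟨j, hj, hu⟩, ENNReal.ofReal_one]
  by_cases hv : P.lam ^ 2 < Wf P (sg j) x v
  · rw [key v hv]; exact le_self_add
  by_cases hw : P.lam ^ 2 < Wf P (sg j) x w
  · rw [key w hw]; exact le_add_self
  exfalso
  have e1 := Wf_energy (P := P) (sg j) x v w ω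
  have e2 := Wf_nonneg S.ok (sg j) x (vq v w ω)
  have e3 := Wf_ge_vb S.ok (sg j) x (vp v w ω)
  have e4 : 2 * P.lam ≤ ‖vb (vp v w ω)‖ - P.lam := by
    nlinarith [h2.1, mul_le_mul_of_nonneg_right S.ok.Lam3 hl.le]
  have e5 := pow_le_pow_left₀ (by positivity) e4 2
  nlinarith [pow_pos hl 2]

theorem iacc2_slice {P : Par} (hP : P.OK) : ∃ K : ℝ, 0 ≤ K ∧ ∀ (A : ℕ) (ϱ : ℝ) (k n : ℕ)
    (ς N : ℝ) (f : ℝ → Om → ℝ), Run P A ϱ k n ς N f → ∀ s ∈ Icc 0 (TT P ϱ), ∀ x : X,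
      ∫⁻ v, ENNReal.ofReal (qn n (f s) (x, v)) * psO P ϱ k s x v ≤
        ENNReal.ofReal K * ENNReal.ofReal (1 / ϱ ^ 67) *
          ∫⁻ v, ENNReal.ofReal (f s (x, v) * chi P ϱ (s, x, v) * (1 + ‖v‖)) := by
  obtain ⟨K, hK, h⟩ := exists_den
  have hC : 0 < P.C0 := by linarith [hP.C0]
  refine ⟨13 * 4 ^ 66 * (2 * (K * (4 * P.C0))), by positivity, fun A ϱ k n ς N f R s hs x => ?_⟩
  have S := R.sm
  have hρ := S.pos
  by_cases hc : ϱ / 4 < rr x ∧ ar P ϱ (k + 1) ≤ y0 P s x ∧ rr x ≤ ϱ / 2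
  swap
  · have h0 : ∀ v, psO P ϱ k s x v = 0 := fun v => by
      rw [psO]
      split_ifs with h1
      · rfl
      · rw [ps0, if_neg fun h2 => hc ⟨not_le.1 h1, h2.2⟩, ENNReal.ofReal_zero]
    simp [h0]
  have hI : InL P ϱ k s x := (S.InL_iff k s x).2 ⟨hc.2.1, by
    rw [y0]; linarith [mul_nonneg S.ok.lam0.le hs.1, hc.2.2]⟩
  have hD := (h P A ϱ k n ς N f R s hs x).2 hI
  have hr : rbar P ϱ k s x ≤ 4 * P.C0 / ϱ := by
    rw [rbar, if_pos hI, div_le_div_iff₀ (by linarith [hc.1]) hρ]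
    nlinarith [hc.1]
  obtain ⟨j, -, hj⟩ := hI
  have me := measurable_eo' (R.sol.meas_t s) x
  have mp : Measurable (psO P ϱ k s x) :=
    measurable_psO P ϱ k measurable_const measurable_const measurable_id
  have ma : Measurable fun v : V => ENNReal.ofReal (f s (x, v) * chi P ϱ (s, x, v) * (1 + ‖v‖)) :=
    ((((R.sol.meas_t s).comp measurable_prodMk_left).mul ((measurable_chi P ϱ).comp
      (measurable_prodMk_left.comp measurable_prodMk_left))).mul (by fun_prop)).ennreal_ofReal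
  have mb : Measurable fun w : V => ENNReal.ofReal (1 + ‖w‖) * eo (f s) x w :=
    Measurable.mul (by fun_prop) me
  calc _ ≤ ∫⁻ v, Qp (kN n) (eo (f s) x) (eo (f s) x) v * psO P ϱ k s x v := by
        refine lintegral_mono fun v => mul_le_mul_left ?_ _
        rw [R.sol.ofReal_qn' hs.1]
        exact mul_le_of_le_one_left' (ENNReal.ofReal_le_one.2 (kap_le_one n (R.sol.nonneg s) x))
    _ ≤ ∫⁻ v, ∫⁻ w, ENNReal.ofReal (13 * (4 / ϱ) ^ 66) *
          (ENNReal.ofReal (f s (x, v) * chi P ϱ (s, x, v) * (1 + ‖v‖)) *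
            (ENNReal.ofReal (1 + ‖w‖) * eo (f s) x w) + ENNReal.ofReal (1 + ‖v‖) * eo (f s) x v *
            ENNReal.ofReal (f s (x, w) * chi P ϱ (s, x, w) * (1 + ‖w‖))) := by
        rw [lintegral_Qp_mul (isKer_kN n) me me mp]
        refine lintegral_mono fun v => lintegral_mono fun w => ?_
        refine (lintegral_mono fun ω => mul_le_mul_right (iacc2_ps S k hj v w ω) _).trans ?_
        simp only [mul_assoc (kN n v w _)]
        rw [lintegral_mul_const _ ((isKer_kN n).measurable_comp measurable_const measurable_const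
          measurable_id')]
        have h1 : ‖v - w‖ ≤ (1 + ‖v‖) * (1 + ‖w‖) := by
          nlinarith [norm_sub_le v w, mul_nonneg (norm_nonneg v) (norm_nonneg w)]
        refine (mul_le_mul_left ((lintegral_ker_le (isKer_kN n) v w).trans
          (ENNReal.ofReal_le_ofReal (mul_le_mul_of_nonneg_left h1 (by norm_num)))) _).trans
          (le_of_eq ?_)
        have e : ∀ u : V, ENNReal.ofReal (f s (x, u) * chi P ϱ (s, x, u) * (1 + ‖u‖)) =
            eo (f s) x u * ENNReal.ofReal (chi P ϱ (s, x, u)) * ENNReal.ofReal (1 + ‖u‖) :=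
          fun u => by
            rw [ENNReal.ofReal_mul (mul_nonneg (R.sol.nonneg _ _) (chi_mem P ϱ _).1),
              ENNReal.ofReal_mul (R.sol.nonneg _ _), eo]
        rw [e, e, ENNReal.ofReal_mul (by norm_num), ENNReal.ofReal_mul (by positivity),
          ENNReal.ofReal_mul (p := 13) (by norm_num)]
        ring
    _ ≤ _ := by
        rw [iacc2_pair ma mb, ← mul_assoc]
        refine mul_le_mul_left ((mul_le_mul_right (mul_le_mul_right (hD.trans
          (ENNReal.ofReal_le_ofReal (mul_le_mul_of_nonneg_left hr (by linarith)))) 2) _).trans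
          (le_of_eq ?_)) _
        rw [← ENNReal.ofReal_ofNat 2, ← ENNReal.ofReal_mul (by norm_num),
          ← ENNReal.ofReal_mul (by positivity), ← ENNReal.ofReal_mul (by positivity)]
        congr 1
        field_simp

theorem iacc2_psI {P : Par} {A : ℕ} {ϱ : ℝ} (S : Sm P A ϱ) {k : ℕ} (hk : 8 * ar P ϱ (k + 1) ≤ ϱ)
    {x : X} (hx : ar P ϱ (k + 1) ≤ rr x ∧ rr x ≤ 2 * ar P ϱ (k + 1)) {v : V}
    (hv : ‖v - EuclideanSpace.single 1 (1 / 2)‖ ≤ 1 / 4) :
    ENNReal.ofReal ((1 / (2 * ar P ϱ (k + 1))) ^ 66 * (1 / 2)) ≤ psI P ϱ k 0 x v ∧ ‖v‖ ≤ 1 := by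
  have hτ := S.ar_pos (k + 1)
  have h1 : ‖v‖ ≤ 1 := by
    have := norm_le_norm_add_norm_sub' v (EuclideanSpace.single 1 (1 / 2))
    rw [PiLp.norm_single, Real.norm_of_nonneg (by norm_num)] at this
    linarith
  have h2 : 1 / 4 ≤ ‖vb v‖ := by
    have a1 := PiLp.norm_apply_le (v - EuclideanSpace.single 1 (1 / 2)) 1
    have a2 := PiLp.norm_apply_le (vb v) 1
    rw [vb_one, Real.norm_eq_abs] at a2
    have a3 : (v - EuclideanSpace.single 1 (1 / 2) : V) 1 = v 1 - 1 / 2 := by simp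
    rw [a3, Real.norm_eq_abs] at a1
    linarith [neg_abs_le (v 1 - 1 / 2), le_abs_self (v 1)]
  refine ⟨?_, h1⟩
  have h3 : 0 < rr x := by linarith [hx.1]
  rw [psI, if_pos (by linarith [hx.2]), ps0, if_pos ⟨S.ok.Laml.trans h2,
    by rw [y0, mul_zero, sub_zero]; exact hx.1, by linarith [hx.2]⟩]
  refine ENNReal.ofReal_le_ofReal (mul_le_mul (pow_le_pow_left₀ (by positivity)
    (one_div_le_one_div_of_le h3 hx.2) _) (le_max_of_le_left ?_) (by norm_num) (by positivity))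
  have h4 : ‖v‖ ^ 2 ≤ 1 := pow_le_one₀ (norm_nonneg v) h1
  nlinarith [mul_le_mul_of_nonneg_left h4 h3.le, hx.2, S.rho_le']

theorem exists_Cout {P : Par} (hP : P.OK) : ∃ K : ℝ, 0 ≤ K ∧ ∀ (A : ℕ) (ϱ : ℝ) (k n : ℕ) (ς N : ℝ)
    (f : ℝ → Om → ℝ), Run P A ϱ k n ς N f →
      Bth P ϱ n f (psO P ϱ k) ≤ ENNReal.ofReal K * VV P ϱ N f := by
  obtain ⟨K, hK, h⟩ := iacc2_slice hP
  refine ⟨K, hK, fun A ϱ k n ς N f R => le_trans ?_ (mul_le_mul_right le_self_add _)⟩
  have hc : ENNReal.ofReal K * ENNReal.ofReal (1 / ϱ ^ 67) ≠ ⊤ :=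
    ENNReal.mul_ne_top ENNReal.ofReal_ne_top ENNReal.ofReal_ne_top
  rw [← mul_assoc, O1, ← lintegral_const_mul' _ _ hc, Bth]
  refine setLIntegral_mono' measurableSet_Ioc fun s hs => ?_
  have m1 : Measurable fun z : Om => ENNReal.ofReal (qn n (f s) z) * psO P ϱ k s z.1 z.2 :=
    (R.sol.trDual_mq measurable_const measurable_id).mul
      (measurable_psO P ϱ k measurable_const measurable_fst measurable_snd)
  have m2 : Measurable fun z : Om => ENNReal.ofReal (f s z * chi P ϱ (s, z) * (1 + ‖z.2‖)) :=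
    (((R.sol.meas_t s).mul ((measurable_chi P ϱ).comp measurable_prodMk_left)).mul
      (by fun_prop)).ennreal_ofReal
  rw [lintegral_Om m1, lintegral_Om m2, ← lintegral_const_mul' _ _ hc]
  exact lintegral_mono fun x => h A ϱ k n ς N f R s ⟨hs.1.le, hs.2⟩ x

theorem exists_seed : ∃ K : ℝ, 0 ≤ K ∧ ∀ (P : Par) (A : ℕ) (ϱ : ℝ), Sm P A ϱ → ∀ k : ℕ,
    8 * ar P ϱ (k + 1) ≤ ϱ → ∀ ς : ℝ, 0 ≤ ς →
      ENNReal.ofReal ς ≤ ENNReal.ofReal (K * ar P ϱ (k + 1) ^ 64) * Sin P ϱ k ς := by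
  refine ⟨Real.exp 2 * 2 ^ 66 * 640, by positivity, fun P A ϱ S k hk ς hς => ?_⟩
  have hτ := S.ar_pos (k + 1)
  have mE : MeasurableSet {x : X | ar P ϱ (k + 1) ≤ rr x ∧ rr x ≤ 2 * ar P ϱ (k + 1)} :=
    (measurableSet_le measurable_const measurable_rr).inter
      (measurableSet_le measurable_rr measurable_const)
  have mB : MeasurableSet {v : V | ‖v - EuclideanSpace.single 1 (1 / 2)‖ ≤ 1 / 4} :=
    (isClosed_le (by fun_prop) continuous_const).measurableSet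
  have h1 : ENNReal.ofReal (ς * Real.exp (-2)) *
      ENNReal.ofReal ((1 / (2 * ar P ϱ (k + 1))) ^ 66 * (1 / 2)) *
      (ENNReal.ofReal (ar P ϱ (k + 1) ^ 2 / 5) * ENNReal.ofReal ((1 / 4) ^ 3)) ≤ Sin P ϱ k ς := by
    refine (mul_le_mul_right (mul_le_mul' (le_volume_rr hτ.le (by linarith [S.rho_le']))
      (le_volume_ball (EuclideanSpace.single 1 (1 / 2)) (by norm_num))) _).trans ?_
    rw [← Measure.prod_prod, ← Measure.volume_eq_prod, ← setLIntegral_const]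
    refine le_trans (setLIntegral_mono' (mE.prod mB) fun z hz => ?_) (setLIntegral_le_lintegral _ _)
    obtain ⟨a1, a2⟩ := iacc2_psI S hk hz.1 hz.2
    refine mul_le_mul' (ENNReal.ofReal_le_ofReal ?_) a1
    have a3 : Real.exp (-2) ≤ G0 z.2 := Real.exp_le_exp.2 (by
      nlinarith [pow_le_one₀ (norm_nonneg z.2) a2 (n := 2)])
    exact (mul_le_mul_of_nonneg_left a3 hς).trans (le_add_of_nonneg_left (S.Bc_nonneg k 0 _ _))
  refine le_trans (le_of_eq ?_) (mul_le_mul_right h1 _)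
  rw [← ENNReal.ofReal_mul (by positivity), ← ENNReal.ofReal_mul (by positivity),
    ← ENNReal.ofReal_mul (by positivity), ← ENNReal.ofReal_mul (by positivity), Real.exp_neg]
  congr 1
  field_simp
  ring

theorem exists_O : ∃ K : ℝ, 1 ≤ K ∧ ∀ (P : Par) (A : ℕ) (ϱ : ℝ), Sm P A ϱ → ∀ k n m : ℕ, m ≤ A →
    ∀ (f0 : Om → ℝ) (f : ℝ → Om → ℝ) (N : ℝ), 0 ≤ N → TrSol n f0 f → Adm P ϱ k A m N f →
      ∫ p, f p.1 p.2 * chi P ϱ p ∂(mT (TT P ϱ)) ≤ K * N ∧
      ∀ M : ℝ, 0 < M → O1 P ϱ f ≤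
        ENNReal.ofReal (M * (∫ p, f p.1 p.2 * chi P ϱ p ∂(mT (TT P ϱ))) + K * N / M) := by
  obtain ⟨K, hK, h⟩ := exists_gam_int
  refine ⟨K, hK, fun P A ϱ S k n m hm f0 f N hN hf hA => ?_⟩
  have m0 : Measurable fun p : ℝ × Om => f p.1 p.2 * chi P ϱ p := hf.meas.mul (measurable_chi P ϱ)
  have p0 : ∀ p : ℝ × Om, 0 ≤ f p.1 p.2 * chi P ϱ p := fun p =>
    mul_nonneg (hf.nonneg _ _) (chi_mem P ϱ p).1
  have m1 : Measurable fun p : ℝ × Om => ENNReal.ofReal (f p.1 p.2 * chi P ϱ p * (1 + ‖p.2.2‖)) :=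
    (m0.mul (by fun_prop)).ennreal_ofReal
  have m2 : Measurable fun p : ℝ × Om =>
      ENNReal.ofReal (f p.1 p.2 * chi P ϱ p * (1 + ‖p.2.2‖) ^ 2) :=
    (m0.mul (by fun_prop)).ennreal_ofReal
  have h2 : ∫⁻ p, ENNReal.ofReal (f p.1 p.2 * chi P ϱ p * (1 + ‖p.2.2‖) ^ 2) ∂(mT (TT P ϱ)) ≤
      ENNReal.ofReal (K * N) := by
    rw [lintegral_mT _ m2]
    refine (setLIntegral_mono' measurableSet_Ioc (g := fun _ => ENNReal.ofReal (K * N))
      fun t ht => ?_).trans ?_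
    · have ht' : t ∈ Icc 0 (TT P ϱ) := ⟨ht.1.le, ht.2⟩
      refine (lintegral_Om (m2.comp (measurable_prodMk_left (x := t)))).trans_le
        ((lintegral_mono (g := fun _ => ENNReal.ofReal (K * N)) fun x => ?_).trans
          (by rw [lintegral_const, volume_X_univ, mul_one]))
      simp only [Function.comp]
      rw [mul_comm K, ENNReal.ofReal_mul hN]
      refine le_trans ?_ (mul_le_mul_right (h P A ϱ S k m hm t ht' x).1 _)
      rw [← lintegral_const_mul' _ _ ENNReal.ofReal_ne_top]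
      refine lintegral_mono fun v => ?_
      rw [← ENNReal.ofReal_mul hN]
      refine ENNReal.ofReal_le_ofReal ?_
      have a1 : f t (x, v) * chi P ϱ (t, x, v) ≤ N * gam P ϱ k A m t x v := by
        by_cases hc : chi P ϱ (t, x, v) = 0
        · rw [hc, mul_zero]
          exact mul_nonneg hN (S.gam_nonneg k m ht'.1 x v)
        · have a2 := hA t ht' x v
          rw [S.chi_cold ht' hc, zero_add] at a2
          exact (mul_le_of_le_one_right (hf.nonneg _ _) (chi_mem P ϱ _).2).trans a2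
      exact (mul_le_mul_of_nonneg_right a1 (sq_nonneg (1 + ‖v‖))).trans_eq (by ring)
    · rw [setLIntegral_const, Real.volume_Ioc, sub_zero]
      exact mul_le_of_le_one_right' (ENNReal.ofReal_le_one.2 (by linarith [S.TT_le]))
  have h0 : ∫⁻ p, ENNReal.ofReal (f p.1 p.2 * chi P ϱ p) ∂(mT (TT P ϱ)) ≤
      ENNReal.ofReal (K * N) := le_trans (lintegral_mono fun p => ENNReal.ofReal_le_ofReal
    (le_mul_of_one_le_right (p0 p) (one_le_pow₀ (le_add_of_nonneg_right (norm_nonneg _))))) h2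
  have hKN : 0 ≤ K * N := mul_nonneg (by linarith) hN
  rw [integral_eq_lintegral_of_nonneg_ae (.of_forall p0) m0.aestronglyMeasurable]
  refine ⟨ENNReal.toReal_le_of_le_ofReal hKN h0, fun M hM => ?_⟩
  rw [ENNReal.ofReal_add (by positivity) (by positivity), ENNReal.ofReal_mul hM.le,
    ENNReal.ofReal_toReal (h0.trans_lt ENNReal.ofReal_lt_top).ne, O1, ← lintegral_mT _ m1,
    div_eq_inv_mul, ENNReal.ofReal_mul (by positivity)]
  refine le_trans ?_ (add_le_add_right (mul_le_mul_right h2 _) _)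
  rw [← lintegral_const_mul _ m0.ennreal_ofReal, ← lintegral_const_mul _ m2,
    ← lintegral_add_left (m0.ennreal_ofReal.const_mul _)]
  refine lintegral_mono fun p => ?_
  have a0 := p0 p
  rw [← ENNReal.ofReal_mul hM.le, ← ENNReal.ofReal_mul (by positivity),
    ← ENNReal.ofReal_add (by positivity) (by positivity)]
  refine ENNReal.ofReal_le_ofReal ?_
  have a1 : 1 + ‖p.2.2‖ ≤ M + M⁻¹ * (1 + ‖p.2.2‖) ^ 2 := by
    have a2 : M + M⁻¹ * (1 + ‖p.2.2‖) ^ 2 - (1 + ‖p.2.2‖) =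
        M⁻¹ * ((M - (1 + ‖p.2.2‖)) ^ 2 + M * (1 + ‖p.2.2‖)) := by field_simp; ring
    rw [← sub_nonneg, a2]
    positivity
  exact (mul_le_mul_of_nonneg_left a1 a0).trans_eq (by ring)

end Vale.Agent.P140
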