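import Vale.Agent.P140.IAcc1

/-! The number of productive collisions in a small cone. -/

namespace Vale.Agent.P140

open MeasureTheory Set Filter Topology
open scoped ENNReal

open Classical

/- PLAN. The integrand of NP at (s,x) is kap ∫ f(v) nuP(v) dv; it vanishes unless x lies in a layer j ≤ k, and r = rr x ≤ ρ.
nuP v ≠ 0 implies Prod1, and nuP ≤ 13 (1+‖v‖) K C0/r (Lo_le, exists_den). Bound kap f(v) nuP(v) by the sum of three terms:
(i) r ≤ ϱ/4, r ‖v‖² ≤ 1/2: Th_ge with rp = r gives kap nuP ≤ r^66 Th ≤ ρ^64 Th; then Th_le_births and ofReal ps0 = psI.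
(ii) r ‖v‖² > 1/2: v is not cold (Cold_norm, r ≤ 2ϱ), Run.hot_le, third part of exists_gam_int with b = 1/(2r),
exp(-1/(4r)) ≤ 65! (4r)^65 (Real.pow_div_factorial_le_exp); integrate over x and s ≤ T = ϱ/lam.
(iii) r > ϱ/4: Prod1 gives chi = 1 (lam < c by hV.lamc), C0/r ≤ 4 C0/ϱ ≤ 4 C0 (4ρ)^64/ϱ^67. -/

private theorem acc3_int {T : ℝ} (hT : T ≤ 1) {J L : ℝ → X → ℝ≥0∞} {H : ℝ → Om → ℝ≥0∞}
    (hH : Measurable (Function.uncurry H)) (a c : ℝ≥0∞)
    (h : ∀ s ∈ Ioc 0 T, ∀ x, J s x ≤ a * (∫⁻ v, H s (x, v)) + L s x + c) :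
    ∫⁻ s in Ioc 0 T, ∫⁻ x, J s x ≤
      a * (∫⁻ s in Ioc 0 T, ∫⁻ z, H s z) + (∫⁻ s in Ioc 0 T, ∫⁻ x, L s x) + c := by
  have m1 : ∀ s, Measurable fun x => ∫⁻ v, H s (x, v) := fun s =>
    Measurable.lintegral_prod_right' (f := H s) hH.of_uncurry_left
  have m2 : Measurable fun s => ∫⁻ z, H s z := hH.lintegral_prod_right
  have e : ∀ s, ∫⁻ x, ∫⁻ v, H s (x, v) = ∫⁻ z, H s z := fun s =>
    (lintegral_prod _ hH.of_uncurry_left.aemeasurable).symm
  refine (setLIntegral_mono' (g := fun s => a * (∫⁻ z, H s z) + (∫⁻ x, L s x) + c)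
    measurableSet_Ioc fun s hs => (lintegral_mono (h s hs)).trans_eq ?_).trans ?_
  · rw [lintegral_add_right _ measurable_const, lintegral_add_left ((m1 s).const_mul a),
      lintegral_const_mul _ (m1 s), e, lintegral_const, measure_univ, mul_one]
  · rw [lintegral_add_right _ measurable_const, lintegral_add_left (m2.const_mul a),
      lintegral_const_mul _ m2, setLIntegral_const, Real.volume_Ioc]
    exact add_le_add_right (mul_le_of_le_one_right' (ENNReal.ofReal_le_one.2 (by linarith))) _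

private theorem acc3_exp : ∃ K : ℝ, 0 ≤ K ∧ ∀ r : ℝ, 0 < r →
    Real.exp (-(1 / (2 * r)) / 2) ≤ K * r ^ 66 := by
  have h0 : (0 : ℝ) < (Nat.factorial 66 : ℕ) := Nat.cast_pos.2 (Nat.factorial_pos _)
  have h1 : ∀ y : ℝ, 0 ≤ y → y ^ 66 / (Nat.factorial 66 : ℕ) ≤ Real.exp y := fun y hy =>
    Real.pow_div_factorial_le_exp y hy 66
  generalize ((Nat.factorial 66 : ℕ) : ℝ) = M at h0 h1
  refine ⟨M * 4 ^ 66, by positivity, fun r hr => ?_⟩
  have h2 := h1 (4 * r)⁻¹ (by positivity)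
  rw [show -(1 / (2 * r)) / 2 = -(4 * r)⁻¹ by field_simp; ring, Real.exp_neg]
  refine (inv_anti₀ (by positivity) h2).trans_eq ?_
  rw [inv_div, inv_pow, div_inv_eq_mul, mul_pow, mul_assoc]

variable {P : Par} {A : ℕ} {ϱ cS θ : ℝ}

private theorem acc3_I3 (k n : ℕ) (f : ℝ → Om → ℝ) (s : ℝ) (x : X) :
    I3 (fun v w ω => kN n v w ω * (eo (f s) x v * eo (f s) x w) *
      (if Prod2 P ϱ k s x v w then 1 else 0)) = ∫⁻ v, eo (f s) x v * nuP P ϱ k n f s x v := by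
  refine lintegral_congr fun v => ?_
  have hne : eo (f s) x v ≠ ⊤ := ENNReal.ofReal_ne_top
  rw [nuP, Lo, ← lintegral_const_mul' _ _ hne]
  refine lintegral_congr fun w => ?_
  rw [← lintegral_const_mul' _ _ hne]
  refine lintegral_congr fun ω => ?_
  dsimp only
  split_ifs
  · ring
  · rw [mul_zero, mul_zero, mul_zero]

private theorem acc3_zero {k n : ℕ} {f : ℝ → Om → ℝ} {s : ℝ} {x : X} {v : V}
    (h : ¬ Prod1 P ϱ k s x v) : nuP P ϱ k n f s x v = 0 := by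
  have : ∀ w, ¬ Prod2 P ϱ k s x v w := fun w ⟨j, hj, hl, _, h2⟩ => h ⟨j, hj, hl, h2⟩
  simp [nuP, Lo, this]

private theorem acc3_nu {k n : ℕ} {f : ℝ → Om → ℝ} {s m : ℝ} {x : X}
    (mF : Measurable (eo (f s) x))
    (h : ∫⁻ w, ENNReal.ofReal (1 + ‖w‖) * eo (f s) x w ≤ ENNReal.ofReal m) (v : V) :
    nuP P ϱ k n f s x v ≤ ENNReal.ofReal (13 * (1 + ‖v‖) * m) := by
  refine (Lo_mono (G' := eo (f s) x) (fun _ _ _ => le_rfl) (fun w => ?_) v).trans
    ((Lo_le (isKer_kN n) mF v).trans ?_)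
  · split_ifs
    · exact le_rfl
    · exact zero_le
  · rw [ENNReal.ofReal_mul (by positivity)]
    refine le_trans ?_ (mul_le_mul_right h _)
    rw [← lintegral_const_mul' _ _ ENNReal.ofReal_ne_top]
    refine lintegral_mono fun w => ?_
    rw [← mul_assoc, ← ENNReal.ofReal_mul (by positivity)]
    refine mul_le_mul_left (ENNReal.ofReal_le_ofReal ?_) _
    nlinarith [norm_sub_le v w, mul_nonneg (norm_nonneg v) (norm_nonneg w)]

private theorem acc3_pt (hV : ValP P cS θ) {k n : ℕ} {ς N : ℝ} {f : ℝ → Om → ℝ}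
    (R : Run P A ϱ k n ς N f) (hn : 13 / (n : ℝ) ≤ cS * P.c / 4) {ρ s K : ℝ} (hρ : ρ ≤ 1)
    (hs : s ∈ Icc 0 (TT P ϱ)) {x : X} (h0 : 0 < rr x) (hr : rr x ≤ ρ) (h2 : rr x ≤ 2 * ϱ)
    (hK : 0 ≤ K) (v : V) (hν : nuP P ϱ k n f s x v ≤ ENNReal.ofReal (13 * (1 + ‖v‖) * (K / rr x))) :
    ENNReal.ofReal (kap n (f s) x) * (eo (f s) x v * nuP P ϱ k n f s x v) ≤
      ENNReal.ofReal (ρ ^ 64) * (ENNReal.ofReal (52 * 4 ^ 64 * K) * ENNReal.ofReal (1 / ϱ ^ 67)) *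
          ENNReal.ofReal (f s (x, v) * chi P ϱ (s, (x, v)) * (1 + ‖v‖)) +
        ENNReal.ofReal (ρ ^ 64) *
          (if rr x ≤ ϱ / 4 then ENNReal.ofReal (f s (x, v)) * Th P ϱ k n f s x v else 0) +
        ENNReal.ofReal (13 * (K / rr x)) * {u : V | 1 / (2 * rr x) ≤ ‖u‖ ^ 2}.indicator
          (fun u => ENNReal.ofReal ((1 + ‖u‖) ^ 2 * gam P ϱ k A 33 s x u)) v := by
  have S := R.sm
  have hϱ := S.pos
  have hϱ1 := S.rho_le'
  have hρ0 : 0 < ρ := h0.trans_le hr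
  have hf := R.sol.nonneg s (x, v)
  have hv := norm_nonneg v
  have hκ : ENNReal.ofReal (kap n (f s) x) ≤ 1 :=
    ENNReal.ofReal_le_one.2 (kap_le_one n (R.sol.nonneg s) x)
  have hb : ENNReal.ofReal (kap n (f s) x) * (eo (f s) x v * nuP P ϱ k n f s x v) ≤
      ENNReal.ofReal (f s (x, v) * (13 * (1 + ‖v‖) * (K / rr x))) := by
    rw [ENNReal.ofReal_mul hf]
    exact (mul_le_of_le_one_left' hκ).trans (mul_le_mul_right hν _)
  by_cases hp : Prod1 P ϱ k s x v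
  swap
  · rw [acc3_zero hp, mul_zero, mul_zero]
    exact zero_le
  by_cases h4 : rr x ≤ ϱ / 4
  · by_cases h5 : 1 / (2 * rr x) ≤ ‖v‖ ^ 2
    · refine hb.trans (le_add_left ?_)
      have hc : ¬ Cold P ϱ k s x v := fun hc => by
        have h6 := (S.Cold_norm hc).1
        rw [div_le_iff₀ (by positivity)] at h5
        have h7 : ‖v‖ ^ 2 ≤ 2 := by nlinarith
        nlinarith
      have g0 := S.gam_nonneg k 33 hs.1 x v
      have h6 : f s (x, v) ≤ (1 + ‖v‖) * gam P ϱ k A 33 s x v :=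
        (R.hot_le hs hc).trans (mul_le_mul_of_nonneg_right (by linarith [R.N1]) g0)
      rw [indicator_of_mem (show v ∈ {u : V | 1 / (2 * rr x) ≤ ‖u‖ ^ 2} from h5),
        ← ENNReal.ofReal_mul (by positivity)]
      refine ENNReal.ofReal_le_ofReal
        ((mul_le_mul_of_nonneg_right h6 (by positivity)).trans_eq ?_)
      ring
    · refine le_add_right (le_add_left ?_)
      have h6 := Th_ge hV S R.sol.npos hn k R.sol.meas hs (y := x) le_rfl (by linarith) v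
      rw [not_le, lt_div_iff₀ (by positivity)] at h5
      have h7 : (1 : ℝ≥0∞) ≤ ENNReal.ofReal (ρ ^ 64) *
          ENNReal.ofReal ((1 / rr x) ^ 66 * (2 - rr x * (‖v‖ ^ 2 + 4) - 1 / 50)) := by
        rw [← ENNReal.ofReal_mul (by positivity)]
        refine ENNReal.one_le_ofReal.2 ?_
        have h8 : rr x ^ 66 ≤ ρ ^ 64 :=
          (pow_le_pow_left₀ h0.le hr 66).trans (pow_le_pow_of_le_one hρ0.le hρ (by norm_num))
        have h9 : 1 ≤ ρ ^ 64 * (1 / rr x) ^ 66 := by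
          rwa [one_div, inv_pow, ← div_eq_mul_inv, one_le_div (by positivity)]
        rw [← mul_assoc]
        exact one_le_mul_of_one_le_of_one_le h9 (by nlinarith)
      rw [if_pos h4, mul_left_comm, mul_left_comm (ENNReal.ofReal (ρ ^ 64))]
      refine mul_le_mul_right ((le_mul_of_one_le_left' h7).trans ?_) _
      rw [mul_assoc]
      exact mul_le_mul_right h6 _
  · refine hb.trans (le_add_right (le_add_right ?_))
    obtain ⟨j, -, hl, h5⟩ := hp
    have h6 : chi P ϱ (s, (x, v)) = 1 :=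
      if_pos ⟨j, hl, lt_of_lt_of_le (by nlinarith [hV.lamc, hV.ok.lam0]) h5⟩
    rw [h6, ← ENNReal.ofReal_mul (by positivity), ← ENNReal.ofReal_mul (by positivity),
      ← ENNReal.ofReal_mul (by positivity)]
    refine ENNReal.ofReal_le_ofReal ?_
    have h7 : 1 / rr x ≤ 4 * (4 * ρ) ^ 64 / ϱ ^ 67 := by
      rw [div_le_div_iff₀ h0 (by positivity)]
      have a1 : ϱ ^ 64 ≤ (4 * ρ) ^ 64 := pow_le_pow_left₀ hϱ.le (by linarith) 64
      have a2 : ϱ ^ 3 ≤ 4 * rr x :=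
        (pow_le_of_le_one hϱ.le (by linarith) (by norm_num)).trans (by linarith)
      calc 1 * ϱ ^ 67 = ϱ ^ 64 * ϱ ^ 3 := by ring
        _ ≤ (4 * ρ) ^ 64 * (4 * rr x) := mul_le_mul a1 a2 (by positivity) (by positivity)
        _ = _ := by ring
    calc _ = f s (x, v) * (13 * (1 + ‖v‖) * K) * (1 / rr x) := by ring
      _ ≤ f s (x, v) * (13 * (1 + ‖v‖) * K) * (4 * (4 * ρ) ^ 64 / ϱ ^ 67) :=
        mul_le_mul_of_nonneg_left h7 (by positivity)
      _ = _ := by ring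

private theorem acc3_loc (hV : ValP P cS θ) : ∃ K : ℝ, 0 ≤ K ∧ ∀ (A : ℕ) (ϱ : ℝ)
    (k n : ℕ) (ς N : ℝ) (f : ℝ → Om → ℝ), Run P A ϱ k n ς N f → 13 / (n : ℝ) ≤ cS * P.c / 4 →
    ∀ ρ : ℝ, ρ ≤ 1 → ∀ s ∈ Icc 0 (TT P ϱ), ∀ x : X, rr x ≤ ρ →
      ENNReal.ofReal (kap n (f s) x) * ∫⁻ v, eo (f s) x v * nuP P ϱ k n f s x v ≤
        ENNReal.ofReal (ρ ^ 64) * (ENNReal.ofReal K * ENNReal.ofReal (1 / ϱ ^ 67)) *
          (∫⁻ v, ENNReal.ofReal (f s (x, v) * chi P ϱ (s, (x, v)) * (1 + ‖v‖))) +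
        ENNReal.ofReal (ρ ^ 64) * (∫⁻ v, ENNReal.ofReal (qn n (f s) (x, v)) * psI P ϱ k s x v) +
        ENNReal.ofReal (ρ ^ 64) * ENNReal.ofReal (K * ϱ) := by
  obtain ⟨K1, hK1, h1⟩ := exists_den
  obtain ⟨K2, hK2, h2⟩ := exists_gam_int
  obtain ⟨K3, hK3, h3⟩ := acc3_exp
  have hC := hV.ok.C0
  obtain ⟨K4, e4⟩ : ∃ K4, K4 = K1 * P.C0 := ⟨_, rfl⟩
  have hK4 : 0 ≤ K4 := by rw [e4]; positivity
  obtain ⟨K5, e5⟩ : ∃ K5, K5 = 52 * 4 ^ 64 * K4 := ⟨_, rfl⟩
  have hK5 : 0 ≤ K5 := by rw [e5]; positivity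
  have hK6 : 0 ≤ 26 * K4 * K2 * K3 := by positivity
  refine ⟨K5 + 26 * K4 * K2 * K3, by positivity, fun A ϱ k n ς N f R hn ρ hρ s hs x hr => ?_⟩
  have S := R.sm
  have hϱ := S.pos
  by_cases hx : InL P ϱ k s x
  swap
  · have e : ∀ v, nuP P ϱ k n f s x v = 0 := fun v =>
      acc3_zero fun ⟨j, hj, hl, _⟩ => hx ⟨j, hj, hl⟩
    simp only [e, mul_zero, lintegral_zero]
    exact zero_le
  have h4 := (h1 P A ϱ k n ς N f R s hs x).2 hx
  rw [rbar, if_pos hx, ← mul_div_assoc, ← e4] at h4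
  obtain ⟨j, -, hl⟩ := hx
  obtain ⟨a1, a2, -, -⟩ := S.Lay_rr hs hl
  have h0 : 0 < rr x := (S.ar_pos _).trans_le a1
  have mF : Measurable (eo (f s) x) := measurable_eo' (R.sol.meas_t s) x
  have mG : Measurable fun v : V => ENNReal.ofReal ((1 + ‖v‖) ^ 2 * gam P ϱ k A 33 s x v) :=
    (((measurable_norm.const_add 1).pow_const 2).mul
      (measurable_gam P ϱ k A 33 measurable_const measurable_const measurable_id)).ennreal_ofReal
  have mS : MeasurableSet {u : V | 1 / (2 * rr x) ≤ ‖u‖ ^ 2} :=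
    measurableSet_le measurable_const (measurable_norm.pow_const 2)
  have mO : Measurable fun v : V =>
      ENNReal.ofReal (f s (x, v) * chi P ϱ (s, (x, v)) * (1 + ‖v‖)) :=
    ((((R.sol.meas_t s).comp measurable_prodMk_left).mul ((measurable_chi P ϱ).comp
      (measurable_prodMk_left.comp measurable_prodMk_left))).mul
      (measurable_norm.const_add 1)).ennreal_ofReal
  rw [← lintegral_const_mul' _ _ ENNReal.ofReal_ne_top]
  refine (lintegral_mono fun v =>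
    acc3_pt hV R hn hρ hs h0 hr a2 hK4 v (acc3_nu mF h4 v)).trans ?_
  rw [lintegral_add_right _ ((mG.indicator mS).const_mul _), lintegral_add_left (mO.const_mul _),
    lintegral_const_mul _ mO, lintegral_const_mul' _ _ ENNReal.ofReal_ne_top,
    lintegral_const_mul' _ _ ENNReal.ofReal_ne_top, lintegral_indicator mS, ← e5]
  refine add_le_add (add_le_add ?_ (mul_le_mul_right ?_ _)) ?_
  · gcongr
    linarith
  · by_cases h5 : rr x ≤ ϱ / 4
    · simp only [psI, if_pos h5]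
      exact S.Th_le_births k R.sol hs.1 x
    · simp only [if_neg h5, lintegral_zero]
      exact zero_le
  · refine (mul_le_mul_right ((h2 P A ϱ S k 33 S.A33 s hs x).2.2 _ (by positivity)) _).trans ?_
    have hρ0 : 0 < ρ := h0.trans_le hr
    rw [← ENNReal.ofReal_mul (by positivity), ← ENNReal.ofReal_mul (by positivity)]
    refine ENNReal.ofReal_le_ofReal ?_
    have b1 : rr x ^ 64 ≤ ρ ^ 64 := pow_le_pow_left₀ h0.le hr 64
    calc _ ≤ 13 * (K4 / rr x) * (K2 * (K3 * rr x ^ 66)) := by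
          gcongr
          exact h3 _ h0
      _ = 13 * K4 * K2 * K3 * (rr x ^ 64 * rr x) := by field_simp
      _ ≤ 13 * K4 * K2 * K3 * (ρ ^ 64 * (2 * ϱ)) := by gcongr
      _ = ρ ^ 64 * (26 * K4 * K2 * K3 * ϱ) := by ring
      _ ≤ _ := by
          gcongr
          linarith

theorem exists_NP {P : Par} {cS θ : ℝ} (hV : ValP P cS θ) : ∃ K : ℝ, 0 ≤ K ∧ ∀ (A : ℕ) (ϱ : ℝ)
    (k n : ℕ) (ς N : ℝ) (f : ℝ → Om → ℝ), Run P A ϱ k n ς N f → 13 / (n : ℝ) ≤ cS * P.c / 4 →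
    ∀ ρ : ℝ, 0 ≤ ρ → ρ ≤ 1 → NP P ϱ k A n f ρ ≤ ENNReal.ofReal (ρ ^ 64) *
      (Bth P ϱ n f (psI P ϱ k) + ENNReal.ofReal K * VV P ϱ N f + ENNReal.ofReal (K * ϱ)) := by
  obtain ⟨K, hK, h⟩ := acc3_loc hV
  refine ⟨K, hK, fun A ϱ k n ς N f R hn ρ _ hρ => ?_⟩
  refine (acc3_int (R.sm.TT_le.trans (by norm_num))
    (H := fun t z => ENNReal.ofReal (f t z * chi P ϱ (t, z) * (1 + ‖z.2‖)))
    (L := fun s x => ENNReal.ofReal (ρ ^ 64) *
      ∫⁻ v, ENNReal.ofReal (qn n (f s) (x, v)) * psI P ϱ k s x v)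
    (((R.sol.meas.mul (measurable_chi P ϱ)).mul
      (measurable_snd.snd.norm.const_add 1)).ennreal_ofReal)
    (ENNReal.ofReal (ρ ^ 64) * (ENNReal.ofReal K * ENNReal.ofReal (1 / ϱ ^ 67)))
    (ENNReal.ofReal (ρ ^ 64) * ENNReal.ofReal (K * ϱ)) fun s hs x => ?_).trans ?_
  · split_ifs with hc
    · rw [acc3_I3]
      exact h A ϱ k n ς N f R hn ρ hρ s ⟨hs.1.le, hs.2⟩ x
        (le_trans (le_add_of_nonneg_right (mul_nonneg (Nat.cast_nonneg _) hs.1.le)) hc)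
    · exact zero_le
  · have e : ∀ s, ∫⁻ x, ∫⁻ v, ENNReal.ofReal (qn n (f s) (x, v)) * psI P ϱ k s x v =
        ∫⁻ z : Om, ENNReal.ofReal (qn n (f s) z) * psI P ϱ k s z.1 z.2 := fun s =>
      (lintegral_prod (fun z : Om => ENNReal.ofReal (qn n (f s) z) * psI P ϱ k s z.1 z.2)
        ((R.sol.trDual_mq measurable_const measurable_id).mul
          (measurable_psI P ϱ k measurable_const measurable_fst measurable_snd)).aemeasurable).symm
    simp only [lintegral_const_mul' _ _ ENNReal.ofReal_ne_top, e]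
    rw [mul_add, mul_add, add_comm (_ * Bth P ϱ n f _), mul_assoc, mul_assoc]
    exact add_le_add_left (add_le_add_left (mul_le_mul_right (mul_le_mul_right le_self_add _) _) _) _

end Vale.Agent.P140
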