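import Vale.Agent.P140.IMeas

/-! Elementary facts about the parameters and the relative velocity. -/

namespace Vale.Agent.P140

open MeasureTheory Set Filter Topology
open scoped ENNReal

variable {P : Par} {A : ℕ} {ϱ : ℝ}

theorem ibas_inner (v : V) {w : V} (hw : w 0 = 0) : inner ℝ (vb v) w = inner ℝ v w := by
  rw [vb, inner_sub_left, real_inner_smul_left, e0, EuclideanSpace.inner_single_left, hw]
  simp

theorem ibas_abs (v : V) (x : X) : |inner ℝ v (xh x)| ≤ ‖vb v‖ := by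
  rw [← ibas_inner v (xh_zero x)]
  exact (abs_real_inner_le_norm _ _).trans
    (mul_le_of_le_one_right (norm_nonneg _) (norm_xh_le x))

theorem ibas_vb_uu (σ : ℝ) (x : X) : vb (uu P σ x) = P.lam • xh x := by
  have h1 : vb (xh x) = xh x := by rw [vb, xh_zero, zero_smul, sub_zero]
  have h2 : vb e0 = 0 := by simp [vb, e0]
  rw [uu, vb_add, vb_smul, vb_smul, h1, h2, smul_zero, add_zero]

theorem ibas_sub (σ : ℝ) (x : X) (v : V) :
    Wf P σ x v = ‖v - uu P σ x‖ ^ 2 + P.lam ^ 2 * (1 - ‖xh x‖ ^ 2) := by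
  have h : (v - uu P σ x) 0 = v 0 - σ := by simp [uu, xh_zero, e0]
  rw [norm_sq_vb (v - _), h, vb_sub, ibas_vb_uu, norm_sub_sq_real, real_inner_smul_right,
    ibas_inner v (xh_zero x), norm_smul, mul_pow, Real.norm_eq_abs, sq_abs, Wf]
  ring

theorem ibas_le (σ : ℝ) (x : X) (v : V) : ‖v - uu P σ x‖ ^ 2 ≤ Wf P σ x v := by
  rw [ibas_sub]
  exact le_add_of_nonneg_right (mul_nonneg (sq_nonneg _)
    (sub_nonneg.2 (pow_le_one₀ (norm_nonneg _) (norm_xh_le x))))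

theorem ibas_nonneg (σ : ℝ) (x : X) (v : V) : 0 ≤ Wf P σ x v :=
  (sq_nonneg _).trans (ibas_le σ x v)

theorem eventually_sm (hP : P.OK) (hA : 33 ≤ A) : ∀ᶠ ϱ in 𝓝[>] (0 : ℝ), Sm P A ϱ := by
  have h1 : (0 : ℝ) < A := by exact_mod_cast (show 0 < A by omega)
  have h2 : 0 < P.C0 := by linarith [hP.C0]
  have h3 : 0 < 1 - P.th := sub_pos.2 hP.th1
  have h4 := hP.lam0
  have h5 : 0 < P.lam ^ 2 * (1 - P.th) / (10 ^ 6 * P.C0 ^ 2 * (A : ℝ) ^ 2) := by positivity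
  filter_upwards [Ioc_mem_nhdsGT h5] with ϱ h
  exact ⟨hP, hA, h.1, (le_div_iff₀ (by positivity)).1 h.2⟩

theorem Par.OK.lam_le (hP : P.OK) : P.lam ≤ 1 / 12 := by
  nlinarith [hP.Lam3, hP.Laml, hP.lam0]

theorem sg_cases (j : ℕ) : sg j = 1 ∨ sg j = -1 := by
  exact neg_one_pow_eq_or ℝ j

theorem sg_succ (j : ℕ) : sg (j + 1) = -sg j := by
  rw [sg, sg, pow_succ, mul_neg_one]

theorem ar_succ (j : ℕ) : ar P ϱ (j + 1) = ar P ϱ j * P.th := by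
  rw [ar, ar, pow_succ, mul_assoc]

theorem ar_zero : ar P ϱ 0 = ϱ := by
  rw [ar, pow_zero, mul_one]

namespace Sm

variable (S : Sm P A ϱ)
include S

theorem ibas_A : (33 : ℝ) ≤ A := by exact_mod_cast S.A33

theorem ibas_th : 0 < P.th := by linarith [S.ok.th0]

theorem ibas_one : P.lam * (1 - P.th) ≤ 1 :=
  mul_le_one₀ (by linarith [S.ok.lam_le]) (by linarith [S.ok.th1]) (by linarith [S.ibas_th])

theorem ibas_C0 : ϱ * P.C0 ^ 2 ≤ P.lam ^ 2 * (1 - P.th) / 10 ^ 9 := by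
  have h1 : (1000 : ℝ) ≤ (A : ℝ) ^ 2 := by nlinarith [S.ibas_A]
  have h2 : 0 ≤ ϱ * P.C0 ^ 2 := mul_nonneg S.pos.le (sq_nonneg _)
  rw [le_div_iff₀ (by norm_num)]
  nlinarith [S.small, mul_le_mul_of_nonneg_left h1 h2]

theorem ibas_two : P.lam ^ 2 * (1 - P.th) ≤ P.lam * (1 - P.th) := by
  have h1 : 0 ≤ P.lam * (1 - P.th) := mul_nonneg S.ok.lam0.le (by linarith [S.ok.th1])
  nlinarith [mul_le_mul_of_nonneg_right S.ok.lam_le h1]

theorem rho_le : ϱ ≤ P.lam ^ 2 * (1 - P.th) / 10 ^ 9 := by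
  exact (le_mul_of_one_le_right S.pos.le (one_le_pow₀ S.ok.C0)).trans S.ibas_C0

theorem rho_le' : ϱ ≤ 1 / 10 ^ 9 := by
  linarith [S.rho_le, S.ibas_two, S.ibas_one]

theorem rho_C0 : ϱ * P.C0 ^ 2 ≤ 1 / 10 ^ 9 := by
  linarith [S.ibas_C0, S.ibas_two, S.ibas_one]

theorem TT_pos : 0 < TT P ϱ := by
  exact div_pos S.pos S.ok.lam0

theorem lam_TT : P.lam * TT P ϱ = ϱ := by
  exact mul_div_cancel₀ _ S.ok.lam0.ne'

theorem ibas_A2 : (A : ℝ) ^ 2 * TT P ϱ ≤ 1 / 10 ^ 6 := by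
  have h1 : P.lam * (TT P ϱ * (10 ^ 6 * P.C0 ^ 2 * (A : ℝ) ^ 2)) ≤ P.lam * (P.lam * (1 - P.th)) := by
    rw [← mul_assoc, S.lam_TT, ← mul_assoc P.lam, ← sq]
    exact S.small
  have h2 := (le_of_mul_le_mul_left h1 S.ok.lam0).trans S.ibas_one
  have h3 : 0 ≤ (A : ℝ) ^ 2 * TT P ϱ := mul_nonneg (sq_nonneg _) S.TT_pos.le
  nlinarith [mul_le_mul_of_nonneg_left (one_le_pow₀ S.ok.C0 : 1 ≤ P.C0 ^ 2) h3]

theorem TT_le : TT P ϱ ≤ 1 / 10 ^ 9 := by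
  have h1 : (1000 : ℝ) ≤ (A : ℝ) ^ 2 := by nlinarith [S.ibas_A]
  nlinarith [S.ibas_A2, mul_le_mul_of_nonneg_right h1 S.TT_pos.le]

theorem A_TT : (A : ℝ) * TT P ϱ ≤ 1 / 10 ^ 7 := by
  have h1 : 0 ≤ (A : ℝ) * TT P ϱ := mul_nonneg (Nat.cast_nonneg A) S.TT_pos.le
  nlinarith [S.ibas_A2, mul_le_mul_of_nonneg_right S.ibas_A h1]

theorem A2_TT : (A : ℝ) ^ 2 * TT P ϱ ≤ 1 / 10 ^ 6 := by
  exact S.ibas_A2

theorem ar_pos (j : ℕ) : 0 < ar P ϱ j := by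
  exact mul_pos S.pos (pow_pos S.ibas_th j)

theorem ar_le (j : ℕ) : ar P ϱ j ≤ ϱ := by
  exact mul_le_of_le_one_right S.pos.le (pow_le_one₀ S.ibas_th.le S.ok.th1.le)

theorem ar_anti {i j : ℕ} (h : i ≤ j) : ar P ϱ j ≤ ar P ϱ i := by
  exact mul_le_mul_of_nonneg_left (pow_le_pow_of_le_one S.ibas_th.le S.ok.th1.le h) S.pos.le

theorem ar_le_two (j : ℕ) : ar P ϱ j ≤ 2 * ar P ϱ (j + 1) := by
  rw [ar_succ]
  nlinarith [mul_le_mul_of_nonneg_left S.ok.th0 (S.ar_pos j).le]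

theorem tendsto_ar : Tendsto (ar P ϱ) atTop (𝓝 0) := by
  have h := (tendsto_pow_atTop_nhds_zero_of_lt_one S.ibas_th.le S.ok.th1).const_mul ϱ
  rw [mul_zero] at h
  exact h

theorem sum_ar (j0 : ℕ) (s : Finset ℕ) (hs : ∀ j ∈ s, j0 ≤ j) :
    ∑ j ∈ s, ar P ϱ j ≤ ar P ϱ j0 / (1 - P.th) := by
  have h1 : s ⊆ Finset.Ico j0 (s.sup id + 1) := fun j hj =>
    Finset.mem_Ico.2 ⟨hs j hj, Nat.lt_succ_of_le (Finset.le_sup (f := id) hj)⟩
  refine (Finset.sum_le_sum_of_subset_of_nonneg h1 fun j _ _ => (S.ar_pos j).le).trans ?_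
  simp only [ar]
  rw [← Finset.mul_sum, mul_div_assoc]
  exact mul_le_mul_of_nonneg_left (geom_sum_Ico_le_of_lt_one S.ibas_th.le S.ok.th1) S.pos.le

theorem sum_ar' {b : ℝ} (hb : 0 ≤ b) (s : Finset ℕ) (hs : ∀ j ∈ s, ar P ϱ j ≤ b) :
    ∑ j ∈ s, ar P ϱ j ≤ b / (1 - P.th) := by
  have h0 : 0 < 1 - P.th := sub_pos.2 S.ok.th1
  rcases s.eq_empty_or_nonempty with rfl | hne
  · rw [Finset.sum_empty]
    positivity
  · exact (S.sum_ar (s.min' hne) s fun j hj => s.min'_le j hj).trans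
      (div_le_div_of_nonneg_right (hs _ (s.min'_mem hne)) h0.le)

theorem de_pos (j : ℕ) : 0 < de P ϱ j := by
  exact pow_pos (S.ar_pos j) _

theorem et_pos (j : ℕ) : 0 < et P ϱ j := by
  exact pow_pos (S.ar_pos j) _

theorem gp_pos (j : ℕ) : 0 < gp P ϱ j := by
  exact pow_pos (S.ar_pos j) _

theorem mm_pos (j : ℕ) : 0 < mm P ϱ j := by
  exact mul_pos (S.de_pos j) (S.ar_pos _)

theorem Am_pos (j : ℕ) : 0 < Am P ϱ j := by
  exact div_pos (by linarith [S.ok.C0])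
    (mul_pos (mul_pos two_pos (pow_pos (S.de_pos j) 2)) (S.mm_pos j))

theorem ibas_ar (j : ℕ) : 1000 * ar P ϱ j ≤ P.lam * (1 - P.th) := by
  linarith [S.ar_le j, S.rho_le, S.ibas_two, S.pos]

theorem ibas_ar2 (j : ℕ) : 1000 * ar P ϱ j ≤ P.lam :=
  (S.ibas_ar j).trans (mul_le_of_le_one_right S.ok.lam0.le (by linarith [S.ibas_th]))

theorem ibas_ar1 (j : ℕ) : ar P ϱ j ≤ 1 := by
  linarith [S.ar_le j, S.rho_le']

theorem ibas_pow (j : ℕ) {b : ℝ} (hb : 1000 * ar P ϱ j ≤ b) {m n : ℕ} (h : m + 1 ≤ n) :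
    1000 * ar P ϱ j ^ n ≤ b * ar P ϱ j ^ m := by
  have h1 := pow_le_pow_of_le_one (S.ar_pos j).le (S.ibas_ar1 j) h
  rw [pow_succ] at h1
  linarith [mul_le_mul_of_nonneg_right hb (pow_pos (S.ar_pos j) m).le]

theorem de_le (j : ℕ) : 1000 * de P ϱ j ≤ P.lam * et P ϱ j := by
  exact S.ibas_pow j (S.ibas_ar2 j) le_rfl

theorem de_anti {i j : ℕ} (h : i ≤ j) : de P ϱ j ≤ de P ϱ i := by
  exact pow_le_pow_left₀ (S.ar_pos j).le (S.ar_anti h) _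

theorem et_le (j : ℕ) : 1000 * et P ϱ j ≤ P.lam * gp P ϱ j := by
  exact S.ibas_pow j (S.ibas_ar2 j) (by norm_num)

theorem gp_le (j : ℕ) : 1000 * gp P ϱ j ≤ P.lam * (1 - P.th) * ar P ϱ j := by
  have h := S.ibas_pow j (S.ibas_ar j) (m := 1) (n := 3) (by norm_num)
  rwa [pow_one] at h

theorem et_le_lam (j : ℕ) : 1000 * et P ϱ j ≤ P.lam := by
  have h := S.ibas_pow j (S.ibas_ar2 j) (m := 0) (n := 11) (by norm_num)
  rwa [pow_zero, mul_one] at h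

omit S in
theorem ibas_Am (j : ℕ) : Am P ϱ j = P.C0 / (ar P ϱ j ^ 37 * (2 * P.th)) := by
  rw [Am, mm, de, ar_succ]
  congr 1
  ring

theorem Am_le (j : ℕ) : Am P ϱ j ≤ P.C0 / ar P ϱ j ^ 37 := by
  have h := pow_pos (S.ar_pos j) 37
  rw [ibas_Am]
  exact div_le_div_of_nonneg_left (by linarith [S.ok.C0]) h
    (le_mul_of_one_le_right h.le (by linarith [S.ok.th0]))

theorem inv_et_le (j : ℕ) : 1 / et P ϱ j ^ 3 ≤ Am P ϱ j := by
  have h := S.ibas_pow j (S.ibas_ar2 j) (m := 33) (n := 37) (by norm_num)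
  have h1 := pow_pos (S.ar_pos j) 37
  have h2 := pow_pos (S.ar_pos j) 33
  rw [ibas_Am, et, ← pow_mul, show 11 * 3 = 33 from rfl]
  refine div_le_div₀ (by linarith [S.ok.C0]) S.ok.C0 (mul_pos h1 (by linarith [S.ibas_th])) ?_
  nlinarith [mul_le_mul_of_nonneg_left S.ok.th1.le h1.le,
    mul_le_mul_of_nonneg_right S.ok.lam_le h2.le]

theorem LayR_unique {i j : ℕ} {y : ℝ} (hi : LayR P ϱ i y) (hj : LayR P ϱ j y) : i = j := by
  rcases lt_trichotomy i j with h | h | h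
  · linarith [hi.1, hj.2, S.ar_anti (Nat.succ_le_of_lt h)]
  · exact h
  · linarith [hj.1, hi.2, S.ar_anti (Nat.succ_le_of_lt h)]

theorem exists_LayR_iff (k : ℕ) (y : ℝ) :
    (∃ j ≤ k, LayR P ϱ j y) ↔ ar P ϱ (k + 1) ≤ y ∧ y < ϱ := by
  constructor
  · rintro ⟨j, hj, h1, h2⟩
    exact ⟨(S.ar_anti (Nat.succ_le_succ hj)).trans h1, h2.trans_le (S.ar_le j)⟩
  · rintro ⟨h1, h2⟩
    induction k with
    | zero => exact ⟨0, le_rfl, h1, by rwa [ar_zero]⟩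
    | succ k ih =>
      rcases le_or_gt (ar P ϱ (k + 1)) y with h | h
      · obtain ⟨j, hj, h3⟩ := ih h
        exact ⟨j, hj.trans (Nat.le_succ k), h3⟩
      · exact ⟨k + 1, le_rfl, h1, h⟩

theorem FullR_lay {j : ℕ} {y : ℝ} (h : FullR P ϱ j y) : LayR P ϱ j y := by
  exact ⟨by linarith [h.1, S.gp_pos j], by linarith [h.2, S.gp_pos j]⟩

theorem Zone_lay {j : ℕ} {t : ℝ} (ht : t ∈ Icc 0 (TT P ϱ)) {x : X} (h : Zone P ϱ j t x) :
    Lay P ϱ j t x := by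
  have h1 : et P ϱ j * (1 + 2 * t) < gp P ϱ j := by
    have h2 : t ≤ 1 := by linarith [ht.2, S.TT_le]
    nlinarith [S.et_le j, mul_le_mul_of_nonneg_right S.ok.lam_le (S.gp_pos j).le,
      mul_le_mul_of_nonneg_left h2 (S.et_pos j).le, S.gp_pos j]
  exact ⟨by linarith [h.1], by linarith [h.2]⟩

theorem InL_iff (k : ℕ) (t : ℝ) (x : X) :
    InL P ϱ k t x ↔ ar P ϱ (k + 1) ≤ y0 P t x ∧ y0 P t x < ϱ := by
  exact S.exists_LayR_iff k _

theorem Lay_rr {j : ℕ} {t : ℝ} (ht : t ∈ Icc 0 (TT P ϱ)) {x : X} (h : Lay P ϱ j t x) :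
    ar P ϱ (j + 1) ≤ rr x ∧ rr x ≤ 2 * ϱ ∧ ar P ϱ j ≤ 2 * y0 P t x ∧ y0 P t x ≤ rr x := by
  have h1 : 0 ≤ P.lam * t := mul_nonneg S.ok.lam0.le ht.1
  have h2 : P.lam * t ≤ ϱ := (mul_le_mul_of_nonneg_left ht.2 S.ok.lam0.le).trans_eq S.lam_TT
  have h3 := h.1
  have h4 := h.2
  have h5 := S.ar_le j
  have h6 := S.ar_le_two j
  rw [y0] at h3 h4 ⊢
  exact ⟨by linarith, by linarith, by linarith, by linarith⟩

theorem rbar_nonneg (k : ℕ) (t : ℝ) (x : X) : 0 ≤ rbar P ϱ k t x := by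
  unfold rbar
  split_ifs
  · exact div_nonneg (by linarith [S.ok.C0]) (rr_nonneg x)
  · exact le_rfl

theorem one_le_rbar {k : ℕ} {t : ℝ} (ht : t ∈ Icc 0 (TT P ϱ)) {x : X} (h : InL P ϱ k t x) :
    1 ≤ rbar P ϱ k t x := by
  obtain ⟨j, _, hj⟩ := id h
  rw [rbar, if_pos h, le_div_iff₀ ((S.ar_pos _).trans_le (S.Lay_rr ht hj).1), one_mul]
  exact (rr_le_one x).trans S.ok.C0

theorem rbar_le (k : ℕ) {t : ℝ} (ht : 0 ≤ t) (x : X) :
    rbar P ϱ k t x ≤ P.C0 / ar P ϱ (k + 1) := by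
  have h0 : 0 ≤ P.C0 := by linarith [S.ok.C0]
  unfold rbar
  split_ifs with h
  · have h1 := ((S.InL_iff k t x).1 h).1
    rw [y0] at h1
    exact div_le_div_of_nonneg_left h0 (S.ar_pos _) (by linarith [mul_nonneg S.ok.lam0.le ht])
  · exact div_nonneg h0 (S.ar_pos _).le

theorem Bj_nonneg (j : ℕ) (t : ℝ) (x : X) (v : V) : 0 ≤ Bj P ϱ j t x v := by
  unfold Bj
  split_ifs
  · exact (S.Am_pos j).le
  · exact le_rfl

theorem Ej_nonneg (j : ℕ) (t : ℝ) (x : X) (v : V) : 0 ≤ Ej P ϱ j t x v := by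
  have := S.et_pos j
  unfold Ej
  split_ifs
  · positivity
  · exact le_rfl

theorem Bc_nonneg (k : ℕ) (t : ℝ) (x : X) (v : V) : 0 ≤ Bc P ϱ k t x v := by
  exact Finset.sum_nonneg fun j _ => S.Bj_nonneg j t x v

theorem Ec_nonneg (k : ℕ) (t : ℝ) (x : X) (v : V) : 0 ≤ Ec P ϱ k t x v := by
  exact Finset.sum_nonneg fun j _ => S.Ej_nonneg j t x v

theorem Cc_nonneg (k : ℕ) (t : ℝ) (x : X) (v : V) : 0 ≤ Cc P ϱ k t x v := by
  exact add_nonneg (S.Bc_nonneg k t x v) (S.Ec_nonneg k t x v)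

theorem Cc_bdd (k : ℕ) : ∃ M : ℝ, ∀ t x v, Cc P ϱ k t x v ≤ M := by
  refine ⟨∑ j ∈ Finset.range (k + 1), Am P ϱ j + ∑ j ∈ Finset.range (k + 1), 1 / et P ϱ j ^ 3,
    fun t x v => add_le_add (Finset.sum_le_sum fun j _ => ?_) (Finset.sum_le_sum fun j _ => ?_)⟩
  · unfold Bj
    split_ifs
    · exact le_rfl
    · exact (S.Am_pos j).le
  · have := S.et_pos j
    unfold Ej
    split_ifs
    · exact mul_le_of_le_one_right (by positivity) (Real.exp_le_one_iff.2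
        (div_nonpos_of_nonpos_of_nonneg (neg_nonpos.2 (ibas_nonneg _ x v)) (by positivity)))
    · positivity

theorem Sg_nonneg (k : ℕ) (σ t : ℝ) (x : X) (v : V) : 0 ≤ Sg P ϱ k σ t x v := by
  unfold Sg
  split_ifs
  · positivity
  · exact le_rfl

theorem one_le_Hh (k : ℕ) (t : ℝ) (x : X) (v : V) : 1 ≤ Hh P ϱ k t x v := by
  rw [Hh]
  linarith [S.Sg_nonneg k 1 t x v, S.Sg_nonneg k (-1) t x v]

theorem Hh_le (k : ℕ) (t : ℝ) (x : X) (v : V) : Hh P ϱ k t x v ≤ 1 + 2 / de P ϱ k := by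
  have h : ∀ σ, Sg P ϱ k σ t x v ≤ 1 / de P ϱ k := by
    intro σ
    have := S.de_pos k
    unfold Sg
    split_ifs
    · exact one_div_le_one_div_of_le this
        (Real.le_sqrt_of_sq_le (le_add_of_nonneg_left (ibas_nonneg σ x v)))
    · positivity
  have e : 2 / de P ϱ k = 1 / de P ϱ k + 1 / de P ϱ k := by ring
  rw [Hh, e]
  linarith [h 1, h (-1)]

theorem ps0_nonneg (k : ℕ) (t : ℝ) (x : X) (v : V) : 0 ≤ ps0 P ϱ k t x v := by
  have := rr_nonneg x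
  unfold ps0
  split_ifs
  · positivity
  · exact le_rfl

theorem ps0_le (k : ℕ) {t : ℝ} (ht : 0 ≤ t) (x : X) (v : V) :
    ps0 P ϱ k t x v ≤ (1 / ar P ϱ (k + 1)) ^ 66 := by
  have h0 := rr_nonneg x
  have h1 := S.ar_pos (k + 1)
  unfold ps0
  split_ifs with h
  · have h2 := h.2.1
    rw [y0] at h2
    refine (mul_le_of_le_one_right (by positivity) (max_le (sub_le_self _ (by positivity))
      zero_le_one)).trans (pow_le_pow_left₀ (by positivity) ?_ _)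
    exact one_div_le_one_div_of_le h1 (by linarith [mul_nonneg S.ok.lam0.le ht])
  · positivity

theorem ee_nonneg (ρ t : ℝ) (x : X) (v : V) : 0 ≤ ee P A ρ t x v := by
  unfold ee
  split_ifs
  · positivity
  · exact le_rfl

theorem ee_le (ρ t : ℝ) (x : X) (v : V) : ee P A ρ t x v ≤ 1 / 2 := by
  unfold ee
  split_ifs
  · have h1 : P.c ^ 2 ≤ 1 / 16 := by nlinarith [S.ok.c4, S.ok.lam0, S.ok.lamc]
    refine (pow_le_pow_left₀ (le_min (le_min (ibas_nonneg _ x v) (ibas_nonneg _ x v)) (sq_nonneg _))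
      ((min_le_right _ _).trans h1) 4).trans (by norm_num)
  · norm_num

theorem Dl_nonneg (k : ℕ) (ρ s : ℝ) (x : X) (v w : V) : 0 ≤ Dl P ϱ k A ρ s x v w := by
  have h1 := S.ee_nonneg ρ s x v
  unfold Dl
  refine ite_nonneg (add_nonneg (add_nonneg (Finset.sum_nonneg fun j _ => ?_) ?_) ?_) le_rfl
  all_goals split_ifs <;> positivity

end Sm

theorem Wf_nonneg (hP : P.OK) (σ : ℝ) (x : X) (v : V) : 0 ≤ Wf P σ x v := by
  exact ibas_nonneg σ x v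

theorem Wf_eq (σ : ℝ) {x : X} (hx : rr x ≠ 0) (v : V) : Wf P σ x v = ‖v - uu P σ x‖ ^ 2 := by
  rw [ibas_sub, norm_xh hx]
  ring

theorem norm_uu_le (hP : P.OK) {σ : ℝ} (hσ : σ = 1 ∨ σ = -1) (x : X) : ‖uu P σ x‖ ≤ 11 / 10 := by
  have h1 : ‖σ • e0‖ = 1 := by rcases hσ with rfl | rfl <;> simp [e0]
  have h2 : ‖P.lam • xh x‖ ≤ P.lam := by
    rw [norm_smul, Real.norm_of_nonneg hP.lam0.le]
    exact mul_le_of_le_one_right hP.lam0.le (norm_xh_le x)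
  exact (norm_add_le _ _).trans (by linarith [hP.lam_le])

theorem norm_vb_uu_le (hP : P.OK) (σ : ℝ) (x : X) : ‖vb (uu P σ x)‖ ≤ P.lam := by
  rw [ibas_vb_uu, norm_smul, Real.norm_of_nonneg hP.lam0.le]
  exact mul_le_of_le_one_right hP.lam0.le (norm_xh_le x)

theorem norm_sub_uu_le (σ : ℝ) (x : X) (v : V) : ‖v - uu P σ x‖ ^ 2 ≤ Wf P σ x v := by
  exact ibas_le σ x v

theorem Wf_ge_vb (hP : P.OK) (σ : ℝ) (x : X) (v : V) : (‖vb v‖ - P.lam) ^ 2 ≤ Wf P σ x v := by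
  rw [Wf]
  nlinarith [mul_le_mul_of_nonneg_left (abs_le.1 (ibas_abs v x)).2 hP.lam0.le, sq_nonneg (v 0 - σ)]

theorem Wf_ge_ax (hP : P.OK) (σ : ℝ) (x : X) (v : V) : (v 0 - σ) ^ 2 ≤ Wf P σ x v := by
  rw [Wf]
  nlinarith [mul_le_mul_of_nonneg_left (abs_le.1 (ibas_abs v x)).2 hP.lam0.le,
    sq_nonneg (‖vb v‖ - P.lam)]

theorem Wf_le (hP : P.OK) (σ : ℝ) (x : X) (v : V) :
    Wf P σ x v ≤ (‖vb v‖ + P.lam) ^ 2 + (v 0 - σ) ^ 2 := by
  rw [Wf]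
  nlinarith [mul_le_mul_of_nonneg_left (abs_le.1 (ibas_abs v x)).1 hP.lam0.le]

theorem norm_le_Wf (hP : P.OK) {σ : ℝ} (hσ : σ = 1 ∨ σ = -1) (x : X) (v : V) :
    ‖v‖ ≤ Real.sqrt (Wf P σ x v) + 11 / 10 := by
  have h1 := Real.le_sqrt_of_sq_le (ibas_le (P := P) σ x v)
  have h2 := norm_add_le (v - uu P σ x) (uu P σ x)
  rw [sub_add_cancel] at h2
  linarith [norm_uu_le hP hσ x]

theorem radial_le_Wf (hP : P.OK) (σ : ℝ) (x : X) (v : V) :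
    |inner ℝ v (xh x) - P.lam| ≤ Real.sqrt (Wf P σ x v) := by
  refine Real.abs_le_sqrt ?_
  have h1 := pow_le_pow_left₀ (abs_nonneg _) (ibas_abs v x) 2
  rw [sq_abs] at h1
  rw [Wf]
  nlinarith [sq_nonneg (v 0 - σ)]

theorem Wf_energy (σ : ℝ) (x : X) (v w : V) (ω : S2) :
    Wf P σ x (vp v w ω) + Wf P σ x (vq v w ω) = Wf P σ x v + Wf P σ x w := by
  simp only [ibas_sub]
  linarith [energy_shift (uu P σ x) v w ω]

/-- the singular factor is dominated by the inverse distance to a point -/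
theorem Sg_le (S : Sm P A ϱ) (k : ℕ) (σ t : ℝ) (x : X) (v : V) :
    ENNReal.ofReal (Sg P ϱ k σ t x v) ≤
      if ‖v - uu P σ x‖ ≤ 1 then (ENNReal.ofReal ‖v - uu P σ x‖)⁻¹ else 0 := by
  have h1 := ibas_le (P := P) σ x v
  unfold Sg
  split_ifs with h2 h3 h3
  · have h4 : ‖v - uu P σ x‖ ≤ √(Wf P σ x v + de P ϱ k ^ 2) :=
      Real.le_sqrt_of_sq_le (h1.trans (le_add_of_nonneg_right (sq_nonneg _)))
    rw [one_div, ENNReal.ofReal_inv_of_pos (Real.sqrt_pos.2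
      (add_pos_of_nonneg_of_pos (ibas_nonneg σ x v) (pow_pos (S.de_pos k) 2)))]
    exact ENNReal.inv_le_inv.2 (ENNReal.ofReal_le_ofReal h4)
  · exact absurd (by nlinarith [h2.2, norm_nonneg (v - uu P σ x)]) h3
  · simp
  · simp

end Vale.Agent.P140
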