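import Vale.Agent.P140.PlB

/-! Explicit bounds for plane integrals and some integrals over velocity space. -/

namespace Vale.Agent.P140

open MeasureTheory Set Filter Topology
open scoped ENNReal

theorem plane_norm_sq {e1 e2 : V} (h1 : ‖e1‖ = 1) (h2 : ‖e2‖ = 1) (h12 : inner ℝ e1 e2 = 0)
    (a b : ℝ) : ‖a • e1 + b • e2‖ ^ 2 = a ^ 2 + b ^ 2 := by
  rw [norm_add_sq_real, norm_smul, norm_smul, h1, h2, inner_smul_left, inner_smul_right, h12]
  simp

theorem plane_bessel {e1 e2 : V} (h1 : ‖e1‖ = 1) (h2 : ‖e2‖ = 1) (h12 : inner ℝ e1 e2 = 0)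
    (w : V) : inner ℝ w e1 ^ 2 + inner ℝ w e2 ^ 2 ≤ ‖w‖ ^ 2 := by
  have h := sq_nonneg ‖w - (inner ℝ w e1 • e1 + inner ℝ w e2 • e2)‖
  rw [norm_sub_sq_real, plane_norm_sq h1 h2 h12, inner_add_right, inner_smul_right,
    inner_smul_right] at h
  nlinarith

theorem plane_dist {e1 e2 : V} (h1 : ‖e1‖ = 1) (h2 : ‖e2‖ = 1) (h12 : inner ℝ e1 e2 = 0)
    (c : V) (a b : ℝ) : Real.sqrt ((a - inner ℝ c e1) ^ 2 + (b - inner ℝ c e2) ^ 2) ≤
      ‖c - (a • e1 + b • e2)‖ := by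
  have h := plane_bessel h1 h2 h12 (c - (a • e1 + b • e2))
  have h21 : inner ℝ e2 e1 = 0 := by rw [real_inner_comm, h12]
  have h11 : inner ℝ e1 e1 = 1 := by rw [real_inner_self_eq_norm_sq, h1, one_pow]
  have h22 : inner ℝ e2 e2 = 1 := by rw [real_inner_self_eq_norm_sq, h2, one_pow]
  simp only [inner_sub_left, inner_add_left, real_inner_smul_left, h11, h12, h21, h22] at h
  refine Real.sqrt_le_iff.2 ⟨norm_nonneg _, ?_⟩
  nlinarith

theorem Pl_anti {q : V} (hq : q ≠ 0) (c : V) {φ : ℝ → ℝ≥0∞} (hφ : AntitoneOn φ (Ici 0))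
    (hm : Measurable φ) :
    Pl q (fun p => φ ‖c - p‖) ≤ ∫⁻ z : ℝ × ℝ, φ (Real.sqrt (z.1 ^ 2 + z.2 ^ 2)) := by
  obtain ⟨e1, e2, h1, h2, hq1, hq2, h12, -⟩ := exists_frame hq
  have hF : Measurable (fun p : V => φ ‖c - p‖) := hm.comp (by fun_prop)
  rw [Pl_eq hq h1 h2 hq1 hq2 h12 hF,
    ← lintegral_sub_right_eq_self (fun z : ℝ × ℝ => φ (Real.sqrt (z.1 ^ 2 + z.2 ^ 2)))
      (inner ℝ c e1, inner ℝ c e2)]
  refine lintegral_mono fun z => ?_
  exact hφ (Real.sqrt_nonneg _) (norm_nonneg _) (plane_dist h1 h2 h12 c z.1 z.2)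

theorem Pl_disc {q : V} (hq : q ≠ 0) (c : V) {r : ℝ} (hr : 0 ≤ r) :
    Pl q (fun p => if ‖c - p‖ ≤ r then 1 else 0) ≤ ENNReal.ofReal (4 * r ^ 2) := by
  have ha : AntitoneOn (fun t : ℝ => if t ≤ r then (1 : ℝ≥0∞) else 0) (Ici 0) := by
    intro s _ t _ hst
    by_cases h : t ≤ r
    · simp [h, hst.trans h]
    · simp [h]
  refine (Pl_anti hq c ha (Measurable.ite measurableSet_Iic measurable_const
    measurable_const)).trans ?_
  have h1 : ∀ z : ℝ × ℝ, (if Real.sqrt (z.1 ^ 2 + z.2 ^ 2) ≤ r then (1 : ℝ≥0∞) else 0) ≤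
      (Icc (-r) r ×ˢ Icc (-r) r).indicator (fun _ => 1) z := by
    intro z
    split_ifs with h
    · have h2 := (Real.sqrt_le_iff.1 h).2
      have h3 : |z.1| ≤ r := abs_le_of_sq_le_sq (by nlinarith [sq_nonneg z.2]) hr
      have h4 : |z.2| ≤ r := abs_le_of_sq_le_sq (by nlinarith [sq_nonneg z.1]) hr
      rw [indicator_of_mem (show z ∈ Icc (-r) r ×ˢ Icc (-r) r from ⟨abs_le.1 h3, abs_le.1 h4⟩)]
    · exact zero_le
  refine (lintegral_mono h1).trans ((lintegral_indicator_const_le _ _).trans ?_)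
  rw [one_mul, Measure.volume_eq_prod, Measure.prod_prod, Real.volume_Icc,
    ← ENNReal.ofReal_mul (by linarith)]
  exact ENNReal.ofReal_le_ofReal (le_of_eq (by ring))

theorem lintegral_inv_disc {r : ℝ} (hr : 0 ≤ r) :
    ∫⁻ z : ℝ × ℝ, (if Real.sqrt (z.1 ^ 2 + z.2 ^ 2) ≤ r then
      (ENNReal.ofReal (Real.sqrt (z.1 ^ 2 + z.2 ^ 2)))⁻¹ else 0) ≤ ENNReal.ofReal (7 * r) := by
  rw [← lintegral_comp_polarCoord_symm]
  have h1 : ∀ p ∈ polarCoord.target, ENNReal.ofReal p.1 •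
      (if Real.sqrt ((polarCoord.symm p).1 ^ 2 + (polarCoord.symm p).2 ^ 2) ≤ r then
        (ENNReal.ofReal (Real.sqrt ((polarCoord.symm p).1 ^ 2 + (polarCoord.symm p).2 ^ 2)))⁻¹
        else 0) ≤ (Ioc 0 r ×ˢ Ioo (-Real.pi) Real.pi).indicator (fun _ => (1 : ℝ≥0∞)) p := by
    intro p hp
    have hp1 : 0 < p.1 := hp.1
    have e : Real.sqrt ((polarCoord.symm p).1 ^ 2 + (polarCoord.symm p).2 ^ 2) = p.1 := by
      rw [polarCoord_symm_apply]
      have e2 : (p.1 * Real.cos p.2) ^ 2 + (p.1 * Real.sin p.2) ^ 2 = p.1 ^ 2 := by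
        have := Real.cos_sq_add_sin_sq p.2
        linear_combination p.1 ^ 2 * this
      simp only
      rw [e2, Real.sqrt_sq hp1.le]
    rw [e, smul_eq_mul]
    split_ifs with h
    · rw [indicator_of_mem (show p ∈ Ioc 0 r ×ˢ Ioo (-Real.pi) Real.pi from ⟨⟨hp1, h⟩, hp.2⟩)]
      exact ENNReal.mul_inv_le_one _
    · rw [mul_zero]
      exact zero_le
  refine (setLIntegral_mono' polarCoord.open_target.measurableSet h1).trans ?_
  refine (setLIntegral_le_lintegral _ _).trans ((lintegral_indicator_const_le _ _).trans ?_)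
  rw [one_mul, Measure.volume_eq_prod, Measure.prod_prod, Real.volume_Ioc, Real.volume_Ioo,
    ← ENNReal.ofReal_mul (by linarith)]
  refine ENNReal.ofReal_le_ofReal ?_
  nlinarith [Real.pi_lt_d2]

theorem Pl_inv {q : V} (hq : q ≠ 0) (c : V) {r : ℝ} (hr : 0 ≤ r) :
    Pl q (fun p => if ‖c - p‖ ≤ r then (ENNReal.ofReal ‖c - p‖)⁻¹ else 0) ≤
      ENNReal.ofReal (7 * r) := by
  have ha : AntitoneOn (fun t : ℝ => if t ≤ r then (ENNReal.ofReal t)⁻¹ else 0) (Ici 0) := by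
    intro s _ t _ hst
    by_cases h : t ≤ r
    · simp only [h, hst.trans h, if_true]
      exact ENNReal.inv_le_inv.2 (ENNReal.ofReal_le_ofReal hst)
    · simp [h]
  exact (Pl_anti hq c ha (Measurable.ite measurableSet_Iic (by fun_prop)
    measurable_const)).trans (lintegral_inv_disc hr)

theorem plane_gauss1 : ∫⁻ x : ℝ, ENNReal.ofReal (Real.exp (-x ^ 2 / 4)) =
    ENNReal.ofReal (Real.sqrt (4 * Real.pi)) := by
  have e : ∀ x : ℝ, -x ^ 2 / 4 = -(1 / 4) * x ^ 2 := fun x => by ring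
  simp only [e]
  rw [← ofReal_integral_eq_lintegral_ofReal (integrable_exp_neg_mul_sq (by norm_num))
    (Eventually.of_forall fun x => (Real.exp_pos _).le), integral_gaussian]
  congr 2
  ring

theorem Pl_gauss {q : V} (hq : q ≠ 0) :
    Pl q (fun p => ENNReal.ofReal (Real.exp (-‖p‖ ^ 2 / 4))) ≤ 13 := by
  have ha : AntitoneOn (fun t : ℝ => ENNReal.ofReal (Real.exp (-t ^ 2 / 4))) (Ici 0) := by
    intro s hs t _ hst
    refine ENNReal.ofReal_le_ofReal (Real.exp_le_exp.2 ?_)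
    have := pow_le_pow_left₀ hs hst 2
    linarith
  have h := Pl_anti hq 0 ha (by fun_prop)
  simp only [zero_sub, norm_neg] at h
  refine h.trans ?_
  have e : ∀ z : ℝ × ℝ, ENNReal.ofReal (Real.exp (-Real.sqrt (z.1 ^ 2 + z.2 ^ 2) ^ 2 / 4)) =
      ENNReal.ofReal (Real.exp (-z.1 ^ 2 / 4)) * ENNReal.ofReal (Real.exp (-z.2 ^ 2 / 4)) := by
    intro z
    rw [Real.sq_sqrt (by positivity), ← ENNReal.ofReal_mul (Real.exp_pos _).le, ← Real.exp_add]
    congr 2
    ring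
  simp only [e]
  rw [Measure.volume_eq_prod, lintegral_prod_mul
    (f := fun x : ℝ => ENNReal.ofReal (Real.exp (-x ^ 2 / 4)))
    (g := fun x : ℝ => ENNReal.ofReal (Real.exp (-x ^ 2 / 4))) (by fun_prop) (by fun_prop),
    plane_gauss1, ← ENNReal.ofReal_mul (Real.sqrt_nonneg _),
    Real.mul_self_sqrt (by positivity), ← ENNReal.ofReal_ofNat]
  exact ENNReal.ofReal_le_ofReal (by linarith [Real.pi_lt_d2])

theorem plane_sq (h A : ℝ) {L : ℝ} (hL : 0 ≤ L) :
    volume {s : ℝ | A ≤ (s + h) ^ 2 ∧ (s + h) ^ 2 ≤ A + L} ≤ ENNReal.ofReal (2 * Real.sqrt L) := by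
  have hsub : {s : ℝ | A ≤ (s + h) ^ 2 ∧ (s + h) ^ 2 ≤ A + L} ⊆
      Icc (Real.sqrt A - h) (Real.sqrt A + Real.sqrt L - h) ∪
        Icc (-(Real.sqrt A + Real.sqrt L) - h) (-Real.sqrt A - h) := by
    rintro s ⟨h1, h2⟩
    have a1 : Real.sqrt A ≤ |s + h| := by
      rw [← Real.sqrt_sq_eq_abs]
      exact Real.sqrt_le_sqrt h1
    have a2 : A ≤ Real.sqrt A ^ 2 := by
      rw [Real.sq_sqrt']
      exact le_max_left _ _
    have a3 : |s + h| ≤ Real.sqrt A + Real.sqrt L := by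
      refine abs_le_of_sq_le_sq ?_ (by positivity)
      have := Real.sq_sqrt hL
      nlinarith [mul_nonneg (Real.sqrt_nonneg A) (Real.sqrt_nonneg L)]
    rcases le_total 0 (s + h) with h0 | h0
    · rw [abs_of_nonneg h0] at a1 a3
      exact Or.inl ⟨by linarith, by linarith⟩
    · rw [abs_of_nonpos h0] at a1 a3
      exact Or.inr ⟨by linarith, by linarith⟩
  refine (measure_mono hsub).trans ((measure_union_le _ _).trans ?_)
  have hs := Real.sqrt_nonneg L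
  rw [Real.volume_Icc, Real.volume_Icc, ← ENNReal.ofReal_add (by linarith) (by linarith)]
  exact ENNReal.ofReal_le_ofReal (le_of_eq (by ring))

/-- measure of the set where a quadratic polynomial lies in a short interval -/
theorem volume_quad {κ b c M : ℝ} (hκ : κ ≠ 0) (hM : 0 ≤ M) :
    volume {s : ℝ | 0 ≤ κ * s ^ 2 + b * s + c ∧ κ * s ^ 2 + b * s + c ≤ M} ≤
      ENNReal.ofReal (2 * Real.sqrt (M / |κ|)) := by
  have hL : 0 ≤ M / |κ| := div_nonneg hM (abs_nonneg _)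
  have e : ∀ s : ℝ, (s + b / (2 * κ)) ^ 2 = (κ * s ^ 2 + b * s + c) / κ + (b ^ 2 / (4 * κ ^ 2) - c / κ) := by
    intro s
    field_simp
    ring
  rcases lt_or_gt_of_ne hκ with h | h
  · refine le_trans (measure_mono ?_)
      (plane_sq (b / (2 * κ)) (b ^ 2 / (4 * κ ^ 2) - c / κ - M / |κ|) hL)
    rintro s ⟨h1, h2⟩
    have a1 : (κ * s ^ 2 + b * s + c) / κ ≤ 0 := div_nonpos_of_nonneg_of_nonpos h1 h.le
    have a2 : M / κ ≤ (κ * s ^ 2 + b * s + c) / κ := div_le_div_of_nonpos_of_le h.le h2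
    rw [mem_ofPred_eq, e s, abs_of_neg h, div_neg]
    constructor <;> linarith
  · refine le_trans (measure_mono ?_) (plane_sq (b / (2 * κ)) (b ^ 2 / (4 * κ ^ 2) - c / κ) hL)
    rintro s ⟨h1, h2⟩
    have a1 : 0 ≤ (κ * s ^ 2 + b * s + c) / κ := div_nonneg h1 h.le
    have a2 : (κ * s ^ 2 + b * s + c) / κ ≤ M / κ := div_le_div_of_nonneg_right h2 h.le
    rw [mem_ofPred_eq, e s, abs_of_pos h]
    constructor <;> linarith

theorem Pl_shell {q : V} (hq : q ≠ 0) (c : V) (l : ℝ) {κ : ℝ} (hκ : 0 ≤ κ) :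
    Pl q (fun p => if |‖vb (c - p)‖ ^ 2 - l| ≤ κ then
      ENNReal.ofReal (Real.exp (-‖p‖ ^ 2 / 4)) else 0) ≤ ENNReal.ofReal (12 * Real.sqrt κ) := by
  obtain ⟨e1, e2, h1, h2, hq1, hq2, h12, h0⟩ := exists_frame hq
  have hvb : Continuous vb := by
    unfold vb
    fun_prop
  have hF : Measurable (fun p : V => if |‖vb (c - p)‖ ^ 2 - l| ≤ κ then
      ENNReal.ofReal (Real.exp (-‖p‖ ^ 2 / 4)) else 0) :=
    Measurable.ite (measurableSet_le (Continuous.measurable (by fun_prop)) measurable_const)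
      (by fun_prop) measurable_const
  have hG : Measurable (fun z : ℝ × ℝ => if |‖vb (c - (z.1 • e1 + z.2 • e2))‖ ^ 2 - l| ≤ κ then
      ENNReal.ofReal (Real.exp (-‖z.1 • e1 + z.2 • e2‖ ^ 2 / 4)) else 0) :=
    hF.comp (f := fun z : ℝ × ℝ => z.1 • e1 + z.2 • e2) (by fun_prop)
  rw [Pl_eq hq h1 h2 hq1 hq2 h12 hF, Measure.volume_eq_prod,
    lintegral_prod_symm _ hG.aemeasurable]
  have key : ∀ y : ℝ, ∫⁻ x : ℝ, (if |‖vb (c - (x • e1 + y • e2))‖ ^ 2 - l| ≤ κ then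
      ENNReal.ofReal (Real.exp (-‖x • e1 + y • e2‖ ^ 2 / 4)) else 0) ≤
      ENNReal.ofReal (Real.exp (-y ^ 2 / 4)) * ENNReal.ofReal (2 * Real.sqrt (2 * κ / |1|)) := by
    intro y
    refine le_trans (lintegral_mono fun x => ?_) ((lintegral_indicator_const_le _ _).trans
      (mul_le_mul_right (volume_quad (κ := 1) (b := -2 * inner ℝ (vb (c - y • e2)) e1)
        (c := ‖vb (c - y • e2)‖ ^ 2 - l + κ) (M := 2 * κ) one_ne_zero (by linarith)) _))
    split_ifs with h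
    · have e : vb (c - (x • e1 + y • e2)) = vb (c - y • e2) - x • e1 := by
        unfold vb
        simp only [PiLp.sub_apply, PiLp.add_apply, PiLp.smul_apply, h0, smul_zero, zero_add]
        abel
      rw [e, norm_sub_sq_real, inner_smul_right, norm_smul, h1, mul_one, Real.norm_eq_abs, sq_abs,
        abs_le] at h
      rw [indicator_of_mem (by constructor <;> linarith [h.1, h.2]), plane_norm_sq h1 h2 h12]
      refine ENNReal.ofReal_le_ofReal (Real.exp_le_exp.2 ?_)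
      linarith [sq_nonneg x]
    · exact zero_le
  refine (lintegral_mono key).trans ?_
  rw [lintegral_mul_const _ (by fun_prop), plane_gauss1, ← ENNReal.ofReal_mul (Real.sqrt_nonneg _)]
  refine ENNReal.ofReal_le_ofReal ?_
  rw [abs_one, div_one, Real.sqrt_mul (by norm_num : (0 : ℝ) ≤ 2)]
  have a1 : Real.sqrt (4 * Real.pi) ≤ 4 :=
    Real.sqrt_le_iff.2 ⟨by norm_num, by linarith [Real.pi_lt_d2]⟩
  have a2 : Real.sqrt 2 ≤ 3 / 2 := Real.sqrt_le_iff.2 ⟨by norm_num, by norm_num⟩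
  have a3 : Real.sqrt (4 * Real.pi) * Real.sqrt 2 ≤ 4 * (3 / 2) :=
    mul_le_mul a1 a2 (Real.sqrt_nonneg _) (by norm_num)
  nlinarith [Real.sqrt_nonneg κ]

theorem plane_ball (c : V) {r : ℝ} (hr : 0 ≤ r) :
    volume {v : V | ‖v - c‖ ≤ r} = ENNReal.ofReal (r ^ 3 * (Real.pi * 4 / 3)) := by
  have e : {v : V | ‖v - c‖ ≤ r} = Metric.closedBall c r := by
    ext v
    exact mem_closedBall_iff_norm.symm
  rw [e, EuclideanSpace.volume_closedBall_fin_three, ENNReal.ofReal_mul (by positivity),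
    ENNReal.ofReal_pow hr]

theorem volume_ball_le (c : V) {r : ℝ} (hr : 0 ≤ r) :
    volume {v : V | ‖v - c‖ ≤ r} ≤ ENNReal.ofReal (5 * r ^ 3) := by
  rw [plane_ball c hr]
  refine ENNReal.ofReal_le_ofReal ?_
  nlinarith [Real.pi_lt_d2, pow_nonneg hr 3]

theorem le_volume_ball (c : V) {r : ℝ} (hr : 0 ≤ r) :
    ENNReal.ofReal (r ^ 3) ≤ volume {v : V | ‖v - c‖ ≤ r} := by
  rw [plane_ball c hr]
  refine ENNReal.ofReal_le_ofReal ?_
  nlinarith [Real.pi_gt_three, pow_nonneg hr 3]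

theorem plane_radial {f : ℝ → ℝ≥0∞} (hf : Measurable f) :
    ∫⁻ q : V, f ‖q‖ =
      ENNReal.ofReal (4 * Real.pi) * ∫⁻ y in Ioi (0 : ℝ), ENNReal.ofReal (y ^ 2) * f y := by
  have h1 : ∫⁻ q : V, f ‖q‖ = ∫⁻ x : ({(0)}ᶜ : Set V), f ‖x.1‖ ∂(Measure.comap Subtype.val volume) := by
    rw [lintegral_subtype_comap (measurableSet_singleton _).compl fun x : V => f ‖x‖,
      restrict_compl_singleton]
  have h2 := (volume : Measure V).measurePreserving_homeomorphUnitSphereProd.lintegral_comp_emb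
    (Homeomorph.measurableEmbedding _) (fun x => f x.2.1)
  simp only [homeomorphUnitSphereProd_apply_snd_coe] at h2
  have hd : Module.finrank ℝ V = 3 := by simp
  rw [h1, h2, lintegral_prod _ (by fun_prop)]
  simp only [lintegral_const]
  rw [mul_comm, Measure.toSphere_apply_univ, EuclideanSpace.volume_ball_fin_three, hd,
    Measure.volumeIoiPow, lintegral_withDensity_eq_lintegral_mul _ (by fun_prop) (by fun_prop),
    ← lintegral_subtype_comap measurableSet_Ioi]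
  congr 1
  rw [ENNReal.ofReal_one, one_pow, one_mul, ← ENNReal.ofReal_natCast,
    ← ENNReal.ofReal_mul (by positivity)]
  congr 1
  push_cast
  ring

theorem lintegral_inv_ball {r : ℝ} (hr : 0 ≤ r) :
    ∫⁻ q : V, (if ‖q‖ ≤ r then (ENNReal.ofReal ‖q‖)⁻¹ else 0) ≤ ENNReal.ofReal (7 * r ^ 2) := by
  rw [plane_radial (f := fun t => if t ≤ r then (ENNReal.ofReal t)⁻¹ else 0)
    (Measurable.ite measurableSet_Iic (by fun_prop) measurable_const)]
  have h1 : ∀ y ∈ Ioi (0 : ℝ), ENNReal.ofReal (y ^ 2) *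
      (if y ≤ r then (ENNReal.ofReal y)⁻¹ else 0) ≤ (Ioc 0 r).indicator ENNReal.ofReal y := by
    intro y hy
    split_ifs with h
    · rw [indicator_of_mem (show y ∈ Ioc 0 r from ⟨hy, h⟩), sq, ENNReal.ofReal_mul (le_of_lt hy),
        mul_assoc]
      exact mul_le_of_le_one_right' (ENNReal.mul_inv_le_one _)
    · rw [mul_zero]
      exact zero_le
  have h2 : ∫⁻ y, (Ioc 0 r).indicator ENNReal.ofReal y = ENNReal.ofReal (r ^ 2 / 2) := by
    have h3 : 0 ≤ᵐ[volume.restrict (Ioc 0 r)] fun y : ℝ => y :=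
      (ae_restrict_iff' measurableSet_Ioc).2 (Eventually.of_forall fun y hy => hy.1.le)
    rw [lintegral_indicator measurableSet_Ioc, ← ofReal_integral_eq_lintegral_ofReal
      (f := fun y : ℝ => y) (continuous_id.integrableOn_Ioc) h3,
      ← intervalIntegral.integral_of_le hr, integral_id]
    simp
  refine (mul_le_mul_right ((setLIntegral_mono' measurableSet_Ioi h1).trans
    (setLIntegral_le_lintegral _ _)) _).trans ?_
  rw [h2, ← ENNReal.ofReal_mul (by positivity)]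
  refine ENNReal.ofReal_le_ofReal ?_
  nlinarith [Real.pi_lt_d2, sq_nonneg r]

theorem plane_inv_sq : ∫⁻ q : V, (if ‖q‖ ≤ 1 then
    (ENNReal.ofReal ‖q‖)⁻¹ * (ENNReal.ofReal ‖q‖)⁻¹ else 0) ≤ 20 := by
  rw [plane_radial (f := fun t => if t ≤ 1 then (ENNReal.ofReal t)⁻¹ * (ENNReal.ofReal t)⁻¹ else 0)
    (Measurable.ite measurableSet_Iic (by fun_prop) measurable_const)]
  have h1 : ∀ y ∈ Ioi (0 : ℝ), ENNReal.ofReal (y ^ 2) *
      (if y ≤ 1 then (ENNReal.ofReal y)⁻¹ * (ENNReal.ofReal y)⁻¹ else 0) ≤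
        (Ioc (0 : ℝ) 1).indicator (fun _ => (1 : ℝ≥0∞)) y := by
    intro y hy
    split_ifs with h
    · rw [indicator_of_mem (show y ∈ Ioc 0 1 from ⟨hy, h⟩), sq, ENNReal.ofReal_mul (le_of_lt hy),
        mul_mul_mul_comm]
      exact mul_le_one' (ENNReal.mul_inv_le_one _) (ENNReal.mul_inv_le_one _)
    · rw [mul_zero]
      exact zero_le
  refine (mul_le_mul_right ((setLIntegral_mono' measurableSet_Ioi h1).trans
    ((setLIntegral_le_lintegral _ _).trans (lintegral_indicator_const_le _ _))) _).trans ?_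
  rw [Real.volume_Ioc, sub_zero, ENNReal.ofReal_one, one_mul, mul_one, ← ENNReal.ofReal_ofNat]
  exact ENNReal.ofReal_le_ofReal (by linarith [Real.pi_lt_d2])

theorem lintegral_inv_inv (c : V) :
    ∫⁻ q : V, (ENNReal.ofReal ‖q‖)⁻¹ *
      (if ‖c - q‖ ≤ 1 then (ENNReal.ofReal ‖c - q‖)⁻¹ else 0) ≤ 40 := by
  have hg : Measurable (fun q : V => if ‖q‖ ≤ 1 then
      (ENNReal.ofReal ‖q‖)⁻¹ * (ENNReal.ofReal ‖q‖)⁻¹ else 0) :=
    Measurable.ite (measurableSet_le (by fun_prop) measurable_const) (by fun_prop) measurable_const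
  have h1 : ∀ q : V, (ENNReal.ofReal ‖q‖)⁻¹ *
      (if ‖c - q‖ ≤ 1 then (ENNReal.ofReal ‖c - q‖)⁻¹ else 0) ≤
      (if ‖q‖ ≤ 1 then (ENNReal.ofReal ‖q‖)⁻¹ * (ENNReal.ofReal ‖q‖)⁻¹ else 0) +
      (if ‖c - q‖ ≤ 1 then (ENNReal.ofReal ‖c - q‖)⁻¹ * (ENNReal.ofReal ‖c - q‖)⁻¹ else 0) := by
    intro q
    by_cases h : ‖c - q‖ ≤ 1
    · rw [if_pos h, if_pos h]
      rcases le_total ‖q‖ ‖c - q‖ with h2 | h2
      · rw [if_pos (h2.trans h)]
        exact le_add_right (mul_le_mul_right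
          (ENNReal.inv_le_inv.2 (ENNReal.ofReal_le_ofReal h2)) _)
      · exact le_add_left (mul_le_mul_left
          (ENNReal.inv_le_inv.2 (ENNReal.ofReal_le_ofReal h2)) _)
    · rw [if_neg h, mul_zero]
      exact zero_le
  refine (lintegral_mono h1).trans ?_
  rw [lintegral_add_left hg, lintegral_sub_left_eq_self (fun q : V => if ‖q‖ ≤ 1 then
      (ENNReal.ofReal ‖q‖)⁻¹ * (ENNReal.ofReal ‖q‖)⁻¹ else 0) c]
  exact (add_le_add plane_inv_sq plane_inv_sq).trans (by norm_num)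

theorem lintegral_inv_ball' (c : V) :
    ∫⁻ v : V, (if ‖v - c‖ ≤ 1 then (ENNReal.ofReal ‖v - c‖)⁻¹ else 0) ≤ 7 := by
  rw [lintegral_sub_right_eq_self
    (fun q : V => if ‖q‖ ≤ 1 then (ENNReal.ofReal ‖q‖)⁻¹ else 0) c]
  refine (lintegral_inv_ball zero_le_one).trans ?_
  norm_num

theorem integrable_gauss_moment (j : ℕ) (a : ℝ) {b : ℝ} (hb : 0 < b) :
    Integrable (fun w : V => (1 + ‖w‖) ^ j * Real.exp (-b * ‖w‖ ^ 2 + a * ‖w‖)) := by
  have hd : (Module.finrank ℝ V : ℝ) < (4 : ℕ) := by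
    simp
    norm_num
  refine ((integrable_one_add_norm (μ := volume) hd).const_mul
    (Real.exp ((a + j + 4) ^ 2 / (4 * b)))).mono' (Continuous.aestronglyMeasurable (by fun_prop))
    (Eventually.of_forall fun w => ?_)
  have h0 := norm_nonneg w
  generalize ‖w‖ = t at h0 ⊢
  have h1 : 0 < 1 + t := by linarith
  rw [Real.norm_eq_abs, abs_of_nonneg (by positivity), Real.rpow_neg h1.le, Real.rpow_natCast,
    ← div_eq_mul_inv, le_div_iff₀ (by positivity)]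
  have h2 : (1 + t) ^ (j + 4) ≤ Real.exp (((j + 4 : ℕ) : ℝ) * t) := by
    rw [Real.exp_nat_mul]
    exact pow_le_pow_left₀ h1.le (by linarith [Real.add_one_le_exp t]) _
  have h3 : ((j + 4 : ℕ) : ℝ) * t + (-b * t ^ 2 + a * t) ≤ (a + j + 4) ^ 2 / (4 * b) := by
    rw [le_div_iff₀ (by positivity)]
    push_cast
    nlinarith [sq_nonneg (a + j + 4 - 2 * b * t)]
  calc (1 + t) ^ j * Real.exp (-b * t ^ 2 + a * t) * (1 + t) ^ 4
      = (1 + t) ^ (j + 4) * Real.exp (-b * t ^ 2 + a * t) := by ring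
    _ ≤ Real.exp (((j + 4 : ℕ) : ℝ) * t) * Real.exp (-b * t ^ 2 + a * t) :=
      mul_le_mul_of_nonneg_right h2 (Real.exp_pos _).le
    _ ≤ _ := by
      rw [← Real.exp_add]
      exact Real.exp_le_exp.2 h3

end Vale.Agent.P140
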