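import Vale.Agent.P140.Carl
import Vale.Agent.P140.Plane

/-! Angular estimates. -/

namespace Vale.Agent.P140

open MeasureTheory Set Filter Topology
open scoped ENNReal

theorem exists_cS : ∃ c : ℝ, 0 < c ∧ c ≤ 1 ∧ ∀ v w : V,
    ENNReal.ofReal (c * ‖v - w‖) ≤ ∫⁻ ω, kI v w ω ∂sig := by
  obtain ⟨c0, hc0, hc⟩ : ∃ c0 : ℝ, 0 < c0 ∧ ∀ u : S2, c0 ≤ sig.real (Metric.ball u 1) :=
    ⟨_, mul_pos (by exact_mod_cast Measure.toSphereBallBound_pos _ _)
      (ENNReal.toReal_pos (Metric.measure_ball_pos (volume : Measure V) 0 one_pos).ne'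
        measure_ball_lt_top.ne),
      fun u => Measure.toSphereBallBound_mul_measureReal_unitBall_le_toSphere_ball
        (volume : Measure V) one_pos u⟩
  refine ⟨min 1 (c0 / 2), lt_min one_pos (by linarith), min_le_left _ _, fun v w => ?_⟩
  by_cases hg : v - w = 0
  · simp [hg]
  have hn : 0 < ‖v - w‖ := norm_pos_iff.2 hg
  have hu : ‖‖v - w‖⁻¹ • (v - w)‖ = 1 := by
    rw [norm_smul, norm_inv, norm_norm, inv_mul_cancel₀ hn.ne']
  let u : S2 := ⟨‖v - w‖⁻¹ • (v - w), by simpa using hu⟩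
  have h1 : ∀ ω ∈ Metric.ball u 1, ENNReal.ofReal (‖v - w‖ / 2) ≤ kI v w ω := fun ω hω => by
    refine ENNReal.ofReal_le_ofReal (le_trans ?_ (le_abs_self _))
    have hd : ‖(u : V) - ω‖ < 1 := by
      rw [Metric.mem_ball, dist_comm, Subtype.dist_eq, dist_eq_norm] at hω
      exact hω
    have h2 := norm_sub_sq_real (u : V) ω
    have h3 : inner ℝ (u : V) (ω : V) = ‖v - w‖⁻¹ * aa v w ω := real_inner_smul_left _ _ _
    rw [h3, norm_eq_of_mem_sphere u, norm_eq_of_mem_sphere ω] at h2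
    have h4 : 1 / 2 ≤ ‖v - w‖⁻¹ * aa v w ω := by nlinarith [norm_nonneg ((u : V) - ω)]
    rw [le_inv_mul_iff₀ hn] at h4
    linarith
  calc ENNReal.ofReal (min 1 (c0 / 2) * ‖v - w‖)
      ≤ ENNReal.ofReal (‖v - w‖ / 2) * sig (Metric.ball u 1) := by
        rw [← ofReal_measureReal (measure_ne_top _ _), ← ENNReal.ofReal_mul (by positivity)]
        refine ENNReal.ofReal_le_ofReal ?_
        have := mul_le_mul_of_nonneg_right (min_le_right 1 (c0 / 2)) hn.le
        have := mul_le_mul_of_nonneg_left (hc u) hn.le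
        linarith
    _ = ∫⁻ _ in Metric.ball u 1, ENNReal.ofReal (‖v - w‖ / 2) ∂sig := by
        rw [setLIntegral_const]
    _ ≤ ∫⁻ ω in Metric.ball u 1, kI v w ω ∂sig := setLIntegral_mono' measurableSet_ball h1
    _ ≤ _ := setLIntegral_le_lintegral _ _

theorem Sph_const_le {r : ℝ} : ∫⁻ _ : S2, ENNReal.ofReal r ∂sig ≤ ENNReal.ofReal (13 * r) := by
  rw [lintegral_const, ENNReal.ofReal_mul (by norm_num), mul_comm]
  refine mul_le_mul_left (sig_univ_le.trans (le_of_eq ?_)) _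
  simp

theorem kI_le_kN_add {n : ℕ} (hn : 1 ≤ n) {v w : V} (h : ‖v‖ ^ 2 + ‖w‖ ^ 2 ≤ (n : ℝ) ^ 2) :
    ∫⁻ ω, kI v w ω ∂sig ≤ ∫⁻ ω, kN n v w ω ∂sig + ENNReal.ofReal (13 / n) := by
  calc ∫⁻ ω, kI v w ω ∂sig ≤ ∫⁻ ω, (kN n v w ω + ENNReal.ofReal (1 / n)) ∂sig := by
        refine lintegral_mono fun ω => ?_
        by_cases h1 : 1 / (n : ℝ) ≤ |aa v w ω|
        · rw [kN, if_pos ⟨h, h1⟩]
          exact le_self_add
        · exact le_add_left (ENNReal.ofReal_le_ofReal (not_le.1 h1).le)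
    _ = ∫⁻ ω, kN n v w ω ∂sig + ∫⁻ _ : S2, ENNReal.ofReal (1 / n) ∂sig :=
        lintegral_add_right _ measurable_const
    _ ≤ _ := by
        refine add_le_add le_rfl (Sph_const_le.trans (le_of_eq ?_))
        rw [mul_one_div]

theorem Sph_continuous_vb : Continuous vb := by
  unfold vb
  fun_prop

theorem Sph_vb_smul (a : ℝ) (u : V) : vb (a • u) = a • vb u := by
  simp only [vb, PiLp.smul_apply, smul_eq_mul, smul_sub, smul_smul]

theorem Sph_cap {β : ℝ} (hβ : 0 < β) : ∃ k : ℝ, 0 < k ∧ 13 * k ≤ β ∧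
    sig {ω : S2 | ‖vb ω‖ ≤ k} ≤ ENNReal.ofReal β := by
  have hm : ∀ r : ℝ, MeasurableSet {ω : S2 | ‖vb ω‖ ≤ r} := fun r =>
    (isClosed_le (Sph_continuous_vb.comp continuous_subtype_val).norm continuous_const).measurableSet
  have ht := tendsto_measure_biInter_gt (μ := sig) (s := fun r : ℝ => {ω : S2 | ‖vb ω‖ ≤ r}) (a := 0)
    (fun r _ => (hm r).nullMeasurableSet) (fun i j _ hij ω hω => le_trans hω hij)
    ⟨1, one_pos, measure_ne_top _ _⟩
  have h0 : sig (⋂ r > (0 : ℝ), {ω : S2 | ‖vb ω‖ ≤ r}) = 0 := by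
    refine measure_mono_null (t := {ω : S2 | ‖vb ω‖ ≤ 0}) (fun ω hω => ?_) ?_
    · exact le_of_forall_gt_imp_ge_of_dense fun r hr => mem_iInter₂.1 hω r hr
    · rw [sig, Measure.toSphere_apply' _ (hm 0)]
      refine mul_eq_zero_of_right _ (measure_mono_null
        (t := (LinearMap.ker (EuclideanSpace.projₗ (𝕜 := ℝ) (1 : Fin 3)) : Submodule ℝ V)) ?_
        (Measure.addHaar_submodule _ _ fun h => ?_))
      · rintro _ ⟨a, -, _, ⟨ω, hω, rfl⟩, rfl⟩
        have h1 : vb ω = 0 := norm_le_zero_iff.1 hω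
        have h2 := congrArg (fun x : V => x 1) h1
        simp [vb, e0] at h2
        simp [h2]
      · have : EuclideanSpace.single (1 : Fin 3) (1 : ℝ) ∈
            LinearMap.ker (EuclideanSpace.projₗ (𝕜 := ℝ) (1 : Fin 3)) := h ▸ Submodule.mem_top
        simp at this
  rw [h0] at ht
  have h1 := ht.eventually (ge_mem_nhds (ENNReal.ofReal_pos.2 hβ))
  have h2 : ∀ᶠ r in 𝓝[>] (0 : ℝ), r ∈ Ioo 0 (β / 13) := Ioo_mem_nhdsGT (by positivity)
  obtain ⟨k, hk1, hk2⟩ := (h1.and h2).exists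
  exact ⟨k, hk2.1, by linarith [hk2.2], hk1⟩

theorem Sph_bad {β : ℝ} (hβ : 0 < β) : ∃ κ : ℝ, 0 < κ ∧ ∀ μ : ℝ, ∀ g : V, μ ≤ κ * ‖g‖ →
    ∫⁻ ω : S2, ENNReal.ofReal |inner ℝ g (ω : V)| *
      (if ‖vb (inner ℝ g (ω : V) • (ω : V))‖ ≤ μ then 1 else 0) ∂sig ≤ ENNReal.ofReal (β * ‖g‖) := by
  obtain ⟨k, hk, hk1, hk2⟩ := Sph_cap (half_pos hβ)
  have hm : MeasurableSet {ω : S2 | ‖vb ω‖ ≤ k} :=
    (isClosed_le (Sph_continuous_vb.comp continuous_subtype_val).norm continuous_const).measurableSet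
  refine ⟨k * k, by positivity, fun μ g hμ => ?_⟩
  have hg := norm_nonneg g
  calc _ ≤ ∫⁻ ω : S2, (ENNReal.ofReal (k * ‖g‖) +
          {ω : S2 | ‖vb ω‖ ≤ k}.indicator (fun _ => ENNReal.ofReal ‖g‖) ω) ∂sig := by
        refine lintegral_mono fun ω => ?_
        have ha : |inner ℝ g (ω : V)| ≤ ‖g‖ := by
          simpa [norm_eq_of_mem_sphere ω] using abs_real_inner_le_norm g (ω : V)
        split_ifs with h1
        · rw [mul_one]
          by_cases h2 : ‖vb ω‖ ≤ k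
          · rw [indicator_of_mem (show ω ∈ {ω : S2 | ‖vb ω‖ ≤ k} from h2)]
            exact le_add_left (ENNReal.ofReal_le_ofReal ha)
          · refine le_add_right (ENNReal.ofReal_le_ofReal ?_)
            rw [Sph_vb_smul, norm_smul, Real.norm_eq_abs] at h1
            have h3 := mul_le_mul_of_nonneg_left (not_le.1 h2).le (abs_nonneg (inner ℝ g (ω : V)))
            exact le_of_mul_le_mul_right (by linarith) hk
        · simp
    _ = ∫⁻ _ : S2, ENNReal.ofReal (k * ‖g‖) ∂sig + ENNReal.ofReal ‖g‖ * sig {ω : S2 | ‖vb ω‖ ≤ k} := by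
        rw [lintegral_add_left measurable_const, lintegral_indicator_const hm]
    _ ≤ ENNReal.ofReal (13 * (k * ‖g‖)) + ENNReal.ofReal ‖g‖ * ENNReal.ofReal (β / 2) :=
        add_le_add Sph_const_le (mul_le_mul_right hk2 _)
    _ ≤ _ := by
        rw [← ENNReal.ofReal_mul hg, ← ENNReal.ofReal_add (by positivity) (by positivity)]
        refine ENNReal.ofReal_le_ofReal ?_
        nlinarith

/-- few collisions produce a particle with small in-plane velocity relative to the partner -/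
theorem bad_vq {β : ℝ} (hβ : 0 < β) : ∃ κ : ℝ, 0 < κ ∧ ∀ μ : ℝ, ∀ v w : V, μ ≤ κ * ‖v - w‖ →
    ∫⁻ ω, kI v w ω * (if ‖vb (vq v w ω - w)‖ ≤ μ then 1 else 0) ∂sig ≤
      ENNReal.ofReal (β * ‖v - w‖) := by
  obtain ⟨κ, hκ, h⟩ := Sph_bad hβ
  refine ⟨κ, hκ, fun μ v w hμ => le_of_eq_of_le ?_ (h μ (v - w) hμ)⟩
  simp only [kI, vq, aa, add_sub_cancel_left]

theorem bad_vp {β : ℝ} (hβ : 0 < β) : ∃ κ : ℝ, 0 < κ ∧ ∀ μ : ℝ, ∀ v : V, ∀ᵐ w : V,
    μ ≤ κ * ‖v - w‖ →
    ∫⁻ ω, kI v w ω * (if ‖vb (vp v w ω - w)‖ ≤ μ then 1 else 0) ∂sig ≤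
      ENNReal.ofReal (β * ‖v - w‖) := by
  obtain ⟨κ, hκ, h⟩ := Sph_bad hβ
  refine ⟨κ, hκ, fun μ v => ?_⟩
  have hF : Measurable fun p : V => if ‖vb p‖ ≤ μ then (1 : ℝ≥0∞) else 0 :=
    Measurable.ite (isClosed_le Sph_continuous_vb.norm continuous_const).measurableSet
      measurable_const measurable_const
  filter_upwards [(Measure.measurePreserving_sub_left volume v).quasiMeasurePreserving.ae
    (sphere_swap_ae hF)] with w hw hμ
  refine le_of_eq_of_le ?_ (h μ (v - w) hμ)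
  rw [← hw]
  simp only [kI, vp, aa, sub_right_comm v _ w]

/-- Lipschitz dependence of the total cross-section on the velocity -/
theorem lintegral_kI_le (v v' w : V) :
    ∫⁻ ω, kI v w ω ∂sig ≤ ∫⁻ ω, kI v' w ω ∂sig + ENNReal.ofReal (13 * ‖v - v'‖) := by
  calc ∫⁻ ω, kI v w ω ∂sig ≤ ∫⁻ ω, (kI v' w ω + ENNReal.ofReal ‖v - v'‖) ∂sig := by
        refine lintegral_mono fun ω => ?_
        rw [kI, kI, ← ENNReal.ofReal_add (abs_nonneg _) (norm_nonneg _)]
        refine ENNReal.ofReal_le_ofReal ?_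
        have e : aa v w ω = aa v' w ω + aa v v' ω := by
          rw [aa, aa, aa, ← inner_add_left]
          congr 1
          abel
        rw [e]
        exact (abs_add_le _ _).trans (add_le_add le_rfl (abs_aa_le v v' ω))
    _ = ∫⁻ ω, kI v' w ω ∂sig + ∫⁻ _ : S2, ENNReal.ofReal ‖v - v'‖ ∂sig :=
        lintegral_add_right _ measurable_const
    _ ≤ _ := add_le_add le_rfl Sph_const_le

theorem Sph_le_of {n : ℕ} {v w : V} (h : ‖v‖ ^ 2 + ‖w‖ ^ 2 ≤ (n : ℝ) ^ 2) : ‖v‖ ≤ n ∧ ‖w‖ ≤ n :=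
  ⟨abs_le_of_sq_le_sq' (by nlinarith [sq_nonneg ‖w‖]) (Nat.cast_nonneg n) |>.2,
    abs_le_of_sq_le_sq' (by nlinarith [sq_nonneg ‖v‖]) (Nat.cast_nonneg n) |>.2⟩

theorem Sph_kN_zero {n : ℕ} {v w : V} (h : ¬ (‖v‖ ≤ n ∧ ‖w‖ ≤ n)) (ω : S2) : kN n v w ω = 0 :=
  if_neg fun h' => h (Sph_le_of h'.1)

theorem Sph_kN_le (n : ℕ) (v w : V) :
    ∫⁻ ω, kN n v w ω ∂sig ≤ if ‖v‖ ≤ n ∧ ‖w‖ ≤ n then ENNReal.ofReal (26 * (n : ℝ)) else 0 := by
  split_ifs with h
  · refine (lintegral_ker_le (isKer_kN n) v w).trans (ENNReal.ofReal_le_ofReal ?_)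
    linarith [norm_sub_le v w, h.1, h.2]
  · simp [Sph_kN_zero h]

/-- gain bound for the truncated kernel: one factor in sup norm, the other in `L¹` -/
theorem Qp_kN_le (n : ℕ) (hn : 1 ≤ n) {F G : V → ℝ≥0∞} (hF : Measurable F) (hG : Measurable G)
    {M : ℝ≥0∞} (hM : ∀ v, G v ≤ M) (v : V) :
    Qp (kN n) F G v ≤ (if ‖v‖ ≤ n then ENNReal.ofReal (32 * (n : ℝ) ^ 3) * M * ∫⁻ u, F u else 0) := by
  have hn0 : (0 : ℝ) < n := by exact_mod_cast hn
  split_ifs with hv
  swap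
  · simp [Qp, Sph_kN_zero (fun h : ‖v‖ ≤ n ∧ _ => hv h.1)]
  have hA : Measurable fun v' : V => if 1 / (n : ℝ) ≤ ‖v - v'‖ then F v' * M else 0 :=
    Measurable.ite (isClosed_le continuous_const (by fun_prop)).measurableSet
      (hF.mul_const _) measurable_const
  have hB : Measurable fun v' : V => if ‖v'‖ ≤ n then (1 : ℝ≥0∞) else 0 :=
    Measurable.ite (isClosed_le continuous_norm continuous_const).measurableSet
      measurable_const measurable_const
  have hH : Measurable (Function.uncurry fun v' v'' : V =>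
      (if 1 / (n : ℝ) ≤ ‖v - v'‖ then F v' * M else 0) * (if ‖v''‖ ≤ n then (1 : ℝ≥0∞) else 0)) :=
    (hA.comp measurable_fst).mul (hB.comp measurable_snd)
  calc Qp (kN n) F G v ≤ ∫⁻ w, ∫⁻ ω, kI v w ω *
          ((if 1 / (n : ℝ) ≤ ‖v - vp v w ω‖ then F (vp v w ω) * M else 0) *
            (if ‖vq v w ω‖ ≤ n then (1 : ℝ≥0∞) else 0)) ∂sig := by
        refine lintegral_mono fun w => lintegral_mono fun ω => ?_
        by_cases h : ‖v‖ ^ 2 + ‖w‖ ^ 2 ≤ (n : ℝ) ^ 2 ∧ 1 / (n : ℝ) ≤ |aa v w ω|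
        · have h1 : 1 / (n : ℝ) ≤ ‖v - vp v w ω‖ := by
            rw [vp, sub_sub_cancel, norm_smul, norm_eq_of_mem_sphere ω, mul_one]
            exact h.2
          have h2 : ‖vq v w ω‖ ≤ n := (Sph_le_of ((energy_coll v w ω).le.trans h.1)).2
          simp only [kN, kI, if_pos h, if_pos h1, if_pos h2, mul_one]
          exact mul_le_mul_right (mul_le_mul_right (hM _) _) _
        · simp only [kN, if_neg h, zero_mul, zero_le]
    _ = _ := coll_carl hH v
    _ ≤ 2 * ∫⁻ q, ENNReal.ofReal (4 * (n : ℝ) ^ 3) * M * F (v - q) := by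
        refine mul_le_mul_right (lintegral_mono fun q => ?_) _
        simp only [sub_sub_cancel]
        rw [Pl_const_mul q (F := fun p => if ‖v - p‖ ≤ n then (1 : ℝ≥0∞) else 0)
          (hB.comp (measurable_const.sub measurable_id))]
        split_ifs with h
        · have hq : 0 < ‖q‖ := lt_of_lt_of_le (by positivity) h
          have h1 : (ENNReal.ofReal ‖q‖)⁻¹ ≤ ENNReal.ofReal n := by
            rw [← ENNReal.ofReal_inv_of_pos hq]
            refine ENNReal.ofReal_le_ofReal ?_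
            rw [inv_le_comm₀ hq hn0, ← one_div]
            exact h
          calc _ ≤ ENNReal.ofReal n * (F (v - q) * M * ENNReal.ofReal (4 * (n : ℝ) ^ 2)) :=
                mul_le_mul' h1 (mul_le_mul_right (Pl_disc (norm_pos_iff.1 hq) v hn0.le) _)
            _ = _ := by
                rw [show 4 * (n : ℝ) ^ 3 = n * (4 * (n : ℝ) ^ 2) by ring, ENNReal.ofReal_mul hn0.le]
                ring
        · simp
    _ ≤ _ := by
        rw [lintegral_const_mul (f := fun q => F (v - q)) _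
          (hF.comp (measurable_const.sub measurable_id)), lintegral_sub_left_eq_self, ← mul_assoc,
          ← mul_assoc]
        refine mul_le_mul_left (mul_le_mul_left ?_ _) _
        rw [show (2 : ℝ≥0∞) = ENNReal.ofReal 2 by simp, ← ENNReal.ofReal_mul (by norm_num)]
        refine ENNReal.ofReal_le_ofReal ?_
        have := pow_pos hn0 3
        linarith

theorem lintegral_kN_le (n : ℕ) (v : V) :
    ∫⁻ w, ∫⁻ ω, kN n v w ω ∂sig ≤ (if ‖v‖ ≤ n then ENNReal.ofReal (130 * (n : ℝ) ^ 4) else 0) := by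
  refine (lintegral_mono fun w => Sph_kN_le n v w).trans ?_
  split_ifs with hv
  · have hm : MeasurableSet {w : V | ‖w - 0‖ ≤ n} :=
      (isClosed_le (by fun_prop) continuous_const).measurableSet
    calc _ = ∫⁻ w, {w : V | ‖w - 0‖ ≤ n}.indicator (fun _ => ENNReal.ofReal (26 * (n : ℝ))) w := by
          refine lintegral_congr fun w => ?_
          simp [indicator, hv]
      _ ≤ ENNReal.ofReal (26 * (n : ℝ)) * ENNReal.ofReal (5 * (n : ℝ) ^ 3) := by
          rw [lintegral_indicator_const hm]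
          exact mul_le_mul_right (volume_ball_le 0 (Nat.cast_nonneg n)) _
      _ = _ := by
          rw [← ENNReal.ofReal_mul (by positivity)]
          congr 1
          ring
  · simp [hv]

theorem Lo_kN_le (n : ℕ) {G : V → ℝ≥0∞} (hG : Measurable G) (v : V) :
    Lo (kN n) G v ≤ (if ‖v‖ ≤ n then ENNReal.ofReal (26 * (n : ℝ)) * ∫⁻ u, G u else 0) := by
  rw [Lo_eq (isKer_kN n) hG]
  refine (lintegral_mono fun w => mul_le_mul_right (Sph_kN_le n v w) (G w)).trans ?_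
  split_ifs with hv
  · rw [← lintegral_const_mul _ hG]
    refine lintegral_mono fun w => ?_
    rw [mul_comm]
    refine mul_le_mul_left ?_ _
    split_ifs
    · exact le_rfl
    · exact zero_le
  · simp [hv]

end Vale.Agent.P140
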