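import Vale.Agent.P140.TrDual
import Vale.Agent.P140.Sph

/-! Comparison with a bounded supersolution. -/

namespace Vale.Agent.P140

open MeasureTheory Set Filter Topology
open scoped ENNReal

/- PLAN. Let D t z = ofReal (f t z) - U t z.1 z.2 (truncated subtraction), bounded by M' < ⊤ on [0,T] (TrSol.ub, G0_le_one).
ofReal f ≤ U + D, so by TrSol.upper, Qp_mono, Qp_add_left/right:
ofReal (f t) ≤ f0-term + Dh (Qp kI U U) + Dh (Qp kN U D + Qp kN D (U + D)), hence D t ≤ Dh (...). If D s ≤ d s everywhere then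
Qp kN U D + Qp kN D (U+D) ≤ L d s with L = 130 n⁴ (2 M + M') (lintegral_kN_le). By induction D t ≤ M' 2^-j exp(2 L t); let j → ∞. -/

theorem IComp_Q (n : ℕ) {F G : V → ℝ≥0∞} {a b : ℝ} (ha : 0 ≤ a)
    (hF : ∀ v, F v ≤ ENNReal.ofReal a) (hG : ∀ v, G v ≤ ENNReal.ofReal b) (v : V) :
    Qp (kN n) F G v ≤ ENNReal.ofReal (130 * (n : ℝ) ^ 4 * (a * b)) := by
  refine (Qp_mono (fun _ _ _ => le_rfl) hF hG v).trans ?_
  unfold Qp
  rw [I2_mul_right_QpB (mb_QpB (isKer_kN n) v), ENNReal.ofReal_mul (by positivity),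
    ENNReal.ofReal_mul ha]
  refine mul_le_mul_left ((lintegral_kN_le n v).trans ?_) _
  split_ifs
  · exact le_rfl
  · exact zero_le

theorem IComp_step (n : ℕ) {F U : V → ℝ≥0∞} (hF : Measurable F) (hU : Measurable U) {a b d : ℝ}
    (ha : 0 ≤ a) (hb : 0 ≤ b) (hd : 0 ≤ d) (h1 : ∀ v, F v ≤ ENNReal.ofReal a)
    (h2 : ∀ v, U v ≤ ENNReal.ofReal b) (h3 : ∀ v, F v ≤ U v + ENNReal.ofReal d) (v : V) :
    Qp (kN n) F F v ≤ Qp kI U U v + ENNReal.ofReal ((130 * (n : ℝ) ^ 4 * (a + b) + 1) * d) := by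
  have k := isKer_kN n
  calc Qp (kN n) F F v ≤ Qp (kN n) (fun u => U u + ENNReal.ofReal d) F v :=
        Qp_mono (fun _ _ _ => le_rfl) h3 (fun _ => le_rfl) v
    _ = Qp (kN n) U F v + Qp (kN n) (fun _ => ENNReal.ofReal d) F v :=
        Qp_add_left k hU measurable_const hF v
    _ ≤ Qp (kN n) U (fun u => U u + ENNReal.ofReal d) v +
          ENNReal.ofReal (130 * (n : ℝ) ^ 4 * (d * a)) :=
        add_le_add (Qp_mono (fun _ _ _ => le_rfl) (fun _ => le_rfl) h3 v)
          (IComp_Q n hd (fun _ => le_rfl) h1 v)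
    _ = Qp (kN n) U U v + Qp (kN n) U (fun _ => ENNReal.ofReal d) v +
          ENNReal.ofReal (130 * (n : ℝ) ^ 4 * (d * a)) := by
        rw [Qp_add_right k hU hU measurable_const v]
    _ ≤ Qp kI U U v + ENNReal.ofReal (130 * (n : ℝ) ^ 4 * (b * d)) +
          ENNReal.ofReal (130 * (n : ℝ) ^ 4 * (d * a)) :=
        add_le_add (add_le_add (Qp_mono k.le (fun _ => le_rfl) (fun _ => le_rfl) v)
          (IComp_Q n hb h2 (fun _ => le_rfl) v)) le_rfl
    _ ≤ _ := by
        rw [add_assoc, ← ENNReal.ofReal_add (by positivity) (by positivity)]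
        refine add_le_add le_rfl (ENNReal.ofReal_le_ofReal ?_)
        nlinarith

theorem IComp_int {L a t : ℝ} (hL : 0 < L) (ha : 0 ≤ a) (ht : 0 ≤ t) :
    ∫⁻ s in Ioc 0 t, ENNReal.ofReal (L * (a * Real.exp (2 * L * s))) ≤
      ENNReal.ofReal (a / 2 * Real.exp (2 * L * t)) := by
  have hc : Continuous fun s : ℝ => L * (a * Real.exp (2 * L * s)) := by fun_prop
  rw [← ofReal_integral_eq_lintegral_ofReal (hc.intervalIntegrable 0 t).1
    (Eventually.of_forall fun s => by positivity), ← intervalIntegral.integral_of_le ht,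
    intervalIntegral.integral_eq_sub_of_hasDerivAt
      (f := fun s => a / 2 * Real.exp (2 * L * s)) (fun s _ => ?_) (hc.intervalIntegrable 0 t)]
  · exact ENNReal.ofReal_le_ofReal (sub_le_self _ (by positivity))
  · have := (((hasDerivAt_id s).const_mul (2 * L)).exp).const_mul (a / 2)
    refine this.congr_deriv ?_
    simp only [id]
    ring

theorem TrSol.compare {n : ℕ} {f0 : Om → ℝ} {f : ℝ → Om → ℝ} (h : TrSol n f0 f) {T : ℝ}
    {U : ℝ → X → V → ℝ≥0∞} (hU : Measurable (fun p : ℝ × X × V => U p.1 p.2.1 p.2.2))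
    {M : ℝ} (hb : ∀ t ∈ Icc 0 T, ∀ x v, U t x v ≤ ENNReal.ofReal M)
    (hs : ∀ t ∈ Icc 0 T, ∀ x v, ENNReal.ofReal (f0 (x + pr ((-t) • v), v)) +
      Dh (fun s y u => Qp kI (U s y) (U s y) u) t x v ≤ U t x v) :
    ∀ t ∈ Icc 0 T, ∀ x v, ENNReal.ofReal (f t (x, v)) ≤ U t x v := by
  obtain ⟨C, hC⟩ := h.ub T
  set a := max C 0
  set b := max M 0
  have ha : 0 ≤ a := le_max_right _ _
  have hb0 : 0 ≤ b := le_max_right _ _
  have h1 : ∀ t ∈ Icc 0 T, ∀ z, f t z ≤ a := fun t ht z => (hC t ht z).trans <|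
    (mul_le_mul_of_nonneg_right (le_max_left C 0) (G0_pos _).le).trans
      (mul_le_of_le_one_right ha (G0_le_one _))
  set L := 130 * (n : ℝ) ^ 4 * (a + b) + 1 with hLd
  have hL : 0 < L := by positivity
  have mU : Measurable (Function.uncurry fun p : ℝ × X × V => U p.1 p.2.1) :=
    hU.comp (f := fun q : (ℝ × X × V) × V => (q.1.1, q.1.2.1, q.2))
      (measurable_fst.fst.prodMk (measurable_fst.snd.fst.prodMk measurable_snd))
  have mQ : Measurable fun p : ℝ × X × V => Qp kI (U p.1 p.2.1) (U p.1 p.2.1) p.2.2 :=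
    measurable_Qp isKer_kI mU mU measurable_snd.snd
  have mU1 : ∀ s y, Measurable (U s y) := fun s y =>
    hU.comp (f := fun u : V => (s, y, u))
      (measurable_const.prodMk (measurable_const.prodMk measurable_id))
  have key : ∀ j : ℕ, ∀ t ∈ Icc 0 T, ∀ x v, ENNReal.ofReal (f t (x, v)) ≤
      U t x v + ENNReal.ofReal (a * (1 / 2) ^ j * Real.exp (2 * L * t)) := by
    intro j
    induction j with
    | zero =>
      intro t ht x v
      refine le_add_left (ENNReal.ofReal_le_ofReal ((h1 t ht _).trans ?_))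
      rw [pow_zero, mul_one]
      exact le_mul_of_one_le_right ha (Real.one_le_exp (by have := ht.1; positivity))
    | succ j ih =>
      intro t ht x v
      refine (h.upper ht.1 x v).trans ?_
      have e1 : Dh (fun s y u => Qp (kN n) (eo (f s) y) (eo (f s) y) u) t x v ≤
          Dh (fun s y u => Qp kI (U s y) (U s y) u +
            ENNReal.ofReal (L * (a * (1 / 2) ^ j * Real.exp (2 * L * s)))) t x v := by
        refine Dh_mono x v fun s hs => ?_
        have hs' : s ∈ Icc 0 T := ⟨hs.1.le, hs.2.trans ht.2⟩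
        exact IComp_step n (measurable_eo' (h.meas_t s) _) (mU1 _ _) ha hb0 (by positivity)
          (fun u => ENNReal.ofReal_le_ofReal (h1 s hs' _))
          (fun u => (hb s hs' _ u).trans (ENNReal.ofReal_le_ofReal (le_max_left _ _)))
          (fun u => ih s hs' _ u) v
      rw [Dh_add (S := fun s y u => Qp kI (U s y) (U s y) u) mQ] at e1
      refine (add_le_add le_rfl e1).trans ?_
      rw [← add_assoc]
      refine add_le_add (hs t ht x v) ((IComp_int hL (by positivity) ht.1).trans (le_of_eq ?_))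
      congr 1
      ring
  intro t ht x v
  have t1 : Tendsto (fun j : ℕ => a * (1 / 2 : ℝ) ^ j * Real.exp (2 * L * t)) atTop
      (𝓝 (a * 0 * Real.exp (2 * L * t))) :=
    ((tendsto_pow_atTop_nhds_zero_of_lt_one (by norm_num) (by norm_num)).const_mul a).mul_const _
  have t2 := (tendsto_const_nhds (x := U t x v)).add (ENNReal.tendsto_ofReal t1)
  rw [mul_zero, zero_mul, ENNReal.ofReal_zero, add_zero] at t2
  exact ge_of_tendsto' t2 fun j => key j t ht x v

end Vale.Agent.P140
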