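import Vale.Agent.P140.ICold2

/-! Cold-cold collisions stay under the warm envelope. -/

namespace Vale.Agent.P140

open MeasureTheory Set Filter Topology
open scoped ENNReal

open Classical

variable {P : Par} {A : ℕ} {ϱ : ℝ}

theorem iqc_norm (σ : ℝ) (y : X) (v : V) {η : ℝ} (hη : 0 ≤ η) (h : Wf P σ y v ≤ 2 * η ^ 2) :
    ‖v - uu P σ y‖ ≤ 3 / 2 * η := by
  have h1 := norm_sub_uu_le (P := P) σ y v
  refine (sq_le_sq₀ (norm_nonneg _) (by positivity)).1 ?_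
  nlinarith [sq_nonneg η]

theorem Sm.iqc_ker (S : Sm P A ϱ) {j k : ℕ} (hj : j ≤ k) {s : ℝ} (hs : s ∈ Icc 0 (TT P ϱ)) {y : X}
    (h : Lay P ϱ j s y) (v w : V) (ω : S2) :
    kI v w ω * (eC P ϱ k s y (vp v w ω) * eC P ϱ k s y (vq v w ω)) ≤
      if (Zone P ϱ j s y ∧ Wf P (sg j) y v ≤ 2 * et P ϱ j ^ 2) ∧
          ‖w - uu P (sg j) y‖ ≤ 3 / 2 * et P ϱ j then
        kI v w ω * ENNReal.ofReal (16 * Am P ϱ j ^ 2 *
          Real.exp (-Wf P (sg j) y v / (16 * de P ϱ j ^ 2)))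
      else 0 := by
  by_cases h1 : Cc P ϱ k s y (vp v w ω) = 0
  · simp [eC, h1]
  by_cases h2 : Cc P ϱ k s y (vq v w ω) = 0
  · simp [eC, h2]
  obtain ⟨a1, a2⟩ := S.Cc_env hj hs h (vp v w ω)
  obtain ⟨b1, b2⟩ := S.Cc_env hj hs h (vq v w ω)
  have e := Wf_energy (P := P) (sg j) y v w ω
  have hv := Wf_nonneg S.ok (sg j) y v
  have hw := Wf_nonneg S.ok (sg j) y w
  have a3 := (a2 h1).2
  have b3 := (b2 h2).2
  rw [if_pos ⟨⟨(a2 h1).1, by linarith⟩, iqc_norm _ _ _ (S.et_pos j).le (by linarith)⟩]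
  refine mul_le_mul_right ?_ _
  rw [eC, eC, ← ENNReal.ofReal_mul (S.Cc_nonneg _ _ _ _)]
  refine ENNReal.ofReal_le_ofReal ((mul_le_mul a1 b1 (S.Cc_nonneg _ _ _ _)
    (by have := S.Am_pos j; positivity)).trans ?_)
  rw [mul_mul_mul_comm, ← Real.exp_add]
  refine mul_le_mul (le_of_eq (by ring)) (Real.exp_le_exp.2 ?_) (Real.exp_pos _).le
    (by positivity)
  rw [← add_div]
  exact div_le_div_of_nonneg_right (by linarith) (by positivity)

theorem Sm.iqc_num (S : Sm P A ϱ) (j : ℕ) :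
    39 * et P ϱ j * (16 * Am P ϱ j ^ 2) * (5 * (3 / 2 * et P ϱ j) ^ 3) ≤ 1 / et P ϱ j ^ 3 := by
  have ha := S.ar_pos j
  have h1 := S.Am_le j
  have h2 := S.Am_pos j
  have h3 := S.rho_C0
  have h4 := S.ar_le j
  have h5 := S.ibas_ar1 j
  have h6 := S.et_pos j
  rw [le_div_iff₀ (by positivity)] at h1 ⊢
  have h7 : (Am P ϱ j * ar P ϱ j ^ 37) ^ 2 ≤ P.C0 ^ 2 := pow_le_pow_left₀ (by positivity) h1 2
  have h8 : ar P ϱ j ^ 3 ≤ ϱ := (pow_le_of_le_one ha.le h5 (by norm_num)).trans h4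
  have h9 := mul_le_mul h8 h7 (by positivity) S.pos.le
  have e : 39 * et P ϱ j * (16 * Am P ϱ j ^ 2) * (5 * (3 / 2 * et P ϱ j) ^ 3) * et P ϱ j ^ 3 =
      10530 * (ar P ϱ j ^ 3 * (Am P ϱ j * ar P ϱ j ^ 37) ^ 2) := by
    unfold et
    ring
  rw [e]
  linarith

theorem Sm.QC_pt (S : Sm P A ϱ) {j k : ℕ} (hj : j ≤ k) {s : ℝ} (hs : s ∈ Icc 0 (TT P ϱ)) {y : X}
    (h : Lay P ϱ j s y) (v : V) :
    Qp kI (eC P ϱ k s y) (eC P ϱ k s y) v ≤
      if Zone P ϱ j s y ∧ Wf P (sg j) y v ≤ 2 * et P ϱ j ^ 2 then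
        ENNReal.ofReal (1 / et P ϱ j ^ 3 * Real.exp (-Wf P (sg j) y v / (16 * de P ϱ j ^ 2)))
      else 0 := by
  refine (lintegral_mono fun w => lintegral_mono fun ω => S.iqc_ker hj hs h v w ω).trans ?_
  by_cases hc : Zone P ϱ j s y ∧ Wf P (sg j) y v ≤ 2 * et P ϱ j ^ 2
  swap
  · simp [hc]
  have hη := S.et_pos j
  have hv := iqc_norm _ _ _ hη.le hc.2
  have hn := S.iqc_num j
  rw [if_pos hc]
  simp only [hc, true_and]
  generalize Real.exp_pos (-Wf P (sg j) y v / (16 * de P ϱ j ^ 2)) = hE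
  generalize Real.exp (-Wf P (sg j) y v / (16 * de P ϱ j ^ 2)) = E at hE ⊢
  have hm : MeasurableSet {w : V | ‖w - uu P (sg j) y‖ ≤ 3 / 2 * et P ϱ j} :=
    measurableSet_le (by fun_prop) measurable_const
  calc _ ≤ ∫⁻ w, {w : V | ‖w - uu P (sg j) y‖ ≤ 3 / 2 * et P ϱ j}.indicator
          (fun _ => ENNReal.ofReal (39 * et P ϱ j * (16 * Am P ϱ j ^ 2 * E))) w := by
        refine lintegral_mono fun w => ?_
        by_cases hw : ‖w - uu P (sg j) y‖ ≤ 3 / 2 * et P ϱ j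
        · simp only [hw, if_true]
          rw [indicator_of_mem (by exact hw), lintegral_mul_const' _ _ ENNReal.ofReal_ne_top,
            ENNReal.ofReal_mul (by positivity : (0 : ℝ) ≤ 39 * et P ϱ j)]
          refine mul_le_mul_left ((lintegral_ker_le isKer_kI v w).trans
            (ENNReal.ofReal_le_ofReal ?_)) _
          have := norm_sub_le_norm_sub_add_norm_sub v (uu P (sg j) y) w
          rw [norm_sub_rev (uu P (sg j) y)] at this
          linarith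
        · simp [hw]
    _ ≤ ENNReal.ofReal (39 * et P ϱ j * (16 * Am P ϱ j ^ 2 * E)) *
          ENNReal.ofReal (5 * (3 / 2 * et P ϱ j) ^ 3) := by
        rw [lintegral_indicator_const hm]
        exact mul_le_mul_right (volume_ball_le _ (by positivity)) _
    _ ≤ _ := by
        rw [← ENNReal.ofReal_mul (by positivity)]
        exact ENNReal.ofReal_le_ofReal
          ((le_of_eq (by ring)).trans (mul_le_mul_of_nonneg_right hn hE.le))

theorem QC_leak (A Np : ℕ) : ∀ᶠ ϱ in 𝓝[>] (0 : ℝ), ∀ a : ℝ, 0 < a → a ≤ ϱ →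
    1 / a ^ 33 * Real.exp (-1 / (16 * a ^ 2)) ≤ ϱ ^ Np * ((a / 2) ^ A * Real.exp (-3)) := by
  obtain ⟨n, hn⟩ : ∃ n, n = 33 + Np + A + 1 := ⟨_, rfl⟩
  obtain ⟨c, hc⟩ : ∃ c : ℝ, c = n.factorial * 16 ^ n := ⟨_, rfl⟩
  have hc0 : 0 < c := by rw [hc]; positivity
  have h0 : 0 < min 1 ((1 / 2) ^ A * Real.exp (-3) / c) := lt_min one_pos (by positivity)
  filter_upwards [Ioo_mem_nhdsGT h0] with ϱ hϱ a ha haϱ
  have h1 : a ≤ 1 := haϱ.trans (hϱ.2.le.trans (min_le_left _ _))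
  have h2 : a * c ≤ (1 / 2) ^ A * Real.exp (-3) :=
    (le_div_iff₀ hc0).1 (haϱ.trans (hϱ.2.le.trans (min_le_right _ _)))
  have h3 : Real.exp (-1 / (16 * a ^ 2)) ≤ c * a ^ n := by
    have h4 := Real.pow_div_factorial_le_exp (1 / (16 * a ^ 2)) (by positivity) n
    rw [neg_div, Real.exp_neg]
    refine (inv_anti₀ (by positivity) h4).trans ?_
    have h5 : (a ^ 2) ^ n ≤ a ^ n := pow_le_pow_left₀ (by positivity)
      (pow_le_of_le_one ha.le h1 two_ne_zero) n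
    refine (le_of_eq ?_).trans (mul_le_mul_of_nonneg_left h5 hc0.le)
    rw [hc, one_div, inv_pow, mul_pow]
    field_simp
  calc _ ≤ 1 / a ^ 33 * (c * a ^ n) := mul_le_mul_of_nonneg_left h3 (by positivity)
    _ = a ^ Np * (a ^ A * (a * c)) := by
        rw [hn, pow_succ a (33 + Np + A), pow_add, pow_add]
        field_simp
    _ ≤ ϱ ^ Np * (a ^ A * ((1 / 2) ^ A * Real.exp (-3))) :=
        mul_le_mul (pow_le_pow_left₀ ha.le haϱ Np)
          (mul_le_mul_of_nonneg_left h2 (by positivity)) (by positivity)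
          (pow_nonneg hϱ.1.le _)
    _ = _ := by rw [← mul_assoc (a ^ A), ← mul_pow, mul_one_div]

theorem Sm.iqc_move (S : Sm P A ϱ) {j : ℕ} {s t : ℝ} (hs : 0 ≤ s) (hst : s ≤ t)
    (ht : t ≤ TT P ϱ) {x : X} {v : V} (hZ : Zone P ϱ j s (x + pr ((s - t) • v)))
    (hW : Wf P (sg j) (x + pr ((s - t) • v)) v ≤ 2 * et P ϱ j ^ 2) :
    Zone P ϱ j t x ∧ Wf P (sg j) x v ≤ Wf P (sg j) (x + pr ((s - t) • v)) v ∧ ‖v‖ ≤ 6 / 5 := by
  have hη := S.et_pos j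
  have h1 : Real.sqrt (Wf P (sg j) (x + pr ((s - t) • v)) v) ≤ 2 * et P ϱ j :=
    Real.sqrt_le_iff.2 ⟨by positivity, by nlinarith [sq_nonneg (et P ϱ j)]⟩
  have h2 := norm_le_Wf S.ok (sg_cases j) (x + pr ((s - t) • v)) v
  have h3 := S.et_le_lam j
  have h4 := S.ok.lam_le
  have hv : ‖v‖ ≤ 6 / 5 := by linarith
  have h5 := (S.Lay_rr ⟨hs, hst.trans ht⟩ (S.Zone_lay ⟨hs, hst.trans ht⟩ hZ)).2.1
  have h6 := S.rho_le'
  have h7 := S.TT_le
  have hτ : 0 ≤ t - s := sub_nonneg.2 hst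
  have h8 : (t - s) * ‖vb v‖ ≤ 1 / 10 ^ 9 * (6 / 5) :=
    mul_le_mul (by linarith) ((norm_vb_le v).trans hv) (norm_nonneg _) (by positivity)
  have h9 : rr (x + pr ((s - t) • v)) + (t - s) * ‖vb v‖ < 1 / 2 := by linarith
  have a1 := Wf_anti S.ok (sg j) hτ h9
  have a2 := y0_drift S.ok (sg j) s hτ h9
  rw [igeo_ret] at a1 a2
  rw [add_sub_cancel] at a2
  have a3 := abs_le.1 (a2.trans (mul_le_mul_of_nonneg_left h1 hτ))
  exact ⟨⟨by linarith [hZ.1, a3.1], by linarith [hZ.2, a3.2]⟩, a1, hv⟩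

theorem eventually_QC (hP : P.OK) (hA : 33 ≤ A) (Np : ℕ) :
    ∀ᶠ ϱ in 𝓝[>] (0 : ℝ), ∀ k, QCb P ϱ k A (ϱ ^ Np) := by
  filter_upwards [eventually_sm hP hA, QC_leak A Np] with ϱ S hl k t ht x v
  have hg : 0 ≤ ϱ ^ Np * gam P ϱ k A A t x v :=
    mul_nonneg (pow_nonneg S.pos.le _) (S.gam_nonneg _ _ ht.1 _ _)
  have key : ∀ s ∈ Ioc 0 t,
      Qp kI (eC P ϱ k s (x + pr ((s - t) • v))) (eC P ϱ k s (x + pr ((s - t) • v))) v ≤
        ENNReal.ofReal (Ec P ϱ k t x v + ϱ ^ Np * gam P ϱ k A A t x v) := by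
    intro s hs
    have hs' : s ∈ Icc 0 (TT P ϱ) := ⟨hs.1.le, hs.2.trans ht.2⟩
    by_cases hI : InL P ϱ k s (x + pr ((s - t) • v))
    swap
    · have : ∀ u, eC P ϱ k s (x + pr ((s - t) • v)) u = 0 := fun u => by
        rw [eC, S.Cc_eq_zero hs' fun hc => hI (S.Cold_inL hc), ENNReal.ofReal_zero]
      simp [Qp, this]
    obtain ⟨j, hj, hL⟩ := hI
    refine (S.QC_pt hj hs' hL v).trans ?_
    split_ifs with hc
    swap
    · exact zero_le
    obtain ⟨hZ, hW, hv⟩ := S.iqc_move hs.1.le hs.2 ht.2 hc.1 hc.2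
    have hη := S.et_pos j
    have hδ := S.de_pos j
    have ha := S.ar_pos j
    have hx := S.Zone_lay ht hZ
    have h1 : ∀ {a b : ℝ}, a ≤ b → 1 / et P ϱ j ^ 3 * Real.exp (-b / (16 * de P ϱ j ^ 2)) ≤
        1 / et P ϱ j ^ 3 * Real.exp (-a / (16 * de P ϱ j ^ 2)) := fun hab =>
      mul_le_mul_of_nonneg_left (Real.exp_le_exp.2
        (div_le_div_of_nonneg_right (neg_le_neg hab) (by positivity))) (by positivity)
    refine ENNReal.ofReal_le_ofReal ((h1 hW).trans ?_)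
    by_cases hw : Wf P (sg j) x v ≤ et P ϱ j ^ 2
    · rw [S.Ec_eq hj ht hx, Ej, if_pos ⟨hw, hZ⟩]
      exact le_add_of_nonneg_right hg
    refine (h1 (not_le.1 hw).le).trans (le_add_of_nonneg_of_le (S.Ec_nonneg _ _ _ _) ?_)
    have e1 : et P ϱ j ^ 3 = ar P ϱ j ^ 33 := by rw [et, ← pow_mul]
    have e2 : -et P ϱ j ^ 2 / (16 * de P ϱ j ^ 2) = -1 / (16 * ar P ϱ j ^ 2) := by
      unfold et de
      field_simp
    rw [e1, e2]
    refine (hl _ ha (S.ar_le j)).trans (mul_le_mul_of_nonneg_left ?_ (pow_nonneg S.pos.le _))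
    have h2 : ar P ϱ j / 2 ≤ Yy P ϱ k A t x v := by
      linarith [S.ar_le_two j, (S.Lay_rr ht hx).1, S.rr_le_Yy k ht.1 x v]
    have h3 : Real.exp (-3) ≤ Gs P ϱ t v := (Real.exp_le_exp.2 (by
      nlinarith [norm_nonneg v])).trans (S.G0_le_Gs ht.1 v)
    have h4 := pow_le_pow_left₀ (by positivity) h2 A
    have h5 : 0 ≤ (ar P ϱ j / 2) ^ A := by positivity
    exact mul_le_mul (h4.trans (le_mul_of_one_le_right (h5.trans h4) (S.one_le_Hh k t x v))) h3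
      (Real.exp_pos _).le (mul_nonneg (h5.trans h4) (zero_le_one.trans (S.one_le_Hh k t x v)))
  refine (setLIntegral_mono' measurableSet_Ioc key).trans ?_
  rw [setLIntegral_const, Real.volume_Ioc]
  refine mul_le_of_le_one_right' (ENNReal.ofReal_le_one.2 ?_)
  linarith [ht.2, S.TT_le]

end Vale.Agent.P140
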