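import Vale.Agent.P140.ICold2

/-! Hot-hot collisions. -/

namespace Vale.Agent.P140

open MeasureTheory Set Filter Topology
open scoped ENNReal

open Classical

/- PLAN exists_QG_pt. gam(v') gam(w') ≤ Yy(v)^m exp|w| · 1 · Hh(v') Hh(w') Gs(v) exp(-|w|²) (energy_coll, norm_vp_le, Yy_shift,
Yy_le_one, 2 - s/T ≥ 1), w = v' + w' - v. Hh ≤ 1 + S₊ + S₋ with S_σ u = 1{|u - uu σ| ≤ 1}/|u - uu σ| (Sg_le). Terms:
1·1: lintegral_ker_le, integrable_gauss_moment. S(v')·1: coll_carl, |v-q| ≤ 21/10 (norm_uu_le), |w| ≥ |p| - 21/10, so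
exp(-|w|²+|w|) ≤ K exp(-|p|²/4), Pl_gauss, lintegral_inv_inv. 1·S(w'): coll_swap. S·S: exp(-|w|²+|w|) ≤ 2, Pl_inv, lintegral_inv_inv.
PLAN exists_QG. Yy_mono, one_le_Hh and ∫_0^t (1+|v|) Gs s v ds ≤ (1+|v|) min(t, T/|v|²) Gs t v ≤ 2 T Gs t v. -/

noncomputable def iqgS (c u : V) : ℝ≥0∞ :=
  if ‖u - c‖ ≤ 1 then (ENNReal.ofReal ‖u - c‖)⁻¹ else 0

noncomputable def iqgE (w : V) : ℝ≥0∞ := ENNReal.ofReal (Real.exp (-‖w‖ ^ 2 + ‖w‖))

noncomputable def iqgJ (F G : V → ℝ≥0∞) (v : V) : ℝ≥0∞ :=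
  ∫⁻ w, ∫⁻ ω, kI v w ω * (F (vp v w ω) * G (vq v w ω) * iqgE (vp v w ω + vq v w ω - v)) ∂sig

theorem iqg_mS (c : V) : Measurable (iqgS c) :=
  Measurable.ite (isClosed_le (by fun_prop) continuous_const).measurableSet (by fun_prop)
    measurable_const

theorem iqg_mE : Measurable iqgE := by
  unfold iqgE
  fun_prop

theorem iqg_mH {F G : V → ℝ≥0∞} (hF : Measurable F) (hG : Measurable G) (v : V) :
    Measurable (Function.uncurry fun a b : V => F a * G b * iqgE (a + b - v)) :=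
  ((hF.comp measurable_fst).mul (hG.comp measurable_snd)).mul
    (iqg_mE.comp (f := fun p : V × V => p.1 + p.2 - v) (by fun_prop))

theorem iqg_mI {F G : V → ℝ≥0∞} (hF : Measurable F) (hG : Measurable G) (v : V) :
    Measurable fun p : V × S2 => kI v p.1 p.2 *
      (F (vp v p.1 p.2) * G (vq v p.1 p.2) * iqgE (vp v p.1 p.2 + vq v p.1 p.2 - v)) :=
  (isKer_kI.measurable_comp measurable_const measurable_fst measurable_snd).mul
    ((iqg_mH hF hG v).comp ((measurable_vp measurable_const measurable_fst measurable_snd).prodMk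
      (measurable_vq measurable_const measurable_fst measurable_snd)))

theorem iqg_comm {F G : V → ℝ≥0∞} (hF : Measurable F) (hG : Measurable G) (v : V) :
    iqgJ F G v = iqgJ G F v := by
  rw [iqgJ, coll_swap (iqg_mH hF hG v), iqgJ]
  simp only [mul_comm (F _), add_comm (vq v _ _)]

theorem iqg_add {F F' G : V → ℝ≥0∞} (hF : Measurable F) (hG : Measurable G) (v : V) :
    iqgJ (fun u => F u + F' u) G v = iqgJ F G v + iqgJ F' G v := by
  have m := iqg_mI hF hG v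
  rw [iqgJ, iqgJ, iqgJ, ← lintegral_add_left m.lintegral_prod_right']
  refine lintegral_congr fun w => ?_
  refine Eq.trans (lintegral_congr fun ω => ?_)
    (lintegral_add_left (m.comp (measurable_prodMk_left (x := w))) _)
  simp only [Function.comp, add_mul, mul_add]

theorem iqg_carl {G : V → ℝ≥0∞} (hG : Measurable G) (c v : V) {B : ℝ≥0∞}
    (h : ∀ q : V, q ≠ 0 → ‖v - q - c‖ ≤ 1 →
      Pl q (fun p => G (v - p) * iqgE (v - q + (v - p) - v)) ≤ B) :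
    iqgJ (iqgS c) G v ≤ 2 * (B * 40) := by
  rw [iqgJ, coll_carl (iqg_mH (iqg_mS c) hG v)]
  refine mul_le_mul_right ?_ 2
  have hm : Measurable fun q : V => (ENNReal.ofReal ‖q‖)⁻¹ *
      (if ‖v - c - q‖ ≤ 1 then (ENNReal.ofReal ‖v - c - q‖)⁻¹ else 0) :=
    Measurable.mul (by fun_prop) (Measurable.ite
      (isClosed_le (by fun_prop) continuous_const).measurableSet (by fun_prop) measurable_const)
  refine le_trans (lintegral_mono_ae ?_) ((lintegral_const_mul B hm).trans_le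
    (mul_le_mul_right (lintegral_inv_inv (v - c)) B))
  filter_upwards [compl_mem_ae_iff.2 (measure_singleton (0 : V))] with q hq
  have e : v - c - q = v - q - c := by abel
  have hP : Measurable fun p : V => G (v - p) * iqgE (v - q + (v - p) - v) :=
    (hG.comp (by fun_prop)).mul (iqg_mE.comp (by fun_prop))
  simp only [mul_assoc (iqgS c _)]
  rw [Pl_const_mul q hP, e, mul_left_comm B, iqgS]
  refine mul_le_mul_right ?_ _
  split_ifs with h1
  · rw [mul_comm B]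
    exact mul_le_mul_right (h q hq h1) _
  · simp

theorem iqg_S1 {c : V} (hc : ‖c‖ ≤ 11 / 10) (v : V) :
    iqgJ (iqgS c) (fun _ => 1) v ≤ ENNReal.ofReal (1040 * Real.exp 3) := by
  refine (iqg_carl measurable_const c v (B := ENNReal.ofReal (Real.exp 3) * 13)
    fun q hq h1 => ?_).trans (le_of_eq ?_)
  · refine le_trans (Pl_mono hq (G := fun p => ENNReal.ofReal (Real.exp 3) *
      ENNReal.ofReal (Real.exp (-‖p‖ ^ 2 / 4))) fun p _ => ?_) ?_
    · rw [one_mul, ← ENNReal.ofReal_mul (Real.exp_pos _).le, ← Real.exp_add, iqgE]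
      refine ENNReal.ofReal_le_ofReal (Real.exp_le_exp.2 ?_)
      have h2 : ‖p‖ ≤ ‖v - q - c‖ + ‖c‖ + ‖v - q + (v - p) - v‖ := by
        calc ‖p‖ = ‖(v - q - c) + c - (v - q + (v - p) - v)‖ := by congr 1; abel
          _ ≤ _ := (norm_sub_le _ _).trans (by linarith [norm_add_le (v - q - c) c])
      generalize ‖v - q + (v - p) - v‖ = a at h2 ⊢
      have h3 : ‖p‖ ^ 2 ≤ (21 / 10 + a) ^ 2 := pow_le_pow_left₀ (norm_nonneg _) (by linarith) 2
      nlinarith [sq_nonneg (a - 21 / 10), sq_nonneg (a - 1)]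
    · rw [Pl_const_mul q (by fun_prop)]
      exact mul_le_mul_right (Pl_gauss hq) _
  · rw [ENNReal.ofReal_mul (by norm_num), ENNReal.ofReal_ofNat]
    ring

theorem iqg_SS (c c' v : V) :
    iqgJ (iqgS c) (iqgS c') v ≤ ENNReal.ofReal (1040 * Real.exp 3) := by
  refine (iqg_carl (iqg_mS c') c v (B := ENNReal.ofReal (Real.exp 3) * 13)
    fun q hq _ => ?_).trans (le_of_eq ?_)
  · have hm : Measurable fun p : V =>
        if ‖v - c' - p‖ ≤ 1 then (ENNReal.ofReal ‖v - c' - p‖)⁻¹ else 0 :=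
      Measurable.ite (isClosed_le (by fun_prop) continuous_const).measurableSet (by fun_prop)
        measurable_const
    refine le_trans (Pl_mono hq (G := fun p => ENNReal.ofReal (Real.exp 3) *
      (if ‖v - c' - p‖ ≤ 1 then (ENNReal.ofReal ‖v - c' - p‖)⁻¹ else 0)) fun p _ => ?_) ?_
    · rw [mul_comm, iqgS, show v - p - c' = v - c' - p by abel, iqgE]
      refine mul_le_mul_left (ENNReal.ofReal_le_ofReal (Real.exp_le_exp.2 ?_)) _
      nlinarith [sq_nonneg (‖v - q + (v - p) - v‖ - 1), norm_nonneg (v - q + (v - p) - v)]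
    · rw [Pl_const_mul q hm]
      refine mul_le_mul_right ((Pl_inv hq (v - c') zero_le_one).trans ?_) _
      rw [mul_one, ENNReal.ofReal_ofNat]
      norm_num
  · rw [ENNReal.ofReal_mul (by norm_num), ENNReal.ofReal_ofNat]
    ring

theorem iqg_11 : ∃ K : ℝ, 0 ≤ K ∧ ∀ v : V,
    iqgJ (fun _ => 1) (fun _ => 1) v ≤ ENNReal.ofReal (K * (1 + ‖v‖)) := by
  have hi := integrable_gauss_moment 1 1 (b := 1) one_pos
  have h0 : ∀ w : V, 0 ≤ (1 + ‖w‖) ^ 1 * Real.exp (-1 * ‖w‖ ^ 2 + 1 * ‖w‖) := fun w => by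
    positivity
  refine ⟨∫ w : V, (1 + ‖w‖) ^ 1 * Real.exp (-1 * ‖w‖ ^ 2 + 1 * ‖w‖) * 13,
    integral_nonneg fun w => mul_nonneg (h0 w) (by norm_num), fun v => ?_⟩
  rw [← integral_mul_const, ofReal_integral_eq_lintegral_ofReal ((hi.mul_const _).mul_const _)
    (.of_forall fun w => by have := h0 w; positivity)]
  refine lintegral_mono fun w => ?_
  simp only [vp_add_vq, add_sub_cancel_left, one_mul]
  rw [lintegral_mul_const _ (isKer_kI.measurable_comp measurable_const measurable_const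
    measurable_id')]
  refine (mul_le_mul_left (lintegral_ker_le isKer_kI v w) _).trans ?_
  rw [iqgE, ← ENNReal.ofReal_mul (by positivity)]
  refine ENNReal.ofReal_le_ofReal ?_
  have h1 : ‖v - w‖ ≤ (1 + ‖w‖) * (1 + ‖v‖) := by
    nlinarith [norm_sub_le v w, mul_nonneg (norm_nonneg v) (norm_nonneg w)]
  rw [neg_one_mul, pow_one]
  nlinarith [mul_le_mul_of_nonneg_right h1 (Real.exp_pos (-‖w‖ ^ 2 + ‖w‖)).le]

theorem iqg_all : ∃ K : ℝ, 0 ≤ K ∧ ∀ c c' v : V, ‖c‖ ≤ 11 / 10 → ‖c'‖ ≤ 11 / 10 →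
    iqgJ (fun u => 1 + iqgS c u + iqgS c' u) (fun u => 1 + iqgS c u + iqgS c' u) v ≤
      ENNReal.ofReal (K * (1 + ‖v‖)) := by
  obtain ⟨K, hK, h⟩ := iqg_11
  refine ⟨K + 8 * (1040 * Real.exp 3), by positivity, fun c c' v hc hc' => ?_⟩
  have m1 : Measurable fun _ : V => (1 : ℝ≥0∞) := measurable_const
  have mF : Measurable fun u => 1 + iqgS c u + iqgS c' u := (m1.add (iqg_mS c)).add (iqg_mS c')
  have ex : ∀ {G : V → ℝ≥0∞}, Measurable G → iqgJ (fun u => 1 + iqgS c u + iqgS c' u) G v =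
      iqgJ (fun _ => 1) G v + iqgJ (iqgS c) G v + iqgJ (iqgS c') G v := fun hG => by
    rw [iqg_add (F := fun u => 1 + iqgS c u) (m1.add (iqg_mS c)) hG, iqg_add m1 hG]
  rw [ex mF, iqg_comm m1 mF, iqg_comm (iqg_mS c) mF, iqg_comm (iqg_mS c') mF, ex m1,
    ex (iqg_mS c), ex (iqg_mS c'), iqg_comm m1 (iqg_mS c), iqg_comm m1 (iqg_mS c')]
  have hv := norm_nonneg v
  have e3 := Real.exp_pos 3
  calc _ ≤ ENNReal.ofReal (K * (1 + ‖v‖)) + ENNReal.ofReal (1040 * Real.exp 3) +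
        ENNReal.ofReal (1040 * Real.exp 3) + (ENNReal.ofReal (1040 * Real.exp 3) +
        ENNReal.ofReal (1040 * Real.exp 3) + ENNReal.ofReal (1040 * Real.exp 3)) +
        (ENNReal.ofReal (1040 * Real.exp 3) + ENNReal.ofReal (1040 * Real.exp 3) +
        ENNReal.ofReal (1040 * Real.exp 3)) := by
        gcongr
        exacts [h v, iqg_S1 hc v, iqg_S1 hc' v, iqg_S1 hc v, iqg_SS _ _ v, iqg_SS _ _ v,
          iqg_S1 hc' v, iqg_SS _ _ v, iqg_SS _ _ v]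
    _ ≤ _ := by
        repeat rw [← ENNReal.ofReal_add (by positivity) (by positivity)]
        refine ENNReal.ofReal_le_ofReal ?_
        nlinarith [mul_nonneg e3.le hv]

theorem iqg_eG {P : Par} {A : ℕ} {ϱ : ℝ} (S : Sm P A ϱ) (k m : ℕ) {s : ℝ} (hs : 0 ≤ s) (y : X)
    (u : V) : eG P ϱ k A m s y u ≤ ENNReal.ofReal (Yy P ϱ k A s y u ^ m * Gs P ϱ s u) *
      (1 + iqgS (uu P 1 y) u + iqgS (uu P (-1) y) u) := by
  have h0 : 0 ≤ Yy P ϱ k A s y u ^ m * Gs P ϱ s u :=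
    mul_nonneg (pow_pos (S.Yy_pos k hs y u) m).le (Real.exp_pos _).le
  rw [eG, gam, mul_right_comm, ENNReal.ofReal_mul h0, Hh]
  refine mul_le_mul_right (ENNReal.ofReal_add_le.trans (add_le_add (ENNReal.ofReal_add_le.trans
    (add_le_add (by simp) (Sg_le S k 1 s y u))) (Sg_le S k (-1) s y u))) _

theorem iqg_real {P : Par} {A : ℕ} {ϱ : ℝ} (S : Sm P A ϱ) (k : ℕ) {m : ℕ} (hm : m ≤ A) {s : ℝ}
    (hs : s ∈ Icc 0 (TT P ϱ)) (y : X) (v w : V) (ω : S2) :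
    Yy P ϱ k A s y (vp v w ω) ^ m * Gs P ϱ s (vp v w ω) *
      (Yy P ϱ k A s y (vq v w ω) ^ m * Gs P ϱ s (vq v w ω)) ≤
      Yy P ϱ k A s y v ^ m * Gs P ϱ s v * Real.exp (-‖w‖ ^ 2 + ‖w‖) := by
  have h1 := S.Yy_shift k hm hs.1 y (norm_nonneg w) (norm_vp_le v w ω)
  have h2 : Yy P ϱ k A s y (vq v w ω) ^ m ≤ 1 :=
    pow_le_one₀ (S.Yy_pos k hs.1 y _).le (Yy_le_one k s y _)
  have h3 : Gs P ϱ s (vp v w ω) * Gs P ϱ s (vq v w ω) = Gs P ϱ s v * Gs P ϱ s w := by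
    rw [Gs, Gs, Gs, Gs, ← Real.exp_add, ← Real.exp_add, ← mul_add, ← mul_add, energy_coll]
  have h4 := S.Gs_le hs.2 w
  have p1 := (pow_pos (S.Yy_pos k hs.1 y v) m).le
  have p2 := (pow_pos (S.Yy_pos k hs.1 y (vq v w ω)) m).le
  have p3 : 0 ≤ Gs P ϱ s v := (Real.exp_pos _).le
  have p4 : 0 ≤ Gs P ϱ s w := (Real.exp_pos _).le
  calc _ = Yy P ϱ k A s y (vp v w ω) ^ m * Yy P ϱ k A s y (vq v w ω) ^ m *
        (Gs P ϱ s v * Gs P ϱ s w) := by rw [← h3]; ring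
    _ ≤ Yy P ϱ k A s y v ^ m * Real.exp ‖w‖ * 1 * (Gs P ϱ s v * Real.exp (-‖w‖ ^ 2)) := by
        gcongr
    _ = _ := by rw [Real.exp_add]; ring

theorem iqg_time {P : Par} {A : ℕ} {ϱ : ℝ} (S : Sm P A ϱ) {t c : ℝ} (hc : 0 ≤ c)
    (ht : t ∈ Icc 0 (TT P ϱ)) (v : V) :
    ∫⁻ s in Ioc 0 t, ENNReal.ofReal (c * ((1 + ‖v‖) * Gs P ϱ s v)) ≤
      ENNReal.ofReal (c * (4 * TT P ϱ * Gs P ϱ t v)) := by
  have hT := S.TT_pos
  have hv := norm_nonneg v
  have hd : ∀ s ∈ uIcc 0 t, HasDerivAt (fun s : ℝ => 2 * c * ((TT P ϱ + s) * Gs P ϱ s v))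
      (2 * c * ((1 + (TT P ϱ + s) / TT P ϱ * ‖v‖ ^ 2) * Gs P ϱ s v)) s := by
    intro s _
    unfold Gs
    refine (((((hasDerivAt_id' s).const_add _).fun_mul ((((((hasDerivAt_id' s).div_const
      (TT P ϱ)).const_sub 2).fun_neg).mul_const (‖v‖ ^ 2)).exp))).const_mul (2 * c)).congr_deriv ?_
    ring
  have hc' : Continuous fun s : ℝ =>
      2 * c * ((1 + (TT P ϱ + s) / TT P ϱ * ‖v‖ ^ 2) * Gs P ϱ s v) := by
    unfold Gs
    fun_prop
  have hG : ∀ s, 0 < Gs P ϱ s v := fun s => Real.exp_pos _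
  refine (setLIntegral_mono' measurableSet_Ioc (g := fun s => ENNReal.ofReal
    (2 * c * ((1 + (TT P ϱ + s) / TT P ϱ * ‖v‖ ^ 2) * Gs P ϱ s v))) fun s hs =>
    ENNReal.ofReal_le_ofReal ?_).trans ?_
  · have h1 : 1 ≤ (TT P ϱ + s) / TT P ϱ := (one_le_div hT).2 (by linarith [hs.1])
    have h2 : 1 + ‖v‖ ≤ 2 * (1 + (TT P ϱ + s) / TT P ϱ * ‖v‖ ^ 2) := by
      nlinarith [mul_le_mul_of_nonneg_right h1 (sq_nonneg ‖v‖), sq_nonneg (‖v‖ - 1)]
    nlinarith [mul_le_mul_of_nonneg_right h2 (mul_nonneg hc (hG s).le)]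
  · rw [← ofReal_integral_eq_lintegral_ofReal hc'.integrableOn_Ioc
      ((ae_restrict_iff' measurableSet_Ioc).2 (.of_forall fun s hs => by
        have := hG s; have := hs.1; positivity)), ← intervalIntegral.integral_of_le ht.1,
      intervalIntegral.integral_eq_sub_of_hasDerivAt hd (hc'.intervalIntegrable 0 t)]
    refine ENNReal.ofReal_le_ofReal ?_
    have h1 : 0 ≤ 2 * c * ((TT P ϱ + 0) * Gs P ϱ 0 v) := by have := hG 0; positivity
    nlinarith [mul_le_mul_of_nonneg_right ht.2 (mul_nonneg hc (hG t).le)]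

theorem exists_QG_pt : ∃ K : ℝ, 0 ≤ K ∧ ∀ (P : Par) (A : ℕ) (ϱ : ℝ), Sm P A ϱ → ∀ k m : ℕ, m ≤ A →
    ∀ s ∈ Icc 0 (TT P ϱ), ∀ (y : X) (v : V),
      Qp kI (eG P ϱ k A m s y) (eG P ϱ k A m s y) v ≤
        ENNReal.ofReal (K * (1 + ‖v‖) * (Yy P ϱ k A s y v ^ m * Gs P ϱ s v)) := by
  obtain ⟨K, hK, h⟩ := iqg_all
  refine ⟨K, hK, fun P A ϱ S k m hm s hs y v => ?_⟩
  have h0 : 0 ≤ Yy P ϱ k A s y v ^ m * Gs P ϱ s v :=
    mul_nonneg (pow_pos (S.Yy_pos k hs.1 y v) m).le (Real.exp_pos _).le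
  rw [mul_comm, ENNReal.ofReal_mul h0]
  refine le_trans ?_ (mul_le_mul_right (h (uu P 1 y) (uu P (-1) y) v
    (norm_uu_le S.ok (Or.inl rfl) y) (norm_uu_le S.ok (Or.inr rfl) y)) _)
  rw [iqgJ, ← lintegral_const_mul' _ _ ENNReal.ofReal_ne_top]
  refine lintegral_mono fun w => ?_
  rw [← lintegral_const_mul' _ _ ENNReal.ofReal_ne_top]
  refine lintegral_mono fun ω => ?_
  rw [mul_left_comm (ENNReal.ofReal _)]
  refine mul_le_mul_right ((mul_le_mul' (iqg_eG S k m hs.1 y _) (iqg_eG S k m hs.1 y _)).trans ?_) _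
  have h1 : 0 ≤ Yy P ϱ k A s y (vp v w ω) ^ m * Gs P ϱ s (vp v w ω) :=
    mul_nonneg (pow_pos (S.Yy_pos k hs.1 y _) m).le (Real.exp_pos _).le
  rw [mul_mul_mul_comm, ← ENNReal.ofReal_mul h1, vp_add_vq,
    add_sub_cancel_left, mul_comm (_ * _) (iqgE w), ← mul_assoc (ENNReal.ofReal _) (iqgE w), iqgE,
    ← ENNReal.ofReal_mul h0]
  exact mul_le_mul_left (ENNReal.ofReal_le_ofReal (iqg_real S k hm hs y v w ω)) _

theorem exists_QG : ∃ K : ℝ, 0 ≤ K ∧ ∀ (P : Par) (A : ℕ) (ϱ : ℝ), Sm P A ϱ → ∀ k m : ℕ, m ≤ A →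
    ∀ t ∈ Icc 0 (TT P ϱ), ∀ (x : X) (v : V),
      Dh (fun s y u => Qp kI (eG P ϱ k A m s y) (eG P ϱ k A m s y) u) t x v ≤
        ENNReal.ofReal (K * TT P ϱ * gam P ϱ k A m t x v) := by
  obtain ⟨K, hK, h⟩ := exists_QG_pt
  refine ⟨4 * K, by positivity, fun P A ϱ S k m hm t ht x v => ?_⟩
  have hY := (pow_pos (S.Yy_pos k ht.1 x v) m).le
  have hT := S.TT_pos
  refine le_trans (setLIntegral_mono' measurableSet_Ioc fun s hs => ?_)
    ((iqg_time S (mul_nonneg hK hY) ht v).trans (ENNReal.ofReal_le_ofReal ?_))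
  · refine (h P A ϱ S k m hm s ⟨hs.1.le, hs.2.trans ht.2⟩ _ v).trans (ENNReal.ofReal_le_ofReal ?_)
    have h1 := pow_le_pow_left₀ (S.Yy_pos k hs.1.le _ v).le (Yy_mono k hs.2 x v) m
    have h2 : 0 ≤ K * (1 + ‖v‖) * Gs P ϱ s v :=
      mul_nonneg (by positivity) (Real.exp_pos _).le
    nlinarith [mul_le_mul_of_nonneg_left h1 h2]
  · have h2 : 0 ≤ 4 * K * TT P ϱ * (Yy P ϱ k A t x v ^ m * Gs P ϱ t v) :=
      mul_nonneg (by positivity) (mul_nonneg hY (Real.exp_pos _).le)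
    rw [gam]
    nlinarith [mul_le_mul_of_nonneg_left (S.one_le_Hh k t x v) h2]

end Vale.Agent.P140
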