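import Vale.Agent.P140.ISrc

/-! Bounds for the linear operator SS. -/

namespace Vale.Agent.P140

open MeasureTheory Set Filter Topology
open scoped ENNReal

open Classical

/- PLAN. Along y_s = x + (s-t) v: gam m s = Yy_s · Yy_s^(m-1) · Hh_s · Gs_s; use exists_src, rbar_Y, Hh_mono, Gs_mono, int_Y / int_YA.
exists_SS: Z = univ, ε = 27 (pl_full). SS_cut: Z = {u | ZZ κ y u}, pl_cut (InL gives rr y ≠ 0 by InL_iff / Lay_rr).
SS_main: let Y = Yy t x v. Split the times s ∈ (0,t]: not InL (Qp = 0); short s > t - κ1 Y (measure ≤ κ1 Y); thin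
(InL and y0 < κ1 Y, measure ≤ 4 Y √(κ1/κ) by `thin`); on these two sets 2 Qp ≤ N K' A C0/lam · Y^32 Hh Gs (exists_src, pl_full,
rbar_Y, Yy_mono). Good times: split F = F 1{|v-u| < κ'} + F 1{κ' ≤ |v-u|}; the first part is ≤ N · (exists_src with
Z = {u | ‖v - u‖ < κ'} and pl_cut); for the second use Qp_comm, Qp_carl, 1/|q| ≤ 1/κ', Pl_C (y0 ≥ κ1 Y):
2 Qp ≤ 32 C0/(κ' κ1^15) · Y^-15 ∫ F. Choose κ' from ε, then κ1. -/

theorem iss_two (a : ℝ) : (2 : ℝ≥0∞) * ENNReal.ofReal a = ENNReal.ofReal (2 * a) := by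
  rw [ENNReal.ofReal_mul zero_le_two, ENNReal.ofReal_ofNat]

theorem iss_pt {P : Par} {A : ℕ} {ϱ : ℝ} (S : Sm P A ϱ) (k : ℕ) {m : ℕ} (hm : 1 ≤ m) {s t : ℝ}
    (hs : s ∈ Ioc 0 t) (ht : t ∈ Icc 0 (TT P ϱ)) (x : X) (v : V) {B c : ℝ} (hB : 0 ≤ B)
    (hc0 : 0 ≤ c) {Q : ℝ≥0∞}
    (hQ : Q ≤ ENNReal.ofReal (B * (rbar P ϱ k s (x + pr ((s - t) • v)) / (1 + ‖v‖)) *
      gam P ϱ k A m s (x + pr ((s - t) • v)) v))
    (hc : rbar P ϱ k s (x + pr ((s - t) • v)) / (1 + ‖v‖) *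
      Yy P ϱ k A s (x + pr ((s - t) • v)) v ≤ c) :
    2 * Q ≤ ENNReal.ofReal (2 * B * c * (Hh P ϱ k t x v * Gs P ϱ t v)) *
      ENNReal.ofReal (Yy P ϱ k A s (x + pr ((s - t) • v)) v ^ (m - 1)) := by
  have h1 := S.Hh_mono k hs.1.le hs.2 ht.2 x v
  have h2 := S.Gs_mono hs.2 v
  have h3 := S.one_le_Hh k s (x + pr ((s - t) • v)) v
  have h4 : 0 < Gs P ϱ s v := Real.exp_pos _
  have h5 := S.Yy_pos k hs.1.le (x + pr ((s - t) • v)) v
  have h6 : 0 ≤ Hh P ϱ k t x v * Gs P ϱ t v := mul_nonneg (by linarith) (by linarith)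
  obtain ⟨n, rfl⟩ : ∃ n, m = n + 1 := ⟨m - 1, by omega⟩
  rw [← ENNReal.ofReal_mul (by positivity), Nat.add_sub_cancel]
  refine (mul_le_mul_right hQ 2).trans ?_
  rw [iss_two]
  refine ENNReal.ofReal_le_ofReal ?_
  calc _ = 2 * B * (rbar P ϱ k s (x + pr ((s - t) • v)) / (1 + ‖v‖) *
        Yy P ϱ k A s (x + pr ((s - t) • v)) v) *
        (Hh P ϱ k s (x + pr ((s - t) • v)) v * Gs P ϱ s v) *
        Yy P ϱ k A s (x + pr ((s - t) • v)) v ^ n := by
        unfold gam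
        ring
    _ ≤ _ := by gcongr; linarith

theorem iss_int {P : Par} {A : ℕ} {ϱ : ℝ} (S : Sm P A ϱ) (k : ℕ) {m : ℕ} (hm : 1 ≤ m) {t : ℝ}
    (ht : t ∈ Icc 0 (TT P ϱ)) (x : X) (v : V) {B c D : ℝ} (hB : 0 ≤ B) (hc0 : 0 ≤ c)
    {Q : ℝ → ℝ≥0∞}
    (hQ : ∀ s ∈ Ioc 0 t, Q s ≤ ENNReal.ofReal
      (B * (rbar P ϱ k s (x + pr ((s - t) • v)) / (1 + ‖v‖)) *
        gam P ϱ k A m s (x + pr ((s - t) • v)) v))
    (hc : ∀ s ∈ Ioc 0 t, rbar P ϱ k s (x + pr ((s - t) • v)) / (1 + ‖v‖) *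
      Yy P ϱ k A s (x + pr ((s - t) • v)) v ≤ c)
    (hD : ∫⁻ s in Ioc 0 t, ENNReal.ofReal (Yy P ϱ k A s (x + pr ((s - t) • v)) v ^ (m - 1)) ≤
      ENNReal.ofReal (Yy P ϱ k A t x v ^ m / D)) :
    ∫⁻ s in Ioc 0 t, 2 * Q s ≤ ENNReal.ofReal (2 * B * c / D * gam P ϱ k A m t x v) := by
  have h3 := S.one_le_Hh k t x v
  have h4 : 0 < Gs P ϱ t v := Real.exp_pos _
  refine (setLIntegral_mono' measurableSet_Ioc fun s hs =>
    iss_pt S k hm hs ht x v hB hc0 (hQ s hs) (hc s hs)).trans ?_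
  rw [lintegral_const_mul' _ _ ENNReal.ofReal_ne_top]
  refine (mul_le_mul_right hD _).trans (le_of_eq ?_)
  rw [← ENNReal.ofReal_mul (by positivity)]
  congr 1
  unfold gam
  ring

theorem iss_rr {P : Par} {A : ℕ} {ϱ : ℝ} (S : Sm P A ϱ) {k : ℕ} {s : ℝ}
    (hs : s ∈ Icc 0 (TT P ϱ)) {y : X} (h : InL P ϱ k s y) : rr y ≠ 0 := by
  obtain ⟨j, -, hj⟩ := h
  exact ((S.ar_pos _).trans_le (S.Lay_rr hs hj).1).ne'

theorem exists_SS : ∃ K : ℝ, 1 ≤ K ∧ ∀ (P : Par) (A : ℕ) (ϱ : ℝ), Sm P A ϱ → ∀ k : ℕ,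
    ∀ t ∈ Icc 0 (TT P ϱ), ∀ (x : X) (v : V),
      (∀ m, 1 ≤ m → m ≤ A → SS P ϱ k (eG P ϱ k A m) t x v ≤
        ENNReal.ofReal (K * P.C0 / P.lam * gam P ϱ k A m t x v)) ∧
      (∀ m, 1 ≤ m → m ≤ A → (A : ℝ) ≤ ‖v‖ → SS P ϱ k (eG P ϱ k A m) t x v ≤
        ENNReal.ofReal (K * P.C0 / P.lam / A * gam P ϱ k A m t x v)) ∧
      SS P ϱ k (eG P ϱ k A A) t x v ≤
        ENNReal.ofReal (K * P.C0 / P.lam / A * gam P ϱ k A A t x v) := by
  obtain ⟨K, hK, h⟩ := exists_src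
  refine ⟨216 * K, by linarith, fun P A ϱ S k t ht x v => ?_⟩
  have hA := S.igeo_A
  have hl := S.ok.lam0
  have hC : 0 < P.C0 := by linarith [S.ok.C0]
  have hQ : ∀ m ≤ A, ∀ s ∈ Ioc 0 t, Qp kI (eC P ϱ k s (x + pr ((s - t) • v)))
      (eG P ϱ k A m s (x + pr ((s - t) • v))) v ≤ ENNReal.ofReal (K * 27 *
        (rbar P ϱ k s (x + pr ((s - t) • v)) / (1 + ‖v‖)) *
        gam P ϱ k A m s (x + pr ((s - t) • v)) v) := fun m hm s hs => by
    simpa using h P A ϱ S k m hm s ⟨hs.1.le, hs.2.trans ht.2⟩ (x + pr ((s - t) • v)) v univ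
      MeasurableSet.univ 27 (by norm_num) fun _ q hq => by simpa using pl_full S k s _ v hq
  have hg := fun m => S.gam_nonneg k m ht.1 x v
  refine ⟨fun m h1 h2 => ?_, fun m h1 h2 hv => ?_, ?_⟩
  · refine (iss_int S k h1 ht x v (by positivity) (by positivity) (hQ m h2)
      (fun s hs => (S.rbar_Y k hs.1.le _ v).1) (S.int_Y k h1 ht x v)).trans
      (ENNReal.ofReal_le_ofReal (mul_le_mul_of_nonneg_right ?_ (hg m)))
    have e : 2 * (K * 27) * (3 * A * P.C0 / P.lam) / A = 162 * K * P.C0 / P.lam := by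
      field_simp
      norm_num
    rw [e]
    gcongr
    norm_num
  · refine (iss_int S k h1 ht x v (by positivity) (by positivity) (hQ m h2)
      (fun s hs => (S.rbar_Y k hs.1.le _ v).2 hv) (S.int_Y k h1 ht x v)).trans
      (ENNReal.ofReal_le_ofReal (mul_le_mul_of_nonneg_right (le_of_eq ?_) (hg m)))
    ring
  · refine (iss_int S k (by linarith [S.A33]) ht x v (by positivity) (by positivity) (hQ A le_rfl)
      (fun s hs => (S.rbar_Y k hs.1.le _ v).1) (S.int_YA k ht x v)).trans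
      (ENNReal.ofReal_le_ofReal (mul_le_mul_of_nonneg_right ?_ (hg A)))
    have e : 2 * (K * 27) * (3 * A * P.C0 / P.lam) / A ^ 2 = 162 * K * P.C0 / P.lam / A := by
      field_simp
      norm_num
    rw [e]
    gcongr
    norm_num

theorem SS_cut {P : Par} (hP : P.OK) {ε : ℝ} (hε : 0 < ε) : ∃ κ0 : ℝ, 0 < κ0 ∧ ∀ κ : ℝ, 0 ≤ κ →
    κ ≤ κ0 → ∀ (A : ℕ) (ϱ : ℝ), Sm P A ϱ → ∀ k : ℕ, ∀ t ∈ Icc 0 (TT P ϱ), ∀ (x : X) (v : V),
      SS P ϱ k (fun s y u => if ZZ P κ y u then eG P ϱ k A 33 s y u else 0) t x v ≤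
        ENNReal.ofReal (ε * gam P ϱ k A 33 t x v) := by
  obtain ⟨K, hK, h⟩ := exists_src
  have hl := hP.lam0
  have hC : 0 < P.C0 := by linarith [hP.C0]
  have hε' : 0 < ε * P.lam / (6 * K * P.C0) := by positivity
  obtain ⟨κ0, h0, h1⟩ := pl_cut hε'
  refine ⟨κ0, h0, fun κ hκ hκ' A ϱ S k t ht x v => ?_⟩
  have hA := S.igeo_A
  refine (iss_int S k (m := 33) (by norm_num) ht x v (B := K * (ε * P.lam / (6 * K * P.C0)))
    (by positivity) (by positivity) (fun s hs => ?_)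
    (fun s hs => (S.rbar_Y k hs.1.le _ v).1) (S.int_Y k (by norm_num) ht x v)).trans
    (ENNReal.ofReal_le_ofReal (le_of_eq ?_))
  · have hs' : s ∈ Icc 0 (TT P ϱ) := ⟨hs.1.le, hs.2.trans ht.2⟩
    refine h P A ϱ S k 33 S.A33 s hs' _ v {u | ZZ P κ (x + pr ((s - t) • v)) u}
      (measurableSet_ZZ P κ measurable_const measurable_id) _ hε'.le fun hL q hq => ?_
    refine (Pl_mono hq fun p _ => ?_).trans (h1 κ hκ hκ' P A ϱ S k s _ (iss_rr S hs' hL) v q hq)
    split_ifs with h2 h3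
    · exact le_rfl
    · exact absurd (Or.inl h2) h3
    · exact zero_le
    · exact le_rfl
  · congr 1
    field_simp
    norm_num

theorem iss_small (M κ : ℝ) {ε : ℝ} (hε : 0 < ε) :
    ∃ r : ℝ, 0 < r ∧ r ≤ 1 ∧ M * (r + 4 * √(r / κ)) ≤ ε := by
  have h : Tendsto (fun r : ℝ => M * (r + 4 * √(r / κ))) (𝓝[>] 0) (𝓝 0) := by
    have h0 : Continuous fun r : ℝ => M * (r + 4 * √(r / κ)) := by fun_prop
    have h1 := h0.tendsto 0
    simp only [zero_div, Real.sqrt_zero, mul_zero, add_zero] at h1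
    exact h1.mono_left nhdsWithin_le_nhds
  have h2 : ∀ᶠ r : ℝ in 𝓝[>] 0, r ∈ Ioc (0 : ℝ) 1 := Ioc_mem_nhdsGT one_pos
  obtain ⟨r, hr1, hr2⟩ := ((h.eventually (ge_mem_nhds hε)).and h2).exists
  exact ⟨r, hr2.1, hr2.2, hr1⟩

theorem iss_near {P : Par} {A : ℕ} {ϱ : ℝ} (_S : Sm P A ϱ) {k : ℕ} {s : ℝ} {y : X} {v : V}
    {F : V → ℝ≥0∞} {N K ε r : ℝ} (hN : 0 ≤ N)
    (hF : ∀ u, F u ≤ ENNReal.ofReal (N * gam P ϱ k A 33 s y u)) {Z : Set V} (hZ : MeasurableSet Z)
    (h : Qp kI (eC P ϱ k s y) (fun u => if u ∈ Z then eG P ϱ k A 33 s y u else 0) v ≤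
      ENNReal.ofReal (K * ε * r * gam P ϱ k A 33 s y v)) :
    Qp kI (eC P ϱ k s y) (fun u => if u ∈ Z then F u else 0) v ≤
      ENNReal.ofReal (N * K * ε * r * gam P ϱ k A 33 s y v) := by
  have h1 : ∀ u, (if u ∈ Z then F u else 0) ≤
      ENNReal.ofReal N * if u ∈ Z then eG P ϱ k A 33 s y u else 0 := by
    intro u
    split_ifs
    · exact (hF u).trans_eq (ENNReal.ofReal_mul hN)
    · exact zero_le
  refine (Qp_mono (fun _ _ _ => le_rfl) (fun _ => le_rfl) h1 v).trans ?_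
  have hE : Measurable (eC P ϱ k s y) :=
    measurable_eC P ϱ k measurable_const measurable_const measurable_id
  have hG : Measurable fun u => if u ∈ Z then eG P ϱ k A 33 s y u else 0 :=
    Measurable.ite hZ (measurable_eG P ϱ k A 33 measurable_const measurable_const measurable_id)
      measurable_const
  rw [Qp_const_mul_right isKer_kI hE hG]
  refine (mul_le_mul_right h _).trans (le_of_eq ?_)
  rw [← ENNReal.ofReal_mul hN]
  congr 1
  ring

theorem iss_far {P : Par} {A : ℕ} {ϱ : ℝ} (S : Sm P A ϱ) {k : ℕ} {s : ℝ}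
    (hs : s ∈ Icc 0 (TT P ϱ)) {y : X} (hL : InL P ϱ k s y) {F : V → ℝ≥0∞} (hF : Measurable F)
    (v : V) {κ0 κ1 Y : ℝ} (h0 : 0 < κ0) (h1 : 0 < κ1) (hY : 0 < Y) (hy : κ1 * Y ≤ y0 P s y) :
    2 * Qp kI (eC P ϱ k s y) (fun u => if u ∈ {u : V | ‖v - u‖ < κ0} then 0 else F u) v ≤
      ENNReal.ofReal (32 * P.C0 / (κ0 * κ1 ^ 15)) * (ENNReal.ofReal (1 / Y ^ 15) * ∫⁻ u, F u) := by
  have hZ : MeasurableSet {u : V | ‖v - u‖ < κ0} := measurableSet_lt (by fun_prop) measurable_const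
  have hC : 0 < P.C0 := by linarith [S.ok.C0]
  have hE : Measurable (eC P ϱ k s y) :=
    measurable_eC P ϱ k measurable_const measurable_const measurable_id
  have hF' : Measurable fun u => if u ∈ {u : V | ‖v - u‖ < κ0} then 0 else F u :=
    Measurable.ite hZ measurable_const hF
  have h2 : ∀ q : V, (ENNReal.ofReal ‖q‖)⁻¹ *
      ((if v - q ∈ {u : V | ‖v - u‖ < κ0} then 0 else F (v - q)) *
        Pl q fun p => eC P ϱ k s y (v - p)) ≤
      ENNReal.ofReal (1 / κ0 * (8 * P.C0 / (κ1 * Y) ^ 15)) * F (v - q) := by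
    intro q
    split_ifs with hq
    · simp
    · have h3 : κ0 ≤ ‖q‖ := by simpa using hq
      have h4 : 0 < ‖q‖ := h0.trans_le h3
      have h5 := S.Pl_C k hs hL v (norm_pos_iff.1 h4)
      rw [ENNReal.ofReal_mul (by positivity), mul_assoc, mul_comm (F _),
        ← ENNReal.ofReal_inv_of_pos h4, one_div]
      refine mul_le_mul' (ENNReal.ofReal_le_ofReal (inv_anti₀ h0 h3))
        (mul_le_mul_left (h5.trans (ENNReal.ofReal_le_ofReal ?_)) _)
      gcongr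
  rw [Qp_comm hE hF', Qp_carl hF' hE]
  refine (mul_le_mul_right (mul_le_mul_right (lintegral_mono h2) 2) 2).trans (le_of_eq ?_)
  rw [lintegral_const_mul' _ _ ENNReal.ofReal_ne_top, lintegral_sub_left_eq_self F v,
    ← mul_assoc 2 (ENNReal.ofReal _), iss_two, ← mul_assoc 2 (ENNReal.ofReal _), iss_two,
    ← mul_assoc (ENNReal.ofReal _), ← ENNReal.ofReal_mul (by positivity)]
  congr 2
  field_simp
  norm_num

theorem SS_main {P : Par} (hP : P.OK) (A : ℕ) {ε κ : ℝ} (hε : 0 < ε) (hκ : 0 < κ) :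
    ∃ κ1 K2 : ℝ, 0 < κ1 ∧ κ1 ≤ 1 ∧ 0 ≤ K2 ∧ ∀ ϱ : ℝ, Sm P A ϱ → ∀ (k : ℕ)
      (F : ℝ → X → V → ℝ≥0∞), Measurable (fun p : ℝ × X × V => F p.1 p.2.1 p.2.2) →
      ∀ N : ℝ, 0 ≤ N →
      (∀ s ∈ Icc 0 (TT P ϱ), ∀ y u, F s y u ≤ ENNReal.ofReal (N * gam P ϱ k A 33 s y u)) →
      ∀ t ∈ Icc 0 (TT P ϱ), ∀ (x : X) (v : V), ‖v‖ < A → κ ≤ |‖vb v‖ ^ 2 - P.lam ^ 2| →
        SS P ϱ k F t x v ≤ ENNReal.ofReal K2 * SM P ϱ k A κ1 F t x v +
          ENNReal.ofReal (ε * N * gam P ϱ k A 33 t x v) := by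
  obtain ⟨K, hK, h⟩ := exists_src
  have hl := hP.lam0
  have hC : 0 < P.C0 := by linarith [hP.C0]
  have hε' : 0 < ε * P.lam / (12 * K * P.C0) := by positivity
  obtain ⟨κ0, h0, h1⟩ := pl_cut hε'
  obtain ⟨κ1, k0, k1, k2⟩ := iss_small (2 * (K * 27) * (3 * A * P.C0 / P.lam)) κ (half_pos hε)
  refine ⟨κ1, 32 * P.C0 / (κ0 * κ1 ^ 15), k0, k1, by positivity,
    fun ϱ S k F hF N hN hFN t ht x v hv hκv => ?_⟩
  have hA := S.igeo_A
  have hY := S.Yy_pos k ht.1 x v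
  have h3 := S.one_le_Hh k t x v
  have h4 : 0 < Gs P ϱ t v := Real.exp_pos _
  set Y := Yy P ϱ k A t x v with hYdef
  let y : ℝ → X := fun s => x + pr ((s - t) • v)
  have hy : Measurable y := by fun_prop
  let bad : Set ℝ := Ioc (t - κ1 * Y) t ∪
    {s | s ∈ Ioc 0 t ∧ InL P ϱ k s (y s) ∧ y0 P s (y s) < κ1 * Y}
  have hbad : volume bad ≤ ENNReal.ofReal (Y * (κ1 + 4 * √(κ1 / κ))) := by
    refine (measure_union_le _ _).trans ?_
    rw [Real.volume_Ioc]
    refine (add_le_add le_rfl (S.thin k ht x hv hκ hκv k0.le k1)).trans (le_of_eq ?_)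
    rw [← ENNReal.ofReal_add (by nlinarith) (by positivity)]
    congr 1
    ring
  let c1 : ℝ := 2 * (N * K * 27) * (3 * A * P.C0 / P.lam) * (Hh P ϱ k t x v * Gs P ϱ t v) * Y ^ 32
  have hc1 : 0 ≤ c1 := by positivity
  let Q : ℝ → ℝ≥0∞ := fun s => ENNReal.ofReal (N * K * (ε * P.lam / (12 * K * P.C0)) *
    (rbar P ϱ k s (y s) / (1 + ‖v‖)) * gam P ϱ k A 33 s (y s) v)
  have hQ : Measurable Q :=
    ((((measurable_rbar P ϱ k measurable_id hy).div_const _).const_mul _).mul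
      (measurable_gam P ϱ k A 33 measurable_id hy measurable_const)).ennreal_ofReal
  have key : ∀ s ∈ Ioc 0 t, 2 * Qp kI (eC P ϱ k s (y s)) (F s (y s)) v ≤
      ((toMeasurable volume bad).indicator (fun _ => ENNReal.ofReal c1) s + 2 * Q s) +
        ENNReal.ofReal (32 * P.C0 / (κ0 * κ1 ^ 15)) *
          if s ≤ t - κ1 * Y ∧ InL P ϱ k s (y s) ∧ κ1 * Y ≤ y0 P s (y s)
            then ENNReal.ofReal (1 / Y ^ 15) * ∫⁻ u, F s (y s) u else 0 := by
    intro s hs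
    have hs' : s ∈ Icc 0 (TT P ϱ) := ⟨hs.1.le, hs.2.trans ht.2⟩
    have hFs : Measurable (F s (y s)) :=
      hF.comp (f := fun u : V => (s, y s, u)) (by fun_prop)
    have hfull := iss_near S hN (hFN s hs' (y s)) MeasurableSet.univ
      (h P A ϱ S k 33 S.A33 s hs' (y s) v univ MeasurableSet.univ 27 (by norm_num)
        fun _ q hq => by simpa using pl_full S k s _ v hq)
    simp only [mem_univ, if_true] at hfull
    by_cases hL : InL P ϱ k s (y s)
    swap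
    · rw [rbar, if_neg hL] at hfull
      simp only [zero_div, mul_zero, zero_mul, ENNReal.ofReal_zero, nonpos_iff_eq_zero] at hfull
      rw [hfull, mul_zero]
      exact zero_le
    split_ifs with hg
    · have hZ : MeasurableSet {u : V | ‖v - u‖ < κ0} :=
        measurableSet_lt (by fun_prop) measurable_const
      have hnear := iss_near S hN (hFN s hs' (y s)) hZ
        (h P A ϱ S k 33 S.A33 s hs' (y s) v _ hZ _ hε'.le fun hL q hq => by
          refine (Pl_mono hq fun p _ => ?_).trans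
            (h1 κ0 h0.le le_rfl P A ϱ S k s _ (iss_rr S hs' hL) v q hq)
          split_ifs with h2 h3
          · exact le_rfl
          · exact absurd (Or.inr (by simpa using h2)) h3
          · exact zero_le
          · exact le_rfl)
      have hfar := iss_far S hs' hL hFs v h0 k0 hY hg.2.2
      have hsplit : F s (y s) = fun u => (if u ∈ {u : V | ‖v - u‖ < κ0} then F s (y s) u else 0) +
          if u ∈ {u : V | ‖v - u‖ < κ0} then 0 else F s (y s) u := by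
        funext u
        split_ifs <;> simp
      have hE : Measurable (eC P ϱ k s (y s)) :=
        measurable_eC P ϱ k measurable_const measurable_const measurable_id
      have g1 : Measurable fun u => if u ∈ {u : V | ‖v - u‖ < κ0} then F s (y s) u else 0 :=
        Measurable.ite hZ hFs measurable_const
      have g2 : Measurable fun u => if u ∈ {u : V | ‖v - u‖ < κ0} then 0 else F s (y s) u :=
        Measurable.ite hZ measurable_const hFs
      have hq := Qp_add_right isKer_kI hE g1 g2 v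
      rw [← hsplit] at hq
      rw [hq, mul_add]
      exact add_le_add (le_add_left (mul_le_mul_right hnear 2)) hfar
    · have hb : s ∈ bad := by
        by_cases h5 : s ≤ t - κ1 * Y
        · exact Or.inr ⟨hs, hL, not_le.1 fun h6 => hg ⟨h5, hL, h6⟩⟩
        · exact Or.inl ⟨not_le.1 h5, hs.2⟩
      rw [indicator_of_mem (subset_toMeasurable _ _ hb)]
      refine le_add_right (le_add_right ?_)
      refine (iss_pt S k (m := 33) (by norm_num) hs ht x v (by positivity) (by positivity) hfull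
        (S.rbar_Y k hs.1.le _ v).1).trans ?_
      rw [← ENNReal.ofReal_mul (by positivity)]
      refine ENNReal.ofReal_le_ofReal (mul_le_mul_of_nonneg_left ?_ (by positivity))
      exact pow_le_pow_left₀ (S.Yy_pos k hs.1.le _ v).le (Yy_mono k hs.2 x v) 32
  have hI : Measurable ((toMeasurable volume bad).indicator fun _ => ENNReal.ofReal c1) :=
    measurable_const.indicator (measurableSet_toMeasurable _ _)
  refine (setLIntegral_mono' measurableSet_Ioc key).trans ?_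
  have hI2 : Measurable fun s =>
      (toMeasurable volume bad).indicator (fun _ => ENNReal.ofReal c1) s + 2 * Q s :=
    hI.add (hQ.const_mul 2)
  rw [lintegral_add_left hI2, lintegral_add_left hI,
    lintegral_const_mul' _ _ ENNReal.ofReal_ne_top, add_comm]
  refine add_le_add le_rfl ?_
  have b1 : ∫⁻ s in Ioc 0 t, (toMeasurable volume bad).indicator (fun _ => ENNReal.ofReal c1) s ≤
      ENNReal.ofReal (ε / 2 * N * gam P ϱ k A 33 t x v) := by
    refine (setLIntegral_le_lintegral _ _).trans ?_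
    rw [lintegral_indicator_const (measurableSet_toMeasurable _ _), measure_toMeasurable]
    refine (mul_le_mul_right hbad _).trans ?_
    rw [← ENNReal.ofReal_mul hc1]
    refine ENNReal.ofReal_le_ofReal ?_
    calc _ = 2 * (K * 27) * (3 * A * P.C0 / P.lam) * (κ1 + 4 * √(κ1 / κ)) * N *
          gam P ϱ k A 33 t x v := by
          simp only [c1, gam, ← hYdef]
          ring
      _ ≤ _ := by
          have := S.gam_nonneg k 33 ht.1 x v
          gcongr
  have b2 := iss_int S k (m := 33) (by norm_num) ht x v (Q := Q) (by positivity) (by positivity)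
    (fun s _ => le_rfl) (fun s hs => (S.rbar_Y k hs.1.le _ v).1) (S.int_Y k (by norm_num) ht x v)
  refine (add_le_add b1 b2).trans (le_of_eq ?_)
  have := S.gam_nonneg k 33 ht.1 x v
  rw [← ENNReal.ofReal_add (by positivity) (by positivity)]
  congr 1
  field_simp
  ring

end Vale.Agent.P140
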