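import Vale.Agent.P140.IDat
import Vale.Agent.P140.ISS
import Vale.Agent.P140.IQC
import Vale.Agent.P140.IQG
import Vale.Agent.P140.IComp

/-! The basic Duhamel inequality and the cold family. -/

namespace Vale.Agent.P140

open MeasureTheory Set Filter Topology
open scoped ENNReal

open Classical

/- PLAN exists_L00: dat at the foot of the characteristic is Bc t x v + ς G0 v (Bc_free with s = 0, (0 - t) = -t), G0 ≤ gam/τ^m
(gam_ge). Expand Qp kI (C+h) (C+h) (Qp_add_left/right, Qp_comm) = QCC + 2 Qp(C,h) + Qp(h,h), Qp(h,h) ≤ N² Qp(γ,γ), exists_QG,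
QCb with gam_anti, Dh_add, Dh_mono. exists_L0: TrSol.upper, ofReal f ≤ eC + hx (le_add_tsub), kN ≤ kI, adm_iff, tsub_le_iff_left.
famA: TrSol.compare with U = eC + ofReal (N gam A), N = 8 ϱ^Np, exists_L00 with h = ofReal (N gam A), SS_const_mul, exists_SS (third
part, K C0/lam/A ≤ 1/4), K T N ≤ 1/4 for small ϱ (N ≤ 8), eventually_QC, Cc_bdd, gam_le. -/

theorem iboot_sl {F : ℝ → X → V → ℝ≥0∞} (hF : Measurable (fun p : ℝ × X × V => F p.1 p.2.1 p.2.2))
    (s : ℝ) (y : X) : Measurable (F s y) :=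
  hF.comp (f := fun u : V => (s, y, u)) (by fun_prop)

theorem iboot_Q {F G : ℝ → X → V → ℝ≥0∞}
    (hF : Measurable (fun p : ℝ × X × V => F p.1 p.2.1 p.2.2))
    (hG : Measurable (fun p : ℝ × X × V => G p.1 p.2.1 p.2.2)) :
    Measurable (fun p : ℝ × X × V => Qp kI (F p.1 p.2.1) (G p.1 p.2.1) p.2.2) :=
  measurable_Qp isKer_kI (F := fun p : ℝ × X × V => F p.1 p.2.1)
    (G := fun p : ℝ × X × V => G p.1 p.2.1)
    (hF.comp (f := fun q : (ℝ × X × V) × V => (q.1.1, q.1.2.1, q.2)) (by fun_prop))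
    (hG.comp (f := fun q : (ℝ × X × V) × V => (q.1.1, q.1.2.1, q.2)) (by fun_prop))
    (by fun_prop)

theorem iboot_C (P : Par) (ϱ : ℝ) (k : ℕ) :
    Measurable (fun p : ℝ × X × V => eC P ϱ k p.1 p.2.1 p.2.2) :=
  measurable_eC P ϱ k (by fun_prop) (by fun_prop) (by fun_prop)

theorem iboot_G (P : Par) (ϱ : ℝ) (k A m : ℕ) :
    Measurable (fun p : ℝ × X × V => eG P ϱ k A m p.1 p.2.1 p.2.2) :=
  measurable_eG P ϱ k A m (by fun_prop) (by fun_prop) (by fun_prop)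

theorem iboot_exp {C h G : V → ℝ≥0∞} (hC : Measurable C) (hh : Measurable h) (hG : Measurable G)
    {c : ℝ≥0∞} (hle : ∀ u, h u ≤ c * G u) (v : V) :
    Qp kI (fun u => C u + h u) (fun u => C u + h u) v ≤
      Qp kI C C v + (2 * Qp kI C h v + c * c * Qp kI G G v) := by
  have h1 : Qp kI h h v ≤ c * c * Qp kI G G v := by
    refine (Qp_mono (fun _ _ _ => le_rfl) hle hle v).trans (le_of_eq ?_)
    rw [Qp_const_mul_left isKer_kI hG (hG.const_mul c), Qp_const_mul_right isKer_kI hG hG,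
      mul_assoc]
  have h2 : Measurable fun u => C u + h u := hC.add hh
  rw [Qp_add_left isKer_kI hC hh h2, Qp_add_right isKer_kI hC hC hh,
    Qp_add_right isKer_kI hh hC hh, Qp_comm hh hC, two_mul, add_assoc, add_assoc]
  gcongr

theorem iboot_fin {a b N d c e : ℝ} (ha : 0 ≤ a) (hb : 0 ≤ b) (hN : 0 ≤ N) (hd : 0 ≤ d)
    (hc : 0 ≤ c) (he : 0 ≤ e) (h : a + b + N * N * d ≤ c + e) (s : ℝ≥0∞) :
    ENNReal.ofReal a + (ENNReal.ofReal b + (s + ENNReal.ofReal N * ENNReal.ofReal N *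
      ENNReal.ofReal d)) ≤ ENNReal.ofReal c + (ENNReal.ofReal e + s) := by
  have h1 := ENNReal.ofReal_le_ofReal h
  rw [ENNReal.ofReal_add (add_nonneg ha hb) (by positivity), ENNReal.ofReal_add ha hb,
    ENNReal.ofReal_add hc he, ENNReal.ofReal_mul (mul_nonneg hN hN), ENNReal.ofReal_mul hN] at h1
  calc _ = ENNReal.ofReal a + ENNReal.ofReal b + ENNReal.ofReal N * ENNReal.ofReal N *
        ENNReal.ofReal d + s := by ring
    _ ≤ ENNReal.ofReal c + ENNReal.ofReal e + s := by gcongr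
    _ = _ := add_assoc _ _ _

theorem exists_L00 : ∃ K : ℝ, 0 ≤ K ∧ ∀ (P : Par) (A : ℕ) (ϱ : ℝ), Sm P A ϱ → ∀ k m : ℕ, m ≤ A →
    ∀ ς N t0 : ℝ, 0 ≤ ς → 0 ≤ N → 0 ≤ t0 → QCb P ϱ k A t0 →
    ∀ h : ℝ → X → V → ℝ≥0∞, Measurable (fun p : ℝ × X × V => h p.1 p.2.1 p.2.2) →
    (∀ t ∈ Icc 0 (TT P ϱ), ∀ x v, h t x v ≤ ENNReal.ofReal (N * gam P ϱ k A m t x v)) →
    ∀ t ∈ Icc 0 (TT P ϱ), ∀ (x : X) (v : V),
      ENNReal.ofReal (dat P ϱ k ς (x + pr ((-t) • v), v)) +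
        Dh (fun s y u => Qp kI (fun u' => eC P ϱ k s y u' + h s y u')
          (fun u' => eC P ϱ k s y u' + h s y u') u) t x v ≤
      eC P ϱ k t x v + (ENNReal.ofReal ((ς / ar P ϱ (k + 1) ^ m + t0 + K * TT P ϱ * N ^ 2) *
        gam P ϱ k A m t x v) + SS P ϱ k h t x v) := by
  obtain ⟨K, hK, hQG⟩ := exists_QG
  refine ⟨K, hK, fun P A ϱ S k m hm ς N t0 hς hN ht0 hQC h hh hb t ht x v => ?_⟩
  have hγ := S.gam_nonneg k m ht.1 x v
  have hτ : 0 < ar P ϱ (k + 1) ^ m := pow_pos (S.ar_pos _) _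
  have hT := S.TT_pos
  have hd : dat P ϱ k ς (x + pr ((-t) • v), v) ≤
      Bc P ϱ k t x v + ς / ar P ϱ (k + 1) ^ m * gam P ϱ k A m t x v := by
    have h1 := S.Bc_free k S.idat_zero ht x v
    rw [zero_sub] at h1
    have h2 := mul_le_mul_of_nonneg_left (S.gam_ge k m ht.1 x v) (div_nonneg hς hτ.le)
    rw [← mul_assoc, div_mul_cancel₀ _ hτ.ne'] at h2
    unfold dat
    simp only
    linarith
  have hD : Dh (fun s y u => Qp kI (fun u' => eC P ϱ k s y u' + h s y u')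
          (fun u' => eC P ϱ k s y u' + h s y u') u) t x v ≤
      Dh (fun s y u => Qp kI (eC P ϱ k s y) (eC P ϱ k s y) u) t x v + (SS P ϱ k h t x v +
        ENNReal.ofReal N * ENNReal.ofReal N *
          Dh (fun s y u => Qp kI (eG P ϱ k A m s y) (eG P ϱ k A m s y) u) t x v) := by
    unfold SS
    rw [← Dh_const_mul (iboot_Q (iboot_G P ϱ k A m) (iboot_G P ϱ k A m)),
      ← Dh_add ((iboot_Q (iboot_C P ϱ k) hh).const_mul 2),
      ← Dh_add (iboot_Q (iboot_C P ϱ k) (iboot_C P ϱ k))]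
    refine Dh_mono x v fun s hs => ?_
    refine iboot_exp (iboot_sl (iboot_C P ϱ k) _ _) (iboot_sl hh _ _)
      (iboot_sl (iboot_G P ϱ k A m) _ _) (fun u => ?_) v
    refine (hb s ⟨hs.1.le, hs.2.trans ht.2⟩ _ u).trans (le_of_eq ?_)
    rw [ENNReal.ofReal_mul hN]
    rfl
  have hB := S.Bc_nonneg k t x v
  have hE := S.Ec_nonneg k t x v
  have hA := S.gam_anti k hm ht.1 x v
  have hA0 := S.gam_nonneg k A ht.1 x v
  have hq := div_nonneg hς hτ.le
  calc _ ≤ ENNReal.ofReal (Bc P ϱ k t x v + ς / ar P ϱ (k + 1) ^ m * gam P ϱ k A m t x v) +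
        (ENNReal.ofReal (Ec P ϱ k t x v + t0 * gam P ϱ k A A t x v) + (SS P ϱ k h t x v +
          ENNReal.ofReal N * ENNReal.ofReal N *
            ENNReal.ofReal (K * TT P ϱ * gam P ϱ k A m t x v))) := by
        refine add_le_add (ENNReal.ofReal_le_ofReal hd) (hD.trans ?_)
        gcongr
        · exact hQC t ht x v
        · exact hQG P A ϱ S k m hm t ht x v
    _ ≤ _ := by
        refine iboot_fin (by positivity) (by positivity) hN (by positivity)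
          (S.Cc_nonneg k t x v) (by positivity) ?_ _
        unfold Cc
        nlinarith [mul_le_mul_of_nonneg_left hA ht0]

theorem exists_L0 : ∃ K : ℝ, 0 ≤ K ∧ ∀ (P : Par) (A : ℕ) (ϱ : ℝ), Sm P A ϱ → ∀ k n m : ℕ, m ≤ A →
    ∀ ς N t0 : ℝ, 0 ≤ ς → 0 ≤ N → 0 ≤ t0 → QCb P ϱ k A t0 →
    ∀ f : ℝ → Om → ℝ, TrSol n (dat P ϱ k ς) f → Adm P ϱ k A m N f →
    ∀ t ∈ Icc 0 (TT P ϱ), ∀ (x : X) (v : V),
      hx P ϱ k f t x v ≤ ENNReal.ofReal ((ς / ar P ϱ (k + 1) ^ m + t0 + K * TT P ϱ * N ^ 2) *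
        gam P ϱ k A m t x v) + SS P ϱ k (hx P ϱ k f) t x v := by
  obtain ⟨K, hK, hL⟩ := exists_L00
  refine ⟨K, hK, fun P A ϱ S k n m hm ς N t0 hς hN ht0 hQC f hf ha t ht x v => ?_⟩
  have h1 := hL P A ϱ S k m hm ς N t0 hς hN ht0 hQC (hx P ϱ k f) (measurable_hx P ϱ k hf.meas)
    ((S.adm_iff hN).1 ha) t ht x v
  refine tsub_le_iff_left.2 ((hf.upper ht.1 x v).trans (le_trans ?_ h1))
  refine add_le_add le_rfl (Dh_mono x v fun s _ => ?_)
  exact Qp_mono (isKer_kN n).le (fun u => le_add_tsub) (fun u => le_add_tsub) v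

theorem famA {P : Par} (hP : P.OK) : ∃ A0 : ℕ, ∀ A ≥ A0, ∀ Np : ℕ, ∀ᶠ ϱ in 𝓝[>] (0 : ℝ),
    ∀ (k n : ℕ) (ς : ℝ) (f : ℝ → Om → ℝ), 0 ≤ ς → ς ≤ ϱ ^ Np * ar P ϱ (k + 1) ^ A →
      TrSol n (dat P ϱ k ς) f → Adm P ϱ k A A (8 * ϱ ^ Np) f := by
  obtain ⟨K1, hK1, hL⟩ := exists_L00
  obtain ⟨K2, hK2, hS⟩ := exists_SS
  have hlam := hP.lam0
  have hC := hP.C0
  refine ⟨max 33 ⌈4 * (K2 * P.C0 / P.lam)⌉₊, fun A hA Np => ?_⟩
  have hA33 : 33 ≤ A := (le_max_left _ _).trans hA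
  have hA2 : 4 * (K2 * P.C0 / P.lam) ≤ A :=
    (Nat.le_ceil _).trans (by exact_mod_cast (le_max_right _ _).trans hA)
  have hApos : (0 : ℝ) < A := by exact_mod_cast lt_of_lt_of_le (by norm_num) hA33
  have hev : ∀ᶠ ϱ in 𝓝[>] (0 : ℝ), ϱ ≤ P.lam / (32 * (K1 + 1)) :=
    mem_nhdsWithin_of_mem_nhds (Iic_mem_nhds (by positivity))
  filter_upwards [eventually_sm hP hA33, eventually_QC hP hA33 Np, hev] with ϱ S hQC hϱ
  intro k n ς f hς hςle hf
  have hρ := S.pos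
  have hρ1 : ϱ ^ Np ≤ 1 := pow_le_one₀ hρ.le (by have := S.rho_le'; linarith)
  have hρ0 : 0 < ϱ ^ Np := pow_pos hρ _
  set N : ℝ := 8 * ϱ ^ Np with hNdef
  have hN : 0 ≤ N := by positivity
  have hτ : 0 < ar P ϱ (k + 1) ^ A := pow_pos (S.ar_pos _) _
  have hT := S.TT_pos
  have hKT : K1 * TT P ϱ * N ≤ 1 / 4 := by
    have h1 : (K1 + 1) * TT P ϱ ≤ 1 / 32 := by
      unfold TT
      rw [le_div_iff₀ (by positivity)] at hϱ
      rw [← mul_div_assoc, div_le_iff₀ hlam]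
      linarith
    have h2 : K1 * TT P ϱ ≤ 1 / 32 := by nlinarith
    have h3 : 0 ≤ K1 * TT P ϱ := by positivity
    nlinarith
  obtain ⟨M, hM⟩ := S.Cc_bdd k
  have hm : Measurable (fun p : ℝ × X × V =>
      ENNReal.ofReal N * eG P ϱ k A A p.1 p.2.1 p.2.2) := (iboot_G P ϱ k A A).const_mul _
  have he : ∀ t x v, ENNReal.ofReal N * eG P ϱ k A A t x v =
      ENNReal.ofReal (N * gam P ϱ k A A t x v) := fun t x v => by
    rw [ENNReal.ofReal_mul hN]
    rfl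
  have key := hf.compare (T := TT P ϱ)
    (U := fun t x v => eC P ϱ k t x v + ENNReal.ofReal N * eG P ϱ k A A t x v)
    ((iboot_C P ϱ k).add hm) (M := M + N * (1 + 2 / de P ϱ k)) (fun t ht x v => by
      have h1 := S.gam_nonneg k A ht.1 x v
      rw [he]
      unfold eC
      rw [← ENNReal.ofReal_add (S.Cc_nonneg k t x v) (by positivity)]
      exact ENNReal.ofReal_le_ofReal (add_le_add (hM t x v)
        (mul_le_mul_of_nonneg_left (S.gam_le k A ht x v) hN))) (fun t ht x v => by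
      have hγ := S.gam_nonneg k A ht.1 x v
      refine (hL P A ϱ S k A le_rfl ς N (ϱ ^ Np) hς hN hρ0.le (hQC k)
        (fun t x v => ENNReal.ofReal N * eG P ϱ k A A t x v) hm
        (fun t _ x v => (he t x v).le) t ht x v).trans ?_
      rw [SS_const_mul P ϱ k (iboot_G P ϱ k A A), he]
      refine add_le_add le_rfl ?_
      have h1 : ς / ar P ϱ (k + 1) ^ A ≤ ϱ ^ Np := by rwa [div_le_iff₀ hτ]
      have h0 := div_nonneg hς hτ.le
      have h2 : K2 * P.C0 / P.lam / A ≤ 1 / 4 := by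
        rw [div_le_iff₀ hApos]
        linarith
      have h3 : 0 ≤ K2 * P.C0 / P.lam / A := by positivity
      calc _ ≤ ENNReal.ofReal ((ς / ar P ϱ (k + 1) ^ A + ϱ ^ Np + K1 * TT P ϱ * N ^ 2) *
            gam P ϱ k A A t x v) + ENNReal.ofReal N *
            ENNReal.ofReal (K2 * P.C0 / P.lam / A * gam P ϱ k A A t x v) := by
            gcongr
            exact (hS P A ϱ S k t ht x v).2.2
        _ ≤ _ := by
            rw [← ENNReal.ofReal_mul hN, ← ENNReal.ofReal_add (by positivity) (by positivity)]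
            refine ENNReal.ofReal_le_ofReal ?_
            rw [← mul_assoc, ← add_mul]
            refine mul_le_mul_of_nonneg_right ?_ hγ
            have h4 := mul_le_mul_of_nonneg_right hKT hN
            have h5 := mul_le_mul_of_nonneg_left h2 hN
            nlinarith)
  refine (S.adm_iff hN).2 fun t ht x v => tsub_le_iff_left.2 ?_
  rw [← he]
  exact key t ht x v

end Vale.Agent.P140
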