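import Vale.Agent.P140.IGeo

/-! Support properties and free transport of the cold gas. -/

namespace Vale.Agent.P140

open MeasureTheory Set Filter Topology
open scoped ENNReal

variable {P : Par} {A : ℕ} {ϱ : ℝ}

/- PLAN supp_B: r² |vb v|² = ⟪x̃,v⟫² + wd²; with α = ⟪v,x̂⟫, β = wd/r: |vb v|² = α² + β², r ≥ a_{j+1} so |β| ≤ δ,
α > 0, |α - lam| ≤ 2δ, W = (α-lam)² + β² + (v0-σ)² ≤ 6 δ², |label - lam y0| ≤ r |α - lam| + t lam δ ≤ δ ≤ lam η.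
Bj_free: if either side is nonzero the trajectory stays in the cell (xt_add), and the four conditions are
invariant (wedge and ⟪x̃,v⟫ - t |vb v|² are conserved). -/

theorem wd_sq (x : X) (v : V) :
    rr x ^ 2 * ‖vb v‖ ^ 2 = inner ℝ (xt x) v ^ 2 + wd x v ^ 2 := by
  unfold rr wd
  rw [plb_normsq, plb_inner, norm_vb_sq, xt_zero]
  ring

theorem ICold1_inner (x : X) (v : V) : inner ℝ (xt x) v = rr x * inner ℝ v (xh x) := by
  conv_lhs => rw [xt_eq, real_inner_smul_left, real_inner_comm]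

theorem ICold1_beta {δ a r N α w : ℝ} (hδ : 0 < δ) (ha : 0 < a) (hr : a ≤ r)
    (hid : r ^ 2 * N = (r * α) ^ 2 + w ^ 2) (h2 : |w| ≤ δ * a) :
    α ^ 2 ≤ N ∧ N ≤ α ^ 2 + δ ^ 2 := by
  have hr0 : 0 < r := ha.trans_le hr
  have h3 : w ^ 2 ≤ (δ * r) ^ 2 :=
    sq_le_sq' (by nlinarith [abs_le.1 h2]) (by nlinarith [abs_le.1 h2])
  have hr2 : 0 < r ^ 2 := by positivity
  constructor
  · refine le_of_mul_le_mul_left ?_ hr2
    nlinarith [sq_nonneg w]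
  · refine le_of_mul_le_mul_left ?_ hr2
    nlinarith

theorem ICold1_rad {l δ g a' r N I w : ℝ} (hl : 0 < l) (hδ : 0 < δ) (hδg : δ ≤ l * g)
    (ha : 0 < a') (ha1 : a' ≤ 1) (hr0 : 0 ≤ r) (hN : 0 ≤ N) (hid : r ^ 2 * N = I ^ 2 + w ^ 2)
    (h1 : N ≤ l ^ 2 + l * δ) (hI : l * (a' + g) ≤ I) : a' ≤ r := by
  by_contra hc
  have hlg : 0 < l * g := hδ.trans_le hδg
  have hI0 : 0 ≤ l * (a' + g) := by
    rw [mul_add]
    positivity
  have hc' : r ^ 2 ≤ a' ^ 2 := pow_le_pow_left₀ hr0 (not_le.1 hc).le 2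
  have e1 : (l * (a' + g)) ^ 2 ≤ I ^ 2 := pow_le_pow_left₀ hI0 hI 2
  have e2 : r ^ 2 * N ≤ a' ^ 2 * (l ^ 2 + l * δ) := mul_le_mul hc' h1 hN (by positivity)
  have e3 : a' * δ ≤ l * g := (mul_le_of_le_one_left hδ.le ha1).trans hδg
  have e4 : a' * l * (a' * δ) ≤ a' * l * (l * g) := by gcongr
  have e5 : 0 < a' * l * (l * g) := by positivity
  linarith [sq_nonneg w, sq_nonneg (l * g)]

theorem ICold1_alpha {l δ N α : ℝ} (hl : 0 < l) (hδ : 0 < δ) (hδl : 1000 * δ ≤ l) (hα : 0 ≤ α)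
    (h1 : |N - l ^ 2| ≤ l * δ) (b1 : α ^ 2 ≤ N) (b2 : N ≤ α ^ 2 + δ ^ 2) :
    |α - l| ≤ 2 * δ ∧ N + l ^ 2 - 2 * l * α ≤ 5 * δ ^ 2 := by
  obtain ⟨h1a, h1b⟩ := abs_le.1 h1
  have c3 : δ * (1000 * δ) ≤ δ * l := by gcongr
  have c4 : 0 < l * δ := by positivity
  have hup : α ≤ l + 2 * δ :=
    (abs_le_of_sq_le_sq' (by linarith [sq_nonneg δ]) (by positivity)).2
  have hlo : l - 2 * δ ≤ α := (abs_le_of_sq_le_sq' (by linarith) hα).2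
  have h3 : (α - l) ^ 2 ≤ (2 * δ) ^ 2 := sq_le_sq' (by linarith) (by linarith)
  exact ⟨abs_le.2 ⟨by linarith, by linarith⟩, by linarith⟩

theorem ICold1_real {l δ η g a a' r N α w t : ℝ} (hl : 0 < l) (hl1 : l ≤ 1) (hδ : 0 < δ)
    (hδη : 1000 * δ ≤ l * η) (hηg : 1000 * η ≤ l * g) (hηl : 1000 * η ≤ l) (ha : 0 < a')
    (ha1 : a' ≤ 1) (hr0 : 0 ≤ r) (hr1 : r ≤ 1) (ht0 : 0 ≤ t) (ht1 : t ≤ 1) (hN : 0 ≤ N)
    (hid : r ^ 2 * N = (r * α) ^ 2 + w ^ 2) (h1 : |N - l ^ 2| ≤ l * δ) (h2 : |w| ≤ δ * a')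
    (h4 : l * (a' + g) ≤ r * α - t * N) (h5 : r * α - t * N ≤ l * (a - g)) :
    |α - l| ≤ 2 * δ ∧ N + l ^ 2 - 2 * l * α ≤ 5 * δ ^ 2 ∧ a' + g - η ≤ r - l * t ∧
      r - l * t ≤ a - g + η := by
  have hη : 0 < η := (mul_pos_iff_of_pos_left hl).1 (by linarith)
  have hδη' : 1000 * δ ≤ η := hδη.trans (mul_le_of_le_one_left hη.le hl1)
  have hI : l * (a' + g) ≤ r * α := by linarith [mul_nonneg ht0 hN]
  have hra : a' ≤ r := ICold1_rad hl hδ (by linarith) ha ha1 hr0 hN hid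
    (by linarith [(abs_le.1 h1).2]) hI
  have hα : 0 < α := (mul_pos_iff_of_pos_left (ha.trans_le hra)).1 (by linarith [mul_pos hl ha])
  obtain ⟨b1, b2⟩ := ICold1_beta hδ ha hra hid h2
  obtain ⟨k1, k2⟩ := ICold1_alpha hl hδ (by linarith) hα.le h1 b1 b2
  have e1 : |r * (α - l)| ≤ 2 * δ := by
    rw [abs_mul, abs_of_nonneg hr0]
    exact (mul_le_of_le_one_left (abs_nonneg _) hr1).trans k1
  have e2 : |t * (N - l ^ 2)| ≤ δ := by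
    rw [abs_mul, abs_of_nonneg ht0]
    exact (mul_le_of_le_one_left (abs_nonneg _) ht1).trans
      (h1.trans (mul_le_of_le_one_left hδ.le hl1))
  obtain ⟨e1a, e1b⟩ := abs_le.1 e1
  obtain ⟨e2a, e2b⟩ := abs_le.1 e2
  exact ⟨k1, k2, le_of_mul_le_mul_left (by linarith) hl, le_of_mul_le_mul_left (by linarith) hl⟩

theorem ICold1_full {l δ η g a a' r N α w t : ℝ} (hl : 0 < l) (hl1 : l ≤ 1) (hδ : 0 < δ)
    (hδη : 1000 * δ ≤ l * η) (hηg : 1000 * η ≤ l * g) (hηl : 1000 * η ≤ l) (ha : 0 < a')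
    (hra : a' ≤ r) (hr1 : r ≤ 1) (ht0 : 0 ≤ t) (ht1 : t ≤ 1)
    (hid : r ^ 2 * N = (r * α) ^ 2 + w ^ 2) (h1 : |α - l| ≤ δ / 4) (h2 : |w| ≤ δ * a')
    (h4 : a' + 2 * g ≤ r - l * t) (h5 : r - l * t ≤ a - 2 * g) :
    |N - l ^ 2| ≤ l * δ ∧ l * (a' + g) ≤ r * α - t * N ∧ r * α - t * N ≤ l * (a - g) := by
  obtain ⟨h1a, h1b⟩ := abs_le.1 h1
  have hη : 0 < η := by nlinarith
  have hδη' : 1000 * δ ≤ η := by nlinarith
  obtain ⟨b1, b2⟩ := ICold1_beta hδ ha hra hid h2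
  have c1 : α ^ 2 ≤ (l + δ / 4) ^ 2 := pow_le_pow_left₀ (by linarith) (by linarith) 2
  have c2 : (l - δ / 4) ^ 2 ≤ α ^ 2 := pow_le_pow_left₀ (by linarith) (by linarith) 2
  have c3 : δ * (1000 * δ) ≤ δ * l := by gcongr; linarith
  have c4 : 0 < l * δ := by positivity
  have h0 : |N - l ^ 2| ≤ l * δ := abs_le.2 ⟨by nlinarith, by nlinarith⟩
  have e1 : |r * (α - l)| ≤ δ / 4 := by
    rw [abs_mul, abs_of_nonneg (ha.le.trans hra)]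
    exact (mul_le_of_le_one_left (abs_nonneg _) hr1).trans h1
  have e2 : |t * (N - l ^ 2)| ≤ δ := by
    rw [abs_mul, abs_of_nonneg ht0]
    exact (mul_le_of_le_one_left (abs_nonneg _) ht1).trans (h0.trans (by nlinarith))
  obtain ⟨e1a, e1b⟩ := abs_le.1 e1
  obtain ⟨e2a, e2b⟩ := abs_le.1 e2
  have f1 := mul_le_mul_of_nonneg_left h4 hl.le
  have f2 := mul_le_mul_of_nonneg_left h5 hl.le
  exact ⟨h0, by nlinarith, by nlinarith⟩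

theorem ICold1_shift {j : ℕ} {s t : ℝ} {x : X} {v : V}
    (h : rr x + ‖vb ((s - t) • v)‖ < 1 / 2) :
    Bj P ϱ j s (x + pr ((s - t) • v)) v = Bj P ϱ j t x v := by
  have e := xt_add h
  have e1 : wd (x + pr ((s - t) • v)) v = wd x v := by
    unfold wd
    rw [e, PiLp.add_apply, PiLp.add_apply, vb_one, vb_two, PiLp.smul_apply, PiLp.smul_apply,
      smul_eq_mul, smul_eq_mul]
    ring
  have e2 : inner ℝ (xt (x + pr ((s - t) • v))) v - s * ‖vb v‖ ^ 2 =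
      inner ℝ (xt x) v - t * ‖vb v‖ ^ 2 := by
    rw [e, inner_add_left, vb_smul, real_inner_smul_left, plb_inner (vb v), vb_zero, vb_one,
      vb_two, norm_vb_sq]
    ring
  unfold Bj
  rw [e1, e2]

namespace Sm

variable (S : Sm P A ϱ)
include S

theorem ICold1_lam1 : P.lam ≤ 1 := S.ok.lam_le.trans (by norm_num)

theorem ICold1_de_et (j : ℕ) : 6 * de P ϱ j ^ 2 ≤ et P ϱ j ^ 2 := by
  have h1 := S.de_le j
  have h2 := S.de_pos j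
  have h3 := S.et_pos j
  have h4 : 1000 * de P ϱ j ≤ et P ϱ j := by nlinarith [S.ICold1_lam1]
  nlinarith

theorem supp_B {j : ℕ} {t : ℝ} (ht : t ∈ Icc 0 (TT P ϱ)) {x : X} {v : V}
    (h : Bj P ϱ j t x v ≠ 0) :
    Lay P ϱ j t x ∧ Zone P ϱ j t x ∧ Wf P (sg j) x v ≤ 6 * de P ϱ j ^ 2 ∧
      |inner ℝ v (xh x) - P.lam| ≤ 2 * de P ϱ j ∧ |wd x v| ≤ mm P ϱ j ∧
      |v 0 - sg j| ≤ de P ϱ j := by
  unfold Bj at h
  obtain ⟨⟨h1, h2, h3, h4, h5⟩, -⟩ := ite_ne_right_iff.1 h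
  have hid := wd_sq x v
  rw [ICold1_inner] at hid h4 h5
  obtain ⟨k1, k2, k3, k4⟩ := ICold1_real S.ok.lam0 S.ICold1_lam1 (S.de_pos j) (S.de_le j)
    (S.et_le j) (S.et_le_lam j) (S.ar_pos (j + 1))
    ((S.ar_le _).trans (S.rho_le'.trans (by norm_num))) (rr_nonneg x) (rr_le_one x) ht.1
    (ht.2.trans (S.TT_le.trans (by norm_num))) (by positivity) hid h1 h2 h4 h5
  have hz : Zone P ϱ j t x := by
    have := mul_nonneg (S.et_pos j).le ht.1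
    unfold Zone y0
    constructor <;> nlinarith
  refine ⟨S.Zone_lay ht hz, hz, ?_, k1, h2, h3⟩
  have := sq_le_sq' (abs_le.1 h3).1 (abs_le.1 h3).2
  unfold Wf
  linarith

theorem Bj_le (j : ℕ) (t : ℝ) (x : X) (v : V) : Bj P ϱ j t x v ≤ Am P ϱ j := by
  unfold Bj
  split_ifs
  exacts [le_rfl, (S.Am_pos j).le]

theorem Bj_full {j : ℕ} {t : ℝ} (ht : t ∈ Icc 0 (TT P ϱ)) {x : X} {v : V}
    (hF : Full P ϱ j t x) (h1 : |inner ℝ v (xh x) - P.lam| ≤ de P ϱ j / 4)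
    (h2 : |wd x v| ≤ mm P ϱ j) (h3 : |v 0 - sg j| ≤ de P ϱ j) : Bj P ϱ j t x v = Am P ϱ j := by
  have hid := wd_sq x v
  rw [ICold1_inner] at hid
  obtain ⟨k1, k2, k3⟩ := ICold1_full S.ok.lam0 S.ICold1_lam1 (S.de_pos j) (S.de_le j)
    (S.et_le j) (S.et_le_lam j) (S.ar_pos (j + 1)) (S.Lay_rr ht (S.FullR_lay hF)).1
    (rr_le_one x) ht.1 (ht.2.trans (S.TT_le.trans (by norm_num))) hid h1 h2 hF.1 hF.2
  unfold Bj
  rw [ICold1_inner, if_pos ⟨k1, h2, h3, k2, k3⟩]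

theorem supp_E {j : ℕ} {t : ℝ} (ht : t ∈ Icc 0 (TT P ϱ)) {x : X} {v : V}
    (h : Ej P ϱ j t x v ≠ 0) :
    Lay P ϱ j t x ∧ Zone P ϱ j t x ∧ Wf P (sg j) x v ≤ et P ϱ j ^ 2 := by
  classical
  unfold Ej at h
  obtain ⟨⟨h1, h2⟩, -⟩ := ite_ne_right_iff.1 h
  exact ⟨S.Zone_lay ht h2, h2, h1⟩

theorem ICold1_Ej_le (j : ℕ) (t : ℝ) (x : X) (v : V) : Ej P ϱ j t x v ≤
    1 / et P ϱ j ^ 3 * Real.exp (-Wf P (sg j) x v / (16 * de P ϱ j ^ 2)) := by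
  have := S.et_pos j
  unfold Ej
  split_ifs
  · exact le_rfl
  · positivity

theorem Ej_le (j : ℕ) (t : ℝ) (x : X) (v : V) : Ej P ϱ j t x v ≤ 1 / et P ϱ j ^ 3 := by
  have := S.et_pos j
  refine (S.ICold1_Ej_le j t x v).trans (mul_le_of_le_one_right (by positivity) ?_)
  exact Real.exp_le_one_iff.2 (div_nonpos_of_nonpos_of_nonneg
    (neg_nonpos.2 (Wf_nonneg S.ok _ _ _)) (by positivity))

theorem Bc_eq {j k : ℕ} (hj : j ≤ k) {t : ℝ} (ht : t ∈ Icc 0 (TT P ϱ)) {x : X}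
    (h : Lay P ϱ j t x) (v : V) : Bc P ϱ k t x v = Bj P ϱ j t x v := by
  refine Finset.sum_eq_single_of_mem j (Finset.mem_range.2 (Nat.lt_succ_of_le hj))
    fun i _ hi => ?_
  by_contra hc
  exact hi (S.LayR_unique (S.supp_B ht hc).1 h)

theorem Ec_eq {j k : ℕ} (hj : j ≤ k) {t : ℝ} (ht : t ∈ Icc 0 (TT P ϱ)) {x : X}
    (h : Lay P ϱ j t x) (v : V) : Ec P ϱ k t x v = Ej P ϱ j t x v := by
  refine Finset.sum_eq_single_of_mem j (Finset.mem_range.2 (Nat.lt_succ_of_le hj))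
    fun i _ hi => ?_
  by_contra hc
  exact hi (S.LayR_unique (S.supp_E ht hc).1 h)

theorem ICold1_Bc0 {k : ℕ} {t : ℝ} (ht : t ∈ Icc 0 (TT P ϱ)) {x : X} {v : V}
    (h : ¬ Cold P ϱ k t x v) : Bc P ϱ k t x v = 0 := by
  refine Finset.sum_eq_zero fun i hi => ?_
  by_contra hc
  obtain ⟨h1, -, h2, -⟩ := S.supp_B ht hc
  exact h ⟨i, Nat.le_of_lt_succ (Finset.mem_range.1 hi), h1, h2.trans (S.ICold1_de_et i)⟩

theorem Cc_eq_zero {k : ℕ} {t : ℝ} (ht : t ∈ Icc 0 (TT P ϱ)) {x : X} {v : V}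
    (h : ¬ Cold P ϱ k t x v) : Cc P ϱ k t x v = 0 := by
  unfold Cc
  rw [S.ICold1_Bc0 ht h, zero_add]
  refine Finset.sum_eq_zero fun i hi => ?_
  by_contra hc
  obtain ⟨h1, -, h2⟩ := S.supp_E ht hc
  exact h ⟨i, Nat.le_of_lt_succ (Finset.mem_range.1 hi), h1, h2⟩

theorem Bc_eq_zero {k : ℕ} {t : ℝ} (ht : t ∈ Icc 0 (TT P ϱ)) {x : X} {v : V}
    (h : ¬ Cold P ϱ k t x v) : Bc P ϱ k t x v = 0 :=
  S.ICold1_Bc0 ht h

theorem Cold_inL {k : ℕ} {t : ℝ} {x : X} {v : V} (h : Cold P ϱ k t x v) : InL P ϱ k t x := by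
  have _ := S.pos
  obtain ⟨j, hj, h1, -⟩ := h
  exact ⟨j, hj, h1⟩

theorem Cold_iff {j k : ℕ} (hj : j ≤ k) {t : ℝ} {x : X} (h : Lay P ϱ j t x) (v : V) :
    Cold P ϱ k t x v ↔ Wf P (sg j) x v ≤ et P ϱ j ^ 2 := by
  refine ⟨?_, fun h1 => ⟨j, hj, h, h1⟩⟩
  rintro ⟨i, -, h1, h2⟩
  rwa [S.LayR_unique h1 h] at h2

theorem Cold_norm {k : ℕ} {t : ℝ} {x : X} {v : V} (h : Cold P ϱ k t x v) :
    ‖v‖ ≤ 6 / 5 ∧ ‖vb v‖ ≤ 2 * P.lam := by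
  obtain ⟨j, -, -, h2⟩ := h
  have h3 := S.et_le_lam j
  have h4 := S.et_pos j
  have h5 := S.ICold1_lam1
  constructor
  · have h6 := norm_le_Wf S.ok (sg_cases j) x v
    have h7 := Real.sqrt_le_iff.2 ⟨h4.le, h2⟩
    linarith
  · have h6 := (abs_le_of_sq_le_sq' ((Wf_ge_vb S.ok (sg j) x v).trans h2) h4.le).2
    linarith

/-- Gaussian envelope of the cold part -/
theorem Cc_env {j k : ℕ} (hj : j ≤ k) {t : ℝ} (ht : t ∈ Icc 0 (TT P ϱ)) {x : X}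
    (h : Lay P ϱ j t x) (v : V) :
    Cc P ϱ k t x v ≤ 4 * Am P ϱ j * Real.exp (-Wf P (sg j) x v / (16 * de P ϱ j ^ 2)) ∧
      (Cc P ϱ k t x v ≠ 0 → Zone P ϱ j t x ∧ Wf P (sg j) x v ≤ et P ϱ j ^ 2) := by
  unfold Cc
  rw [S.Bc_eq hj ht h, S.Ec_eq hj ht h]
  constructor
  · have hA := S.Am_pos j
    have hd := S.de_pos j
    have he := Real.exp_pos (-Wf P (sg j) x v / (16 * de P ϱ j ^ 2))
    have h1 := (S.ICold1_Ej_le j t x v).trans (mul_le_mul_of_nonneg_right (S.inv_et_le j) he.le)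
    have h2 : Bj P ϱ j t x v ≤
        3 * Am P ϱ j * Real.exp (-Wf P (sg j) x v / (16 * de P ϱ j ^ 2)) := by
      by_cases hb : Bj P ϱ j t x v = 0
      · rw [hb]
        positivity
      · have h3 := (S.supp_B ht hb).2.2.1
        have h4 : -(3 / 8 : ℝ) ≤ -Wf P (sg j) x v / (16 * de P ϱ j ^ 2) := by
          rw [le_div_iff₀ (by positivity)]
          linarith
        have h5 := Real.add_one_le_exp (-Wf P (sg j) x v / (16 * de P ϱ j ^ 2))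
        refine (S.Bj_le j t x v).trans ?_
        nlinarith
    linarith
  · intro hc
    by_cases hb : Bj P ϱ j t x v = 0
    · rw [hb, zero_add] at hc
      exact (S.supp_E ht hc).2
    · obtain ⟨-, h1, h2, -⟩ := S.supp_B ht hb
      exact ⟨h1, h2.trans (S.ICold1_de_et j)⟩

theorem ICold1_free {j : ℕ} {s t : ℝ} (hs : s ∈ Icc 0 (TT P ϱ)) (ht : t ∈ Icc 0 (TT P ϱ)) {x : X}
    {v : V} (h : Bj P ϱ j t x v ≠ 0) :
    Bj P ϱ j s (x + pr ((s - t) • v)) v = Bj P ϱ j t x v := by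
  obtain ⟨h1, -, h2, -⟩ := S.supp_B ht h
  have h3 := (S.Cold_norm ⟨j, le_rfl, h1, h2.trans (S.ICold1_de_et j)⟩).2
  have h4 := (S.Lay_rr ht h1).2.1
  have h5 : |s - t| ≤ 1 / 10 ^ 9 :=
    abs_le.2 ⟨by linarith [hs.1, ht.2, S.TT_le], by linarith [hs.2, ht.1, S.TT_le]⟩
  refine ICold1_shift ?_
  rw [vb_smul, norm_smul, Real.norm_eq_abs]
  have h6 : |s - t| * ‖vb v‖ ≤ 1 / 10 ^ 9 * 2 :=
    mul_le_mul h5 (by linarith [S.ICold1_lam1]) (norm_nonneg _) (by norm_num)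
  linarith [S.rho_le']

theorem Bj_free (j : ℕ) {s t : ℝ} (hs : s ∈ Icc 0 (TT P ϱ)) (ht : t ∈ Icc 0 (TT P ϱ)) (x : X)
    (v : V) : Bj P ϱ j s (x + pr ((s - t) • v)) v = Bj P ϱ j t x v := by
  by_cases h : Bj P ϱ j t x v = 0
  · by_contra hc
    have h1 := S.ICold1_free ht hs (h ▸ hc)
    rw [bk_bk, sub_add_sub_cancel, sub_self, zero_smul, pr_zero, add_zero] at h1
    exact hc h1.symm
  · exact S.ICold1_free hs ht h

theorem Bc_free (k : ℕ) {s t : ℝ} (hs : s ∈ Icc 0 (TT P ϱ)) (ht : t ∈ Icc 0 (TT P ϱ)) (x : X)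
    (v : V) : Bc P ϱ k s (x + pr ((s - t) • v)) v = Bc P ϱ k t x v :=
  Finset.sum_congr rfl fun j _ => S.Bj_free j hs ht x v

theorem chi_cold {k : ℕ} {t : ℝ} (ht : t ∈ Icc 0 (TT P ϱ)) {x : X} {v : V}
    (h : chi P ϱ (t, (x, v)) ≠ 0) : Cc P ϱ k t x v = 0 := by
  classical
  unfold chi at h
  obtain ⟨⟨j, h1, h2⟩, -⟩ := ite_ne_right_iff.1 h
  refine S.Cc_eq_zero ht ?_
  rintro ⟨i, -, h3, h4⟩
  rw [S.LayR_unique h3 h1] at h4
  have h5 : et P ϱ j ^ 2 ≤ P.lam ^ 2 :=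
    pow_le_pow_left₀ (S.et_pos j).le (by linarith [S.et_le_lam j, S.et_pos j]) 2
  exact absurd h2 (not_lt.2 (h4.trans h5))

end Sm

end Vale.Agent.P140
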