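import Vale.Agent.P140.ICold1

/-! Velocity integrals of the cold gas and of the hot profile. -/

namespace Vale.Agent.P140

open MeasureTheory Set Filter Topology
open scoped ENNReal

variable {P : Par} {A : ℕ} {ϱ : ℝ}

/- PLAN. In a layer r > 0; use lintegral_frame with the orthonormal frame (x̂, e0, x̂⊥), x̂⊥ = (0, -x̂ 2, x̂ 1),
wd x v = r ⟪x̂⊥, v⟫. Upper box 4δ × 2δ × 2m/r gives 8 C0/r, lower box δ/2 × 2δ × 2m/r gives C0/r.
int_C_inv (w = v - u, S = Sg of the layer sign ≥ (W + η²)^{-1/2} when W < 1, rbar ≥ 1):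
|w| ≥ 2η: |q| ≥ |w|/2 on the support, 1/|w| ≤ 5 H/(1+|v|). |w| < 2η: E-part ≤ η⁻³ 7 (3η)² = 63/η ≤ 141 S;
B-part: |w| ≥ 6δ as before; |w| < 6δ: Am (2m/r) 7 (9δ) = 63 C0/(r δ) (lintegral_inv_disc in the two other coordinates),
1/δ ≤ 6.1 S; and 1 + |v| ≤ 3.2. -/

/-- the angular unit vector -/
noncomputable def ICold2_xp (x : X) : V := WithLp.toLp 2 ![0, -xh x 2, xh x 1]

theorem ICold2_wd (x : X) (v : V) : wd x v = rr x * inner ℝ v (ICold2_xp x) := by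
  unfold wd
  rw [plb_inner, xt_eq]
  simp [ICold2_xp]
  ring

theorem ICold2_frame {x : X} (hx : rr x ≠ 0) {F : ℝ × ℝ × ℝ → ℝ≥0∞} (hF : Measurable F) :
    ∫⁻ v : V, F (inner ℝ v (ICold2_xp x), inner ℝ v (xh x), v 0) = ∫⁻ p, F p := by
  have h1 := norm_xh hx
  have h2 : xh x 1 * xh x 1 + xh x 2 * xh x 2 = 1 := by
    have := plb_normsq (xh x)
    rw [h1, xh_zero] at this
    linarith
  have h3 : ‖ICold2_xp x‖ = 1 := by
    have := plb_normsq (ICold2_xp x)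
    refine (pow_eq_one_iff_of_nonneg (norm_nonneg _) two_ne_zero).1 ?_
    rw [this]
    simp [ICold2_xp]
    linarith
  have h4 : ‖e0‖ = 1 := by simp [e0]
  rw [lintegral_frame h3 h1 h4 (by simp [plb_inner, ICold2_xp]; ring)
    (by simp [plb_inner, ICold2_xp, e0]) (by simp [plb_inner, xh_zero, e0])
    (F := fun v : V => F (inner ℝ v (ICold2_xp x), inner ℝ v (xh x), v 0))
    (hF.comp (by fun_prop)), Measure.volume_eq_prod ℝ (ℝ × ℝ), lintegral_prod _ hF.aemeasurable]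
  refine lintegral_congr fun a => lintegral_congr fun z => congrArg F ?_
  refine Prod.ext ?_ (Prod.ext ?_ ?_)
  · simp [plb_inner, ICold2_xp, e0, xh_zero]
    linear_combination a * h2
  · simp [plb_inner, ICold2_xp, e0, xh_zero]
    linear_combination z.1 * h2
  · simp [ICold2_xp, e0, xh_zero]

theorem ICold2_box {x : X} (hx : 0 < rr x) (c : ℝ≥0∞) (l σ : ℝ) {m α β : ℝ} (hm : 0 ≤ m)
    (hα : 0 ≤ α) (_hβ : 0 ≤ β) :
    ∫⁻ v : V, (if |wd x v| ≤ m ∧ |inner ℝ v (xh x) - l| ≤ α ∧ |v 0 - σ| ≤ β then c else 0) =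
      c * ENNReal.ofReal (8 * (m / rr x) * α * β) := by
  have hs : MeasurableSet (Icc (-(m / rr x)) (m / rr x) ×ˢ
      (Icc (l - α) (l + α) ×ˢ Icc (σ - β) (σ + β))) :=
    measurableSet_Icc.prod (measurableSet_Icc.prod measurableSet_Icc)
  have h := ICold2_frame hx.ne' (F := (Icc (-(m / rr x)) (m / rr x) ×ˢ
      (Icc (l - α) (l + α) ×ˢ Icc (σ - β) (σ + β))).indicator fun _ => c)
    (measurable_const.indicator hs)
  rw [lintegral_indicator_const hs, Measure.volume_eq_prod, Measure.prod_prod,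
    Measure.volume_eq_prod, Measure.prod_prod, Real.volume_Icc, Real.volume_Icc, Real.volume_Icc,
    ← ENNReal.ofReal_mul (by linarith),
    ← ENNReal.ofReal_mul (by linarith [div_nonneg hm hx.le])] at h
  rw [show 8 * (m / rr x) * α * β =
    (m / rr x - -(m / rr x)) * ((l + α - (l - α)) * (σ + β - (σ - β))) by ring, ← h]
  refine lintegral_congr fun v => ?_
  rw [indicator_apply]
  refine if_congr ?_ rfl rfl
  rw [ICold2_wd, abs_mul, abs_of_pos hx, ← le_div_iff₀' hx]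
  simp only [mem_prod, mem_Icc, abs_le]
  refine and_congr Iff.rfl (and_congr ?_ ?_) <;> constructor <;> rintro ⟨_, _⟩ <;>
    constructor <;> linarith

theorem ICold2_far {f : V → ℝ≥0∞} {u v : V} {ρ : ℝ} (hs : ∀ p, f p ≠ 0 → ‖p - u‖ ≤ ρ)
    (h1 : 2 * ρ ≤ ‖v - u‖) (h0 : 0 < ‖v - u‖) :
    ∫⁻ q : V, (ENNReal.ofReal ‖q‖)⁻¹ * f (v - q) ≤ ENNReal.ofReal (2 / ‖v - u‖) * ∫⁻ p, f p := by
  rw [← lintegral_sub_left_eq_self f v, ← lintegral_const_mul' _ _ ENNReal.ofReal_ne_top]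
  refine lintegral_mono fun q => ?_
  by_cases h : f (v - q) = 0
  · simp [h]
  · have h2 := hs _ h
    have h3 := norm_add_le (v - q - u) q
    rw [show v - q - u + q = v - u by abel] at h3
    refine mul_le_mul_left ?_ _
    rw [← inv_div, ENNReal.ofReal_inv_of_pos (by positivity)]
    exact ENNReal.inv_le_inv.2 (ENNReal.ofReal_le_ofReal (by linarith))

theorem ICold2_slab {x : X} (hx : 0 < rr x) (v : V) {m R : ℝ} (hm : 0 ≤ m) (hR : 0 ≤ R) :
    ∫⁻ q : V, (if |wd x (v - q)| ≤ m ∧ ‖q‖ ≤ R then (ENNReal.ofReal ‖q‖)⁻¹ else 0) ≤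
      ENNReal.ofReal (2 * (m / rr x) * (7 * R)) := by
  set c := inner ℝ v (ICold2_xp x)
  have hg : Measurable fun z : ℝ × ℝ => if Real.sqrt (z.1 ^ 2 + z.2 ^ 2) ≤ R then
      (ENNReal.ofReal (Real.sqrt (z.1 ^ 2 + z.2 ^ 2)))⁻¹ else 0 :=
    Measurable.ite (measurableSet_le (by fun_prop) measurable_const) (by fun_prop) measurable_const
  have hi : Measurable ((Icc (c - m / rr x) (c + m / rr x)).indicator fun _ => (1 : ℝ≥0∞)) :=
    measurable_const.indicator measurableSet_Icc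
  have h := ICold2_frame hx.ne' (F := fun p =>
    (Icc (c - m / rr x) (c + m / rr x)).indicator (fun _ => (1 : ℝ≥0∞)) p.1 *
      if Real.sqrt (p.2.1 ^ 2 + p.2.2 ^ 2) ≤ R then
        (ENNReal.ofReal (Real.sqrt (p.2.1 ^ 2 + p.2.2 ^ 2)))⁻¹ else 0)
    ((hi.comp measurable_fst).mul (hg.comp measurable_snd))
  rw [Measure.volume_eq_prod ℝ (ℝ × ℝ), lintegral_prod_mul hi.aemeasurable hg.aemeasurable,
    lintegral_indicator_const measurableSet_Icc, one_mul, Real.volume_Icc] at h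
  rw [ENNReal.ofReal_mul (by positivity), show 2 * (m / rr x) = c + m / rr x - (c - m / rr x) by ring]
  refine le_trans ?_ (mul_le_mul_right (lintegral_inv_disc hR) _)
  rw [← h]
  refine lintegral_mono fun q => ?_
  dsimp only
  split_ifs with h1 h2
  · rw [ICold2_wd, abs_mul, abs_of_pos hx, ← le_div_iff₀' hx, inner_sub_left, abs_le] at h1
    rw [indicator_of_mem (show _ ∈ Icc _ _ from ⟨by linarith [h1.1.2], by linarith [h1.1.1]⟩),
      one_mul]
    refine ENNReal.inv_le_inv.2 (ENNReal.ofReal_le_ofReal (Real.sqrt_le_iff.2 ⟨norm_nonneg _, ?_⟩))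
    simpa [e0, plb_inner q (EuclideanSpace.single 0 1)] using plane_bessel (norm_xh hx.ne')
      (e2 := e0) (by simp [e0]) (by simp [plb_inner, xh_zero, e0]) q
  · refine absurd (le_trans (Real.sqrt_le_iff.2 ⟨norm_nonneg _, ?_⟩) h1.2) h2
    simpa [e0, plb_inner q (EuclideanSpace.single 0 1)] using plane_bessel (norm_xh hx.ne')
      (e2 := e0) (by simp [e0]) (by simp [plb_inner, xh_zero, e0]) q
  · exact zero_le
  · exact zero_le

namespace Sm

variable (S : Sm P A ϱ)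
include S

theorem int_Bj {j : ℕ} {t : ℝ} (ht : t ∈ Icc 0 (TT P ϱ)) (x : X) :
    ∫⁻ v, ENNReal.ofReal (Bj P ϱ j t x v) ≤ ENNReal.ofReal (8 * P.C0 / rr x) := by
  by_cases h : ∀ v, Bj P ϱ j t x v = 0
  · simp [h]
  push Not at h
  obtain ⟨v0, h0⟩ := h
  have hx : 0 < rr x := (S.ar_pos _).trans_le (S.Lay_rr ht (S.supp_B ht h0).1).1
  have hd := S.de_pos j
  have hm := S.mm_pos j
  have e : 8 * P.C0 / rr x =
      Am P ϱ j * (8 * (mm P ϱ j / rr x) * (2 * de P ϱ j) * de P ϱ j) := by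
    unfold Am
    field_simp
  rw [e, ENNReal.ofReal_mul (S.Am_pos j).le,
    ← ICold2_box hx _ P.lam (sg j) hm.le (by positivity) hd.le]
  refine lintegral_mono fun v => ?_
  by_cases hv : Bj P ϱ j t x v = 0
  · simp [hv]
  · obtain ⟨-, -, -, h1, h2, h3⟩ := S.supp_B ht hv
    dsimp only
    rw [if_pos ⟨h2, h1, h3⟩]
    exact ENNReal.ofReal_le_ofReal (S.Bj_le j t x v)

theorem ICold2_out {k : ℕ} {t : ℝ} (ht : t ∈ Icc 0 (TT P ϱ)) {x : X} (h : ¬ InL P ϱ k t x)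
    (v : V) : Bc P ϱ k t x v = 0 ∧ Ec P ϱ k t x v = 0 ∧ Cc P ϱ k t x v = 0 := by
  have h1 := S.Bc_eq_zero ht (v := v) fun hc => h (S.Cold_inL hc)
  have h2 := S.Cc_eq_zero ht (v := v) fun hc => h (S.Cold_inL hc)
  refine ⟨h1, ?_, h2⟩
  unfold Cc at h2
  rwa [h1, zero_add] at h2

omit S in
theorem ICold2_rbar {k : ℕ} {t : ℝ} {x : X} (h : InL P ϱ k t x) :
    rbar P ϱ k t x = P.C0 / rr x := by
  unfold rbar
  rw [if_pos h]

theorem int_B (k : ℕ) {t : ℝ} (ht : t ∈ Icc 0 (TT P ϱ)) (x : X) :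
    ∫⁻ v, eB P ϱ k t x v ≤ ENNReal.ofReal (8 * rbar P ϱ k t x) := by
  by_cases h : InL P ϱ k t x
  · rw [ICold2_rbar h, ← mul_div_assoc]
    obtain ⟨j, hj, h⟩ := h
    simp only [eB, S.Bc_eq hj ht h]
    exact S.int_Bj ht x
  · simp [eB, (S.ICold2_out ht h _).1]

theorem ICold2_suppE {j : ℕ} {t : ℝ} (ht : t ∈ Icc 0 (TT P ϱ)) {x : X} {v : V}
    (h : ENNReal.ofReal (Ej P ϱ j t x v) ≠ 0) : ‖v - uu P (sg j) x‖ ≤ et P ϱ j :=
  abs_le_of_sq_le_sq' ((norm_sub_uu_le _ x v).trans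
    (S.supp_E ht fun h0 => h (by rw [h0, ENNReal.ofReal_zero])).2.2) (S.et_pos j).le |>.2

theorem ICold2_suppB {j : ℕ} {t : ℝ} (ht : t ∈ Icc 0 (TT P ϱ)) {x : X} {v : V}
    (h : ENNReal.ofReal (Bj P ϱ j t x v) ≠ 0) :
    ‖v - uu P (sg j) x‖ ≤ 3 * de P ϱ j ∧ |wd x v| ≤ mm P ϱ j := by
  obtain ⟨-, -, h1, -, h2, -⟩ := S.supp_B ht fun h0 => h (by rw [h0, ENNReal.ofReal_zero])
  have hd := S.de_pos j
  exact ⟨(abs_le_of_sq_le_sq' ((norm_sub_uu_le _ x v).trans (h1.trans (by nlinarith)))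
    (by positivity)).2, h2⟩

theorem ICold2_intE {j : ℕ} {t : ℝ} (ht : t ∈ Icc 0 (TT P ϱ)) (x : X) :
    ∫⁻ v, ENNReal.ofReal (Ej P ϱ j t x v) ≤ 5 := by
  have he := S.et_pos j
  have h1 : ∀ v, ENNReal.ofReal (Ej P ϱ j t x v) ≤
      {v : V | ‖v - uu P (sg j) x‖ ≤ et P ϱ j}.indicator
        (fun _ => ENNReal.ofReal (1 / et P ϱ j ^ 3)) v := by
    intro v
    by_cases hv : ENNReal.ofReal (Ej P ϱ j t x v) = 0
    · rw [hv]
      exact zero_le
    · rw [indicator_of_mem (show v ∈ {v : V | ‖v - uu P (sg j) x‖ ≤ et P ϱ j} from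
        S.ICold2_suppE ht hv)]
      exact ENNReal.ofReal_le_ofReal (S.Ej_le j t x v)
  refine (lintegral_mono h1).trans ((lintegral_indicator_const_le _ _).trans ?_)
  refine (mul_le_mul_right (volume_ball_le _ he.le) _).trans ?_
  rw [← ENNReal.ofReal_mul (by positivity),
    show 1 / et P ϱ j ^ 3 * (5 * et P ϱ j ^ 3) = 5 by field_simp]
  norm_num

theorem int_E (k : ℕ) {t : ℝ} (ht : t ∈ Icc 0 (TT P ϱ)) (x : X) :
    ∫⁻ v, ENNReal.ofReal (Ec P ϱ k t x v) ≤ 5 := by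
  by_cases h : InL P ϱ k t x
  · obtain ⟨j, hj, h⟩ := h
    simp only [S.Ec_eq hj ht h]
    exact S.ICold2_intE ht x
  · simp [(S.ICold2_out ht h _).2.1]

theorem int_C (k : ℕ) {t : ℝ} (ht : t ∈ Icc 0 (TT P ϱ)) (x : X) :
    ∫⁻ v, eC P ϱ k t x v ≤ ENNReal.ofReal (13 * rbar P ϱ k t x) := by
  by_cases h : InL P ϱ k t x
  · have h1 := S.one_le_rbar ht h
    simp only [eC, Cc, ENNReal.ofReal_add (S.Bc_nonneg _ _ _ _) (S.Ec_nonneg _ _ _ _)]
    rw [lintegral_add_left (by fun_prop)]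
    refine (add_le_add (S.int_B k ht x) (S.int_E k ht x)).trans ?_
    rw [← ENNReal.ofReal_ofNat 5, ← ENNReal.ofReal_add (by positivity) (by norm_num)]
    exact ENNReal.ofReal_le_ofReal (by linarith)
  · simp [eC, (S.ICold2_out ht h _).2.2]

theorem int_B_lower {j k : ℕ} (hj : j ≤ k) {t : ℝ} (ht : t ∈ Icc 0 (TT P ϱ)) {x : X}
    (h : Full P ϱ j t x) : ENNReal.ofReal (P.C0 / rr x) ≤ ∫⁻ v, eB P ϱ k t x v := by
  have hL : Lay P ϱ j t x := S.FullR_lay h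
  have hx : 0 < rr x := (S.ar_pos _).trans_le (S.Lay_rr ht hL).1
  have hd := S.de_pos j
  have hm := S.mm_pos j
  have e : P.C0 / rr x =
      Am P ϱ j * (8 * (mm P ϱ j / rr x) * (de P ϱ j / 4) * de P ϱ j) := by
    unfold Am
    field_simp
    ring
  rw [e, ENNReal.ofReal_mul (S.Am_pos j).le,
    ← ICold2_box hx _ P.lam (sg j) hm.le (by positivity) hd.le]
  refine lintegral_mono fun v => ?_
  simp only [eB, S.Bc_eq hj ht hL]
  split_ifs with hv
  · rw [S.Bj_full ht h hv.2.1 hv.1 hv.2.2]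
  · exact zero_le

theorem ICold2_near {j : ℕ} (k : ℕ) {t : ℝ} (ht : t ∈ Icc 0 (TT P ϱ)) {x : X} (h : Lay P ϱ j t x)
    {v : V} {ρ : ℝ} (hρ : 0 < ρ) (h1 : ‖v - uu P (sg j) x‖ < 1)
    (h2 : ‖v - uu P (sg j) x‖ ^ 2 + de P ϱ k ^ 2 ≤ ρ ^ 2) :
    1 / ρ ≤ 31 / 10 * (Hh P ϱ k t x v / (1 + ‖v‖)) := by
  obtain ⟨r1, r2, -⟩ := S.Lay_rr ht h
  have hW := Wf_eq (P := P) (sg j) ((S.ar_pos _).trans_le r1).ne' v
  have hd := S.de_pos k
  have h3 : 1 / ρ ≤ Sg P ϱ k (sg j) t x v := by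
    unfold Sg
    rw [hW, if_pos ⟨by linarith [ht.1], by nlinarith [norm_nonneg (v - uu P (sg j) x)]⟩]
    exact one_div_le_one_div_of_le (Real.sqrt_pos.2 (by positivity))
      (Real.sqrt_le_iff.2 ⟨hρ.le, h2⟩)
  have h4 : Sg P ϱ k (sg j) t x v ≤ Hh P ϱ k t x v := by
    have a1 := S.Sg_nonneg k 1 t x v
    have a2 := S.Sg_nonneg k (-1) t x v
    unfold Hh
    rcases sg_cases j with e | e <;> rw [e] <;> linarith
  have h5 := norm_le_norm_sub_add v (uu P (sg j) x)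
  have h6 := norm_uu_le S.ok (sg_cases j) x
  have h7 := S.one_le_Hh k t x v
  refine (h3.trans h4).trans ?_
  rw [← mul_div_assoc, le_div_iff₀ (by positivity)]
  nlinarith

theorem ICold2_inv {j : ℕ} (k : ℕ) {t : ℝ} (ht : t ∈ Icc 0 (TT P ϱ)) {x : X} (h : Lay P ϱ j t x)
    {v : V} (h1 : de P ϱ k ≤ ‖v - uu P (sg j) x‖) :
    2 / ‖v - uu P (sg j) x‖ ≤ 10 * (Hh P ϱ k t x v / (1 + ‖v‖)) := by
  have hd := S.de_pos k
  have h0 := hd.trans_le h1
  have h7 := S.one_le_Hh k t x v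
  rcases lt_or_ge ‖v - uu P (sg j) x‖ 1 with h2 | h2
  · have h3 := S.ICold2_near k ht h (ρ := 3 / 2 * ‖v - uu P (sg j) x‖) (by positivity) h2
      (by nlinarith)
    have h4 : 0 ≤ Hh P ϱ k t x v / (1 + ‖v‖) := by positivity
    rw [show 2 / ‖v - uu P (sg j) x‖ = 3 * (1 / (3 / 2 * ‖v - uu P (sg j) x‖)) by field_simp]
    linarith
  · have h5 := norm_le_norm_sub_add v (uu P (sg j) x)
    have h6 := norm_uu_le S.ok (sg_cases j) x
    rw [← mul_div_assoc, div_le_div_iff₀ h0 (by positivity)]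
    nlinarith

theorem ICold2_invE {j k : ℕ} (hj : j ≤ k) {t : ℝ} (ht : t ∈ Icc 0 (TT P ϱ)) {x : X}
    (h : Lay P ϱ j t x) (v : V) :
    ∫⁻ q : V, (ENNReal.ofReal ‖q‖)⁻¹ * ENNReal.ofReal (Ej P ϱ j t x (v - q)) ≤
      ENNReal.ofReal (600 * (Hh P ϱ k t x v / (1 + ‖v‖))) := by
  have he := S.et_pos j
  have hd := S.de_pos k
  have h7 := S.one_le_Hh k t x v
  have h4 : 0 ≤ Hh P ϱ k t x v / (1 + ‖v‖) := by positivity
  have hde : de P ϱ k ≤ et P ϱ j := by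
    nlinarith [S.de_anti hj, S.de_le j, S.ICold1_lam1]
  rcases le_or_gt (2 * et P ϱ j) ‖v - uu P (sg j) x‖ with h1 | h1
  · refine (ICold2_far (f := fun p => ENNReal.ofReal (Ej P ϱ j t x p))
      (fun p hp => S.ICold2_suppE ht hp) h1 (by linarith)).trans ?_
    refine (mul_le_mul' (ENNReal.ofReal_le_ofReal (S.ICold2_inv k ht h (by linarith)))
      (S.ICold2_intE ht x)).trans ?_
    rw [← ENNReal.ofReal_ofNat 5, ← ENNReal.ofReal_mul (by positivity)]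
    exact ENNReal.ofReal_le_ofReal (by linarith)
  · have h2 : ∀ q : V, (ENNReal.ofReal ‖q‖)⁻¹ * ENNReal.ofReal (Ej P ϱ j t x (v - q)) ≤
        ENNReal.ofReal (1 / et P ϱ j ^ 3) *
          if ‖q‖ ≤ 3 * et P ϱ j then (ENNReal.ofReal ‖q‖)⁻¹ else 0 := by
      intro q
      by_cases hq : ENNReal.ofReal (Ej P ϱ j t x (v - q)) = 0
      · rw [hq, mul_zero]
        exact zero_le
      · have a1 := S.ICold2_suppE ht hq
        have a2 := norm_sub_le (v - uu P (sg j) x) (v - q - uu P (sg j) x)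
        rw [show v - uu P (sg j) x - (v - q - uu P (sg j) x) = q by abel] at a2
        rw [if_pos (by linarith), mul_comm]
        exact mul_le_mul_left (ENNReal.ofReal_le_ofReal (S.Ej_le j t x _)) _
    refine (lintegral_mono h2).trans ?_
    rw [lintegral_const_mul' _ _ ENNReal.ofReal_ne_top]
    refine (mul_le_mul_right (lintegral_inv_ball (by positivity)) _).trans ?_
    rw [← ENNReal.ofReal_mul (by positivity)]
    refine ENNReal.ofReal_le_ofReal ?_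
    have h3 := S.ICold2_near k ht h (v := v) (ρ := 3 * et P ϱ j) (by positivity)
      (by linarith [S.et_le_lam j, S.ICold1_lam1])
      (by nlinarith [norm_nonneg (v - uu P (sg j) x)])
    rw [show 1 / et P ϱ j ^ 3 * (7 * (3 * et P ϱ j) ^ 2) = 189 * (1 / (3 * et P ϱ j)) by
      field_simp; norm_num]
    linarith

theorem ICold2_invB {j k : ℕ} (hj : j ≤ k) {t : ℝ} (ht : t ∈ Icc 0 (TT P ϱ)) {x : X}
    (h : Lay P ϱ j t x) (v : V) :
    ∫⁻ q : V, (ENNReal.ofReal ‖q‖)⁻¹ * ENNReal.ofReal (Bj P ϱ j t x (v - q)) ≤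
      ENNReal.ofReal (1400 * (P.C0 / rr x) * (Hh P ϱ k t x v / (1 + ‖v‖))) := by
  have hx : 0 < rr x := (S.ar_pos _).trans_le (S.Lay_rr ht h).1
  have he := S.de_pos j
  have hd := S.de_pos k
  have hm := S.mm_pos j
  have h7 := S.one_le_Hh k t x v
  have h4 : 0 ≤ Hh P ϱ k t x v / (1 + ‖v‖) := by positivity
  have hC : 0 ≤ P.C0 / rr x := div_nonneg (by linarith [S.ok.C0]) hx.le
  have hde := S.de_anti hj
  rcases le_or_gt (2 * (3 * de P ϱ j)) ‖v - uu P (sg j) x‖ with h1 | h1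
  · refine (ICold2_far (f := fun p => ENNReal.ofReal (Bj P ϱ j t x p))
      (fun p hp => (S.ICold2_suppB ht hp).1) h1 (by linarith)).trans ?_
    refine (mul_le_mul' (ENNReal.ofReal_le_ofReal (S.ICold2_inv k ht h (by linarith)))
      (S.int_Bj ht x)).trans ?_
    rw [← ENNReal.ofReal_mul (by positivity), mul_div_assoc]
    exact ENNReal.ofReal_le_ofReal (by nlinarith [mul_nonneg hC h4])
  · have h2 : ∀ q : V, (ENNReal.ofReal ‖q‖)⁻¹ * ENNReal.ofReal (Bj P ϱ j t x (v - q)) ≤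
        ENNReal.ofReal (Am P ϱ j) * if |wd x (v - q)| ≤ mm P ϱ j ∧ ‖q‖ ≤ 9 * de P ϱ j then
          (ENNReal.ofReal ‖q‖)⁻¹ else 0 := by
      intro q
      by_cases hq : ENNReal.ofReal (Bj P ϱ j t x (v - q)) = 0
      · rw [hq, mul_zero]
        exact zero_le
      · obtain ⟨a1, a3⟩ := S.ICold2_suppB ht hq
        have a2 := norm_sub_le (v - uu P (sg j) x) (v - q - uu P (sg j) x)
        rw [show v - uu P (sg j) x - (v - q - uu P (sg j) x) = q by abel] at a2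
        rw [if_pos ⟨a3, by linarith⟩, mul_comm]
        exact mul_le_mul_left (ENNReal.ofReal_le_ofReal (S.Bj_le j t x _)) _
    refine (lintegral_mono h2).trans ?_
    rw [lintegral_const_mul' _ _ ENNReal.ofReal_ne_top]
    refine (mul_le_mul_right (ICold2_slab hx v hm.le (by positivity)) _).trans ?_
    rw [← ENNReal.ofReal_mul (S.Am_pos j).le]
    refine ENNReal.ofReal_le_ofReal ?_
    have hde' : 1000 * de P ϱ j ≤ 1 := by
      nlinarith [S.de_le j, S.ICold1_lam1, S.et_le_lam j, S.et_pos j]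
    have h3 := S.ICold2_near k ht h (v := v) (ρ := 7 * de P ϱ j) (by positivity) (by linarith)
      (by nlinarith [norm_nonneg (v - uu P (sg j) x)])
    rw [show Am P ϱ j * (2 * (mm P ϱ j / rr x) * (7 * (9 * de P ϱ j))) =
      441 * (P.C0 / rr x) * (1 / (7 * de P ϱ j)) by unfold Am; field_simp; ring]
    nlinarith [mul_le_mul_of_nonneg_left h3 hC, mul_nonneg hC h4]

theorem int_C_inv (k : ℕ) {t : ℝ} (ht : t ∈ Icc 0 (TT P ϱ)) (x : X) (v : V) :
    ∫⁻ q : V, (ENNReal.ofReal ‖q‖)⁻¹ * eC P ϱ k t x (v - q) ≤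
      ENNReal.ofReal (2000 * rbar P ϱ k t x * Hh P ϱ k t x v / (1 + ‖v‖)) := by
  by_cases h : InL P ϱ k t x
  · have h1 := S.one_le_rbar ht h
    rw [ICold2_rbar h] at h1 ⊢
    obtain ⟨j, hj, h⟩ := h
    have h7 := S.one_le_Hh k t x v
    have h4 : 0 ≤ Hh P ϱ k t x v / (1 + ‖v‖) := by positivity
    simp only [eC, Cc, S.Bc_eq hj ht h, S.Ec_eq hj ht h,
      ENNReal.ofReal_add (S.Bj_nonneg _ _ _ _) (S.Ej_nonneg _ _ _ _), mul_add]
    rw [lintegral_add_left (by fun_prop)]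
    refine (add_le_add (S.ICold2_invB hj ht h v) (S.ICold2_invE hj ht h v)).trans ?_
    rw [← ENNReal.ofReal_add (by positivity) (by positivity), mul_div_assoc]
    exact ENNReal.ofReal_le_ofReal (by nlinarith)
  · simp [eC, (S.ICold2_out ht h _).2.2]

theorem Pl_C (k : ℕ) {t : ℝ} (ht : t ∈ Icc 0 (TT P ϱ)) {x : X} (h : InL P ϱ k t x) (v : V)
    {q : V} (hq : q ≠ 0) :
    Pl q (fun p => eC P ϱ k t x (v - p)) ≤ ENNReal.ofReal (8 * P.C0 / y0 P t x ^ 15) := by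
  obtain ⟨j, hj, h⟩ := h
  have he := S.et_pos j
  have hA := S.Am_pos j
  have ha := S.ar_pos j
  have h1 : ∀ p : V, eC P ϱ k t x (v - p) ≤ ENNReal.ofReal (2 * Am P ϱ j) *
      if ‖v - uu P (sg j) x - p‖ ≤ et P ϱ j then 1 else 0 := by
    intro p
    by_cases hp : Cc P ϱ k t x (v - p) = 0
    · simp [eC, hp]
    · have a1 := (abs_le_of_sq_le_sq' ((norm_sub_uu_le _ x _).trans
        ((S.Cc_env hj ht h _).2 hp).2) he.le).2
      rw [sub_right_comm] at a1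
      rw [if_pos a1, mul_one]
      refine ENNReal.ofReal_le_ofReal ?_
      unfold Cc
      rw [S.Bc_eq hj ht h, S.Ec_eq hj ht h]
      linarith [S.Bj_le j t x (v - p), S.Ej_le j t x (v - p), S.inv_et_le j]
  refine (Pl_mono hq fun p _ => h1 p).trans ?_
  rw [Pl_const_mul q (Measurable.ite (measurableSet_le (by fun_prop) measurable_const)
    measurable_const measurable_const)]
  refine (mul_le_mul_right (Pl_disc hq _ he.le) _).trans ?_
  rw [← ENNReal.ofReal_mul (by positivity)]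
  refine ENNReal.ofReal_le_ofReal ?_
  have hy : 0 < y0 P t x := (S.ar_pos _).trans_le h.1
  have hC : 0 ≤ P.C0 := by linarith [S.ok.C0]
  calc 2 * Am P ϱ j * (4 * et P ϱ j ^ 2) ≤ 2 * (P.C0 / ar P ϱ j ^ 37) * (4 * et P ϱ j ^ 2) := by
        gcongr
        exact S.Am_le j
    _ = 8 * P.C0 / ar P ϱ j ^ 15 := by
        unfold et
        field_simp
        ring
    _ ≤ 8 * P.C0 / y0 P t x ^ 15 := by
        gcongr
        exact h.2.le

end Sm

/-- the weight -/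
noncomputable def ICold2_Ph (v : V) : ℝ := (1 + ‖v‖) ^ 2 * Real.exp (-(1 / 2) * ‖v‖ ^ 2 + 1 * ‖v‖)

theorem ICold2_Ph_nonneg (v : V) : 0 ≤ ICold2_Ph v := by
  unfold ICold2_Ph
  positivity

theorem ICold2_Ph_le (v : V) : ICold2_Ph v ≤ Real.exp (9 / 2) := by
  unfold ICold2_Ph
  have h0 := norm_nonneg v
  generalize ‖v‖ = s at h0
  have h1 : (1 + s) ^ 2 ≤ Real.exp s ^ 2 :=
    pow_le_pow_left₀ (by linarith) (by linarith [Real.add_one_le_exp s]) 2
  refine (mul_le_mul_of_nonneg_right h1 (Real.exp_pos _).le).trans ?_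
  rw [← Real.exp_nat_mul, ← Real.exp_add]
  refine Real.exp_le_exp.2 ?_
  push_cast
  nlinarith [sq_nonneg (s - 3)]

theorem ICold2_PhH (S : Sm P A ϱ) (k : ℕ) (t : ℝ) (x : X) :
    ∫⁻ v, ENNReal.ofReal (ICold2_Ph v * Hh P ϱ k t x v) ≤
      ENNReal.ofReal (1 + (∫ v, ICold2_Ph v) + 14 * Real.exp (9 / 2)) := by
  have hi : Integrable ICold2_Ph := integrable_gauss_moment 2 1 (b := 1 / 2) (by norm_num)
  have hS : ∀ σ : ℝ, ∫⁻ v, ENNReal.ofReal (ICold2_Ph v * Sg P ϱ k σ t x v) ≤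
      ENNReal.ofReal (7 * Real.exp (9 / 2)) := by
    intro σ
    rw [mul_comm, ENNReal.ofReal_mul (Real.exp_pos _).le, ENNReal.ofReal_ofNat]
    refine le_trans ?_ (mul_le_mul_right (lintegral_inv_ball' (uu P σ x)) _)
    rw [← lintegral_const_mul' _ _ ENNReal.ofReal_ne_top]
    refine lintegral_mono fun v => ?_
    rw [ENNReal.ofReal_mul (ICold2_Ph_nonneg v)]
    exact mul_le_mul' (ENNReal.ofReal_le_ofReal (ICold2_Ph_le v)) (Sg_le S k σ t x v)
  have hm : Measurable ICold2_Ph := by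
    unfold ICold2_Ph
    fun_prop
  have hJ : 0 ≤ ∫ v, ICold2_Ph v := integral_nonneg ICold2_Ph_nonneg
  have he := Real.exp_pos (9 / 2)
  have h1 : ∀ v, ENNReal.ofReal (ICold2_Ph v * Hh P ϱ k t x v) ≤ ENNReal.ofReal (ICold2_Ph v) +
      ENNReal.ofReal (ICold2_Ph v * Sg P ϱ k 1 t x v) +
      ENNReal.ofReal (ICold2_Ph v * Sg P ϱ k (-1) t x v) := by
    intro v
    unfold Hh
    rw [mul_add, mul_add, mul_one]
    exact ENNReal.ofReal_add_le.trans (add_le_add ENNReal.ofReal_add_le le_rfl)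
  refine (lintegral_mono h1).trans ?_
  rw [lintegral_add_left (by fun_prop), lintegral_add_left (by fun_prop),
    ← ofReal_integral_eq_lintegral_ofReal hi (Eventually.of_forall ICold2_Ph_nonneg)]
  refine (add_le_add (add_le_add le_rfl (hS 1)) (hS (-1))).trans ?_
  rw [← ENNReal.ofReal_add hJ (by positivity), ← ENNReal.ofReal_add (by positivity) (by positivity)]
  exact ENNReal.ofReal_le_ofReal (by linarith)

theorem ICold2_gam (S : Sm P A ϱ) (k m : ℕ) {t : ℝ} (ht : t ∈ Icc 0 (TT P ϱ)) (x : X) (v : V)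
    {c d : ℝ} (hc : 0 ≤ c) (h1 : Yy P ϱ k A t x v ^ m ≤ c * Real.exp ‖v‖)
    (h2 : Real.exp (-‖v‖ ^ 2 / 2) ≤ d) :
    ENNReal.ofReal ((1 + ‖v‖) ^ 2 * gam P ϱ k A m t x v) ≤
      ENNReal.ofReal (c * d) * ENNReal.ofReal (ICold2_Ph v * Hh P ϱ k t x v) := by
  have hd : 0 ≤ d := (Real.exp_pos _).le.trans h2
  rw [← ENNReal.ofReal_mul (by positivity)]
  refine ENNReal.ofReal_le_ofReal ?_
  have h3 := S.one_le_Hh k t x v
  have h4 : Gs P ϱ t v ≤ d * Real.exp (-‖v‖ ^ 2 / 2) := by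
    refine (S.Gs_le ht.2 v).trans (le_trans (le_of_eq ?_)
      (mul_le_mul_of_nonneg_right h2 (Real.exp_pos _).le))
    rw [← Real.exp_add]
    congr 1
    ring
  have h5 : 0 ≤ Gs P ϱ t v := (Real.exp_pos _).le
  have e : Real.exp (-(1 / 2) * ‖v‖ ^ 2 + 1 * ‖v‖) = Real.exp ‖v‖ * Real.exp (-‖v‖ ^ 2 / 2) := by
    rw [← Real.exp_add]
    congr 1
    ring
  unfold gam ICold2_Ph
  rw [e]
  calc _ ≤ (1 + ‖v‖) ^ 2 * (c * Real.exp ‖v‖ * Hh P ϱ k t x v * (d * Real.exp (-‖v‖ ^ 2 / 2))) := by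
        gcongr
    _ = _ := by ring

theorem exists_gam_int : ∃ K : ℝ, 1 ≤ K ∧ ∀ (P : Par) (A : ℕ) (ϱ : ℝ), Sm P A ϱ →
    ∀ (k m : ℕ), m ≤ A → ∀ t ∈ Icc 0 (TT P ϱ), ∀ x : X,
      ∫⁻ v, ENNReal.ofReal ((1 + ‖v‖) ^ 2 * gam P ϱ k A m t x v) ≤ ENNReal.ofReal K ∧
      ∫⁻ v, ENNReal.ofReal ((1 + ‖v‖) ^ 2 * gam P ϱ k A m t x v) ≤
        ENNReal.ofReal (K * (rr x + ar P ϱ (k + 1) + t * A) ^ m) ∧
      ∀ b : ℝ, 0 ≤ b →
        ∫⁻ v in {v : V | b ≤ ‖v‖ ^ 2}, ENNReal.ofReal ((1 + ‖v‖) ^ 2 * gam P ϱ k A m t x v) ≤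
          ENNReal.ofReal (K * Real.exp (-b / 2)) := by
  have hJ : 0 ≤ ∫ v, ICold2_Ph v := integral_nonneg ICold2_Ph_nonneg
  have he := Real.exp_pos (9 / 2)
  refine ⟨1 + (∫ v, ICold2_Ph v) + 14 * Real.exp (9 / 2), by linarith,
    fun P A ϱ S k m hm t ht x => ?_⟩
  have hK := ICold2_PhH S k t x
  have hY : ∀ v, Yy P ϱ k A t x v ^ m ≤ 1 * Real.exp ‖v‖ := fun v => by
    rw [one_mul]
    exact (pow_le_one₀ (S.Yy_pos k ht.1 x v).le (Yy_le_one k t x v)).trans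
      (Real.one_le_exp (norm_nonneg v))
  have hG : ∀ v : V, Real.exp (-‖v‖ ^ 2 / 2) ≤ 1 := fun v =>
    Real.exp_le_one_iff.2 (by linarith [sq_nonneg ‖v‖])
  have hR : 0 ≤ (rr x + ar P ϱ (k + 1) + t * A) ^ m := by
    have := rr_nonneg x
    have := S.ar_pos (k + 1)
    have := ht.1
    positivity
  refine ⟨?_, ?_, fun b _ => ?_⟩
  · refine (lintegral_mono fun v => ICold2_gam S k m ht x v zero_le_one (hY v) (hG v)).trans ?_
    simpa using hK
  · refine (lintegral_mono fun v =>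
      ICold2_gam S k m ht x v hR (S.Yy_pow_le k hm ht.1 x v) (hG v)).trans ?_
    rw [lintegral_const_mul' _ _ ENNReal.ofReal_ne_top, mul_one, mul_comm (_ + _),
      ENNReal.ofReal_mul hR]
    exact mul_le_mul_right hK _
  · refine (setLIntegral_mono' (measurableSet_le measurable_const (by fun_prop))
      fun v hv => ICold2_gam S k m ht x v zero_le_one (hY v) (d := Real.exp (-b / 2))
        (Real.exp_le_exp.2 (by linarith [show b ≤ ‖v‖ ^ 2 from hv]))).trans ?_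
    refine (setLIntegral_le_lintegral _ _).trans ?_
    rw [lintegral_const_mul' _ _ ENNReal.ofReal_ne_top, one_mul, mul_comm (_ + _),
      ENNReal.ofReal_mul (Real.exp_pos _).le]
    exact mul_le_mul_right hK _

end Vale.Agent.P140
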