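import Vale.Agent.P140.IGeo

/-! Two smoothing steps turn the energy bound into a pointwise bound. -/

namespace Vale.Agent.P140

open MeasureTheory Set Filter Topology
open scoped ENNReal

open Classical

/- PLAN. Let Y = Yy t x v, ρ = 4 Y, ρ' = min (4 Y) (ϱ (2 + A/lam)) ≤ 1/4. Fix a good time s (y = x + (s-t) v, κ1 Y ≤ y0 s y ≤ rr y).
For GG y u: Yy s y u ≥ rr y ≥ κ1 Y (rr_le_Yy), so in the inner SM the factor is ≤ (κ1 Y)^-15 and s - s' ≥ κ1² Y. Let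
Φ s' y' = if rr y' + A s' ≤ ρ' then ∫ 1_GG f else 0; the inner points y' = y + (s'-s) u satisfy rr y' + A s' ≤ rr x + A t ≤ 2 Y
(rr_add_le, ‖u‖, ‖v‖ < A, At_le_Yy) and ≤ ϱ (2 + A/lam) (InL, Lay_rr). Swap ∫ du and ∫ ds', lintegral_vel_pos with σ = s - s'
(A_TT): ≤ (κ1² Y)^-3 ∫ Φ. On GG ee ρ' ≥ κ⁴, so ∫ Φ s' ≤ κ^-4 EE ρ' s' ≤ κ^-4 (4Y)^64 Xv. Both time integrals have length ≤ t ≤ Y.
Total ≤ K Xv Y^33, and gam 33 ≥ Y^33 exp(-2 A²) (one_le_Hh, G0_le_Gs). -/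

theorem imm_phi {P : Par} (A : ℕ) {κ : ℝ} (hκ : 0 < κ) (hκc : κ ≤ P.c ^ 2) {f : ℝ → Om → ℝ}
    (hf : Measurable (Function.uncurry f)) (ρ s : ℝ) :
    ∫⁻ y, (if rr y + A * s ≤ ρ then
      ∫⁻ u, (if GG P A κ y u then ENNReal.ofReal (f s (y, u)) else 0) else 0) ≤
      ENNReal.ofReal (1 / κ ^ 4) * EE P A f ρ s := by
  have hm : Measurable fun z : Om => ENNReal.ofReal (f s z) * ENNReal.ofReal (ee P A ρ s z.1 z.2) :=
    (hf.of_uncurry_left.ennreal_ofReal).mul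
      (measurable_ee P A ρ measurable_const measurable_fst measurable_snd).ennreal_ofReal
  unfold EE
  rw [lintegral_Om hm, ← lintegral_const_mul' _ _ ENNReal.ofReal_ne_top]
  refine lintegral_mono fun y => ?_
  beta_reduce
  split_ifs with hy
  · rw [← lintegral_const_mul' _ _ ENNReal.ofReal_ne_top]
    refine lintegral_mono fun u => ?_
    beta_reduce
    split_ifs with hu
    · have h1 : κ ^ 4 ≤ ee P A ρ s y u := by
        unfold ee
        rw [if_pos ⟨hy, hu.1⟩]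
        exact pow_le_pow_left₀ hκ.le (le_min (le_min hu.2.2.1 hu.2.2.2) hκc) 4
      have h2 : 1 ≤ ENNReal.ofReal (1 / κ ^ 4) * ENNReal.ofReal (ee P A ρ s y u) := by
        rw [← ENNReal.ofReal_mul (by positivity), ← ENNReal.ofReal_one]
        refine ENNReal.ofReal_le_ofReal ?_
        rw [one_div, inv_mul_eq_div, one_le_div (by positivity)]
        exact h1
      rw [mul_left_comm]
      exact le_mul_of_one_le_right' h2
    · exact zero_le
  · exact zero_le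

theorem imm_const {t : ℝ} {g : ℝ → ℝ≥0∞} {M : ℝ≥0∞} {Y : ℝ} (ht : t ≤ Y)
    (h : ∀ s ∈ Ioc 0 t, g s ≤ M) : ∫⁻ s in Ioc 0 t, g s ≤ M * ENNReal.ofReal Y := by
  refine (setLIntegral_mono' measurableSet_Ioc h).trans ?_
  rw [setLIntegral_const, Real.volume_Ioc, sub_zero]
  exact mul_le_mul_right (ENNReal.ofReal_le_ofReal ht) M

theorem imm_inner {P : Par} {A : ℕ} {ϱ : ℝ} (S : Sm P A ϱ) (k : ℕ) {κ κ1 Y : ℝ} (h0 : 0 < κ1)
    (hY : 0 < Y) {F : ℝ → X → V → ℝ≥0∞}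
    (hF : Measurable fun p : ℝ × X × V => F p.1 p.2.1 p.2.2) {s : ℝ} (hs : s ∈ Icc 0 (TT P ϱ))
    (hsY : s ≤ Y) {y : X} (hy : κ1 * Y ≤ rr y) (hy2 : rr y + A * s ≤ 4 * Y) {M : ℝ≥0∞}
    (hM : ∀ s' ∈ Ioc 0 s,
      ∫⁻ y', (if rr y' + A * s' ≤ min (4 * Y) (1 / 4) then ∫⁻ u, F s' y' u else 0) ≤ M) :
    ∫⁻ u, (if GG P A κ y u then SM P ϱ k A κ1 F s y u else 0) ≤
      ENNReal.ofReal (1 / (κ1 * Y) ^ 15) * (ENNReal.ofReal (1 / (κ1 * (κ1 * Y)) ^ 3) * M) *
        ENNReal.ofReal Y := by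
  obtain ⟨Φ, hΦ⟩ : ∃ Φ : ℝ × X → ℝ≥0∞, Φ = fun p =>
    if rr p.2 + A * p.1 ≤ min (4 * Y) (1 / 4) then ∫⁻ u, F p.1 p.2 u else 0 := ⟨_, rfl⟩
  have hΦm : Measurable Φ := by
    rw [hΦ]
    refine Measurable.ite (measurableSet_le ((measurable_rr.comp measurable_snd).add
      (measurable_const.mul measurable_fst)) measurable_const) ?_ measurable_const
    exact Measurable.lintegral_prod_right' (f := fun q : (ℝ × X) × V => F q.1.1 q.1.2 q.2)
      (hF.comp (f := fun q : (ℝ × X) × V => ((q.1.1, q.1.2, q.2) : ℝ × X × V))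
        (measurable_fst.fst.prodMk (measurable_fst.snd.prodMk measurable_snd)))
  have hA := S.igeo_A
  have hAT := S.A_TT
  have hr := S.rho_le'
  have hkY : 0 < κ1 * Y := by positivity
  have hk2 : 0 < κ1 * (κ1 * Y) := by positivity
  obtain ⟨c, hc⟩ : ∃ c, c = ENNReal.ofReal (1 / (κ1 * Y) ^ 15) := ⟨_, rfl⟩
  rw [← hc]
  have hG : Measurable fun q : V × ℝ => if q.2 ≤ s - κ1 * (κ1 * Y) then
      c * (if ‖q.1‖ < A then Φ (q.2, y + pr ((q.2 - s) • q.1)) else 0) else 0 := by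
    refine Measurable.ite (measurableSet_le measurable_snd measurable_const)
      (Measurable.const_mul (Measurable.ite (measurableSet_lt measurable_fst.norm measurable_const)
        ?_ measurable_const) c) measurable_const
    exact hΦm.comp (f := fun q : V × ℝ => ((q.2, y + pr ((q.2 - s) • q.1)) : ℝ × X))
      (measurable_snd.prodMk (measurable_const.add
        (measurable_pr.comp ((measurable_snd.sub measurable_const).smul measurable_fst))))
  have h1 : ∀ u : V, (if GG P A κ y u then SM P ϱ k A κ1 F s y u else 0) ≤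
      ∫⁻ s' in Ioc 0 s, if s' ≤ s - κ1 * (κ1 * Y) then
        c * (if ‖u‖ < A then Φ (s', y + pr ((s' - s) • u)) else 0) else 0 := by
    intro u
    by_cases hu : GG P A κ y u
    swap
    · rw [if_neg hu]
      exact zero_le
    rw [if_pos hu]
    have h2 : κ1 * Y ≤ Yy P ϱ k A s y u := hy.trans (S.rr_le_Yy k hs.1 y u)
    unfold SM
    refine setLIntegral_mono' measurableSet_Ioc fun s' hs' => ?_
    by_cases hg : s' ≤ s - κ1 * Yy P ϱ k A s y u ∧ InL P ϱ k s' (y + pr ((s' - s) • u)) ∧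
        κ1 * Yy P ϱ k A s y u ≤ y0 P s' (y + pr ((s' - s) • u))
    swap
    · rw [if_neg hg]
      exact zero_le
    have h3 := mul_le_mul_of_nonneg_left h2 h0.le
    rw [if_pos hg, if_pos (by linarith [hg.1]), if_pos hu.1]
    obtain ⟨j, _, hj⟩ := hg.2.1
    have h4 := (S.Lay_rr ⟨hs'.1.le, hs'.2.trans hs.2⟩ hj).2.1
    have h5 := igeo_back hs'.2 y u
    have h6 : (s - s') * ‖vb u‖ ≤ (s - s') * A :=
      mul_le_mul_of_nonneg_left ((norm_vb_le u).trans hu.1.le) (sub_nonneg.2 hs'.2)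
    have h7 : (A : ℝ) * s' ≤ A * TT P ϱ := mul_le_mul_of_nonneg_left (hs'.2.trans hs.2) hA.le
    refine mul_le_mul' ?_ (le_of_eq ?_)
    · rw [hc]
      exact ENNReal.ofReal_le_ofReal
        (one_div_le_one_div_of_le (by positivity) (pow_le_pow_left₀ hkY.le h2 15))
    · rw [hΦ]
      exact (if_pos (le_min (by linarith) (by linarith))).symm
  refine (lintegral_mono h1).trans ?_
  rw [lintegral_lintegral_swap hG.aemeasurable]
  refine imm_const hsY fun s' hs' => ?_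
  by_cases h2 : s' ≤ s - κ1 * (κ1 * Y)
  swap
  · simp only [if_neg h2, lintegral_zero]
    exact zero_le
  simp only [if_pos h2]
  rw [lintegral_const_mul' _ _ (by rw [hc]; exact ENNReal.ofReal_ne_top)]
  refine mul_le_mul_right ?_ c
  have h3 : (s - s') * A ≤ 1 / 2 := by
    have : (s - s') * A ≤ TT P ϱ * A :=
      mul_le_mul_of_nonneg_right (by linarith [hs'.1, hs.2]) hA.le
    linarith
  have h4 := lintegral_vel_pos (Φ := fun y' => Φ (s', y')) (hΦm.comp measurable_prodMk_left) y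
    (σ := s - s') (A := A) (by linarith) h3
  rw [neg_sub] at h4
  refine h4.trans (mul_le_mul' (ENNReal.ofReal_le_ofReal (one_div_le_one_div_of_le
    (by positivity) (pow_le_pow_left₀ hk2.le (by linarith) 3))) ?_)
  rw [hΦ]
  exact hM s' hs'

theorem exists_MM {P : Par} (hP : P.OK) (A : ℕ) {κ κ1 : ℝ} (hκ : 0 < κ) (hκc : κ ≤ P.c ^ 2)
    (h0 : 0 < κ1) (h1 : κ1 ≤ 1) : ∃ K : ℝ, 0 ≤ K ∧ ∀ ϱ : ℝ, Sm P A ϱ → ∀ (k : ℕ)
    (f : ℝ → Om → ℝ), Measurable (Function.uncurry f) → ∀ Xv : ℝ, 0 ≤ Xv → EEb P ϱ k A f Xv →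
    ∀ t ∈ Icc 0 (TT P ϱ), ∀ (x : X) (v : V), ‖v‖ < A →
      SM P ϱ k A κ1 (fun s y u => if GG P A κ y u then
        SM P ϱ k A κ1 (fun s' y' u' => if GG P A κ y' u' then ENNReal.ofReal (f s' (y', u')) else 0)
          s y u else 0) t x v ≤ ENNReal.ofReal (K * Xv * gam P ϱ k A 33 t x v) := by
  refine ⟨4 ^ 64 / (κ1 ^ 21 * κ ^ 4) * Real.exp (2 * (A : ℝ) ^ 2), by positivity,
    fun ϱ S k f hf Xv hX hE t ht x v hv => ?_⟩
  obtain ⟨Y, hYe⟩ : ∃ Y, Y = Yy P ϱ k A t x v := ⟨_, rfl⟩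
  have hY : 0 < Y := hYe ▸ S.Yy_pos k ht.1 x v
  have hY1 : Y ≤ 1 := hYe ▸ Yy_le_one k t x v
  have hr : rr x ≤ Y := hYe ▸ S.rr_le_Yy k ht.1 x v
  have hAt : A * t ≤ Y := hYe ▸ S.At_le_Yy k ht x v
  have htau : ar P ϱ (k + 1) ≤ Y := hYe ▸ S.tau_le_Yy k ht.1 x v
  have hA := S.ibas_A
  have htY : t ≤ Y := by nlinarith [ht.1]
  have hF : Measurable fun p : ℝ × X × V =>
      if GG P A κ p.2.1 p.2.2 then ENNReal.ofReal (f p.1 (p.2.1, p.2.2)) else 0 :=
    Measurable.ite (measurableSet_GG P A κ measurable_snd.fst measurable_snd.snd)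
      hf.ennreal_ofReal measurable_const
  have hfin : ENNReal.ofReal (1 / Y ^ 15) * (ENNReal.ofReal (1 / (κ1 * Y) ^ 15) *
      (ENNReal.ofReal (1 / (κ1 * (κ1 * Y)) ^ 3) *
        (ENNReal.ofReal (1 / κ ^ 4) * ENNReal.ofReal ((4 * Y) ^ 64 * Xv))) * ENNReal.ofReal Y) *
      ENNReal.ofReal Y ≤ ENNReal.ofReal (4 ^ 64 / (κ1 ^ 21 * κ ^ 4) * Real.exp (2 * (A : ℝ) ^ 2) *
        Xv * gam P ϱ k A 33 t x v) := by
    rw [← ENNReal.ofReal_mul (by positivity), ← ENNReal.ofReal_mul (by positivity),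
      ← ENNReal.ofReal_mul (by positivity), ← ENNReal.ofReal_mul (by positivity),
      ← ENNReal.ofReal_mul (by positivity), ← ENNReal.ofReal_mul (by positivity)]
    refine ENNReal.ofReal_le_ofReal ?_
    have e : 1 / Y ^ 15 * (1 / (κ1 * Y) ^ 15 * (1 / (κ1 * (κ1 * Y)) ^ 3 *
        (1 / κ ^ 4 * ((4 * Y) ^ 64 * Xv))) * Y) * Y =
        4 ^ 64 / (κ1 ^ 21 * κ ^ 4) * Xv * Y ^ 33 := by
      field_simp
    have g1 : Real.exp (-2 * (A : ℝ) ^ 2) ≤ Gs P ϱ t v := by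
      refine le_trans ?_ (S.G0_le_Gs ht.1 v)
      have := pow_le_pow_left₀ (norm_nonneg v) hv.le 2
      exact Real.exp_le_exp.2 (by linarith)
    have g2 : Y ^ 33 * 1 * Real.exp (-2 * (A : ℝ) ^ 2) ≤ gam P ϱ k A 33 t x v := by
      unfold gam
      rw [← hYe]
      have g3 := S.one_le_Hh k t x v
      exact mul_le_mul (mul_le_mul_of_nonneg_left g3 (by positivity)) g1 (Real.exp_pos _).le
        (by positivity)
    have g4 : Real.exp (2 * (A : ℝ) ^ 2) * Real.exp (-2 * (A : ℝ) ^ 2) = 1 := by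
      rw [← Real.exp_add]
      simp
    rw [e]
    refine le_trans (le_of_eq ?_) (mul_le_mul_of_nonneg_left g2 (by positivity))
    generalize (4 : ℝ) ^ 64 / (κ1 ^ 21 * κ ^ 4) = K
    linear_combination (-(K * Xv * Y ^ 33)) * g4
  refine le_trans ?_ hfin
  rw [SM, ← hYe]
  refine imm_const htY fun s hs => ?_
  split_ifs with hg
  swap
  · exact zero_le
  have hs' : s ∈ Icc 0 (TT P ϱ) := ⟨hs.1.le, hs.2.trans ht.2⟩
  obtain ⟨j, _, hj⟩ := hg.2.1
  have h5 := igeo_back hs.2 x v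
  have h6 : (t - s) * ‖vb v‖ ≤ (t - s) * A :=
    mul_le_mul_of_nonneg_left ((norm_vb_le v).trans hv.le) (sub_nonneg.2 hs.2)
  refine mul_le_mul_right (imm_inner S k h0 hY hF hs' (hs.2.trans htY)
    (hg.2.2.trans (S.Lay_rr hs' hj).2.2.2) (by linarith) fun s' hs2 => ?_) _
  refine (imm_phi A hκ hκc hf _ s').trans (mul_le_mul_right ?_ _)
  exact hE _ (4 * Y) (le_min (by linarith) (by norm_num)) (min_le_left _ _) (min_le_right _ _)
    (by linarith) (by linarith) s' ⟨hs2.1.le, hs2.2.trans hs'.2⟩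

end Vale.Agent.P140
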