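import Vale.Agent.P140.IDat
import Vale.Agent.P140.ISS
import Vale.Agent.P140.IMM

/-! The linear bootstrap step. -/

namespace Vale.Agent.P140

open MeasureTheory Set Filter Topology
open scoped ENNReal

open Classical

/- PLAN. γ = gam 33, h = hx f ≤ N γ (adm_iff), h ≤ ofReal f. K1 = K C0/lam from exists_SS, ε = 1/(16 (1 + K1 + K1²)), A0 ≥ 33 with
K1²/A0 ≤ ε; κ = min κ0 c² (SS_cut); κ1, K2 from SS_main (with ε, κ); KM from exists_MM. All bounds are on [0,T].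
(a) A ≤ ‖v‖: h ≤ (β + N K1/A) γ. (b) every (y,u) is GG, ZZ or A ≤ ‖u‖, so h ≤ h 1_GG + N 1_ZZ γ + (β + N K1/A) γ and
h ≤ β1 γ + SS (h 1_GG), β1 = β + ε N + K1 (β + N K1/A). (c) on GG, SS_main: h ≤ β2 γ + K2 SM (1_GG f), β2 = β1 + ε N.
So h' = 1_GG (h - β2 γ) ≤ K2 1_GG SM (1_GG f), h' ≤ N γ, and h 1_GG ≤ β2 γ + h'. (d) on GG: SS (h 1_GG) ≤ K1 β2 γ + SS h' ≤
K1 β2 γ + ε N γ + K2² KM Xv γ (SS_main, SM_mono, SM_const_mul, exists_MM), so h 1_GG ≤ β3 γ, β3 = β1 + K1 β2 + ε N + K2² KM Xv.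
(e) everywhere h ≤ (β1 + K1 β3) γ; the coefficient of N is (ε + K1²/A)(1 + K1 + K1²) + ε (K1 + K1²) ≤ 3/16. -/

theorem exists_DF0 {P : Par} (hP : P.OK) : ∃ A0 : ℕ, ∀ A ≥ A0, ∃ K : ℝ, 0 ≤ K ∧ ∀ ϱ : ℝ,
    Sm P A ϱ → ∀ (k : ℕ) (f : ℝ → Om → ℝ), Measurable (Function.uncurry f) →
    ∀ N β Xv : ℝ, 0 ≤ N → 0 ≤ β → 0 ≤ Xv → Adm P ϱ k A 33 N f →
    (∀ t ∈ Icc 0 (TT P ϱ), ∀ (x : X) (v : V), hx P ϱ k f t x v ≤
      ENNReal.ofReal (β * gam P ϱ k A 33 t x v) + SS P ϱ k (hx P ϱ k f) t x v) →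
    EEb P ϱ k A f Xv → Adm P ϱ k A 33 (N / 4 + K * (β + Xv)) f := by
  obtain ⟨K0, hK0, hSS⟩ := exists_SS
  have hl := hP.lam0
  have hC : 0 < P.C0 := by linarith [hP.C0]
  obtain ⟨K1, hK1⟩ : ∃ K1, K1 = K0 * P.C0 / P.lam := ⟨_, rfl⟩
  have k1 : 0 ≤ K1 := by rw [hK1]; positivity
  obtain ⟨ε, hε⟩ : ∃ ε : ℝ, ε = 1 / (16 * (1 + K1 + K1 ^ 2)) := ⟨_, rfl⟩
  have e0 : 0 < ε := by rw [hε]; positivity
  have e1 : ε * (1 + K1 + K1 ^ 2) = 1 / 16 := by rw [hε]; field_simp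
  obtain ⟨κ0, h0, hcut⟩ := SS_cut hP e0
  refine ⟨⌈K1 ^ 2 / ε⌉₊ + 33, fun A hA => ?_⟩
  have hA0 : (0 : ℝ) < A := by exact_mod_cast (show 0 < A by omega)
  have hδ : K1 * (K1 / A) ≤ ε := by
    have h1 : K1 ^ 2 / ε ≤ A :=
      (Nat.le_ceil _).trans (by exact_mod_cast (show ⌈K1 ^ 2 / ε⌉₊ ≤ A by omega))
    rw [div_le_iff₀ e0] at h1
    rw [← mul_div_assoc, div_le_iff₀ hA0]
    nlinarith
  have hδ0 : 0 ≤ K1 / A := by positivity
  have hc : 0 < P.c := hl.trans_le hP.lamc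
  obtain ⟨κ, hκ⟩ : ∃ κ, κ = min κ0 (P.c ^ 2) := ⟨_, rfl⟩
  have κp : 0 < κ := by rw [hκ]; exact lt_min h0 (by positivity)
  obtain ⟨κ1, K2, q0, q1, k2, hmain⟩ := SS_main hP A e0 κp
  obtain ⟨KM, kM, hMM⟩ := exists_MM hP A κp (hκ ▸ min_le_right _ _) q0 q1
  refine ⟨(1 + K1) + K1 * (1 + K1) ^ 2 + K1 * (K2 * (K2 * KM)), by positivity, ?_⟩
  intro ϱ S k f hf N β Xv hN hβ hX hadm hstep hEE
  let E : ℝ → ℝ → X → V → ℝ≥0∞ := fun c s y u => ENNReal.ofReal (c * gam P ϱ k A 33 s y u)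
  have Eeq : ∀ {c : ℝ}, 0 ≤ c → E c = fun s y u => ENNReal.ofReal c * eG P ϱ k A 33 s y u :=
    fun hc => by
      funext s y u
      exact ENNReal.ofReal_mul hc
  have Emul : ∀ {a : ℝ} (c : ℝ), 0 ≤ a → ∀ s y u, ENNReal.ofReal a * E c s y u = E (a * c) s y u :=
    fun c ha s y u => by
      simp only [E]
      rw [← ENNReal.ofReal_mul ha, mul_assoc]
  have Eadd : ∀ {a c : ℝ}, 0 ≤ a → 0 ≤ c → ∀ s ∈ Icc 0 (TT P ϱ), ∀ y u,
      E a s y u + E c s y u = E (a + c) s y u := fun ha hc s hs y u => by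
    have := S.gam_nonneg k 33 hs.1 y u
    simp only [E]
    rw [← ENNReal.ofReal_add (by positivity) (by positivity), add_mul]
  have mG : Measurable fun p : ℝ × X × V => eG P ϱ k A 33 p.1 p.2.1 p.2.2 :=
    measurable_eG P ϱ k A 33 measurable_fst measurable_snd.fst measurable_snd.snd
  have mE : ∀ c, Measurable fun p : ℝ × X × V => E c p.1 p.2.1 p.2.2 := fun c =>
    ((measurable_gam P ϱ k A 33 measurable_fst measurable_snd.fst
      measurable_snd.snd).const_mul c).ennreal_ofReal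
  have sub : ∀ t ∈ Icc 0 (TT P ϱ), ∀ s ∈ Ioc 0 t, s ∈ Icc 0 (TT P ϱ) :=
    fun t ht s hs => ⟨hs.1.le, hs.2.trans ht.2⟩
  have SE : ∀ {c : ℝ}, 0 ≤ c → ∀ t ∈ Icc 0 (TT P ϱ), ∀ x v,
      SS P ϱ k (E c) t x v ≤ E (c * K1) t x v := fun hc t ht x v => by
    rw [Eeq hc, SS_const_mul P ϱ k mG, ← Emul K1 hc, hK1]
    exact mul_le_mul_right ((hSS P A ϱ S k t ht x v).1 33 (by norm_num) S.A33) _
  have SE' : ∀ {c : ℝ}, 0 ≤ c → ∀ t ∈ Icc 0 (TT P ϱ), ∀ x (v : V), (A : ℝ) ≤ ‖v‖ →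
      SS P ϱ k (E c) t x v ≤ E (c * (K1 / A)) t x v := fun hc t ht x v hv => by
    rw [Eeq hc, SS_const_mul P ϱ k mG, ← Emul (K1 / A) hc, hK1]
    exact mul_le_mul_right ((hSS P A ϱ S k t ht x v).2.1 33 (by norm_num) S.A33 hv) _
  have split : ∀ {c : ℝ}, 0 ≤ c → ∀ {F G : ℝ → X → V → ℝ≥0∞},
      Measurable (fun p : ℝ × X × V => G p.1 p.2.1 p.2.2) →
      (∀ s ∈ Icc 0 (TT P ϱ), ∀ y u, F s y u ≤ E c s y u + G s y u) →
      ∀ t ∈ Icc 0 (TT P ϱ), ∀ x v, SS P ϱ k F t x v ≤ E (c * K1) t x v + SS P ϱ k G t x v :=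
    fun {c} hc {F G} hG h t ht x v => by
      refine (SS_mono P ϱ k (fun s hs y u => h s (sub t ht s hs) y u) x v).trans ?_
      rw [SS_add P ϱ k (mE c) hG]
      exact add_le_add (SE hc t ht x v) le_rfl
  set h := hx P ϱ k f with hh
  have mh : Measurable fun p : ℝ × X × V => h p.1 p.2.1 p.2.2 := measurable_hx P ϱ k hf
  have hle : ∀ s ∈ Icc 0 (TT P ϱ), ∀ y u, h s y u ≤ E N s y u := (S.adm_iff hN).1 hadm
  have mGG : MeasurableSet {p : ℝ × X × V | GG P A κ p.2.1 p.2.2} :=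
    measurableSet_GG P A κ measurable_snd.fst measurable_snd.snd
  have mZZ : MeasurableSet {p : ℝ × X × V | ZZ P κ p.2.1 p.2.2} :=
    measurableSet_ZZ P κ measurable_snd.fst measurable_snd.snd
  -- step (a)
  obtain ⟨b0, hb0⟩ : ∃ b, b = β + N * (K1 / A) := ⟨_, rfl⟩
  have p0 : 0 ≤ b0 := by rw [hb0]; positivity
  have sa : ∀ t ∈ Icc 0 (TT P ϱ), ∀ x (v : V), (A : ℝ) ≤ ‖v‖ → h t x v ≤ E b0 t x v := by
    intro t ht x v hv
    rw [hb0, ← Eadd hβ (by positivity) t ht]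
    refine (hstep t ht x v).trans (add_le_add le_rfl ?_)
    exact (SS_mono P ϱ k (fun s hs y u => hle s (sub t ht s hs) y u) x v).trans (SE' hN t ht x v hv)
  -- step (b)
  let hG : ℝ → X → V → ℝ≥0∞ := fun s y u => if GG P A κ y u then h s y u else 0
  have mhG : Measurable fun p : ℝ × X × V => hG p.1 p.2.1 p.2.2 :=
    Measurable.ite mGG mh measurable_const
  let Z : ℝ → X → V → ℝ≥0∞ := fun s y u => if ZZ P κ y u then eG P ϱ k A 33 s y u else 0
  have mZ : Measurable fun p : ℝ × X × V => Z p.1 p.2.1 p.2.2 :=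
    Measurable.ite mZZ mG measurable_const
  obtain ⟨b1, hb1⟩ : ∃ b, b = β + (b0 * K1 + N * ε) := ⟨_, rfl⟩
  have p1 : 0 ≤ b1 := by rw [hb1]; positivity
  have sb : ∀ t ∈ Icc 0 (TT P ϱ), ∀ x v, h t x v ≤ E b1 t x v + SS P ϱ k hG t x v := by
    intro t ht x v
    rw [hb1, ← Eadd hβ (by positivity) t ht, ← Eadd (by positivity) (by positivity) t ht,
      add_assoc, add_assoc]
    refine (hstep t ht x v).trans (add_le_add le_rfl ?_)
    refine (split p0 (G := fun s y u => ENNReal.ofReal N * Z s y u + hG s y u)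
      ((mZ.const_mul _).add mhG) (fun s hs y u => ?_) t ht x v).trans (add_le_add le_rfl ?_)
    · by_cases g1 : GG P A κ y u
      · refine le_add_left (le_add_left ?_)
        simp only [hG, if_pos g1, le_rfl]
      by_cases g2 : ZZ P κ y u
      · refine le_add_left (le_add_right ?_)
        simp only [Z, if_pos g2]
        exact (hle s hs y u).trans_eq (ENNReal.ofReal_mul hN)
      · refine le_add_right (sa s hs y u ?_)
        by_contra g3
        simp only [ZZ, not_or, not_lt] at g2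
        exact g1 ⟨not_le.1 g3, g2.1, g2.2.1, g2.2.2⟩
    · rw [SS_add P ϱ k (mZ.const_mul _) mhG, SS_const_mul P ϱ k mZ, ← Emul ε hN]
      exact add_le_add (mul_le_mul_right
        (hcut κ κp.le (hκ ▸ min_le_left _ _) A ϱ S k t ht x v) _) le_rfl
  -- step (c)
  let fG : ℝ → X → V → ℝ≥0∞ := fun s y u =>
    if GG P A κ y u then ENNReal.ofReal (f s (y, u)) else 0
  have mfG : Measurable fun p : ℝ × X × V => fG p.1 p.2.1 p.2.2 :=
    Measurable.ite mGG hf.ennreal_ofReal measurable_const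
  have hGle : ∀ s ∈ Icc 0 (TT P ϱ), ∀ y u, hG s y u ≤ E N s y u := fun s hs y u => by
    simp only [hG]
    split_ifs
    · exact hle s hs y u
    · exact zero_le
  obtain ⟨b2, hb2⟩ : ∃ b, b = b1 + ε * N := ⟨_, rfl⟩
  have p2 : 0 ≤ b2 := by rw [hb2]; positivity
  have sc : ∀ t ∈ Icc 0 (TT P ϱ), ∀ x v, GG P A κ x v →
      h t x v ≤ E b2 t x v + ENNReal.ofReal K2 * SM P ϱ k A κ1 fG t x v := by
    intro t ht x v hg
    rw [hb2, ← Eadd p1 (by positivity) t ht, add_assoc]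
    refine (sb t ht x v).trans (add_le_add le_rfl ?_)
    refine (hmain ϱ S k hG mhG N hN hGle t ht x v hg.1 hg.2.1).trans ?_
    rw [add_comm]
    refine add_le_add le_rfl (mul_le_mul_right (SM_mono P ϱ k A κ1 (fun s _ y u => ?_) x v) _)
    simp only [hG, fG]
    split_ifs
    · exact tsub_le_self
    · exact le_rfl
  let h' : ℝ → X → V → ℝ≥0∞ := fun s y u => if GG P A κ y u then h s y u - E b2 s y u else 0
  have mh' : Measurable fun p : ℝ × X × V => h' p.1 p.2.1 p.2.2 :=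
    Measurable.ite mGG (mh.sub (mE b2)) measurable_const
  let W : ℝ → X → V → ℝ≥0∞ := fun s y u => if GG P A κ y u then SM P ϱ k A κ1 fG s y u else 0
  have mW : Measurable fun p : ℝ × X × V => W p.1 p.2.1 p.2.2 :=
    Measurable.ite mGG (measurable_SM P ϱ k A κ1 mfG) measurable_const
  have c1 : ∀ s ∈ Icc 0 (TT P ϱ), ∀ y u, h' s y u ≤ ENNReal.ofReal K2 * W s y u :=
    fun s hs y u => by
      simp only [h', W]
      split_ifs with hg
      · exact tsub_le_iff_left.2 (sc s hs y u hg)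
      · exact zero_le
  have c2 : ∀ s ∈ Icc 0 (TT P ϱ), ∀ y u, h' s y u ≤ E N s y u := fun s hs y u => by
    simp only [h']
    split_ifs
    · exact tsub_le_self.trans (hle s hs y u)
    · exact zero_le
  have c3 : ∀ s ∈ Icc 0 (TT P ϱ), ∀ y u, hG s y u ≤ E b2 s y u + h' s y u := fun s _ y u => by
    simp only [h', hG]
    split_ifs
    · exact le_add_tsub
    · exact zero_le
  -- step (d)
  obtain ⟨b3, hb3⟩ : ∃ b, b = b1 + (b2 * K1 + (K2 * (K2 * (KM * Xv)) + ε * N)) := ⟨_, rfl⟩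
  have p3 : 0 ≤ b3 := by rw [hb3]; positivity
  have sd : ∀ t ∈ Icc 0 (TT P ϱ), ∀ x v, hG t x v ≤ E b3 t x v := by
    intro t ht x v
    simp only [hG]
    split_ifs with hg
    swap
    · exact zero_le
    rw [hb3, ← Eadd p1 (by positivity) t ht, ← Eadd (by positivity) (by positivity) t ht,
      ← Eadd (by positivity) (by positivity) t ht]
    refine (sb t ht x v).trans (add_le_add le_rfl ?_)
    refine (split p2 mh' c3 t ht x v).trans (add_le_add le_rfl ?_)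
    refine (hmain ϱ S k h' mh' N hN c2 t ht x v hg.1 hg.2.1).trans (add_le_add ?_ le_rfl)
    rw [← Emul _ k2, ← Emul _ k2]
    refine mul_le_mul_right ?_ _
    refine (SM_mono P ϱ k A κ1 (fun s hs y u => c1 s (sub t ht s hs) y u) x v).trans ?_
    rw [SM_const_mul P ϱ k A κ1 mW]
    exact mul_le_mul_right (hMM ϱ S k f hf Xv hX hEE t ht x v hg.1) _
  -- step (e)
  refine (S.adm_iff (by positivity)).2 fun t ht x v => ?_
  refine (sb t ht x v).trans ?_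
  refine (add_le_add le_rfl ((SS_mono P ϱ k (fun s hs y u => sd s (sub t ht s hs) y u) x v).trans
    (SE p3 t ht x v))).trans ?_
  rw [Eadd p1 (by positivity) t ht]
  refine ENNReal.ofReal_le_ofReal (mul_le_mul_of_nonneg_right ?_ (S.gam_nonneg k 33 ht.1 x v))
  have f1 : b1 ≤ β * (1 + K1) + 2 * (ε * N) := by
    have := mul_le_mul_of_nonneg_left hδ hN
    rw [hb1, hb0]
    nlinarith
  have f2 : b1 * (1 + K1 + K1 ^ 2) ≤ (β * (1 + K1) + 2 * (ε * N)) * (1 + K1 + K1 ^ 2) :=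
    mul_le_mul_of_nonneg_right f1 (by positivity)
  have f3 : ε * N * (1 + K1 + K1 ^ 2) = N / 16 := by
    rw [mul_right_comm, e1]
    ring
  have f4 : 0 ≤ ε * N := by positivity
  have f5 : 0 ≤ K1 * (K2 * (K2 * KM)) * β := by positivity
  have f6 : 0 ≤ ((1 + K1) + K1 * (1 + K1) ^ 2) * Xv := by positivity
  rw [hb3, hb2]
  nlinarith

end Vale.Agent.P140
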