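import Vale.Agent.P140.IEn1

/-! The localised energy estimate. -/

namespace Vale.Agent.P140

open MeasureTheory Set Filter Topology
open scoped ENNReal

open Classical

variable {P : Par}

/- PLAN exists_En0: at x in layer j ≤ k with rr x ≤ ρ', on the support of Bj: ee ≤ W_j⁴ ≤ (6δ²)⁴, ∫ Bc dv ≤ 8 C0/r ≤ 16 C0/a,
a ≤ 2ρ, a^31 ≤ ϱ; the seed part is ≤ ς ∫ G0.
EE_le: TrSol.balance with e = ofReal ∘ ee (ee_mono). Pointwise in (s,x): 2 ∫ qn e = kap I3 (kN f f (e' + e*')) ≤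
kap I3 (kN f f (e + e*)) + 2 kap I3 (kN f f Dl) (ee_coll, I3_swap) and kap I3 (kN f f (e + e*)) = 2 ∫ f ln e
(two_lintegral_Qp_mul, two_lintegral_Lo_mul, ofReal_qn', ofReal_ln'). The loss term is finite (ub, ln_bdd, ee_le): cancel it.
exists_En: E* = ⨆ t ∈ [0,T], EE < ⊤; E* ≤ a + K T E* with K T ≤ 1/2 (Ev.of_rho), so E* ≤ 2 a. -/

private theorem ien_ar {C a r ρ ϱ : ℝ} (hC : 0 ≤ C) (ha : 0 < a) (ha1 : a ≤ 1) (haϱ : a ≤ ϱ)
    (har : a ≤ 2 * r) (hr : r ≤ ρ) :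
    (6 * (a ^ 12) ^ 2) ^ 4 * (8 * C / r) ≤ 6 ^ 4 * 16 * 2 ^ 64 * C * (ρ ^ 64 * ϱ) := by
  have h0 : 0 < r := by linarith
  have h1 : 8 * C / r ≤ 16 * C / a := by
    rw [div_le_div_iff₀ h0 ha]
    nlinarith
  have h2 : a ^ 31 ≤ ϱ := (pow_le_of_le_one ha.le ha1 (by norm_num)).trans haϱ
  have h3 : a ^ 64 ≤ (2 * ρ) ^ 64 := pow_le_pow_left₀ ha.le (by linarith) _
  calc _ ≤ (6 * (a ^ 12) ^ 2) ^ 4 * (16 * C / a) := by gcongr
    _ = 6 ^ 4 * 16 * C * (a ^ 64 * a ^ 31) := by field_simp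
    _ ≤ 6 ^ 4 * 16 * C * ((2 * ρ) ^ 64 * ϱ) := by gcongr
    _ = _ := by rw [mul_pow]; ring

private theorem ien_ee {A : ℕ} (j : ℕ) {ρ b : ℝ} {x : X} {v : V} (h : Wf P (sg j) x v ≤ b) :
    ee P A ρ 0 x v ≤ b ^ 4 := by
  have h0 := (ibas_nonneg (P := P) (sg j) x v).trans h
  unfold ee
  split_ifs
  · refine pow_le_pow_left₀ (le_min (le_min (ibas_nonneg _ _ _) (ibas_nonneg _ _ _))
      (sq_nonneg _)) ((min_le_left _ _).trans (le_trans ?_ h)) _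
    rcases sg_cases j with e | e <;> rw [e]
    · exact min_le_left _ _
    · exact min_le_right _ _
  · positivity

private theorem ien_B {A : ℕ} {ϱ : ℝ} (S : Sm P A ϱ) (k : ℕ) {ρ' ρ : ℝ} (hρ : ρ' ≤ ρ) (x : X) :
    ∫⁻ v, eB P ϱ k 0 x v * ENNReal.ofReal (ee P A ρ' 0 x v) ≤
      ENNReal.ofReal (6 ^ 4 * 16 * 2 ^ 64 * P.C0 * (ρ ^ 64 * ϱ)) := by
  have ht : (0 : ℝ) ∈ Icc 0 (TT P ϱ) := ⟨le_rfl, S.TT_pos.le⟩
  by_cases h : InL P ϱ k 0 x ∧ rr x ≤ ρ'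
  · obtain ⟨⟨j, hj, hL⟩, hr⟩ := h
    obtain ⟨-, -, h3, h4⟩ := S.Lay_rr ht hL
    calc _ ≤ ∫⁻ v, ENNReal.ofReal ((6 * de P ϱ j ^ 2) ^ 4) * ENNReal.ofReal (Bj P ϱ j 0 x v) := by
          refine lintegral_mono fun v => ?_
          rw [eB, S.Bc_eq hj ht hL, mul_comm]
          by_cases hB : Bj P ϱ j 0 x v = 0
          · simp [hB]
          · exact mul_le_mul' (ENNReal.ofReal_le_ofReal (ien_ee j (S.supp_B ht hB).2.2.1)) le_rfl
      _ ≤ ENNReal.ofReal ((6 * de P ϱ j ^ 2) ^ 4) * ENNReal.ofReal (8 * P.C0 / rr x) := by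
          rw [lintegral_const_mul' _ _ ENNReal.ofReal_ne_top]
          exact mul_le_mul' le_rfl (S.int_Bj ht x)
      _ ≤ _ := by
          rw [← ENNReal.ofReal_mul (by positivity)]
          exact ENNReal.ofReal_le_ofReal (ien_ar (by linarith [S.ok.C0]) (S.ar_pos j)
            (S.ibas_ar1 j) (S.ar_le j) (by linarith) (hr.trans hρ))
  · refine le_trans (le_of_eq ?_) zero_le
    refine (lintegral_congr fun v => ?_).trans lintegral_zero
    rcases not_and_or.1 h with h | h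
    · rw [eB, (S.ICold2_out ht h v).1, ENNReal.ofReal_zero, zero_mul]
    · rw [ee, if_neg (fun h' => h (by simpa using h'.1)), ENNReal.ofReal_zero, mul_zero]

private theorem ien_G0 : Integrable G0 := by simpa using integrable_G0_moment 0

theorem exists_En0 (hP : P.OK) : ∃ K : ℝ, 0 ≤ K ∧ ∀ (A : ℕ) (ϱ : ℝ), Sm P A ϱ → ∀ (k : ℕ) (ς : ℝ),
    0 ≤ ς → ∀ ρ' ρ : ℝ, ρ' ≤ ρ →
      ∫⁻ z : Om, ENNReal.ofReal (dat P ϱ k ς z) * ENNReal.ofReal (ee P A ρ' 0 z.1 z.2) ≤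
        ENNReal.ofReal (K * (ρ ^ 64 * ϱ + ς)) := by
  have hC : 0 ≤ P.C0 := by linarith [hP.C0]
  have hG : 0 ≤ ∫ v, G0 v := integral_nonneg fun v => (G0_pos v).le
  refine ⟨6 ^ 4 * 16 * 2 ^ 64 * P.C0 + ∫ v, G0 v, by positivity, fun A ϱ S k ς hς ρ' ρ hρ => ?_⟩
  have hm : Measurable fun z : Om =>
      ENNReal.ofReal (dat P ϱ k ς z) * ENNReal.ofReal (ee P A ρ' 0 z.1 z.2) :=
    (measurable_dat P ϱ k ς).ennreal_ofReal.mul
      (measurable_ee P A ρ' measurable_const measurable_fst measurable_snd).ennreal_ofReal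
  rw [lintegral_Om hm]
  refine le_trans (lintegral_mono (g := fun _ => ENNReal.ofReal
    ((6 ^ 4 * 16 * 2 ^ 64 * P.C0 + ∫ v, G0 v) * (ρ ^ 64 * ϱ + ς))) fun x => ?_)
    (le_of_eq (by rw [lintegral_const, volume_X_univ, mul_one]))
  have h64 : 0 ≤ ρ ^ 64 * ϱ := mul_nonneg (Even.pow_nonneg ⟨32, rfl⟩ ρ) S.pos.le
  calc _ ≤ ∫⁻ v, (ENNReal.ofReal (ς * G0 v) +
        eB P ϱ k 0 x v * ENNReal.ofReal (ee P A ρ' 0 x v)) := by
        refine lintegral_mono fun v => ?_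
        rw [dat, ENNReal.ofReal_add (S.Bc_nonneg _ _ _ _) (mul_nonneg hς (G0_pos _).le), add_mul,
          add_comm]
        refine add_le_add (mul_le_of_le_one_right' ?_) le_rfl
        exact ENNReal.ofReal_le_one.2 ((S.ee_le _ _ _ _).trans (by norm_num))
    _ ≤ ENNReal.ofReal (ς * ∫ v, G0 v) +
        ENNReal.ofReal (6 ^ 4 * 16 * 2 ^ 64 * P.C0 * (ρ ^ 64 * ϱ)) := by
        rw [lintegral_add_left (continuous_G0.measurable.const_mul ς).ennreal_ofReal,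
          ← integral_const_mul, ofReal_integral_eq_lintegral_ofReal (ien_G0.const_mul ς)
            (Eventually.of_forall fun v => mul_nonneg hς (G0_pos v).le)]
        exact add_le_add le_rfl (ien_B S k hρ x)
    _ ≤ _ := by
        rw [← ENNReal.ofReal_add (mul_nonneg hς hG) (mul_nonneg (by positivity) h64)]
        refine ENNReal.ofReal_le_ofReal ?_
        have h1 := mul_nonneg h64 hG
        have h2 : 0 ≤ 6 ^ 4 * 16 * 2 ^ 64 * P.C0 * ς := by positivity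
        linarith

private theorem ien_pt {A : ℕ} {ϱ : ℝ} (S : Sm P A ϱ) (k n : ℕ) {F : V → ℝ≥0∞} (hF : Measurable F)
    (ρ s : ℝ) (x : X) :
    ∫⁻ v, Qp (kN n) F F v * ENNReal.ofReal (ee P A ρ s x v) ≤
      (∫⁻ v, F v * Lo (kN n) F v * ENNReal.ofReal (ee P A ρ s x v)) +
        I3 (fun v w ω => kN n v w ω * (F v * F w) * ENNReal.ofReal (Dl P ϱ k A ρ s x v w)) := by
  have hb := isKer_kN n
  have he : Measurable fun v => ENNReal.ofReal (ee P A ρ s x v) :=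
    (measurable_ee P A ρ measurable_const measurable_const measurable_id).ennreal_ofReal
  have hk : Measurable fun p : V × V × S2 => kN n p.1 p.2.1 p.2.2 * (F p.1 * F p.2.1) :=
    hb.meas.mul ((hF.comp measurable_fst).mul (hF.comp measurable_snd.fst))
  have h1 : Measurable fun p : V × V × S2 => kN n p.1 p.2.1 p.2.2 * (F p.1 * F p.2.1) *
      ENNReal.ofReal (Dl P ϱ k A ρ s x p.1 p.2.1) := hk.mul (measurable_Dl P ϱ k A ρ measurable_const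
        measurable_const measurable_fst measurable_snd.fst).ennreal_ofReal
  have h2 : Measurable fun p : V × V × S2 => kN n p.1 p.2.1 p.2.2 * (F p.1 * F p.2.1) *
      ENNReal.ofReal (Dl P ϱ k A ρ s x p.2.1 p.1) := hk.mul (measurable_Dl P ϱ k A ρ measurable_const
        measurable_const measurable_snd.fst measurable_fst).ennreal_ofReal
  have e : I3 (fun v w ω => kN n v w ω * (F v * F w) * ENNReal.ofReal (Dl P ϱ k A ρ s x w v)) =
      I3 (fun v w ω => kN n v w ω * (F v * F w) * ENNReal.ofReal (Dl P ϱ k A ρ s x v w)) := by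
    rw [← I3_swap h2]
    congr 1
    funext v w ω
    rw [hb.swap, mul_comm (F w)]
  rw [← ENNReal.mul_le_mul_iff_right (a := 2) (by norm_num) (by norm_num), mul_add,
    two_lintegral_Qp_mul hb hF he, two_lintegral_Lo_mul hb hF he, two_mul]
  nth_rewrite 2 [← e]
  rw [← I3_add h1 h2, ← I3_add (hk.mul ((he.comp measurable_fst).add (he.comp measurable_snd.fst)))
    (h1.add h2)]
  refine I3_mono fun v w ω => ?_
  rw [← mul_add, ← mul_add]
  refine mul_le_mul' le_rfl ?_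
  rw [← ENNReal.ofReal_add (S.ee_nonneg _ _ _ _) (S.ee_nonneg _ _ _ _),
    ← ENNReal.ofReal_add (S.ee_nonneg _ _ _ _) (S.ee_nonneg _ _ _ _),
    ← ENNReal.ofReal_add (S.Dl_nonneg _ _ _ _ _ _) (S.Dl_nonneg _ _ _ _ _ _),
    ← ENNReal.ofReal_add (add_nonneg (S.ee_nonneg _ _ _ _) (S.ee_nonneg _ _ _ _))
      (add_nonneg (S.Dl_nonneg _ _ _ _ _ _) (S.Dl_nonneg _ _ _ _ _ _))]
  exact ENNReal.ofReal_le_ofReal (S.ee_coll k ρ s x v w ω)

private theorem ien_fin {n : ℕ} {f0 : Om → ℝ} {f : ℝ → Om → ℝ} (h : TrSol n f0 f) (T : ℝ) :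
    ∃ B : ℝ≥0∞, B ≠ ⊤ ∧ ∀ t ∈ Icc 0 T, ∫⁻ z, ENNReal.ofReal (f t z) ≤ B := by
  obtain ⟨C, hC⟩ := h.ub T
  have hi : Integrable fun z : Om => C * G0 z.2 := by
    simpa using (integrable_G0_Om 0).const_mul C
  exact ⟨_, hi.lintegral_lt_top.ne, fun t ht =>
    lintegral_mono fun z => ENNReal.ofReal_le_ofReal (hC t ht z)⟩

theorem Sm.EE_le {A : ℕ} {ϱ : ℝ} (S : Sm P A ϱ) (k : ℕ) {n : ℕ} {f0 : Om → ℝ} {f : ℝ → Om → ℝ}
    (h : TrSol n f0 f) {ρ' : ℝ} (hρ : ρ' ≤ 1 / 4) {t : ℝ} (ht : 0 ≤ t) :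
    EE P A f ρ' t ≤ (∫⁻ z : Om, ENNReal.ofReal (f0 z) * ENNReal.ofReal (ee P A ρ' 0 z.1 z.2)) +
      ∫⁻ s in Ioc 0 t, ∫⁻ x, ENNReal.ofReal (kap n (f s) x) * I3 (fun v w ω => kN n v w ω *
          (eo (f s) x v * eo (f s) x w) * ENNReal.ofReal (Dl P ϱ k A ρ' s x v w)) := by
  have he : Measurable fun p : ℝ × Om => ENNReal.ofReal (ee P A ρ' p.1 p.2.1 p.2.2) :=
    (measurable_ee P A ρ' measurable_fst measurable_snd.fst measurable_snd.snd).ennreal_ofReal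
  have hb := h.balance ht (e := fun s x v => ENNReal.ofReal (ee P A ρ' s x v)) he
    fun s s' hs hss _ x v => ENNReal.ofReal_le_ofReal (ee_mono S.ok hρ hs hss x v)
  have hL : Measurable fun p : ℝ × Om => ENNReal.ofReal (f p.1 p.2) *
      ENNReal.ofReal (ln n (f p.1) p.2) * ENNReal.ofReal (ee P A ρ' p.1 p.2.1 p.2.2) :=
    ((h.trDual_mf measurable_fst measurable_snd).mul
      (h.trDual_ml measurable_fst measurable_snd)).mul he
  have hQ : Measurable fun p : ℝ × Om => ENNReal.ofReal (qn n (f p.1) p.2) *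
      ENNReal.ofReal (ee P A ρ' p.1 p.2.1 p.2.2) :=
    (h.trDual_mq measurable_fst measurable_snd).mul he
  have hfin : ∫⁻ s in Ioc 0 t, ∫⁻ z : Om, ENNReal.ofReal (f s z) * ENNReal.ofReal (ln n (f s) z) *
      ENNReal.ofReal (ee P A ρ' s z.1 z.2) ≠ ⊤ := by
    obtain ⟨B, hB, hBf⟩ := ien_fin h t
    refine ne_top_of_le_ne_top (b := ∫⁻ _ in Ioc 0 t, B * ENNReal.ofReal (26 * (n : ℝ) ^ 2)) ?_
      (setLIntegral_mono' measurableSet_Ioc fun s hs => ?_)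
    · rw [setLIntegral_const]
      exact ENNReal.mul_ne_top (ENNReal.mul_ne_top hB ENNReal.ofReal_ne_top) measure_Ioc_lt_top.ne
    · refine le_trans ?_ (mul_le_mul' (hBf s ⟨hs.1.le, hs.2⟩) le_rfl)
      rw [← lintegral_mul_const' _ _ ENNReal.ofReal_ne_top]
      refine lintegral_mono fun z => (mul_le_of_le_one_right' ?_).trans
        (mul_le_mul' le_rfl (ENNReal.ofReal_le_ofReal (h.ln_bdd hs.1.le z)))
      exact ENNReal.ofReal_le_one.2 ((S.ee_le _ _ _ _).trans (by norm_num))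
  refine (ENNReal.add_le_add_iff_right hfin).1 (hb.trans ?_)
  rw [add_assoc, add_comm (∫⁻ s in Ioc 0 t, ∫⁻ x, ENNReal.ofReal (kap n (f s) x) * _),
    ← lintegral_add_left hL.lintegral_prod_right']
  refine add_le_add le_rfl (setLIntegral_mono' measurableSet_Ioc fun s hs => ?_)
  have hL' := hL.comp (measurable_prodMk_left (x := s))
  have hQ' := hQ.comp (measurable_prodMk_left (x := s))
  refine (lintegral_Om hQ').trans_le (le_trans ?_ (add_le_add (lintegral_Om hL').ge le_rfl))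
  rw [← lintegral_add_left hL'.lintegral_prod_right']
  refine lintegral_mono fun x => ?_
  simp only [Function.comp, h.ofReal_qn' hs.1.le, h.ofReal_ln' hs.1.le]
  refine le_trans (le_of_eq ?_) ((mul_le_mul' (le_refl (ENNReal.ofReal (kap n (f s) x)))
    (ien_pt S k n (measurable_eo' (h.meas_t s) x) ρ' s x)).trans (le_of_eq ?_))
  · rw [← lintegral_const_mul' _ _ ENNReal.ofReal_ne_top]
    exact lintegral_congr fun v => mul_assoc _ _ _
  · rw [mul_add, ← lintegral_const_mul' _ _ ENNReal.ofReal_ne_top]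
    congr 1
    refine lintegral_congr fun v => ?_
    unfold eo
    ring

theorem exists_En (hP : P.OK) (A : ℕ) : ∃ K : ℝ, 0 ≤ K ∧ Ev P A (fun ϱ k n ς N f =>
    ∀ ρ' ρ : ℝ, ρ' ≤ ρ → ρ' ≤ 1 / 4 → ar P ϱ (k + 1) ≤ ρ → ρ ≤ 4 → ∀ t ∈ Icc 0 (TT P ϱ),
      EE P A f ρ' t ≤ ENNReal.ofReal (K * (ρ ^ 64 * (N ^ 2 + ϱ) + ς)) +
        4 * NP P ϱ k A n f ρ') := by
  obtain ⟨K0, hK0, h0⟩ := exists_En0 hP
  obtain ⟨K2, hK2, h2⟩ := exists_En2 hP
  have h1 : Tendsto (fun ϱ => K2 * TT P ϱ) (𝓝[>] 0) (𝓝 (K2 * TT P 0)) :=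
    (Continuous.tendsto (by unfold TT; fun_prop) 0).mono_left nhdsWithin_le_nhds
  have h3 : ∀ᶠ ϱ in 𝓝[>] (0 : ℝ), K2 * TT P ϱ ≤ 1 / 2 :=
    h1.eventually (eventually_le_nhds (by simp [TT]))
  refine ⟨2 * (K0 + K2), by positivity, (Ev.of_rho h3).mono ?_⟩
  intro ϱ k n ς N f R hT ρ' ρ a1 a2 a3 a4 t ht
  have S := R.sm
  obtain ⟨B, hB, hBf⟩ := ien_fin R.sol (TT P ϱ)
  obtain ⟨E, hE⟩ : ∃ E, E = ⨆ s ∈ Icc 0 (TT P ϱ), EE P A f ρ' s := ⟨_, rfl⟩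
  have e1 : ∀ s ∈ Icc 0 (TT P ϱ), EE P A f ρ' s ≤ E := fun s hs => by
    rw [hE]; exact le_iSup₂ (f := fun s (_ : s ∈ Icc 0 (TT P ϱ)) => EE P A f ρ' s) s hs
  have e2 : E ≠ ⊤ := by
    refine ne_top_of_le_ne_top hB ?_
    rw [hE]
    refine iSup₂_le fun s hs => le_trans (lintegral_mono fun z => mul_le_of_le_one_right' ?_)
      (hBf s hs)
    exact ENNReal.ofReal_le_one.2 ((S.ee_le _ _ _ _).trans (by norm_num))
  obtain ⟨a, ha⟩ : ∃ a, a = ENNReal.ofReal (K0 * (ρ ^ 64 * ϱ + ς)) + (2 * NP P ϱ k A n f ρ' +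
    ENNReal.ofReal (K2 * (ρ ^ 64 * (N ^ 2 + ϱ)))) := ⟨_, rfl⟩
  have e3 : E ≤ a + E / 2 := by
    nth_rewrite 1 [hE]
    refine iSup₂_le fun s hs => (S.EE_le k R.sol a2 hs.1).trans ((add_le_add
      (h0 A ϱ S k ς R.s0 ρ' ρ a1) (h2 A ϱ k n ς N f R ρ' ρ a1 a3 a4 s hs)).trans ?_)
    have b1 : ∫⁻ u in Ioc 0 s, EE P A f ρ' u ≤ E * ENNReal.ofReal (TT P ϱ) := by
      refine (setLIntegral_mono' measurableSet_Ioc fun u hu =>
        e1 u ⟨hu.1.le, hu.2.trans hs.2⟩).trans ?_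
      rw [setLIntegral_const, Real.volume_Ioc, sub_zero]
      exact mul_le_mul' le_rfl (ENNReal.ofReal_le_ofReal hs.2)
    have b2 : ENNReal.ofReal K2 * ∫⁻ u in Ioc 0 s, EE P A f ρ' u ≤ E / 2 := by
      refine (mul_le_mul' le_rfl b1).trans ?_
      rw [mul_left_comm, ← ENNReal.ofReal_mul hK2, div_eq_mul_inv]
      refine mul_le_mul' le_rfl ((ENNReal.ofReal_le_ofReal hT).trans (le_of_eq ?_))
      rw [one_div, ENNReal.ofReal_inv_of_pos (by norm_num), ENNReal.ofReal_ofNat]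
    rw [ha, add_assoc, add_assoc, add_comm _ (E / 2)]
    exact add_le_add le_rfl (add_le_add b2 le_rfl)
  have e4 : E / 2 ≤ a := by
    nth_rewrite 1 [← ENNReal.add_halves E] at e3
    exact (ENNReal.add_le_add_iff_right (ENNReal.div_ne_top e2 (by norm_num))).1 e3
  refine (e1 t ht).trans ((ENNReal.add_halves E).ge.trans ((add_le_add e4 e4).trans ?_))
  have c0 : 0 ≤ ρ ^ 64 := Even.pow_nonneg ⟨32, rfl⟩ ρ
  have c1 : 0 ≤ ρ ^ 64 * ϱ := mul_nonneg c0 S.pos.le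
  have c2 : 0 ≤ ρ ^ 64 * N ^ 2 := mul_nonneg c0 (sq_nonneg N)
  have c3 := R.s0
  have c4 : 0 ≤ K0 * (ρ ^ 64 * ϱ + ς) := mul_nonneg hK0 (add_nonneg c1 c3)
  have c5 : 0 ≤ K2 * (ρ ^ 64 * (N ^ 2 + ϱ)) := mul_nonneg hK2 (by linarith)
  calc a + a = (ENNReal.ofReal (K0 * (ρ ^ 64 * ϱ + ς)) +
          ENNReal.ofReal (K2 * (ρ ^ 64 * (N ^ 2 + ϱ))) + (ENNReal.ofReal (K0 * (ρ ^ 64 * ϱ + ς)) +
          ENNReal.ofReal (K2 * (ρ ^ 64 * (N ^ 2 + ϱ))))) + 4 * NP P ϱ k A n f ρ' := by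
        rw [ha]; ring
    _ ≤ _ := by
        rw [← ENNReal.ofReal_add c4 c5, ← ENNReal.ofReal_add (add_nonneg c4 c5) (add_nonneg c4 c5)]
        refine add_le_add (ENNReal.ofReal_le_ofReal ?_) le_rfl
        linarith [mul_nonneg hK0 c2, mul_nonneg hK2 c3]

end Vale.Agent.P140
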