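import Vale.Agent.P140.Prim
import Vale.Agent.P140.Plane

/-! Two elementary lemmas on the line. -/

namespace Vale.Agent.P140

open MeasureTheory Set Filter Topology
open scoped ENNReal

/- PLAN oneD. l' = (p + e).toReal is integrable on (s,t], l ≤ l' a.e., so exp(-∫ l) ≥ exp(-∫ l'); integral_exp_neg_primitive gives
∫ exp(-L') l' = 1 - exp(-L'(t)) ≥ 1 - exp(-3) ≥ 19/20, and ∫ exp(-L') e ≤ 1/10.
PLAN window. r = ‖x‖, R s = ‖x + (s-t) u‖, I s = τ + lam s, G = {I ≤ R}. The set {s ∈ [t,t'] | R s < ρ} has diameter ≤ 2ρ/‖u‖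
(Real.volume_le_diam). φ t' = (volume (G ∩ [t,t'])).toReal is 1-Lipschitz, φ t = 0, φ (t + 4r/‖u‖) ≥ θ r/‖u‖, so IVT gives t1.
Then t1 - t ≤ (θ r + 2 I t1)/‖u‖, hence I t1 ≤ r (1 + θ/8000)/(1 - 2/8000) ≤ 1.0003 r. Upper bound for R s, s ∈ G: let s0 be the
supremum of {t} ∪ {σ ∈ [t,s] | σ ∉ G}; R s0 ≤ max r (I s0), (s0,s] ⊆ G so (s - s0) ‖u‖ ≤ θ r. Lower bound: if [t,s] ⊆ G then
R s ≥ r - θ r; otherwise at the infimum s1 of [t,s] \ G we have I s1 ≥ R s1 ≥ r - θ r and R s ≥ I s ≥ I s1. -/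

theorem oneD {s t : ℝ} (hst : s ≤ t) {l : ℝ → ℝ} (hl : IntervalIntegrable l volume s t)
    {p e : ℝ → ℝ≥0∞} (hp : Measurable p) (he : Measurable e)
    (hle : ∀ τ ∈ Ioc s t, ENNReal.ofReal (l τ) ≤ p τ + e τ)
    (hpf : ∫⁻ τ in Ioc s t, p τ < ⊤) (h1 : ∫⁻ τ in Ioc s t, e τ ≤ ENNReal.ofReal (1 / 10))
    (h3 : ENNReal.ofReal 3 ≤ ∫⁻ τ in Ioc s t, p τ) :
    ENNReal.ofReal (17 / 20) ≤
      ∫⁻ τ in Ioc s t, ENNReal.ofReal (Real.exp (-∫ u in s..τ, l u)) * p τ := by
  set μ : Measure ℝ := volume.restrict (Ioc s t) with hμ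
  have hq : Measurable (fun τ => p τ + e τ) := hp.add he
  have hqf : ∫⁻ τ, (p τ + e τ) ∂μ ≠ ⊤ := by
    rw [lintegral_add_left hp]
    exact ENNReal.add_ne_top.2 ⟨hpf.ne, ne_top_of_le_ne_top ENNReal.ofReal_ne_top h1⟩
  have hfin : ∀ᵐ τ ∂μ, p τ + e τ < ⊤ := ae_lt_top hq hqf
  set l' : ℝ → ℝ := fun τ => (p τ + e τ).toReal with hl'
  have hint : Integrable l' μ := integrable_toReal_of_lintegral_ne_top hq.aemeasurable hqf
  have hint' : IntervalIntegrable l' volume s t :=
    (intervalIntegrable_iff_integrableOn_Ioc_of_le hst).2 hint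
  have hmem : ∀ᵐ τ ∂μ, τ ∈ Ioc s t := ae_restrict_mem measurableSet_Ioc
  have hll : ∀ᵐ τ ∂μ, l τ ≤ l' τ := by
    filter_upwards [hfin, hmem] with τ h1 h2
    exact (ENNReal.ofReal_le_iff_le_toReal h1.ne).1 (hle τ h2)
  have hmono : ∀ τ ∈ Ioc s t, ∫ u in s..τ, l u ≤ ∫ u in s..τ, l' u := by
    intro τ hτ
    have hsub : uIcc s τ ⊆ uIcc s t := by
      rw [uIcc_of_le hτ.1.le, uIcc_of_le hst]
      exact Icc_subset_Icc le_rfl hτ.2
    rw [intervalIntegral.integral_of_le hτ.1.le, intervalIntegral.integral_of_le hτ.1.le]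
    refine integral_mono_ae
      ((intervalIntegrable_iff_integrableOn_Ioc_of_le hτ.1.le).1 (hl.mono_set hsub))
      ((intervalIntegrable_iff_integrableOn_Ioc_of_le hτ.1.le).1 (hint'.mono_set hsub)) ?_
    exact ae_restrict_of_ae_restrict_of_subset (Ioc_subset_Ioc le_rfl hτ.2) hll
  have hnn : ∀ τ ∈ Ioc s t, 0 ≤ ∫ u in s..τ, l' u := fun τ hτ =>
    intervalIntegral.integral_nonneg hτ.1.le fun u _ => ENNReal.toReal_nonneg
  obtain ⟨hI, hE⟩ := integral_exp_neg_primitive hst hint'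
  have hL : 3 ≤ ∫ u in s..t, l' u := by
    rw [intervalIntegral.integral_of_le hst]
    have h2 : ∫ u, l' u ∂μ = (∫⁻ τ, (p τ + e τ) ∂μ).toReal :=
      integral_toReal hq.aemeasurable hfin
    rw [← hμ, h2]
    refine (ENNReal.ofReal_le_iff_le_toReal hqf).1 (h3.trans ?_)
    exact lintegral_mono fun τ => le_self_add
  have hexp : Real.exp (-∫ u in s..t, l' u) ≤ 1 / 20 := by
    have h2 : Real.exp (-∫ u in s..t, l' u) ≤ Real.exp (-3) := Real.exp_le_exp.2 (by linarith)
    refine h2.trans ?_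
    have h4 : Real.exp 3 = Real.exp 1 ^ 3 := by
      rw [← Real.exp_nat_mul]; norm_num
    have h5 : (2.7182818283 : ℝ) ^ 3 ≤ Real.exp 1 ^ 3 :=
      pow_le_pow_left₀ (by norm_num) Real.exp_one_gt_d9.le 3
    have h6 : (20 : ℝ) ≤ Real.exp 3 := by
      rw [h4]; refine le_trans ?_ h5; norm_num
    rw [Real.exp_neg, one_div]
    exact inv_anti₀ (by norm_num) h6
  have hmain : ENNReal.ofReal (19 / 20) ≤
      ∫⁻ τ, ENNReal.ofReal (Real.exp (-∫ u in s..τ, l' u) * l' τ) ∂μ := by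
    have h2 : Integrable (fun τ => Real.exp (-∫ u in s..τ, l' u) * l' τ) μ :=
      (intervalIntegrable_iff_integrableOn_Ioc_of_le hst).1 hI
    rw [← ofReal_integral_eq_lintegral_ofReal h2
      (Eventually.of_forall fun τ => mul_nonneg (Real.exp_pos _).le ENNReal.toReal_nonneg)]
    refine ENNReal.ofReal_le_ofReal ?_
    rw [intervalIntegral.integral_of_le hst] at hE
    rw [hμ, hE]
    linarith
  have hup : ∫⁻ τ, ENNReal.ofReal (Real.exp (-∫ u in s..τ, l' u) * l' τ) ∂μ ≤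
      ∫⁻ τ, (ENNReal.ofReal (Real.exp (-∫ u in s..τ, l u)) * p τ + e τ) ∂μ := by
    refine lintegral_mono_ae ?_
    filter_upwards [hfin, hmem] with τ h1 h2
    rw [ENNReal.ofReal_mul (Real.exp_pos _).le, hl', ENNReal.ofReal_toReal h1.ne, mul_add]
    refine add_le_add ?_ ?_
    · refine mul_le_mul_left (ENNReal.ofReal_le_ofReal (Real.exp_le_exp.2 ?_)) _
      linarith [hmono τ h2]
    · refine mul_le_of_le_one_left' ?_
      refine ENNReal.ofReal_le_one.2 (Real.exp_le_one_iff.2 ?_)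
      linarith [hnn τ h2]
  rw [lintegral_add_right _ he] at hup
  have h7 := (hmain.trans hup).trans (add_le_add_right h1 _)
  have h8 : ENNReal.ofReal (19 / 20) = ENNReal.ofReal (17 / 20) + ENNReal.ofReal (1 / 10) := by
    rw [← ENNReal.ofReal_add (by norm_num) (by norm_num)]; norm_num
  rw [h8] at h7
  exact (ENNReal.add_le_add_iff_right ENNReal.ofReal_ne_top).1 h7

theorem window {x u : V} {lam τ t θ : ℝ} (hlam : 0 < lam) (hτ : 0 < τ) (ht : 0 ≤ t)
    (hu : 8000 * lam ≤ ‖u‖) (h0 : τ + lam * t ≤ ‖x‖) (hθ0 : 0 < θ) (hθ1 : θ ≤ 1 / 4000) :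
    ∃ t1 : ℝ, t ≤ t1 ∧ (t1 - t) * ‖u‖ ≤ 3 * ‖x‖ ∧
      volume {s | s ∈ Icc t t1 ∧ τ + lam * s ≤ ‖x + (s - t) • u‖} =
        ENNReal.ofReal (θ * ‖x‖ / ‖u‖) ∧
      ∀ s ∈ Icc t t1, ‖x + (s - t) • u‖ ≤ 10006 / 10000 * ‖x‖ ∧
        (τ + lam * s ≤ ‖x + (s - t) • u‖ → ‖x‖ / 2 ≤ ‖x + (s - t) • u‖) := by
  set r := ‖x‖ with hr
  set w := ‖u‖ with hw
  have hlt : 0 ≤ lam * t := mul_nonneg hlam.le ht
  have hr0 : 0 < r := by linarith
  have hw0 : 0 < w := by linarith
  set R : ℝ → ℝ := fun s => ‖x + (s - t) • u‖ with hR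
  have hRt : R t = r := by simp [hR, hr]
  have hdiff : ∀ a b : ℝ, ‖(x + (a - t) • u) - (x + (b - t) • u)‖ = |a - b| * w := by
    intro a b
    have : (x + (a - t) • u) - (x + (b - t) • u) = (a - b) • u := by
      rw [add_sub_add_left_eq_sub, ← sub_smul]; congr 1; ring
    rw [this, norm_smul, Real.norm_eq_abs]
  have hlip : ∀ a b : ℝ, |R a - R b| ≤ |a - b| * w := fun a b => by
    rw [← hdiff]; exact abs_norm_sub_norm_le _ _
  have hsum : ∀ a b : ℝ, |a - b| * w ≤ R a + R b := fun a b => by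
    rw [← hdiff]; exact norm_sub_le _ _
  have hRc : Continuous R := by
    simp only [hR]; fun_prop
  set G : Set ℝ := {s | τ + lam * s ≤ R s} with hG
  have hGm : MeasurableSet G := (isClosed_le (by fun_prop) hRc).measurableSet
  set φ : ℝ → ℝ := fun b => ∫ s in t..b, G.indicator (fun _ => (1 : ℝ)) s with hφ
  have hφc : Continuous φ := by
    refine intervalIntegral.continuous_primitive (fun a b => ?_) t
    rw [intervalIntegrable_iff]
    exact (integrableOn_const (by simp [uIoc])).indicator hGm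
  have hfinv : ∀ b, volume (Icc t b ∩ G) ≠ ⊤ := fun b =>
    ne_top_of_le_ne_top (by simp) (measure_mono inter_subset_left)
  have hφv : ∀ b, t ≤ b → φ b = (volume (Icc t b ∩ G)).toReal := by
    intro b hb
    simp only [hφ]
    rw [intervalIntegral.integral_of_le hb, ← integral_Icc_eq_integral_Ioc,
      integral_indicator hGm, setIntegral_const, smul_eq_mul, mul_one, Measure.real,
      Measure.restrict_apply hGm, inter_comm]
  have hkey : ∀ b, t ≤ b → (b - t) * w ≤ φ b * w + 2 * (τ + lam * b) := by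
    intro b hb
    have hIb : 0 ≤ τ + lam * b := by nlinarith
    have h1 : volume (Icc t b \ G) ≤ ENNReal.ofReal (2 * (τ + lam * b) / w) := by
      refine (Real.volume_le_diam _).trans (Metric.ediam_le_of_forall_dist_le ?_)
      intro a ha c hc
      have ha' : R a < τ + lam * a := not_le.1 ha.2
      have hc' : R c < τ + lam * c := not_le.1 hc.2
      rw [Real.dist_eq, le_div_iff₀ hw0]
      have := hsum a c
      have h2 := mul_le_mul_of_nonneg_left ha.1.2 hlam.le
      have h3 := mul_le_mul_of_nonneg_left hc.1.2 hlam.le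
      linarith
    have h2 : volume (Icc t b) ≤ volume (Icc t b ∩ G) + volume (Icc t b \ G) :=
      measure_le_inter_add_sdiff _ _ _
    have h3 : ENNReal.ofReal (b - t) ≤ ENNReal.ofReal (φ b + 2 * (τ + lam * b) / w) := by
      rw [← Real.volume_Icc, hφv b hb, ENNReal.ofReal_add ENNReal.toReal_nonneg (by positivity),
        ENNReal.ofReal_toReal (hfinv b)]
      exact h2.trans (add_le_add_right h1 _)
    have hφ0 : 0 ≤ φ b := by rw [hφv b hb]; exact ENNReal.toReal_nonneg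
    have h4 := (ENNReal.ofReal_le_ofReal_iff (by positivity)).1 h3
    have h5 := mul_le_mul_of_nonneg_right h4 hw0.le
    rw [add_mul, div_mul_cancel₀ _ hw0.ne'] at h5
    exact h5
  have hlw : ∀ d : ℝ, 0 ≤ d → lam * d ≤ d * w / 8000 := by
    intro d hd
    have := mul_le_mul_of_nonneg_left hu hd
    linarith
  have hθr : θ * r ≤ r / 4000 := by nlinarith
  obtain ⟨t1, ht1, hφ1⟩ : ∃ t1 ∈ Icc t (t + 4 * r / w), φ t1 = θ * r / w := by
    have hb : t ≤ t + 4 * r / w := le_add_of_nonneg_right (by positivity)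
    refine intermediate_value_Icc hb hφc.continuousOn ⟨?_, ?_⟩
    · simp only [hφ, intervalIntegral.integral_same]; positivity
    · have h1 := hkey _ hb
      have h2 := hlw (4 * r / w) (by positivity)
      have h3 : 4 * r / w * w = 4 * r := div_mul_cancel₀ _ hw0.ne'
      rw [add_sub_cancel_left, h3, mul_add lam] at h1
      rw [h3] at h2
      rw [div_le_iff₀ hw0]
      linarith
  have hvol : volume (Icc t t1 ∩ G) = ENNReal.ofReal (θ * r / w) := by
    rw [← hφ1, hφv t1 ht1.1, ENNReal.ofReal_toReal (hfinv t1)]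
  have hD : (t1 - t) * w ≤ 24 / 10 * r := by
    have h1 := hkey t1 ht1.1
    have h2 := hlw (t1 - t) (sub_nonneg.2 ht1.1)
    rw [hφ1, div_mul_cancel₀ _ hw0.ne'] at h1
    have h3 : lam * t1 = lam * t + lam * (t1 - t) := by ring
    linarith
  have hI1 : τ + lam * t1 ≤ 10003 / 10000 * r := by
    have h2 := hlw (t1 - t) (sub_nonneg.2 ht1.1)
    have h3 : lam * t1 = lam * t + lam * (t1 - t) := by ring
    linarith
  have hsmall : ∀ a d : ℝ, Icc a (a + d / w) ⊆ Icc t t1 ∩ G → d ≤ r / 4000 := by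
    intro a d hsub
    have h1 := measure_mono (μ := volume) hsub
    rw [hvol, Real.volume_Icc, add_sub_cancel_left] at h1
    have h2 := (ENNReal.ofReal_le_ofReal_iff (by positivity)).1 h1
    have h3 := (div_le_div_iff_of_pos_right hw0).1 h2
    linarith
  refine ⟨t1, ht1.1, by linarith, hvol, fun s hs => ⟨?_, fun hsG => ?_⟩⟩
  · by_contra hcon
    have hc : 10006 / 10000 * r < R s := not_le.1 hcon
    set d : ℝ := 3 / 10000 * r with hd
    have hdw : d / w * w = d := div_mul_cancel₀ _ hw0.ne'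
    have h1 : d / w ≤ s - t := by
      have h2 := hlip s t
      rw [abs_of_nonneg (sub_nonneg.2 hs.1), hRt] at h2
      have h3 := le_abs_self (R s - r)
      rw [div_le_iff₀ hw0]
      linarith
    have h2 := hsmall (s - d / w) d (by
      intro σ hσ
      rw [sub_add_cancel] at hσ
      refine ⟨⟨by linarith [hσ.1], hσ.2.trans hs.2⟩, ?_⟩
      have h3 := hlip s σ
      rw [abs_of_nonneg (sub_nonneg.2 hσ.2)] at h3
      have h4 := le_abs_self (R s - R σ)
      have h5 : (s - σ) * w ≤ d / w * w :=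
        mul_le_mul_of_nonneg_right (by linarith [hσ.1]) hw0.le
      have h6 := mul_le_mul_of_nonneg_left (hσ.2.trans hs.2) hlam.le
      show τ + lam * σ ≤ R σ
      linarith)
    linarith
  · by_contra hcon
    have hc : R s < r / 2 := not_le.1 hcon
    have hsG' : τ + lam * s ≤ R s := hsG
    set d : ℝ := r / 4 with hd
    have hdw : d / w * w = d := div_mul_cancel₀ _ hw0.ne'
    have h1 : d / w ≤ s - t := by
      have h2 := hlip t s
      rw [abs_sub_comm t s, abs_of_nonneg (sub_nonneg.2 hs.1), hRt] at h2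
      have h3 := le_abs_self (r - R s)
      rw [div_le_iff₀ hw0]
      linarith
    have h2 := hsmall t d (by
      intro σ hσ
      have hσs : σ ≤ s := by linarith [hσ.2]
      refine ⟨⟨hσ.1, hσs.trans hs.2⟩, ?_⟩
      have h3 := hlip t σ
      rw [abs_sub_comm t σ, abs_of_nonneg (sub_nonneg.2 hσ.1), hRt] at h3
      have h4 := le_abs_self (r - R σ)
      have h5 : (σ - t) * w ≤ d / w * w :=
        mul_le_mul_of_nonneg_right (by linarith [hσ.2]) hw0.le
      have h6 := mul_le_mul_of_nonneg_left hσs hlam.le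
      show τ + lam * σ ≤ R σ
      linarith)
    linarith

end Vale.Agent.P140
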