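import Vale.Agent.P140.IV2
import Vale.Agent.P140.IV3

/-! From a good time window to the value estimate. -/

namespace Vale.Agent.P140

open MeasureTheory Set Filter Topology
open scoped ENNReal

open Classical

variable {P : Par} {A : ℕ} {ϱ cS θ : ℝ}

/- PLAN val_of_window. If ps0 t x v = 0 trivial. Otherwise r = rr x > 0, e0 = r ‖v‖² < 1, ps0 = (1/r)^66 (1 - e0). Put rp = 1.0006 r ≤ ϱ/2.
On the window Th ≥ coef(rp) · kap · nuP ≥ coef · 0.99 · p with p = 1_Prod1 kap nuB (Th_ge, nuB_le_nuP). oneD with l = ln along the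
trajectory (TrSol.ii_ln'), e = 1_{¬Prod1} nuB + K (1+‖v‖) (kap_le_one), ∫ p < ⊤ by nuB_le. Ioc t t1 ⊆ Ioc t T. Numerics:
1.0006^66 ≤ 1.05, 4 rp ≤ 1/1000, 1.1 (1 - e0) ≤ 0.99 · 0.85/1.05 · (1.979 - 1.0006 e0).
good_int: on the set of times in a full layer of sign σ we have Prod1 (FullR_lay, c ≤ b) and nuB_full gives
kap nuB ≥ 1/2 · cS/4 · b · C0/(1.0006 r); multiply by the measure (Icc and Ioc differ by a point); 8 · 128 · 1.0006 ≤ 1025.
bad_int: nuB_nonprod, rbar = 0 off the layers and ≤ 2 C0/r in the layers. -/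

theorem iv5_num {r e : ℝ} (hr : 0 < r) (hr1 : r ≤ 1 / 10 ^ 9) (he : 0 ≤ e) :
    11 / 10 * ((1 / r) ^ 66 * max (1 - r * e) 0) ≤
      max ((1 / (10006 / 10000 * r)) ^ 66 * (2 - 10006 / 10000 * r * (e + 4) - 1 / 50)) 0 *
        (99 / 100) * (17 / 20) := by
  rcases le_total (1 - r * e) 0 with h | h
  · rw [max_eq_right h, mul_zero, mul_zero]
    positivity
  rw [max_eq_left h]
  have h1 : (1 / r) ^ 66 = (10006 / 10000 : ℝ) ^ 66 * (1 / (10006 / 10000 * r)) ^ 66 := by
    rw [← mul_pow]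
    congr 1
    field_simp
  have h2 : (10006 / 10000 : ℝ) ^ 66 ≤ 105 / 100 := by norm_num
  set q := (1 / (10006 / 10000 * r)) ^ 66 with hq
  have hq0 : 0 ≤ q := by positivity
  have hre : 0 ≤ r * e := by positivity
  have h3 : 11 / 10 * ((10006 / 10000 : ℝ) ^ 66 * (1 - r * e)) ≤
      (2 - 10006 / 10000 * r * (e + 4) - 1 / 50) * (99 / 100) * (17 / 20) := by
    have := mul_le_mul_of_nonneg_right h2 h
    nlinarith
  have h4 := le_max_left (q * (2 - 10006 / 10000 * r * (e + 4) - 1 / 50)) 0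
  have h5 := mul_le_mul_of_nonneg_left h3 hq0
  rw [h1]
  nlinarith

theorem iv5_meas (t : ℝ) (x : X) (v : V) : Measurable fun s : ℝ => x + pr ((s - t) • v) :=
  measurable_const.add (measurable_pr.comp ((measurable_id.sub measurable_const).smul_const v))

theorem iv5_nu (k n : ℕ) (t : ℝ) (x : X) (v : V) :
    Measurable fun s => nuB P ϱ k n s (x + pr ((s - t) • v)) v := by
  have h : Measurable fun s : ℝ => (s, x + pr ((s - t) • v), v) :=
    measurable_id.prodMk ((iv5_meas t x v).prodMk measurable_const)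
  have h2 := (measurable_nuB P ϱ k n).comp h
  exact h2

theorem val_of_window (hV : ValP P cS θ) {k n : ℕ} {ς N : ℝ} {f : ℝ → Om → ℝ}
    (R : Run P A ϱ k n ς N f) (hn : 13 / (n : ℝ) ≤ cS * P.c / 4)
    (hB : ∀ t ∈ Icc 0 (TT P ϱ), ∀ (x : X) (v : V), 99 / 100 * Bc P ϱ k t x v ≤ f t (x, v)) {K : ℝ}
    (hl : ∀ s ∈ Icc 0 (TT P ϱ), ∀ (y : X) (v : V), ENNReal.ofReal (ln n (f s) (y, v)) ≤
      ENNReal.ofReal (kap n (f s) y) * nuB P ϱ k n s y v + ENNReal.ofReal (K * (1 + ‖v‖)))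
    {t t1 : ℝ} (ht : 0 ≤ t) (htt : t ≤ t1) (ht1 : t1 ≤ TT P ϱ) {x : X} {v : V}
    (hr : rr x ≤ ϱ / 4) (hK : K * (1 + ‖v‖) * (t1 - t) ≤ 1 / 20)
    (hR : ∀ s ∈ Icc t t1, rr (x + pr ((s - t) • v)) ≤ 10006 / 10000 * rr x)
    (hbad : ∫⁻ s in Ioc t t1, (if Prod1 P ϱ k s (x + pr ((s - t) • v)) v then 0
      else nuB P ϱ k n s (x + pr ((s - t) • v)) v) ≤ ENNReal.ofReal (1 / 20))
    (hgood : ENNReal.ofReal 3 ≤ ∫⁻ s in Ioc t t1, (if Prod1 P ϱ k s (x + pr ((s - t) • v)) v then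
      ENNReal.ofReal (kap n (f s) (x + pr ((s - t) • v))) * nuB P ϱ k n s (x + pr ((s - t) • v)) v
      else 0)) :
    ENNReal.ofReal (11 / 10 * ps0 P ϱ k t x v) ≤ Fw n f (TT P ϱ) (Th P ϱ k n f) t x v := by
  have S := R.sm
  have hn1 := R.sol.npos
  have hf0 := R.sol.nonneg
  unfold ps0
  split_ifs with hc
  swap
  · simp
  have hr0 : 0 < rr x := by
    have h1 := hc.2.1
    have h2 := S.ar_pos (k + 1)
    have h3 := mul_nonneg S.ok.lam0.le ht
    unfold y0 at h1
    linarith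
  have hϱ := S.pos
  have hϱ1 := S.rho_le'
  have hmem : ∀ s ∈ Ioc t t1, s ∈ Icc 0 (TT P ϱ) := fun s hs =>
    ⟨ht.trans hs.1.le, hs.2.trans ht1⟩
  have hy := iv5_meas t x v
  have hnu : Measurable fun s => nuB P ϱ k n s (x + pr ((s - t) • v)) v :=
    iv5_nu k n t x v
  have hP1 : MeasurableSet {s | Prod1 P ϱ k s (x + pr ((s - t) • v)) v} :=
    measurableSet_Prod1 P ϱ k measurable_id hy measurable_const
  have hkap : Measurable fun s => ENNReal.ofReal (kap n (f s) (x + pr ((s - t) • v))) :=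
    (measurable_kap n R.sol.meas hy).ennreal_ofReal
  have hk1 : ∀ s y, ENNReal.ofReal (kap n (f s) y) ≤ 1 := fun s y =>
    ENNReal.ofReal_le_one.2 (kap_le_one n (hf0 s) y)
  have hb1 := hbad
  have h1D := oneD htt (R.sol.ii_ln' ht (ht.trans htt) t x v)
    (p := fun s => if Prod1 P ϱ k s (x + pr ((s - t) • v)) v then
      ENNReal.ofReal (kap n (f s) (x + pr ((s - t) • v))) * nuB P ϱ k n s (x + pr ((s - t) • v)) v
      else 0)
    (e := fun s => (if Prod1 P ϱ k s (x + pr ((s - t) • v)) v then 0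
      else nuB P ϱ k n s (x + pr ((s - t) • v)) v) + ENNReal.ofReal (K * (1 + ‖v‖)))
    (Measurable.ite hP1 (hkap.mul hnu) measurable_const)
    ((Measurable.ite hP1 measurable_const hnu).add measurable_const)
    (fun s hs => by
      refine (hl s (hmem s hs) _ v).trans ?_
      split_ifs
      · rw [zero_add]
      · rw [zero_add]
        exact add_le_add (mul_le_of_le_one_left' (hk1 _ _)) le_rfl)
    (by
      refine lt_of_le_of_lt (setLIntegral_mono' measurableSet_Ioc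
        (g := fun _ => ENNReal.ofReal (208 * n * P.C0 / ar P ϱ (k + 1))) fun s hs => ?_) ?_
      · split_ifs
        · exact (mul_le_of_le_one_left' (hk1 _ _)).trans (S.nuB_le k n (hmem s hs) _ v)
        · exact zero_le
      · rw [setLIntegral_const, Real.volume_Ioc]
        exact ENNReal.mul_lt_top ENNReal.ofReal_lt_top ENNReal.ofReal_lt_top)
    (by
      rw [lintegral_add_right _ measurable_const, setLIntegral_const, Real.volume_Ioc,
        ← ENNReal.ofReal_mul' (sub_nonneg.2 htt)]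
      refine (add_le_add hb1 (ENNReal.ofReal_le_ofReal hK)).trans ?_
      rw [← ENNReal.ofReal_add (by norm_num) (by norm_num)]
      exact ENNReal.ofReal_le_ofReal (by norm_num))
    hgood
  set co : ℝ := (1 / (10006 / 10000 * rr x)) ^ 66 *
    (2 - 10006 / 10000 * rr x * (‖v‖ ^ 2 + 4) - 1 / 50) with hco
  calc ENNReal.ofReal (11 / 10 * ((1 / rr x) ^ 66 * max (1 - rr x * ‖v‖ ^ 2) 0))
      ≤ ENNReal.ofReal (max co 0 * (99 / 100) * (17 / 20)) :=
        ENNReal.ofReal_le_ofReal (iv5_num hr0 (by linarith) (sq_nonneg _))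
    _ = ENNReal.ofReal co * ENNReal.ofReal (99 / 100) * ENNReal.ofReal (17 / 20) := by
        rw [ENNReal.ofReal_mul' (by norm_num), ENNReal.ofReal_mul' (by norm_num),
          ENNReal.ofReal_max, ENNReal.ofReal_zero, max_eq_left zero_le]
    _ ≤ _ := by
        refine (mul_le_mul' le_rfl h1D).trans ?_
        rw [← lintegral_const_mul' _ _
          (ENNReal.mul_ne_top ENNReal.ofReal_ne_top ENNReal.ofReal_ne_top)]
        refine le_trans (setLIntegral_mono' measurableSet_Ioc fun s hs => ?_)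
          (lintegral_mono_set (Ioc_subset_Ioc_right ht1))
        rw [mul_left_comm]
        refine mul_le_mul' le_rfl ?_
        split_ifs with hp
        · refine le_trans ?_ (Th_ge hV S hn1 hn k R.sol.meas (hmem s hs)
            (hR s (Ioc_subset_Icc_self hs)) (by linarith) v)
          rw [mul_assoc]
          refine mul_le_mul' le_rfl ?_
          rw [mul_left_comm]
          exact mul_le_mul' le_rfl (S.nuB_le_nuP k n (hmem s hs) hp (hB s (hmem s hs) _))
        · simp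

theorem good_int (hV : ValP P cS θ) (S : Sm P A ϱ) {k n : ℕ} (hn1 : 1 ≤ n)
    (hn : 13 / (n : ℝ) ≤ cS * P.c / 4) {f : ℝ → Om → ℝ}
    (hk : ∀ s ∈ Icc 0 (TT P ϱ), ∀ y : X, 1 / 2 ≤ kap n (f s) y) {t t1 : ℝ} (ht : 0 ≤ t)
    (ht1 : t1 ≤ TT P ϱ) {x : X} (hx : 0 < rr x) {v : V} (hE : ‖v‖ ^ 2 + 4 ≤ (n : ℝ) ^ 2)
    (hR : ∀ s ∈ Icc t t1, rr (x + pr ((s - t) • v)) ≤ 10006 / 10000 * rr x) {σ b θ' : ℝ}
    (hb : P.c ≤ b) (hW : ∀ y, b ^ 2 ≤ Wf P σ y v)
    (hvol : ENNReal.ofReal (θ' ^ 2 * rr x / (128 * (‖vb v‖ + P.lam))) ≤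
      volume {s | s ∈ Icc t t1 ∧ ∃ j ≤ k, Full P ϱ j s (x + pr ((s - t) • v)) ∧ sg j = σ}) :
    ENNReal.ofReal (cS * P.C0 * b * θ' ^ 2 / (1025 * (‖vb v‖ + P.lam))) ≤
      ∫⁻ s in Ioc t t1, (if Prod1 P ϱ k s (x + pr ((s - t) • v)) v then
        ENNReal.ofReal (kap n (f s) (x + pr ((s - t) • v))) *
          nuB P ϱ k n s (x + pr ((s - t) • v)) v else 0) := by
  have hy := iv5_meas t x v
  have hm : MeasurableSet
      {s | s ∈ Icc t t1 ∧ ∃ j ≤ k, Full P ϱ j s (x + pr ((s - t) • v)) ∧ sg j = σ} :=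
    MeasurableSet.inter measurableSet_Icc (measurableSet_setOfPred.2 (Measurable.exists fun j =>
      measurable_const.and ((measurableSet_setOfPred.1
        (measurableSet_Full P ϱ j measurable_id hy)).and measurable_const)))
  have hlam := S.ok.lam0
  have hc : 0 < P.c := hlam.trans_le S.ok.lamc
  have hb0 : 0 < b := hc.trans_le hb
  have hC : 0 < P.C0 := one_pos.trans_le S.ok.C0
  have hcS := hV.cS0
  have hD : 0 < ‖vb v‖ + P.lam := by positivity
  set c0 : ℝ := 1 / 2 * (cS / 4 * b * (P.C0 / (10006 / 10000 * rr x))) with hc0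
  calc ENNReal.ofReal (cS * P.C0 * b * θ' ^ 2 / (1025 * (‖vb v‖ + P.lam)))
      ≤ ENNReal.ofReal (c0 * (θ' ^ 2 * rr x / (128 * (‖vb v‖ + P.lam)))) := by
        refine ENNReal.ofReal_le_ofReal ?_
        have : c0 * (θ' ^ 2 * rr x / (128 * (‖vb v‖ + P.lam))) =
            cS * P.C0 * b * θ' ^ 2 / (8 * 128 * (10006 / 10000) * (‖vb v‖ + P.lam)) := by
          rw [hc0]
          field_simp
          ring
        rw [this]
        refine div_le_div_of_nonneg_left (by positivity) (by positivity) ?_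
        nlinarith
    _ ≤ ENNReal.ofReal c0 * volume
        {s | s ∈ Icc t t1 ∧ ∃ j ≤ k, Full P ϱ j s (x + pr ((s - t) • v)) ∧ sg j = σ} := by
        rw [ENNReal.ofReal_mul (by positivity)]
        exact mul_le_mul' le_rfl hvol
    _ ≤ _ := by
        rw [← setLIntegral_const, Measure.restrict_congr_set Ioc_ae_eq_Icc]
        refine le_trans (setLIntegral_mono' hm fun s hs => ?_)
          (lintegral_mono_set fun s hs => hs.1)
        obtain ⟨hs, j, hj, hF, rfl⟩ := hs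
        have hs' : s ∈ Icc 0 (TT P ϱ) := ⟨ht.trans hs.1, hs.2.trans ht1⟩
        have hL : Lay P ϱ j s (x + pr ((s - t) • v)) := S.FullR_lay hF
        have hpos : 0 < rr (x + pr ((s - t) • v)) :=
          (S.ar_pos (j + 1)).trans_le (S.Lay_rr hs' hL).1
        rw [if_pos ⟨j, hj, hL, (pow_le_pow_left₀ hc.le hb 2).trans (hW _)⟩, hc0,
          ENNReal.ofReal_mul (by norm_num)]
        refine mul_le_mul' (ENNReal.ofReal_le_ofReal (hk s hs' _)) (le_trans
          (ENNReal.ofReal_le_ofReal ?_) (nuB_full hV S hn1 hn hj hs' hF hb (hW _) hE))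
        exact mul_le_mul_of_nonneg_left (div_le_div_of_nonneg_left hC.le hpos (hR s hs))
          (by positivity)

theorem Sm.bad_int (S : Sm P A ϱ) (k n : ℕ) {t t1 : ℝ} (ht : 0 ≤ t) (ht1 : t1 ≤ TT P ϱ) {x : X}
    (hx : 0 < rr x) {v : V}
    (hR : ∀ s ∈ Icc t t1, InL P ϱ k s (x + pr ((s - t) • v)) →
      rr x / 2 ≤ rr (x + pr ((s - t) • v))) {μ : ℝ} (hμ : 0 ≤ μ)
    (hvol : volume {s | s ∈ Icc t t1 ∧ InL P ϱ k s (x + pr ((s - t) • v))} ≤ ENNReal.ofReal μ) :
    ∫⁻ s in Ioc t t1, (if Prod1 P ϱ k s (x + pr ((s - t) • v)) v then 0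
      else nuB P ϱ k n s (x + pr ((s - t) • v)) v) ≤
      ENNReal.ofReal (416 * P.c * P.C0 / rr x * μ) := by
  have hc : 0 < P.c := S.ok.lam0.trans_le S.ok.lamc
  have hC : 0 < P.C0 := one_pos.trans_le S.ok.C0
  calc _ ≤ ∫⁻ s in Ioc t t1, {s | s ∈ Icc t t1 ∧ InL P ϱ k s (x + pr ((s - t) • v))}.indicator
        (fun _ => ENNReal.ofReal (416 * P.c * P.C0 / rr x)) s := by
        refine setLIntegral_mono' measurableSet_Ioc fun s hs => ?_
        have hs' : s ∈ Icc 0 (TT P ϱ) := ⟨ht.trans hs.1.le, hs.2.trans ht1⟩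
        split_ifs with hp
        · exact zero_le
        refine (S.nuB_nonprod k n hs' hp).trans ?_
        unfold rbar
        split_ifs with hI
        · rw [indicator_of_mem (show s ∈ {s | s ∈ Icc t t1 ∧
            InL P ϱ k s (x + pr ((s - t) • v))} from ⟨Ioc_subset_Icc_self hs, hI⟩)]
          refine ENNReal.ofReal_le_ofReal ?_
          have h1 := div_le_div_of_nonneg_left hC.le (by positivity)
            (hR s (Ioc_subset_Icc_self hs) hI)
          calc _ ≤ 208 * P.c * (P.C0 / (rr x / 2)) := mul_le_mul_of_nonneg_left h1 (by positivity)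
            _ = _ := by field_simp; ring
        · simp
    _ ≤ ENNReal.ofReal (416 * P.c * P.C0 / rr x) *
        volume {s | s ∈ Icc t t1 ∧ InL P ϱ k s (x + pr ((s - t) • v))} :=
        (setLIntegral_le_lintegral _ _).trans (lintegral_indicator_const_le _ _)
    _ ≤ _ := by
        rw [ENNReal.ofReal_mul (by positivity)]
        exact mul_le_mul' le_rfl hvol

end Vale.Agent.P140
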