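import Vale.Agent.P140.IV4
import Vale.Agent.P140.IV5

/-! The chain reaction: every particle reproduces its value with a factor 11/10. -/

namespace Vale.Agent.P140

open MeasureTheory Set Filter Topology
open scoped ENNReal

open Classical

/- PLAN ev_valI. Collect ev_lowB, ev_kap, exists_ln_le (constant K), 13/n ≤ cS c/4 and 1/ar (k+1) + 4 ≤ n² (Ev.of_n),
K · 6 √ϱ/(Lam lam) ≤ 1/20 (Ev.of_rho). If psI ≠ 0: rr x ≤ ϱ/4, Lam lam ≤ ‖vb v‖, τ ≤ y0 ≤ r, r ‖v‖² < 1, so ‖v‖² ≤ 1/τ and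
(1+‖v‖)(t1-t) ≤ 3 (r + √r)/(Lam lam). Apply val_of_window.
Case c + lam ≤ ‖vb v‖: exists_window with θ' = 1/4000 (θ ≤ θ'), b = ‖vb v‖ - lam (Wf_ge_vb), σ = 1; the bad integral vanishes since
InL implies Prod1 (nuB_nonprod with rbar = 0 off the layers); b/(‖vb v‖+lam) ≥ 1/2 and 10^11/(2 · 1025 · 4000²) ≥ 3.
Case ‖vb v‖ < c + lam: exists_window with θ, σ with 1 ≤ |v 0 - σ|, b = 1 (Wf_ge_ax), hV.far (3 · 1025 ≤ 3090), bad_int and hV.near.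
PLAN exists_par: cS from exists_cS, Lam = 8000, β = cS/200, κ = min of the constants of bad_vp, bad_vq, Λ' = max 2 (2 · 8002/κ),
c = Λ' lam (‖vb v'‖ < Lam lam and ‖vb w‖ ≤ 2 lam give ‖vb (v' - w)‖ ≤ 8002 lam ≤ κ c/2), C0 = 10^11/cS,
θ = min (1/4000) (8000/(8320 C0 Λ')), th = 1 - θ²/512, lam small. -/

/-- the error from the hot particles is small on a short window -/
theorem iv6_K {K L r a u δ d : ℝ} (hK : 0 ≤ K) (hL : 0 < L) (hr : 0 ≤ r) (ha : 0 ≤ a)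
    (hd : 0 ≤ d) (hδ : 120 * (K + 1) * δ ≤ L) (hδ0 : 0 ≤ δ) (h1 : r ≤ δ) (h2 : r ≤ δ ^ 2)
    (h3 : r * a ^ 2 < 1) (hu : L ≤ u) (hw : d * u ≤ 3 * r) : K * (1 + a) * d ≤ 1 / 20 := by
  have h4 : r * a ≤ δ := by
    refine (sq_le_sq₀ (mul_nonneg hr ha) hδ0).1 ?_
    have h5 := mul_le_mul_of_nonneg_left h3.le hr
    nlinarith
  have h5 : d * L ≤ 3 * r := (mul_le_mul_of_nonneg_left hu hd).trans hw
  have h6 : (1 + a) * (d * L) ≤ 6 * δ := by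
    have h7 := mul_le_mul_of_nonneg_left h5 (by linarith : 0 ≤ 1 + a)
    nlinarith
  have h8 := mul_le_mul_of_nonneg_left h6 hK
  refine le_of_mul_le_mul_right ?_ hL
  nlinarith

theorem iv6_pt {P : Par} {cS θ : ℝ} (hV : ValP P cS θ) {A : ℕ} {ϱ : ℝ} {k n : ℕ} {ς N : ℝ}
    {f : ℝ → Om → ℝ} (R : Run P A ϱ k n ς N f) (hn1 : 1 ≤ n) (hn : 13 / (n : ℝ) ≤ cS * P.c / 4)
    (hn2 : 1 / ar P ϱ (k + 1) + 4 ≤ (n : ℝ) ^ 2)
    (hB : ∀ t ∈ Icc 0 (TT P ϱ), ∀ (x : X) (v : V), 99 / 100 * Bc P ϱ k t x v ≤ f t (x, v))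
    (hk : ∀ s ∈ Icc 0 (TT P ϱ), ∀ y : X, 1 / 2 ≤ kap n (f s) y) {K δ : ℝ} (hK : 0 ≤ K)
    (hl : ∀ s ∈ Icc 0 (TT P ϱ), ∀ (y : X) (v : V), ENNReal.ofReal (ln n (f s) (y, v)) ≤
      ENNReal.ofReal (kap n (f s) y) * nuB P ϱ k n s y v + ENNReal.ofReal (K * (1 + ‖v‖)))
    (hδ : 120 * (K + 1) * δ ≤ P.Lam * P.lam) (hδ0 : 0 ≤ δ) (h1 : ϱ ≤ δ) (h2 : ϱ ≤ δ ^ 2)
    {t : ℝ} (ht : 0 ≤ t) {x : X} {v : V} (hr : rr x ≤ ϱ / 4) (hv : P.Lam * P.lam ≤ ‖vb v‖)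
    (hy : ar P ϱ (k + 1) ≤ y0 P t x) (he : rr x * ‖v‖ ^ 2 < 1) :
    ENNReal.ofReal (11 / 10 * ps0 P ϱ k t x v) ≤ Fw n f (TT P ϱ) (Th P ϱ k n f) t x v := by
  have S := R.sm
  have hlam := hV.ok.lam0
  have hϱ := S.pos
  have hτ := S.ar_pos (k + 1)
  have hτr : ar P ϱ (k + 1) ≤ rr x := by
    rw [y0] at hy
    linarith [mul_nonneg hlam.le ht]
  have hx : 0 < rr x := hτ.trans_le hτr
  have hL : 8000 * P.lam ≤ P.Lam * P.lam := mul_le_mul_of_nonneg_right hV.Lam hlam.le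
  have hE : ‖v‖ ^ 2 + 4 ≤ (n : ℝ) ^ 2 := by
    have h3 : ‖v‖ ^ 2 ≤ 1 / ar P ϱ (k + 1) := by
      rw [le_div_iff₀ hτ]
      nlinarith [mul_le_mul_of_nonneg_right hτr (sq_nonneg ‖v‖)]
    linarith
  have hKw : ∀ d : ℝ, 0 ≤ d → d * ‖vb v‖ ≤ 3 * rr x → K * (1 + ‖v‖) * d ≤ 1 / 20 := fun d hd hw =>
    iv6_K hK (by linarith) hx.le (norm_nonneg v) hd hδ hδ0 (by linarith) (by linarith) he hv hw
  have hc0 : 0 < P.c := hlam.trans_le hV.ok.lamc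
  have hb0 : 0 < ‖vb v‖ := by linarith
  rcases le_or_gt (P.c + P.lam) ‖vb v‖ with hc | hc
  · have hth : 1 - P.th ≤ (1 / 4000 : ℝ) ^ 2 / 512 :=
      hV.lamin.trans (div_le_div_of_nonneg_right (pow_le_pow_left₀ hV.θ0.le hV.θ1 2) (by norm_num))
    obtain ⟨t1, htt, ht1, hw, hR, -, hvol⟩ :=
      S.exists_window hV.Lam (θ := 1 / 4000) (by norm_num) le_rfl hth k ht hv hy hr
    have hb : P.c ≤ ‖vb v‖ - P.lam := by linarith
    refine val_of_window hV R hn hB hl ht htt ht1 hr (hKw _ (sub_nonneg.2 htt) hw)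
      (fun s hs => (hR s hs).1) ?_ ?_
    · refine le_trans (le_of_eq ?_) zero_le
      refine setLIntegral_eq_zero measurableSet_Ioc fun s hs => ?_
      have hs' : s ∈ Icc 0 (TT P ϱ) := ⟨ht.trans hs.1.le, hs.2.trans ht1⟩
      simp only [Pi.zero_apply]
      split_ifs with h
      · rfl
      · have h3 := S.nuB_nonprod k n hs' h
        have h4 : ¬ InL P ϱ k s (x + pr ((s - t) • v)) := fun ⟨j, hj, h5⟩ =>
          h ⟨j, hj, h5, (pow_le_pow_left₀ hc0.le hb 2).trans (Wf_ge_vb hV.ok _ _ v)⟩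
        rw [rbar, if_neg h4, mul_zero, ENNReal.ofReal_zero] at h3
        exact le_antisymm h3 zero_le
    · refine le_trans (ENNReal.ofReal_le_ofReal ?_) (good_int hV S hn1 hn hk ht ht1 hx hE
        (fun s hs => (hR s hs).1) hb (fun y => Wf_ge_vb hV.ok 1 y v) (hvol 1 (Or.inl rfl)))
      rw [le_div_iff₀ (by positivity)]
      have h3 := mul_le_mul_of_nonneg_right hV.C0 (hc0.le.trans hb)
      nlinarith
  · obtain ⟨t1, htt, ht1, hw, hR, hbad, hvol⟩ :=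
      S.exists_window hV.Lam hV.θ0 hV.θ1 hV.lamin k ht hv hy hr
    obtain ⟨σ, hσ, hσ1⟩ : ∃ σ : ℝ, (σ = 1 ∨ σ = -1) ∧ 1 ^ 2 ≤ (v 0 - σ) ^ 2 := by
      rcases le_total 0 (v 0) with h | h
      · exact ⟨-1, Or.inr rfl, by nlinarith⟩
      · exact ⟨1, Or.inl rfl, by nlinarith⟩
    have hθ := hV.θ0
    refine val_of_window hV R hn hB hl ht htt ht1 hr (hKw _ (sub_nonneg.2 htt) hw)
      (fun s hs => (hR s hs).1) ?_ ?_
    · refine (S.bad_int k n ht ht1 hx (fun s hs => (hR s hs).2) (by positivity) hbad).trans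
        (ENNReal.ofReal_le_ofReal ?_)
      have e : 416 * P.c * P.C0 / rr x * (θ * rr x / ‖vb v‖) = 416 * P.c * P.C0 * θ / ‖vb v‖ := by
        field_simp
      rw [e, div_le_iff₀ hb0]
      linarith [hV.near]
    · refine le_trans (ENNReal.ofReal_le_ofReal ?_) (good_int hV S hn1 hn hk ht ht1 hx hE
        (fun s hs => (hR s hs).1) (b := 1) (by linarith [hV.ok.c4])
        (fun y => hσ1.trans (Wf_ge_ax hV.ok σ y v)) (hvol σ hσ))
      rw [le_div_iff₀ (by positivity)]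
      linarith [hV.far]

theorem ev_valI {P : Par} {cS θ : ℝ} (hV : ValP P cS θ) (A : ℕ) :
    Ev P A (fun ϱ k n _ _ f => ValI P ϱ k n f) := by
  obtain ⟨K, hK, hl⟩ := exists_ln_le
  have hlam := hV.ok.lam0
  have hL : 0 < P.Lam := by linarith [hV.Lam]
  have hc0 : 0 < P.c := hlam.trans_le hV.ok.lamc
  have hcS := hV.cS0
  set δ : ℝ := P.Lam * P.lam / (120 * (K + 1)) with hδdef
  have hδ0 : 0 < δ := by positivity
  have hδ : 120 * (K + 1) * δ ≤ P.Lam * P.lam := by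
    rw [hδdef, mul_div_cancel₀ _ (by positivity)]
  have e1 : Ev P A (fun ϱ _ _ _ _ _ => ϱ ≤ δ ∧ ϱ ≤ δ ^ 2) :=
    Ev.of_rho (Eventually.and (mem_nhdsWithin_of_mem_nhds (Iic_mem_nhds hδ0))
      (mem_nhdsWithin_of_mem_nhds (Iic_mem_nhds (pow_pos hδ0 2))))
  have e2 : Ev P A (fun ϱ k n _ _ _ => 1 ≤ n ∧ 13 / (n : ℝ) ≤ cS * P.c / 4 ∧
      1 / ar P ϱ (k + 1) + 4 ≤ (n : ℝ) ^ 2) := by
    refine Ev.of_n (p := fun ϱ k n => 1 ≤ n ∧ 13 / (n : ℝ) ≤ cS * P.c / 4 ∧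
      1 / ar P ϱ (k + 1) + 4 ≤ (n : ℝ) ^ 2) fun ϱ k _ => ?_
    refine (eventually_ge_atTop 1).and (Eventually.and ?_ ?_)
    · exact (tendsto_const_div_atTop_nhds_zero_nat 13).eventually
        (ge_mem_nhds (by positivity))
    · exact ((tendsto_pow_atTop two_ne_zero).comp tendsto_natCast_atTop_atTop).eventually_ge_atTop _
  refine (((ev_lowB P A).and (ev_kap P A)).and (e1.and e2)).mono ?_
  rintro ϱ k n ς N f R ⟨⟨hB, hk⟩, ⟨h1, h2⟩, hn1, hn, hn2⟩ s hs x v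
  unfold psI
  split_ifs with hr
  · rw [← ENNReal.ofReal_mul (by norm_num)]
    by_cases h0 : ps0 P ϱ k s x v = 0
    · rw [h0, mul_zero, ENNReal.ofReal_zero]
      exact zero_le
    · have h3 : (P.Lam * P.lam ≤ ‖vb v‖ ∧ ar P ϱ (k + 1) ≤ y0 P s x ∧ rr x ≤ ϱ / 2) ∧
          rr x * ‖v‖ ^ 2 < 1 := by
        unfold ps0 at h0
        split_ifs at h0 with h4
        · refine ⟨h4, lt_of_not_ge fun h5 => h0 ?_⟩
          rw [max_eq_right (by linarith), mul_zero]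
        · exact absurd rfl h0
      exact iv6_pt hV R hn1 hn hn2 hB hk hK (hl P A ϱ k n ς N f R) hδ hδ0.le h1 h2 hs.1 hr
        h3.1.1 h3.1.2.1 h3.2
  · rw [mul_zero]
    exact zero_le

theorem iv6_bad {cS : ℝ} (hcS : 0 < cS)
    (h : ∀ v w : V, ENNReal.ofReal (cS * ‖v - w‖) ≤ ∫⁻ ω, kI v w ω ∂sig) :
    ∃ Λ : ℝ, 2 ≤ Λ ∧ ∀ P : Par, 0 < P.lam → P.Lam = 8000 → P.c = Λ * P.lam → BadOK P := by
  obtain ⟨κ1, hκ1, hp⟩ := bad_vp (β := cS / 200) (by positivity)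
  obtain ⟨κ2, hκ2, hq⟩ := bad_vq (β := cS / 200) (by positivity)
  refine ⟨max 2 (max (16004 / κ1) (16004 / κ2)), le_max_left _ _, fun P hlam hL hc v => ?_⟩
  have hκ : ∀ κ : ℝ, 0 < κ → 16004 / κ ≤ max 2 (max (16004 / κ1) (16004 / κ2)) → ∀ g : ℝ,
      P.c / 2 ≤ g → 8002 * P.lam ≤ κ * g := by
    intro κ hκ h1 g hg
    rw [div_le_iff₀ hκ] at h1
    have h2 := mul_le_mul_of_nonneg_right h1 hlam.le
    have h3 := mul_le_mul_of_nonneg_left hg hκ.le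
    rw [hc] at h3
    nlinarith
  have hi : ∀ u w : V, ‖vb w‖ ≤ 2 * P.lam → (if ‖vb u‖ < P.Lam * P.lam then (1 : ℝ≥0∞) else 0) ≤
      if ‖vb (u - w)‖ ≤ 8002 * P.lam then 1 else 0 := by
    intro u w hw
    split_ifs with h1 h2
    · exact le_rfl
    · refine absurd ?_ h2
      rw [hL] at h1
      rw [vb_sub]
      linarith [norm_sub_le (vb u) (vb w)]
    · exact zero_le
    · exact le_rfl
  filter_upwards [hp (8002 * P.lam) v] with w hw h1 h2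
  have h3 := hw (hκ κ1 hκ1 ((le_max_left _ _).trans (le_max_right _ _)) _ h1)
  have h4 := hq (8002 * P.lam) v w (hκ κ2 hκ2 ((le_max_right _ _).trans (le_max_right _ _)) _ h1)
  have hm : Measurable fun ω : S2 =>
      kI v w ω * (if ‖vb (vp v w ω - w)‖ ≤ 8002 * P.lam then (1 : ℝ≥0∞) else 0) := by
    refine (isKer_kI.meas.comp (f := fun ω : S2 => (v, w, ω)) (by fun_prop)).mul
      (Measurable.ite (measurableSet_le ?_ measurable_const) measurable_const measurable_const)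
    exact (continuous_vb.measurable.comp
      ((measurable_vp measurable_const measurable_const measurable_id).sub_const w)).norm
  have hg := norm_nonneg (v - w)
  calc _ ≤ ∫⁻ ω, kI v w ω * (if ‖vb (vp v w ω - w)‖ ≤ 8002 * P.lam then (1 : ℝ≥0∞) else 0) +
        kI v w ω * (if ‖vb (vq v w ω - w)‖ ≤ 8002 * P.lam then (1 : ℝ≥0∞) else 0) ∂sig := by
        refine lintegral_mono fun ω => ?_
        rw [← mul_add]
        exact mul_le_mul_right (add_le_add (hi _ w h2) (hi _ w h2)) _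
    _ ≤ ENNReal.ofReal (cS / 200 * ‖v - w‖) + ENNReal.ofReal (cS / 200 * ‖v - w‖) := by
        rw [lintegral_add_left hm]
        exact add_le_add h3 h4
    _ = ENNReal.ofReal (1 / 100) * ENNReal.ofReal (cS * ‖v - w‖) := by
        rw [← ENNReal.ofReal_add (by positivity) (by positivity),
          ← ENNReal.ofReal_mul (by norm_num)]
        congr 1
        ring
    _ ≤ _ := mul_le_mul_right (h v w) _

theorem exists_par : ∃ (P : Par) (cS θ : ℝ), ValP P cS θ := by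
  obtain ⟨cS, hc0, hc1, hcS⟩ := exists_cS
  obtain ⟨Λ, hΛ, hbad⟩ := iv6_bad hc0 hcS
  obtain ⟨C0, hC0⟩ : ∃ C0 : ℝ, C0 = 10 ^ 11 / cS := ⟨_, rfl⟩
  have hC : cS * C0 = 10 ^ 11 := by rw [hC0, mul_div_cancel₀ _ hc0.ne']
  have hC1 : 1 ≤ C0 := by
    rw [hC0, le_div_iff₀ hc0]
    linarith
  obtain ⟨θ, hθ0, hθ1, hθ2⟩ : ∃ θ : ℝ, 0 < θ ∧ θ ≤ 1 / 4000 ∧ 8320 * C0 * Λ * θ ≤ 8000 := by
    refine ⟨min (1 / 4000) (8000 / (8320 * C0 * Λ)), lt_min (by norm_num) (by positivity),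
      min_le_left _ _, ?_⟩
    rw [mul_comm, ← le_div_iff₀ (by positivity)]
    exact min_le_right _ _
  obtain ⟨l, hl0, hl1, hl2, hl3⟩ : ∃ l : ℝ, 0 < l ∧ l ≤ 1 / 32000 ∧ Λ * l ≤ 1 / 4 ∧
      3090 * (Λ + 2) * l ≤ 10 ^ 11 * θ ^ 2 := by
    refine ⟨min (1 / 32000) (min (1 / 4 / Λ) (10 ^ 11 * θ ^ 2 / (3090 * (Λ + 2)))),
      lt_min (by norm_num) (lt_min (by positivity) (by positivity)), min_le_left _ _, ?_, ?_⟩
    · rw [mul_comm, ← le_div_iff₀ (by positivity)]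
      exact (min_le_right _ _).trans (min_le_left _ _)
    · rw [mul_comm, ← le_div_iff₀ (by positivity)]
      exact (min_le_right _ _).trans (min_le_right _ _)
  have hθ3 : θ ^ 2 ≤ 1 := by nlinarith
  have hθ4 : 0 < θ ^ 2 := by positivity
  have hΛl : 2 * l ≤ Λ * l := mul_le_mul_of_nonneg_right hΛ hl0.le
  refine ⟨⟨C0, l, 1 - θ ^ 2 / 512, Λ * l, 8000⟩, cS, θ,
    ⟨⟨hC1, hl0, ?_, ?_, ?_, hl2, ?_, ?_⟩, hbad _ hl0 rfl rfl, hc0, hc1, hcS, le_rfl, hC.ge, hΛl,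
      hθ0, hθ1, ?_, ?_, ?_⟩⟩
  · simp only
    linarith
  · simp only
    linarith
  · simp only
    linarith
  · simp only
    norm_num
  · simp only
    linarith
  · simp only
    nlinarith [mul_le_mul_of_nonneg_right hθ2 hl0.le]
  · simp only
    linarith
  · simp only
    rw [hC]
    linarith

end Vale.Agent.P140
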