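import Vale.Agent.P140.IBoot
import Vale.Agent.P140.IDF0
import Vale.Agent.P140.IV6
import Vale.Agent.P140.IAcc2
import Vale.Agent.P140.IAcc3
import Vale.Agent.P140.IEn

/-! The improved bound. -/

namespace Vale.Agent.P140

open MeasureTheory Set Filter Topology
open scoped ENNReal

open Classical

/- PLAN. Ev facts: ev_valI, exists_En, eventually_QC with Np = 1, 13/n ≤ cS c/4. With VV ≤ ofReal Xv: N² ≤ Xv, Cout ≤ Kc Xv
(exists_Cout), Sin ≤ Cout, Cin ≤ 10 Cout (acc1), ς ≤ Ks τ^64 Kc Xv (exists_seed), NP ρ' ≤ ρ^64 K (Xv + ϱ) (exists_NP), hence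
EEb with K' (Xv + ϱ). exists_L0 with m = 33, t0 = ϱ^1: β = ς/τ^33 + ϱ + KL T N² ≤ K'' (Xv + ϱ) (τ ≤ 1, T = ϱ/lam, N ≤ 1).
Conclude with exists_DF0 and adm_mono. -/

theorem exists_DF {P : Par} {cS θ : ℝ} (hV : ValP P cS θ) : ∃ A0 : ℕ, ∀ A ≥ A0, ∃ K : ℝ, 0 ≤ K ∧
    Ev P A (fun ϱ k _ _ N f => ∀ Xv : ℝ, 0 ≤ Xv → VV P ϱ N f ≤ ENNReal.ofReal Xv →
      Adm P ϱ k A 33 (N / 4 + K * (Xv + ϱ)) f) := by
  have hP := hV.ok
  obtain ⟨A0, hD⟩ := exists_DF0 hP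
  obtain ⟨Kc, hKc, hC⟩ := exists_Cout hP
  obtain ⟨Ks, hKs, hS⟩ := exists_seed
  obtain ⟨Kn, hKn, hNP⟩ := exists_NP hV
  obtain ⟨KL, hKL, hL⟩ := exists_L0
  refine ⟨max A0 33, fun A hA => ?_⟩
  have hA33 : 33 ≤ A := (le_max_right _ _).trans hA
  obtain ⟨KD, hKD, hD⟩ := hD A ((le_max_left _ _).trans hA)
  obtain ⟨Ke, hKe, hE⟩ := exists_En hP A
  have hc0 : 0 < P.c := hP.lam0.trans_le hP.lamc
  have hcS := hV.cS0
  have e1 : Ev P A (fun ϱ _ _ _ _ _ => ∀ k, QCb P ϱ k A (ϱ ^ 1)) :=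
    Ev.of_rho (eventually_QC hP hA33 1)
  have e2 : Ev P A (fun _ _ n _ _ _ => 13 / (n : ℝ) ≤ cS * P.c / 4) :=
    Ev.of_n (p := fun _ _ n => 13 / (n : ℝ) ≤ cS * P.c / 4) fun _ _ _ =>
      (tendsto_const_div_atTop_nhds_zero_nat 13).eventually (ge_mem_nhds (by positivity))
  refine ⟨KD * ((Ks * Kc + 1 + KL) + (Ke * (1 + Ks * Kc) + 4 * (10 * Kc + Kn))), by positivity,
    (((ev_valI hV A).and hE).and (e1.and e2)).mono ?_⟩
  rintro ϱ k n ς N f R ⟨⟨hv, hE⟩, hQ, hn⟩ Xv hX hVV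
  have S := R.sm
  have hϱ := S.pos
  have hτ := S.ar_pos (k + 1)
  have hς0 := R.s0
  have hN2 : N ^ 2 ≤ Xv := (ENNReal.ofReal_le_ofReal_iff hX).1 (le_trans le_add_self hVV)
  have hCo : Bth P ϱ n f (psO P ϱ k) ≤ ENNReal.ofReal (Kc * Xv) := by
    rw [ENNReal.ofReal_mul hKc]
    exact (hC A ϱ k n ς N f R).trans (mul_le_mul_right hVV _)
  obtain ⟨a1, a2⟩ := R.acc1 hv
  have hς : ς ≤ Ks * ar P ϱ (k + 1) ^ 64 * (Kc * Xv) := by
    have := (hS P A ϱ S k R.tau ς hς0).trans (mul_le_mul_right (a1.trans hCo) _)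
    rwa [← ENNReal.ofReal_mul (by positivity), ENNReal.ofReal_le_ofReal_iff (by positivity)] at this
  have hEE : EEb P ϱ k A f ((Ke * (1 + Ks * Kc) + 4 * (10 * Kc + Kn)) * (Xv + ϱ)) := by
    intro ρ' ρ h0 h1 h2 h3 h4 t ht
    have hρ : 0 ≤ ρ := h0.trans h1
    have b1 : NP P ϱ k A n f ρ' ≤
        ENNReal.ofReal (ρ ^ 64 * (10 * (Kc * Xv) + Kn * Xv + Kn * ϱ)) := by
      refine (hNP A ϱ k n ς N f R hn ρ' h0 (by linarith)).trans ?_
      rw [ENNReal.ofReal_mul (p := ρ ^ 64) (by positivity),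
        ENNReal.ofReal_add (by positivity) (by positivity),
        ENNReal.ofReal_add (by positivity) (by positivity),
        ENNReal.ofReal_mul (p := 10) (by norm_num),
        ENNReal.ofReal_mul (p := Kn) (q := Xv) hKn, ENNReal.ofReal_ofNat]
      exact mul_le_mul' (ENNReal.ofReal_le_ofReal (pow_le_pow_left₀ h0 h1 _))
        (add_le_add (add_le_add (a2.trans (mul_le_mul_right hCo _)) (mul_le_mul_right hVV _)) le_rfl)
    refine (hE ρ' ρ h1 h2 h3 h4 t ht).trans ((add_le_add le_rfl (mul_le_mul_right b1 _)).trans ?_)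
    rw [← ENNReal.ofReal_ofNat 4, ← ENNReal.ofReal_mul (by norm_num),
      ← ENNReal.ofReal_add (by positivity) (by positivity)]
    refine ENNReal.ofReal_le_ofReal ?_
    have c1 : ar P ϱ (k + 1) ^ 64 ≤ ρ ^ 64 := pow_le_pow_left₀ hτ.le h3 _
    have c0 : 0 ≤ ρ ^ 64 := by positivity
    generalize ρ ^ 64 = r at c1 c0 ⊢
    have c2 : ς ≤ r * (Ks * Kc * Xv) := by
      have := mul_le_mul_of_nonneg_right c1 (show 0 ≤ Ks * Kc * Xv by positivity)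
      linarith
    have c3 : r * (N ^ 2 + ϱ) + ς ≤ r * ((1 + Ks * Kc) * (Xv + ϱ)) := by
      have d1 := mul_le_mul_of_nonneg_left hN2 c0
      have d2 : 0 ≤ r * (Ks * Kc * ϱ) := by positivity
      linarith
    have c4 := mul_le_mul_of_nonneg_left c3 hKe
    have c5 : 0 ≤ r * (Kc * ϱ) := by positivity
    linarith
  have hT := S.TT_pos
  have hβ : ς / ar P ϱ (k + 1) ^ 33 + ϱ ^ 1 + KL * TT P ϱ * N ^ 2 ≤
      (Ks * Kc + 1 + KL) * (Xv + ϱ) := by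
    have c1 : ς / ar P ϱ (k + 1) ^ 33 ≤ Ks * Kc * Xv := by
      rw [div_le_iff₀ (by positivity)]
      have := mul_le_mul_of_nonneg_right
        (pow_le_pow_of_le_one hτ.le (S.ibas_ar1 (k + 1)) (show 33 ≤ 64 by norm_num))
        (show 0 ≤ Ks * Kc * Xv by positivity)
      linarith
    have c2 : TT P ϱ * N ^ 2 ≤ Xv :=
      (mul_le_of_le_one_left (by positivity) (S.TT_le.trans (by norm_num))).trans hN2
    have c3 := mul_le_mul_of_nonneg_left c2 hKL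
    have c4 : 0 ≤ Ks * Kc * ϱ := by positivity
    have c5 : 0 ≤ KL * ϱ := by positivity
    rw [pow_one]
    linarith
  refine S.adm_mono ?_ (hD ϱ S k f R.sol.meas N _ _ R.N0 (by positivity) (by positivity) R.adm
    (hL P A ϱ S k n 33 hA33 ς N (ϱ ^ 1) hς0 R.N0 (by positivity) (hQ k) f R.sol R.adm) hEE)
  have := mul_le_mul_of_nonneg_left hβ hKD
  linarith

end Vale.Agent.P140
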