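import Vale.Agent.P140.ICold2

/-! The datum and the approximate data. -/

namespace Vale.Agent.P140

open MeasureTheory Set Filter Topology
open scoped ENNReal

variable {P : Par} {A : ℕ} {ϱ : ℝ}

/- PLAN. At t = 0 the layers are disjoint, so FD = Bj j on Lay j and 0 off the layers (tsum_eq_single; y0 0 x = rr x).
momEnt FD ≤ ∑_j (1 + 4 + |log Am j|) ∫ Bj; ∫ Bj ≤ (8 C0 / a_{j+1}) vol{r ≤ a_j} ≤ 64 C0 a_j; 1 ≤ Am j ≤ C0 / a_j^37 and
a_j = ϱ θ^j, so the series is dominated by ∑ K (1 + j) θ^j. -/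

namespace Sm

variable (S : Sm P A ϱ)
include S

theorem idat_zero : (0 : ℝ) ∈ Icc 0 (TT P ϱ) := ⟨le_rfl, S.TT_pos.le⟩

theorem idat_Bj_zero {j : ℕ} {x : X} (h : ¬ Lay P ϱ j 0 x) (v : V) : Bj P ϱ j 0 x v = 0 := by
  by_contra hne
  exact h (S.supp_B S.idat_zero hne).1

theorem FD_eq {j : ℕ} {z : Om} (h : Lay P ϱ j 0 z.1) : FD P ϱ z = Bj P ϱ j 0 z.1 z.2 := by
  unfold FD
  refine tsum_eq_single j fun i hi => S.idat_Bj_zero (fun hl => hi ?_) _
  exact S.LayR_unique hl h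

theorem FD_eq_zero {z : Om} (h : ∀ j, ¬ Lay P ϱ j 0 z.1) : FD P ϱ z = 0 := by
  unfold FD
  simp [fun j => S.idat_Bj_zero (h j) z.2]

theorem idat_nonneg (z : Om) : 0 ≤ FD P ϱ z :=
  tsum_nonneg fun j => S.Bj_nonneg j 0 z.1 z.2

theorem idat_ev (z : Om) : ∀ᶠ k in atTop, Bc P ϱ k 0 z.1 z.2 = FD P ϱ z := by
  by_cases h : ∃ j, Lay P ϱ j 0 z.1
  · obtain ⟨j, hj⟩ := h
    filter_upwards [eventually_ge_atTop j] with k hk
    rw [S.Bc_eq hk S.idat_zero hj, S.FD_eq hj]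
  · push Not at h
    refine Eventually.of_forall fun k => ?_
    rw [S.FD_eq_zero h]
    exact Finset.sum_eq_zero fun j _ => S.idat_Bj_zero (h j) _

theorem idat_meas : Measurable (FD P ϱ) := by
  refine measurable_of_tendsto_metrizable (f := fun k (z : Om) => Bc P ϱ k 0 z.1 z.2)
    (fun k => measurable_Bc P ϱ k measurable_const measurable_fst measurable_snd) ?_
  rw [tendsto_pi_nhds]
  intro z
  exact tendsto_const_nhds.congr' ((S.idat_ev z).mono fun k hk => hk.symm)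

theorem idat_ar_le_one (j : ℕ) : ar P ϱ j ≤ 1 := by
  have := S.ar_le j
  have := S.rho_le'
  linarith

theorem idat_one_le_Am (j : ℕ) : 1 ≤ Am P ϱ j := by
  refine le_trans ?_ (S.inv_et_le j)
  have h0 := S.et_pos j
  have h1 : et P ϱ j ≤ 1 := pow_le_one₀ (S.ar_pos j).le (S.idat_ar_le_one j)
  rw [le_div_iff₀ (by positivity), one_mul]
  exact pow_le_one₀ h0.le h1

theorem idat_log (j : ℕ) : |Real.log (Am P ϱ j)| ≤
    Real.log P.C0 - 37 * Real.log ϱ - 37 * (j * Real.log P.th) := by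
  have h1 := S.idat_one_le_Am j
  have hC : 0 < P.C0 := lt_of_lt_of_le one_pos S.ok.C0
  have hth : 0 < P.th := lt_of_lt_of_le (by norm_num) S.ok.th0
  have ha := S.ar_pos j
  rw [abs_of_nonneg (Real.log_nonneg h1)]
  refine (Real.log_le_log (S.Am_pos j) (S.Am_le j)).trans (le_of_eq ?_)
  rw [Real.log_div hC.ne' (by positivity), Real.log_pow]
  unfold ar
  rw [Real.log_mul S.pos.ne' (by positivity), Real.log_pow]
  push_cast
  ring

theorem idat_cold {j : ℕ} {x : X} {v : V} (h : Bj P ϱ j 0 x v ≠ 0) : ‖v‖ ≤ 6 / 5 := by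
  obtain ⟨h1, -, h2, -⟩ := S.supp_B S.idat_zero h
  refine (S.Cold_norm (k := j) (t := 0) (x := x) ⟨j, le_rfl, h1, h2.trans ?_⟩).1
  have h3 := S.de_le j
  have h4 := S.de_pos j
  have h5 := S.et_pos j
  have h6 := S.ok.lam_le
  have h7 : 3 * de P ϱ j ≤ et P ϱ j := by nlinarith
  nlinarith

theorem idat_int (j : ℕ) : ∫⁻ z : Om, ENNReal.ofReal (Bj P ϱ j 0 z.1 z.2) ≤
    ENNReal.ofReal (64 * P.C0 * ar P ϱ j) := by
  have hC : 0 < P.C0 := lt_of_lt_of_le one_pos S.ok.C0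
  have ha := S.ar_pos j
  have hb := S.ar_pos (j + 1)
  have hm : MeasurableSet {x : X | rr x ≤ ar P ϱ j} :=
    measurableSet_le measurable_rr measurable_const
  rw [lintegral_Om (F := fun z : Om => ENNReal.ofReal (Bj P ϱ j 0 z.1 z.2))
    (measurable_Bj P ϱ j measurable_const measurable_fst measurable_snd).ennreal_ofReal]
  calc ∫⁻ x, ∫⁻ v, ENNReal.ofReal (Bj P ϱ j 0 x v)
      ≤ ∫⁻ x, {x : X | rr x ≤ ar P ϱ j}.indicator
          (fun _ => ENNReal.ofReal (8 * P.C0 / ar P ϱ (j + 1))) x := by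
        refine lintegral_mono fun x => ?_
        by_cases h : Lay P ϱ j 0 x
        · have h' : ar P ϱ (j + 1) ≤ rr x ∧ rr x < ar P ϱ j := by
            simpa [Lay, LayR, y0] using h
          rw [indicator_of_mem (show x ∈ {x : X | rr x ≤ ar P ϱ j} from h'.2.le)]
          refine (S.int_Bj S.idat_zero x).trans (ENNReal.ofReal_le_ofReal ?_)
          exact div_le_div_of_nonneg_left (by positivity) hb h'.1
        · simp [fun v => S.idat_Bj_zero h v]
    _ = ENNReal.ofReal (8 * P.C0 / ar P ϱ (j + 1)) * volume {x : X | rr x ≤ ar P ϱ j} := by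
        rw [lintegral_indicator_const hm]
    _ ≤ ENNReal.ofReal (8 * P.C0 / ar P ϱ (j + 1)) * ENNReal.ofReal (4 * ar P ϱ j ^ 2) := by
        gcongr
        exact volume_rr_le ha.le
    _ ≤ _ := by
        rw [← ENNReal.ofReal_mul (by positivity)]
        refine ENNReal.ofReal_le_ofReal ?_
        rw [div_mul_eq_mul_div, div_le_iff₀ hb]
        have h2 := S.ar_le_two j
        have h3 : 0 ≤ P.C0 * ar P ϱ j := by positivity
        nlinarith [mul_le_mul_of_nonneg_left h2 h3]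

theorem isDatum_FD : IsDatum (FD P ϱ) := by
  refine ⟨S.idat_meas, S.idat_nonneg, ?_⟩
  have hC : 0 < P.C0 := lt_of_lt_of_le one_pos S.ok.C0
  have hth : 0 < P.th := lt_of_lt_of_le (by norm_num) S.ok.th0
  set c : ℕ → ℝ := fun j =>
    3 + (Real.log P.C0 - 37 * Real.log ϱ - 37 * (j * Real.log P.th)) with hc
  have hc0 : ∀ j, 0 ≤ c j := fun j => by
    have := (abs_nonneg _).trans (S.idat_log j)
    simp only [hc]
    linarith
  have hpt : ∀ z : Om, ENNReal.ofReal (FD P ϱ z * (1 + ‖z.2‖ ^ 2 + |Real.log (FD P ϱ z)|)) ≤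
      ∑' j, ENNReal.ofReal (c j) * ENNReal.ofReal (Bj P ϱ j 0 z.1 z.2) := by
    intro z
    by_cases h : ∃ j, Lay P ϱ j 0 z.1
    · obtain ⟨j, hj⟩ := h
      refine le_trans ?_ (ENNReal.le_tsum j)
      rw [S.FD_eq hj, ← ENNReal.ofReal_mul (hc0 j)]
      refine ENNReal.ofReal_le_ofReal ?_
      by_cases h0 : Bj P ϱ j 0 z.1 z.2 = 0
      · simp [h0]
      · have h1 := S.idat_cold h0
        have h2 : Bj P ϱ j 0 z.1 z.2 = Am P ϱ j := by
          unfold Bj at h0 ⊢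
          split_ifs at h0 ⊢ with hh
          · rfl
          · exact absurd rfl h0
        rw [mul_comm]
        refine mul_le_mul_of_nonneg_right ?_ (S.Bj_nonneg _ _ _ _)
        rw [h2]
        have h3 := S.idat_log j
        have h4 : ‖z.2‖ ^ 2 ≤ 2 := by nlinarith [norm_nonneg z.2]
        simp only [hc]
        linarith
    · push Not at h
      simp [S.FD_eq_zero h]
  have hsum : Summable fun j : ℕ => c j * (64 * P.C0 * ar P ϱ j) := by
    have h1 : Summable fun j : ℕ => P.th ^ j := summable_geometric_of_lt_one hth.le S.ok.th1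
    have h2 : Summable fun j : ℕ => (j : ℝ) ^ 1 * P.th ^ j :=
      summable_pow_mul_geometric_of_norm_lt_one 1
        (by rw [Real.norm_eq_abs, abs_of_pos hth]; exact S.ok.th1)
    refine ((h1.mul_left ((3 + Real.log P.C0 - 37 * Real.log ϱ) * (64 * P.C0 * ϱ))).add
      (h2.mul_left (-37 * Real.log P.th * (64 * P.C0 * ϱ)))).congr fun j => ?_
    simp only [hc, ar]
    ring
  calc momEnt (FD P ϱ)
      ≤ ∫⁻ z : Om, ∑' j, ENNReal.ofReal (c j) * ENNReal.ofReal (Bj P ϱ j 0 z.1 z.2) :=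
        lintegral_mono hpt
    _ = ∑' j, ∫⁻ z : Om, ENNReal.ofReal (c j) * ENNReal.ofReal (Bj P ϱ j 0 z.1 z.2) :=
        lintegral_tsum fun j => ((measurable_Bj P ϱ j measurable_const measurable_fst
          measurable_snd).ennreal_ofReal.const_mul _).aemeasurable
    _ ≤ ∑' j, ENNReal.ofReal (c j * (64 * P.C0 * ar P ϱ j)) := by
        refine ENNReal.tsum_le_tsum fun j => ?_
        rw [lintegral_const_mul' _ _ ENNReal.ofReal_ne_top, ENNReal.ofReal_mul (hc0 j)]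
        gcongr
        exact S.idat_int j
    _ < ⊤ := hsum.tsum_ofReal_lt_top

theorem dat_le (k : ℕ) {ς : ℝ} (h1 : ς ≤ 1) (z : Om) : dat P ϱ k ς z ≤ FD P ϱ z + G0 z.2 := by
  have hG : 0 ≤ G0 z.2 := (Real.exp_pos _).le
  have hB : Bc P ϱ k 0 z.1 z.2 ≤ FD P ϱ z := by
    by_cases h : Cold P ϱ k 0 z.1 z.2
    · obtain ⟨j, hj, hl, -⟩ := h
      rw [S.Bc_eq hj S.idat_zero hl, S.FD_eq hl]
    · rw [S.Bc_eq_zero S.idat_zero h]
      exact S.idat_nonneg z
  unfold dat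
  nlinarith

theorem dat_lb (k : ℕ) (ς : ℝ) (z : Om) : ς * G0 z.2 ≤ dat P ϱ k ς z := by
  have := S.Bc_nonneg k 0 z.1 z.2
  unfold dat
  linarith

theorem dat_ub (k : ℕ) : ∃ C : ℝ, ∀ ς z, dat P ϱ k ς z ≤ (C + ς) * G0 z.2 := by
  obtain ⟨M, hM⟩ := S.Cc_bdd k
  refine ⟨|M| * Real.exp 3, fun ς z => ?_⟩
  have hG : 0 < G0 z.2 := Real.exp_pos _
  have hB : Bc P ϱ k 0 z.1 z.2 ≤ |M| * Real.exp 3 * G0 z.2 := by
    by_cases h : Cold P ϱ k 0 z.1 z.2
    · have h1 := (S.Cold_norm h).1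
      have h2 : 1 ≤ Real.exp 3 * G0 z.2 := by
        unfold G0
        rw [← Real.exp_add]
        refine Real.one_le_exp ?_
        nlinarith [norm_nonneg z.2]
      have h3 := hM 0 z.1 z.2
      have h4 := S.Ec_nonneg k 0 z.1 z.2
      have h5 := le_abs_self M
      have h6 := mul_le_mul_of_nonneg_left h2 (abs_nonneg M)
      unfold Cc at h3
      rw [mul_assoc]
      linarith
    · rw [S.Bc_eq_zero S.idat_zero h]
      positivity
  unfold dat
  linarith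

theorem dat_sub (k : ℕ) (ς ς' : ℝ) (z : Om) :
    |dat P ϱ k ς z - dat P ϱ k ς' z| ≤ |ς - ς'| * G0 z.2 := by
  have _ := S.pos
  have hG : 0 ≤ G0 z.2 := (Real.exp_pos _).le
  have : dat P ϱ k ς z - dat P ϱ k ς' z = (ς - ς') * G0 z.2 := by
    unfold dat
    ring
  rw [this, abs_mul, abs_of_nonneg hG]

theorem tendsto_dat {k : ℕ → ℕ} {ς : ℕ → ℝ} (hk : Tendsto k atTop atTop)
    (hς : Tendsto ς atTop (𝓝 0)) (z : Om) :
    Tendsto (fun i => dat P ϱ (k i) (ς i) z) atTop (𝓝 (FD P ϱ z)) := by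
  have h1 : Tendsto (fun i => Bc P ϱ (k i) 0 z.1 z.2) atTop (𝓝 (FD P ϱ z)) :=
    tendsto_const_nhds.congr' ((hk.eventually (S.idat_ev z)).mono fun i hi => hi.symm)
  have h2 := h1.add (hς.mul_const (G0 z.2))
  simpa [dat] using h2

theorem adm_seed {k n m : ℕ} {ς N : ℝ} {f : ℝ → Om → ℝ} (h : TrSol n (dat P ϱ k ς) f)
    (ha : Adm P ϱ k A m N f) : ς ≤ N * ar P ϱ (k + 1) ^ m := by
  set v : V := EuclideanSpace.single 0 3 with hv
  have hv0 : v 0 = 3 := by simp [hv]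
  have hvn : ‖v‖ = 3 := by simp [hv]
  have hG : 0 < G0 v := Real.exp_pos _
  have h0 : f 0 ((0 : X), v) = dat P ϱ k ς ((0 : X), v) := by
    have := h.mild 0 le_rfl ((0 : X), v)
    simpa [sh_zero, LamN] using this
  have h1 := ha 0 S.idat_zero 0 v
  have h2 : Cc P ϱ k 0 0 v = 0 := S.Cc_eq_zero S.idat_zero fun hc => by
    have := (S.Cold_norm hc).1
    rw [hvn] at this
    norm_num at this
  have hS : ∀ σ : ℝ, σ ≤ 1 → Sg P ϱ k σ 0 0 v = 0 := fun σ hσ => by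
    unfold Sg
    rw [if_neg]
    rintro ⟨-, h3⟩
    have h4 := Wf_ge_ax S.ok σ (0 : X) v
    rw [hv0] at h4
    nlinarith
  have hY : Yy P ϱ k A 0 0 v = ar P ϱ (k + 1) := by
    simp [Yy, yy, rr_zero, S.idat_ar_le_one]
  have hg : gam P ϱ k A m 0 0 v = ar P ϱ (k + 1) ^ m * G0 v := by
    unfold gam Hh
    rw [hY, hS 1 le_rfl, hS (-1) (by norm_num)]
    simp [Gs, G0]
  have h5 := S.dat_lb k ς ((0 : X), v)
  rw [h0, h2, hg] at h1
  refine le_of_mul_le_mul_right ?_ hG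
  simp only at h5
  linarith

theorem adm_lip {k m : ℕ} {N D : ℝ} (hD : 0 ≤ D) {f g : ℝ → Om → ℝ} (ha : Adm P ϱ k A m N f)
    (h : ∀ t ∈ Icc 0 (TT P ϱ), ∀ z, |f t z - g t z| ≤ D * G0 z.2) :
    Adm P ϱ k A m (N + D / ar P ϱ (k + 1) ^ m) g := by
  intro t ht x v
  have h1 := ha t ht x v
  have h2 := (abs_le.mp (h t ht (x, v))).1
  have h3 := S.gam_ge k m ht.1 x v
  have hp : 0 < ar P ϱ (k + 1) ^ m := pow_pos (S.ar_pos _) _
  have h4 := mul_le_mul_of_nonneg_left h3 (div_nonneg hD hp.le)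
  rw [← mul_assoc, div_mul_cancel₀ _ hp.ne'] at h4
  simp only at h2
  linarith

theorem adm_mono {k m : ℕ} {N N' : ℝ} (hN : N ≤ N') {f : ℝ → Om → ℝ} (ha : Adm P ϱ k A m N f) :
    Adm P ϱ k A m N' f := by
  intro t ht x v
  have h1 := ha t ht x v
  have h2 := mul_le_mul_of_nonneg_right hN (S.gam_nonneg k m ht.1 x v)
  linarith

theorem adm_anti {k m m' : ℕ} (hm : m ≤ m') {N : ℝ} (hN : 0 ≤ N) {f : ℝ → Om → ℝ}
    (ha : Adm P ϱ k A m' N f) : Adm P ϱ k A m N f := by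
  intro t ht x v
  have h1 := ha t ht x v
  have h2 := mul_le_mul_of_nonneg_left (S.gam_anti k hm ht.1 x v) hN
  linarith

theorem adm_iff {k m : ℕ} {N : ℝ} (hN : 0 ≤ N) {f : ℝ → Om → ℝ} :
    Adm P ϱ k A m N f ↔ ∀ t ∈ Icc 0 (TT P ϱ), ∀ x v,
      hx P ϱ k f t x v ≤ ENNReal.ofReal (N * gam P ϱ k A m t x v) := by
  refine forall_congr' fun t => forall_congr' fun ht => forall_congr' fun x =>
    forall_congr' fun v => ?_
  have h1 := mul_nonneg hN (S.gam_nonneg k m ht.1 x v)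
  have h2 := S.Cc_nonneg k t x v
  unfold hx eC
  rw [tsub_le_iff_left, ← ENNReal.ofReal_add h2 h1,
    ENNReal.ofReal_le_ofReal_iff (add_nonneg h2 h1)]

end Sm

end Vale.Agent.P140
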