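import Vale.Agent.P140.TrDual
import Vale.Agent.P140.Sph

/-! Definitions for the instability construction (see notes/P140.md, part IV). -/

namespace Vale.Agent.P140

open MeasureTheory Set Filter Topology
open scoped ENNReal

noncomputable section

open Classical

/-- macroscopic parameters -/
structure Par where
  C0 : ℝ
  lam : ℝ
  th : ℝ
  c : ℝ
  Lam : ℝ

structure Par.OK (P : Par) : Prop where
  C0 : 1 ≤ P.C0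
  lam0 : 0 < P.lam
  th0 : 1 / 2 ≤ P.th
  th1 : P.th < 1
  lamc : P.lam ≤ P.c
  c4 : P.c ≤ 1 / 4
  Lam3 : 3 ≤ P.Lam
  Laml : P.Lam * P.lam ≤ 1 / 4

/-- `ϱ` is small -/
structure Sm (P : Par) (A : ℕ) (ϱ : ℝ) : Prop where
  ok : P.OK
  A33 : 33 ≤ A
  pos : 0 < ϱ
  small : ϱ * (10 ^ 6 * P.C0 ^ 2 * (A : ℝ) ^ 2) ≤ P.lam ^ 2 * (1 - P.th)

variable (P : Par) (ϱ : ℝ)

/-- time horizon -/
def TT : ℝ := ϱ / P.lam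
/-- layer radii -/
def ar (j : ℕ) : ℝ := ϱ * P.th ^ j
/-- velocity spread of layer `j` -/
def de (j : ℕ) : ℝ := ar P ϱ j ^ 12
/-- size of the cold velocity set -/
def et (j : ℕ) : ℝ := ar P ϱ j ^ 11
/-- gap -/
def gp (j : ℕ) : ℝ := ar P ϱ j ^ 3
/-- bound on the angular momentum -/
def mm (j : ℕ) : ℝ := de P ϱ j * ar P ϱ (j + 1)
/-- phase-space density of layer `j` -/
def Am (j : ℕ) : ℝ := P.C0 / (2 * de P ϱ j ^ 2 * mm P ϱ j)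
/-- axial velocity of layer `j` -/
def sg (j : ℕ) : ℝ := (-1) ^ j
/-- Lagrangian radius -/
def y0 (t : ℝ) (x : X) : ℝ := rr x - P.lam * t
/-- local velocity of the cold gas -/
def uu (σ : ℝ) (x : X) : V := P.lam • xh x + σ • e0
/-- squared relative velocity (`= ‖v - uu‖ ^ 2` off the axis) -/
def Wf (σ : ℝ) (x : X) (v : V) : ℝ :=
  ‖vb v‖ ^ 2 + P.lam ^ 2 - 2 * P.lam * inner ℝ v (xh x) + (v 0 - σ) ^ 2
def LayR (j : ℕ) (y : ℝ) : Prop := ar P ϱ (j + 1) ≤ y ∧ y < ar P ϱ j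
def FullR (j : ℕ) (y : ℝ) : Prop :=
  ar P ϱ (j + 1) + 2 * gp P ϱ j ≤ y ∧ y ≤ ar P ϱ j - 2 * gp P ϱ j
def Lay (j : ℕ) (t : ℝ) (x : X) : Prop := LayR P ϱ j (y0 P t x)
def Full (j : ℕ) (t : ℝ) (x : X) : Prop := FullR P ϱ j (y0 P t x)
def Zone (j : ℕ) (t : ℝ) (x : X) : Prop :=
  ar P ϱ (j + 1) + gp P ϱ j - et P ϱ j * (1 + 2 * t) ≤ y0 P t x ∧
    y0 P t x ≤ ar P ϱ j - gp P ϱ j + et P ϱ j * (1 + 2 * t)
/-- inside one of the layers `0, …, k` -/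
def InL (k : ℕ) (t : ℝ) (x : X) : Prop := ∃ j ≤ k, Lay P ϱ j t x
/-- angular momentum about the axis -/
def wd (x : X) (v : V) : ℝ := xt x 1 * v 2 - xt x 2 * v 1

/-- freely streaming cold gas of layer `j` -/
def Bj (j : ℕ) (t : ℝ) (x : X) (v : V) : ℝ :=
  if |‖vb v‖ ^ 2 - P.lam ^ 2| ≤ P.lam * de P ϱ j ∧ |wd x v| ≤ mm P ϱ j ∧
      |v 0 - sg j| ≤ de P ϱ j ∧
      P.lam * (ar P ϱ (j + 1) + gp P ϱ j) ≤ inner ℝ (xt x) v - t * ‖vb v‖ ^ 2 ∧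
      inner ℝ (xt x) v - t * ‖vb v‖ ^ 2 ≤ P.lam * (ar P ϱ j - gp P ϱ j)
    then Am P ϱ j else 0

/-- envelope for the warm particles of layer `j` -/
def Ej (j : ℕ) (t : ℝ) (x : X) (v : V) : ℝ :=
  if Wf P (sg j) x v ≤ et P ϱ j ^ 2 ∧ Zone P ϱ j t x
    then 1 / et P ϱ j ^ 3 * Real.exp (-Wf P (sg j) x v / (16 * de P ϱ j ^ 2)) else 0

def Bc (k : ℕ) (t : ℝ) (x : X) (v : V) : ℝ := ∑ j ∈ Finset.range (k + 1), Bj P ϱ j t x v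
def Ec (k : ℕ) (t : ℝ) (x : X) (v : V) : ℝ := ∑ j ∈ Finset.range (k + 1), Ej P ϱ j t x v
def Cc (k : ℕ) (t : ℝ) (x : X) (v : V) : ℝ := Bc P ϱ k t x v + Ec P ϱ k t x v

/-- the datum -/
def FD (z : Om) : ℝ := ∑' j, Bj P ϱ j 0 z.1 z.2
/-- approximate data -/
def dat (k : ℕ) (ς : ℝ) (z : Om) : ℝ := Bc P ϱ k 0 z.1 z.2 + ς * G0 z.2

/-- scale of the density of the cold gas -/
def rbar (k : ℕ) (t : ℝ) (x : X) : ℝ := if InL P ϱ k t x then P.C0 / rr x else 0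

def yy (k A : ℕ) (t : ℝ) (x : X) (v : V) : ℝ := rr x + ar P ϱ (k + 1) + t * (A + ‖v‖)
def Yy (k A : ℕ) (t : ℝ) (x : X) (v : V) : ℝ := min (yy P ϱ k A t x v) 1
def Gs (t : ℝ) (v : V) : ℝ := Real.exp (-(2 - t / TT P ϱ) * ‖v‖ ^ 2)
def Sg (k : ℕ) (σ t : ℝ) (x : X) (v : V) : ℝ :=
  if rr x ≤ 2 * ϱ + 2 * t ∧ Wf P σ x v < 1 then
    1 / Real.sqrt (Wf P σ x v + de P ϱ k ^ 2) else 0
def Hh (k : ℕ) (t : ℝ) (x : X) (v : V) : ℝ := 1 + Sg P ϱ k 1 t x v + Sg P ϱ k (-1) t x v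
/-- the hot profile -/
def gam (k A m : ℕ) (t : ℝ) (x : X) (v : V) : ℝ :=
  Yy P ϱ k A t x v ^ m * Hh P ϱ k t x v * Gs P ϱ t v

def eB (k : ℕ) (t : ℝ) (x : X) : V → ℝ≥0∞ := fun v => ENNReal.ofReal (Bc P ϱ k t x v)
def eC (k : ℕ) (t : ℝ) (x : X) : V → ℝ≥0∞ := fun v => ENNReal.ofReal (Cc P ϱ k t x v)
def eG (k A m : ℕ) (t : ℝ) (x : X) : V → ℝ≥0∞ := fun v => ENNReal.ofReal (gam P ϱ k A m t x v)

/-- admissibility: `f ≤ C + N γ` on `[0,T]` -/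
def Adm (k A m : ℕ) (N : ℝ) (f : ℝ → Om → ℝ) : Prop :=
  ∀ t ∈ Icc 0 (TT P ϱ), ∀ x v, f t (x, v) ≤ Cc P ϱ k t x v + N * gam P ϱ k A m t x v

/-- the linear hot-cold collision operator, integrated along characteristics -/
def SS (k : ℕ) (F : ℝ → X → V → ℝ≥0∞) : ℝ → X → V → ℝ≥0∞ :=
  Dh (fun s y u => 2 * Qp kI (eC P ϱ k s y) (F s y) u)

/-- its smoothing part (up to a constant) -/
def SM (k A : ℕ) (κ1 : ℝ) (F : ℝ → X → V → ℝ≥0∞) (t : ℝ) (x : X) (v : V) : ℝ≥0∞ :=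
  ∫⁻ s in Ioc 0 t,
    if s ≤ t - κ1 * Yy P ϱ k A t x v ∧ InL P ϱ k s (x + pr ((s - t) • v)) ∧
        κ1 * Yy P ϱ k A t x v ≤ y0 P s (x + pr ((s - t) • v))
      then ENNReal.ofReal (1 / Yy P ϱ k A t x v ^ 15) * ∫⁻ u, F s (x + pr ((s - t) • v)) u else 0

/-- generic velocities -/
def GG (A : ℕ) (κ : ℝ) (y : X) (u : V) : Prop :=
  ‖u‖ < A ∧ κ ≤ |‖vb u‖ ^ 2 - P.lam ^ 2| ∧ κ ≤ Wf P 1 y u ∧ κ ≤ Wf P (-1) y u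

/-- exceptional velocities -/
def ZZ (κ : ℝ) (y : X) (u : V) : Prop :=
  |‖vb u‖ ^ 2 - P.lam ^ 2| < κ ∨ Wf P 1 y u < κ ∨ Wf P (-1) y u < κ

/-- the excess of `f` over the cold envelope -/
def hx (k : ℕ) (f : ℝ → Om → ℝ) (t : ℝ) (x : X) (v : V) : ℝ≥0∞ :=
  ENNReal.ofReal (f t (x, v)) - eC P ϱ k t x v

def Cold (k : ℕ) (t : ℝ) (x : X) (v : V) : Prop :=
  ∃ j ≤ k, Lay P ϱ j t x ∧ Wf P (sg j) x v ≤ et P ϱ j ^ 2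

/-- productive pairs: `w` cold, `v` fast relative to the local cold gas -/
def Prod2 (k : ℕ) (t : ℝ) (x : X) (v w : V) : Prop :=
  ∃ j ≤ k, Lay P ϱ j t x ∧ Wf P (sg j) x w ≤ et P ϱ j ^ 2 ∧ P.c ^ 2 ≤ Wf P (sg j) x v

def Prod1 (k : ℕ) (t : ℝ) (x : X) (v : V) : Prop :=
  ∃ j ≤ k, Lay P ϱ j t x ∧ P.c ^ 2 ≤ Wf P (sg j) x v

/-- the value of a newly created particle -/
def ps0 (k : ℕ) (t : ℝ) (x : X) (v : V) : ℝ :=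
  if P.Lam * P.lam ≤ ‖vb v‖ ∧ ar P ϱ (k + 1) ≤ y0 P t x ∧ rr x ≤ ϱ / 2 then
    (1 / rr x) ^ 66 * max (1 - rr x * ‖v‖ ^ 2) 0 else 0

def psI (k : ℕ) (t : ℝ) (x : X) (v : V) : ℝ≥0∞ :=
  if rr x ≤ ϱ / 4 then ENNReal.ofReal (ps0 P ϱ k t x v) else 0

def psO (k : ℕ) (t : ℝ) (x : X) (v : V) : ℝ≥0∞ :=
  if rr x ≤ ϱ / 4 then 0 else ENNReal.ofReal (ps0 P ϱ k t x v)

/-- value produced per unit time by a particle -/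
def Th (k n : ℕ) (f : ℝ → Om → ℝ) (s : ℝ) (y : X) (v : V) : ℝ≥0∞ :=
  ENNReal.ofReal (kap n (f s) y) * ∫⁻ w, ∫⁻ ω, kN n v w ω *
    ((if Prod2 P ϱ k s y v w then eo (f s) y w else 0) *
      (ENNReal.ofReal (ps0 P ϱ k s y (vp v w ω)) + ENNReal.ofReal (ps0 P ϱ k s y (vq v w ω)))) ∂sig

/-- collision frequency with the free cold gas -/
def nuB (k n : ℕ) (s : ℝ) (y : X) (v : V) : ℝ≥0∞ := Lo (kN n) (eB P ϱ k s y) v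

/-- births by collisions, weighted by `ψ` -/
def Bth (n : ℕ) (f : ℝ → Om → ℝ) (ψ : ℝ → X → V → ℝ≥0∞) : ℝ≥0∞ :=
  ∫⁻ s in Ioc 0 (TT P ϱ), ∫⁻ z : Om, ENNReal.ofReal (qn n (f s) z) * ψ s z.1 z.2

/-- value of the seed -/
def Sin (k : ℕ) (ς : ℝ) : ℝ≥0∞ :=
  ∫⁻ z : Om, ENNReal.ofReal (dat P ϱ k ς z) * psI P ϱ k 0 z.1 z.2

/-- the observable -/
def chi (p : ℝ × Om) : ℝ :=
  if ∃ j, Lay P ϱ j p.1 p.2.1 ∧ P.lam ^ 2 < Wf P (sg j) p.2.1 p.2.2 then 1 else 0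

def O1 (f : ℝ → Om → ℝ) : ℝ≥0∞ :=
  ∫⁻ t in Ioc 0 (TT P ϱ), ∫⁻ z : Om, ENNReal.ofReal (f t z * chi P ϱ (t, z) * (1 + ‖z.2‖))

def VV (N : ℝ) (f : ℝ → Om → ℝ) : ℝ≥0∞ :=
  ENNReal.ofReal (1 / ϱ ^ 67) * O1 P ϱ f + ENNReal.ofReal (N ^ 2)

/-- number of productive collisions in a cone -/
def NP (k A n : ℕ) (f : ℝ → Om → ℝ) (ρ : ℝ) : ℝ≥0∞ :=
  ∫⁻ s in Ioc 0 (TT P ϱ), ∫⁻ x, if rr x + A * s ≤ ρ then
    ENNReal.ofReal (kap n (f s) x) * I3 (fun v w ω => kN n v w ω *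
      (eo (f s) x v * eo (f s) x w) * (if Prod2 P ϱ k s x v w then 1 else 0)) else 0

/-- localised relative energy weight -/
def ee (A : ℕ) (ρ : ℝ) (t : ℝ) (x : X) (v : V) : ℝ :=
  if rr x + A * t ≤ ρ ∧ ‖v‖ < A then
    (min (min (Wf P 1 x v) (Wf P (-1) x v)) (P.c ^ 2)) ^ 4 else 0

def EE (A : ℕ) (f : ℝ → Om → ℝ) (ρ t : ℝ) : ℝ≥0∞ :=
  ∫⁻ z : Om, ENNReal.ofReal (f t z) * ENNReal.ofReal (ee P A ρ t z.1 z.2)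

/-- possible increase of the energy weight in a collision -/
def Dl (k A : ℕ) (ρ s : ℝ) (x : X) (v w : V) : ℝ :=
  if rr x + A * s ≤ ρ then
    (∑ j ∈ Finset.range (k + 1),
      if Lay P ϱ j s x ∧ Wf P (sg j) x w ≤ et P ϱ j ^ 2 ∧ Wf P (sg j) x v < P.c ^ 2 then
        15 * ar P ϱ j ^ 2 * ee P A ρ s x v + 16 * ar P ϱ j ^ 80 else 0) +
    (if Prod2 P ϱ k s x v w then 2 else 0) +
    (if ¬ Cold P ϱ k s x v ∧ ¬ Cold P ϱ k s x w then 1 else 0)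
  else 0

/-- few collisions with a cold particle produce slow particles -/
def BadOK : Prop := ∀ v : V, ∀ᵐ w : V, P.c / 2 ≤ ‖v - w‖ → ‖vb w‖ ≤ 2 * P.lam →
  ∫⁻ ω, kI v w ω * ((if ‖vb (vp v w ω)‖ < P.Lam * P.lam then 1 else 0) +
      (if ‖vb (vq v w ω)‖ < P.Lam * P.lam then 1 else 0)) ∂sig ≤
    ENNReal.ofReal (1 / 100) * ∫⁻ ω, kI v w ω ∂sig

/-- numerical conditions for the chain reaction -/
structure ValP (cS θ : ℝ) : Prop where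
  ok : P.OK
  bad : BadOK P
  cS0 : 0 < cS
  cS1 : cS ≤ 1
  hcS : ∀ v w : V, ENNReal.ofReal (cS * ‖v - w‖) ≤ ∫⁻ ω, kI v w ω ∂sig
  Lam : 8000 ≤ P.Lam
  C0 : 10 ^ 11 ≤ cS * P.C0
  lamc : 2 * P.lam ≤ P.c
  θ0 : 0 < θ
  θ1 : θ ≤ 1 / 4000
  near : 8320 * P.C0 * P.c * θ ≤ P.Lam * P.lam
  lamin : 1 - P.th ≤ θ ^ 2 / 512
  far : 3090 * (P.c + 2 * P.lam) ≤ cS * P.C0 * θ ^ 2

/-- every particle born near the axis produces at least `11/10` times its own value -/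
def ValI (k n : ℕ) (f : ℝ → Om → ℝ) : Prop :=
  ∀ s ∈ Icc 0 (TT P ϱ), ∀ x v,
    ENNReal.ofReal (11 / 10) * psI P ϱ k s x v ≤ Fw n f (TT P ϱ) (Th P ϱ k n f) s x v

/-- frequency of productive collisions -/
def nuP (k n : ℕ) (f : ℝ → Om → ℝ) (s : ℝ) (y : X) (v : V) : ℝ≥0∞ :=
  Lo (kN n) (fun w => if Prod2 P ϱ k s y v w then eo (f s) y w else 0) v

/-- energy bound in cones -/
def EEb (k A : ℕ) (f : ℝ → Om → ℝ) (Xv : ℝ) : Prop :=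
  ∀ ρ' ρ : ℝ, 0 ≤ ρ' → ρ' ≤ ρ → ρ' ≤ 1 / 4 → ar P ϱ (k + 1) ≤ ρ → ρ ≤ 4 →
    ∀ t ∈ Icc 0 (TT P ϱ), EE P A f ρ' t ≤ ENNReal.ofReal (ρ ^ 64 * Xv)

/-- bound on the cold-cold collisions -/
def QCb (k A : ℕ) (t0 : ℝ) : Prop :=
  ∀ t ∈ Icc 0 (TT P ϱ), ∀ x v, Dh (fun s y u => Qp kI (eC P ϱ k s y) (eC P ϱ k s y) u) t x v ≤
    ENNReal.ofReal (Ec P ϱ k t x v + t0 * gam P ϱ k A A t x v)

/-- a solution of the truncated problem in the perturbative regime -/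
structure Run (A : ℕ) (ϱ : ℝ) (k n : ℕ) (ς N : ℝ) (f : ℝ → Om → ℝ) : Prop where
  sm : Sm P A ϱ
  tau : 8 * ar P ϱ (k + 1) ≤ ϱ
  s0 : 0 ≤ ς
  N0 : 0 ≤ N
  N1 : N ≤ 1
  sol : TrSol n (dat P ϱ k ς) f
  adm : Adm P ϱ k A 33 N f

/-- `Q` holds for all runs with small `ϱ` and large `n` -/
def Ev (A : ℕ) (Q : ℝ → ℕ → ℕ → ℝ → ℝ → (ℝ → Om → ℝ) → Prop) : Prop :=
  ∀ᶠ ϱ in 𝓝[>] (0 : ℝ), ∀ k, ∀ᶠ n in atTop, ∀ ς N f, Run P A ϱ k n ς N f → Q ϱ k n ς N f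

variable {P}

theorem Ev.mono {A : ℕ} {Q Q' : ℝ → ℕ → ℕ → ℝ → ℝ → (ℝ → Om → ℝ) → Prop} (h : Ev P A Q)
    (hQ : ∀ ϱ k n ς N f, Run P A ϱ k n ς N f → Q ϱ k n ς N f → Q' ϱ k n ς N f) : Ev P A Q' := by
  filter_upwards [h] with ϱ h k
  filter_upwards [h k] with n h ς N f R using hQ _ _ _ _ _ _ R (h ς N f R)

theorem Ev.and {A : ℕ} {Q Q' : ℝ → ℕ → ℕ → ℝ → ℝ → (ℝ → Om → ℝ) → Prop} (h : Ev P A Q)
    (h' : Ev P A Q') : Ev P A (fun ϱ k n ς N f => Q ϱ k n ς N f ∧ Q' ϱ k n ς N f) := by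
  filter_upwards [h, h'] with ϱ h h' k
  filter_upwards [h k, h' k] with n h h' ς N f R using ⟨h ς N f R, h' ς N f R⟩

theorem Ev.of_forall {A : ℕ} {Q : ℝ → ℕ → ℕ → ℝ → ℝ → (ℝ → Om → ℝ) → Prop}
    (hQ : ∀ ϱ k n ς N f, Run P A ϱ k n ς N f → Q ϱ k n ς N f) : Ev P A Q :=
  Eventually.of_forall fun ϱ k => Eventually.of_forall fun n ς N f R => hQ ϱ k n ς N f R

theorem Ev.of_rho {A : ℕ} {p : ℝ → Prop} (h : ∀ᶠ ϱ in 𝓝[>] (0 : ℝ), p ϱ) :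
    Ev P A (fun ϱ _ _ _ _ _ => p ϱ) := by
  filter_upwards [h] with ϱ h k using Eventually.of_forall fun _ _ _ _ _ => h

theorem Ev.of_n {A : ℕ} {p : ℝ → ℕ → ℕ → Prop} (h : ∀ ϱ k, 0 < ϱ → ∀ᶠ n in atTop, p ϱ k n) :
    Ev P A (fun ϱ k n _ _ _ => p ϱ k n) := by
  filter_upwards [self_mem_nhdsWithin] with ϱ hϱ k
  filter_upwards [h ϱ k hϱ] with n h _ _ _ _ using h

end

end Vale.Agent.P140
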