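import Vale.Agent.P140.IV2

/-! Increase of the localised energy in collisions. -/

namespace Vale.Agent.P140

open MeasureTheory Set Filter Topology
open scoped ENNReal

open Classical

variable {P : Par} {A : ℕ} {ϱ : ℝ}

/- PLAN ee_coll. Outside the cone everything is 0. Inside ee ≤ 1/2. Neither cold: Dl ≥ 1. w cold in layer j and c² ≤ W_j v: Prod2,
Dl ≥ 2. w cold and W = W_j v < c²: ee v' + ee w' ≤ (W_j v' + W_j w')⁴ ≤ (W + η²)⁴ (Wf_energy), ee v = W⁴ (‖v‖ < A by norm_le_Wf,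
the other sign has Wf ≥ (2 - c)² ≥ c² by Wf_ge_ax), and (W + η²)⁴ ≤ (1 + 15 a²) W⁴ + 16 a^80 (cases η² ≤ a² W or W ≤ a^20).
v cold: symmetric (vp_swap, vq_swap or redo).
PLAN exists_En2. ofReal Dl ≤ three terms, I3_add. First term: only the layer j of (s,x) contributes; there |v - w| ≤ 1,
∫ f ≤ K rbar ≤ 2 K C0/a (exists_den), a C0 ≤ 1, a ≤ 2 rr x ≤ 2ρ, T = ϱ/lam. Second term: definition of NP, Ioc 0 t ⊆ Ioc 0 T.
Third term: Run.hot_le for both, |v-w| ≤ (1+‖v‖)(1+‖w‖), second part of exists_gam_int with rr x + τ + s A ≤ 2ρ, ρ² ≤ 16, T ≤ 1. -/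

private theorem en1_real {a W : ℝ} (ha : 0 < a) (ha1 : a ≤ 1) (hW : 0 ≤ W) :
    (W + (a ^ 11) ^ 2) ^ 4 ≤ W ^ 4 + (15 * a ^ 2 * W ^ 4 + 16 * a ^ 80) := by
  have h2 : 0 < a ^ 2 := by positivity
  have h3 : a ^ 2 ≤ 1 := pow_le_one₀ ha.le ha1
  have h4 : 0 < a ^ 20 := by positivity
  have e : (a ^ 11) ^ 2 = a ^ 2 * a ^ 20 := by ring
  have h80 : 0 < a ^ 80 := by positivity
  have hW4 : 0 ≤ W ^ 4 := by positivity
  rw [e]
  rcases le_total (a ^ 20) W with h | h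
  · have h5 : (W + a ^ 2 * a ^ 20) ^ 4 ≤ (W * (1 + a ^ 2)) ^ 4 :=
      pow_le_pow_left₀ (by positivity) (by nlinarith) 4
    have h6 : (1 + a ^ 2) ^ 4 ≤ 1 + 15 * a ^ 2 := by
      generalize a ^ 2 = u at h2 h3
      have b2 : u ^ 2 ≤ u := by nlinarith
      have b3 : u ^ 3 ≤ u := by nlinarith
      have b4 : u ^ 4 ≤ u := by nlinarith
      nlinarith
    rw [mul_pow] at h5
    have h7 := mul_le_mul_of_nonneg_left h6 hW4
    nlinarith
  · have h5 : (W + a ^ 2 * a ^ 20) ^ 4 ≤ (2 * a ^ 20) ^ 4 :=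
      pow_le_pow_left₀ (by positivity) (by nlinarith) 4
    have h6 : (2 * a ^ 20) ^ 4 = 16 * a ^ 80 := by ring
    have h7 : 0 ≤ 15 * a ^ 2 * W ^ 4 := by positivity
    linarith

private theorem en1_up (j : ℕ) (ρ s : ℝ) (x : X) (v : V) :
    ee P A ρ s x v ≤ Wf P (sg j) x v ^ 4 := by
  unfold ee
  split_ifs
  · refine pow_le_pow_left₀ (le_min (le_min (ibas_nonneg _ x v) (ibas_nonneg _ x v)) (sq_nonneg _))
      ((min_le_left _ _).trans ?_) 4
    rcases sg_cases j with h | h <;> rw [h]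
    · exact min_le_left _ _
    · exact min_le_right _ _
  · exact pow_nonneg (ibas_nonneg _ x v) 4

private theorem en1_low (S : Sm P A ϱ) (j : ℕ) {ρ s : ℝ} {x : X} {v : V} (hc : rr x + A * s ≤ ρ)
    (h : Wf P (sg j) x v < P.c ^ 2) : Wf P (sg j) x v ^ 4 ≤ ee P A ρ s x v := by
  have h1 : P.c ^ 2 ≤ 1 / 16 := by nlinarith [S.ok.c4, S.ok.lam0, S.ok.lamc]
  have h2 := norm_le_Wf S.ok (sg_cases j) x v
  have h3 : Real.sqrt (Wf P (sg j) x v) ≤ 1 := Real.sqrt_le_one.2 (by linarith)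
  have h4 := Wf_ge_ax S.ok 1 x v
  have h5 := Wf_ge_ax S.ok (-1) x v
  rw [ee, if_pos ⟨hc, by linarith [S.ibas_A]⟩]
  refine pow_le_pow_left₀ (ibas_nonneg _ x v) (le_min ?_ h.le) 4
  rcases sg_cases j with e | e <;> rw [e] at h ⊢
  · exact le_min le_rfl (by nlinarith [sq_nonneg (v 0)])
  · exact le_min (by nlinarith [sq_nonneg (v 0)]) le_rfl

private theorem en1_sum (S : Sm P A ϱ) (k : ℕ) (ρ s : ℝ) (x : X) (v w : V) :
    ∀ j ∈ Finset.range (k + 1), 0 ≤ if Lay P ϱ j s x ∧ Wf P (sg j) x w ≤ et P ϱ j ^ 2 ∧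
      Wf P (sg j) x v < P.c ^ 2 then
        15 * ar P ϱ j ^ 2 * ee P A ρ s x v + 16 * ar P ϱ j ^ 80 else 0 := by
  intro j _
  have h1 := S.ee_nonneg ρ s x v
  split_ifs
  · positivity
  · exact le_rfl

private theorem en1_cold (S : Sm P A ϱ) {k : ℕ} {ρ s : ℝ} {x : X} {v w v' w' : V}
    (hc : rr x + A * s ≤ ρ) (hE : ∀ σ, Wf P σ x v' + Wf P σ x w' = Wf P σ x v + Wf P σ x w)
    (hw : Cold P ϱ k s x w) :
    ee P A ρ s x v' + ee P A ρ s x w' ≤ ee P A ρ s x v + Dl P ϱ k A ρ s x v w := by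
  obtain ⟨j, hj, hl, hw⟩ := hw
  have h3 : (0 : ℝ) ≤ if ¬ Cold P ϱ k s x v ∧ ¬ Cold P ϱ k s x w then 1 else 0 := by
    split_ifs <;> norm_num
  rw [Dl, if_pos hc]
  rcases le_or_gt (P.c ^ 2) (Wf P (sg j) x v) with h | h
  · rw [if_pos (show Prod2 P ϱ k s x v w from ⟨j, hj, hl, hw, h⟩)]
    linarith [Finset.sum_nonneg (en1_sum S k ρ s x v w), S.ee_le ρ s x v', S.ee_le ρ s x w',
      S.ee_nonneg ρ s x v]
  · have h2 : (0 : ℝ) ≤ if Prod2 P ϱ k s x v w then 2 else 0 := by split_ifs <;> norm_num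
    have h1 := Finset.single_le_sum (en1_sum S k ρ s x v w)
      (Finset.mem_range.2 (Nat.lt_succ_of_le hj))
    rw [if_pos ⟨hl, hw, h⟩] at h1
    have h4 := en1_up (P := P) (A := A) j ρ s x v'
    have h5 := en1_up (P := P) (A := A) j ρ s x w'
    have h6 := pow_add_pow_le (ibas_nonneg (P := P) (sg j) x v') (ibas_nonneg (P := P) (sg j) x w')
      (show 4 ≠ 0 by norm_num)
    have h7 : (Wf P (sg j) x v' + Wf P (sg j) x w') ^ 4 ≤
        (Wf P (sg j) x v + (ar P ϱ j ^ 11) ^ 2) ^ 4 := by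
      rw [hE]
      exact pow_le_pow_left₀ (add_nonneg (ibas_nonneg _ x v) (ibas_nonneg _ x w))
        (add_le_add_right hw _) 4
    have h8 := en1_real (S.ar_pos j) (S.ibas_ar1 j) (ibas_nonneg (P := P) (sg j) x v)
    have h9 := en1_low S j hc h
    have h10 := mul_le_mul_of_nonneg_left h9 (show 0 ≤ 15 * ar P ϱ j ^ 2 by positivity)
    linarith

theorem Sm.ee_coll (S : Sm P A ϱ) (k : ℕ) (ρ s : ℝ) (x : X) (v w : V) (ω : S2) :
    ee P A ρ s x (vp v w ω) + ee P A ρ s x (vq v w ω) ≤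
      ee P A ρ s x v + ee P A ρ s x w + (Dl P ϱ k A ρ s x v w + Dl P ϱ k A ρ s x w v) := by
  have a1 := S.ee_nonneg ρ s x v
  have a2 := S.ee_nonneg ρ s x w
  have a3 := S.Dl_nonneg k ρ s x v w
  have a4 := S.Dl_nonneg k ρ s x w v
  by_cases hc : rr x + A * s ≤ ρ
  swap
  · rw [ee, ee, if_neg fun h => hc h.1, if_neg fun h => hc h.1]
    linarith
  by_cases hw : Cold P ϱ k s x w
  · linarith [en1_cold S hc (fun σ => Wf_energy σ x v w ω) hw]
  by_cases hv : Cold P ϱ k s x v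
  · linarith [en1_cold S hc (fun σ => (Wf_energy σ x v w ω).trans (add_comm _ _)) hv]
  have h2 : (0 : ℝ) ≤ if Prod2 P ϱ k s x v w then 2 else 0 := by split_ifs <;> norm_num
  have h3 : 1 ≤ Dl P ϱ k A ρ s x v w := by
    rw [Dl, if_pos hc, if_pos (And.intro hv hw)]
    linarith [Finset.sum_nonneg (en1_sum S k ρ s x v w)]
  linarith [S.ee_le ρ s x (vp v w ω), S.ee_le ρ s x (vq v w ω)]

private theorem en1_int {T : ℝ} (hT : T ≤ 1) {J L : ℝ → X → ℝ≥0∞} {H : ℝ → Om → ℝ≥0∞}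
    (hH : Measurable (Function.uncurry H)) (a c : ℝ≥0∞)
    (h : ∀ s ∈ Ioc 0 T, ∀ x, J s x ≤ a * (∫⁻ v, H s (x, v)) + L s x + c) :
    ∫⁻ s in Ioc 0 T, ∫⁻ x, J s x ≤
      a * (∫⁻ s in Ioc 0 T, ∫⁻ z, H s z) + (∫⁻ s in Ioc 0 T, ∫⁻ x, L s x) + c := by
  have m1 : ∀ s, Measurable fun x => ∫⁻ v, H s (x, v) := fun s =>
    Measurable.lintegral_prod_right' (f := H s) hH.of_uncurry_left
  have m2 : Measurable fun s => ∫⁻ z, H s z := hH.lintegral_prod_right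
  have e : ∀ s, ∫⁻ x, ∫⁻ v, H s (x, v) = ∫⁻ z, H s z := fun s =>
    (lintegral_prod _ hH.of_uncurry_left.aemeasurable).symm
  refine (setLIntegral_mono' (g := fun s => a * (∫⁻ z, H s z) + (∫⁻ x, L s x) + c)
    measurableSet_Ioc fun s hs => (lintegral_mono (h s hs)).trans_eq ?_).trans ?_
  · rw [lintegral_add_right _ measurable_const, lintegral_add_left ((m1 s).const_mul a),
      lintegral_const_mul _ (m1 s), e, lintegral_const, measure_univ, mul_one]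
  · rw [lintegral_add_right _ measurable_const, lintegral_add_left (m2.const_mul a),
      lintegral_const_mul _ m2, setLIntegral_const, Real.volume_Ioc]
    exact add_le_add_right (mul_le_of_le_one_right' (ENNReal.ofReal_le_one.2 (by linarith))) _

private theorem en1_tens {a b : V → ℝ≥0∞} (ha : Measurable a) (hb : Measurable b) :
    I3 (fun v w _ => a v * b w) ≤ 13 * ((∫⁻ v, a v) * ∫⁻ w, b w) := by
  unfold I3
  simp only [lintegral_const]
  rw [← lintegral_mul_const _ ha, ← lintegral_const_mul' _ _ (by norm_num)]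
  refine lintegral_mono fun v => ?_
  rw [← lintegral_const_mul _ hb, ← lintegral_const_mul' _ _ (by norm_num)]
  refine lintegral_mono fun w => ?_
  rw [mul_comm]
  exact mul_le_mul_left sig_univ_le _

private theorem en1_split {Φ : V → V → S2 → ℝ≥0∞}
    (hΦ : Measurable fun p : V × V × S2 => Φ p.1 p.2.1 p.2.2) {a b g : V → ℝ≥0∞}
    (ha : Measurable a) (hb : Measurable b) (hg : Measurable g) :
    I3 (fun v w ω => 2 * Φ v w ω + (a v * b w + g v * g w)) ≤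
      2 * I3 Φ + (13 * ((∫⁻ v, a v) * ∫⁻ w, b w) + 13 * ((∫⁻ v, g v) * ∫⁻ w, g w)) := by
  have m1 : Measurable fun p : V × V × S2 => a p.1 * b p.2.1 := by fun_prop
  have m2 : Measurable fun p : V × V × S2 => g p.1 * g p.2.1 := by fun_prop
  rw [I3_add (Φ := fun v w ω => 2 * Φ v w ω) (Ψ := fun v w _ => a v * b w + g v * g w)
    (hΦ.const_mul 2) (m1.add m2), I3_const_mul _ hΦ,
    I3_add (Φ := fun v w _ => a v * b w) (Ψ := fun v w _ => g v * g w) m1 m2]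
  exact add_le_add_right (add_le_add (en1_tens ha hb) (en1_tens hg hg)) _

private theorem en1_first : ∃ K : ℝ, 0 ≤ K ∧ ∀ (P : Par) (A : ℕ) (ϱ : ℝ) (k n : ℕ) (ς N : ℝ)
    (f : ℝ → Om → ℝ), Run P A ϱ k n ς N f → ∀ ρ' ρ : ℝ, ∀ s ∈ Icc 0 (TT P ϱ), ∀ x : X,
    rr x ≤ ρ → ∃ c1 c2 m : ℝ, 0 ≤ c1 ∧ 0 ≤ c2 ∧ 0 ≤ m ∧ c1 * m ≤ K ∧
      c2 * m * m ≤ K * (ρ ^ 64 * ϱ) ∧
      (c1 = 0 ∧ c2 = 0 ∨ ∫⁻ w, ENNReal.ofReal (1 + ‖w‖) * eo (f s) x w ≤ ENNReal.ofReal m) ∧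
      ∀ v w, ‖v - w‖ * (∑ j ∈ Finset.range (k + 1),
        if Lay P ϱ j s x ∧ Wf P (sg j) x w ≤ et P ϱ j ^ 2 ∧ Wf P (sg j) x v < P.c ^ 2 then
          15 * ar P ϱ j ^ 2 * ee P A ρ' s x v + 16 * ar P ϱ j ^ 80 else 0) ≤
        c1 * ee P A ρ' s x v + c2 := by
  obtain ⟨K, hK, hd⟩ := exists_den
  refine ⟨64 * 2 ^ 64 * K ^ 2, by positivity, fun P A ϱ k n ς N f R ρ' ρ s hs x hr => ?_⟩
  have S := R.sm
  have hϱ := S.pos
  by_cases hx : InL P ϱ k s x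
  swap
  · refine ⟨0, 0, 0, le_rfl, le_rfl, le_rfl, by rw [mul_zero]; positivity,
      by rw [mul_zero]; positivity, Or.inl ⟨rfl, rfl⟩, fun v w => ?_⟩
    rw [Finset.sum_eq_zero fun j hj => if_neg fun h =>
      hx ⟨j, Nat.le_of_lt_succ (Finset.mem_range.1 hj), h.1⟩]
    simp
  have h1 := (hd P A ϱ k n ς N f R s hs x).2 hx
  rw [rbar, if_pos hx] at h1
  obtain ⟨j, hj, hl⟩ := hx
  obtain ⟨-, -, h2, h3⟩ := S.Lay_rr hs hl
  have ha := S.ar_pos j
  have ha1 := S.ibas_ar1 j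
  have ha2 := S.ar_le j
  have hC := S.ok.C0
  have hC2 : ar P ϱ j * P.C0 ^ 2 ≤ 1 :=
    (mul_le_mul_of_nonneg_right ha2 (sq_nonneg _)).trans (S.rho_C0.trans (by norm_num))
  refine ⟨15 * ar P ϱ j ^ 2, 16 * ar P ϱ j ^ 80, K * (2 * P.C0 / ar P ϱ j), by positivity,
    by positivity, by positivity, ?_, ?_, Or.inr (h1.trans (ENNReal.ofReal_le_ofReal ?_)),
    fun v w => ?_⟩
  · have e : 15 * ar P ϱ j ^ 2 * (K * (2 * P.C0 / ar P ϱ j)) = 30 * K * (ar P ϱ j * P.C0) := by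
      field_simp
      ring
    have h4 : ar P ϱ j * P.C0 ≤ 1 := by nlinarith [mul_pos ha (show 0 < P.C0 by linarith)]
    rw [e]
    nlinarith
  · have e : 16 * ar P ϱ j ^ 80 * (K * (2 * P.C0 / ar P ϱ j)) * (K * (2 * P.C0 / ar P ϱ j)) =
        64 * K ^ 2 * (ar P ϱ j ^ 64 * (ar P ϱ j * (ar P ϱ j ^ 12 * (ar P ϱ j * P.C0 ^ 2)))) := by
      field_simp
      ring
    have h4 : ar P ϱ j ^ 64 ≤ (2 * ρ) ^ 64 := pow_le_pow_left₀ ha.le (by linarith) 64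
    have h5 : ar P ϱ j ^ 12 * (ar P ϱ j * P.C0 ^ 2) ≤ 1 :=
      mul_le_one₀ (pow_le_one₀ ha.le ha1) (by positivity) hC2
    have h6 : ar P ϱ j * (ar P ϱ j ^ 12 * (ar P ϱ j * P.C0 ^ 2)) ≤ ϱ :=
      (mul_le_of_le_one_right ha.le h5).trans ha2
    rw [e, show 64 * 2 ^ 64 * K ^ 2 * (ρ ^ 64 * ϱ) = 64 * K ^ 2 * ((2 * ρ) ^ 64 * ϱ) by ring]
    exact mul_le_mul_of_nonneg_left (mul_le_mul h4 h6 (by positivity) (by positivity))
      (by positivity)
  · refine mul_le_mul_of_nonneg_left ?_ (by linarith)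
    rw [div_le_div_iff₀ (by linarith) ha]
    nlinarith
  · have h4 := S.ee_nonneg ρ' s x v
    rw [Finset.sum_eq_single j (fun i _ hi => if_neg fun h => hi (S.LayR_unique h.1 hl))
      fun h => absurd (Finset.mem_range.2 (Nat.lt_succ_of_le hj)) h]
    split_ifs with h
    · have h5 := iv2_near (sg j) x (S.ok.lam0.le.trans S.ok.lamc) (S.et_pos j).le h.2.2.le h.2.1
      refine mul_le_of_le_one_left (by positivity) ?_
      linarith [S.ok.c4, S.et_le_lam j, S.ok.lam_le]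
    · rw [mul_zero]
      positivity

private theorem en1_pt {k n : ℕ} {ς N : ℝ} {f : ℝ → Om → ℝ} (R : Run P A ϱ k n ς N f) {s : ℝ}
    (hs : s ∈ Icc 0 (TT P ϱ)) (x : X) (v w : V) (ω : S2) {D c1 c2 e : ℝ} (hc1 : 0 ≤ c1)
    (hc2 : 0 ≤ c2) (he : 0 ≤ e) (hD : ‖v - w‖ * D ≤ c1 * e + c2) :
    kN n v w ω * (eo (f s) x v * eo (f s) x w) * ENNReal.ofReal (D +
      (if Prod2 P ϱ k s x v w then 2 else 0) +
      (if ¬ Cold P ϱ k s x v ∧ ¬ Cold P ϱ k s x w then 1 else 0)) ≤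
    2 * (kN n v w ω * (eo (f s) x v * eo (f s) x w) * (if Prod2 P ϱ k s x v w then 1 else 0)) +
      ((ENNReal.ofReal c1 * (eo (f s) x v * ENNReal.ofReal e) +
          ENNReal.ofReal c2 * (ENNReal.ofReal (1 + ‖v‖) * eo (f s) x v)) *
        (ENNReal.ofReal (1 + ‖w‖) * eo (f s) x w) +
      ENNReal.ofReal N * ENNReal.ofReal ((1 + ‖v‖) ^ 2 * gam P ϱ k A 33 s x v) *
        (ENNReal.ofReal N * ENNReal.ofReal ((1 + ‖w‖) ^ 2 * gam P ϱ k A 33 s x w))) := by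
  have hk : kN n v w ω ≤ ENNReal.ofReal ‖v - w‖ :=
    ((isKer_kN n).le v w ω).trans (ENNReal.ofReal_le_ofReal (abs_aa_le v w ω))
  have h1 : ∀ u : V, (1 : ℝ≥0∞) ≤ ENNReal.ofReal (1 + ‖u‖) := fun u =>
    ENNReal.one_le_ofReal.2 (le_add_of_nonneg_right (norm_nonneg u))
  refine (mul_le_mul_right (ENNReal.ofReal_add_le.trans
    (add_le_add_left ENNReal.ofReal_add_le _)) _).trans ?_
  rw [mul_add, mul_add, add_comm (_ * ENNReal.ofReal D), add_assoc]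
  refine add_le_add (le_of_eq ?_) (add_le_add ?_ ?_)
  · split_ifs
    · rw [ENNReal.ofReal_ofNat, mul_one, mul_comm]
    · rw [ENNReal.ofReal_zero, mul_zero, mul_zero]
  · calc _ ≤ ENNReal.ofReal ‖v - w‖ * (eo (f s) x v * eo (f s) x w) * ENNReal.ofReal D := by gcongr
      _ = ENNReal.ofReal (‖v - w‖ * D) * (eo (f s) x v * eo (f s) x w) := by
        rw [ENNReal.ofReal_mul (norm_nonneg _)]
        ring
      _ ≤ (ENNReal.ofReal c1 * ENNReal.ofReal e + ENNReal.ofReal c2) *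
          (eo (f s) x v * eo (f s) x w) := by
        rw [← ENNReal.ofReal_mul hc1, ← ENNReal.ofReal_add (mul_nonneg hc1 he) hc2]
        exact mul_le_mul_left (ENNReal.ofReal_le_ofReal hD) _
      _ = (ENNReal.ofReal c1 * (eo (f s) x v * ENNReal.ofReal e) +
          ENNReal.ofReal c2 * (1 * eo (f s) x v)) * (1 * eo (f s) x w) := by ring
      _ ≤ _ := by gcongr <;> exact h1 _
  · split_ifs with h
    · have g1 := R.sm.gam_nonneg k 33 hs.1 x v
      have g2 := R.sm.gam_nonneg k 33 hs.1 x w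
      have hN := R.N0
      rw [ENNReal.ofReal_one, mul_one, ← ENNReal.ofReal_mul hN, ← ENNReal.ofReal_mul hN,
        ← ENNReal.ofReal_mul (by positivity)]
      refine (mul_le_mul' hk (mul_le_mul' (ENNReal.ofReal_le_ofReal (R.hot_le hs h.1))
        (ENNReal.ofReal_le_ofReal (R.hot_le hs h.2)))).trans ?_
      rw [← ENNReal.ofReal_mul (by positivity), ← ENNReal.ofReal_mul (norm_nonneg _)]
      refine ENNReal.ofReal_le_ofReal ?_
      have a1 := norm_nonneg v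
      have a2 := norm_nonneg w
      have a3 : ‖v - w‖ ≤ (1 + ‖v‖) ^ 2 * (1 + ‖w‖) ^ 2 := by
        have a4 : ‖v - w‖ ≤ (1 + ‖v‖) * (1 + ‖w‖) := by
          nlinarith [norm_sub_le v w, mul_nonneg a1 a2]
        have a5 : 1 ≤ (1 + ‖v‖) * (1 + ‖w‖) := by nlinarith [mul_nonneg a1 a2]
        nlinarith
      refine (mul_le_mul_of_nonneg_right a3 (by positivity)).trans_eq ?_
      ring
    · rw [ENNReal.ofReal_zero, mul_zero]
      exact zero_le

private theorem en1_loc : ∃ K : ℝ, 0 ≤ K ∧ ∀ (P : Par) (A : ℕ) (ϱ : ℝ) (k n : ℕ) (ς N : ℝ)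
    (f : ℝ → Om → ℝ), Run P A ϱ k n ς N f → ∀ ρ' ρ : ℝ, ρ' ≤ ρ → ar P ϱ (k + 1) ≤ ρ → ρ ≤ 4 →
    ∀ s ∈ Icc 0 (TT P ϱ), ∀ x : X, rr x + A * s ≤ ρ' →
      I3 (fun v w ω => kN n v w ω *
          (eo (f s) x v * eo (f s) x w) * ENNReal.ofReal (Dl P ϱ k A ρ' s x v w)) ≤
        2 * I3 (fun v w ω => kN n v w ω *
          (eo (f s) x v * eo (f s) x w) * (if Prod2 P ϱ k s x v w then 1 else 0)) +
        (ENNReal.ofReal K * (∫⁻ v, eo (f s) x v * ENNReal.ofReal (ee P A ρ' s x v)) +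
          ENNReal.ofReal (K * (ρ ^ 64 * (N ^ 2 + ϱ)))) := by
  obtain ⟨K1, hK1, h1⟩ := en1_first
  obtain ⟨K2, hK2, h2⟩ := exists_gam_int
  refine ⟨13 * (K1 + K2 ^ 2 * 2 ^ 70), by positivity,
    fun P A ϱ k n ς N f R ρ' ρ hρ hτ h4 s hs x hc => ?_⟩
  have S := R.sm
  have hN := R.N0
  have hϱ := S.pos
  have hAs : 0 ≤ (A : ℝ) * s := mul_nonneg (Nat.cast_nonneg _) hs.1
  have hr : 0 ≤ rr x := norm_nonneg _
  have hρ0 : 0 ≤ ρ := by linarith
  obtain ⟨c1, c2, m, hc1, hc2, hm, a1, a2, a3, a4⟩ :=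
    h1 P A ϱ k n ς N f R ρ' ρ s hs x (by linarith)
  have mF : Measurable (eo (f s) x) := measurable_eo' (R.sol.meas_t s) x
  have mE : Measurable fun v => eo (f s) x v * ENNReal.ofReal (ee P A ρ' s x v) :=
    mF.mul (measurable_ee P A ρ' measurable_const measurable_const measurable_id).ennreal_ofReal
  have mB : Measurable fun v : V => ENNReal.ofReal (1 + ‖v‖) * eo (f s) x v :=
    (measurable_norm.const_add 1).ennreal_ofReal.mul mF
  have mG : Measurable fun v : V => ENNReal.ofReal ((1 + ‖v‖) ^ 2 * gam P ϱ k A 33 s x v) :=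
    (((measurable_norm.const_add 1).pow_const 2).mul
      (measurable_gam P ϱ k A 33 measurable_const measurable_const measurable_id)).ennreal_ofReal
  have mA : Measurable fun v : V =>
      ENNReal.ofReal c1 * (eo (f s) x v * ENNReal.ofReal (ee P A ρ' s x v)) +
        ENNReal.ofReal c2 * (ENNReal.ofReal (1 + ‖v‖) * eo (f s) x v) :=
    (mE.const_mul _).add (mB.const_mul _)
  have mP : Measurable fun p : V × V × S2 => kN n p.1 p.2.1 p.2.2 *
      (eo (f s) x p.1 * eo (f s) x p.2.1) * (if Prod2 P ϱ k s x p.1 p.2.1 then 1 else 0) :=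
    ((isKer_kN n).meas.mul ((mF.comp measurable_fst).mul (mF.comp measurable_snd.fst))).mul
      (Measurable.ite (measurableSet_Prod2 P ϱ k measurable_const measurable_const measurable_fst
        measurable_snd.fst) measurable_const measurable_const)
  simp only [Dl, if_pos hc]
  refine (I3_mono fun v w ω => en1_pt R hs x v w ω hc1 hc2 (S.ee_nonneg ρ' s x v) (a4 v w)).trans ?_
  refine (en1_split mP mA mB (mG.const_mul (ENNReal.ofReal N))).trans (add_le_add_right ?_ _)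
  rw [lintegral_add_left (mE.const_mul _), lintegral_const_mul _ mE, lintegral_const_mul _ mB,
    lintegral_const_mul _ mG]
  have b1 : ENNReal.ofReal N * ∫⁻ v, ENNReal.ofReal ((1 + ‖v‖) ^ 2 * gam P ϱ k A 33 s x v) ≤
      ENNReal.ofReal (N * (K2 * (2 * ρ) ^ 33)) := by
    rw [ENNReal.ofReal_mul hN]
    refine mul_le_mul_right ((h2 P A ϱ S k 33 S.A33 s hs x).2.1.trans
      (ENNReal.ofReal_le_ofReal (mul_le_mul_of_nonneg_left ?_ (by linarith)))) _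
    have := (S.ar_pos (k + 1)).le
    exact pow_le_pow_left₀ (by linarith) (by linarith) 33
  have b2 : N * (K2 * (2 * ρ) ^ 33) * (N * (K2 * (2 * ρ) ^ 33)) ≤
      K2 ^ 2 * 2 ^ 70 * (ρ ^ 64 * N ^ 2) := by
    have b3 : ρ ^ 2 ≤ 16 := by nlinarith
    calc _ = K2 ^ 2 * 2 ^ 66 * (ρ ^ 64 * N ^ 2) * ρ ^ 2 := by ring
      _ ≤ K2 ^ 2 * 2 ^ 66 * (ρ ^ 64 * N ^ 2) * 16 := by gcongr
      _ = _ := by ring
  generalize (∫⁻ v, eo (f s) x v * ENNReal.ofReal (ee P A ρ' s x v)) = E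
  have b3 : ∀ B : ℝ≥0∞, (c1 = 0 ∧ c2 = 0 ∨ B ≤ ENNReal.ofReal m) →
      (ENNReal.ofReal c1 * E + ENNReal.ofReal c2 * B) * B ≤
        ENNReal.ofReal K1 * E + ENNReal.ofReal (K1 * (ρ ^ 64 * ϱ)) := by
    rintro B (⟨rfl, rfl⟩ | hB)
    · simp
    · calc _ ≤ (ENNReal.ofReal c1 * E + ENNReal.ofReal c2 * ENNReal.ofReal m) *
            ENNReal.ofReal m := by gcongr
        _ = ENNReal.ofReal (c1 * m) * E + ENNReal.ofReal (c2 * m * m) := by
          rw [ENNReal.ofReal_mul hc1, ENNReal.ofReal_mul (mul_nonneg hc2 hm),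
            ENNReal.ofReal_mul hc2]
          ring
        _ ≤ _ := by gcongr
  refine (add_le_add (mul_le_mul_right (b3 _ a3) _)
    (mul_le_mul_right (mul_le_mul' b1 b1) _)).trans ?_
  rw [← ENNReal.ofReal_mul (by positivity), mul_add, add_assoc, ← mul_add,
    ← ENNReal.ofReal_add (by positivity) (by positivity), ← mul_assoc, ← ENNReal.ofReal_ofNat 13,
    ← ENNReal.ofReal_mul (by norm_num), ← ENNReal.ofReal_mul (by norm_num)]
  have b4 : 0 ≤ K2 ^ 2 * 2 ^ 70 := by positivity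
  have b5 : 0 ≤ K1 * (ρ ^ 64 * N ^ 2) := by positivity
  have b6 : 0 ≤ K2 ^ 2 * 2 ^ 70 * (ρ ^ 64 * ϱ) := by positivity
  refine add_le_add (mul_le_mul_left (ENNReal.ofReal_le_ofReal (by linarith)) _)
    (ENNReal.ofReal_le_ofReal ?_)
  generalize K2 ^ 2 * 2 ^ 70 = K3 at b2 b6 ⊢
  generalize N * (K2 * (2 * ρ) ^ 33) * (N * (K2 * (2 * ρ) ^ 33)) = y at b2 ⊢
  generalize ρ ^ 64 = z at b2 b5 b6 ⊢
  nlinarith

theorem exists_En2 (hP : P.OK) : ∃ K : ℝ, 0 ≤ K ∧ ∀ (A : ℕ) (ϱ : ℝ) (k n : ℕ) (ς N : ℝ)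
    (f : ℝ → Om → ℝ), Run P A ϱ k n ς N f → ∀ ρ' ρ : ℝ, ρ' ≤ ρ → ar P ϱ (k + 1) ≤ ρ → ρ ≤ 4 →
    ∀ t ∈ Icc 0 (TT P ϱ),
      ∫⁻ s in Ioc 0 t, ∫⁻ x, ENNReal.ofReal (kap n (f s) x) * I3 (fun v w ω => kN n v w ω *
          (eo (f s) x v * eo (f s) x w) * ENNReal.ofReal (Dl P ϱ k A ρ' s x v w)) ≤
        ENNReal.ofReal K * (∫⁻ s in Ioc 0 t, EE P A f ρ' s) + 2 * NP P ϱ k A n f ρ' +
          ENNReal.ofReal (K * (ρ ^ 64 * (N ^ 2 + ϱ))) := by
  have _ := hP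
  obtain ⟨K, hK, h⟩ := en1_loc
  refine ⟨K, hK, fun A ϱ k n ς N f R ρ' ρ hρ hτ h4 t ht => ?_⟩
  refine (en1_int (ht.2.trans (R.sm.TT_le.trans (by norm_num)))
    (H := fun s z => ENNReal.ofReal (f s z) * ENNReal.ofReal (ee P A ρ' s z.1 z.2))
    (L := fun s x => 2 * if rr x + A * s ≤ ρ' then
      ENNReal.ofReal (kap n (f s) x) * I3 (fun v w ω => kN n v w ω *
        (eo (f s) x v * eo (f s) x w) * (if Prod2 P ϱ k s x v w then 1 else 0)) else 0)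
    (R.sol.meas.ennreal_ofReal.mul
      (measurable_ee P A ρ' measurable_fst measurable_snd.fst measurable_snd.snd).ennreal_ofReal)
    (ENNReal.ofReal K) (ENNReal.ofReal (K * (ρ ^ 64 * (N ^ 2 + ϱ)))) fun s hs x => ?_).trans ?_
  · by_cases hc : rr x + A * s ≤ ρ'
    · have h1 := h P A ϱ k n ς N f R ρ' ρ hρ hτ h4 s ⟨hs.1.le, hs.2.trans ht.2⟩ x hc
      have h2 : ENNReal.ofReal (kap n (f s) x) ≤ 1 :=
        ENNReal.ofReal_le_one.2 (kap_le_one n (R.sol.nonneg s) x)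
      refine (mul_le_mul_right h1 _).trans ?_
      rw [if_pos hc, mul_add, add_comm (ENNReal.ofReal K * _) (2 * _), add_assoc, mul_left_comm]
      exact add_le_add_right (mul_le_of_le_one_left' h2) _
    · simp only [Dl, if_neg hc, ENNReal.ofReal_zero, mul_zero, I3, lintegral_zero]
      exact zero_le
  · refine add_le_add_left (add_le_add_right ?_ _) _
    simp only [lintegral_const_mul' _ _ ENNReal.ofNat_ne_top]
    exact mul_le_mul_right (lintegral_mono_set (Ioc_subset_Ioc_right ht.2)) _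

end Vale.Agent.P140
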