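import Vale.Agent.P140.TrB

/-! Global existence and Lipschitz dependence for the truncated equation (Picard iteration). -/

namespace Vale.Agent.P140

open MeasureTheory Set Filter Topology
open scoped ENNReal

/-- growth constant of the truncated gain -/
noncomputable def trexL (n : ℕ) : ℝ := 32 * (n : ℝ) ^ 4 * Real.exp (2 * (n : ℝ) ^ 2)

/-- the mild map along characteristics -/
noncomputable def trexPsi (n : ℕ) (f0 : Om → ℝ) (g : ℝ → Om → ℝ) (t : ℝ) (z : Om) : ℝ :=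
  f0 z * Real.exp (-LamN n g 0 t z) +
    ∫ s in (0 : ℝ)..t, Real.exp (-LamN n g s t z) * qn n (g s) (sh s z)

/-- the Picard map -/
noncomputable def trexPhi (n : ℕ) (f0 : Om → ℝ) (g : ℝ → Om → ℝ) (t : ℝ) (z : Om) : ℝ :=
  if 0 ≤ t then trexPsi n f0 g t (sh (-t) z) else 0

theorem trexL_pos {n : ℕ} (hn : 1 ≤ n) : 0 < trexL n := by
  have : (0 : ℝ) < n := by exact_mod_cast hn
  unfold trexL
  positivity

theorem trex_nn {a M : ℝ} {v : V} (h0 : 0 ≤ a) (h : a ≤ M * G0 v) : 0 ≤ M :=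
  nonneg_of_mul_nonneg_left (h0.trans h) (G0_pos v)

theorem trex_int {h : ℝ → ℝ} {a b t A B lam : ℝ} (hlam : 0 < lam) (hA : 0 ≤ A) (hab : a ≤ b)
    (hb : b ≤ t) (H : ∀ s ∈ Ioc a b, |h s| ≤ A * Real.exp (lam * s) + B) :
    |∫ s in a..b, h s| ≤ A / lam * Real.exp (lam * t) + B * (b - a) := by
  have i1 : IntervalIntegrable (fun s => A * Real.exp (lam * s)) volume a b :=
    (by fun_prop : Continuous fun s => A * Real.exp (lam * s)).intervalIntegrable _ _
  have h1 := intervalIntegral.norm_integral_le_of_norm_le (μ := volume) (f := h) hab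
    (Eventually.of_forall H) (i1.add intervalIntegrable_const)
  rw [intervalIntegral.integral_add i1 intervalIntegrable_const, intervalIntegral.integral_const,
    intervalIntegral.integral_const_mul, smul_eq_mul, Real.norm_eq_abs] at h1
  have h2 : lam * ∫ s in a..b, Real.exp (lam * s) = Real.exp (lam * b) - Real.exp (lam * a) := by
    rw [intervalIntegral.mul_integral_comp_mul_left, integral_exp]
  have h3 : ∫ s in a..b, Real.exp (lam * s) ≤ Real.exp (lam * t) / lam := by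
    rw [le_div_iff₀ hlam, mul_comm, h2]
    have := Real.exp_le_exp.2 (mul_le_mul_of_nonneg_left hb hlam.le)
    linarith [Real.exp_pos (lam * a)]
  have h4 := mul_le_mul_of_nonneg_left h3 hA
  have h5 : A * (Real.exp (lam * t) / lam) = A / lam * Real.exp (lam * t) := by ring
  linarith

theorem trex_ii {h : ℝ → ℝ} (hm : Measurable h) {a b B : ℝ} (hab : a ≤ b)
    (hB : ∀ s ∈ Ioc a b, |h s| ≤ B) : IntervalIntegrable h volume a b := by
  refine (intervalIntegrable_const (c := B)).mono_fun' hm.aestronglyMeasurable ?_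
  rw [uIoc_of_le hab]
  exact (ae_restrict_iff' measurableSet_Ioc).2 (Eventually.of_forall hB)

theorem trex_exp {a b : ℝ} (ha : 0 ≤ a) (hb : 0 ≤ b) :
    |Real.exp (-a) - Real.exp (-b)| ≤ |a - b| := by
  have key : ∀ x y : ℝ, 0 ≤ x → Real.exp (-x) - Real.exp (-y) ≤ |x - y| := by
    intro x y hx
    have h1 : Real.exp (-y) = Real.exp (-x) * Real.exp (x - y) := by
      rw [← Real.exp_add]; congr 1; ring
    have h2 := Real.add_one_le_exp (x - y)
    have h3 : Real.exp (-x) ≤ 1 := Real.exp_le_one_iff.2 (by linarith)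
    have h4 := Real.exp_pos (-x)
    have h5 := neg_abs_le (x - y)
    have h6 := abs_nonneg (x - y)
    rw [h1]
    nlinarith
  refine abs_le.2 ⟨?_, key a b ha⟩
  have := key b a hb
  rw [abs_sub_comm] at this
  linarith

theorem trex_iter {u w : ℝ → Om → ℝ} {S : Set ℝ} {C M0 : ℝ}
    (h0 : ∀ t ∈ S, ∀ z, u t z ≤ M0 * w t z)
    (hs : ∀ M, (∀ t ∈ S, ∀ z, u t z ≤ M * w t z) → ∀ t ∈ S, ∀ z, u t z ≤ (C + M / 2) * w t z) :
    ∀ t ∈ S, ∀ z, u t z ≤ 2 * C * w t z := by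
  have h1 : ∀ j : ℕ, ∀ t ∈ S, ∀ z, u t z ≤ (2 * C + (M0 - 2 * C) * (1 / 2) ^ j) * w t z := by
    intro j
    induction j with
    | zero => simpa using h0
    | succ j ih =>
      intro t ht z
      refine (hs _ ih t ht z).trans (le_of_eq ?_)
      ring
  intro t ht z
  have h2 := (((tendsto_pow_atTop_nhds_zero_of_lt_one (r := (1 / 2 : ℝ)) (by norm_num)
    (by norm_num)).const_mul (M0 - 2 * C)).const_add (2 * C)).mul_const (w t z)
  rw [mul_zero, add_zero] at h2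
  exact ge_of_tendsto' h2 fun j => h1 j t ht z

theorem trex_Lam_nonneg (n : ℕ) {g : ℝ → Om → ℝ} (hg0 : ∀ t z, 0 ≤ g t z) {s t : ℝ} (hst : s ≤ t)
    (z : Om) : 0 ≤ LamN n g s t z :=
  intervalIntegral.integral_nonneg hst fun u _ => ln_nonneg n (hg0 u) _

theorem trex_exp_le (n : ℕ) {g : ℝ → Om → ℝ} (hg0 : ∀ t z, 0 ≤ g t z) {s t : ℝ} (hst : s ≤ t)
    (z : Om) : Real.exp (-LamN n g s t z) ≤ 1 :=
  Real.exp_le_one_iff.2 (neg_nonpos.2 (trex_Lam_nonneg n hg0 hst z))

theorem trex_meas_ln (n : ℕ) {g : ℝ → Om → ℝ} (hg : Measurable (Function.uncurry g)) (z : Om) :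
    Measurable fun s => ln n (g s) (sh s z) :=
  measurable_ln n hg (measurable_sh measurable_id measurable_const)

theorem trex_meas3 {F : ℝ → ℝ → Om → ℝ} (hF : Measurable fun p : ℝ × ℝ × Om => F p.1 p.2.1 p.2.2)
    {α : Type} [MeasurableSpace α] {s t : α → ℝ} {z : α → Om} (hs : Measurable s)
    (ht : Measurable t) (hz : Measurable z) : Measurable fun a => F (s a) (t a) (z a) :=
  hF.comp (hs.prodMk (ht.prodMk hz))

theorem trex_meas_H (n : ℕ) {g : ℝ → Om → ℝ} (hg : Measurable (Function.uncurry g)) {α : Type}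
    [MeasurableSpace α] {s t : α → ℝ} {z : α → Om} (hs : Measurable s) (ht : Measurable t)
    (hz : Measurable z) :
    Measurable fun a => Real.exp (-LamN n g (s a) (t a) (z a)) * qn n (g (s a)) (sh (s a) (z a)) := by
  have h1 := trex_meas3 (F := LamN n g) (measurable_LamN n hg) hs ht hz
  have h2 : Measurable (Function.uncurry fun a => g (s a)) :=
    hg.comp ((hs.comp measurable_fst).prodMk measurable_snd)
  exact h1.neg.exp.mul (measurable_qn n h2 (measurable_sh hs hz))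

theorem trex_meas_gen {α : Type} [MeasurableSpace α] {H : α → ℝ → ℝ}
    (hH : Measurable fun q : α × ℝ => H q.1 q.2) {t A : α → ℝ} (ht : Measurable t)
    (hA : Measurable A) :
    Measurable fun a => if 0 ≤ t a then A a + ∫ s in (0 : ℝ)..t a, H a s else 0 := by
  have h2 : Measurable fun q : α × ℝ => if 0 < q.2 ∧ q.2 ≤ t q.1 then H q.1 q.2 else 0 :=
    Measurable.ite ((measurableSet_lt measurable_const measurable_snd).inter
      (measurableSet_le measurable_snd (ht.comp measurable_fst))) hH measurable_const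
  have h3 := (h2.stronglyMeasurable.integral_prod_right' (ν := volume)).measurable
  have h5 : (fun a => if 0 ≤ t a then A a + ∫ s in (0 : ℝ)..t a, H a s else 0) =
      fun a => if 0 ≤ t a then A a + ∫ s, (if 0 < s ∧ s ≤ t a then H a s else 0) else 0 := by
    funext a
    split_ifs with h
    · rw [intervalIntegral.integral_of_le h, ← integral_indicator measurableSet_Ioc]
      simp only [indicator_apply, mem_Ioc]
    · rfl
  rw [h5]
  exact Measurable.ite (measurableSet_le measurable_const ht) (hA.add h3) measurable_const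

theorem trex_meas_Phi (n : ℕ) {f0 : Om → ℝ} (hm : Measurable f0) {g : ℝ → Om → ℝ}
    (hg : Measurable (Function.uncurry g)) : Measurable (Function.uncurry (trexPhi n f0 g)) := by
  have hz : Measurable fun p : ℝ × Om => sh (-p.1) p.2 :=
    measurable_sh measurable_fst.neg measurable_snd
  have h1 := trex_meas3 (F := LamN n g) (measurable_LamN n hg) (measurable_const (a := (0 : ℝ)))
    measurable_fst hz
  have h2 : Measurable fun p : ℝ × Om => f0 (sh (-p.1) p.2) := hm.comp hz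
  have h3 : Measurable fun q : (ℝ × Om) × ℝ => sh (-q.1.1) q.1.2 := hz.comp measurable_fst
  exact trex_meas_gen (H := fun (p : ℝ × Om) s => Real.exp (-LamN n g s p.1 (sh (-p.1) p.2)) *
    qn n (g s) (sh s (sh (-p.1) p.2))) (trex_meas_H n hg measurable_snd measurable_fst.fst h3)
    measurable_fst (h2.mul h1.neg.exp)

theorem trex_Psi_ge {n : ℕ} (hn : 1 ≤ n) {f0 : Om → ℝ} (h0 : ∀ z, 0 ≤ f0 z) {g : ℝ → Om → ℝ}
    (hg : Measurable (Function.uncurry g)) (hg0 : ∀ t z, 0 ≤ g t z) {M t : ℝ} (ht : 0 ≤ t)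
    (hM : ∀ s ∈ Icc 0 t, ∀ z, g s z ≤ M * G0 z.2) (z : Om) :
    f0 z * Real.exp (-(26 * (n : ℝ) ^ 2 * t)) ≤ trexPsi n f0 g t z := by
  have h1 : LamN n g 0 t z ≤ 26 * (n : ℝ) ^ 2 * t := by
    have := intervalIntegral.norm_integral_le_of_norm_le_const (a := 0) (b := t)
      (C := 26 * (n : ℝ) ^ 2) (f := fun τ => ln n (g τ) (sh τ z)) (fun s hs => by
        rw [uIoc_of_le ht] at hs
        rw [Real.norm_eq_abs, abs_of_nonneg (ln_nonneg n (hg0 s) _)]
        exact ln_le hn (hg.of_uncurry_left) (hg0 s) (hM s (Ioc_subset_Icc_self hs)) _)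
    rw [sub_zero, abs_of_nonneg ht, Real.norm_eq_abs] at this
    exact (le_abs_self _).trans this
  have h2 : 0 ≤ ∫ s in (0 : ℝ)..t, Real.exp (-LamN n g s t z) * qn n (g s) (sh s z) :=
    intervalIntegral.integral_nonneg ht fun s _ =>
      mul_nonneg (Real.exp_pos _).le (qn_nonneg n (hg0 s) _)
  have h3 := mul_le_mul_of_nonneg_left (Real.exp_le_exp.2 (neg_le_neg h1)) (h0 z)
  unfold trexPsi
  linarith

theorem trex_Psi_nonneg (n : ℕ) {f0 : Om → ℝ} (h0 : ∀ z, 0 ≤ f0 z) {g : ℝ → Om → ℝ}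
    (hg0 : ∀ t z, 0 ≤ g t z) {t : ℝ} (ht : 0 ≤ t) (z : Om) : 0 ≤ trexPsi n f0 g t z :=
  add_nonneg (mul_nonneg (h0 z) (Real.exp_pos _).le) (intervalIntegral.integral_nonneg ht
    fun s _ => mul_nonneg (Real.exp_pos _).le (qn_nonneg n (hg0 s) _))

theorem trex_up {n : ℕ} (hn : 1 ≤ n) {f0 : Om → ℝ} {g : ℝ → Om → ℝ}
    (hg : Measurable (Function.uncurry g)) (hg0 : ∀ t z, 0 ≤ g t z) {C M t : ℝ} (ht : 0 ≤ t)
    (hC0 : 0 ≤ C) (hC : ∀ z, f0 z ≤ C * G0 z.2)
    (hM : ∀ s ∈ Icc 0 t, ∀ z, g s z ≤ M * Real.exp (2 * trexL n * s) * G0 z.2) (z : Om) :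
    trexPsi n f0 g t z ≤ (C + M / 2) * Real.exp (2 * trexL n * t) * G0 z.2 := by
  have hL := trexL_pos hn
  have hG := G0_pos z.2
  have hM0 : 0 ≤ M := by
    simpa using trex_nn (hg0 0 z) (hM 0 ⟨le_rfl, ht⟩ z)
  have h1 : f0 z * Real.exp (-LamN n g 0 t z) ≤ C * Real.exp (2 * trexL n * t) * G0 z.2 := by
    have a1 := mul_le_mul_of_nonneg_right (hC z) (Real.exp_pos (-LamN n g 0 t z)).le
    have a2 : Real.exp (-LamN n g 0 t z) ≤ Real.exp (2 * trexL n * t) :=
      (trex_exp_le n hg0 ht z).trans (Real.one_le_exp (by positivity))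
    have a3 := mul_le_mul_of_nonneg_left a2 (mul_nonneg hC0 hG.le)
    linarith
  have h2 := trex_int (h := fun s => Real.exp (-LamN n g s t z) * qn n (g s) (sh s z))
    (A := trexL n * M * G0 z.2) (B := 0) (lam := 2 * trexL n) (by positivity) (by positivity) ht
    le_rfl (fun s hs => by
      have a1 := qn_le hn (hg.of_uncurry_left) (hg0 s) (hM s (Ioc_subset_Icc_self hs)) (sh s z)
      have a2 := qn_nonneg n (hg0 s) (sh s z)
      have a3 := mul_le_mul_of_nonneg_right (trex_exp_le n hg0 hs.2 z) a2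
      have a4 : 32 * (n : ℝ) ^ 4 * Real.exp (2 * (n : ℝ) ^ 2) * (M * Real.exp (2 * trexL n * s)) *
          G0 (sh s z).2 = trexL n * M * G0 z.2 * Real.exp (2 * trexL n * s) := by
        change trexL n * _ * G0 z.2 = _
        ring
      rw [abs_of_nonneg (mul_nonneg (Real.exp_pos _).le a2)]
      linarith)
  have h3 : trexL n * M * G0 z.2 / (2 * trexL n) = M / 2 * G0 z.2 := by field_simp
  rw [h3] at h2
  have h4 := (le_abs_self _).trans h2
  unfold trexPsi
  linarith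

theorem trex_diff {n : ℕ} (hn : 1 ≤ n) {C M T : ℝ} (hC0 : 0 ≤ C) (hM0 : 0 ≤ M) (hT0 : 0 ≤ T) :
    ∃ μ : ℝ, 0 < μ ∧ ∀ (f0 g0 : Om → ℝ) (g g' : ℝ → Om → ℝ), Measurable (Function.uncurry g) →
      Measurable (Function.uncurry g') → (∀ t z, 0 ≤ g t z) → (∀ t z, 0 ≤ g' t z) →
      (∀ s ∈ Icc 0 T, ∀ z, g s z ≤ M * G0 z.2) → (∀ s ∈ Icc 0 T, ∀ z, g' s z ≤ M * G0 z.2) →
      (∀ z, 0 ≤ g0 z) → (∀ z, g0 z ≤ C * G0 z.2) → ∀ D0 D : ℝ,
      (∀ z, |f0 z - g0 z| ≤ D0 * G0 z.2) →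
      (∀ s ∈ Icc 0 T, ∀ z, |g s z - g' s z| ≤ D * Real.exp (μ * s) * G0 z.2) →
      ∀ t ∈ Icc 0 T, ∀ z, |trexPsi n f0 g t z - trexPsi n g0 g' t z| ≤
        (D0 + D / 2) * Real.exp (μ * t) * G0 z.2 := by
  obtain ⟨K, hK, hlip⟩ := exists_lip n hn M
  have hL := trexL_pos hn
  set K' : ℝ := C * K + K + trexL n * M * K * T with hK'
  have hK'0 : 0 ≤ K' := by positivity
  set μ : ℝ := 2 * K' + 1 with hμ
  have hμ0 : 0 < μ := by positivity
  refine ⟨μ, hμ0, fun f0 g0 g g' hg hg' hg0 hg0' hM hM' h0 hC D0 D hD0 hD t ht z => ?_⟩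
  have hG := G0_pos z.2
  have hD00 : 0 ≤ D0 := trex_nn (abs_nonneg _) (hD0 z)
  have hDn : 0 ≤ D := by
    simpa using trex_nn (abs_nonneg _) (hD 0 ⟨le_rfl, hT0⟩ z)
  have hl := fun s (hs : s ∈ Icc 0 T) => hlip (g s) (g' s) hg.of_uncurry_left hg'.of_uncurry_left
    (hg0 s) (hg0' s) (hM s hs) (hM' s hs) _ (hD s hs) (sh s z)
  set E : ℝ := D / μ * Real.exp (μ * t) with hE
  have hE0 : 0 ≤ E := by positivity
  have hLam : ∀ s ∈ Icc 0 t,
      |Real.exp (-LamN n g s t z) - Real.exp (-LamN n g' s t z)| ≤ K * E := by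
    intro s hs
    refine (trex_exp (trex_Lam_nonneg n hg0 hs.2 z) (trex_Lam_nonneg n hg0' hs.2 z)).trans ?_
    have hsub : ∀ u ∈ Ioc s t, u ∈ Icc 0 T := fun u hu => ⟨hs.1.trans hu.1.le, hu.2.trans ht.2⟩
    have i1 : ∀ k : ℝ → Om → ℝ, Measurable (Function.uncurry k) → (∀ t z, 0 ≤ k t z) →
        (∀ s ∈ Icc 0 T, ∀ z, k s z ≤ M * G0 z.2) →
        IntervalIntegrable (fun u => ln n (k u) (sh u z)) volume s t := fun k hk hk0 hkM =>
      trex_ii (trex_meas_ln n hk z) hs.2 fun u hu => by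
        rw [abs_of_nonneg (ln_nonneg n (hk0 u) _)]
        exact ln_le hn hk.of_uncurry_left (hk0 u) (hkM u (hsub u hu)) _
    unfold LamN
    rw [← intervalIntegral.integral_sub (i1 g hg hg0 hM) (i1 g' hg' hg0' hM')]
    refine (trex_int (A := K * D) (B := 0) hμ0 (by positivity) hs.2 le_rfl fun u hu => ?_).trans
      (le_of_eq ?_)
    · refine (hl u (hsub u hu)).2.trans (le_of_eq ?_)
      ring
    · rw [hE]
      ring
  have hsub : ∀ u ∈ Ioc 0 t, u ∈ Icc 0 T := fun u hu => ⟨hu.1.le, hu.2.trans ht.2⟩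
  have hq : ∀ k : ℝ → Om → ℝ, Measurable (Function.uncurry k) → (∀ t z, 0 ≤ k t z) →
      (∀ s ∈ Icc 0 T, ∀ z, k s z ≤ M * G0 z.2) → ∀ u ∈ Ioc 0 t,
      qn n (k u) (sh u z) ≤ trexL n * M * G0 z.2 := fun k hk hk0 hkM u hu =>
    qn_le hn hk.of_uncurry_left (hk0 u) (hkM u (hsub u hu)) (sh u z)
  have i2 : ∀ k : ℝ → Om → ℝ, Measurable (Function.uncurry k) → (∀ t z, 0 ≤ k t z) →
      (∀ s ∈ Icc 0 T, ∀ z, k s z ≤ M * G0 z.2) → IntervalIntegrable
      (fun u => Real.exp (-LamN n k u t z) * qn n (k u) (sh u z)) volume 0 t := fun k hk hk0 hkM =>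
    trex_ii (B := trexL n * M * G0 z.2)
      (trex_meas_H n hk measurable_id' measurable_const measurable_const) ht.1 fun u hu => by
      have a2 := qn_nonneg n (hk0 u) (sh u z)
      rw [abs_of_nonneg (mul_nonneg (Real.exp_pos _).le a2)]
      exact (mul_le_of_le_one_left a2 (trex_exp_le n hk0 hu.2 z)).trans (hq k hk hk0 hkM u hu)
  have gen : ∀ a b x y P Q R : ℝ, 0 ≤ a → a ≤ 1 → 0 ≤ y → |x - y| ≤ P → |a - b| ≤ Q → y ≤ R →
      |a * x - b * y| ≤ P + R * Q := by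
    intro a b x y P Q R ha ha1 hy hP hQ hR
    rw [show a * x - b * y = a * (x - y) + y * (a - b) by ring]
    refine (abs_add_le _ _).trans (add_le_add ?_ ?_)
    · rw [abs_mul, abs_of_nonneg ha]
      exact (mul_le_of_le_one_left (abs_nonneg _) ha1).trans hP
    · rw [abs_mul, abs_of_nonneg hy]
      exact mul_le_mul hR hQ (abs_nonneg _) (hy.trans hR)
  have h1 := gen _ _ (f0 z) (g0 z) _ _ _ (Real.exp_pos _).le (trex_exp_le n hg0 ht.1 z) (h0 z)
    (hD0 z) (hLam 0 ⟨le_rfl, ht.1⟩) (hC z)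
  have h2 := trex_int (h := fun u => Real.exp (-LamN n g u t z) * qn n (g u) (sh u z) -
      Real.exp (-LamN n g' u t z) * qn n (g' u) (sh u z)) (A := K * D * G0 z.2)
    (B := trexL n * M * G0 z.2 * (K * E)) hμ0 (by positivity) ht.1 le_rfl (fun u hu => by
      refine (gen _ _ _ _ _ _ _ (Real.exp_pos _).le (trex_exp_le n hg0 hu.2 z)
        (qn_nonneg n (hg0' u) _) (hl u (hsub u hu)).1 (hLam u (Ioc_subset_Icc_self hu))
        (hq g' hg' hg0' hM' u hu)).trans (le_of_eq ?_)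
      change K * (D * Real.exp (μ * u)) * G0 z.2 + _ = _
      ring)
  rw [intervalIntegral.integral_sub (i2 g hg hg0 hM) (i2 g' hg' hg0' hM'), sub_zero] at h2
  have h3 : K * D * G0 z.2 / μ * Real.exp (μ * t) = K * E * G0 z.2 := by
    rw [hE]
    ring
  have h4 : trexL n * M * G0 z.2 * (K * E) * t ≤ trexL n * M * G0 z.2 * (K * E) * T :=
    mul_le_mul_of_nonneg_left ht.2 (by positivity)
  have h5 : D0 * G0 z.2 ≤ D0 * Real.exp (μ * t) * G0 z.2 :=
    mul_le_mul_of_nonneg_right (le_mul_of_one_le_right hD00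
      (Real.one_le_exp (mul_nonneg hμ0.le ht.1))) hG.le
  have h6 : K' * E ≤ D / 2 * Real.exp (μ * t) := by
    have a1 : D / 2 * Real.exp (μ * t) = μ / 2 * E := by
      rw [hE]
      field_simp
    rw [a1]
    exact mul_le_mul_of_nonneg_right (by linarith) hE0
  have h7 := mul_le_mul_of_nonneg_right h6 hG.le
  have h8 : K' * E * G0 z.2 = C * G0 z.2 * (K * E) + K * E * G0 z.2 +
      trexL n * M * G0 z.2 * (K * E) * T := by
    rw [hK']
    ring
  rw [mul_comm _ (f0 z), mul_comm _ (g0 z)] at h1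
  unfold trexPsi
  rw [add_sub_add_comm]
  refine (abs_add_le _ _).trans ?_
  linarith

theorem trex_fix {n : ℕ} {f0 : Om → ℝ} {f : ℝ → Om → ℝ} (h : TrSol n f0 f) {t : ℝ} (ht : 0 ≤ t)
    (z : Om) : f t z = trexPsi n f0 f t (sh (-t) z) := by
  have := h.mild t ht (sh (-t) z)
  rwa [sh_sh, add_neg_cancel, sh_zero] at this

theorem trex_f0 {n : ℕ} {f0 : Om → ℝ} {f : ℝ → Om → ℝ} (h : TrSol n f0 f) (z : Om) : 0 ≤ f0 z := by
  have h1 := h.mild 0 le_rfl z
  have h2 := h.nonneg 0 (sh 0 z)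
  rw [h1] at h2
  simpa [LamN] using h2

theorem trex_ub {n : ℕ} {f0 : Om → ℝ} {f : ℝ → Om → ℝ} (h : TrSol n f0 f) {C : ℝ}
    (hC : ∀ z, f0 z ≤ C * G0 z.2) (T : ℝ) :
    ∀ t ∈ Icc (0 : ℝ) T, ∀ z, f t z ≤ 2 * |C| * Real.exp (2 * trexL n * T) * G0 z.2 := by
  have hL := trexL_pos h.npos
  obtain ⟨M0, hM0⟩ := h.ub T
  have hC' : ∀ z, f0 z ≤ |C| * G0 z.2 := fun z =>
    (hC z).trans (mul_le_mul_of_nonneg_right (le_abs_self C) (G0_pos _).le)
  have key := trex_iter (u := f) (w := fun t z => Real.exp (2 * trexL n * t) * G0 z.2)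
    (S := Icc 0 T) (C := |C|) (M0 := M0) (fun t ht z => by
      refine (hM0 t ht z).trans (mul_le_mul_of_nonneg_left ?_ (trex_nn (h.nonneg t z) (hM0 t ht z)))
      exact le_mul_of_one_le_left (G0_pos _).le (Real.one_le_exp (mul_nonneg (by positivity) ht.1)))
    (fun M hM t ht z => by
      rw [trex_fix h ht.1, ← mul_assoc]
      exact trex_up h.npos h.meas h.nonneg ht.1 (abs_nonneg C) hC'
        (fun s hs z => by rw [mul_assoc]; exact hM s ⟨hs.1, hs.2.trans ht.2⟩ z) (sh (-t) z))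
  intro t ht z
  refine (key t ht z).trans ?_
  rw [← mul_assoc]
  exact mul_le_mul_of_nonneg_right (mul_le_mul_of_nonneg_left
    (Real.exp_le_exp.2 (mul_le_mul_of_nonneg_left ht.2 (by positivity))) (by positivity))
    (G0_pos _).le

theorem exists_trSol (n : ℕ) (hn : 1 ≤ n) {f0 : Om → ℝ} (hm : Measurable f0) {c C : ℝ}
    (hc : 0 < c) (hl : ∀ z, c * G0 z.2 ≤ f0 z) (hu : ∀ z, f0 z ≤ C * G0 z.2) :
    ∃ f, TrSol n f0 f := by
  have hL := trexL_pos hn
  have h0 : ∀ z, 0 ≤ f0 z := fun z => (mul_pos hc (G0_pos _)).le.trans (hl z)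
  have hC0 : 0 ≤ C := trex_nn (h0 0) (hu 0)
  let F : ℕ → ℝ → Om → ℝ := fun j => (trexPhi n f0)^[j] fun _ _ => 0
  have hFs : ∀ j, F (j + 1) = trexPhi n f0 (F j) := fun j => Function.iterate_succ_apply' _ _ _
  have hFm : ∀ j, Measurable (Function.uncurry (F j)) := by
    intro j
    induction j with
    | zero => exact measurable_const
    | succ j ih => rw [hFs]; exact trex_meas_Phi n hm ih
  have hF0 : ∀ j t z, 0 ≤ F j t z := by
    intro j
    induction j with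
    | zero => exact fun _ _ => le_rfl
    | succ j ih =>
      intro t z
      rw [hFs, trexPhi]
      split_ifs with ht
      · exact trex_Psi_nonneg n h0 ih ht _
      · exact le_rfl
  have hFu : ∀ j t, 0 ≤ t → ∀ z, F j t z ≤ 2 * C * Real.exp (2 * trexL n * t) * G0 z.2 := by
    intro j
    induction j with
    | zero => exact fun t _ z => mul_nonneg (by positivity) (G0_pos _).le
    | succ j ih =>
      intro t ht z
      rw [hFs, trexPhi, if_pos ht]
      refine (trex_up hn (hFm j) (hF0 j) ht hC0 hu (fun s hs => ih s hs.1) _).trans (le_of_eq ?_)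
      change _ * G0 z.2 = _
      ring
  have hFT : ∀ T j, ∀ t ∈ Icc 0 T, ∀ z,
      F j t z ≤ 2 * C * Real.exp (2 * trexL n * T) * G0 z.2 := fun T j t ht z =>
    (hFu j t ht.1 z).trans (mul_le_mul_of_nonneg_right (mul_le_mul_of_nonneg_left
      (Real.exp_le_exp.2 (mul_le_mul_of_nonneg_left ht.2 (by positivity))) (by positivity))
      (G0_pos _).le)
  have hgeo : ∀ T μ : ℝ, 0 < μ → (∀ j (D : ℝ),
      (∀ s ∈ Icc 0 T, ∀ z, |F j s z - F (j + 1) s z| ≤ D * Real.exp (μ * s) * G0 z.2) →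
      ∀ t ∈ Icc 0 T, ∀ z, |trexPsi n f0 (F j) t z - trexPsi n f0 (F (j + 1)) t z| ≤
        (0 + D / 2) * Real.exp (μ * t) * G0 z.2) → ∀ j, ∀ t ∈ Icc 0 T, ∀ z,
      dist (F j t z) (F (j + 1) t z) ≤
        2 * C * Real.exp (2 * trexL n * T) * Real.exp (μ * t) * G0 z.2 * (1 / 2) ^ j := by
    intro T μ hμ H j
    induction j with
    | zero =>
      intro t ht z
      have a1 : F 0 t z = 0 := rfl
      rw [Real.dist_eq, a1, zero_sub, abs_neg, abs_of_nonneg (hF0 _ t z), pow_zero, mul_one]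
      refine (hFT T _ t ht z).trans (mul_le_mul_of_nonneg_right ?_ (G0_pos _).le)
      exact le_mul_of_one_le_right (by positivity) (Real.one_le_exp (mul_nonneg hμ.le ht.1))
    | succ j ih =>
      intro t ht z
      have a1 := H j (2 * C * Real.exp (2 * trexL n * T) * (1 / 2) ^ j) (fun s hs z => by
        refine (ih s hs z).trans (le_of_eq ?_)
        ring) t ht (sh (-t) z)
      rw [Real.dist_eq, hFs (j + 1), trexPhi, if_pos ht.1]
      nth_rewrite 1 [hFs j]
      rw [trexPhi, if_pos ht.1]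
      refine a1.trans (le_of_eq ?_)
      change _ * G0 z.2 = _
      ring
  have hz : ∀ z : Om, |f0 z - f0 z| ≤ 0 * G0 z.2 := fun z => by simp
  have hconv : ∀ t z, ∃ a, Tendsto (fun j => F j t z) atTop (𝓝 a) := by
    intro t z
    by_cases ht : 0 ≤ t
    · obtain ⟨μ, hμ, H⟩ := trex_diff hn hC0
        (M := 2 * C * Real.exp (2 * trexL n * t)) (by positivity) ht
      exact cauchySeq_tendsto_of_complete (cauchySeq_of_le_geometric (1 / 2) _ (by norm_num)
        fun j => hgeo t μ hμ (fun j D hD => H f0 f0 _ _ (hFm _) (hFm _) (hF0 _) (hF0 _) (hFT t _)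
          (hFT t _) h0 hu 0 D hz hD) j t ⟨ht, le_rfl⟩ z)
    · refine ⟨0, tendsto_const_nhds.congr fun j => ?_⟩
      cases j with
      | zero => rfl
      | succ j => rw [hFs, trexPhi, if_neg ht]
  choose f hf using hconv
  have hfm : Measurable (Function.uncurry f) :=
    measurable_of_tendsto_metrizable hFm (tendsto_pi_nhds.2 fun p => hf p.1 p.2)
  have hf0 : ∀ t z, 0 ≤ f t z := fun t z => ge_of_tendsto' (hf t z) fun j => hF0 j t z
  have hfT : ∀ T, ∀ t ∈ Icc 0 T, ∀ z, f t z ≤ 2 * C * Real.exp (2 * trexL n * T) * G0 z.2 :=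
    fun T t ht z => le_of_tendsto' (hf t z) fun j => hFT T j t ht z
  have hfix : ∀ t, 0 ≤ t → ∀ z, f t (sh t z) = trexPsi n f0 f t z := by
    intro t ht z
    obtain ⟨μ, hμ, H⟩ := trex_diff hn hC0
      (M := 2 * C * Real.exp (2 * trexL n * t)) (by positivity) ht
    have a1 := hgeo t μ hμ fun j D hD => H f0 f0 _ _ (hFm _) (hFm _) (hF0 _) (hF0 _) (hFT t _)
      (hFT t _) h0 hu 0 D hz hD
    have a2 : ∀ j, |trexPsi n f0 (F j) t z - trexPsi n f0 f t z| ≤
        2 * C * Real.exp (2 * trexL n * t) * Real.exp (μ * t) * G0 z.2 * (1 / 2) ^ j := by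
      intro j
      refine (H f0 f0 _ _ (hFm j) hfm (hF0 j) hf0 (hFT t j) (hfT t) h0 hu 0
        (2 * (2 * C * Real.exp (2 * trexL n * t)) * (1 / 2) ^ j) hz (fun s hs y => ?_) t
        ⟨ht, le_rfl⟩ z).trans (le_of_eq (by ring))
      refine (dist_le_of_le_geometric_of_tendsto (1 / 2) _ (by norm_num) (fun i => a1 i s hs y)
        (hf s y) j).trans (le_of_eq (by ring))
    have a3 : Tendsto (fun j => trexPsi n f0 (F j) t z) atTop (𝓝 (trexPsi n f0 f t z)) := by
      refine tendsto_iff_dist_tendsto_zero.2 (squeeze_zero (fun _ => dist_nonneg) a2 ?_)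
      simpa using (tendsto_pow_atTop_nhds_zero_of_lt_one (r := (1 / 2 : ℝ)) (by norm_num)
        (by norm_num)).const_mul (2 * C * Real.exp (2 * trexL n * t) * Real.exp (μ * t) * G0 z.2)
    refine tendsto_nhds_unique ((tendsto_add_atTop_iff_nat 1).2 (hf t (sh t z))) (a3.congr fun j => ?_)
    rw [hFs, trexPhi, if_pos ht, sh_sh, neg_add_cancel, sh_zero]
  refine ⟨f, hn, hm, hfm, hf0, fun T => ⟨_, hfT T⟩, fun T => ?_, hfix⟩
  refine ⟨c * Real.exp (-(26 * (n : ℝ) ^ 2 * T)), by positivity, fun t ht z => ?_⟩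
  have a1 := hfix t ht.1 (sh (-t) z)
  rw [sh_sh, add_neg_cancel, sh_zero] at a1
  rw [a1]
  refine le_trans ?_ (trex_Psi_ge hn h0 hfm hf0 ht.1 (hfT t) _)
  rw [mul_right_comm]
  exact mul_le_mul (hl (sh (-t) z)) (Real.exp_le_exp.2 (neg_le_neg
    (mul_le_mul_of_nonneg_left ht.2 (by positivity)))) (Real.exp_pos _).le (h0 _)

/-- growth bound, depending only on `n`, the bound of the datum and `T` -/
theorem TrSol.ub' (n : ℕ) (C T : ℝ) : ∃ M : ℝ, ∀ f0 f, TrSol n f0 f →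
    (∀ z, f0 z ≤ C * G0 z.2) → ∀ t ∈ Icc (0 : ℝ) T, ∀ z, f t z ≤ M * G0 z.2 := by
  exact ⟨_, fun f0 f h hC => trex_ub h hC T⟩

theorem trSol_lip (n : ℕ) (C T : ℝ) : ∃ K : ℝ, 0 ≤ K ∧ ∀ f0 f g0 g, TrSol n f0 f → TrSol n g0 g →
    (∀ z, f0 z ≤ C * G0 z.2) → (∀ z, g0 z ≤ C * G0 z.2) →
    ∀ D : ℝ, (∀ z, |f0 z - g0 z| ≤ D * G0 z.2) →
      ∀ t ∈ Icc (0 : ℝ) T, ∀ z, |f t z - g t z| ≤ K * D * G0 z.2 := by
  by_cases hn : 1 ≤ n
  swap
  · exact ⟨0, le_rfl, fun f0 f g0 g h => absurd h.npos hn⟩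
  set M : ℝ := 2 * |C| * Real.exp (2 * trexL n * |T|) with hM
  have hM0 : 0 ≤ M := by positivity
  obtain ⟨μ, hμ, H⟩ := trex_diff hn (abs_nonneg C) hM0 (abs_nonneg T)
  refine ⟨2 * Real.exp (μ * |T|), by positivity, fun f0 f g0 g hf hg hCf hCg D hD t ht z => ?_⟩
  have a1 := trex_ub hf hCf |T|
  have a2 := trex_ub hg hCg |T|
  have hC' : ∀ z, g0 z ≤ |C| * G0 z.2 := fun z =>
    (hCg z).trans (mul_le_mul_of_nonneg_right (le_abs_self C) (G0_pos _).le)
  have key := trex_iter (u := fun t z => |f t z - g t z|)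
    (w := fun t z => Real.exp (μ * t) * G0 z.2) (S := Icc 0 |T|) (C := D) (M0 := M)
    (fun t ht z => by
      have b1 : M * G0 z.2 ≤ M * (Real.exp (μ * t) * G0 z.2) := mul_le_mul_of_nonneg_left
        (le_mul_of_one_le_left (G0_pos _).le (Real.one_le_exp (mul_nonneg hμ.le ht.1))) hM0
      refine le_trans (abs_le.2 ⟨?_, ?_⟩) b1
      · linarith [a2 t ht z, hf.nonneg t z]
      · linarith [a1 t ht z, hg.nonneg t z])
    (fun D' hD' t ht z => by
      rw [trex_fix hf ht.1, trex_fix hg ht.1, ← mul_assoc]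
      exact H f0 g0 f g hf.meas hg.meas hf.nonneg hg.nonneg a1 a2 (trex_f0 hg) hC' D D' hD
        (fun s hs z => by rw [mul_assoc]; exact hD' s hs z) t ht (sh (-t) z))
  have ht' : t ≤ |T| := ht.2.trans (le_abs_self T)
  refine (key t ⟨ht.1, ht'⟩ z).trans ?_
  have b2 : 0 ≤ D := trex_nn (abs_nonneg _) (hD z)
  have b3 := mul_le_mul_of_nonneg_right (Real.exp_le_exp.2 (mul_le_mul_of_nonneg_left ht' hμ.le))
    (mul_nonneg b2 (G0_pos z.2).le)
  linarith

end Vale.Agent.P140
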