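import Vale.Agent.P140.IDF
import Vale.Agent.P140.TrEx

/-! The two families of approximate solutions. -/

namespace Vale.Agent.P140

open MeasureTheory Set Filter Topology
open scoped ENNReal

theorem exists_step {P : Par} {cS θ : ℝ} (hV : ValP P cS θ) : ∃ A0 : ℕ, ∀ A ≥ A0,
    ∃ ε o1 : ℝ, 0 < ε ∧ ε ≤ 1 ∧ 0 < o1 ∧ Ev P A (fun ϱ k _ _ N f => N = ε →
      VV P ϱ N f ≤ ENNReal.ofReal (o1 + ε ^ 2) → Adm P ϱ k A 33 (ε / 2) f) := by
  obtain ⟨A0, hA0⟩ := exists_DF hV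
  refine ⟨A0, fun A hA => ?_⟩
  obtain ⟨K, hK, hE⟩ := hA0 A hA
  set ε : ℝ := 1 / (32 * (K + 1)) with hε
  have hε0 : 0 < ε := by positivity
  have hKε : (K + 1) * ε = 1 / 32 := by rw [hε]; field_simp
  have hε1 : ε ≤ 1 := by nlinarith
  refine ⟨ε, ε / (8 * (K + 1)), hε0, hε1, by positivity, ?_⟩
  have hr : ∀ᶠ ϱ in 𝓝[>] (0 : ℝ), K * ϱ ≤ ε / 16 := by
    have : Tendsto (fun ϱ : ℝ => K * ϱ) (𝓝[>] 0) (𝓝 0) := by
      have h : Tendsto (fun ϱ : ℝ => K * ϱ) (𝓝 0) (𝓝 (K * 0)) :=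
        (continuous_const.mul continuous_id).tendsto 0
      rw [mul_zero] at h
      exact h.mono_left nhdsWithin_le_nhds
    exact this.eventually (ge_mem_nhds (by positivity))
  refine (hE.and (Ev.of_rho hr)).mono ?_
  rintro ϱ k n ς N f R ⟨h1, h2⟩ rfl hv
  refine R.sm.adm_mono ?_ (h1 _ (by positivity) hv)
  have h3 : K * (ε / (8 * (K + 1))) ≤ ε / 8 := by
    rw [mul_div_assoc', div_le_div_iff₀ (by positivity) (by positivity)]
    nlinarith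
  have h4 : K * ε ^ 2 ≤ ε / 32 := by nlinarith
  nlinarith

theorem exists_hot {P : Par} {A : ℕ} {ϱ : ℝ} (S : Sm P A ϱ) {k n : ℕ} (hn : 1 ≤ n) {ε ς0 : ℝ}
    (hε : 0 < ε) (hε1 : ε ≤ 1) (hς0 : 0 < ς0) {f0 : ℝ → Om → ℝ} (h0 : TrSol n (dat P ϱ k ς0) f0)
    (ha0 : Adm P ϱ k A 33 (ε / 2) f0) {Q : (ℝ → Om → ℝ) → Prop}
    (hQ : ∀ ς f, 0 ≤ ς → TrSol n (dat P ϱ k ς) f → Adm P ϱ k A 33 ε f → ¬ Q f →
      Adm P ϱ k A 33 (ε / 2) f) :
    ∃ ς f, 0 ≤ ς ∧ TrSol n (dat P ϱ k ς) f ∧ Adm P ϱ k A 33 ε f ∧ Q f := by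
  by_contra hc
  push Not at hc
  obtain ⟨C, hC⟩ := S.dat_ub k
  obtain ⟨L, hL0, hL⟩ := trSol_lip n (C + 2) (TT P ϱ)
  have hτ := S.ar_pos (k + 1)
  have hτ1 : ar P ϱ (k + 1) ≤ 1 := (S.ar_le _).trans (S.rho_le'.trans (by norm_num))
  have hτp : ar P ϱ (k + 1) ^ 33 ≤ 1 := pow_le_one₀ hτ.le hτ1
  have hτp0 : 0 < ar P ϱ (k + 1) ^ 33 := by positivity
  set d : ℝ := ε * ar P ϱ (k + 1) ^ 33 / (2 * (L + 1)) with hd
  have hd0 : 0 < d := by positivity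
  have hd1 : d ≤ 1 := by
    rw [hd, div_le_one (by positivity)]
    nlinarith
  have hLd : L * d / ar P ϱ (k + 1) ^ 33 ≤ ε / 2 := by
    rw [hd, div_le_iff₀ hτp0, mul_div_assoc', div_le_iff₀ (by positivity)]
    nlinarith [mul_pos hε hτp0]
  have hseed : ∀ ς f, TrSol n (dat P ϱ k ς) f → Adm P ϱ k A 33 (ε / 2) f → ς ≤ 1 := by
    intro ς f h ha
    have := S.adm_seed h ha
    nlinarith
  have hub : ∀ ς, ς ≤ 2 → ∀ z, dat P ϱ k ς z ≤ (C + 2) * G0 z.2 := fun ς hς z =>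
    (hC ς z).trans (mul_le_mul_of_nonneg_right (by linarith) (G0_pos _).le)
  have key : ∀ i : ℕ, ∃ f, TrSol n (dat P ϱ k (ς0 + i * d)) f ∧ Adm P ϱ k A 33 (ε / 2) f := by
    intro i
    induction i with
    | zero => exact ⟨f0, by simpa using h0, ha0⟩
    | succ i ih =>
      obtain ⟨f, hf, ha⟩ := ih
      have h1 := hseed _ _ hf ha
      have hp : 0 < ς0 + ((i + 1 : ℕ) : ℝ) * d := by positivity
      have h2 : ς0 + ((i + 1 : ℕ) : ℝ) * d ≤ 2 := by push_cast; linarith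
      obtain ⟨g, hg⟩ := exists_trSol n hn (measurable_dat P ϱ k _) hp (S.dat_lb k _) (hub _ h2)
      have hfg := hL _ _ _ _ hf hg (hub _ (by linarith)) (hub _ h2) d (fun z => by
        refine (S.dat_sub k _ _ z).trans (le_of_eq ?_)
        congr 1
        push_cast
        rw [show ς0 + i * d - (ς0 + (i + 1) * d) = -d by ring, abs_neg, abs_of_pos hd0])
      have hag : Adm P ϱ k A 33 ε g :=
        S.adm_mono (by linarith) (S.adm_lip (mul_nonneg hL0 hd0.le) ha hfg)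
      exact ⟨g, hg, hQ _ g hp.le hg hag (hc _ g hp.le hg hag)⟩
  obtain ⟨i, hi⟩ := exists_nat_gt (1 / d)
  obtain ⟨f, hf, ha⟩ := key i
  have h1 := hseed _ _ hf ha
  rw [div_lt_iff₀ hd0] at hi
  linarith

theorem exists_runs : ∃ (P : Par) (A : ℕ) (ϱ o : ℝ), Sm P A ϱ ∧ 0 < o ∧
    ∀ᶠ k in atTop, ∀ᶠ n in atTop, ∃ (ςA ςB : ℝ) (fA fB : ℝ → Om → ℝ),
      0 ≤ ςA ∧ ςA ≤ ar P ϱ (k + 1) ∧ 0 ≤ ςB ∧ ςB ≤ ar P ϱ (k + 1) ∧
      TrSol n (dat P ϱ k ςA) fA ∧ TrSol n (dat P ϱ k ςB) fB ∧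
      ∫ p, fA p.1 p.2 * chi P ϱ p ∂(mT (TT P ϱ)) ≤ o ∧
      2 * o ≤ ∫ p, fB p.1 p.2 * chi P ϱ p ∂(mT (TT P ϱ)) := by
  obtain ⟨P, cS, θ, hV⟩ := exists_par
  obtain ⟨A1, hA1⟩ := exists_step hV
  obtain ⟨A2, hA2⟩ := famA hV.ok
  obtain ⟨K, hK, hO⟩ := exists_O
  set A : ℕ := max (max A1 A2) 33 with hA
  have hA33 : 33 ≤ A := le_max_right _ _
  obtain ⟨ε, o1, hε, hε1, ho1, hE⟩ := hA1 A ((le_max_left _ _).trans (le_max_left _ _))
  have hF := hA2 A ((le_max_right _ _).trans (le_max_left _ _)) 140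
  have hr : ∀ᶠ ϱ in 𝓝[>] (0 : ℝ), ϱ ^ 6 ≤ min (o1 ^ 2 / (64 * K ^ 2)) (ε / 16) := by
    have : Tendsto (fun ϱ : ℝ => ϱ ^ 6) (𝓝[>] 0) (𝓝 0) := by
      have h : Tendsto (fun ϱ : ℝ => ϱ ^ 6) (𝓝 0) (𝓝 (0 ^ 6)) := (continuous_pow 6).tendsto 0
      rw [zero_pow (by norm_num)] at h
      exact h.mono_left nhdsWithin_le_nhds
    exact this.eventually (ge_mem_nhds (by positivity))
  obtain ⟨ϱ, ⟨⟨S, hE⟩, hF⟩, hr⟩ := ((((eventually_sm hV.ok hA33).and hE).and hF).and hr).exists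
  have hϱ := S.pos
  have hϱ1 : ϱ ≤ 1 := S.rho_le'.trans (by norm_num)
  have hK0 : 0 < K := by linarith
  refine ⟨P, A, ϱ, o1 ^ 2 * ϱ ^ 134 / (8 * K), S, by positivity, ?_⟩
  have hk : ∀ᶠ k in atTop, 8 * ar P ϱ (k + 1) ≤ ϱ := by
    have h := (S.tendsto_ar.comp (tendsto_add_atTop_nat 1)).eventually
      (ge_mem_nhds (show (0 : ℝ) < ϱ / 8 by positivity))
    filter_upwards [h] with k hk
    simp only [Function.comp] at hk
    linarith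
  filter_upwards [hk] with k hk
  filter_upwards [hE k, eventually_ge_atTop 1] with n hE hn
  have hτ := S.ar_pos (k + 1)
  have hτ1 : ar P ϱ (k + 1) ≤ 1 := (S.ar_le _).trans hϱ1
  have hτm : ∀ m : ℕ, 1 ≤ m → ar P ϱ (k + 1) ^ m ≤ ar P ϱ (k + 1) := fun m hm =>
    pow_le_of_le_one hτ.le hτ1 (by omega)
  have h134 : ϱ ^ 134 ≤ 1 := pow_le_one₀ hϱ.le hϱ1
  have h140 : ϱ ^ 140 = ϱ ^ 134 * ϱ ^ 6 := by ring
  have h6 : 0 < ϱ ^ 6 := by positivity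
  have h134' : 0 < ϱ ^ 134 := by positivity
  have hr1 := hr.trans (min_le_left _ _)
  have hr2 := hr.trans (min_le_right _ _)
  obtain ⟨C, hC⟩ := S.dat_ub k
  have hςA : 0 < ϱ ^ 140 * ar P ϱ (k + 1) ^ A := by positivity
  obtain ⟨fA, hfA⟩ := exists_trSol n hn (measurable_dat P ϱ k _) hςA (S.dat_lb k _) (hC _)
  have haA := hF k n _ fA hςA.le le_rfl hfA
  have haA' : Adm P ϱ k A 33 (ε / 2) fA :=
    S.adm_mono (by rw [h140]; nlinarith) (S.adm_anti hA33 (by positivity) haA)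
  obtain ⟨ςB, fB, hB0, hfB, haB, hQ⟩ := exists_hot S hn hε hε1 hςA hfA haA'
    (Q := fun f => 2 * (o1 ^ 2 * ϱ ^ 134 / (8 * K)) ≤
      ∫ p, f p.1 p.2 * chi P ϱ p ∂(mT (TT P ϱ))) (by
      intro ς f hς hf ha hq
      push Not at hq
      refine hE ς ε f ⟨S, hk, hς, hε.le, hε1, hf, ha⟩ rfl ?_
      have h67 : 0 < ϱ ^ 67 := by positivity
      have hM : 0 < 2 * K / (o1 * ϱ ^ 67) := by positivity
      have h1 := (hO P A ϱ S k n 33 hA33 _ f ε hε.le hf ha).2 _ hM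
      have h2 : O1 P ϱ f ≤ ENNReal.ofReal (o1 * ϱ ^ 67) := by
        refine h1.trans (ENNReal.ofReal_le_ofReal ?_)
        have h3 : 2 * K / (o1 * ϱ ^ 67) * (2 * (o1 ^ 2 * ϱ ^ 134 / (8 * K))) =
            o1 * ϱ ^ 67 / 2 := by field_simp; ring
        have h4 : K * ε / (2 * K / (o1 * ϱ ^ 67)) = ε * (o1 * ϱ ^ 67) / 2 := by field_simp
        have h5 := mul_le_mul_of_nonneg_left hq.le hM.le
        have h6 : 0 < o1 * ϱ ^ 67 := by positivity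
        rw [h4]
        nlinarith
      unfold VV
      rw [ENNReal.ofReal_add ho1.le (by positivity)]
      gcongr
      calc ENNReal.ofReal (1 / ϱ ^ 67) * O1 P ϱ f
          ≤ ENNReal.ofReal (1 / ϱ ^ 67) * ENNReal.ofReal (o1 * ϱ ^ 67) := by gcongr
        _ = ENNReal.ofReal o1 := by
          rw [← ENNReal.ofReal_mul (by positivity)]
          congr 1
          field_simp)
  refine ⟨_, ςB, fA, fB, hςA.le, ?_, hB0, ?_, hfA, hfB, ?_, hQ⟩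
  · have h1 := hτm A (by omega)
    have h2 : ϱ ^ 140 ≤ 1 := pow_le_one₀ hϱ.le hϱ1
    have h3 : 0 < ar P ϱ (k + 1) ^ A := by positivity
    nlinarith
  · have h1 := hτm 33 (by omega)
    have h2 := S.adm_seed hfB haB
    have h3 : 0 < ar P ϱ (k + 1) ^ 33 := by positivity
    nlinarith
  · refine (hO P A ϱ S k n A le_rfl _ fA _ (by positivity) hfA haA).1.trans ?_
    rw [le_div_iff₀ (by positivity), h140]
    rw [le_div_iff₀ (by positivity)] at hr1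
    nlinarith

end Vale.Agent.P140
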