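import Vale.Agent.P140.IBas

/-! Monotonicity along free trajectories. -/

namespace Vale.Agent.P140

open MeasureTheory Set Filter Topology
open scoped ENNReal

variable {P : Par} {A : ℕ} {ϱ : ℝ}

/- PLAN inner_xh_mono: xt_add; with α_s = ⟪v, x̃ + s vb v⟫ increasing and L = wedge constant, |x̃_s|² |vb v|² = α_s² + L²,
α ↦ α / sqrt(α² + L²) is monotone (0/0 = 0). Alternatively from the two inequalities of rr_incr (Cauchy-Schwarz):
r_t ≥ ⟪x̃_t, x̂_s⟫ = r_s + τ ⟪v, x̂_s⟫ and r_s ≥ ⟪x̃_s, x̂_t⟫ = r_t - τ ⟪v, x̂_t⟫, which give τ ⟪v,x̂_s⟫ ≤ τ ⟪v,x̂_t⟫ directly. -/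

theorem igeo_self (x : X) : inner ℝ (xt x) (xh x) = rr x := by
  rw [xh, real_inner_smul_right, real_inner_self_eq_norm_sq]
  change (rr x)⁻¹ * rr x ^ 2 = rr x
  rcases eq_or_ne (rr x) 0 with h | h
  · rw [h]; simp
  · field_simp

theorem igeo_cs (x y : X) : inner ℝ (xt x) (xh y) ≤ rr x :=
  (real_inner_le_norm _ _).trans (mul_le_of_le_one_right (norm_nonneg _) (norm_xh_le y))

theorem igeo_norm (a : ℝ) (v : V) : ‖vb (a • v)‖ = |a| * ‖vb v‖ := by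
  rw [vb_smul, norm_smul, Real.norm_eq_abs]

theorem igeo_xt {x : X} {v : V} {τ : ℝ} (h : rr x + |τ| * ‖vb v‖ < 1 / 2) :
    xt (x + pr (τ • v)) = xt x + τ • vb v := by
  rw [xt_add (by rwa [igeo_norm]), vb_smul]

theorem igeo_rr (x : X) (v : V) (τ : ℝ) : rr (x + pr (τ • v)) ≤ rr x + |τ| * ‖vb v‖ := by
  rw [← igeo_norm]
  exact rr_add_le x _

theorem igeo_back {s t : ℝ} (hst : s ≤ t) (x : X) (v : V) :
    rr (x + pr ((s - t) • v)) ≤ rr x + (t - s) * ‖vb v‖ := by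
  have h := igeo_rr x v (s - t)
  rwa [abs_sub_comm, abs_of_nonneg (sub_nonneg.2 hst)] at h

theorem igeo_ret (s t : ℝ) (x : X) (v : V) : x + pr ((s - t) • v) + pr ((t - s) • v) = x := by
  rw [add_assoc, ← pr_add, ← add_smul, sub_add_sub_cancel, sub_self, zero_smul, pr_zero, add_zero]

theorem rr_incr {x : X} {v : V} {τ : ℝ} (hτ : 0 ≤ τ) (h : rr x + τ * ‖vb v‖ < 1 / 2) :
    rr x + τ * inner ℝ v (xh x) ≤ rr (x + pr (τ • v)) ∧
      rr (x + pr (τ • v)) ≤ rr x + τ * inner ℝ v (xh (x + pr (τ • v))) := by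
  have e := igeo_xt (x := x) (v := v) (τ := τ) (by rwa [abs_of_nonneg hτ])
  have k : ∀ y : X, inner ℝ (xt (x + pr (τ • v))) (xh y) =
      inner ℝ (xt x) (xh y) + τ * inner ℝ v (xh y) := fun y => by
    rw [e, inner_add_left, real_inner_smul_left, ibas_inner v (xh_zero y)]
  constructor
  · rw [← igeo_self x, ← k]
    exact igeo_cs _ _
  · rw [← igeo_self (x + pr (τ • v)), k]
    linarith [igeo_cs x (x + pr (τ • v))]

theorem inner_xh_mono {x : X} {v : V} {τ : ℝ} (hτ : 0 ≤ τ) (h : rr x + τ * ‖vb v‖ < 1 / 2) :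
    inner ℝ v (xh x) ≤ inner ℝ v (xh (x + pr (τ • v))) := by
  rcases hτ.eq_or_lt with rfl | h0
  · rw [zero_smul, pr_zero, add_zero]
  · obtain ⟨h1, h2⟩ := rr_incr hτ h
    exact le_of_mul_le_mul_left (by linarith) h0

theorem Wf_anti (hP : P.OK) (σ : ℝ) {x : X} {v : V} {τ : ℝ} (hτ : 0 ≤ τ)
    (h : rr x + τ * ‖vb v‖ < 1 / 2) : Wf P σ (x + pr (τ • v)) v ≤ Wf P σ x v := by
  rw [Wf, Wf]
  linarith [mul_le_mul_of_nonneg_left (inner_xh_mono hτ h) hP.lam0.le]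

theorem y0_drift (hP : P.OK) (σ t : ℝ) {x : X} {v : V} {τ : ℝ} (hτ : 0 ≤ τ)
    (h : rr x + τ * ‖vb v‖ < 1 / 2) :
    |y0 P (t + τ) (x + pr (τ • v)) - y0 P t x| ≤ τ * Real.sqrt (Wf P σ x v) := by
  obtain ⟨h1, h2⟩ := rr_incr hτ h
  have h3 := mul_le_mul_of_nonneg_left (abs_le.1 (radial_le_Wf hP σ x v)).1 hτ
  have h4 := mul_le_mul_of_nonneg_left ((abs_le.1 (radial_le_Wf hP σ (x + pr (τ • v)) v)).2.trans
    (Real.sqrt_le_sqrt (Wf_anti hP σ hτ h))) hτ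
  rw [y0, y0, abs_le]
  constructor <;> linarith

theorem bk_bk (x : X) (v : V) (a b : ℝ) : x + pr (a • v) + pr (b • v) = x + pr ((a + b) • v) := by
  rw [add_assoc, ← pr_add, ← add_smul]

theorem yy_mono (k : ℕ) {s t : ℝ} (hst : s ≤ t) (x : X) (v : V) :
    yy P ϱ k A s (x + pr ((s - t) • v)) v + A * (t - s) ≤ yy P ϱ k A t x v := by
  rw [yy, yy]
  linarith [igeo_back hst x v, mul_le_mul_of_nonneg_left (norm_vb_le v) (sub_nonneg.2 hst)]

theorem Yy_mono (k : ℕ) {s t : ℝ} (hst : s ≤ t) (x : X) (v : V) :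
    Yy P ϱ k A s (x + pr ((s - t) • v)) v ≤ Yy P ϱ k A t x v := by
  refine min_le_min_right 1 (le_trans (le_add_of_nonneg_right ?_) (yy_mono k hst x v))
  exact mul_nonneg (Nat.cast_nonneg A) (sub_nonneg.2 hst)

theorem Yy_le_one (k : ℕ) (t : ℝ) (x : X) (v : V) : Yy P ϱ k A t x v ≤ 1 := by
  exact min_le_right _ _

theorem ee_mono (hP : P.OK) {ρ s s' : ℝ} (hρ : ρ ≤ 1 / 4) (hs : 0 ≤ s) (hss : s ≤ s') (x : X)
    (v : V) : ee P A ρ s' x v ≤ ee P A ρ s (x + pr ((s - s') • v)) v := by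
  have h0 : 0 ≤ s' - s := sub_nonneg.2 hss
  have h1 := igeo_back hss x v
  by_cases hc : rr x + A * s' ≤ ρ ∧ ‖v‖ < A
  · have h2 : ‖vb v‖ < A := (norm_vb_le v).trans_lt hc.2
    have h3 := mul_le_mul_of_nonneg_left h2.le h0
    have h4 : 0 ≤ (A : ℝ) * s := mul_nonneg (Nat.cast_nonneg A) hs
    have h5 : rr (x + pr ((s - s') • v)) + (s' - s) * ‖vb v‖ < 1 / 2 := by
      rcases h0.eq_or_lt with h6 | h6
      · rw [← h6] at h1 ⊢
        linarith [hc.1, mul_nonneg (Nat.cast_nonneg A : (0 : ℝ) ≤ A) (hs.trans hss)]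
      · linarith [hc.1, mul_lt_mul_of_pos_left h2 h6, rr_nonneg x]
    have h7 : ∀ σ, Wf P σ x v ≤ Wf P σ (x + pr ((s - s') • v)) v := fun σ => by
      have := Wf_anti hP σ h0 h5
      rwa [igeo_ret] at this
    rw [ee, ee, if_pos hc, if_pos ⟨by linarith [hc.1], hc.2⟩]
    exact pow_le_pow_left₀ (le_min (le_min (Wf_nonneg hP _ x v) (Wf_nonneg hP _ x v)) (sq_nonneg _))
      (min_le_min_right _ (min_le_min (h7 1) (h7 (-1)))) 4
  · rw [ee, if_neg hc, ee]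
    split_ifs
    · positivity
    · exact le_rfl

namespace Sm

variable (S : Sm P A ϱ)
include S

theorem tau_le_Yy (k : ℕ) {t : ℝ} (ht : 0 ≤ t) (x : X) (v : V) :
    ar P ϱ (k + 1) ≤ Yy P ϱ k A t x v := by
  refine le_min ?_ (S.ibas_ar1 _)
  rw [yy]
  have : 0 ≤ t * (A + ‖v‖) := by positivity
  linarith [rr_nonneg x]

theorem Yy_pos (k : ℕ) {t : ℝ} (ht : 0 ≤ t) (x : X) (v : V) : 0 < Yy P ϱ k A t x v := by
  exact (S.ar_pos _).trans_le (S.tau_le_Yy k ht x v)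

theorem rr_le_Yy (k : ℕ) {t : ℝ} (ht : 0 ≤ t) (x : X) (v : V) : rr x ≤ Yy P ϱ k A t x v := by
  refine le_min ?_ (rr_le_one x)
  rw [yy]
  have : 0 ≤ t * (A + ‖v‖) := by positivity
  linarith [S.ar_pos (k + 1)]

theorem At_le_Yy (k : ℕ) {t : ℝ} (ht : t ∈ Icc 0 (TT P ϱ)) (x : X) (v : V) :
    A * t ≤ Yy P ϱ k A t x v := by
  refine le_min ?_ ?_
  · rw [yy]
    linarith [S.ar_pos (k + 1), rr_nonneg x, mul_nonneg ht.1 (norm_nonneg v)]
  · linarith [S.A_TT, mul_le_mul_of_nonneg_left ht.2 (Nat.cast_nonneg A : (0 : ℝ) ≤ A)]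

theorem igeo_A : (0 : ℝ) < A := by linarith [S.ibas_A]

theorem igeo_pow {m : ℕ} (hm : m ≤ A) {a b d : ℝ} (ha : 0 ≤ a) (hb : 0 ≤ b) (hd : 0 ≤ d)
    (h : a ≤ b * (1 + d / A)) : a ^ m ≤ b ^ m * Real.exp d := by
  have hA := S.igeo_A
  have h1 : 1 + d / A ≤ Real.exp (d / A) := by linarith [Real.add_one_le_exp (d / A)]
  refine (pow_le_pow_left₀ ha (h.trans (mul_le_mul_of_nonneg_left h1 hb)) m).trans ?_
  rw [mul_pow, ← Real.exp_nat_mul]
  refine mul_le_mul_of_nonneg_left (Real.exp_le_exp.2 ?_) (pow_nonneg hb m)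
  rw [← mul_div_assoc, div_le_iff₀ hA, mul_comm]
  exact mul_le_mul_of_nonneg_left (Nat.cast_le.2 hm) hd

theorem igeo_lin {b c t d : ℝ} (hd : 0 ≤ d) (h : t * A ≤ b) (hc : c ≤ b + t * d) :
    c ≤ b * (1 + d / A) := by
  have hA := S.igeo_A
  have h1 := mul_le_mul_of_nonneg_right h (div_nonneg hd hA.le)
  have e : t * A * (d / A) = t * d := by field_simp
  linarith

theorem Yy_shift (k : ℕ) {m : ℕ} (hm : m ≤ A) {t : ℝ} (ht : 0 ≤ t) (x : X) {v v' : V} {d : ℝ}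
    (hd : 0 ≤ d) (h : ‖v'‖ ≤ ‖v‖ + d) :
    Yy P ϱ k A t x v' ^ m ≤ Yy P ϱ k A t x v ^ m * Real.exp d := by
  refine S.igeo_pow hm (S.Yy_pos k ht x v').le (S.Yy_pos k ht x v).le hd ?_
  have h1 : 0 ≤ d / A := div_nonneg hd S.igeo_A.le
  rw [Yy, Yy, min_mul_of_nonneg _ _ (by linarith)]
  refine min_le_min (S.igeo_lin (t := t) hd ?_ ?_) (by linarith)
  · rw [yy]
    linarith [S.ar_pos (k + 1), rr_nonneg x, mul_nonneg ht (norm_nonneg v)]
  · rw [yy, yy]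
    linarith [mul_le_mul_of_nonneg_left h ht]

theorem Yy_pow_le (k : ℕ) {m : ℕ} (hm : m ≤ A) {t : ℝ} (ht : 0 ≤ t) (x : X) (v : V) :
    Yy P ϱ k A t x v ^ m ≤ (rr x + ar P ϱ (k + 1) + t * A) ^ m * Real.exp ‖v‖ := by
  have h1 := S.ar_pos (k + 1)
  have h2 := rr_nonneg x
  refine S.igeo_pow hm (S.Yy_pos k ht x v).le (by positivity) (norm_nonneg v)
    ((min_le_left _ _).trans (S.igeo_lin (t := t) (norm_nonneg v) (by linarith) ?_))
  rw [yy]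
  linarith

theorem Hh_mono (k : ℕ) {s t : ℝ} (hs : 0 ≤ s) (hst : s ≤ t) (ht : t ≤ TT P ϱ) (x : X) (v : V) :
    Hh P ϱ k s (x + pr ((s - t) • v)) v ≤ Hh P ϱ k t x v := by
  have key : ∀ σ, Sg P ϱ k σ s (x + pr ((s - t) • v)) v ≤ Sg P ϱ k σ t x v := by
    intro σ
    by_cases hc : rr (x + pr ((s - t) • v)) ≤ 2 * ϱ + 2 * s ∧ Wf P σ (x + pr ((s - t) • v)) v < 1
    · have h0 : 0 ≤ t - s := sub_nonneg.2 hst
      have h1 : ‖vb v‖ ≤ 2 := by
        have := abs_le_of_sq_le_sq' (((Wf_ge_vb S.ok σ _ v).trans hc.2.le).trans_eq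
          (one_pow 2).symm) zero_le_one
        linarith [this.2, S.ok.lam_le]
      have h2 := mul_le_mul_of_nonneg_left h1 h0
      have h3 := Wf_anti S.ok σ (x := x + pr ((s - t) • v)) (v := v) h0
        (by linarith [hc.1, S.rho_le', S.TT_le])
      have h4 := igeo_rr (x + pr ((s - t) • v)) v (t - s)
      rw [igeo_ret] at h3 h4
      rw [abs_of_nonneg h0] at h4
      rw [Sg, Sg, if_pos hc, if_pos ⟨by linarith [hc.1], h3.trans_lt hc.2⟩]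
      exact one_div_le_one_div_of_le (Real.sqrt_pos.2 (add_pos_of_nonneg_of_pos
        (Wf_nonneg S.ok σ x v) (pow_pos (S.de_pos k) 2))) (Real.sqrt_le_sqrt (by linarith))
    · rw [Sg, if_neg hc]
      exact S.Sg_nonneg k σ t x v
  rw [Hh, Hh]
  linarith [key 1, key (-1)]

theorem Gs_mono {s t : ℝ} (hst : s ≤ t) (v : V) : Gs P ϱ s v ≤ Gs P ϱ t v := by
  refine Real.exp_le_exp.2 (mul_le_mul_of_nonneg_right ?_ (sq_nonneg _))
  linarith [div_le_div_of_nonneg_right hst S.TT_pos.le]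

theorem Gs_le {t : ℝ} (ht : t ≤ TT P ϱ) (v : V) : Gs P ϱ t v ≤ Real.exp (-‖v‖ ^ 2) := by
  refine Real.exp_le_exp.2 ?_
  have h := mul_le_mul_of_nonneg_right ((div_le_one S.TT_pos).2 ht) (sq_nonneg ‖v‖)
  linarith

theorem G0_le_Gs {t : ℝ} (ht : 0 ≤ t) (v : V) : G0 v ≤ Gs P ϱ t v := by
  refine Real.exp_le_exp.2 (mul_le_mul_of_nonneg_right ?_ (sq_nonneg _))
  linarith [div_nonneg ht S.TT_pos.le]

theorem gam_nonneg (k m : ℕ) {t : ℝ} (ht : 0 ≤ t) (x : X) (v : V) : 0 ≤ gam P ϱ k A m t x v := by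
  exact mul_nonneg (mul_nonneg (pow_pos (S.Yy_pos k ht x v) m).le
    (zero_le_one.trans (S.one_le_Hh k t x v))) (Real.exp_pos _).le

theorem gam_ge (k m : ℕ) {t : ℝ} (ht : 0 ≤ t) (x : X) (v : V) :
    ar P ϱ (k + 1) ^ m * G0 v ≤ gam P ϱ k A m t x v := by
  have h1 := pow_pos (S.Yy_pos k ht x v) m
  refine mul_le_mul ((pow_le_pow_left₀ (S.ar_pos _).le (S.tau_le_Yy k ht x v) m).trans
    (le_mul_of_one_le_right h1.le (S.one_le_Hh k t x v))) (S.G0_le_Gs ht v) (Real.exp_pos _).le ?_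
  exact mul_nonneg h1.le (zero_le_one.trans (S.one_le_Hh k t x v))

theorem gam_anti (k : ℕ) {m m' : ℕ} (h : m ≤ m') {t : ℝ} (ht : 0 ≤ t) (x : X) (v : V) :
    gam P ϱ k A m' t x v ≤ gam P ϱ k A m t x v := by
  exact mul_le_mul_of_nonneg_right (mul_le_mul_of_nonneg_right
    (pow_le_pow_of_le_one (S.Yy_pos k ht x v).le (Yy_le_one k t x v) h)
    (zero_le_one.trans (S.one_le_Hh k t x v))) (Real.exp_pos _).le

theorem gam_le (k m : ℕ) {t : ℝ} (ht : t ∈ Icc 0 (TT P ϱ)) (x : X) (v : V) :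
    gam P ϱ k A m t x v ≤ 1 + 2 / de P ϱ k := by
  have h1 := (S.Yy_pos k ht.1 x v).le
  have h2 := zero_le_one.trans (S.one_le_Hh k t x v)
  have h3 : Gs P ϱ t v ≤ 1 :=
    (S.Gs_le ht.2 v).trans (Real.exp_le_one_iff.2 (neg_nonpos.2 (sq_nonneg _)))
  exact (mul_le_of_le_one_right (mul_nonneg (pow_nonneg h1 m) h2) h3).trans
    ((mul_le_of_le_one_left h2 (pow_le_one₀ h1 (Yy_le_one k t x v))).trans (S.Hh_le k t x v))

omit S in
theorem igeo_const {g : ℝ → ℝ} {t c : ℝ} (hc : 0 ≤ c) (h : ∀ s ∈ Ioc 0 t, g s ≤ c) :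
    ∫⁻ s in Ioc 0 t, ENNReal.ofReal (g s) ≤ ENNReal.ofReal (c * t) := by
  refine (setLIntegral_mono' measurableSet_Ioc fun s hs =>
    ENNReal.ofReal_le_ofReal (h s hs)).trans ?_
  rw [setLIntegral_const, Real.volume_Ioc, sub_zero, ENNReal.ofReal_mul hc]

theorem int_Y (k : ℕ) {m : ℕ} (hm : 1 ≤ m) {t : ℝ} (ht : t ∈ Icc 0 (TT P ϱ)) (x : X) (v : V) :
    ∫⁻ s in Ioc 0 t, ENNReal.ofReal (Yy P ϱ k A s (x + pr ((s - t) • v)) v ^ (m - 1)) ≤
      ENNReal.ofReal (Yy P ϱ k A t x v ^ m / A) := by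
  have h1 := S.Yy_pos k ht.1 x v
  refine (igeo_const (pow_nonneg h1.le (m - 1)) fun s hs => pow_le_pow_left₀
    (S.Yy_pos k hs.1.le _ v).le (Yy_mono k hs.2 x v) _).trans (ENNReal.ofReal_le_ofReal ?_)
  obtain ⟨n, rfl⟩ := Nat.exists_eq_add_of_le' hm
  rw [Nat.add_sub_cancel, pow_succ, mul_div_assoc]
  refine mul_le_mul_of_nonneg_left ?_ (pow_nonneg h1.le n)
  rw [le_div_iff₀ S.igeo_A, mul_comm]
  exact S.At_le_Yy k ht x v

omit S in
theorem igeo_int {Y a t : ℝ} (n : ℕ) (ha : 0 < a) (ht : 0 ≤ t) (h : a * t ≤ Y) :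
    ∫⁻ s in Ioc 0 t, ENNReal.ofReal ((Y - a * (t - s)) ^ n) ≤
      ENNReal.ofReal (Y ^ (n + 1) / (a * (n + 1))) := by
  have hc : Continuous fun s : ℝ => (Y - a * (t - s)) ^ n := by fun_prop
  rw [← ofReal_integral_eq_lintegral_ofReal hc.integrableOn_Ioc
    ((ae_restrict_iff' measurableSet_Ioc).2 (.of_forall fun s hs =>
      pow_nonneg (by nlinarith [mul_pos ha hs.1]) n)), ← intervalIntegral.integral_of_le ht]
  refine ENNReal.ofReal_le_ofReal ?_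
  have hd : ∀ s ∈ uIcc 0 t, HasDerivAt (fun s : ℝ => (Y - a * (t - s)) ^ (n + 1) / (a * (n + 1)))
      ((Y - a * (t - s)) ^ n) s := by
    intro s _
    refine ((((((hasDerivAt_id' s).const_sub t).const_mul a).const_sub Y).fun_pow (n + 1)).div_const
      (a * (n + 1))).congr_deriv ?_
    rw [Nat.add_sub_cancel]
    push_cast
    field_simp
  rw [intervalIntegral.integral_eq_sub_of_hasDerivAt hd (hc.intervalIntegrable 0 t), sub_self,
    mul_zero, sub_zero, sub_zero]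
  exact sub_le_self _ (div_nonneg (pow_nonneg (sub_nonneg.2 h) _) (by positivity))

/-- if `yy t ≤ 1` use `yy s ≤ yy t - A (t - s)`; otherwise `t ≤ T ≤ 1/A²` -/
theorem int_YA (k : ℕ) {t : ℝ} (ht : t ∈ Icc 0 (TT P ϱ)) (x : X) (v : V) :
    ∫⁻ s in Ioc 0 t, ENNReal.ofReal (Yy P ϱ k A s (x + pr ((s - t) • v)) v ^ (A - 1)) ≤
      ENNReal.ofReal (Yy P ϱ k A t x v ^ A / (A : ℝ) ^ 2) := by
  have hA := S.igeo_A
  rcases le_total (yy P ϱ k A t x v) 1 with h | h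
  · have e : Yy P ϱ k A t x v = yy P ϱ k A t x v := min_eq_left h
    have h1 : 1 ≤ A := by linarith [S.A33]
    have h2 := igeo_int (A - 1) hA ht.1 (S.At_le_Yy k ht x v)
    rw [Nat.sub_add_cancel h1, Nat.cast_sub h1, Nat.cast_one, sub_add_cancel, ← sq] at h2
    refine le_trans (setLIntegral_mono' measurableSet_Ioc fun s hs =>
      ENNReal.ofReal_le_ofReal (pow_le_pow_left₀ (S.Yy_pos k hs.1.le _ v).le ?_ _)) h2
    rw [e]
    exact (min_le_left _ _).trans (le_sub_iff_add_le.2 (yy_mono k hs.2 x v))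
  · have e : Yy P ϱ k A t x v = 1 := min_eq_right h
    refine (igeo_const zero_le_one fun s hs => pow_le_one₀ (S.Yy_pos k hs.1.le _ v).le
      (Yy_le_one k s _ v)).trans (ENNReal.ofReal_le_ofReal ?_)
    rw [e, one_pow, one_mul, le_div_iff₀ (by positivity)]
    linarith [S.A2_TT, mul_le_mul_of_nonneg_right ht.2 (sq_nonneg (A : ℝ))]

theorem rbar_Y (k : ℕ) {s : ℝ} (hs : 0 ≤ s) (y : X) (v : V) :
    rbar P ϱ k s y / (1 + ‖v‖) * Yy P ϱ k A s y v ≤ 3 * A * P.C0 / P.lam ∧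
      ((A : ℝ) ≤ ‖v‖ → rbar P ϱ k s y / (1 + ‖v‖) * Yy P ϱ k A s y v ≤ 4 * P.C0 / P.lam) := by
  have hl := S.ok.lam0
  have hC : 0 < P.C0 := by linarith [S.ok.C0]
  have hv := norm_nonneg v
  have hA := S.ibas_A
  have key : ∀ B : ℝ, 0 ≤ B → 2 * P.lam + A + ‖v‖ ≤ B * (1 + ‖v‖) →
      rbar P ϱ k s y / (1 + ‖v‖) * Yy P ϱ k A s y v ≤ B * P.C0 / P.lam := by
    intro B hB h
    unfold rbar
    split_ifs with hc
    · have h1 := ((S.InL_iff k s y).1 hc).1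
      have h2 := S.ar_pos (k + 1)
      have h3 := mul_nonneg hl.le hs
      rw [y0] at h1
      have h4 : 0 < rr y := by linarith
      have h5 : Yy P ϱ k A s y v * P.lam ≤ rr y * (B * (1 + ‖v‖)) := by
        refine le_trans (mul_le_mul_of_nonneg_right (min_le_left _ _) hl.le)
          (le_trans ?_ (mul_le_mul_of_nonneg_left h h4.le))
        have h6 : ar P ϱ (k + 1) * P.lam ≤ rr y * P.lam :=
          mul_le_mul_of_nonneg_right (by linarith) hl.le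
        have h7 : P.lam * s * (A + ‖v‖) ≤ rr y * (A + ‖v‖) :=
          mul_le_mul_of_nonneg_right (by linarith) (by positivity)
        rw [yy]
        linarith
      rw [div_div, div_mul_eq_mul_div, div_le_div_iff₀ (by positivity) hl]
      linarith [mul_le_mul_of_nonneg_left h5 hC.le]
    · rw [zero_div, zero_mul]
      positivity
  refine ⟨key _ (by positivity) ?_, fun h => key _ (by norm_num) ?_⟩
  · nlinarith [S.ok.lam_le, mul_le_mul_of_nonneg_right hA hv]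
  · linarith [S.ok.lam_le]

omit S in
theorem igeo_sq (c u : ℝ) {e : ℝ} (he : 0 ≤ e) :
    volume {s : ℝ | u ≤ (s - c) ^ 2 ∧ (s - c) ^ 2 ≤ u + e ^ 2} ≤ ENNReal.ofReal (2 * e) := by
  have hs : {s : ℝ | u ≤ (s - c) ^ 2 ∧ (s - c) ^ 2 ≤ u + e ^ 2} ⊆
      Icc (c + √u) (c + √u + e) ∪ Icc (c - √u - e) (c - √u) := by
    rintro s ⟨h1, h2⟩
    have h3 : √u ≤ |s - c| := by
      rw [← Real.sqrt_sq_eq_abs]
      exact Real.sqrt_le_sqrt h1
    have h4 : u ≤ √u ^ 2 := by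
      rw [Real.sq_sqrt']
      exact le_max_left _ _
    have h5 := abs_le_of_sq_le_sq' (a := s - c) (b := √u + e)
      (by nlinarith [mul_nonneg (Real.sqrt_nonneg u) he]) (by positivity)
    rcases le_abs.1 h3 with h | h
    · exact Or.inl ⟨by linarith, by linarith [h5.2]⟩
    · exact Or.inr ⟨by linarith [h5.1], by linarith⟩
  refine (measure_mono hs).trans ((measure_union_le _ _).trans ?_)
  rw [Real.volume_Icc, Real.volume_Icc, ← ENNReal.ofReal_add (by linarith) (by linarith)]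
  exact ENNReal.ofReal_le_ofReal (by linarith)

omit S in
theorem igeo_quad {a κ e : ℝ} (b c : ℝ) (hκ : 0 < κ) (ha : κ ≤ |a|) (he : 0 ≤ e) :
    volume {s : ℝ | 0 ≤ a * s ^ 2 + b * s + c ∧ a * s ^ 2 + b * s + c ≤ κ * e ^ 2} ≤
      ENNReal.ofReal (2 * e) := by
  have h0 : a ≠ 0 := abs_pos.1 (hκ.trans_le ha)
  obtain ⟨u, hu⟩ : ∃ u : ℝ, ∀ s, a * s ^ 2 + b * s + c = a * ((s - -b / (2 * a)) ^ 2 - u) :=
    ⟨(b / (2 * a)) ^ 2 - c / a, fun s => by field_simp; ring⟩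
  simp only [hu]
  have h1 := mul_le_mul_of_nonneg_right ha (sq_nonneg e)
  rcases h0.lt_or_gt with h | h
  · refine le_trans (measure_mono ?_) (igeo_sq (-b / (2 * a)) (u - e ^ 2) he)
    rintro s ⟨h2, h3⟩
    rw [abs_of_neg h] at h1
    exact ⟨by nlinarith, by nlinarith⟩
  · refine le_trans (measure_mono ?_) (igeo_sq (-b / (2 * a)) u he)
    rintro s ⟨h2, h3⟩
    rw [abs_of_pos h] at h1
    exact ⟨by nlinarith, by nlinarith⟩

/-- a generic trajectory spends little time in the thin inner layers: on this set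
`0 ≤ r(s)² - (lam s)² ≤ 3 κ1 Y²`, a quadratic polynomial in `s` (the trajectory lifts to a line) -/
theorem thin (k : ℕ) {t : ℝ} (ht : t ∈ Icc 0 (TT P ϱ)) (x : X) {v : V} (hv : ‖v‖ < A) {κ κ1 : ℝ}
    (hκ : 0 < κ) (hκv : κ ≤ |‖vb v‖ ^ 2 - P.lam ^ 2|) (h0 : 0 ≤ κ1) (h1 : κ1 ≤ 1) :
    volume {s | s ∈ Ioc 0 t ∧ InL P ϱ k s (x + pr ((s - t) • v)) ∧
        y0 P s (x + pr ((s - t) • v)) < κ1 * Yy P ϱ k A t x v} ≤
      ENNReal.ofReal (4 * Yy P ϱ k A t x v * Real.sqrt (κ1 / κ)) := by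
  have hY := S.Yy_pos k ht.1 x v
  have hl := S.ok.lam0
  rcases eq_empty_or_nonempty {s | s ∈ Ioc 0 t ∧ InL P ϱ k s (x + pr ((s - t) • v)) ∧
    y0 P s (x + pr ((s - t) • v)) < κ1 * Yy P ϱ k A t x v} with h | ⟨s0, hs0, ⟨j, _, hj⟩, _⟩
  · rw [h, measure_empty]
    exact zero_le
  obtain ⟨p, hp⟩ : ∃ p : X, p = x + pr ((s0 - t) • v) := ⟨_, rfl⟩
  rw [← hp] at hj
  have h2 := (S.Lay_rr ⟨hs0.1.le, hs0.2.trans ht.2⟩ hj).2.1
  have e1 : 4 * Yy P ϱ k A t x v * √(κ1 / κ) = 2 * (2 * Yy P ϱ k A t x v * √(κ1 / κ)) := by ring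
  rw [e1]
  refine le_trans (measure_mono ?_) (igeo_quad (2 * inner ℝ (xt p) (vb v) - 2 * s0 * ‖vb v‖ ^ 2)
    (rr p ^ 2 - 2 * s0 * inner ℝ (xt p) (vb v) + s0 ^ 2 * ‖vb v‖ ^ 2) hκ hκv (by positivity))
  rintro s ⟨hs, h3, h4⟩
  have h5 : |s - s0| * ‖vb v‖ ≤ TT P ϱ * A :=
    mul_le_mul (abs_le.2 ⟨by linarith [hs.1, hs0.2, ht.2], by linarith [hs.2, hs0.1, ht.2]⟩)
      ((norm_vb_le v).trans hv.le) (norm_nonneg _) S.TT_pos.le
  have e2 : x + pr ((s - t) • v) = p + pr ((s - s0) • v) := by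
    rw [hp, bk_bk]
    congr 3
    ring
  have e3 : rr (x + pr ((s - t) • v)) ^ 2 = rr p ^ 2 + 2 * ((s - s0) * inner ℝ (xt p) (vb v)) +
      (s - s0) ^ 2 * ‖vb v‖ ^ 2 := by
    rw [e2, rr, igeo_xt (by linarith [S.rho_le', S.A_TT]), norm_add_sq_real, real_inner_smul_right,
      norm_smul, mul_pow, Real.norm_eq_abs, sq_abs, rr]
  have h6 := (S.ar_pos _).trans_le ((S.InL_iff k s _).1 h3).1
  have h7 := (S.rr_le_Yy k hs.1.le _ v).trans (Yy_mono k hs.2 x v)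
  have h8 := mul_pos hl hs.1
  have e4 : κ * (2 * Yy P ϱ k A t x v * √(κ1 / κ)) ^ 2 = 4 * (κ1 * Yy P ϱ k A t x v ^ 2) := by
    rw [mul_pow, Real.sq_sqrt (by positivity)]
    field_simp
    ring
  have e5 : (‖vb v‖ ^ 2 - P.lam ^ 2) * s ^ 2 + (2 * inner ℝ (xt p) (vb v) - 2 * s0 * ‖vb v‖ ^ 2) * s +
      (rr p ^ 2 - 2 * s0 * inner ℝ (xt p) (vb v) + s0 ^ 2 * ‖vb v‖ ^ 2) =
      (rr (x + pr ((s - t) • v)) - P.lam * s) * (rr (x + pr ((s - t) • v)) + P.lam * s) := by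
    linear_combination -e3
  rw [y0] at h4 h6
  rw [mem_setOf_eq, e4, e5]
  refine ⟨mul_nonneg h6.le (by linarith), ?_⟩
  have h9 := mul_le_mul h4.le (show rr (x + pr ((s - t) • v)) + P.lam * s ≤ 2 * Yy P ϱ k A t x v by
    linarith) (by linarith) (mul_nonneg h0 hY.le)
  linarith [mul_nonneg h0 (sq_nonneg (Yy P ϱ k A t x v))]

end Sm

end Vale.Agent.P140
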