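import Vale.Agent.P140.IDefs

/-! Measurability of the profiles; linearity of the operators SS and SM. -/

namespace Vale.Agent.P140

open MeasureTheory Set Filter Topology
open scoped ENNReal

variable {α : Type*} [MeasurableSpace α] (P : Par) (ϱ : ℝ)

private theorem im_le {f g : α → ℝ} (hf : Measurable f) (hg : Measurable g) :
    Measurable (fun a => f a ≤ g a) := measurableSet_setOfPred.1 (measurableSet_le hf hg)

private theorem im_lt {f g : α → ℝ} (hf : Measurable f) (hg : Measurable g) :
    Measurable (fun a => f a < g a) := measurableSet_setOfPred.1 (measurableSet_lt hf hg)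

private theorem im_set {p : α → Prop} (h : Measurable p) : MeasurableSet {a | p a} :=
  measurableSet_setOfPred.2 h

private theorem im_fun {p : α → Prop} (h : MeasurableSet {a | p a}) : Measurable p :=
  measurableSet_setOfPred.1 h

@[fun_prop]
private theorem im_vb {v : α → V} (hv : Measurable v) : Measurable (fun a => vb (v a)) :=
  continuous_vb.measurable.comp hv

@[fun_prop]
private theorem im_co (i : Fin 3) {v : α → V} (hv : Measurable v) : Measurable (fun a => v a i) :=
  (EuclideanSpace.proj (𝕜 := ℝ) i : V →L[ℝ] ℝ).continuous.measurable.comp hv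

@[fun_prop]
theorem measurable_y0  {t : α → ℝ} {x : α → X}
    (ht : Measurable t) (hx : Measurable x) :
    Measurable (fun a => y0 P (t a) (x a)) := by
  unfold y0
  fun_prop

@[fun_prop]
theorem measurable_Wf (σ : ℝ) {x : α → X} {v : α → V}
    (hx : Measurable x) (hv : Measurable v) :
    Measurable (fun a => Wf P σ (x a) (v a)) := by
  unfold Wf
  fun_prop

@[fun_prop]
theorem measurable_wd  {x : α → X} {v : α → V}
    (hx : Measurable x) (hv : Measurable v) :
    Measurable (fun a => wd (x a) (v a)) := by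
  have h := measurable_xt.comp hx
  exact ((im_co 1 h).mul (im_co 2 hv)).sub ((im_co 2 h).mul (im_co 1 hv))

theorem measurableSet_Lay (j : ℕ) {t : α → ℝ} {x : α → X}
    (ht : Measurable t) (hx : Measurable x) :
    MeasurableSet {a | Lay P ϱ j (t a) (x a)} := by
  exact im_set ((im_le (by fun_prop) (by fun_prop)).and (im_lt (by fun_prop) (by fun_prop)))

theorem measurableSet_Full (j : ℕ) {t : α → ℝ} {x : α → X}
    (ht : Measurable t) (hx : Measurable x) :
    MeasurableSet {a | Full P ϱ j (t a) (x a)} := by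
  exact im_set ((im_le (by fun_prop) (by fun_prop)).and (im_le (by fun_prop) (by fun_prop)))

theorem measurableSet_Zone (j : ℕ) {t : α → ℝ} {x : α → X}
    (ht : Measurable t) (hx : Measurable x) :
    MeasurableSet {a | Zone P ϱ j (t a) (x a)} := by
  exact im_set ((im_le (by fun_prop) (by fun_prop)).and (im_le (by fun_prop) (by fun_prop)))

theorem measurableSet_InL (k : ℕ) {t : α → ℝ} {x : α → X}
    (ht : Measurable t) (hx : Measurable x) :
    MeasurableSet {a | InL P ϱ k (t a) (x a)} := by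
  exact im_set (Measurable.exists fun j => measurable_const.and (im_fun (measurableSet_Lay P ϱ j ht hx)))

theorem measurableSet_Cold (k : ℕ) {t : α → ℝ} {x : α → X} {v : α → V}
    (ht : Measurable t) (hx : Measurable x) (hv : Measurable v) :
    MeasurableSet {a | Cold P ϱ k (t a) (x a) (v a)} := by
  exact im_set (Measurable.exists fun j => measurable_const.and
    ((im_fun (measurableSet_Lay P ϱ j ht hx)).and (im_le (by fun_prop) (by fun_prop))))

theorem measurableSet_Prod1 (k : ℕ) {t : α → ℝ} {x : α → X} {v : α → V}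
    (ht : Measurable t) (hx : Measurable x) (hv : Measurable v) :
    MeasurableSet {a | Prod1 P ϱ k (t a) (x a) (v a)} := by
  exact im_set (Measurable.exists fun j => measurable_const.and
    ((im_fun (measurableSet_Lay P ϱ j ht hx)).and (im_le (by fun_prop) (by fun_prop))))

theorem measurableSet_Prod2 (k : ℕ) {t : α → ℝ} {x : α → X} {v : α → V} {w : α → V}
    (ht : Measurable t) (hx : Measurable x) (hv : Measurable v) (hw : Measurable w) :
    MeasurableSet {a | Prod2 P ϱ k (t a) (x a) (v a) (w a)} := by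
  exact im_set (Measurable.exists fun j => measurable_const.and
    ((im_fun (measurableSet_Lay P ϱ j ht hx)).and ((im_le (by fun_prop) (by fun_prop)).and
      (im_le (by fun_prop) (by fun_prop)))))

theorem measurableSet_GG (A : ℕ) (κ : ℝ) {x : α → X} {v : α → V}
    (hx : Measurable x) (hv : Measurable v) :
    MeasurableSet {a | GG P A κ (x a) (v a)} := by
  exact im_set ((im_lt (by fun_prop) (by fun_prop)).and ((im_le (by fun_prop) (by fun_prop)).and
    ((im_le (by fun_prop) (by fun_prop)).and (im_le (by fun_prop) (by fun_prop)))))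

theorem measurableSet_ZZ (κ : ℝ) {x : α → X} {v : α → V}
    (hx : Measurable x) (hv : Measurable v) :
    MeasurableSet {a | ZZ P κ (x a) (v a)} := by
  exact im_set ((im_lt (by fun_prop) (by fun_prop)).or
    ((im_lt (by fun_prop) (by fun_prop)).or (im_lt (by fun_prop) (by fun_prop))))

@[fun_prop]
theorem measurable_Bj (j : ℕ) {t : α → ℝ} {x : α → X} {v : α → V}
    (ht : Measurable t) (hx : Measurable x) (hv : Measurable v) :
    Measurable (fun a => Bj P ϱ j (t a) (x a) (v a)) := by
  unfold Bj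
  exact Measurable.ite (im_set ((im_le (by fun_prop) (by fun_prop)).and ((im_le (by fun_prop) (by fun_prop)).and
    ((im_le (by fun_prop) (by fun_prop)).and ((im_le (by fun_prop) (by fun_prop)).and
      (im_le (by fun_prop) (by fun_prop))))))) measurable_const measurable_const

@[fun_prop]
theorem measurable_Ej (j : ℕ) {t : α → ℝ} {x : α → X} {v : α → V}
    (ht : Measurable t) (hx : Measurable x) (hv : Measurable v) :
    Measurable (fun a => Ej P ϱ j (t a) (x a) (v a)) := by
  unfold Ej
  exact Measurable.ite (im_set ((im_le (by fun_prop) (by fun_prop)).and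
    (im_fun (measurableSet_Zone P ϱ j ht hx)))) (by fun_prop) measurable_const

@[fun_prop]
theorem measurable_Bc (k : ℕ) {t : α → ℝ} {x : α → X} {v : α → V}
    (ht : Measurable t) (hx : Measurable x) (hv : Measurable v) :
    Measurable (fun a => Bc P ϱ k (t a) (x a) (v a)) := by
  unfold Bc
  exact Finset.measurable_sum _ fun j _ => measurable_Bj P ϱ j ht hx hv

@[fun_prop]
theorem measurable_Ec (k : ℕ) {t : α → ℝ} {x : α → X} {v : α → V}
    (ht : Measurable t) (hx : Measurable x) (hv : Measurable v) :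
    Measurable (fun a => Ec P ϱ k (t a) (x a) (v a)) := by
  unfold Ec
  exact Finset.measurable_sum _ fun j _ => measurable_Ej P ϱ j ht hx hv

@[fun_prop]
theorem measurable_Cc (k : ℕ) {t : α → ℝ} {x : α → X} {v : α → V}
    (ht : Measurable t) (hx : Measurable x) (hv : Measurable v) :
    Measurable (fun a => Cc P ϱ k (t a) (x a) (v a)) := by
  unfold Cc
  fun_prop

private theorem im_Sg (k : ℕ) (σ : ℝ) {t : α → ℝ} {x : α → X} {v : α → V}
    (ht : Measurable t) (hx : Measurable x) (hv : Measurable v) :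
    Measurable (fun a => Sg P ϱ k σ (t a) (x a) (v a)) := by
  unfold Sg
  exact Measurable.ite (im_set ((im_le (by fun_prop) (by fun_prop)).and (im_lt (by fun_prop) (by fun_prop))))
    (by fun_prop) measurable_const

@[fun_prop]
theorem measurable_Hh (k : ℕ) {t : α → ℝ} {x : α → X} {v : α → V}
    (ht : Measurable t) (hx : Measurable x) (hv : Measurable v) :
    Measurable (fun a => Hh P ϱ k (t a) (x a) (v a)) := by
  unfold Hh
  exact (measurable_const.add (im_Sg P ϱ k 1 ht hx hv)).add (im_Sg P ϱ k (-1) ht hx hv)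

@[fun_prop]
theorem measurable_ps0 (k : ℕ) {t : α → ℝ} {x : α → X} {v : α → V}
    (ht : Measurable t) (hx : Measurable x) (hv : Measurable v) :
    Measurable (fun a => ps0 P ϱ k (t a) (x a) (v a)) := by
  unfold ps0
  exact Measurable.ite (im_set ((im_le (by fun_prop) (by fun_prop)).and ((im_le (by fun_prop) (by fun_prop)).and
    (im_le (by fun_prop) (by fun_prop))))) (by fun_prop) measurable_const

@[fun_prop]
theorem measurable_psI (k : ℕ) {t : α → ℝ} {x : α → X} {v : α → V}
    (ht : Measurable t) (hx : Measurable x) (hv : Measurable v) :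
    Measurable (fun a => psI P ϱ k (t a) (x a) (v a)) := by
  unfold psI
  exact Measurable.ite (im_set (im_le (by fun_prop) (by fun_prop)))
    (measurable_ps0 P ϱ k ht hx hv).ennreal_ofReal measurable_const

@[fun_prop]
theorem measurable_psO (k : ℕ) {t : α → ℝ} {x : α → X} {v : α → V}
    (ht : Measurable t) (hx : Measurable x) (hv : Measurable v) :
    Measurable (fun a => psO P ϱ k (t a) (x a) (v a)) := by
  unfold psO
  exact Measurable.ite (im_set (im_le (by fun_prop) (by fun_prop))) measurable_const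
    (measurable_ps0 P ϱ k ht hx hv).ennreal_ofReal

@[fun_prop]
theorem measurable_eB (k : ℕ) {t : α → ℝ} {x : α → X} {v : α → V}
    (ht : Measurable t) (hx : Measurable x) (hv : Measurable v) :
    Measurable (fun a => eB P ϱ k (t a) (x a) (v a)) := by
  exact (measurable_Bc P ϱ k ht hx hv).ennreal_ofReal

@[fun_prop]
theorem measurable_eC (k : ℕ) {t : α → ℝ} {x : α → X} {v : α → V}
    (ht : Measurable t) (hx : Measurable x) (hv : Measurable v) :
    Measurable (fun a => eC P ϱ k (t a) (x a) (v a)) := by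
  exact (measurable_Cc P ϱ k ht hx hv).ennreal_ofReal

@[fun_prop]
theorem measurable_rbar (k : ℕ) {t : α → ℝ} {x : α → X}
    (ht : Measurable t) (hx : Measurable x) :
    Measurable (fun a => rbar P ϱ k (t a) (x a)) := by
  unfold rbar
  exact Measurable.ite (measurableSet_InL P ϱ k ht hx) (by fun_prop) measurable_const

@[fun_prop]
theorem measurable_yy (k A : ℕ) {t : α → ℝ} {x : α → X} {v : α → V}
    (ht : Measurable t) (hx : Measurable x) (hv : Measurable v) :
    Measurable (fun a => yy P ϱ k A (t a) (x a) (v a)) := by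
  unfold yy
  fun_prop

@[fun_prop]
theorem measurable_Yy (k A : ℕ) {t : α → ℝ} {x : α → X} {v : α → V}
    (ht : Measurable t) (hx : Measurable x) (hv : Measurable v) :
    Measurable (fun a => Yy P ϱ k A (t a) (x a) (v a)) := by
  unfold Yy
  fun_prop

@[fun_prop]
theorem measurable_Gs  {t : α → ℝ} {v : α → V}
    (ht : Measurable t) (hv : Measurable v) :
    Measurable (fun a => Gs P ϱ (t a) (v a)) := by
  unfold Gs
  fun_prop

@[fun_prop]
theorem measurable_Sg (k : ℕ) (σ : ℝ) {t : α → ℝ} {x : α → X} {v : α → V}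
    (ht : Measurable t) (hx : Measurable x) (hv : Measurable v) :
    Measurable (fun a => Sg P ϱ k σ (t a) (x a) (v a)) := by
  exact im_Sg P ϱ k σ ht hx hv

@[fun_prop]
theorem measurable_gam (k A m : ℕ) {t : α → ℝ} {x : α → X} {v : α → V}
    (ht : Measurable t) (hx : Measurable x) (hv : Measurable v) :
    Measurable (fun a => gam P ϱ k A m (t a) (x a) (v a)) := by
  unfold gam
  fun_prop

@[fun_prop]
theorem measurable_eG (k A m : ℕ) {t : α → ℝ} {x : α → X} {v : α → V}
    (ht : Measurable t) (hx : Measurable x) (hv : Measurable v) :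
    Measurable (fun a => eG P ϱ k A m (t a) (x a) (v a)) := by
  exact (measurable_gam P ϱ k A m ht hx hv).ennreal_ofReal

@[fun_prop]
theorem measurable_ee (A : ℕ) (ρ : ℝ) {t : α → ℝ} {x : α → X} {v : α → V}
    (ht : Measurable t) (hx : Measurable x) (hv : Measurable v) :
    Measurable (fun a => ee P A ρ (t a) (x a) (v a)) := by
  unfold ee
  exact Measurable.ite (im_set ((im_le (by fun_prop) (by fun_prop)).and (im_lt (by fun_prop) (by fun_prop))))
    (by fun_prop) measurable_const

@[fun_prop]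
theorem measurable_Dl (k A : ℕ) (ρ : ℝ) {t : α → ℝ} {x : α → X} {v : α → V} {w : α → V}
    (ht : Measurable t) (hx : Measurable x) (hv : Measurable v) (hw : Measurable w) :
    Measurable (fun a => Dl P ϱ k A ρ (t a) (x a) (v a) (w a)) := by
  unfold Dl
  refine Measurable.ite (im_set (im_le (by fun_prop) (by fun_prop))) (Measurable.add (Measurable.add
    (Finset.measurable_sum _ fun j _ => Measurable.ite (im_set ((im_fun (measurableSet_Lay P ϱ j ht hx)).and
      ((im_le (by fun_prop) (by fun_prop)).and (im_lt (by fun_prop) (by fun_prop))))) (by fun_prop) measurable_const)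
    (Measurable.ite (measurableSet_Prod2 P ϱ k ht hx hv hw) measurable_const measurable_const))
    (Measurable.ite (im_set ((im_fun (measurableSet_Cold P ϱ k ht hx hv)).not.and
      (im_fun (measurableSet_Cold P ϱ k ht hx hw)).not)) measurable_const measurable_const))
    measurable_const

theorem measurable_chi : Measurable (chi P ϱ) := by
  unfold chi
  exact Measurable.ite (im_set (Measurable.exists fun j =>
    (im_fun (measurableSet_Lay P ϱ j measurable_fst measurable_snd.fst)).and
      (im_lt (by fun_prop) (by fun_prop)))) measurable_const measurable_const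

theorem chi_mem (p : ℝ × Om) : 0 ≤ chi P ϱ p ∧ chi P ϱ p ≤ 1 := by
  unfold chi
  split_ifs <;> simp

theorem measurable_dat (k : ℕ) (ς : ℝ) : Measurable (dat P ϱ k ς) := by
  unfold dat
  exact (measurable_Bc P ϱ k measurable_const measurable_fst measurable_snd).add
    ((continuous_G0.measurable.comp measurable_snd).const_mul ς)

theorem measurable_hx (k : ℕ) {f : ℝ → Om → ℝ} (hf : Measurable (Function.uncurry f)) :
    Measurable (fun p : ℝ × X × V => hx P ϱ k f p.1 p.2.1 p.2.2) := by
  unfold hx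
  exact hf.ennreal_ofReal.sub
    (measurable_eC P ϱ k measurable_fst measurable_snd.fst measurable_snd.snd)

open Classical in
theorem measurable_Th (k n : ℕ) {f : ℝ → Om → ℝ} (hf : Measurable (Function.uncurry f)) :
    Measurable (fun p : ℝ × X × V => Th P ϱ k n f p.1 p.2.1 p.2.2) := by
  unfold Th
  refine (measurable_kap n (g := fun p : ℝ × X × V => f p.1)
    (hf.comp (measurable_fst.fst.prodMk measurable_snd)) measurable_snd.fst).ennreal_ofReal.mul ?_
  refine Measurable.lintegral_prod_right' (f := fun q : (ℝ × X × V) × V => ∫⁻ ω, kN n q.1.2.2 q.2 ω *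
    ((if Prod2 P ϱ k q.1.1 q.1.2.1 q.1.2.2 q.2 then eo (f q.1.1) q.1.2.1 q.2 else 0) *
      (ENNReal.ofReal (ps0 P ϱ k q.1.1 q.1.2.1 (vp q.1.2.2 q.2 ω)) +
        ENNReal.ofReal (ps0 P ϱ k q.1.1 q.1.2.1 (vq q.1.2.2 q.2 ω)))) ∂sig) ?_
  refine Measurable.lintegral_prod_right' (f := fun q : ((ℝ × X × V) × V) × S2 =>
    kN n q.1.1.2.2 q.1.2 q.2 *
    ((if Prod2 P ϱ k q.1.1.1 q.1.1.2.1 q.1.1.2.2 q.1.2 then eo (f q.1.1.1) q.1.1.2.1 q.1.2 else 0) *
      (ENNReal.ofReal (ps0 P ϱ k q.1.1.1 q.1.1.2.1 (vp q.1.1.2.2 q.1.2 q.2)) +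
        ENNReal.ofReal (ps0 P ϱ k q.1.1.1 q.1.1.2.1 (vq q.1.1.2.2 q.1.2 q.2))))) ?_
  have h1 : Measurable fun q : ((ℝ × X × V) × V) × S2 => q.1.1.1 := by fun_prop
  have h2 : Measurable fun q : ((ℝ × X × V) × V) × S2 => q.1.1.2.1 := by fun_prop
  have h3 : Measurable fun q : ((ℝ × X × V) × V) × S2 => q.1.1.2.2 := by fun_prop
  have h4 : Measurable fun q : ((ℝ × X × V) × V) × S2 => q.1.2 := by fun_prop
  exact ((isKer_kN n).measurable_comp h3 h4 measurable_snd).mul
    ((Measurable.ite (measurableSet_Prod2 P ϱ k h1 h2 h3 h4)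
      (hf.comp (h1.prodMk (h2.prodMk h4))).ennreal_ofReal measurable_const).mul
      ((measurable_ps0 P ϱ k h1 h2 (measurable_vp h3 h4 measurable_snd)).ennreal_ofReal.add
        (measurable_ps0 P ϱ k h1 h2 (measurable_vq h3 h4 measurable_snd)).ennreal_ofReal))

theorem measurable_nuB (k n : ℕ) :
    Measurable (fun p : ℝ × X × V => nuB P ϱ k n p.1 p.2.1 p.2.2) := by
  exact measurable_Lo (isKer_kN n) (G := fun p : ℝ × X × V => eB P ϱ k p.1 p.2.1)
    (measurable_eB P ϱ k measurable_fst.fst measurable_fst.snd.fst measurable_snd)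
    measurable_snd.snd

private theorem im_sl {F : ℝ → X → V → ℝ≥0∞}
    (hF : Measurable (fun p : ℝ × X × V => F p.1 p.2.1 p.2.2)) (s : ℝ) (y : X) :
    Measurable (F s y) :=
  hF.comp (f := fun u : V => (s, y, u)) (by fun_prop)

private theorem im_eC (k : ℕ) (s : ℝ) (y : X) : Measurable (eC P ϱ k s y) :=
  measurable_eC P ϱ k measurable_const measurable_const measurable_id

private theorem im_Q (k : ℕ) {F : ℝ → X → V → ℝ≥0∞}
    (hF : Measurable (fun p : ℝ × X × V => F p.1 p.2.1 p.2.2)) :
    Measurable (fun p : ℝ × X × V => 2 * Qp kI (eC P ϱ k p.1 p.2.1) (F p.1 p.2.1) p.2.2) :=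
  (measurable_Qp isKer_kI (F := fun p : ℝ × X × V => eC P ϱ k p.1 p.2.1)
    (G := fun p : ℝ × X × V => F p.1 p.2.1)
    (measurable_eC P ϱ k measurable_fst.fst measurable_fst.snd.fst measurable_snd)
    (hF.comp (f := fun q : (ℝ × X × V) × V => (q.1.1, q.1.2.1, q.2)) (by fun_prop))
    measurable_snd.snd).const_mul 2

open Classical in
private theorem im_SM (k A : ℕ) (κ1 : ℝ) {F : ℝ → X → V → ℝ≥0∞}
    (hF : Measurable (fun p : ℝ × X × V => F p.1 p.2.1 p.2.2)) {s t : α → ℝ} {x : α → X}
    {v : α → V} (hs : Measurable s) (ht : Measurable t) (hx : Measurable x) (hv : Measurable v) :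
    Measurable (fun a => if s a ≤ t a - κ1 * Yy P ϱ k A (t a) (x a) (v a) ∧
        InL P ϱ k (s a) (x a + pr ((s a - t a) • v a)) ∧
        κ1 * Yy P ϱ k A (t a) (x a) (v a) ≤ y0 P (s a) (x a + pr ((s a - t a) • v a))
      then ENNReal.ofReal (1 / Yy P ϱ k A (t a) (x a) (v a) ^ 15) *
        ∫⁻ u, F (s a) (x a + pr ((s a - t a) • v a)) u else 0) := by
  have hy : Measurable fun a => x a + pr ((s a - t a) • v a) := by fun_prop
  have hY := measurable_Yy P ϱ k A ht hx hv
  refine Measurable.ite (im_set ((im_le hs (ht.sub (hY.const_mul κ1))).and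
    ((im_fun (measurableSet_InL P ϱ k hs hy)).and
      (im_le (hY.const_mul κ1) (measurable_y0 P hs hy))))) ?_ measurable_const
  refine ((hY.pow_const 15).const_div 1).ennreal_ofReal.mul ?_
  exact Measurable.lintegral_prod_right' (f := fun q : α × V =>
    F (s q.1) (x q.1 + pr ((s q.1 - t q.1) • v q.1)) q.2)
    (hF.comp ((hs.comp measurable_fst).prodMk ((hy.comp measurable_fst).prodMk measurable_snd)))

theorem measurable_SS (k : ℕ) {F : ℝ → X → V → ℝ≥0∞}
    (hF : Measurable (fun p : ℝ × X × V => F p.1 p.2.1 p.2.2)) :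
    Measurable (fun p : ℝ × X × V => SS P ϱ k F p.1 p.2.1 p.2.2) := by
  exact measurable_Dh (im_Q P ϱ k hF)

open Classical in
theorem measurable_SM (k A : ℕ) (κ1 : ℝ) {F : ℝ → X → V → ℝ≥0∞}
    (hF : Measurable (fun p : ℝ × X × V => F p.1 p.2.1 p.2.2)) :
    Measurable (fun p : ℝ × X × V => SM P ϱ k A κ1 F p.1 p.2.1 p.2.2) := by
  exact trDual_meas (F := fun q : (ℝ × X × V) × ℝ =>
    if q.2 ≤ q.1.1 - κ1 * Yy P ϱ k A q.1.1 q.1.2.1 q.1.2.2 ∧
        InL P ϱ k q.2 (q.1.2.1 + pr ((q.2 - q.1.1) • q.1.2.2)) ∧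
        κ1 * Yy P ϱ k A q.1.1 q.1.2.1 q.1.2.2 ≤ y0 P q.2 (q.1.2.1 + pr ((q.2 - q.1.1) • q.1.2.2))
      then ENNReal.ofReal (1 / Yy P ϱ k A q.1.1 q.1.2.1 q.1.2.2 ^ 15) *
        ∫⁻ u, F q.2 (q.1.2.1 + pr ((q.2 - q.1.1) • q.1.2.2)) u else 0)
    measurable_const measurable_fst
    (im_SM P ϱ k A κ1 hF measurable_snd measurable_fst.fst measurable_fst.snd.fst
      measurable_fst.snd.snd)

theorem measurable_EE (A : ℕ) {f : ℝ → Om → ℝ} (hf : Measurable (Function.uncurry f)) (ρ : ℝ) :
    Measurable (fun t => EE P A f ρ t) := by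
  exact Measurable.lintegral_prod_right' (f := fun q : ℝ × Om =>
    ENNReal.ofReal (f q.1 q.2) * ENNReal.ofReal (ee P A ρ q.1 q.2.1 q.2.2))
    (hf.ennreal_ofReal.mul
      (measurable_ee P A ρ measurable_fst measurable_snd.fst measurable_snd.snd).ennreal_ofReal)

theorem SS_mono (k : ℕ) {F G : ℝ → X → V → ℝ≥0∞} {t : ℝ}
    (h : ∀ s ∈ Ioc 0 t, ∀ y u, F s y u ≤ G s y u) (x : X) (v : V) :
    SS P ϱ k F t x v ≤ SS P ϱ k G t x v := by
  exact Dh_mono x v fun s hs => mul_le_mul_right
    (Qp_mono (fun _ _ _ => le_rfl) (fun _ => le_rfl) (h s hs _) v) 2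

theorem SS_add (k : ℕ) {F G : ℝ → X → V → ℝ≥0∞}
    (hF : Measurable (fun p : ℝ × X × V => F p.1 p.2.1 p.2.2))
    (hG : Measurable (fun p : ℝ × X × V => G p.1 p.2.1 p.2.2)) (t : ℝ) (x : X) (v : V) :
    SS P ϱ k (fun s y u => F s y u + G s y u) t x v = SS P ϱ k F t x v + SS P ϱ k G t x v := by
  unfold SS
  rw [← Dh_add (im_Q P ϱ k hF)]
  congr 1
  funext s y u
  rw [Qp_add_right isKer_kI (im_eC P ϱ k s y) (im_sl hF s y) (im_sl hG s y), mul_add]

theorem SS_const_mul (k : ℕ) {F : ℝ → X → V → ℝ≥0∞}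
    (hF : Measurable (fun p : ℝ × X × V => F p.1 p.2.1 p.2.2)) (c : ℝ≥0∞) (t : ℝ) (x : X) (v : V) :
    SS P ϱ k (fun s y u => c * F s y u) t x v = c * SS P ϱ k F t x v := by
  unfold SS
  rw [← Dh_const_mul (im_Q P ϱ k hF)]
  congr 1
  funext s y u
  rw [Qp_const_mul_right isKer_kI (im_eC P ϱ k s y) (im_sl hF s y), mul_left_comm]

theorem SM_mono (k A : ℕ) (κ1 : ℝ) {F G : ℝ → X → V → ℝ≥0∞} {t : ℝ}
    (h : ∀ s ∈ Ioc 0 t, ∀ y u, F s y u ≤ G s y u) (x : X) (v : V) :
    SM P ϱ k A κ1 F t x v ≤ SM P ϱ k A κ1 G t x v := by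
  refine setLIntegral_mono' measurableSet_Ioc fun s hs => ?_
  split_ifs
  · exact mul_le_mul_right (lintegral_mono fun u => h s hs _ u) _
  · exact le_rfl

theorem SM_const_mul (k A : ℕ) (κ1 : ℝ) {F : ℝ → X → V → ℝ≥0∞}
    (hF : Measurable (fun p : ℝ × X × V => F p.1 p.2.1 p.2.2)) (c : ℝ≥0∞) (t : ℝ) (x : X) (v : V) :
    SM P ϱ k A κ1 (fun s y u => c * F s y u) t x v = c * SM P ϱ k A κ1 F t x v := by
  unfold SM
  refine Eq.trans ?_ (lintegral_const_mul c (im_SM P ϱ k A κ1 hF (s := fun s => s)
    (t := fun _ => t) (x := fun _ => x) (v := fun _ => v) measurable_id measurable_const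
    measurable_const measurable_const))
  refine lintegral_congr fun s => ?_
  split_ifs
  · rw [lintegral_const_mul c (im_sl hF _ _), mul_left_comm]
  · rw [mul_zero]

end Vale.Agent.P140
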