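import Vale.Agent.P140.ICold2

/-! Collisions of a hot particle with the cold gas: pointwise bounds. -/

namespace Vale.Agent.P140

open MeasureTheory Set Filter Topology
open scoped ENNReal

open Classical

/- PLAN exists_src. Off the layers eC = 0 (Cc_eq_zero, Cold_inL, Qp_zero_left). Otherwise Qp_carl. For p ⊥ q put w = v - p - q:
|v-p|² + |v-q|² = |v|² + |w|². If eC (v-q) ≠ 0 then |v-q| ≤ 6/5 (Cold_norm), and with b = 2 - s/T ∈ [1,2]:
Gs (v-p) ≤ Gs v · exp(2·1.44) · exp(-|w|²), |w|² ≥ |p|²/2 - 1.44, Yy (v-p)^m ≤ Yy v^m exp |p| (Yy_shift),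
exp(-|p|²/2 + |p|) ≤ e · exp(-|p|²/4). Then Pl_mono, Pl_const_mul, the hypothesis (q ≠ 0 a.e.), int_C_inv.
pl_full: Hh = 1 + Sg + Sg, Pl_gauss, Sg_le, Pl_inv with c = v - uu (13 + 7 + 7).
pl_cut: Sg ≤ 1/r + 1{|·-uu| ≤ r}/|·-uu| (0 < r ≤ 1); so the integrand is at most
(1 + 2/r) 1_Z exp(-|p|²/4) + two singular terms (Pl_inv: 7 r each); Pl_shell (12 √κ), Wf_eq and Pl_disc (4κ each), Pl_disc (4κ²).
Choose r = min 1 (ε/28), then κ0. -/

theorem ISrc_par {v p q : V} (h : inner ℝ p q = 0) :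
    ‖v - p‖ ^ 2 + ‖v - q‖ ^ 2 = ‖v‖ ^ 2 + ‖v - q - p‖ ^ 2 := by
  have h' := h
  rw [plb_inner] at h'
  simp only [plb_normsq, PiLp.sub_apply]
  linear_combination (-2) * h'

theorem ISrc_gs {P : Par} {A : ℕ} {ϱ : ℝ} (S : Sm P A ϱ) {s : ℝ} (hs : s ∈ Icc 0 (TT P ϱ))
    {v p q : V} (h : inner ℝ p q = 0) (hq : ‖v - q‖ ≤ 6 / 5) :
    Gs P ϱ s (v - p) * Real.exp ‖p‖ ≤
      Gs P ϱ s v * Real.exp 6 * Real.exp (-‖p‖ ^ 2 / 4) := by
  have hT := S.TT_pos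
  have h0 : 0 ≤ s / TT P ϱ := div_nonneg hs.1 hT.le
  have h1 : s / TT P ϱ ≤ 1 := (div_le_one hT).2 hs.2
  unfold Gs
  rw [← Real.exp_add, ← Real.exp_add, ← Real.exp_add]
  apply Real.exp_le_exp.2
  have hpar := ISrc_par (v := v) h
  set b := s / TT P ϱ
  have hp : ‖p‖ ≤ ‖v - q‖ + ‖v - q - p‖ := by
    have := norm_sub_le (v - q) (v - q - p)
    rwa [sub_sub_cancel] at this
  set a := ‖v - q‖
  set w := ‖v - q - p‖
  have ha : 0 ≤ a := norm_nonneg _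
  have hw : 0 ≤ w := norm_nonneg _
  have hp0 : 0 ≤ ‖p‖ := norm_nonneg _
  have ha2 : a ^ 2 ≤ 36 / 25 := by nlinarith
  have hp2 : ‖p‖ ^ 2 ≤ 2 * a ^ 2 + 2 * w ^ 2 := by nlinarith [sq_nonneg (a - w)]
  have he : ‖v - p‖ ^ 2 = ‖v‖ ^ 2 + w ^ 2 - a ^ 2 := by linarith
  rw [he]
  have k1 : (1 - b) * w ^ 2 ≥ 0 := mul_nonneg (by linarith) (sq_nonneg _)
  have k2 : b * a ^ 2 ≥ 0 := mul_nonneg h0 (sq_nonneg _)
  nlinarith [sq_nonneg (‖p‖ / 2 - 1)]

theorem ISrc_gam {P : Par} {A : ℕ} {ϱ : ℝ} (S : Sm P A ϱ) (k : ℕ) {m : ℕ} (hm : m ≤ A) {s : ℝ}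
    (hs : s ∈ Icc 0 (TT P ϱ)) (y : X) {v p q : V} (h : inner ℝ p q = 0) (hq : ‖v - q‖ ≤ 6 / 5) :
    gam P ϱ k A m s y (v - p) ≤ (Yy P ϱ k A s y v ^ m * Gs P ϱ s v * Real.exp 6) *
      (Hh P ϱ k s y (v - p) * Real.exp (-‖p‖ ^ 2 / 4)) := by
  have h1 := S.Yy_shift k hm hs.1 y (v := v) (v' := v - p) (norm_nonneg p) (norm_sub_le v p)
  have h2 := ISrc_gs S hs h hq
  have hH : 0 ≤ Hh P ϱ k s y (v - p) := le_trans zero_le_one (S.one_le_Hh k s y _)
  have hY : 0 ≤ Yy P ϱ k A s y v ^ m := pow_nonneg (S.Yy_pos k hs.1 y v).le m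
  have hG : 0 ≤ Gs P ϱ s (v - p) := (Real.exp_pos _).le
  unfold gam
  calc Yy P ϱ k A s y (v - p) ^ m * Hh P ϱ k s y (v - p) * Gs P ϱ s (v - p)
      ≤ Yy P ϱ k A s y v ^ m * Real.exp ‖p‖ * Hh P ϱ k s y (v - p) * Gs P ϱ s (v - p) :=
        mul_le_mul_of_nonneg_right (mul_le_mul_of_nonneg_right h1 hH) hG
    _ = (Yy P ϱ k A s y v ^ m * Hh P ϱ k s y (v - p)) * (Gs P ϱ s (v - p) * Real.exp ‖p‖) := by
        ring
    _ ≤ (Yy P ϱ k A s y v ^ m * Hh P ϱ k s y (v - p)) *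
          (Gs P ϱ s v * Real.exp 6 * Real.exp (-‖p‖ ^ 2 / 4)) :=
        mul_le_mul_of_nonneg_left h2 (mul_nonneg hY hH)
    _ = _ := by ring

theorem ISrc_mexp : Measurable fun p : V => ENNReal.ofReal (Real.exp (-‖p‖ ^ 2 / 4)) := by
  fun_prop

theorem ISrc_mset (c : V) (r : ℝ) : MeasurableSet {p : V | ‖c - p‖ ≤ r} :=
  measurableSet_le (by fun_prop) measurable_const

theorem ISrc_msing (c : V) (r : ℝ) :
    Measurable fun p : V => if ‖c - p‖ ≤ r then (ENNReal.ofReal ‖c - p‖)⁻¹ else 0 :=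
  Measurable.ite (ISrc_mset c r) (by fun_prop) measurable_const

theorem ISrc_mdisc (c : V) (r : ℝ) :
    Measurable fun p : V => if ‖c - p‖ ≤ r then (1 : ℝ≥0∞) else 0 :=
  Measurable.ite (ISrc_mset c r) measurable_const measurable_const

theorem ISrc_mshell (c : V) (l κ : ℝ) :
    Measurable fun p : V => if |‖vb (c - p)‖ ^ 2 - l| ≤ κ then
      ENNReal.ofReal (Real.exp (-‖p‖ ^ 2 / 4)) else 0 := by
  refine Measurable.ite (measurableSet_le ?_ measurable_const) ISrc_mexp measurable_const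
  have : Continuous fun p : V => |‖vb (c - p)‖ ^ 2 - l| := by
    unfold vb
    fun_prop
  exact this.measurable

theorem ISrc_e1 (p : V) : ENNReal.ofReal (Real.exp (-‖p‖ ^ 2 / 4)) ≤ 1 := by
  rw [ENNReal.ofReal_le_one]
  apply Real.exp_le_one_iff.2
  have := sq_nonneg ‖p‖
  linarith

theorem ISrc_split {P : Par} {A : ℕ} {ϱ : ℝ} (S : Sm P A ϱ) (k : ℕ) (s : ℝ) (y : X) (u : V)
    {e : ℝ} (he : 0 ≤ e) :
    ENNReal.ofReal (Hh P ϱ k s y u * e) = ENNReal.ofReal e +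
      ENNReal.ofReal (Sg P ϱ k 1 s y u) * ENNReal.ofReal e +
      ENNReal.ofReal (Sg P ϱ k (-1) s y u) * ENNReal.ofReal e := by
  have h1 := S.Sg_nonneg k 1 s y u
  have h2 := S.Sg_nonneg k (-1) s y u
  unfold Hh
  rw [← ENNReal.ofReal_mul h1, ← ENNReal.ofReal_mul h2,
    ← ENNReal.ofReal_add he (mul_nonneg h1 he),
    ← ENNReal.ofReal_add (add_nonneg he (mul_nonneg h1 he)) (mul_nonneg h2 he)]
  congr 1
  ring

theorem ISrc_sg {P : Par} {A : ℕ} {ϱ : ℝ} (S : Sm P A ϱ) (k : ℕ) (σ s : ℝ) (y : X) (v p : V) :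
    ENNReal.ofReal (Sg P ϱ k σ s y (v - p)) ≤
      if ‖v - uu P σ y - p‖ ≤ 1 then (ENNReal.ofReal ‖v - uu P σ y - p‖)⁻¹ else 0 := by
  have h := Sg_le S k σ s y (v - p)
  rwa [sub_right_comm] at h

theorem ISrc_sg' {P : Par} {A : ℕ} {ϱ : ℝ} (S : Sm P A ϱ) (k : ℕ) (σ s : ℝ) (y : X) (v p : V)
    {r : ℝ} (hr : 0 < r) {e : ℝ≥0∞} (he : e ≤ 1) :
    ENNReal.ofReal (Sg P ϱ k σ s y (v - p)) * e ≤ ENNReal.ofReal (1 / r) * e +
      if ‖v - uu P σ y - p‖ ≤ r then (ENNReal.ofReal ‖v - uu P σ y - p‖)⁻¹ else 0 := by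
  have h : ENNReal.ofReal (Sg P ϱ k σ s y (v - p)) ≤ (ENNReal.ofReal ‖v - uu P σ y - p‖)⁻¹ := by
    refine (ISrc_sg S k σ s y v p).trans ?_
    split_ifs
    · exact le_rfl
    · exact zero_le
  split_ifs with h1
  · refine le_trans ?_ le_add_self
    exact (mul_le_mul' h he).trans (le_of_eq (mul_one _))
  · rw [add_zero]
    refine mul_le_mul' (h.trans ?_) le_rfl
    rw [one_div, ENNReal.ofReal_inv_of_pos hr]
    exact ENNReal.inv_le_inv.2 (ENNReal.ofReal_le_ofReal (not_le.1 h1).le)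

theorem ISrc_ind {P : Par} {κ : ℝ} {y : X} (hy : rr y ≠ 0) {v p : V}
    (h : ZZ P κ y (v - p) ∨ ‖p‖ < κ) :
    ENNReal.ofReal (Real.exp (-‖p‖ ^ 2 / 4)) ≤
      (if |‖vb (v - p)‖ ^ 2 - P.lam ^ 2| ≤ κ then
        ENNReal.ofReal (Real.exp (-‖p‖ ^ 2 / 4)) else 0) +
      (if ‖v - uu P 1 y - p‖ ≤ Real.sqrt κ then (1 : ℝ≥0∞) else 0) +
      (if ‖v - uu P (-1) y - p‖ ≤ Real.sqrt κ then (1 : ℝ≥0∞) else 0) +
      (if ‖(0 : V) - p‖ ≤ κ then (1 : ℝ≥0∞) else 0) := by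
  have key : ∀ σ : ℝ, Wf P σ y (v - p) < κ → ‖v - uu P σ y - p‖ ≤ Real.sqrt κ := by
    intro σ hσ
    rw [Wf_eq σ hy, sub_right_comm] at hσ
    exact Real.le_sqrt_of_sq_le hσ.le
  rcases h with (h | h | h) | h
  · rw [if_pos h.le]
    exact (le_self_add.trans le_self_add).trans le_self_add
  · rw [if_pos (key 1 h)]
    exact (ISrc_e1 p).trans ((le_add_self.trans le_self_add).trans le_self_add)
  · rw [if_pos (key (-1) h)]
    exact (ISrc_e1 p).trans (le_add_self.trans le_self_add)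
  · have h' : ‖(0 : V) - p‖ ≤ κ := by
      rw [zero_sub, norm_neg]
      exact h.le
    rw [if_pos h']
    exact (ISrc_e1 p).trans le_add_self

theorem ISrc_plind (P : Par) {κ : ℝ} (h0 : 0 ≤ κ) (h1 : κ ≤ 1) (y : X) (v : V) {q : V}
    (hq : q ≠ 0) :
    Pl q (fun p => (if |‖vb (v - p)‖ ^ 2 - P.lam ^ 2| ≤ κ then
        ENNReal.ofReal (Real.exp (-‖p‖ ^ 2 / 4)) else 0) +
      (if ‖v - uu P 1 y - p‖ ≤ Real.sqrt κ then (1 : ℝ≥0∞) else 0) +
      (if ‖v - uu P (-1) y - p‖ ≤ Real.sqrt κ then (1 : ℝ≥0∞) else 0) +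
      (if ‖(0 : V) - p‖ ≤ κ then (1 : ℝ≥0∞) else 0)) ≤ ENNReal.ofReal (24 * Real.sqrt κ) := by
  have m1 := ISrc_mshell v (P.lam ^ 2) κ
  have m2 := ISrc_mdisc (v - uu P 1 y) (Real.sqrt κ)
  have m3 := ISrc_mdisc (v - uu P (-1) y) (Real.sqrt κ)
  have m4 := ISrc_mdisc 0 κ
  rw [Pl_add q ((m1.fun_add m2).fun_add m3) m4, Pl_add q (m1.fun_add m2) m3, Pl_add q m1 m2]
  have hs := Real.sqrt_nonneg κ
  have hs2 : Real.sqrt κ ^ 2 = κ := Real.sq_sqrt h0
  have hs1 : Real.sqrt κ ≤ 1 := Real.sqrt_le_one.2 h1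
  have hk : κ ≤ Real.sqrt κ := by nlinarith
  have hk2 : κ ^ 2 ≤ Real.sqrt κ := by nlinarith
  refine (add_le_add (add_le_add (add_le_add (Pl_shell hq v _ h0) (Pl_disc hq _ hs))
    (Pl_disc hq _ hs)) (Pl_disc hq _ h0)).trans ?_
  rw [← ENNReal.ofReal_add (by positivity) (by positivity),
    ← ENNReal.ofReal_add (by positivity) (by positivity),
    ← ENNReal.ofReal_add (by positivity) (by positivity)]
  apply ENNReal.ofReal_le_ofReal
  rw [hs2]
  linarith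

theorem exists_src : ∃ K : ℝ, 1 ≤ K ∧ ∀ (P : Par) (A : ℕ) (ϱ : ℝ), Sm P A ϱ → ∀ k m : ℕ, m ≤ A →
    ∀ s ∈ Icc 0 (TT P ϱ), ∀ (y : X) (v : V) (Z : Set V), MeasurableSet Z → ∀ ε : ℝ, 0 ≤ ε →
    (InL P ϱ k s y → ∀ q : V, q ≠ 0 → Pl q (fun p => if v - p ∈ Z then
        ENNReal.ofReal (Hh P ϱ k s y (v - p) * Real.exp (-‖p‖ ^ 2 / 4)) else 0) ≤
      ENNReal.ofReal ε) →
    Qp kI (eC P ϱ k s y) (fun u => if u ∈ Z then eG P ϱ k A m s y u else 0) v ≤
      ENNReal.ofReal (K * ε * (rbar P ϱ k s y / (1 + ‖v‖)) * gam P ϱ k A m s y v) := by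
  refine ⟨4000 * Real.exp 6, ?_, ?_⟩
  · have := Real.one_le_exp (show (0 : ℝ) ≤ 6 by norm_num)
    linarith
  intro P A ϱ S k m hm s hs y v Z hZ ε hε hyp
  have hC : Measurable (eC P ϱ k s y) :=
    measurable_eC P ϱ k (t := fun _ : V => s) (x := fun _ => y) (v := fun u => u)
      measurable_const measurable_const measurable_id
  have hG0 : Measurable (eG P ϱ k A m s y) :=
    measurable_eG P ϱ k A m (t := fun _ : V => s) (x := fun _ => y) (v := fun u => u)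
      measurable_const measurable_const measurable_id
  have hG : Measurable (fun u => if u ∈ Z then eG P ϱ k A m s y u else 0) :=
    Measurable.ite hZ hG0 measurable_const
  have hsub : Measurable fun p : V => v - p := measurable_const.sub measurable_id
  have hH : Measurable fun p : V => Hh P ϱ k s y (v - p) :=
    measurable_Hh P ϱ k (t := fun _ : V => s) (x := fun _ => y) (v := fun p => v - p)
      measurable_const measurable_const hsub
  have hF : Measurable fun p : V => if v - p ∈ Z then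
      ENNReal.ofReal (Hh P ϱ k s y (v - p) * Real.exp (-‖p‖ ^ 2 / 4)) else 0 :=
    Measurable.ite (hsub hZ) (Measurable.ennreal_ofReal (hH.mul (by fun_prop))) measurable_const
  set c : ℝ := Yy P ϱ k A s y v ^ m * Gs P ϱ s v * Real.exp 6 with hc
  have hY : 0 ≤ Yy P ϱ k A s y v ^ m := pow_nonneg (S.Yy_pos k hs.1 y v).le m
  have hGs : 0 ≤ Gs P ϱ s v := (Real.exp_pos _).le
  have hc0 : 0 ≤ c := mul_nonneg (mul_nonneg hY hGs) (Real.exp_pos _).le
  have key : ∀ q : V, q ≠ 0 → eC P ϱ k s y (v - q) *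
      Pl q (fun p => if v - p ∈ Z then eG P ϱ k A m s y (v - p) else 0) ≤
      eC P ϱ k s y (v - q) * ENNReal.ofReal (c * ε) := by
    intro q hq
    by_cases hcold : Cold P ϱ k s y (v - q)
    · refine mul_le_mul' le_rfl ?_
      have hn := (S.Cold_norm hcold).1
      have h1 := hyp (S.Cold_inL hcold) q hq
      rw [ENNReal.ofReal_mul hc0]
      refine le_trans ?_ (mul_le_mul' le_rfl h1)
      rw [← Pl_const_mul q hF]
      refine Pl_mono hq fun p hp => ?_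
      split_ifs
      · rw [← ENNReal.ofReal_mul hc0]
        exact ENNReal.ofReal_le_ofReal (ISrc_gam S k hm hs y hp hn)
      · exact zero_le
    · have h0 : eC P ϱ k s y (v - q) = 0 := by
        unfold eC
        rw [S.Cc_eq_zero hs hcold, ENNReal.ofReal_zero]
      rw [h0, zero_mul, zero_mul]
  have hae : ∀ᵐ q : V, q ≠ 0 := by
    rw [ae_iff]
    simp
  have hm2 : Measurable fun q : V => (ENNReal.ofReal ‖q‖)⁻¹ * eC P ϱ k s y (v - q) :=
    Measurable.mul (by fun_prop) (hC.comp hsub)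
  rw [Qp_carl hC hG v]
  have hr := S.rbar_nonneg k s y
  have hHv : 0 ≤ Hh P ϱ k s y v := le_trans zero_le_one (S.one_le_Hh k s y _)
  calc 2 * ∫⁻ q, (ENNReal.ofReal ‖q‖)⁻¹ * (eC P ϱ k s y (v - q) *
        Pl q (fun p => if v - p ∈ Z then eG P ϱ k A m s y (v - p) else 0))
      ≤ 2 * ∫⁻ q, ENNReal.ofReal (c * ε) * ((ENNReal.ofReal ‖q‖)⁻¹ * eC P ϱ k s y (v - q)) := by
        refine mul_le_mul' le_rfl (lintegral_mono_ae ?_)
        filter_upwards [hae] with q hq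
        refine (mul_le_mul' le_rfl (key q hq)).trans (le_of_eq ?_)
        ring
    _ = 2 * (ENNReal.ofReal (c * ε) *
          ∫⁻ q, (ENNReal.ofReal ‖q‖)⁻¹ * eC P ϱ k s y (v - q)) := by
        rw [lintegral_const_mul _ hm2]
    _ ≤ 2 * (ENNReal.ofReal (c * ε) *
          ENNReal.ofReal (2000 * rbar P ϱ k s y * Hh P ϱ k s y v / (1 + ‖v‖))) :=
        mul_le_mul' le_rfl (mul_le_mul' le_rfl (S.int_C_inv k hs y v))
    _ = _ := by
        have h2 : ∀ a : ℝ, 2 * ENNReal.ofReal a = ENNReal.ofReal (2 * a) := fun a => by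
          rw [ENNReal.ofReal_mul zero_le_two, ENNReal.ofReal_ofNat]
        rw [← ENNReal.ofReal_mul (mul_nonneg hc0 hε), h2]
        congr 1
        rw [hc]
        unfold gam
        ring

theorem pl_full {P : Par} {A : ℕ} {ϱ : ℝ} (S : Sm P A ϱ) (k : ℕ) (s : ℝ) (y : X) (v : V) {q : V}
    (hq : q ≠ 0) :
    Pl q (fun p => ENNReal.ofReal (Hh P ϱ k s y (v - p) * Real.exp (-‖p‖ ^ 2 / 4))) ≤
      ENNReal.ofReal 27 := by
  have m1 := ISrc_mexp
  have m2 := ISrc_msing (v - uu P 1 y) 1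
  have m3 := ISrc_msing (v - uu P (-1) y) 1
  calc Pl q (fun p => ENNReal.ofReal (Hh P ϱ k s y (v - p) * Real.exp (-‖p‖ ^ 2 / 4)))
      ≤ Pl q (fun p => ENNReal.ofReal (Real.exp (-‖p‖ ^ 2 / 4)) +
          (if ‖v - uu P 1 y - p‖ ≤ 1 then (ENNReal.ofReal ‖v - uu P 1 y - p‖)⁻¹ else 0) +
          (if ‖v - uu P (-1) y - p‖ ≤ 1 then
            (ENNReal.ofReal ‖v - uu P (-1) y - p‖)⁻¹ else 0)) := by
        refine Pl_mono hq fun p _ => ?_
        rw [ISrc_split S k s y _ (Real.exp_pos _).le]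
        refine add_le_add (add_le_add le_rfl ?_) ?_
        · exact (mul_le_mul' (ISrc_sg S k 1 s y v p) (ISrc_e1 p)).trans (le_of_eq (mul_one _))
        · exact (mul_le_mul' (ISrc_sg S k (-1) s y v p) (ISrc_e1 p)).trans (le_of_eq (mul_one _))
    _ ≤ 13 + ENNReal.ofReal (7 * 1) + ENNReal.ofReal (7 * 1) := by
        rw [Pl_add q (m1.fun_add m2) m3, Pl_add q m1 m2]
        exact add_le_add (add_le_add (Pl_gauss hq) (Pl_inv hq _ zero_le_one))
          (Pl_inv hq _ zero_le_one)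
    _ = ENNReal.ofReal 27 := by
        rw [← ENNReal.ofReal_ofNat 13, ← ENNReal.ofReal_add (by norm_num) (by norm_num),
          ← ENNReal.ofReal_add (by norm_num) (by norm_num)]
        norm_num

theorem pl_cut {ε : ℝ} (hε : 0 < ε) : ∃ κ0 : ℝ, 0 < κ0 ∧ ∀ κ : ℝ, 0 ≤ κ → κ ≤ κ0 →
    ∀ (P : Par) (A : ℕ) (ϱ : ℝ), Sm P A ϱ → ∀ (k : ℕ) (s : ℝ) (y : X), rr y ≠ 0 →
    ∀ v q : V, q ≠ 0 →
      Pl q (fun p => if ZZ P κ y (v - p) ∨ ‖p‖ < κ then
        ENNReal.ofReal (Hh P ϱ k s y (v - p) * Real.exp (-‖p‖ ^ 2 / 4)) else 0) ≤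
      ENNReal.ofReal ε := by
  obtain ⟨r, hr0, hrε⟩ : ∃ r : ℝ, 0 < r ∧ 28 * r ≤ ε := ⟨ε / 28, by positivity, by linarith⟩
  set M : ℝ := 1 + 1 / r + 1 / r with hM
  have hri : 0 < 1 / r := by positivity
  have hM0 : 0 < M := by positivity
  set δ : ℝ := ε / (48 * M) with hδ
  have hδ0 : 0 < δ := by positivity
  refine ⟨min 1 (δ ^ 2), by positivity, ?_⟩
  intro κ h0 hκ P A ϱ S k s y hy v q hq
  have h1 : κ ≤ 1 := hκ.trans (min_le_left _ _)
  have h2 : Real.sqrt κ ≤ δ := by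
    rw [Real.sqrt_le_left hδ0.le]
    exact hκ.trans (min_le_right _ _)
  have m1 := (((ISrc_mshell v (P.lam ^ 2) κ).add (ISrc_mdisc (v - uu P 1 y) (Real.sqrt κ))).add
    (ISrc_mdisc (v - uu P (-1) y) (Real.sqrt κ))).add (ISrc_mdisc 0 κ)
  have m2 := ISrc_msing (v - uu P 1 y) r
  have m3 := ISrc_msing (v - uu P (-1) y) r
  have hI := ISrc_plind P h0 h1 y v hq
  have hind := fun p (h : ZZ P κ y (v - p) ∨ ‖p‖ < κ) => ISrc_ind hy h
  set I : V → ℝ≥0∞ := fun p => (if |‖vb (v - p)‖ ^ 2 - P.lam ^ 2| ≤ κ then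
        ENNReal.ofReal (Real.exp (-‖p‖ ^ 2 / 4)) else 0) +
      (if ‖v - uu P 1 y - p‖ ≤ Real.sqrt κ then (1 : ℝ≥0∞) else 0) +
      (if ‖v - uu P (-1) y - p‖ ≤ Real.sqrt κ then (1 : ℝ≥0∞) else 0) +
      (if ‖(0 : V) - p‖ ≤ κ then (1 : ℝ≥0∞) else 0) with hIdef
  have hind' : ∀ p, (ZZ P κ y (v - p) ∨ ‖p‖ < κ) →
      ENNReal.ofReal (Real.exp (-‖p‖ ^ 2 / 4)) ≤ I p := hind
  have m1' : Measurable I := m1
  have m0 : Measurable fun p => ENNReal.ofReal M * I p := measurable_const.mul m1'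
  have hMe : ENNReal.ofReal M = 1 + ENNReal.ofReal (1 / r) + ENNReal.ofReal (1 / r) := by
    rw [hM, ENNReal.ofReal_add (by positivity) hri.le, ENNReal.ofReal_add zero_le_one hri.le,
      ENNReal.ofReal_one]
  calc Pl q (fun p => if ZZ P κ y (v - p) ∨ ‖p‖ < κ then
        ENNReal.ofReal (Hh P ϱ k s y (v - p) * Real.exp (-‖p‖ ^ 2 / 4)) else 0)
      ≤ Pl q (fun p => ENNReal.ofReal M * I p +
          (if ‖v - uu P 1 y - p‖ ≤ r then (ENNReal.ofReal ‖v - uu P 1 y - p‖)⁻¹ else 0) +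
          (if ‖v - uu P (-1) y - p‖ ≤ r then
            (ENNReal.ofReal ‖v - uu P (-1) y - p‖)⁻¹ else 0)) := by
        refine Pl_mono hq fun p _ => ?_
        by_cases h : ZZ P κ y (v - p) ∨ ‖p‖ < κ
        · rw [if_pos h, ISrc_split S k s y _ (Real.exp_pos _).le]
          have a1 := ISrc_sg' S k 1 s y v p hr0 (ISrc_e1 p)
          have a2 := ISrc_sg' S k (-1) s y v p hr0 (ISrc_e1 p)
          refine (add_le_add (add_le_add le_rfl a1) a2).trans ?_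
          refine le_trans (le_of_eq ?_)
            (add_le_add (add_le_add (mul_le_mul' le_rfl (hind' p h)) le_rfl) le_rfl)
          rw [hMe]
          ring
        · rw [if_neg h]
          exact zero_le
    _ ≤ ENNReal.ofReal M * ENNReal.ofReal (24 * Real.sqrt κ) + ENNReal.ofReal (7 * r) +
          ENNReal.ofReal (7 * r) := by
        rw [Pl_add q (m0.fun_add m2) m3, Pl_add q m0 m2, Pl_const_mul q m1']
        exact add_le_add (add_le_add (mul_le_mul' le_rfl hI) (Pl_inv hq _ hr0.le))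
          (Pl_inv hq _ hr0.le)
    _ ≤ ENNReal.ofReal ε := by
        have hs := Real.sqrt_nonneg κ
        rw [← ENNReal.ofReal_mul hM0.le, ← ENNReal.ofReal_add (by positivity) (by positivity),
          ← ENNReal.ofReal_add (by positivity) (by positivity)]
        apply ENNReal.ofReal_le_ofReal
        have h3 : M * (24 * Real.sqrt κ) ≤ M * (24 * δ) :=
          mul_le_mul_of_nonneg_left (by linarith) hM0.le
        have h4 : M * (24 * δ) = ε / 2 := by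
          rw [hδ]
          field_simp
          norm_num
        linarith

end Vale.Agent.P140
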