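import Vale.Agent.P140.ICold1

/-! Value produced in one collision with a cold particle. -/

namespace Vale.Agent.P140

open MeasureTheory Set Filter Topology
open scoped ENNReal

open Classical

variable {P : Par} {A : ℕ} {ϱ cS θ : ℝ}

/- PLAN kN_lower: hV.hcS, kI_le_kN_add, 13/n ≤ cS c/4 ≤ cS |v-w|/2.
loc_val: if ‖v‖² + ‖w‖² > n² then kN = 0. Otherwise ∫ kI ≤ 2 ∫ kN, so by hV.bad ∫ kN · bad ≤ ∫ kI · bad ≤ (1/50) ∫ kN (< ⊤).
Pointwise ps0 u + (1/rp)^66 1{‖vb u‖ < Lam lam} ≥ (1/rp)^66 (1 - rp ‖u‖²) (0 < τ ≤ y0 ≤ rr y ≤ rp), add the two and use energy_coll.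
Th_ge: for w with Prod2 (layer j ≤ k): τ ≤ y0 (InL_iff), |v - w| ≥ c - η ≥ c/2 (Wf_eq, et_le_lam), Cold_norm; pull the factor
depending on w out of the ω-integral, lintegral_mono_ae with loc_val. If y is in no layer both sides vanish. -/

theorem kN_lower (hV : ValP P cS θ) {n : ℕ} (hn1 : 1 ≤ n) (hn : 13 / (n : ℝ) ≤ cS * P.c / 4)
    {v w : V} (hc : P.c / 2 ≤ ‖v - w‖) (hE : ‖v‖ ^ 2 + ‖w‖ ^ 2 ≤ (n : ℝ) ^ 2) :
    ENNReal.ofReal (cS / 2 * ‖v - w‖) ≤ ∫⁻ ω, kN n v w ω ∂sig := by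
  have h1 : 13 / (n : ℝ) ≤ cS / 2 * ‖v - w‖ := by nlinarith [hV.cS0]
  have h0 : 0 ≤ cS / 2 * ‖v - w‖ := by have := hV.cS0; positivity
  have h2 := ((hV.hcS v w).trans (kI_le_kN_add hn1 hE)).trans
    (add_le_add le_rfl (ENNReal.ofReal_le_ofReal h1))
  rw [show cS * ‖v - w‖ = cS / 2 * ‖v - w‖ + cS / 2 * ‖v - w‖ by ring,
    ENNReal.ofReal_add h0 h0] at h2
  exact (ENNReal.add_le_add_iff_right ENNReal.ofReal_ne_top).1 h2

theorem iv1_pt (S : Sm P A ϱ) (k : ℕ) {s : ℝ} (hs : 0 ≤ s) {y : X}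
    (hy : ar P ϱ (k + 1) ≤ y0 P s y) {rp : ℝ} (hr : rr y ≤ rp) (hrp : rp ≤ ϱ / 2) (u : V) :
    (1 / rp) ^ 66 * (1 - rp * ‖u‖ ^ 2) ≤ ps0 P ϱ k s y u +
      (1 / rp) ^ 66 * (if ‖vb u‖ < P.Lam * P.lam then 1 else 0) := by
  have h0 : 0 < rr y := by
    have h1 := S.ar_pos (k + 1)
    have h2 := mul_nonneg S.ok.lam0.le hs
    unfold y0 at hy
    linarith
  have hp : 0 < rp := h0.trans_le hr
  have hR : 0 < (1 / rp) ^ 66 := by positivity
  have hu : 0 ≤ ‖u‖ ^ 2 := by positivity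
  have hle : (1 / rp) ^ 66 ≤ (1 / rr y) ^ 66 :=
    pow_le_pow_left₀ (by positivity) (one_div_le_one_div_of_le h0 hr) _
  generalize (1 / rp) ^ 66 = R at hR hle
  split_ifs with h
  · have h1 := S.ps0_nonneg k s y u
    have h2 : 0 ≤ R * (rp * ‖u‖ ^ 2) := by positivity
    linarith
  · unfold ps0
    rw [if_pos ⟨not_lt.1 h, hy, hr.trans hrp⟩, mul_zero, add_zero]
    refine le_trans ?_ (mul_le_mul_of_nonneg_right hle (le_max_right _ _))
    refine mul_le_mul_of_nonneg_left (le_trans ?_ (le_max_left _ _)) hR.le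
    nlinarith

theorem iv1_ite (p : Prop) [Decidable p] :
    ENNReal.ofReal (if p then 1 else 0) = if p then 1 else 0 := by
  split_ifs <;> simp

theorem loc_val (hV : ValP P cS θ) (S : Sm P A ϱ) {n : ℕ} (hn1 : 1 ≤ n)
    (hn : 13 / (n : ℝ) ≤ cS * P.c / 4) (k : ℕ) {s : ℝ} (hs : 0 ≤ s) {y : X}
    (hy : ar P ϱ (k + 1) ≤ y0 P s y) {rp : ℝ} (hr : rr y ≤ rp) (hrp : rp ≤ ϱ / 2) (v : V) :
    ∀ᵐ w : V, P.c / 2 ≤ ‖v - w‖ → ‖vb w‖ ≤ 2 * P.lam → ‖w‖ ≤ 2 →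
      ENNReal.ofReal ((1 / rp) ^ 66 * (2 - rp * (‖v‖ ^ 2 + 4) - 1 / 50)) *
          ∫⁻ ω, kN n v w ω ∂sig ≤
        ∫⁻ ω, kN n v w ω * (ENNReal.ofReal (ps0 P ϱ k s y (vp v w ω)) +
          ENNReal.ofReal (ps0 P ϱ k s y (vq v w ω))) ∂sig := by
  have h0 : 0 < rr y := by
    have h1 := S.ar_pos (k + 1)
    have h2 := mul_nonneg S.ok.lam0.le hs
    unfold y0 at hy
    linarith
  have hp : 0 < rp := h0.trans_le hr
  set R : ℝ := (1 / rp) ^ 66 with hRdef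
  have hR : 0 < R := by positivity
  filter_upwards [hV.bad v] with w hw hc hb hw2
  by_cases hE : ‖v‖ ^ 2 + ‖w‖ ^ 2 ≤ (n : ℝ) ^ 2
  swap
  · simp [kN, hE]
  have hJ : ∫⁻ ω, kN n v w ω ∂sig ≠ ⊤ :=
    ne_top_of_le_ne_top ENNReal.ofReal_ne_top (lintegral_ker_le (isKer_kN n) v w)
  have h1 : 13 / (n : ℝ) ≤ cS / 2 * ‖v - w‖ := by nlinarith [hV.cS0]
  have h2 : ∫⁻ ω, kI v w ω ∂sig ≤ 2 * ∫⁻ ω, kN n v w ω ∂sig := by
    rw [two_mul]
    exact (kI_le_kN_add hn1 hE).trans (add_le_add le_rfl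
      ((ENNReal.ofReal_le_ofReal h1).trans (kN_lower hV hn1 hn hc hE)))
  have hm : Measurable fun ω : S2 => kN n v w ω * (ENNReal.ofReal (ps0 P ϱ k s y (vp v w ω)) +
      ENNReal.ofReal (ps0 P ϱ k s y (vq v w ω))) :=
    ((isKer_kN n).measurable_comp measurable_const measurable_const measurable_id).mul
      ((measurable_ps0 P ϱ k measurable_const measurable_const (by fun_prop)).ennreal_ofReal.add
        (measurable_ps0 P ϱ k measurable_const measurable_const (by fun_prop)).ennreal_ofReal)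
  have hpt : ∀ ω : S2, ENNReal.ofReal (R * (2 - rp * (‖v‖ ^ 2 + 4))) * kN n v w ω ≤
      kN n v w ω * (ENNReal.ofReal (ps0 P ϱ k s y (vp v w ω)) +
        ENNReal.ofReal (ps0 P ϱ k s y (vq v w ω))) +
      ENNReal.ofReal R * (kI v w ω * ((if ‖vb (vp v w ω)‖ < P.Lam * P.lam then 1 else 0) +
        (if ‖vb (vq v w ω)‖ < P.Lam * P.lam then 1 else 0))) := by
    intro ω
    have a1 := iv1_pt S k hs hy hr hrp (vp v w ω)
    have a2 := iv1_pt S k hs hy hr hrp (vq v w ω)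
    have a3 := energy_coll v w ω
    have a4 : ‖w‖ ^ 2 ≤ 4 := by nlinarith [norm_nonneg w]
    have b1 := S.ps0_nonneg k s y (vp v w ω)
    have b2 := S.ps0_nonneg k s y (vq v w ω)
    have c1 : (0 : ℝ) ≤ if ‖vb (vp v w ω)‖ < P.Lam * P.lam then 1 else 0 := by
      split_ifs <;> norm_num
    have c2 : (0 : ℝ) ≤ if ‖vb (vq v w ω)‖ < P.Lam * P.lam then 1 else 0 := by
      split_ifs <;> norm_num
    have a5 : R * (2 - rp * (‖v‖ ^ 2 + 4)) ≤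
        (ps0 P ϱ k s y (vp v w ω) + ps0 P ϱ k s y (vq v w ω)) +
        R * ((if ‖vb (vp v w ω)‖ < P.Lam * P.lam then 1 else 0) +
          (if ‖vb (vq v w ω)‖ < P.Lam * P.lam then 1 else 0)) := by
      have a6 : R * (2 - rp * (‖v‖ ^ 2 + 4)) ≤
          R * (1 - rp * ‖vp v w ω‖ ^ 2) + R * (1 - rp * ‖vq v w ω‖ ^ 2) := by
        rw [← mul_add]
        refine mul_le_mul_of_nonneg_left ?_ hR.le
        nlinarith
      rw [← hRdef] at a1 a2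
      linarith
    have a7 := ENNReal.ofReal_le_ofReal a5
    rw [ENNReal.ofReal_add (add_nonneg b1 b2) (mul_nonneg hR.le (add_nonneg c1 c2)),
      ENNReal.ofReal_add b1 b2, ENNReal.ofReal_mul hR.le (q := _ + _), ENNReal.ofReal_add c1 c2,
      iv1_ite, iv1_ite] at a7
    refine (mul_le_mul_left a7 _).trans ?_
    rw [add_mul, mul_comm _ (kN n v w ω), mul_assoc, mul_comm _ (kN n v w ω)]
    gcongr
    exact (isKer_kN n).le v w ω
  have h3 := lintegral_mono (μ := sig) hpt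
  rw [lintegral_const_mul' _ _ ENNReal.ofReal_ne_top, lintegral_add_left hm,
    lintegral_const_mul' _ _ ENNReal.ofReal_ne_top] at h3
  have h4 : ENNReal.ofReal R * (ENNReal.ofReal (1 / 100) * (2 * ∫⁻ ω, kN n v w ω ∂sig)) =
      ENNReal.ofReal (R * (1 / 50)) * ∫⁻ ω, kN n v w ω ∂sig := by
    rw [show (1 / 50 : ℝ) = 1 / 100 * 2 by norm_num, ENNReal.ofReal_mul hR.le,
      ENNReal.ofReal_mul (by norm_num), ENNReal.ofReal_ofNat]
    ring
  rw [mul_sub, ENNReal.ofReal_sub _ (by positivity), ENNReal.sub_mul (fun _ _ => hJ),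
    tsub_le_iff_right, ← h4]
  refine h3.trans (add_le_add le_rfl ?_)
  gcongr
  exact (hw hc hb).trans (by gcongr)

theorem Th_ge (hV : ValP P cS θ) (S : Sm P A ϱ) {n : ℕ} (hn1 : 1 ≤ n)
    (hn : 13 / (n : ℝ) ≤ cS * P.c / 4) (k : ℕ) {f : ℝ → Om → ℝ}
    (hf : Measurable (Function.uncurry f)) {s : ℝ} (hs : s ∈ Icc 0 (TT P ϱ)) {y : X} {rp : ℝ}
    (hr : rr y ≤ rp) (hrp : rp ≤ ϱ / 2) (v : V) :
    ENNReal.ofReal ((1 / rp) ^ 66 * (2 - rp * (‖v‖ ^ 2 + 4) - 1 / 50)) *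
        (ENNReal.ofReal (kap n (f s) y) * nuP P ϱ k n f s y v) ≤ Th P ϱ k n f s y v := by
  have _ := hf
  unfold Th nuP Lo
  rw [mul_left_comm, ← lintegral_const_mul' _ _ ENNReal.ofReal_ne_top]
  refine mul_le_mul_right ?_ _
  by_cases hy : InL P ϱ k s y
  swap
  · have : ∀ w, ¬ Prod2 P ϱ k s y v w := fun w ⟨j, hj, hl, _⟩ => hy ⟨j, hj, hl⟩
    simp [this]
  refine lintegral_mono_ae ?_
  filter_upwards [loc_val hV S hn1 hn k hs.1 ((S.InL_iff k s y).1 hy).1 hr hrp v] with w hw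
  split_ifs with h
  swap
  · simp
  obtain ⟨j, hj, hl, h1, h2⟩ := h
  have hne : eo (f s) y w ≠ ⊤ := ENNReal.ofReal_ne_top
  have h0 : rr y ≠ 0 := ((S.ar_pos _).trans_le (S.Lay_rr hs hl).1).ne'
  obtain ⟨h3, h4⟩ := S.Cold_norm (⟨j, hj, hl, h1⟩ : Cold P ϱ k s y w)
  rw [Wf_eq _ h0] at h1 h2
  have hc : 0 < P.c := S.ok.lam0.trans_le S.ok.lamc
  have h5 : ‖w - uu P (sg j) y‖ ≤ et P ϱ j :=
    (pow_le_pow_iff_left₀ (norm_nonneg _) (S.et_pos j).le two_ne_zero).1 h1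
  have h6 : P.c ≤ ‖v - uu P (sg j) y‖ :=
    (pow_le_pow_iff_left₀ hc.le (norm_nonneg _) two_ne_zero).1 h2
  have h7 : P.c / 2 ≤ ‖v - w‖ := by
    have a1 := norm_sub_le_norm_sub_add_norm_sub v w (uu P (sg j) y)
    have a2 := S.et_le_lam j
    have a3 := S.ok.lamc
    have a4 := S.et_pos j
    linarith
  simp only [mul_left_comm _ (eo (f s) y w)]
  rw [lintegral_mul_const' _ _ hne, lintegral_const_mul' _ _ hne, ← mul_assoc, mul_comm]
  gcongr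
  exact hw h7 h4 (by linarith)

end Vale.Agent.P140
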