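import Vale.Agent.P140.ICold2
import Vale.Agent.P140.IV1

/-! Collision frequencies along a run. -/

namespace Vale.Agent.P140

open MeasureTheory Set Filter Topology
open scoped ENNReal

open Classical

variable {P : Par} {A : ℕ} {ϱ cS θ : ℝ}

theorem iv2_Lo {b : V → V → S2 → ℝ≥0∞} (hb : IsKer b) {G : V → ℝ≥0∞} (hG : Measurable G) (v : V)
    {c m : ℝ} (hc : 0 ≤ c) (h : ∀ w, G w ≠ 0 → ‖v - w‖ ≤ c) (hm : ∫⁻ w, G w ≤ ENNReal.ofReal m) :
    Lo b G v ≤ ENNReal.ofReal (13 * c * m) := by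
  refine (Lo_le hb hG v).trans ?_
  rw [ENNReal.ofReal_mul (by positivity)]
  refine le_trans ?_ (mul_le_mul_right hm _)
  rw [← lintegral_const_mul _ hG]
  refine lintegral_mono fun w => ?_
  by_cases hw : G w = 0
  · simp [hw]
  · exact mul_le_mul_left (ENNReal.ofReal_le_ofReal (by linarith [h w hw])) _

theorem iv2_mB (k : ℕ) (s : ℝ) (y : X) : Measurable (eB P ϱ k s y) :=
  measurable_eB P ϱ k measurable_const measurable_const measurable_id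

theorem iv2_mC (k : ℕ) (s : ℝ) (y : X) : Measurable (eC P ϱ k s y) :=
  measurable_eC P ϱ k measurable_const measurable_const measurable_id

theorem iv2_mE (k : ℕ) (s : ℝ) (y : X) : Measurable fun w => ENNReal.ofReal (Ec P ϱ k s y w) :=
  (measurable_Ec P ϱ k measurable_const measurable_const measurable_id).ennreal_ofReal

theorem iv2_mG (k m : ℕ) (s : ℝ) (y : X) : Measurable (eG P ϱ k A m s y) :=
  measurable_eG P ϱ k A m measurable_const measurable_const measurable_id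

theorem iv2_near (σ : ℝ) (y : X) {v w : V} {a b : ℝ} (ha : 0 ≤ a) (hb : 0 ≤ b)
    (hv : Wf P σ y v ≤ a ^ 2) (hw : Wf P σ y w ≤ b ^ 2) : ‖v - w‖ ≤ a + b := by
  have h1 := (sq_le_sq₀ (norm_nonneg _) ha).1 ((norm_sub_uu_le (P := P) σ y v).trans hv)
  have h2 := (sq_le_sq₀ (norm_nonneg _) hb).1 ((norm_sub_uu_le (P := P) σ y w).trans hw)
  have := norm_sub_le_norm_sub_add_norm_sub v (uu P σ y) w
  rw [norm_sub_rev (uu P σ y)] at this
  linarith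

theorem Sm.iv2_coldB (S : Sm P A ϱ) {k : ℕ} {s : ℝ} (hs : s ∈ Icc 0 (TT P ϱ)) {y : X} {w : V}
    (h : eB P ϱ k s y w ≠ 0) : Cold P ϱ k s y w := by
  by_contra hc
  exact h (by rw [eB, S.Bc_eq_zero hs hc, ENNReal.ofReal_zero])

theorem Run.iv2_eo {k n : ℕ} {ς N : ℝ} {f : ℝ → Om → ℝ} (R : Run P A ϱ k n ς N f) {s : ℝ}
    (hs : s ∈ Icc 0 (TT P ϱ)) (y : X) (w : V) :
    eo (f s) y w ≤ eC P ϱ k s y w + eG P ϱ k A 33 s y w :=
  (ENNReal.ofReal_le_ofReal ((R.adm s hs y w).trans (add_le_add_right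
    (mul_le_of_le_one_left (R.sm.gam_nonneg k 33 hs.1 y w) R.N1) _))).trans ENNReal.ofReal_add_le

theorem Run.hot_le {k n : ℕ} {ς N : ℝ} {f : ℝ → Om → ℝ} (R : Run P A ϱ k n ς N f) {s : ℝ}
    (hs : s ∈ Icc 0 (TT P ϱ)) {y : X} {v : V} (h : ¬ Cold P ϱ k s y v) :
    f s (y, v) ≤ N * gam P ϱ k A 33 s y v := by
  have := R.adm s hs y v
  rwa [R.sm.Cc_eq_zero hs h, zero_add] at this

theorem iv2_gam : ∃ K : ℝ, 1 ≤ K ∧ ∀ (P : Par) (A : ℕ) (ϱ : ℝ), Sm P A ϱ → ∀ (k : ℕ),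
    ∀ s ∈ Icc 0 (TT P ϱ), ∀ y : X,
      ∫⁻ w, ENNReal.ofReal (1 + ‖w‖) * eG P ϱ k A 33 s y w ≤ ENNReal.ofReal K := by
  obtain ⟨K, hK, h⟩ := exists_gam_int
  refine ⟨K, hK, fun P A ϱ S k s hs y =>
    le_trans (lintegral_mono fun w => ?_) (h P A ϱ S k 33 S.A33 s hs y).1⟩
  rw [eG, ← ENNReal.ofReal_mul (by positivity)]
  exact ENNReal.ofReal_le_ofReal (mul_le_mul_of_nonneg_right
    (le_self_pow₀ (le_add_of_nonneg_right (norm_nonneg w)) two_ne_zero)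
    (S.gam_nonneg k 33 hs.1 y w))

theorem exists_den : ∃ K : ℝ, 1 ≤ K ∧ ∀ (P : Par) (A : ℕ) (ϱ : ℝ) (k n : ℕ) (ς N : ℝ)
    (f : ℝ → Om → ℝ), Run P A ϱ k n ς N f → ∀ s ∈ Icc 0 (TT P ϱ), ∀ y : X,
      ∫⁻ w, ENNReal.ofReal (1 + ‖w‖) * eo (f s) y w ≤
        ENNReal.ofReal (K * (1 + rbar P ϱ k s y)) ∧
      (InL P ϱ k s y → ∫⁻ w, ENNReal.ofReal (1 + ‖w‖) * eo (f s) y w ≤
        ENNReal.ofReal (K * rbar P ϱ k s y)) := by
  obtain ⟨K, hK, h⟩ := iv2_gam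
  refine ⟨K + 39, by linarith, fun P A ϱ k n ς N f R s hs y => ?_⟩
  have S := R.sm
  have hr := S.rbar_nonneg k s y
  have key : ∫⁻ w, ENNReal.ofReal (1 + ‖w‖) * eo (f s) y w ≤
      ENNReal.ofReal (3 * (13 * rbar P ϱ k s y) + K) := by
    calc _ ≤ ∫⁻ w, (ENNReal.ofReal 3 * eC P ϱ k s y w +
            ENNReal.ofReal (1 + ‖w‖) * eG P ϱ k A 33 s y w) := by
          refine lintegral_mono fun w => (mul_le_mul_right (R.iv2_eo hs y w) _).trans ?_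
          rw [mul_add]
          refine add_le_add_left ?_ _
          by_cases hc : Cold P ϱ k s y w
          · exact mul_le_mul_left (ENNReal.ofReal_le_ofReal (by linarith [(S.Cold_norm hc).1])) _
          · simp [eC, S.Cc_eq_zero hs hc]
      _ ≤ _ := by
          rw [lintegral_add_left ((iv2_mC k s y).const_mul _), lintegral_const_mul _ (iv2_mC k s y),
            ENNReal.ofReal_add (by positivity) (by linarith), ENNReal.ofReal_mul (by norm_num)]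
          exact add_le_add (mul_le_mul_right (S.int_C k hs y) _) (h P A ϱ S k s hs y)
  refine ⟨key.trans (ENNReal.ofReal_le_ofReal (by nlinarith)),
    fun hI => key.trans (ENNReal.ofReal_le_ofReal ?_)⟩
  have := S.one_le_rbar hs hI
  nlinarith

theorem exists_ln_le : ∃ K : ℝ, 0 ≤ K ∧ ∀ (P : Par) (A : ℕ) (ϱ : ℝ) (k n : ℕ) (ς N : ℝ)
    (f : ℝ → Om → ℝ), Run P A ϱ k n ς N f → ∀ s ∈ Icc 0 (TT P ϱ), ∀ (y : X) (v : V),
      ENNReal.ofReal (ln n (f s) (y, v)) ≤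
        ENNReal.ofReal (kap n (f s) y) * nuB P ϱ k n s y v + ENNReal.ofReal (K * (1 + ‖v‖)) := by
  obtain ⟨K, hK, h⟩ := iv2_gam
  refine ⟨13 * K + 130, by linarith, fun P A ϱ k n ς N f R s hs y v => ?_⟩
  have S := R.sm
  have hv := norm_nonneg v
  have hb := isKer_kN n
  have hE : Lo (kN n) (fun w => ENNReal.ofReal (Ec P ϱ k s y w)) v ≤
      ENNReal.ofReal (13 * (‖v‖ + 6 / 5) * 5) := by
    refine iv2_Lo hb (iv2_mE k s y) v (by positivity) (fun w hw => ?_)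
      ((S.int_E k hs y).trans (by simp))
    have hc : Cold P ϱ k s y w := by
      by_contra hc
      have h1 := S.Cc_eq_zero hs hc
      rw [Cc, S.Bc_eq_zero hs hc, zero_add] at h1
      exact hw (by rw [h1, ENNReal.ofReal_zero])
    linarith [norm_sub_le v w, (S.Cold_norm hc).1]
  have hG : Lo (kN n) (eG P ϱ k A 33 s y) v ≤ ENNReal.ofReal (13 * (1 + ‖v‖) * K) := by
    refine (Lo_le hb (iv2_mG k 33 s y) v).trans ?_
    rw [ENNReal.ofReal_mul (by positivity)]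
    refine le_trans ?_ (mul_le_mul_right (h P A ϱ S k s hs y) _)
    rw [← lintegral_const_mul' _ _ ENNReal.ofReal_ne_top]
    refine lintegral_mono fun w => ?_
    rw [← mul_assoc, ← ENNReal.ofReal_mul (by positivity)]
    refine mul_le_mul_left (ENNReal.ofReal_le_ofReal ?_) _
    nlinarith [norm_sub_le v w, norm_nonneg w, mul_nonneg hv (norm_nonneg w)]
  have h1 : Lo (kN n) (eo (f s) y) v ≤ nuB P ϱ k n s y v +
      (Lo (kN n) (fun w => ENNReal.ofReal (Ec P ϱ k s y w)) v +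
        Lo (kN n) (eG P ϱ k A 33 s y) v) := by
    rw [nuB, ← Lo_add hb (iv2_mE k s y) (iv2_mG k 33 s y),
      ← Lo_add hb (iv2_mB k s y) ((iv2_mE k s y).fun_add (iv2_mG k 33 s y))]
    refine Lo_mono (fun _ _ _ => le_rfl) (fun w => (R.iv2_eo hs y w).trans ?_) v
    rw [← add_assoc]
    exact add_le_add_left ENNReal.ofReal_add_le _
  rw [R.sol.ofReal_ln' hs.1]
  refine (mul_le_mul_right h1 _).trans ?_
  rw [mul_add]
  refine add_le_add_right ((mul_le_of_le_one_left' (ENNReal.ofReal_le_one.2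
    (kap_le_one n (R.sol.nonneg s) y))).trans ((add_le_add hE hG).trans ?_)) _
  rw [← ENNReal.ofReal_add (by positivity) (by positivity)]
  exact ENNReal.ofReal_le_ofReal (by nlinarith)

theorem Sm.iv2_nuB (S : Sm P A ϱ) {j k : ℕ} (hj : j ≤ k) (n : ℕ) {s : ℝ}
    (hs : s ∈ Icc 0 (TT P ϱ)) {y : X} {v : V} (h : Lay P ϱ j s y)
    (hW : Wf P (sg j) y v ≤ et P ϱ j ^ 2) : nuB P ϱ k n s y v ≤ ENNReal.ofReal 1 := by
  have hη := S.et_pos j
  refine (iv2_Lo (isKer_kN n) (iv2_mB k s y) v (by positivity : 0 ≤ et P ϱ j + et P ϱ j)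
    (fun w hw => iv2_near (sg j) y hη.le hη.le hW ((S.Cold_iff hj h w).1 (S.iv2_coldB hs hw)))
    (S.int_B k hs y)).trans (ENNReal.ofReal_le_ofReal ?_)
  have ha := S.ar_pos j
  have h1 := (S.Lay_rr hs h).1
  have h2 := S.ar_le_two j
  have h3 : 0 < rr y := (S.ar_pos _).trans_le h1
  have h4 : et P ϱ j ≤ ar P ϱ j ^ 2 := pow_le_pow_of_le_one ha.le (S.ibas_ar1 j) (by norm_num)
  have h5 := S.ok.C0
  have h6 : ar P ϱ j * P.C0 ≤ 1 / 10 ^ 9 := le_trans (mul_le_mul (S.ar_le j)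
    (le_self_pow₀ h5 two_ne_zero) (by linarith) S.pos.le) S.rho_C0
  have h7 : et P ϱ j * P.C0 ≤ 2 * rr y * (1 / 10 ^ 9) :=
    calc _ ≤ ar P ϱ j ^ 2 * P.C0 := mul_le_mul_of_nonneg_right h4 (by linarith)
      _ = ar P ϱ j * (ar P ϱ j * P.C0) := by ring
      _ ≤ _ := mul_le_mul (by linarith) h6 (by positivity) (by positivity)
  rw [rbar, if_pos ⟨j, hj, h⟩, ← mul_div_assoc, ← mul_div_assoc, div_le_one h3]
  linarith

theorem exists_lowB : ∃ K : ℝ, 0 ≤ K ∧ ∀ (P : Par) (A : ℕ) (ϱ : ℝ) (k n : ℕ) (ς N : ℝ)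
    (f : ℝ → Om → ℝ), Run P A ϱ k n ς N f → ∀ t ∈ Icc 0 (TT P ϱ), ∀ (x : X) (v : V),
      Bc P ϱ k t x v * Real.exp (-(K * TT P ϱ)) ≤ f t (x, v) := by
  obtain ⟨K, hK, h⟩ := exists_ln_le
  refine ⟨1 + K * 3, by positivity, fun P A ϱ k n ς N f R t ht x v => ?_⟩
  have S := R.sm
  by_cases h0 : Bc P ϱ k t x v = 0
  · rw [h0, zero_mul]
    exact R.sol.nonneg _ _
  obtain ⟨j, hj, hB⟩ := Finset.exists_ne_zero_of_sum_ne_zero h0
  have hj' : j ≤ k := Nat.lt_succ_iff.1 (Finset.mem_range.1 hj)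
  have hl : ∀ τ ∈ Icc 0 t, ln n (f τ) (x + pr ((τ - t) • v), v) ≤ 1 + K * 3 := by
    intro τ hτ
    have hτ' : τ ∈ Icc 0 (TT P ϱ) := ⟨hτ.1, hτ.2.trans ht.2⟩
    obtain ⟨a1, -, a2, -⟩ := S.supp_B hτ' ((S.Bj_free j hτ' ht x v).trans_ne hB)
    have a3 := a2.trans (S.ICold1_de_et j)
    have a4 := (S.Cold_norm (k := k) ⟨j, hj', a1, a3⟩).1
    refine (ENNReal.ofReal_le_ofReal_iff (by positivity)).1 ((h P A ϱ k n ς N f R τ hτ' _ v).trans ?_)
    rw [ENNReal.ofReal_add zero_le_one (by positivity)]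
    exact add_le_add ((mul_le_of_le_one_left' (ENNReal.ofReal_le_one.2
      (kap_le_one n (R.sol.nonneg τ) _))).trans (S.iv2_nuB hj' n hτ' a1 a3))
      (ENNReal.ofReal_le_ofReal (mul_le_mul_of_nonneg_left (by linarith) hK))
  have hi := intervalIntegral.integral_mono_on ht.1 (R.sol.ii_ln' le_rfl ht.1 t x v)
    intervalIntegrable_const hl
  rw [intervalIntegral.integral_const, sub_zero, smul_eq_mul, mul_comm] at hi
  have hb := S.Bc_free k ⟨le_rfl, S.TT_pos.le⟩ ht x v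
  rw [zero_sub] at hb
  have hd : Bc P ϱ k t x v ≤ dat P ϱ k ς (x + pr ((-t) • v), v) :=
    hb.ge.trans (le_add_of_nonneg_right (mul_nonneg R.s0 (G0_pos v).le))
  exact le_trans (mul_le_mul hd (Real.exp_le_exp.2 (neg_le_neg (hi.trans
    (mul_le_mul_of_nonneg_left ht.2 (by positivity))))) (Real.exp_pos _).le
    ((S.Bc_nonneg k t x v).trans hd)) (R.sol.lower ht.1 x v)

theorem ev_lowB (P : Par) (A : ℕ) : Ev P A (fun ϱ k _ _ _ f =>
    ∀ t ∈ Icc 0 (TT P ϱ), ∀ (x : X) (v : V), 99 / 100 * Bc P ϱ k t x v ≤ f t (x, v)) := by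
  obtain ⟨K, -, h⟩ := exists_lowB
  have h1 : Tendsto (fun ϱ => K * TT P ϱ) (𝓝[>] 0) (𝓝 (K * TT P 0)) :=
    (Continuous.tendsto (by unfold TT; fun_prop) 0).mono_left nhdsWithin_le_nhds
  have h2 : ∀ᶠ ϱ in 𝓝[>] (0 : ℝ), K * TT P ϱ ≤ 1 / 100 :=
    h1.eventually (eventually_le_nhds (by simp [TT]))
  refine (Ev.of_rho h2).mono fun ϱ k n ς N f R hK t ht x v => le_trans ?_ (h P A ϱ k n ς N f R t ht x v)
  rw [mul_comm]
  refine mul_le_mul_of_nonneg_left ?_ (R.sm.Bc_nonneg k t x v)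
  linarith [Real.add_one_le_exp (-(K * TT P ϱ))]

theorem ev_kap (P : Par) (A : ℕ) : Ev P A (fun ϱ _ n _ _ f =>
    ∀ s ∈ Icc 0 (TT P ϱ), ∀ y : X, 1 / 2 ≤ kap n (f s) y) := by
  obtain ⟨K, hK, h⟩ := exists_den
  refine (Ev.of_n (p := fun ϱ k n => K * (1 + P.C0 / ar P ϱ (k + 1)) ≤ (n : ℝ)) fun ϱ k _ =>
    tendsto_natCast_atTop_atTop.eventually_ge_atTop _).mono fun ϱ k n ς N f R hn s hs y => ?_
  obtain ⟨C, hC⟩ := R.sol.ub (TT P ϱ)
  have hn0 : (0 : ℝ) < n := by exact_mod_cast R.sol.npos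
  have h1 : ENNReal.ofReal (den (f s) y) ≤ ENNReal.ofReal n := by
    rw [← lintegral_eo (R.sol.meas_t s) (R.sol.nonneg s) (hC s hs)]
    refine le_trans (lintegral_mono fun w => le_mul_of_one_le_left' ?_)
      ((h P A ϱ k n ς N f R s hs y).1.trans (ENNReal.ofReal_le_ofReal (le_trans
        (mul_le_mul_of_nonneg_left (add_le_add_right (R.sm.rbar_le k hs.1 y) 1) (by linarith)) hn)))
    exact ENNReal.one_le_ofReal.2 (le_add_of_nonneg_right (norm_nonneg w))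
  have h2 := (div_le_one hn0).2 ((ENNReal.ofReal_le_ofReal_iff hn0.le).1 h1)
  have h3 : 0 ≤ den (f s) y := integral_nonneg fun v => R.sol.nonneg s _
  exact one_div_le_one_div_of_le (by positivity) (by linarith)

theorem Sm.nuB_le (S : Sm P A ϱ) (k n : ℕ) {s : ℝ} (hs : s ∈ Icc 0 (TT P ϱ)) (y : X) (v : V) :
    nuB P ϱ k n s y v ≤ ENNReal.ofReal (208 * n * P.C0 / ar P ϱ (k + 1)) := by
  refine (Lo_kN_le n (iv2_mB k s y) v).trans ?_
  split_ifs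
  · refine (mul_le_mul_right (S.int_B k hs y) _).trans ?_
    rw [← ENNReal.ofReal_mul (by positivity), mul_div_assoc]
    refine ENNReal.ofReal_le_ofReal ((le_of_eq (by ring)).trans
      (mul_le_mul_of_nonneg_left (S.rbar_le k hs.1 y) (by positivity)))
  · exact zero_le

theorem Sm.nuB_nonprod (S : Sm P A ϱ) (k n : ℕ) {s : ℝ} (hs : s ∈ Icc 0 (TT P ϱ)) {y : X} {v : V}
    (h : ¬ Prod1 P ϱ k s y v) :
    nuB P ϱ k n s y v ≤ ENNReal.ofReal (208 * P.c * rbar P ϱ k s y) := by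
  have hl := S.ok.lam0
  have hc := S.ok.lamc
  refine (iv2_Lo (isKer_kN n) (iv2_mB k s y) v (by linarith : 0 ≤ P.c + P.c) (fun w hw => ?_)
    (S.int_B k hs y)).trans (le_of_eq (congrArg _ (by ring)))
  obtain ⟨j, hj, h1, h2⟩ := S.iv2_coldB hs hw
  have := iv2_near (sg j) y (by linarith) (S.et_pos j).le
    (not_le.1 fun e => h ⟨j, hj, h1, e⟩).le h2
  linarith [S.et_le_lam j]

theorem nuB_full (hV : ValP P cS θ) (S : Sm P A ϱ) {n : ℕ} (hn1 : 1 ≤ n)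
    (hn : 13 / (n : ℝ) ≤ cS * P.c / 4) {j k : ℕ} (hj : j ≤ k) {s : ℝ} (hs : s ∈ Icc 0 (TT P ϱ))
    {y : X} (h : Full P ϱ j s y) {v : V} {b : ℝ} (hb : P.c ≤ b) (hW : b ^ 2 ≤ Wf P (sg j) y v)
    (hE : ‖v‖ ^ 2 + 4 ≤ (n : ℝ) ^ 2) :
    ENNReal.ofReal (cS / 4 * b * (P.C0 / rr y)) ≤ nuB P ϱ k n s y v := by
  have hl := S.ok.lam0
  have hc := S.ok.lamc
  have hcS := hV.cS0
  have hL : Lay P ϱ j s y := S.FullR_lay h
  have hr : rr y ≠ 0 := ((S.ar_pos _).trans_le (S.Lay_rr hs hL).1).ne'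
  have hb0 : 0 ≤ b := by linarith
  rw [nuB, Lo_eq (isKer_kN n) (iv2_mB k s y), ENNReal.ofReal_mul (by positivity)]
  refine (mul_le_mul_right (S.int_B_lower hj hs h) _).trans ?_
  rw [← lintegral_const_mul _ (iv2_mB k s y)]
  refine lintegral_mono fun w => ?_
  by_cases hw : eB P ϱ k s y w = 0
  · simp [hw]
  have hC := S.iv2_coldB hs hw
  have h1 := (S.Cold_iff hj hL w).1 hC
  have h2 := (S.Cold_norm hC).1
  rw [Wf_eq _ hr] at hW h1
  have h3 := (sq_le_sq₀ hb0 (norm_nonneg _)).1 hW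
  have h4 := (sq_le_sq₀ (norm_nonneg _) (S.et_pos j).le).1 h1
  have h5 := norm_sub_le_norm_sub_add_norm_sub v w (uu P (sg j) y)
  have h6 : b / 2 ≤ ‖v - w‖ := by linarith [S.et_le_lam j]
  rw [mul_comm]
  refine mul_le_mul_right (le_trans (ENNReal.ofReal_le_ofReal (by nlinarith))
    (kN_lower hV hn1 hn (by linarith) (by nlinarith [norm_nonneg w]))) _

theorem Sm.nuB_le_nuP (S : Sm P A ϱ) (k n : ℕ) {f : ℝ → Om → ℝ} {s : ℝ}
    (hs : s ∈ Icc 0 (TT P ϱ)) {y : X} {v : V} (h : Prod1 P ϱ k s y v)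
    (hB : ∀ w, 99 / 100 * Bc P ϱ k s y w ≤ f s (y, w)) :
    ENNReal.ofReal (99 / 100) * nuB P ϱ k n s y v ≤ nuP P ϱ k n f s y v := by
  rw [nuB, ← Lo_const_mul (isKer_kN n) (iv2_mB k s y)]
  refine Lo_mono (fun _ _ _ => le_rfl) (fun w => ?_) v
  by_cases hw : eB P ϱ k s y w = 0
  · simp [hw]
  obtain ⟨j, hj, h1, h2⟩ := h
  rw [if_pos ⟨j, hj, h1, (S.Cold_iff hj h1 w).1 (S.iv2_coldB hs hw), h2⟩, eB,
    ← ENNReal.ofReal_mul (by norm_num)]
  exact ENNReal.ofReal_le_ofReal (hB w)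

end Vale.Agent.P140
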