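import Vale.Agent.P140.IGeo
import Vale.Agent.P140.IV3

/-! A fast particle crosses many full layers of each sign. -/

namespace Vale.Agent.P140

open MeasureTheory Set Filter Topology
open scoped ENNReal

variable {P : Par} {A : ℕ} {ϱ : ℝ}

/- PLAN vol_band: on the set 0 ≤ R(s)² - (α + lam s)² ≤ 2 L R, a quadratic in s with leading coefficient ‖u‖² - lam² ≥ 3‖u‖²/4;
volume_quad. exists_range: y s = ‖x + (s-t) u‖ - lam s is (‖u‖+lam)-Lipschitz; α, β = min, max of y on the compact set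
G = {s ∈ [t,t1] | τ ≤ y s} ∋ t; vol_band with L = β - α; Icc α β ⊆ y '' [t,t1] (intermediate value);
LipschitzOnWith.hausdorffMeasure_image_le + hausdorffMeasure_real.
vol_full: let S± be the parts of [α,β] in layers of sign ±σ; they cover [α,β] (exists_LayR_iff). y ↦ y/th maps S₋ ∩ [α, th β] into S₊
(j ≥ 1 there since y < a_1), so vol S₊ ≥ vol S₋ - (1-th) β. LayR j minus FullR j has measure ≤ 4 gp j, only layers with a_j ≤ 2β
matter, ∑ 4 a_j³ ≤ 16 β² · 2β/(1-th) (sum_ar').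
exists_window: window with x̃ = xt x, u = vb v, τ = ar (k+1); xt_add lifts the trajectory (rr x + (s-t)‖vb v‖ ≤ 4 rr x < 1/2);
t ≤ rr x / lam ≤ T/4; ϱ²/(1-th) ≤ θ²/10^18 by rho_le; 1/34 - 1.0006/512 - 1/1000 ≥ 1/128. -/

theorem vol_band {x u : V} {lam : ℝ} (hlam : 0 < lam) (hu : 2 * lam ≤ ‖u‖) {t t1 α L R : ℝ}
    (ht : 0 ≤ t) (hα : 0 ≤ α) (hL : 0 ≤ L) (hR0 : 0 ≤ R)
    (hR : ∀ s ∈ Icc t t1, ‖x + (s - t) • u‖ ≤ R) :
    volume {s | s ∈ Icc t t1 ∧ α ≤ ‖x + (s - t) • u‖ - lam * s ∧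
        ‖x + (s - t) • u‖ - lam * s ≤ α + L} ≤
      ENNReal.ofReal (4 * Real.sqrt (L * R) / ‖u‖) := by
  have hu0 : 0 < ‖u‖ := by linarith
  have e1 : 4 * Real.sqrt (L * R) / ‖u‖ = 2 * (2 * Real.sqrt (L * R) / ‖u‖) := by ring
  have e2 : ‖u‖ ^ 2 / 2 * (2 * Real.sqrt (L * R) / ‖u‖) ^ 2 = 2 * (L * R) := by
    rw [div_pow, mul_pow, Real.sq_sqrt (by positivity)]
    field_simp
  have h1 : ‖u‖ ^ 2 / 2 ≤ |‖u‖ ^ 2 - lam ^ 2| := le_trans (by nlinarith) (le_abs_self _)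
  rw [e1]
  refine le_trans (measure_mono ?_) (Sm.igeo_quad (2 * inner ℝ x u - 2 * t * ‖u‖ ^ 2 - 2 * α * lam)
    (‖x‖ ^ 2 - 2 * t * inner ℝ x u + t ^ 2 * ‖u‖ ^ 2 - α ^ 2) (by positivity) h1 (by positivity))
  rintro s ⟨hs, h2, h3⟩
  have e3 : ‖x + (s - t) • u‖ ^ 2 = ‖x‖ ^ 2 + 2 * ((s - t) * inner ℝ x u) + (s - t) ^ 2 * ‖u‖ ^ 2 := by
    rw [norm_add_sq_real, real_inner_smul_right, norm_smul, mul_pow, Real.norm_eq_abs, sq_abs]
  have e4 : (‖u‖ ^ 2 - lam ^ 2) * s ^ 2 + (2 * inner ℝ x u - 2 * t * ‖u‖ ^ 2 - 2 * α * lam) * s +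
      (‖x‖ ^ 2 - 2 * t * inner ℝ x u + t ^ 2 * ‖u‖ ^ 2 - α ^ 2) =
      (‖x + (s - t) • u‖ - lam * s - α) * (‖x + (s - t) • u‖ + lam * s + α) := by
    linear_combination -e3
  have h4 : 0 ≤ lam * s := mul_nonneg hlam.le (ht.trans hs.1)
  have h5 := hR s hs
  rw [mem_ofPred_eq, e2, e4]
  refine ⟨mul_nonneg (by linarith) (by positivity), ?_⟩
  have h6 := mul_le_mul (show ‖x + (s - t) • u‖ - lam * s - α ≤ L by linarith)
    (show ‖x + (s - t) • u‖ + lam * s + α ≤ 2 * R by linarith) (by positivity) hL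
  linarith

theorem exists_range {x u : V} {lam τ t t1 θ : ℝ} (hlam : 0 < lam) (hτ : 0 < τ) (ht : 0 ≤ t)
    (hu : 2 * lam ≤ ‖u‖) (h0 : τ + lam * t ≤ ‖x‖) (hθ0 : 0 < θ) (htt : t ≤ t1)
    (hG : volume {s | s ∈ Icc t t1 ∧ τ + lam * s ≤ ‖x + (s - t) • u‖} =
      ENNReal.ofReal (θ * ‖x‖ / ‖u‖))
    (hR : ∀ s ∈ Icc t t1, ‖x + (s - t) • u‖ ≤ 10006 / 10000 * ‖x‖) :
    ∃ α β : ℝ, τ ≤ α ∧ β ≤ 10006 / 10000 * ‖x‖ ∧ θ ^ 2 * ‖x‖ / 17 ≤ β - α ∧
      ∀ Z : Set ℝ, volume (Z ∩ Icc α β) ≤ ENNReal.ofReal (‖u‖ + lam) *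
        volume {s | s ∈ Icc t t1 ∧ ‖x + (s - t) • u‖ - lam * s ∈ Z} := by
  have hu0 : 0 < ‖u‖ := by linarith
  have hlt : 0 ≤ lam * t := mul_nonneg hlam.le ht
  have hx0 : 0 < ‖x‖ := by linarith
  let y : ℝ → ℝ := fun s => ‖x + (s - t) • u‖ - lam * s
  have hy : Continuous y := by fun_prop
  have hc : IsCompact (Icc t t1 ∩ {s | τ ≤ y s}) :=
    isCompact_Icc.inter_right (isClosed_le continuous_const hy)
  have hne : (Icc t t1 ∩ {s | τ ≤ y s}).Nonempty :=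
    ⟨t, ⟨le_rfl, htt⟩, by simp only [y, mem_ofPred_eq, sub_self, zero_smul, add_zero]; linarith⟩
  obtain ⟨s1, hs1, h1⟩ := hc.exists_isMinOn hne hy.continuousOn
  obtain ⟨s2, hs2, h2⟩ := hc.exists_isMaxOn hne hy.continuousOn
  have h12 : y s1 ≤ y s2 := h2 hs1
  have h3 : τ ≤ y s1 := hs1.2
  refine ⟨y s1, y s2, h3, ?_, ?_, fun Z => ?_⟩
  · have h4 := hR s2 hs2.1
    have h5 : 0 ≤ lam * s2 := mul_nonneg hlam.le (ht.trans hs2.1.1)
    simp only [y]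
    linarith
  · have h4 := vol_band hlam hu ht (hτ.le.trans h3) (sub_nonneg.2 h12) (by positivity) hR
    have h5 : ENNReal.ofReal (θ * ‖x‖ / ‖u‖) ≤
        ENNReal.ofReal (4 * Real.sqrt ((y s2 - y s1) * (10006 / 10000 * ‖x‖)) / ‖u‖) := by
      rw [← hG]
      refine le_trans (measure_mono ?_) h4
      rintro s ⟨hs, h6⟩
      have h7 : s ∈ Icc t t1 ∩ {s | τ ≤ y s} := ⟨hs, le_sub_iff_add_le.2 h6⟩
      have h8 : y s1 ≤ y s := h1 h7
      have h9 : y s ≤ y s2 := h2 h7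
      exact ⟨hs, h8, by linarith⟩
    rw [ENNReal.ofReal_le_ofReal_iff (by positivity), div_le_div_iff_of_pos_right hu0] at h5
    have h6 := pow_le_pow_left₀ (by positivity) h5 2
    rw [mul_pow, mul_pow, Real.sq_sqrt (mul_nonneg (sub_nonneg.2 h12) (by positivity))] at h6
    have h7 : ‖x‖ * (θ ^ 2 * ‖x‖ / 17) ≤ ‖x‖ * (y s2 - y s1) := by
      nlinarith [mul_nonneg hx0.le (sub_nonneg.2 h12)]
    exact le_of_mul_le_mul_left h7 hx0
  · have hL : LipschitzWith (Real.toNNReal (‖u‖ + lam)) y := by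
      refine LipschitzWith.of_dist_le' fun a b => ?_
      have h4 := abs_norm_sub_norm_le (x + (a - t) • u) (x + (b - t) • u)
      have e : x + (a - t) • u - (x + (b - t) • u) = (a - b) • u := by
        rw [add_sub_add_left_eq_sub, ← sub_smul, sub_sub_sub_cancel_right]
      rw [e, norm_smul, Real.norm_eq_abs] at h4
      have e2 : y a - y b = ‖x + (a - t) • u‖ - ‖x + (b - t) • u‖ - lam * (a - b) := by
        simp only [y]
        ring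
      rw [Real.dist_eq, Real.dist_eq, e2]
      refine (abs_sub _ _).trans ?_
      rw [abs_mul, abs_of_pos hlam]
      linarith
    have h4 := hL.hausdorffMeasure_image_le zero_le_one {s | s ∈ Icc t t1 ∧ y s ∈ Z}
    rw [hausdorffMeasure_real, ENNReal.rpow_one] at h4
    refine le_trans (measure_mono ?_) h4
    rintro z ⟨hz, hz'⟩
    obtain ⟨s, hs, rfl⟩ := isPreconnected_Icc.intermediate_value hs1.1 hs2.1 hy.continuousOn hz'
    exact ⟨s, ⟨hs, hz⟩, rfl⟩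

theorem Sm.vol_full (S : Sm P A ϱ) (k : ℕ) {σ : ℝ} (hσ : σ = 1 ∨ σ = -1) {α β : ℝ}
    (hα : ar P ϱ (k + 1) ≤ α) (hαβ : α ≤ β) (hβ : β ≤ ϱ / 2) :
    ENNReal.ofReal ((β - α) / 2 - (1 - P.th) * β - 32 * β ^ 3 / (1 - P.th)) ≤
      volume ({y | ∃ j ≤ k, FullR P ϱ j y ∧ sg j = σ} ∩ Icc α β) := by
  have hth := S.ibas_th
  have hth1 : 0 < 1 - P.th := sub_pos.2 S.ok.th1
  have hα0 : 0 < α := (S.ar_pos _).trans_le hα
  have hβ0 : 0 < β := hα0.trans_le hαβ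
  have hϱ := S.pos
  set F := {y | ∃ j ≤ k, FullR P ϱ j y ∧ sg j = σ} ∩ Icc α β with hF
  set G := {y | ∃ j ≤ k, LayR P ϱ j y ∧ sg j = σ} ∩ Icc α β with hG
  have h1 : Icc α β ⊆ (G ∪ (· * P.th⁻¹) ⁻¹' G) ∪ Icc (P.th * β) β := by
    intro y hy
    by_cases h : P.th * β ≤ y
    · exact Or.inr ⟨h, hy.2⟩
    obtain ⟨j, hj, hl⟩ := (S.exists_LayR_iff k y).2 ⟨hα.trans hy.1, by linarith [hy.2]⟩
    by_cases h' : sg j = σ
    · exact Or.inl (Or.inl ⟨⟨j, hj, hl, h'⟩, hy⟩)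
    refine Or.inl (Or.inr ?_)
    rcases j with _ | i
    · have h2 := hl.1
      rw [ar_succ, ar_zero] at h2
      nlinarith
    have h2 := hl.1
    have h3 := hl.2
    rw [ar_succ] at h2 h3
    refine ⟨⟨i, by omega, ⟨?_, ?_⟩, ?_⟩, ?_, ?_⟩
    · exact (le_mul_inv_iff₀ hth).2 h2
    · exact (mul_inv_lt_iff₀ hth).2 h3
    · rw [sg_succ] at h'
      rcases sg_cases i with h5 | h5 <;> rw [h5] at h' ⊢ <;> rcases hσ with h4 | h4 <;>
        rw [h4] at h' ⊢ <;> simp at h'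
    · exact (le_mul_inv_iff₀ hth).2 (by nlinarith [hy.1])
    · exact (mul_inv_le_iff₀ hth).2 (by linarith)
  have h2 : volume ((· * P.th⁻¹) ⁻¹' G) ≤ volume G := by
    rw [Real.volume_preimage_mul_right (inv_ne_zero hth.ne'), inv_inv, abs_of_pos hth]
    exact mul_le_of_le_one_left' (ENNReal.ofReal_le_one.2 S.ok.th1.le)
  let J := (Finset.range (k + 1)).filter fun j => ar P ϱ j ≤ 2 * β
  have h3 : G ⊆ F ∪ ⋃ j ∈ J, Icc (ar P ϱ (j + 1)) (ar P ϱ (j + 1) + 2 * gp P ϱ j) ∪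
      Icc (ar P ϱ j - 2 * gp P ϱ j) (ar P ϱ j) := by
    rintro y ⟨⟨j, hj, hl, h'⟩, hy⟩
    by_cases h : FullR P ϱ j y
    · exact Or.inl ⟨⟨j, hj, h, h'⟩, hy⟩
    refine Or.inr (mem_iUnion₂.2 ⟨j, Finset.mem_filter.2 ⟨Finset.mem_range.2 (by omega),
      by linarith [S.ar_le_two j, hl.1, hy.2]⟩, ?_⟩)
    rcases not_and_or.1 h with h | h
    · exact Or.inl ⟨hl.1, (not_le.1 h).le⟩
    · exact Or.inr ⟨(not_le.1 h).le, hl.2.le⟩
  have h4 : volume G ≤ volume F + ENNReal.ofReal (32 * β ^ 3 / (1 - P.th)) := by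
    refine (measure_mono h3).trans ((measure_union_le _ _).trans (add_le_add le_rfl ?_))
    refine (measure_biUnion_finset_le _ _).trans ?_
    have h5 : ∀ j ∈ J, volume (Icc (ar P ϱ (j + 1)) (ar P ϱ (j + 1) + 2 * gp P ϱ j) ∪
        Icc (ar P ϱ j - 2 * gp P ϱ j) (ar P ϱ j)) ≤ ENNReal.ofReal (16 * β ^ 2 * ar P ϱ j) := by
      intro j hj
      have h6 := S.gp_pos j
      have h7 := S.ar_pos j
      have h8 := pow_le_pow_left₀ h7.le (Finset.mem_filter.1 hj).2 2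
      refine (measure_union_le _ _).trans ?_
      rw [Real.volume_Icc, Real.volume_Icc, ← ENNReal.ofReal_add (by linarith) (by linarith)]
      refine ENNReal.ofReal_le_ofReal ?_
      rw [gp]
      nlinarith [mul_le_mul_of_nonneg_right h8 h7.le]
    refine (Finset.sum_le_sum h5).trans ?_
    rw [← ENNReal.ofReal_sum_of_nonneg fun j _ => mul_nonneg (by positivity) (S.ar_pos j).le,
      ← Finset.mul_sum]
    refine ENNReal.ofReal_le_ofReal ((mul_le_mul_of_nonneg_left (S.sum_ar' (b := 2 * β)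
      (by positivity) J fun j hj => (Finset.mem_filter.1 hj).2) (by positivity)).trans_eq ?_)
    ring
  have hfin : volume F ≠ ⊤ := ((measure_mono inter_subset_right).trans_lt measure_Icc_lt_top).ne
  obtain ⟨w, hw0, hw⟩ : ∃ w : ℝ, 0 ≤ w ∧ volume F = ENNReal.ofReal w :=
    ⟨_, ENNReal.toReal_nonneg, (ENNReal.ofReal_toReal hfin).symm⟩
  have h6 : 0 ≤ 32 * β ^ 3 / (1 - P.th) := by positivity
  have h7 : 0 ≤ (1 - P.th) * β := by positivity
  rw [hw, ← ENNReal.ofReal_add hw0 h6] at h4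
  have h5 := (measure_mono (μ := volume) h1).trans ((measure_union_le _ _).trans
    (add_le_add ((measure_union_le _ _).trans (add_le_add h4 (h2.trans h4))) le_rfl))
  rw [Real.volume_Icc, Real.volume_Icc, ← ENNReal.ofReal_add (by linarith) (by linarith),
    ← ENNReal.ofReal_add (by linarith) (by linarith),
    ENNReal.ofReal_le_ofReal_iff (by linarith)] at h5
  rw [hw]
  exact ENNReal.ofReal_le_ofReal (by linarith)

theorem Sm.exists_window (S : Sm P A ϱ) (hL : 8000 ≤ P.Lam) {θ : ℝ} (hθ0 : 0 < θ)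
    (hθ1 : θ ≤ 1 / 4000) (hth : 1 - P.th ≤ θ ^ 2 / 512) (k : ℕ) {t : ℝ} (ht : 0 ≤ t) {x : X}
    {v : V} (hv : P.Lam * P.lam ≤ ‖vb v‖) (hy : ar P ϱ (k + 1) ≤ y0 P t x) (hr : rr x ≤ ϱ / 4) :
    ∃ t1 : ℝ, t ≤ t1 ∧ t1 ≤ TT P ϱ ∧ (t1 - t) * ‖vb v‖ ≤ 3 * rr x ∧
      (∀ s ∈ Icc t t1, rr (x + pr ((s - t) • v)) ≤ 10006 / 10000 * rr x ∧
        (InL P ϱ k s (x + pr ((s - t) • v)) → rr x / 2 ≤ rr (x + pr ((s - t) • v)))) ∧
      volume {s | s ∈ Icc t t1 ∧ InL P ϱ k s (x + pr ((s - t) • v))} ≤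
        ENNReal.ofReal (θ * rr x / ‖vb v‖) ∧
      ∀ σ : ℝ, σ = 1 ∨ σ = -1 →
        ENNReal.ofReal (θ ^ 2 * rr x / (128 * (‖vb v‖ + P.lam))) ≤
          volume {s | s ∈ Icc t t1 ∧ ∃ j ≤ k, Full P ϱ j s (x + pr ((s - t) • v)) ∧ sg j = σ} := by
  have hl := S.ok.lam0
  have hϱ := S.pos
  have hth1 : 0 < 1 - P.th := sub_pos.2 S.ok.th1
  have hu : 8000 * P.lam ≤ ‖vb v‖ := (mul_le_mul_of_nonneg_right hL hl.le).trans hv
  have hτ := S.ar_pos (k + 1)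
  have h0 : ar P ϱ (k + 1) + P.lam * t ≤ ‖xt x‖ := le_sub_iff_add_le.1 hy
  have hlt : 0 ≤ P.lam * t := mul_nonneg hl.le ht
  obtain ⟨t1, h1, h2, h3, h4⟩ := window hl hτ ht hu h0 hθ0 hθ1
  obtain ⟨α, β, a1, a2, a3, a4⟩ :=
    exists_range hl hτ ht (by linarith) h0 hθ0 h1 h3 fun s hs => (h4 s hs).1
  change _ ≤ rr x at h0
  change _ ≤ 3 * rr x at h2
  change β ≤ _ * rr x at a2
  change _ * rr x / 17 ≤ _ at a3
  have hx : 0 < rr x := by linarith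
  have e : ∀ s ∈ Icc t t1, rr (x + pr ((s - t) • v)) = ‖xt x + (s - t) • vb v‖ := by
    intro s hs
    have h5 : |s - t| * ‖vb v‖ ≤ (t1 - t) * ‖vb v‖ := by
      rw [abs_of_nonneg (sub_nonneg.2 hs.1)]
      exact mul_le_mul_of_nonneg_right (by linarith [hs.2]) (norm_nonneg _)
    rw [rr, igeo_xt (by linarith [S.rho_le'])]
  have e2 : ∀ s ∈ Icc t t1, InL P ϱ k s (x + pr ((s - t) • v)) →
      ar P ϱ (k + 1) + P.lam * s ≤ ‖xt x + (s - t) • vb v‖ := fun s hs h => by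
    rw [← e s hs]
    exact le_sub_iff_add_le.1 ((S.InL_iff k s _).1 h).1
  refine ⟨t1, h1, ?_, h2, fun s hs => ?_, ?_, fun σ hσ => ?_⟩
  · rw [TT, le_div_iff₀ hl]
    nlinarith [mul_le_mul_of_nonneg_left hu (sub_nonneg.2 h1)]
  · rw [e s hs]
    exact ⟨(h4 s hs).1, fun h => (h4 s hs).2 (e2 s hs h)⟩
  · refine le_trans (measure_mono fun s hs => ?_) h3.le
    exact ⟨hs.1, e2 s hs.1 hs.2⟩
  · have hθ2 : 0 < θ ^ 2 * rr x := by positivity
    have b1 := (S.vol_full k hσ a1 (by linarith) (by linarith)).trans (a4 _)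
    have hβ : 0 < β := by linarith
    have b2 : ϱ ≤ (1 - P.th) / 10 ^ 9 := by
      refine S.rho_le.trans (div_le_div_of_nonneg_right ?_ (by norm_num))
      exact mul_le_of_le_one_left hth1.le (pow_le_one₀ hl.le (by linarith [S.ok.lam_le]))
    have b3 : 32 * β ^ 3 / (1 - P.th) ≤ (1 - P.th) * β := by
      have b4 : β ≤ (1 - P.th) / 8 := by linarith
      have b5 := pow_le_pow_left₀ hβ.le b4 2
      rw [div_le_iff₀ hth1]
      nlinarith [mul_le_mul_of_nonneg_right b5 hβ.le, mul_nonneg (sq_nonneg (1 - P.th)) hβ.le]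
    have b4 : (1 - P.th) * β ≤ θ ^ 2 / 512 * (10006 / 10000 * rr x) :=
      mul_le_mul hth a2 hβ.le (by positivity)
    have b5 : θ ^ 2 * rr x / 128 ≤ (β - α) / 2 - (1 - P.th) * β - 32 * β ^ 3 / (1 - P.th) := by
      linarith
    rw [← div_div, ENNReal.ofReal_div_of_pos (by positivity)]
    refine ENNReal.div_le_of_le_mul' (((ENNReal.ofReal_le_ofReal b5).trans b1).trans
      (mul_le_mul_right (measure_mono ?_) _))
    rintro s ⟨hs, j, hj, h5, h6⟩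
    refine ⟨hs, j, hj, ?_, h6⟩
    rw [Full, y0, e s hs]
    exact h5

end Vale.Agent.P140
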