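import Vale.Agent.P140.Core

/-! Collision kinematics. -/

namespace Vale.Agent.P140

open MeasureTheory Set Filter Topology
open scoped ENNReal

theorem inner_self_Kin (ω : S2) : inner ℝ (ω : V) (ω : V) = 1 := by
  rw [real_inner_self_eq_norm_sq, norm_eq_of_mem_sphere, one_pow]

theorem aa_swap (v w : V) (ω : S2) : aa w v ω = -aa v w ω := by
  unfold aa
  rw [← inner_neg_left, neg_sub]

theorem vp_swap (v w : V) (ω : S2) : vp w v ω = vq v w ω := by
  unfold vp vq
  rw [aa_swap, neg_smul, sub_neg_eq_add]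

theorem vq_swap (v w : V) (ω : S2) : vq w v ω = vp v w ω := by
  unfold vp vq
  rw [aa_swap, neg_smul, ← sub_eq_add_neg]

theorem aa_coll (v w : V) (ω : S2) : aa (vp v w ω) (vq v w ω) ω = -aa v w ω := by
  have e : vp v w ω - vq v w ω = (v - w) - (2 * aa v w ω) • (ω : V) := by
    unfold vp vq
    module
  have e2 : aa (vp v w ω) (vq v w ω) ω = inner ℝ (vp v w ω - vq v w ω) (ω : V) := rfl
  have e3 : inner ℝ (v - w) (ω : V) = aa v w ω := rfl
  rw [e2, e, inner_sub_left, real_inner_smul_left, inner_self_Kin, e3]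
  ring

theorem vp_coll (v w : V) (ω : S2) : vp (vp v w ω) (vq v w ω) ω = v := by
  have e : vp (vp v w ω) (vq v w ω) ω =
      vp v w ω - aa (vp v w ω) (vq v w ω) ω • (ω : V) := rfl
  rw [e, aa_coll, vp, neg_smul, sub_neg_eq_add, sub_add_cancel]

theorem vq_coll (v w : V) (ω : S2) : vq (vp v w ω) (vq v w ω) ω = w := by
  have e : vq (vp v w ω) (vq v w ω) ω =
      vq v w ω + aa (vp v w ω) (vq v w ω) ω • (ω : V) := rfl
  rw [e, aa_coll, vq, neg_smul, add_neg_cancel_right]

theorem coll_coll (p : V × V × S2) : coll (coll p) = p := by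
  obtain ⟨v, w, ω⟩ := p
  simp only [coll, vp_coll, vq_coll]

theorem vp_add_vq (v w : V) (ω : S2) : vp v w ω + vq v w ω = v + w := by
  unfold vp vq
  abel

theorem energy_shift (u v w : V) (ω : S2) :
    ‖vp v w ω - u‖ ^ 2 + ‖vq v w ω - u‖ ^ 2 = ‖v - u‖ ^ 2 + ‖w - u‖ ^ 2 := by
  have e1 : vp v w ω - u = (v - u) - aa v w ω • (ω : V) := by
    unfold vp
    abel
  have e2 : vq v w ω - u = (w - u) + aa v w ω • (ω : V) := by
    unfold vq
    abel
  have e3 : aa v w ω = inner ℝ (v - u) (ω : V) - inner ℝ (w - u) (ω : V) := by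
    rw [← inner_sub_left, sub_sub_sub_cancel_right]
    rfl
  have e4 : ‖aa v w ω • (ω : V)‖ ^ 2 = aa v w ω ^ 2 := by
    rw [norm_smul, norm_eq_of_mem_sphere, mul_one, Real.norm_eq_abs, sq_abs]
  rw [e1, e2, norm_sub_sq_real, norm_add_sq_real, e4, real_inner_smul_right,
    real_inner_smul_right, e3]
  ring

theorem energy_coll (v w : V) (ω : S2) :
    ‖vp v w ω‖ ^ 2 + ‖vq v w ω‖ ^ 2 = ‖v‖ ^ 2 + ‖w‖ ^ 2 := by
  simpa using energy_shift 0 v w ω

theorem abs_aa_le (v w : V) (ω : S2) : |aa v w ω| ≤ ‖v - w‖ := by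
  have h := abs_real_inner_le_norm (v - w) (ω : V)
  rwa [norm_eq_of_mem_sphere, mul_one] at h

theorem norm_vp_le (v w : V) (ω : S2) : ‖vp v w ω‖ ≤ ‖v‖ + ‖w‖ := by
  refine le_of_sq_le_sq ?_ (by positivity)
  nlinarith [energy_coll v w ω, sq_nonneg ‖vq v w ω‖, mul_nonneg (norm_nonneg v) (norm_nonneg w)]

theorem norm_vq_le (v w : V) (ω : S2) : ‖vq v w ω‖ ≤ ‖v‖ + ‖w‖ := by
  refine le_of_sq_le_sq ?_ (by positivity)
  nlinarith [energy_coll v w ω, sq_nonneg ‖vp v w ω‖, mul_nonneg (norm_nonneg v) (norm_nonneg w)]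

@[fun_prop]
theorem continuous_aa {α : Type*} [TopologicalSpace α] {v w : α → V} {ω : α → S2}
    (hv : Continuous v) (hw : Continuous w) (hω : Continuous ω) :
    Continuous (fun a => aa (v a) (w a) (ω a)) := by
  exact (hv.sub hw).inner (continuous_subtype_val.comp hω)

@[fun_prop]
theorem continuous_vp {α : Type*} [TopologicalSpace α] {v w : α → V} {ω : α → S2}
    (hv : Continuous v) (hw : Continuous w) (hω : Continuous ω) :
    Continuous (fun a => vp (v a) (w a) (ω a)) := by
  exact hv.sub ((continuous_aa hv hw hω).smul (continuous_subtype_val.comp hω))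

@[fun_prop]
theorem continuous_vq {α : Type*} [TopologicalSpace α] {v w : α → V} {ω : α → S2}
    (hv : Continuous v) (hw : Continuous w) (hω : Continuous ω) :
    Continuous (fun a => vq (v a) (w a) (ω a)) := by
  exact hw.add ((continuous_aa hv hw hω).smul (continuous_subtype_val.comp hω))

@[fun_prop]
theorem measurable_aa {α : Type*} [MeasurableSpace α] {v w : α → V} {ω : α → S2}
    (hv : Measurable v) (hw : Measurable w) (hω : Measurable ω) :
    Measurable (fun a => aa (v a) (w a) (ω a)) := by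
  exact (hv.sub hw).inner (measurable_subtype_coe.comp hω)

@[fun_prop]
theorem measurable_vp {α : Type*} [MeasurableSpace α] {v w : α → V} {ω : α → S2}
    (hv : Measurable v) (hw : Measurable w) (hω : Measurable ω) :
    Measurable (fun a => vp (v a) (w a) (ω a)) := by
  exact hv.sub ((measurable_aa hv hw hω).smul (measurable_subtype_coe.comp hω))

@[fun_prop]
theorem measurable_vq {α : Type*} [MeasurableSpace α] {v w : α → V} {ω : α → S2}
    (hv : Measurable v) (hw : Measurable w) (hω : Measurable ω) :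
    Measurable (fun a => vq (v a) (w a) (ω a)) := by
  exact hw.add ((measurable_aa hv hw hω).smul (measurable_subtype_coe.comp hω))

theorem measurable_coll : Measurable coll := by
  unfold coll
  fun_prop

instance isFiniteMeasure_sig : IsFiniteMeasure sig := by
  unfold sig; infer_instance

instance sFinite_prod_sig : SFinite ((volume : Measure V).prod sig) := Measure.prod.instSFinite

instance sFinite_prod3_sig : SFinite ((volume : Measure V).prod ((volume : Measure V).prod sig)) :=
  Measure.prod.instSFinite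

/-- the sphere has area `4π ≤ 13` -/
theorem sig_univ_le : sig univ ≤ 13 := by
  unfold sig
  rw [Measure.toSphere_apply_univ, EuclideanSpace.volume_ball_fin_three, finrank_euclideanSpace,
    Fintype.card_fin, ENNReal.ofReal_one, one_pow, one_mul, ← ENNReal.ofReal_natCast,
    ← ENNReal.ofReal_mul (Nat.cast_nonneg _), ← ENNReal.ofReal_ofNat]
  refine ENNReal.ofReal_le_ofReal ?_
  have := Real.pi_lt_d2
  push_cast
  linarith

theorem isKer_kI : IsKer kI := by
  refine ⟨?_, fun _ _ _ => le_rfl, fun v w ω => ?_, fun v w ω => ?_⟩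
  · unfold kI
    fun_prop
  · unfold kI
    rw [aa_swap, abs_neg]
  · unfold kI
    rw [aa_coll, abs_neg]

theorem isKer_kN (n : ℕ) : IsKer (kN n) := by
  refine ⟨?_, fun v w ω => ?_, fun v w ω => ?_, fun v w ω => ?_⟩
  · unfold kN
    refine Measurable.ite (MeasurableSet.inter ?_ ?_) (by fun_prop) measurable_const
    · exact measurableSet_le (f := fun p : V × V × S2 => ‖p.1‖ ^ 2 + ‖p.2.1‖ ^ 2) (by fun_prop)
        measurable_const
    · exact measurableSet_le (g := fun p : V × V × S2 => |aa p.1 p.2.1 p.2.2|) measurable_const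
        (by fun_prop)
  · unfold kN kI
    split_ifs
    · exact le_rfl
    · exact zero_le
  · unfold kN
    rw [aa_swap, abs_neg, add_comm]
  · unfold kN
    rw [aa_coll, abs_neg, energy_coll]

theorem kN_eventually (v w : V) (ω : S2) : ∀ᶠ n in atTop, kN n v w ω = kI v w ω := by
  rcases (abs_nonneg (aa v w ω)).eq_or_lt with h | h
  · refine Eventually.of_forall fun n => ?_
    unfold kN kI
    rw [← h, ENNReal.ofReal_zero, ite_self]
  · have h1 : ∀ᶠ n : ℕ in atTop, ‖v‖ ^ 2 + ‖w‖ ^ 2 ≤ (n : ℝ) ^ 2 :=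
      ((tendsto_pow_atTop two_ne_zero).comp tendsto_natCast_atTop_atTop).eventually_ge_atTop _
    have h2 : ∀ᶠ n : ℕ in atTop, 1 / (n : ℝ) ≤ |aa v w ω| :=
      (tendsto_one_div_atTop_nhds_zero_nat (𝕜 := ℝ)).eventually (ge_mem_nhds h)
    filter_upwards [h1, h2] with n a b
    unfold kN kI
    rw [if_pos ⟨a, b⟩]

theorem IsKer.measurable_comp {b : V → V → S2 → ℝ≥0∞} (hb : IsKer b) {α : Type*}
    [MeasurableSpace α] {v w : α → V} {ω : α → S2}
    (hv : Measurable v) (hw : Measurable w) (hω : Measurable ω) :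
    Measurable (fun a => b (v a) (w a) (ω a)) := by
  exact hb.meas.comp (hv.prodMk (hw.prodMk hω))

theorem IsKer.lt_top {b : V → V → S2 → ℝ≥0∞} (hb : IsKer b) (v w : V) (ω : S2) :
    b v w ω < ⊤ := by
  exact (hb.le v w ω).trans_lt ENNReal.ofReal_lt_top

theorem refl_Kin (ω : S2) (g : V) :
    (ℝ ∙ (ω : V))ᗮ.reflection g = g - (2 * inner ℝ g (ω : V)) • (ω : V) := by
  rw [Submodule.reflection_orthogonal_apply, Submodule.reflection_singleton_apply,
    norm_eq_of_mem_sphere, real_inner_comm]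
  simp only [RCLike.ofReal_real_eq_id, id_eq, one_pow, div_one]
  module

theorem fix_Kin (ω : S2) :
    MeasurePreserving (fun p : V × V => (vp p.1 p.2 ω, vq p.1 p.2 ω))
      ((volume : Measure V).prod volume) ((volume : Measure V).prod volume) := by
  have h1 := measurePreserving_sub_prod (volume : Measure V) (volume : Measure V)
  have h2 : MeasurePreserving
      (fun p : V × V => ((ℝ ∙ (ω : V))ᗮ.reflection p.1, p.2 + inner ℝ p.1 (ω : V) • (ω : V)))
      ((volume : Measure V).prod volume) ((volume : Measure V).prod volume) :=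
    MeasurePreserving.skew_product (g := fun g w : V => w + inner ℝ g (ω : V) • (ω : V))
      (LinearIsometryEquiv.measurePreserving _)
      (by unfold Function.uncurry; fun_prop)
      (Eventually.of_forall fun g => map_add_right_eq_self _ _)
  have h3 := measurePreserving_add_prod (volume : Measure V) (volume : Measure V)
  have e : (fun p : V × V => (vp p.1 p.2 ω, vq p.1 p.2 ω)) = (fun z : V × V => (z.1 + z.2, z.2)) ∘
      (fun p : V × V => ((ℝ ∙ (ω : V))ᗮ.reflection p.1, p.2 + inner ℝ p.1 (ω : V) • (ω : V))) ∘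
      fun z : V × V => (z.1 - z.2, z.2) := by
    funext p
    simp only [Function.comp_apply, refl_Kin, vp, vq, aa]
    congr 1
    module
  rw [e]
  exact h3.comp (h2.comp h1)

/-- the collision map preserves `dv dw dω` -/
theorem measurePreserving_coll :
    MeasurePreserving coll ((volume : Measure V).prod ((volume : Measure V).prod sig))
      ((volume : Measure V).prod ((volume : Measure V).prod sig)) := by
  have h2 : MeasurePreserving
      (fun p : S2 × V × V => (id p.1, (vp p.2.1 p.2.2 p.1, vq p.2.1 p.2.2 p.1)))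
      (sig.prod ((volume : Measure V).prod volume)) (sig.prod ((volume : Measure V).prod volume)) :=
    MeasurePreserving.skew_product (g := fun (ω : S2) (p : V × V) => (vp p.1 p.2 ω, vq p.1 p.2 ω))
      (MeasurePreserving.id sig) (by unfold Function.uncurry; fun_prop)
      (Eventually.of_forall fun ω => (fix_Kin ω).map_eq)
  have h3 := measurePreserving_prodAssoc (volume : Measure V) (volume : Measure V) sig
  exact (h3.comp Measure.measurePreserving_swap).comp
    (h2.comp (Measure.measurePreserving_swap.comp (h3.symm MeasurableEquiv.prodAssoc)))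

theorem I3_eq {Φ : V → V → S2 → ℝ≥0∞}
    (hΦ : Measurable (fun p : V × V × S2 => Φ p.1 p.2.1 p.2.2)) :
    I3 Φ = ∫⁻ p, Φ p.1 p.2.1 p.2.2 ∂((volume : Measure V).prod ((volume : Measure V).prod sig)) := by
  rw [lintegral_prod _ hΦ.aemeasurable]
  refine lintegral_congr fun v => ?_
  exact (lintegral_prod (fun q : V × S2 => Φ v q.1 q.2)
    (hΦ.comp (measurable_const.prodMk measurable_id)).aemeasurable).symm

theorem I3_mono {Φ Ψ : V → V → S2 → ℝ≥0∞} (h : ∀ v w ω, Φ v w ω ≤ Ψ v w ω) : I3 Φ ≤ I3 Ψ := by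
  exact lintegral_mono fun v => lintegral_mono fun w => lintegral_mono fun ω => h v w ω

theorem I3_add {Φ Ψ : V → V → S2 → ℝ≥0∞}
    (hΦ : Measurable (fun p : V × V × S2 => Φ p.1 p.2.1 p.2.2))
    (hΨ : Measurable (fun p : V × V × S2 => Ψ p.1 p.2.1 p.2.2)) :
    I3 (fun v w ω => Φ v w ω + Ψ v w ω) = I3 Φ + I3 Ψ := by
  rw [I3_eq hΦ, I3_eq hΨ, I3_eq (hΦ.add hΨ), lintegral_add_left hΦ]

theorem I3_const_mul {Φ : V → V → S2 → ℝ≥0∞} (c : ℝ≥0∞)
    (hΦ : Measurable (fun p : V × V × S2 => Φ p.1 p.2.1 p.2.2)) :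
    I3 (fun v w ω => c * Φ v w ω) = c * I3 Φ := by
  rw [I3_eq hΦ, I3_eq (hΦ.const_mul c), lintegral_const_mul c hΦ]

theorem measurable_I3 {α : Type*} [MeasurableSpace α] {Φ : α → V → V → S2 → ℝ≥0∞}
    (hΦ : Measurable (fun p : α × V × V × S2 => Φ p.1 p.2.1 p.2.2.1 p.2.2.2)) :
    Measurable (fun a => I3 (Φ a)) := by
  have e : (fun a => I3 (Φ a)) = fun a => ∫⁻ p : V × V × S2, Φ a p.1 p.2.1 p.2.2
      ∂((volume : Measure V).prod ((volume : Measure V).prod sig)) := by
    funext a
    exact I3_eq (hΦ.comp (measurable_const.prodMk measurable_id))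
  rw [e]
  exact Measurable.lintegral_prod_right'
    (ν := (volume : Measure V).prod ((volume : Measure V).prod sig))
    (f := fun p : α × V × V × S2 => Φ p.1 p.2.1 p.2.2.1 p.2.2.2) hΦ

theorem I3_coll {Φ : V → V → S2 → ℝ≥0∞}
    (hΦ : Measurable (fun p : V × V × S2 => Φ p.1 p.2.1 p.2.2)) :
    I3 (fun v w ω => Φ (vp v w ω) (vq v w ω) ω) = I3 Φ := by
  rw [I3_eq hΦ, I3_eq (Φ := fun v w ω => Φ (vp v w ω) (vq v w ω) ω) (hΦ.comp measurable_coll)]
  exact measurePreserving_coll.lintegral_comp hΦ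

theorem I3_swap {Φ : V → V → S2 → ℝ≥0∞}
    (hΦ : Measurable (fun p : V × V × S2 => Φ p.1 p.2.1 p.2.2)) :
    I3 (fun v w ω => Φ w v ω) = I3 Φ := by
  have h : Measurable (fun p : V × V => ∫⁻ ω, Φ p.2 p.1 ω ∂sig) :=
    Measurable.lintegral_prod_right' (f := fun q : (V × V) × S2 => Φ q.1.2 q.1.1 q.2)
      (hΦ.comp (measurable_fst.snd.prodMk (measurable_fst.fst.prodMk measurable_snd)))
  exact lintegral_lintegral_swap (f := fun v w => ∫⁻ ω, Φ w v ω ∂sig) h.aemeasurable

end Vale.Agent.P140
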