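import Vale.Agent.P140.IFin
import Vale.Agent.P140.DLFin

/-! Non-uniqueness of renormalized entropy solutions. -/

namespace Vale.Agent.P140

open MeasureTheory Set Filter Topology
open scoped ENNReal

theorem nonunique : ∃ F₀ : X × V → ℝ, IsDatum F₀ ∧ ∃ F₁ F₂ : ℝ → X × V → ℝ,
    IsSol F₀ F₁ ∧ IsSol F₀ F₂ ∧
      ¬ ∀ᵐ p : ℝ × (X × V) ∂(((volume : Measure ℝ).restrict (Ioi 0)).prod volume),
        F₁ p.1 p.2 = F₂ p.1 p.2 := by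
  obtain ⟨P, A, ϱ, o, S, ho, h⟩ := exists_runs
  obtain ⟨k0, hk0⟩ := eventually_atTop.1 h
  have h1 : ∀ i : ℕ, ∃ n : ℕ, i ≤ n ∧ ∃ (ςA ςB : ℝ) (fA fB : ℝ → Om → ℝ),
      0 ≤ ςA ∧ ςA ≤ ar P ϱ (k0 + i + 1) ∧ 0 ≤ ςB ∧ ςB ≤ ar P ϱ (k0 + i + 1) ∧
      TrSol n (dat P ϱ (k0 + i) ςA) fA ∧ TrSol n (dat P ϱ (k0 + i) ςB) fB ∧
      ∫ p, fA p.1 p.2 * chi P ϱ p ∂(mT (TT P ϱ)) ≤ o ∧
      2 * o ≤ ∫ p, fB p.1 p.2 * chi P ϱ p ∂(mT (TT P ϱ)) := fun i =>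
    ((eventually_ge_atTop i).and (hk0 (k0 + i) (Nat.le_add_right _ _))).exists
  choose n hn ςA ςB fA fB hA0 hA1 hB0 hB1 hfA hfB hoA hoB using h1
  have hnt : Tendsto n atTop atTop := tendsto_atTop_mono hn tendsto_id
  have hk : Tendsto (fun i => k0 + i) atTop atTop :=
    tendsto_atTop_mono (fun i => Nat.le_add_left i k0) tendsto_id
  have har : Tendsto (fun i => ar P ϱ (k0 + i + 1)) atTop (𝓝 0) :=
    S.tendsto_ar.comp ((tendsto_add_atTop_nat 1).comp hk)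
  have h1 : ∀ j, ar P ϱ j ≤ 1 := fun j => (S.ar_le j).trans (S.rho_le'.trans (by norm_num))
  have mk : ∀ (ς : ℕ → ℝ) (f : ℕ → ℝ → Om → ℝ), (∀ i, 0 ≤ ς i) →
      (∀ i, ς i ≤ ar P ϱ (k0 + i + 1)) → (∀ i, TrSol (n i) (dat P ϱ (k0 + i) (ς i)) (f i)) →
      Appr (FD P ϱ) n (fun i => dat P ϱ (k0 + i) (ς i)) f := fun ς f h0 hle hf =>
    ⟨S.isDatum_FD, hnt, hf, fun i z => S.dat_le _ ((hle i).trans (h1 _)) z,
      S.tendsto_dat hk (squeeze_zero h0 hle har)⟩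
  obtain ⟨F₁, s1, -, c1⟩ := (mk ςA fA hA0 hA1 hfA).exists_sol
  obtain ⟨F₂, s2, -, c2⟩ := (mk ςB fB hB0 hB1 hfB).exists_sol
  refine ⟨FD P ϱ, S.isDatum_FD, F₁, F₂, s1, s2, fun he => ?_⟩
  have e1 := (c1 (TT P ϱ) o _ (measurable_chi P ϱ) (chi_mem P ϱ)).1 hoA
  have e2 := (c2 (TT P ϱ) (2 * o) _ (measurable_chi P ϱ) (chi_mem P ϱ)).2 hoB
  have hle : mT (TT P ϱ) ≤ ((volume : Measure ℝ).restrict (Ioi 0)).prod volume := by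
    unfold mT
    exact Measure.prod_mono (Measure.restrict_mono Ioc_subset_Ioi_self le_rfl) le_rfl
  have he' : ∀ᵐ p ∂(mT (TT P ϱ)), F₁ p.1 p.2 = F₂ p.1 p.2 := ae_mono hle he
  have e3 : ∫ p, F₁ p.1 p.2 * chi P ϱ p ∂(mT (TT P ϱ)) =
      ∫ p, F₂ p.1 p.2 * chi P ϱ p ∂(mT (TT P ϱ)) :=
    integral_congr_ae (he'.mono fun p hp => by simp only [hp])
  linarith

end Vale.Agent.P140
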