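import Vale.Agent.P140.Core

/-! The plane integral Pl: orthonormal coordinates and basic properties. -/

namespace Vale.Agent.P140

open MeasureTheory Set Filter Topology
open scoped ENNReal

theorem plb_three {H : (Fin 3 → ℝ) → ℝ≥0∞} (hH : Measurable H) :
    ∫⁻ x, H x = ∫⁻ a : ℝ, ∫⁻ z : ℝ × ℝ, H ![a, z.1, z.2] := by
  have h1 := (volume_preserving_piFinSuccAbove (fun _ : Fin 3 => ℝ) 0).symm
  have h2 := (MeasurePreserving.id (volume : Measure ℝ)).prod
    (volume_preserving_finTwoArrow ℝ).symm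
  have h3 := h1.comp h2
  rw [← h3.lintegral_comp hH]
  refine (lintegral_prod _ (hH.comp h3.measurable).aemeasurable).trans ?_
  refine lintegral_congr fun a => lintegral_congr fun z => ?_
  refine congrArg H ?_
  ext i
  fin_cases i <;> rfl

/-- the matrix with columns `n, u1, u2` -/
def plbMat (n u1 u2 : V) : Matrix (Fin 3) (Fin 3) ℝ := Matrix.of fun i j => (![n, u1, u2] j) i

theorem plb_lin {n u1 u2 : V} (hD : (plbMat n u1 u2).det ≠ 0) {F : V → ℝ≥0∞}
    (hF : Measurable F) :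
    ∫⁻ g, F g = ENNReal.ofReal |(plbMat n u1 u2).det| *
      ∫⁻ a : ℝ, ∫⁻ z : ℝ × ℝ, F (a • n + z.1 • u1 + z.2 • u2) := by
  have hG : Measurable fun y : Fin 3 → ℝ => F (WithLp.toLp 2 y) :=
    hF.comp (PiLp.volume_preserving_toLp (Fin 3)).measurable
  have hL : Measurable (Matrix.toLin' (plbMat n u1 u2)) :=
    (LinearMap.continuous_of_finiteDimensional _).measurable
  have h1 := lintegral_map (μ := volume) hG hL
  rw [Real.map_matrix_volume_pi_eq_smul_volume_pi hD, lintegral_smul_measure,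
    (PiLp.volume_preserving_toLp (Fin 3)).lintegral_comp hF, plb_three (hG.fun_comp hL)] at h1
  have h2 : ∀ (a : ℝ) (z : ℝ × ℝ), (WithLp.toLp 2 (Matrix.toLin' (plbMat n u1 u2)
      ![a, z.1, z.2]) : V) = a • n + z.1 • u1 + z.2 • u2 := by
    intro a z
    ext i
    simp [plbMat, Matrix.mulVec, dotProduct, Fin.sum_univ_three, mul_comm]
  simp only [h2] at h1
  rw [← h1, smul_eq_mul, ← mul_assoc, ← ENNReal.ofReal_mul (abs_nonneg _), ← abs_mul,
    mul_inv_cancel₀ hD]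
  simp

theorem plb_inner (u v : V) : inner ℝ u v = u 0 * v 0 + u 1 * v 1 + u 2 * v 2 := by
  simp [PiLp.inner_apply, Fin.sum_univ_three, mul_comm]

theorem plb_normsq (u : V) : ‖u‖ ^ 2 = u 0 * u 0 + u 1 * u 1 + u 2 * u 2 := by
  rw [← real_inner_self_eq_norm_sq, plb_inner]

theorem plb_det_one {n e1 e2 : V} (hn : ‖n‖ = 1) (h1 : ‖e1‖ = 1) (h2 : ‖e2‖ = 1)
    (hn1 : inner ℝ n e1 = 0) (hn2 : inner ℝ n e2 = 0) (h12 : inner ℝ e1 e2 = 0) :
    |(plbMat n e1 e2).det| = 1 := by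
  have a0 := plb_normsq n
  have a1 := plb_normsq e1
  have a2 := plb_normsq e2
  rw [hn] at a0
  rw [h1] at a1
  rw [h2] at a2
  rw [plb_inner] at hn1 hn2 h12
  have hM : (plbMat n e1 e2).transpose * plbMat n e1 e2 = 1 := by
    ext i j
    fin_cases i <;> fin_cases j <;>
      simp [plbMat, Matrix.mul_apply, Fin.sum_univ_three] <;> linarith
  have h := congrArg Matrix.det hM
  rw [Matrix.det_mul, Matrix.det_transpose, Matrix.det_one] at h
  rcases mul_self_eq_one_iff.1 h with h | h <;> simp [h]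

theorem plb_unit {q : V} (hq : q ≠ 0) : ‖‖q‖⁻¹ • q‖ = 1 := norm_smul_inv_norm hq

theorem plb_meas (n : V) {F : V → ℝ≥0∞} (hF : Measurable F) :
    Measurable fun g : V => F (g - inner ℝ g n • n) := hF.comp (by fun_prop)

theorem plb_measI (n : V) : Measurable fun g : V =>
    (Icc (0 : ℝ) 1).indicator (fun _ => (1 : ℝ≥0∞)) (inner ℝ g n) :=
  (measurable_const.indicator measurableSet_Icc).comp (by fun_prop)

theorem plb_proj {n u1 u2 : V} (hn : ‖n‖ = 1) (h1 : inner ℝ n u1 = 0) (h2 : inner ℝ n u2 = 0)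
    (a : ℝ) (z : ℝ × ℝ) : inner ℝ (a • n + z.1 • u1 + z.2 • u2) n = a := by
  rw [inner_add_left, inner_add_left, real_inner_smul_left, real_inner_smul_left,
    real_inner_smul_left, real_inner_self_eq_norm_sq, hn, real_inner_comm, h1, real_inner_comm, h2]
  ring

theorem plb_gen {q u1 u2 : V} (hq : q ≠ 0) (h1 : inner ℝ q u1 = 0) (h2 : inner ℝ q u2 = 0)
    (hD : (plbMat (‖q‖⁻¹ • q) u1 u2).det ≠ 0) {F : V → ℝ≥0∞} (hF : Measurable F) :
    Pl q F = ENNReal.ofReal |(plbMat (‖q‖⁻¹ • q) u1 u2).det| *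
      ∫⁻ z : ℝ × ℝ, F (z.1 • u1 + z.2 • u2) := by
  have k1 : inner ℝ (‖q‖⁻¹ • q) u1 = 0 := by rw [real_inner_smul_left, h1, mul_zero]
  have k2 : inner ℝ (‖q‖⁻¹ • q) u2 = 0 := by rw [real_inner_smul_left, h2, mul_zero]
  unfold Pl
  rw [plb_lin hD ((plb_measI _).fun_mul (plb_meas _ hF))]
  congr 1
  have hm : Measurable fun z : ℝ × ℝ => F (z.1 • u1 + z.2 • u2) := hF.comp (by fun_prop)
  have e : ∀ (a : ℝ) (z : ℝ × ℝ), a • (‖q‖⁻¹ • q) + z.1 • u1 + z.2 • u2 - a • (‖q‖⁻¹ • q) =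
      z.1 • u1 + z.2 • u2 := fun a z => by abel
  simp only [plb_proj (plb_unit hq) k1 k2, e, lintegral_const_mul _ hm]
  rw [lintegral_mul_const _ (measurable_const.indicator measurableSet_Icc),
    lintegral_indicator measurableSet_Icc]
  simp

theorem measurable_Pl {α : Type*} [MeasurableSpace α] {q : α → V} {F : α → V → ℝ≥0∞}
    (hq : Measurable q) (hF : Measurable (Function.uncurry F)) :
    Measurable (fun a => Pl (q a) (F a)) := by
  unfold Pl
  refine Measurable.lintegral_prod_right' (f := fun p : α × V =>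
    (Icc (0 : ℝ) 1).indicator (fun _ => (1 : ℝ≥0∞)) (inner ℝ p.2 (‖q p.1‖⁻¹ • q p.1)) *
      F p.1 (p.2 - inner ℝ p.2 (‖q p.1‖⁻¹ • q p.1) • (‖q p.1‖⁻¹ • q p.1))) ?_
  have hn : Measurable fun p : α × V => ‖q p.1‖⁻¹ • q p.1 :=
    (hq.comp measurable_fst).norm.inv.smul (hq.comp measurable_fst)
  have hi : Measurable fun p : α × V => inner ℝ p.2 (‖q p.1‖⁻¹ • q p.1) :=
    measurable_snd.inner hn
  exact ((measurable_const.indicator measurableSet_Icc).comp hi).mul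
    (hF.comp (measurable_fst.prodMk (measurable_snd.sub (hi.smul hn))))

/-- `Pl` only sees vectors orthogonal to `q` -/
theorem Pl_mono {q : V} (hq : q ≠ 0) {F G : V → ℝ≥0∞}
    (h : ∀ p, inner ℝ p q = 0 → F p ≤ G p) : Pl q F ≤ Pl q G := by
  unfold Pl
  refine lintegral_mono fun g => mul_le_mul_right (h _ ?_) _
  have hq' : ‖q‖ ≠ 0 := norm_ne_zero_iff.2 hq
  rw [inner_sub_left, real_inner_smul_left, real_inner_smul_left, real_inner_smul_right,
    real_inner_self_eq_norm_sq]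
  field_simp
  ring

theorem Pl_add (q : V) {F G : V → ℝ≥0∞} (hF : Measurable F) (hG : Measurable G) :
    Pl q (fun p => F p + G p) = Pl q F + Pl q G := by
  unfold Pl
  simp only [mul_add]
  exact lintegral_add_left ((plb_measI _).mul (plb_meas _ hF)) _

theorem Pl_const_mul (q : V) {F : V → ℝ≥0∞} (hF : Measurable F) (c : ℝ≥0∞) :
    Pl q (fun p => c * F p) = c * Pl q F := by
  unfold Pl
  rw [← lintegral_const_mul _ ((plb_measI _).fun_mul (plb_meas _ hF))]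
  exact lintegral_congr fun g => mul_left_comm _ _ _

/-- Lebesgue measure on `ℝ³` in the coordinates of an orthonormal frame -/
theorem lintegral_frame {n e1 e2 : V} (hn : ‖n‖ = 1) (h1 : ‖e1‖ = 1) (h2 : ‖e2‖ = 1)
    (hn1 : inner ℝ n e1 = 0) (hn2 : inner ℝ n e2 = 0) (h12 : inner ℝ e1 e2 = 0)
    {F : V → ℝ≥0∞} (hF : Measurable F) :
    ∫⁻ g, F g = ∫⁻ a : ℝ, ∫⁻ z : ℝ × ℝ, F (a • n + z.1 • e1 + z.2 • e2) := by
  have h := plb_det_one hn h1 h2 hn1 hn2 h12
  rw [plb_lin (n := n) (u1 := e1) (u2 := e2) (fun h0 => by simp [h0] at h) hF, h]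
  simp

/-- every nonzero vector has an orthonormal frame of its orthogonal plane whose first vector
is in-plane (zero axial component) -/
theorem exists_frame {q : V} (hq : q ≠ 0) : ∃ e1 e2 : V, ‖e1‖ = 1 ∧ ‖e2‖ = 1 ∧
    inner ℝ q e1 = 0 ∧ inner ℝ q e2 = 0 ∧ inner ℝ e1 e2 = 0 ∧ e1 0 = 0 := by
  have h1 : ∃ u : V, u ≠ 0 ∧ inner ℝ q u = 0 ∧ u 0 = 0 := by
    by_cases h : q 1 = 0
    · refine ⟨WithLp.toLp 2 ![0, 1, 0], fun h0 => ?_, by simp [plb_inner, h], by simp⟩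
      simpa using congrArg (fun v : V => v 1) h0
    · refine ⟨WithLp.toLp 2 ![0, q 2, -q 1], fun h0 => h ?_, by simp [plb_inner, mul_comm],
        by simp⟩
      simpa using congrArg (fun v : V => v 2) h0
  obtain ⟨u, hu, hqu, hu0⟩ := h1
  let w : V := WithLp.toLp 2
    ![q 1 * u 2 - q 2 * u 1, q 2 * u 0 - q 0 * u 2, q 0 * u 1 - q 1 * u 0]
  have hw : w ≠ 0 := by
    intro h0
    have e : ‖w‖ ^ 2 = ‖q‖ ^ 2 * ‖u‖ ^ 2 - (inner ℝ q u) ^ 2 := by
      rw [plb_normsq, plb_normsq, plb_normsq, plb_inner]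
      simp [w]
      ring
    rw [h0, hqu] at e
    have := mul_pos (pow_pos (norm_pos_iff.2 hq) 2) (pow_pos (norm_pos_iff.2 hu) 2)
    simp only [norm_zero] at e
    nlinarith
  have hqw : inner ℝ q w = 0 := by
    rw [plb_inner]
    simp [w]
    ring
  have huw : inner ℝ u w = 0 := by
    rw [plb_inner]
    simp [w]
    ring
  refine ⟨‖u‖⁻¹ • u, ‖w‖⁻¹ • w, plb_unit hu, plb_unit hw, ?_, ?_, ?_, by simp [hu0]⟩
  · rw [real_inner_smul_right, hqu, mul_zero]
  · rw [real_inner_smul_right, hqw, mul_zero]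
  · rw [real_inner_smul_right, real_inner_smul_left, huw, mul_zero, mul_zero]

theorem Pl_eq {q e1 e2 : V} (hq : q ≠ 0) (h1 : ‖e1‖ = 1) (h2 : ‖e2‖ = 1)
    (hq1 : inner ℝ q e1 = 0) (hq2 : inner ℝ q e2 = 0) (h12 : inner ℝ e1 e2 = 0)
    {F : V → ℝ≥0∞} (hF : Measurable F) :
    Pl q F = ∫⁻ z : ℝ × ℝ, F (z.1 • e1 + z.2 • e2) := by
  have h := plb_det_one (plb_unit hq) h1 h2 (by rw [real_inner_smul_left, hq1, mul_zero])
    (by rw [real_inner_smul_left, hq2, mul_zero]) h12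
  rw [plb_gen hq hq1 hq2 (fun h0 => by simp [h0] at h) hF, h]
  simp

theorem Pl_smul {q : V} (hq : q ≠ 0) {a : ℝ} (ha : a ≠ 0) {F : V → ℝ≥0∞} (hF : Measurable F) :
    Pl (a • q) F = Pl q F := by
  obtain ⟨e1, e2, h1, h2, h3, h4, h5, -⟩ := exists_frame hq
  rw [Pl_eq hq h1 h2 h3 h4 h5 hF, Pl_eq (smul_ne_zero ha hq) h1 h2
    (by rw [real_inner_smul_left, h3, mul_zero]) (by rw [real_inner_smul_left, h4, mul_zero]) h5 hF]

/-- decomposition of `ℝ³` along a unit vector -/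
theorem lintegral_decomp {n : V} (hn : ‖n‖ = 1) {H : ℝ → V → ℝ≥0∞}
    (hH : Measurable (Function.uncurry H)) :
    ∫⁻ g, H (inner ℝ g n) (g - inner ℝ g n • n) = ∫⁻ a : ℝ, Pl n (H a) := by
  have hn0 : n ≠ 0 := fun h => by simp [h] at hn
  obtain ⟨e1, e2, h1, h2, h3, h4, h5, -⟩ := exists_frame hn0
  have hm : Measurable fun g : V => H (inner ℝ g n) (g - inner ℝ g n • n) :=
    hH.comp (f := fun g : V => (inner ℝ g n, g - inner ℝ g n • n)) (by fun_prop)
  rw [lintegral_frame hn h1 h2 h3 h4 h5 hm]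
  refine lintegral_congr fun a => ?_
  rw [Pl_eq hn0 h1 h2 h3 h4 h5 (hH.of_uncurry_left)]
  refine lintegral_congr fun z => ?_
  rw [plb_proj hn h3 h4]
  congr 1
  abel

/-- graph parametrisation of the plane -/
theorem Pl_graph {q : V} (hq : q 2 ≠ 0) {F : V → ℝ≥0∞} (hF : Measurable F) :
    Pl q F = ENNReal.ofReal (‖q‖ / |q 2|) * ∫⁻ z : ℝ × ℝ,
      F (WithLp.toLp 2 ![z.1, z.2, -(z.1 * q 0 + z.2 * q 1) / q 2]) := by
  have hq0 : q ≠ 0 := fun h => hq (by simp [h])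
  have hn : ‖q‖ ≠ 0 := norm_ne_zero_iff.2 hq0
  have hD : (plbMat (‖q‖⁻¹ • q) (WithLp.toLp 2 ![1, 0, -q 0 / q 2])
      (WithLp.toLp 2 ![0, 1, -q 1 / q 2])).det = ‖q‖ / q 2 := by
    have e := plb_normsq q
    rw [Matrix.det_fin_three]
    simp [plbMat]
    field_simp
    linarith
  rw [plb_gen (u1 := WithLp.toLp 2 ![1, 0, -q 0 / q 2]) (u2 := WithLp.toLp 2 ![0, 1, -q 1 / q 2])
    hq0 (by simp [plb_inner]; field_simp; ring) (by simp [plb_inner]; field_simp; ring)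
    (by rw [hD]; exact div_ne_zero hn hq) hF, hD, abs_div, abs_norm]
  congr 1
  refine lintegral_congr fun z => ?_
  congr 1
  ext i
  fin_cases i
  · simp
  · simp
  · simp
    ring

end Vale.Agent.P140
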