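import Mathlib

/-! Calculus for primitives of integrable functions (absolutely continuous functions). -/

namespace Vale.Agent.P140

open MeasureTheory Set

/-- `y` is a primitive of `g` on `[0,T]` -/
def Prim (T : ℝ) (y g : ℝ → ℝ) : Prop :=
  IntervalIntegrable g volume 0 T ∧ ∀ t ∈ Icc (0 : ℝ) T, y t = y 0 + ∫ s in (0 : ℝ)..t, g s

private theorem pr_ac_of_le {F y : ℝ → ℝ} {a b C : ℝ} (hy : AbsolutelyContinuousOnInterval y a b)
    (h : ∀ s ∈ uIcc a b, ∀ t ∈ uIcc a b, dist (F s) (F t) ≤ C * dist (y s) (y t)) :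
    AbsolutelyContinuousOnInterval F a b := by
  have h1 := Filter.Tendsto.const_mul C hy
  rw [mul_zero] at h1
  refine squeeze_zero' (Filter.Eventually.of_forall fun E => Finset.sum_nonneg fun _ _ => dist_nonneg)
    ?_ h1
  refine Filter.eventually_inf_principal.2 (Filter.Eventually.of_forall fun E hE => ?_)
  rw [Finset.mul_sum]
  exact Finset.sum_le_sum fun i hi => h _ (hE.1 i hi).1 _ (hE.1 i hi).2

private theorem pr_ftc {F G : ℝ → ℝ} {a b : ℝ} (hab : a ≤ b)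
    (hF : AbsolutelyContinuousOnInterval F a b)
    (hd : ∀ᵐ t, t ∈ Ioo a b → HasDerivAt F (G t) t) :
    IntervalIntegrable G volume a b ∧ ∫ t in a..b, G t = F b - F a := by
  have hb : ∀ᵐ t : ℝ, t ≠ b := by simp [ae_iff, measure_singleton]
  have he : ∀ᵐ t, t ∈ uIoc a b → deriv F t = G t := by
    filter_upwards [hd, hb] with t ht htb hm
    rw [uIoc_of_le hab] at hm
    exact (ht ⟨hm.1, lt_of_le_of_ne hm.2 htb⟩).deriv
  constructor
  · refine hF.intervalIntegrable_deriv.congr_ae ?_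
    exact (ae_restrict_iff' measurableSet_uIoc).2 he
  · rw [← hF.integral_deriv_eq_sub]
    exact (intervalIntegral.integral_congr_ae he).symm

private theorem pr_ac_comp {y β β' : ℝ → ℝ} {s : Set ℝ} {a b : ℝ} (hab : a ≤ b)
    (h : AbsolutelyContinuousOnInterval y a b) (hy : ∀ t ∈ Icc a b, y t ∈ s)
    (hβ : ∀ x ∈ s, HasDerivWithinAt β (β' x) s x) (hβ' : ContinuousOn β' s) :
    AbsolutelyContinuousOnInterval (fun t => β (y t)) a b := by
  have hc : ContinuousOn y (Icc a b) := by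
    have := h.continuousOn
    rwa [uIcc_of_le hab] at this
  have hK : y '' Icc a b ⊆ s := by
    rintro _ ⟨t, ht, rfl⟩
    exact hy t ht
  have hcomp : IsCompact (y '' Icc a b) := isCompact_Icc.image_of_continuousOn hc
  have hconv : Convex ℝ (y '' Icc a b) := by
    rw [hc.image_Icc hab]
    exact convex_Icc _ _
  obtain ⟨C, hC⟩ := hcomp.exists_bound_of_continuousOn (hβ'.mono hK)
  refine pr_ac_of_le (C := C) h fun u hu t ht => ?_
  rw [uIcc_of_le hab] at hu ht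
  rw [dist_eq_norm, dist_eq_norm]
  exact hconv.norm_image_sub_le_of_norm_hasDerivWithin_le (fun x hx => (hβ x (hK hx)).mono hK) hC
    (mem_image_of_mem y ht) (mem_image_of_mem y hu)

private theorem pr_sub {T : ℝ} {g : ℝ → ℝ} (h : IntervalIntegrable g volume 0 T) {s t : ℝ}
    (hs : s ∈ Icc 0 T) (ht : t ∈ Icc 0 T) : IntervalIntegrable g volume s t := by
  refine h.mono_set ?_
  rw [uIcc_of_le (hs.1.trans hs.2)]
  exact uIcc_subset_Icc hs ht

private theorem Prim.ac {T : ℝ} {y g : ℝ → ℝ} (hT : 0 ≤ T) (h : Prim T y g) :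
    AbsolutelyContinuousOnInterval y 0 T := by
  have h1 := h.1.absolutelyContinuousOnInterval_intervalIntegral (c := 0) left_mem_uIcc
  refine pr_ac_of_le (C := 1) h1 fun s hs t ht => ?_
  rw [uIcc_of_le hT] at hs ht
  rw [h.2 s hs, h.2 t ht, dist_add_left, one_mul]

private theorem Prim.ae_deriv {T : ℝ} {y g : ℝ → ℝ} (hT : 0 ≤ T) (h : Prim T y g) :
    ∀ᵐ t, t ∈ Ioo 0 T → HasDerivAt y (g t) t := by
  filter_upwards [h.1.ae_hasDerivAt_integral] with t ht hm
  have h1 := (ht (by rw [uIcc_of_le hT]; exact Ioo_subset_Icc_self hm) 0 left_mem_uIcc).const_add (y 0)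
  refine h1.congr_of_eventuallyEq ?_
  filter_upwards [Icc_mem_nhds hm.1 hm.2] with u hu
  exact h.2 u hu

private theorem prim_of_ac {T : ℝ} {y g : ℝ → ℝ} (hT : 0 ≤ T)
    (h : AbsolutelyContinuousOnInterval y 0 T)
    (hd : ∀ᵐ t, t ∈ Ioo 0 T → HasDerivAt y (g t) t) : Prim T y g := by
  refine ⟨(pr_ftc hT h hd).1, fun t ht => ?_⟩
  have h1 : AbsolutelyContinuousOnInterval y 0 t := by
    refine h.mono ?_
    rw [uIcc_of_le hT, uIcc_of_le ht.1]
    exact Icc_subset_Icc_right ht.2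
  have h2 := (pr_ftc (G := g) ht.1 h1 (by
    filter_upwards [hd] with u hu hm
    exact hu ⟨hm.1, hm.2.trans_le ht.2⟩)).2
  rw [h2]
  ring

private theorem prim_int {T : ℝ} {g : ℝ → ℝ} (h : IntervalIntegrable g volume 0 T) (c : ℝ) :
    Prim T (fun t => c + ∫ s in (0 : ℝ)..t, g s) g :=
  ⟨h, fun t _ => by simp⟩

theorem Prim.continuousOn {T : ℝ} {y g : ℝ → ℝ} (hT : 0 ≤ T) (h : Prim T y g) :
    ContinuousOn y (Icc 0 T) := by
  have := (h.ac hT).continuousOn
  rwa [uIcc_of_le hT] at this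


theorem Prim.sub_eq {T : ℝ} {y g : ℝ → ℝ} (h : Prim T y g) {s t : ℝ} (hs : s ∈ Icc 0 T)
    (ht : t ∈ Icc 0 T) : y t - y s = ∫ τ in s..t, g τ := by
  have hT : 0 ≤ T := hs.1.trans hs.2
  have h0 : (0 : ℝ) ∈ Icc 0 T := ⟨le_rfl, hT⟩
  rw [h.2 t ht, h.2 s hs, ← intervalIntegral.integral_interval_sub_left (pr_sub h.1 h0 ht)
    (pr_sub h.1 h0 hs)]
  ring


theorem Prim.mono {T T' : ℝ} {y g : ℝ → ℝ} (h : Prim T y g) (h0 : 0 ≤ T') (hT : T' ≤ T) :
    Prim T' y g := by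
  exact ⟨pr_sub h.1 ⟨le_rfl, h0.trans hT⟩ ⟨h0, hT⟩, fun t ht => h.2 t ⟨ht.1, ht.2.trans hT⟩⟩


theorem Prim.congr {T : ℝ} {y g y' g' : ℝ → ℝ} (hT : 0 ≤ T) (h : Prim T y g)
    (hy : ∀ t ∈ Icc (0 : ℝ) T, y' t = y t)
    (hg : ∀ᵐ t, t ∈ Ioc (0 : ℝ) T → g' t = g t) : Prim T y' g' := by
  constructor
  · refine h.1.congr_ae ((ae_restrict_iff' measurableSet_uIoc).2 ?_)
    filter_upwards [hg] with t ht hm
    rw [uIoc_of_le hT] at hm
    exact (ht hm).symm
  · intro t ht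
    rw [hy t ht, hy 0 ⟨le_rfl, hT⟩, h.2 t ht]
    congr 1
    refine intervalIntegral.integral_congr_ae ?_
    filter_upwards [hg] with u hu hm
    rw [uIoc_of_le ht.1] at hm
    exact (hu ⟨hm.1, hm.2.trans ht.2⟩).symm


theorem Prim.add {T : ℝ} {y g z h : ℝ → ℝ} (hT : 0 ≤ T) (h1 : Prim T y g) (h2 : Prim T z h) :
    Prim T (fun t => y t + z t) (fun t => g t + h t) := by
  refine ⟨h1.1.add h2.1, fun t ht => ?_⟩
  have h0 : (0 : ℝ) ∈ Icc 0 T := ⟨le_rfl, hT⟩
  beta_reduce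
  rw [intervalIntegral.integral_add (pr_sub h1.1 h0 ht) (pr_sub h2.1 h0 ht), h1.2 t ht, h2.2 t ht]
  ring


theorem Prim.const_mul {T : ℝ} {y g : ℝ → ℝ} (h : Prim T y g) (c : ℝ) :
    Prim T (fun t => c * y t) (fun t => c * g t) := by
  refine ⟨h.1.const_mul c, fun t ht => ?_⟩
  beta_reduce
  rw [intervalIntegral.integral_const_mul, h.2 t ht]
  ring


theorem Prim.mul {T : ℝ} {y g z h : ℝ → ℝ} (hT : 0 ≤ T) (h1 : Prim T y g) (h2 : Prim T z h) :
    Prim T (fun t => y t * z t) (fun t => g t * z t + y t * h t) := by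
  refine prim_of_ac hT ((h1.ac hT).mul (h2.ac hT)) ?_
  filter_upwards [h1.ae_deriv hT, h2.ae_deriv hT] with t a b hm
  exact (a hm).mul (b hm)


/-- chain rule; `s` is an interval containing the range of `y` -/
theorem Prim.chain {T : ℝ} {y g β β' : ℝ → ℝ} {s : Set ℝ} (hT : 0 ≤ T) (h : Prim T y g)
    (hs : Convex ℝ s) (hy : ∀ t ∈ Icc (0 : ℝ) T, y t ∈ s)
    (hβ : ∀ x ∈ s, HasDerivWithinAt β (β' x) s x) (hβ' : ContinuousOn β' s) :
    Prim T (fun t => β (y t)) (fun t => β' (y t) * g t) := by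
  refine prim_of_ac hT (pr_ac_comp hT (h.ac hT) hy hβ hβ') ?_
  filter_upwards [h.ae_deriv hT] with t a hm
  refine (hβ _ (hy t (Ioo_subset_Icc_self hm))).comp_hasDerivAt t (a hm) ?_
  filter_upwards [Icc_mem_nhds hm.1 hm.2] with u hu
  exact hy u hu


theorem Prim.of_hasDerivAt {T : ℝ} {y g : ℝ → ℝ} (hT : 0 ≤ T)
    (h : ∀ t ∈ Icc (0 : ℝ) T, HasDerivAt y (g t) t) (hg : ContinuousOn g (Icc 0 T)) :
    Prim T y g := by
  have hi : IntervalIntegrable g volume 0 T := hg.intervalIntegrable_of_Icc hT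
  refine ⟨hi, fun t ht => ?_⟩
  rw [intervalIntegral.integral_eq_sub_of_hasDerivAt (f := y) (fun u hu => h u (by
    rw [uIcc_of_le ht.1] at hu
    exact ⟨hu.1, hu.2.trans ht.2⟩)) (pr_sub hi ⟨le_rfl, hT⟩ ht)]
  ring


private theorem prim_exp {T : ℝ} {l : ℝ → ℝ} (hT : 0 ≤ T) (hl : IntervalIntegrable l volume 0 T)
    (c : ℝ) : Prim T (fun t => Real.exp (c * ∫ s in (0 : ℝ)..t, l s))
      (fun t => Real.exp (c * ∫ s in (0 : ℝ)..t, l s) * (c * l t)) := by
  have h1 := (prim_int hl 0).const_mul c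
  simp only [zero_add] at h1
  exact h1.chain (s := univ) hT convex_univ (fun _ _ => mem_univ _)
    (fun x _ => (Real.hasDerivAt_exp x).hasDerivWithinAt) Real.continuous_exp.continuousOn

/-- exponential (mild) form implies integral form -/
theorem prim_of_mild {T y0 : ℝ} {y q l : ℝ → ℝ} (hT : 0 ≤ T)
    (hq : IntervalIntegrable q volume 0 T) (hl : IntervalIntegrable l volume 0 T)
    (hy : ∀ t ∈ Icc (0 : ℝ) T, y t = y0 * Real.exp (-∫ τ in (0 : ℝ)..t, l τ) +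
      ∫ s in (0 : ℝ)..t, Real.exp (-∫ τ in s..t, l τ) * q s) :
    Prim T y (fun t => q t - l t * y t) := by
  have h0 : (0 : ℝ) ∈ Icc 0 T := ⟨le_rfl, hT⟩
  have hE := prim_exp hT hl (-1)
  have hP := prim_exp hT hl 1
  have hi : IntervalIntegrable (fun s => Real.exp (1 * ∫ τ in (0 : ℝ)..s, l τ) * q s) volume 0 T := by
    refine hq.continuousOn_mul ?_
    rw [uIcc_of_le hT]
    exact hP.continuousOn hT
  have hW := prim_int hi y0
  have hyy : ∀ t ∈ Icc (0 : ℝ) T, y t = Real.exp (-1 * ∫ τ in (0 : ℝ)..t, l τ) *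
      (y0 + ∫ s in (0 : ℝ)..t, Real.exp (1 * ∫ τ in (0 : ℝ)..s, l τ) * q s) := by
    intro t ht
    rw [hy t ht, mul_add, neg_one_mul, ← intervalIntegral.integral_const_mul, mul_comm y0]
    congr 1
    refine intervalIntegral.integral_congr fun s hs => ?_
    rw [uIcc_of_le ht.1] at hs
    have hs' : s ∈ Icc 0 T := ⟨hs.1, hs.2.trans ht.2⟩
    beta_reduce
    rw [← mul_assoc, ← Real.exp_add, ← intervalIntegral.integral_interval_sub_left (pr_sub hl h0 ht)
      (pr_sub hl h0 hs')]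
    congr 2
    ring
  refine (hE.mul hT hW).congr hT hyy (Filter.Eventually.of_forall fun t ht => ?_)
  have h1 : Real.exp (-1 * ∫ τ in (0 : ℝ)..t, l τ) * Real.exp (1 * ∫ τ in (0 : ℝ)..t, l τ) = 1 := by
    rw [← Real.exp_add]
    simp
  rw [hyy t (Ioc_subset_Icc_self ht), ← mul_assoc _ _ (q t), h1]
  ring


/-- integral form implies the exponential form between any two times -/
theorem Prim.mild {T : ℝ} {y g l : ℝ → ℝ} (h : Prim T y g)
    (hl : IntervalIntegrable l volume 0 T) {s t : ℝ} (hs : 0 ≤ s) (hst : s ≤ t) (ht : t ≤ T) :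
    IntervalIntegrable (fun τ => Real.exp (-∫ u in τ..t, l u) * (g τ + l τ * y τ)) volume s t ∧
    y t = y s * Real.exp (-∫ τ in s..t, l τ) +
      ∫ τ in s..t, Real.exp (-∫ u in τ..t, l u) * (g τ + l τ * y τ) := by
  have hT : 0 ≤ T := hs.trans (hst.trans ht)
  have h0 : (0 : ℝ) ∈ Icc 0 T := ⟨le_rfl, hT⟩
  have hs' : s ∈ Icc 0 T := ⟨hs, hst.trans ht⟩
  have ht' : t ∈ Icc 0 T := ⟨hs.trans hst, ht⟩
  have hZ := (prim_exp hT hl 1).mul hT h
  have hi := (pr_sub hZ.1 hs' ht').const_mul (Real.exp (-∫ τ in (0 : ℝ)..t, l τ))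
  have hsub := hZ.sub_eq hs' ht'
  have hx : ∀ τ ∈ Icc (0 : ℝ) T, Real.exp (-∫ u in τ..t, l u) =
      Real.exp (-∫ u in (0 : ℝ)..t, l u) * Real.exp (1 * ∫ u in (0 : ℝ)..τ, l u) := by
    intro τ hτ
    rw [← Real.exp_add, ← intervalIntegral.integral_interval_sub_left (pr_sub hl h0 ht')
      (pr_sub hl h0 hτ)]
    congr 1
    ring
  have heq : EqOn (fun τ => Real.exp (-∫ u in (0 : ℝ)..t, l u) *
      (Real.exp (1 * ∫ u in (0 : ℝ)..τ, l u) * (1 * l τ) * y τ +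
        Real.exp (1 * ∫ u in (0 : ℝ)..τ, l u) * g τ))
      (fun τ => Real.exp (-∫ u in τ..t, l u) * (g τ + l τ * y τ)) (uIcc s t) := by
    intro τ hτ
    rw [uIcc_of_le hst] at hτ
    beta_reduce
    rw [hx τ ⟨hs.trans hτ.1, hτ.2.trans ht⟩]
    ring
  refine ⟨hi.congr (heq.mono uIoc_subset_uIcc), ?_⟩
  rw [← intervalIntegral.integral_congr heq, intervalIntegral.integral_const_mul, ← hsub, hx s hs']
  have h1 : Real.exp (-∫ τ in (0 : ℝ)..t, l τ) * Real.exp (1 * ∫ τ in (0 : ℝ)..t, l τ) = 1 := by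
    rw [← Real.exp_add]
    simp
  linear_combination (-(y t)) * h1


theorem integral_exp_neg_primitive {s t : ℝ} {l : ℝ → ℝ} (hst : s ≤ t)
    (hl : IntervalIntegrable l volume s t) :
    IntervalIntegrable (fun τ => Real.exp (-∫ u in s..τ, l u) * l τ) volume s t ∧
    ∫ τ in s..t, Real.exp (-∫ u in s..τ, l u) * l τ = 1 - Real.exp (-∫ u in s..t, l u) := by
  have h1 := hl.absolutelyContinuousOnInterval_intervalIntegral (c := s) left_mem_uIcc
  have hβ : ∀ x : ℝ, HasDerivAt (fun x : ℝ => -Real.exp (-x)) (Real.exp (-x)) x := by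
    intro x
    have := ((hasDerivAt_neg x).exp).fun_neg
    simpa using this
  have h2 := pr_ac_comp (s := univ) (β := fun x : ℝ => -Real.exp (-x)) (β' := fun x => Real.exp (-x))
    hst h1 (fun _ _ => mem_univ _) (fun x _ => (hβ x).hasDerivWithinAt) (by fun_prop)
  have h3 := pr_ftc (G := fun τ => Real.exp (-∫ u in s..τ, l u) * l τ) hst h2 (by
    filter_upwards [hl.ae_hasDerivAt_integral] with τ hτ hm
    exact (hβ _).comp τ (hτ (by rw [uIcc_of_le hst]; exact Ioo_subset_Icc_self hm) s left_mem_uIcc))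
  refine ⟨h3.1, ?_⟩
  rw [h3.2]
  simp
  ring


end Vale.Agent.P140
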