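import Vale.Agent.P140.Defs

/-! The notion of renormalized entropy solution. -/

namespace Vale.Agent.P140

open MeasureTheory Set
open scoped ENNReal

noncomputable section

/-- `Q⁺(F,F)(x,v)` -/
def gainAt (F : X × V → ℝ) (z : X × V) : ℝ≥0∞ := gain (fun v => F (z.1, v)) z.2

/-- `Q⁻(F,F)(x,v)` -/
def lossAt (F : X × V → ℝ) (z : X × V) : ℝ≥0∞ := loss (fun v => F (z.1, v)) z.2

/-- (i): `F ≥ 0` is measurable, `F ∈ C_w([0,∞); L¹)`, `F(0) = F₀`, and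
`∫ F (1 + |v|² + |log F|)` is bounded on `[0,T]`. -/
structure Regular (F₀ : X × V → ℝ) (F : ℝ → X × V → ℝ) : Prop where
  meas : Measurable (Function.uncurry F)
  nonneg : ∀ t, 0 ≤ t → ∀ z, 0 ≤ F t z
  integrable : ∀ t, 0 ≤ t → Integrable (F t)
  weakCont : ∀ ψ : X × V → ℝ, Measurable ψ → (∃ C, ∀ z, |ψ z| ≤ C) →
    ContinuousOn (fun t => ∫ z, F t z * ψ z) (Ici 0)
  init : F 0 =ᵐ[volume] F₀
  bound : ∀ T : ℝ, ∃ C : ℝ≥0∞, C < ⊤ ∧ ∀ t ∈ Icc 0 T, momEnt (F t) ≤ C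

/-- (ii), first part: `Q^± / (1 + F/M) ∈ L¹([0,T] × Ω)` for every `T`. -/
structure CollInt (F : ℝ → X × V → ℝ) : Prop where
  gainInt : ∀ T : ℝ, ∫⁻ t in Icc 0 T, ∫⁻ z : X × V,
    gainAt (F t) z / ENNReal.ofReal (1 + F t z / Mx z.2) < ⊤
  lossInt : ∀ T : ℝ, ∫⁻ t in Icc 0 T, ∫⁻ z : X × V,
    lossAt (F t) z / ENNReal.ofReal (1 + F t z / Mx z.2) < ⊤

/-- `β ∈ C¹([0,∞))` with derivative `β'`, `β(0) = 0` and `|β'(s)| ≤ C / (1 + s)`. -/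
structure IsRenorm (β β' : ℝ → ℝ) : Prop where
  hasDeriv : ∀ s, 0 ≤ s → HasDerivWithinAt β (β' s) (Ici 0) s
  cont : ContinuousOn β' (Ici 0)
  zero : β 0 = 0
  decay : ∃ C, ∀ s, 0 ≤ s → |β' s| ≤ C / (1 + s)

/-- `∫_0^∞ ∫_Ω g(t,x,v) dx dv dt` -/
def stInt (g : ℝ → X × V → ℝ) : ℝ := ∫ t in Ici (0 : ℝ), ∫ z : X × V, g t z

/-- (ii), second part: `(∂_t + v·∇_x)(M β(G)) = β'(G) Q(F,F)` in distributions, with initial
value `M β(F₀/M)`, where `G = F/M`. -/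
def RenormEq (F₀ : X × V → ℝ) (F : ℝ → X × V → ℝ) : Prop :=
  ∀ β β' : ℝ → ℝ, IsRenorm β β' → ∀ φ : ℝ × X × V → ℝ, IsTest φ →
    stInt (fun t z => Mx z.2 * β (F t z / Mx z.2) * transp φ t z.1 z.2)
      + (∫ z : X × V, Mx z.2 * β (F₀ z / Mx z.2) * φ (0, z.1, z.2))
      + stInt (fun t z => β' (F t z / Mx z.2) *
          ((gainAt (F t) z).toReal - (lossAt (F t) z).toReal) * φ (t, z.1, z.2)) = 0

/-- the balance `B₁`: local conservation of mass in distributions, with initial trace. -/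
def MassBalance (F₀ : X × V → ℝ) (F : ℝ → X × V → ℝ) : Prop :=
  ∀ φ : ℝ × X → ℝ, IsTestX φ →
    stInt (fun t z => F t z * transp (fun p => φ (p.1, p.2.1)) t z.1 z.2)
      + (∫ z : X × V, F₀ z * φ (0, z.1)) = 0

/-- total momentum `∫ v F` -/
def momentum (F : X × V → ℝ) : V := ∫ z : X × V, F z • z.2

/-- total energy `∫ |v|² F` -/
def energy (F : X × V → ℝ) : ℝ≥0∞ := ∫⁻ z : X × V, ENNReal.ofReal (‖z.2‖ ^ 2 * F z)

/-- A renormalized entropy solution `F(t,x,v) = F t (x,v)`, `t ≥ 0`, with datum `F₀`. -/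
structure IsSolution (F₀ : X × V → ℝ) (F : ℝ → X × V → ℝ) : Prop where
  regular : Regular F₀ F
  collInt : CollInt F
  renormEq : RenormEq F₀ F
  mass : MassBalance F₀ F
  mom : ∀ t, 0 ≤ t → momentum (F t) = momentum F₀
  en : ∀ t, 0 ≤ t → energy (F t) ≤ energy F₀
  entropy : ∀ t, 0 ≤ t → relEnt (F t) + ∫⁻ s in Icc 0 t, dissip (F s) ≤ relEnt F₀

end

end Vale.Agent.P140
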