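import Vale.Agent.P140.Core

/-! Geometry and measure theory of the torus and of the free flow. -/

namespace Vale.Agent.P140

open MeasureTheory Set Filter Topology
open scoped ENNReal

theorem pr_add (y z : V) : pr (y + z) = pr y + pr z := by
  funext i
  simp [pr]

theorem pr_zero : pr 0 = 0 := by
  funext i
  simp [pr]

theorem pr_neg (y : V) : pr (-y) = -pr y := by
  funext i
  simp [pr]

theorem pr_sub (y z : V) : pr (y - z) = pr y - pr z := by
  funext i
  simp [pr]

theorem pr_surj (x : X) : ∃ y : V, pr y = x := by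
  choose y hy using fun i => QuotientAddGroup.mk_surjective (x i)
  exact ⟨WithLp.toLp 2 y, funext hy⟩

@[fun_prop]
theorem continuous_pr : Continuous pr := by
  refine continuous_pi fun i => ?_
  exact (AddCircle.continuous_mk' 1).comp (by fun_prop : Continuous fun y : V => y i)

@[fun_prop]
theorem measurable_pr : Measurable pr := by
  exact continuous_pr.measurable

theorem sh_zero (z : Om) : sh 0 z = z := by
  simp [sh, pr_zero]

theorem sh_sh (s t : ℝ) (z : Om) : sh s (sh t z) = sh (s + t) z := by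
  simp only [sh, add_smul, pr_add]
  congr 1
  abel

@[fun_prop]
theorem continuous_sh {α : Type*} [TopologicalSpace α] {t : α → ℝ} {z : α → Om}
    (ht : Continuous t) (hz : Continuous z) : Continuous (fun a => sh (t a) (z a)) := by
  unfold sh
  fun_prop

@[fun_prop]
theorem measurable_sh {α : Type*} [MeasurableSpace α] {t : α → ℝ} {z : α → Om}
    (ht : Measurable t) (hz : Measurable z) : Measurable (fun a => sh (t a) (z a)) := by
  unfold sh
  fun_prop

theorem volume_X_univ : (volume : Measure X) univ = 1 := by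
  rw [volume_pi, Measure.pi_univ]
  simp

instance isProbabilityMeasure_X : IsProbabilityMeasure (volume : Measure X) := ⟨volume_X_univ⟩

theorem measurePreserving_sh (t : ℝ) : MeasurePreserving (sh t) (volume : Measure Om) volume := by
  have h := (MeasurePreserving.id (volume : Measure V)).skew_product (μc := (volume : Measure X))
    (μd := (volume : Measure X)) (g := fun v x => x + pr (t • v)) (by
      change Measurable fun p : V × X => p.2 + pr (t • p.1)
      fun_prop) (Eventually.of_forall fun v => map_add_right_eq_self _ _)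
  exact (Measure.measurePreserving_swap.comp h).comp Measure.measurePreserving_swap

theorem measurePreserving_shST (μ : Measure ℝ) [SFinite μ] :
    MeasurePreserving (fun p : ℝ × Om => (p.1, sh p.1 p.2)) (μ.prod volume) (μ.prod volume) := by
  exact (MeasurePreserving.id μ).skew_product (g := fun t z => sh t z) (by
    change Measurable fun p : ℝ × Om => sh p.1 p.2
    fun_prop) (Eventually.of_forall fun t => (measurePreserving_sh t).map_eq)

theorem measurePreserving_shST' (μ : Measure ℝ) [SFinite μ] :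
    MeasurePreserving (fun p : ℝ × Om => (p.1, sh (-p.1) p.2)) (μ.prod volume) (μ.prod volume) := by
  exact (MeasurePreserving.id μ).skew_product (g := fun t z => sh (-t) z) (by
    change Measurable fun p : ℝ × Om => sh (-p.1) p.2
    fun_prop) (Eventually.of_forall fun t => (measurePreserving_sh (-t)).map_eq)

theorem lintegral_sh (t : ℝ) {F : Om → ℝ≥0∞} (hF : Measurable F) :
    ∫⁻ z, F (sh t z) = ∫⁻ z, F z := by
  exact (measurePreserving_sh t).lintegral_comp hF

theorem integral_sh (t : ℝ) (F : Om → ℝ) : ∫ z, F (sh t z) = ∫ z, F z := by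
  let e : Om ≃ᵐ Om :=
    { toFun := sh t
      invFun := sh (-t)
      left_inv := fun z => by rw [sh_sh, neg_add_cancel, sh_zero]
      right_inv := fun z => by rw [sh_sh, add_neg_cancel, sh_zero]
      measurable_toFun := (measurePreserving_sh t).measurable
      measurable_invFun := (measurePreserving_sh (-t)).measurable }
  exact (measurePreserving_sh t).integral_comp e.measurableEmbedding F

theorem lintegral_Om {F : Om → ℝ≥0∞} (hF : Measurable F) :
    ∫⁻ z, F z = ∫⁻ x, ∫⁻ v, F (x, v) := by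
  exact lintegral_prod _ hF.aemeasurable

theorem lintegral_mT (T : ℝ) {F : ℝ × Om → ℝ≥0∞} (hF : Measurable F) :
    ∫⁻ p, F p ∂(mT T) = ∫⁻ t in Ioc 0 T, ∫⁻ z, F (t, z) := by
  exact lintegral_prod _ hF.aemeasurable

instance sigmaFinite_mT (T : ℝ) : SigmaFinite (mT T) := by
  unfold mT; infer_instance

theorem volume_velBall_lt_top (R : ℝ) : volume {z : Om | ‖z.2‖ ≤ R} < ⊤ := by
  have e : {z : Om | ‖z.2‖ ≤ R} = (univ : Set X) ×ˢ Metric.closedBall (0 : V) R := by
    ext z
    simp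
  rw [e, Measure.volume_eq_prod, Measure.prod_prod, volume_X_univ, one_mul]
  exact measure_closedBall_lt_top

theorem mT_velBall_lt_top (T R : ℝ) : mT T {p : ℝ × Om | ‖p.2.2‖ ≤ R} < ⊤ := by
  have e : {p : ℝ × Om | ‖p.2.2‖ ≤ R} = (univ : Set ℝ) ×ˢ {z : Om | ‖z.2‖ ≤ R} := by
    ext z
    simp
  rw [e, mT, Measure.prod_prod]
  exact ENNReal.mul_lt_top (by simp) (volume_velBall_lt_top R)

/-- `L¹` continuity of the free flow -/
theorem tendsto_integral_sh {u : Om → ℝ} (hu : Integrable u) (s : ℝ) :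
    Tendsto (fun t => ∫ z, |u (sh t z) - u (sh s z)|) (𝓝 s) (𝓝 0) := by
  let G : C(ℝ × Om, Om) := ⟨fun p => sh p.1 p.2, by fun_prop⟩
  have : (volume : Measure Om).InnerRegularCompactLTTop :=
    instInnerRegularCompactLTTopOfIsCompletelyPseudoMetrizableSpace _
  have hu1 : MemLp u 1 (volume : Measure Om) := memLp_one_iff_integrable.2 hu
  have hc : Continuous fun t : ℝ =>
      Lp.compMeasurePreserving (G.curry t) (measurePreserving_sh t) (hu1.toLp u) :=
    Continuous.compMeasurePreservingLp (f := fun _ : ℝ => hu1.toLp u) continuous_const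
      G.curry.continuous (fun t => measurePreserving_sh t) ENNReal.one_ne_top
  have hae : ∀ t : ℝ, (Lp.compMeasurePreserving (G.curry t) (measurePreserving_sh t) (hu1.toLp u) :
      Om → ℝ) =ᵐ[volume] fun z => u (sh t z) := fun t =>
    (Lp.coeFn_compMeasurePreserving _ _).trans
      ((measurePreserving_sh t).quasiMeasurePreserving.ae_eq_comp hu1.coeFn_toLp)
  refine (tendsto_iff_norm_sub_tendsto_zero.1 (hc.tendsto s)).congr fun t => ?_
  rw [L1.norm_eq_integral_norm]
  refine integral_congr_ae ?_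
  filter_upwards [hae t, hae s, Lp.coeFn_sub
    (Lp.compMeasurePreserving (G.curry t) (measurePreserving_sh t) (hu1.toLp u))
    (Lp.compMeasurePreserving (G.curry s) (measurePreserving_sh s) (hu1.toLp u))] with z h1 h2 h3
  rw [h3, Pi.sub_apply, h1, h2, Real.norm_eq_abs]

@[fun_prop]
theorem continuous_vb : Continuous vb := by
  unfold vb
  fun_prop

theorem vb_zero (v : V) : vb v 0 = 0 := by
  simp [vb, e0]

theorem vb_one (v : V) : vb v 1 = v 1 := by
  simp [vb, e0]

theorem vb_two (v : V) : vb v 2 = v 2 := by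
  simp [vb, e0]

theorem vb_add (v w : V) : vb (v + w) = vb v + vb w := by
  simp only [vb, PiLp.add_apply, add_smul]
  abel

theorem vb_sub (v w : V) : vb (v - w) = vb v - vb w := by
  simp only [vb, PiLp.sub_apply, sub_smul]
  abel

theorem vb_smul (a : ℝ) (v : V) : vb (a • v) = a • vb v := by
  simp only [vb, PiLp.smul_apply, smul_eq_mul, mul_smul, smul_sub]

theorem norm_vb_sq (v : V) : ‖vb v‖ ^ 2 = v 1 ^ 2 + v 2 ^ 2 := by
  rw [EuclideanSpace.real_norm_sq_eq, Fin.sum_univ_three, vb_zero, vb_one, vb_two]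
  ring

theorem norm_sq_vb (v : V) : ‖v‖ ^ 2 = v 0 ^ 2 + ‖vb v‖ ^ 2 := by
  rw [norm_vb_sq, EuclideanSpace.real_norm_sq_eq, Fin.sum_univ_three]
  ring

theorem norm_vb_le (v : V) : ‖vb v‖ ≤ ‖v‖ := by
  refine (sq_le_sq₀ (norm_nonneg _) (norm_nonneg _)).1 ?_
  rw [norm_sq_vb v]
  linarith [sq_nonneg (v 0)]

theorem measurable_rep : Measurable rep := by
  exact measurable_subtype_coe.comp (AddCircle.measurableEquivIoc 1 (-(1 / 2))).measurable

theorem Tor_rep_mem (y : UnitAddCircle) : rep y ∈ Ioc (-(1 / 2) : ℝ) (-(1 / 2) + 1) :=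
  (AddCircle.equivIoc 1 (-(1 / 2)) y).2

theorem Tor_coe_rep (y : UnitAddCircle) : ((rep y : ℝ) : UnitAddCircle) = y :=
  AddCircle.coe_equivIoc

theorem Tor_rep_coe {a : ℝ} (ha : a ∈ Ioc (-(1 / 2) : ℝ) (-(1 / 2) + 1)) :
    rep (a : UnitAddCircle) = a :=
  AddCircle.equivIoc_coe_of_mem ha

theorem Tor_abs_rep_le (y : UnitAddCircle) : |rep y| ≤ 1 / 2 := by
  have h := Tor_rep_mem y
  rw [abs_le]
  constructor <;> linarith [h.1, h.2]

theorem Tor_abs_rep (y : UnitAddCircle) : |rep y| = ‖y‖ := by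
  conv_rhs => rw [← Tor_coe_rep y]
  refine ((AddCircle.norm_coe_eq_abs_iff (1 : ℝ) one_ne_zero).2 ?_).symm
  simpa using Tor_abs_rep_le y

theorem Tor_abs_rep_add (y : UnitAddCircle) (a : ℝ) : |rep (y + a)| ≤ |rep y + a| := by
  rw [Tor_abs_rep]
  conv_lhs => rw [← Tor_coe_rep y, ← AddCircle.coe_add]
  exact QuotientAddGroup.norm_mk_le_norm

theorem Tor_rep_add {y : UnitAddCircle} {a : ℝ} (h : |rep y + a| < 1 / 2) :
    rep (y + a) = rep y + a := by
  conv_lhs => rw [← Tor_coe_rep y, ← AddCircle.coe_add]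
  rw [abs_lt] at h
  exact Tor_rep_coe ⟨h.1, by linarith [h.2]⟩

theorem Tor_xt_one (x : X) : xt x 1 = rep (x 1) := rfl

theorem Tor_xt_two (x : X) : xt x 2 = rep (x 2) := rfl

@[fun_prop]
theorem measurable_xt : Measurable xt := by
  refine (PiLp.volume_preserving_toLp (Fin 3)).measurable.comp (measurable_pi_lambda _ fun i => ?_)
  fin_cases i
  · exact measurable_const
  · exact measurable_rep.comp (measurable_pi_apply 1)
  · exact measurable_rep.comp (measurable_pi_apply 2)

@[fun_prop]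
theorem measurable_rr : Measurable rr := by
  exact measurable_xt.norm

@[fun_prop]
theorem measurable_xh : Measurable xh := by
  exact measurable_rr.inv.smul measurable_xt

theorem xt_zero (x : X) : xt x 0 = 0 := by
  rfl

theorem vb_xt (x : X) : vb (xt x) = xt x := by
  rw [vb, xt_zero, zero_smul, sub_zero]

theorem rr_nonneg (x : X) : 0 ≤ rr x := by
  exact norm_nonneg _

theorem Tor_rr_sq (x : X) : rr x ^ 2 = rep (x 1) ^ 2 + rep (x 2) ^ 2 := by
  rw [rr, ← vb_xt, norm_vb_sq, Tor_xt_one, Tor_xt_two]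

theorem rr_le_one (x : X) : rr x ≤ 1 := by
  have h1 := sq_le_sq' (abs_le.1 (Tor_abs_rep_le (x 1))).1 (abs_le.1 (Tor_abs_rep_le (x 1))).2
  have h2 := sq_le_sq' (abs_le.1 (Tor_abs_rep_le (x 2))).1 (abs_le.1 (Tor_abs_rep_le (x 2))).2
  refine (sq_le_sq₀ (rr_nonneg x) zero_le_one).1 ?_
  rw [Tor_rr_sq]
  linarith

theorem rr_zero : rr 0 = 0 := by
  have h : rep 0 = 0 := by
    rw [← abs_eq_zero, Tor_abs_rep, norm_zero]
  refine pow_eq_zero_iff (two_ne_zero) |>.1 ?_
  rw [Tor_rr_sq, Pi.zero_apply, Pi.zero_apply, h]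
  norm_num

theorem xt_eq (x : X) : xt x = rr x • xh x := by
  by_cases h : rr x = 0
  · rw [h, zero_smul]
    exact norm_eq_zero.1 h
  · rw [xh, smul_smul, mul_inv_cancel₀ h, one_smul]

theorem norm_xh {x : X} (hx : rr x ≠ 0) : ‖xh x‖ = 1 := by
  rw [xh, norm_smul, norm_inv, Real.norm_of_nonneg (rr_nonneg x)]
  exact inv_mul_cancel₀ hx

theorem norm_xh_le (x : X) : ‖xh x‖ ≤ 1 := by
  by_cases h : rr x = 0
  · rw [xh, h, inv_zero, zero_smul, norm_zero]
    exact zero_le_one
  · exact (norm_xh h).le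

theorem xh_zero (x : X) : xh x 0 = 0 := by
  rw [xh, PiLp.smul_apply, xt_zero, smul_zero]

theorem rr_add_le (x : X) (y : V) : rr (x + pr y) ≤ rr x + ‖vb y‖ := by
  refine le_trans ?_ (norm_add_le (xt x) (vb y))
  refine (sq_le_sq₀ (rr_nonneg _) (norm_nonneg _)).1 ?_
  rw [Tor_rr_sq, EuclideanSpace.real_norm_sq_eq, Fin.sum_univ_three]
  simp only [PiLp.add_apply, xt_zero, vb_zero, vb_one, vb_two, Tor_xt_one, Tor_xt_two]
  have h1 := sq_le_sq.2 (Tor_abs_rep_add (x 1) (y 1))
  have h2 := sq_le_sq.2 (Tor_abs_rep_add (x 2) (y 2))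
  change rep (x 1 + (y 1 : ℝ)) ^ 2 + rep (x 2 + (y 2 : ℝ)) ^ 2 ≤ _
  linarith [sq_nonneg ((0 : ℝ) + 0)]

/-- inside the cell the lift is additive -/
theorem xt_add {x : X} {y : V} (h : rr x + ‖vb y‖ < 1 / 2) : xt (x + pr y) = xt x + vb y := by
  have h0 : ∀ i, |(xt x + vb y) i| < 1 / 2 := fun i =>
    ((PiLp.norm_apply_le (xt x + vb y) i).trans (norm_add_le _ _)).trans_lt h
  have h1 := h0 1
  have h2 := h0 2
  rw [PiLp.add_apply, vb_one, Tor_xt_one] at h1
  rw [PiLp.add_apply, vb_two, Tor_xt_two] at h2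
  ext i
  fin_cases i
  · exact (xt_zero _).trans (by
      change (0 : ℝ) = (xt x + vb y) 0
      rw [PiLp.add_apply, xt_zero, vb_zero, add_zero])
  · change rep (x 1 + (y 1 : ℝ)) = (xt x + vb y) 1
    rw [PiLp.add_apply, vb_one, Tor_xt_one, Tor_rep_add h1]
  · change rep (x 2 + (y 2 : ℝ)) = (xt x + vb y) 2
    rw [PiLp.add_apply, vb_two, Tor_xt_two, Tor_rep_add h2]

theorem Tor_vol_rep {A : Set ℝ} (hA : MeasurableSet A) :
    volume (rep ⁻¹' A) = volume (A ∩ Ioc (-(1 / 2) : ℝ) (-(1 / 2) + 1)) := by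
  rw [← (UnitAddCircle.measurePreserving_mk (-(1 / 2))).measure_preimage
    (measurable_rep hA).nullMeasurableSet, Measure.restrict_apply' measurableSet_Ioc]
  congr 1
  ext a
  simp only [mem_inter_iff, mem_preimage]
  constructor
  · rintro ⟨h1, h2⟩
    exact ⟨by rwa [Tor_rep_coe h2] at h1, h2⟩
  · rintro ⟨h1, h2⟩
    exact ⟨by rwa [Tor_rep_coe h2], h2⟩

theorem Tor_vol_box {A B : Set ℝ} (hA : MeasurableSet A) (hB : MeasurableSet B) :
    volume {x : X | rep (x 1) ∈ A ∧ rep (x 2) ∈ B} =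
      volume (A ∩ Ioc (-(1 / 2) : ℝ) (-(1 / 2) + 1)) *
        volume (B ∩ Ioc (-(1 / 2) : ℝ) (-(1 / 2) + 1)) := by
  have e : {x : X | rep (x 1) ∈ A ∧ rep (x 2) ∈ B} =
      Set.pi univ ![univ, rep ⁻¹' A, rep ⁻¹' B] := by
    ext x
    simp [Fin.forall_fin_succ]
  rw [e, volume_pi_pi, Fin.prod_univ_three, ← Tor_vol_rep hA, ← Tor_vol_rep hB]
  simp

theorem volume_rr_le {a : ℝ} (ha : 0 ≤ a) :
    volume {x : X | rr x ≤ a} ≤ ENNReal.ofReal (4 * a ^ 2) := by
  have hs : {x : X | rr x ≤ a} ⊆ {x : X | rep (x 1) ∈ Icc (-a) a ∧ rep (x 2) ∈ Icc (-a) a} := by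
    intro x hx
    have h1 : rr x ^ 2 ≤ a ^ 2 := pow_le_pow_left₀ (rr_nonneg x) hx 2
    rw [Tor_rr_sq] at h1
    exact ⟨abs_le_of_sq_le_sq' (by linarith [sq_nonneg (rep (x 2))]) ha,
      abs_le_of_sq_le_sq' (by linarith [sq_nonneg (rep (x 1))]) ha⟩
  refine (measure_mono hs).trans ?_
  rw [Tor_vol_box measurableSet_Icc measurableSet_Icc]
  refine (mul_le_mul' (measure_mono inter_subset_left) (measure_mono inter_subset_left)).trans ?_
  rw [Real.volume_Icc, ← ENNReal.ofReal_mul (by linarith)]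
  exact ENNReal.ofReal_le_ofReal (le_of_eq (by ring))

theorem le_volume_rr {a : ℝ} (ha : 0 ≤ a) (ha' : a ≤ 1 / 8) :
    ENNReal.ofReal (a ^ 2 / 5) ≤ volume {x : X | a ≤ rr x ∧ rr x ≤ 2 * a} := by
  have hs : {x : X | rep (x 1) ∈ Icc a (3 / 2 * a) ∧ rep (x 2) ∈ Icc 0 (a / 2)} ⊆
      {x : X | a ≤ rr x ∧ rr x ≤ 2 * a} := by
    rintro x ⟨⟨h1, h2⟩, h3, h4⟩
    have e := Tor_rr_sq x
    constructor
    · refine (sq_le_sq₀ ha (rr_nonneg x)).1 ?_
      nlinarith
    · refine (sq_le_sq₀ (rr_nonneg x) (by linarith)).1 ?_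
      nlinarith
  refine le_trans ?_ (measure_mono hs)
  rw [Tor_vol_box measurableSet_Icc measurableSet_Icc, inter_eq_left.2, inter_eq_left.2,
    Real.volume_Icc, Real.volume_Icc, ← ENNReal.ofReal_mul (by linarith)]
  · exact ENNReal.ofReal_le_ofReal (by nlinarith)
  · exact fun t ht => ⟨by linarith [ht.1], by linarith [ht.2]⟩
  · exact fun t ht => ⟨by linarith [ht.1], by linarith [ht.2]⟩

theorem Tor_cell {Φ : X → ℝ≥0∞} (hΦ : Measurable Φ) {r : ℝ} (hr : r ≤ 1 / 2) :
    ∫⁻ y : V, (if ‖y‖ < r then Φ (pr y) else 0) ≤ ∫⁻ y, Φ y := by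
  have hm : Measurable fun y : V => if ‖y‖ < r then Φ (pr y) else 0 :=
    Measurable.ite (measurableSet_lt measurable_norm measurable_const) (hΦ.comp measurable_pr)
      measurable_const
  have mp := measurePreserving_pi
    (fun _ : Fin 3 => (volume : Measure ℝ).restrict (Ioc (-(1 / 2) : ℝ) (-(1 / 2) + 1)))
    (fun _ : Fin 3 => (volume : Measure UnitAddCircle))
    (fun _ => UnitAddCircle.measurePreserving_mk (-(1 / 2)))
  rw [← (PiLp.volume_preserving_toLp (Fin 3)).lintegral_comp hm, volume_pi (α := fun _ => UnitAddCircle),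
    ← mp.lintegral_comp hΦ, ← Measure.restrict_pi_pi,
    ← lintegral_indicator (MeasurableSet.univ_pi fun _ => measurableSet_Ioc), volume_pi]
  refine lintegral_mono fun y => ?_
  split_ifs with h
  · rw [indicator_of_mem]
    · exact le_rfl
    · intro i _
      have h1 := (PiLp.norm_apply_le (WithLp.toLp 2 y : V) i).trans_lt h
      rw [Real.norm_eq_abs, abs_lt] at h1
      exact ⟨by linarith [h1.1], by linarith [h1.2]⟩
  · exact zero_le

/-- change of variables from velocity to position -/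
theorem lintegral_vel_pos {Φ : X → ℝ≥0∞} (hΦ : Measurable Φ) (x : X) {σ A : ℝ} (hσ : 0 < σ)
    (hA : σ * A ≤ 1 / 2) :
    ∫⁻ v : V, (if ‖v‖ < A then Φ (x + pr ((-σ) • v)) else 0) ≤
      ENNReal.ofReal (1 / σ ^ 3) * ∫⁻ y, Φ y := by
  have hΦ' : Measurable fun y : X => Φ (x + y) := hΦ.comp (measurable_const_add x)
  have hm : Measurable fun y : V => if ‖y‖ < σ * A then Φ (x + pr y) else 0 :=
    Measurable.ite (measurableSet_lt measurable_norm measurable_const) (hΦ'.comp measurable_pr)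
      measurable_const
  have e : ∀ v : V, (if ‖v‖ < A then Φ (x + pr ((-σ) • v)) else 0) =
      (fun y : V => if ‖y‖ < σ * A then Φ (x + pr y) else 0) ((-σ) • v) := by
    intro v
    simp only [norm_smul, norm_neg, Real.norm_of_nonneg hσ.le, mul_lt_mul_iff_right₀ hσ]
  simp only [e]
  rw [← lintegral_map hm (measurable_const_smul (-σ)),
    Measure.map_addHaar_smul _ (neg_ne_zero.2 hσ.ne'), lintegral_smul_measure, smul_eq_mul]
  refine mul_le_mul' (le_of_eq ?_) ((Tor_cell hΦ' hA).trans (le_of_eq ?_))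
  · congr 1
    rw [abs_inv, abs_pow, abs_neg, abs_of_pos hσ]
    simp
  · exact lintegral_add_left_eq_self Φ x

end Vale.Agent.P140
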