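import Vale.Agent.P140.TrB
import Vale.Agent.P140.Prim

/-! Solutions of the truncated equation along characteristics. -/

namespace Vale.Agent.P140

open MeasureTheory Set Filter Topology
open scoped ENNReal

theorem trapi_ii {g : ℝ → ℝ} (hg : Measurable g) {s t C : ℝ} (hs : 0 ≤ s) (ht : 0 ≤ t)
    (hC : ∀ τ ∈ Icc (0 : ℝ) (max s t), |g τ| ≤ C) : IntervalIntegrable g volume s t := by
  refine (intervalIntegrable_const (c := C)).mono_fun' hg.aestronglyMeasurable ?_
  refine (ae_restrict_iff' measurableSet_uIoc).2 (Eventually.of_forall fun τ hτ => ?_)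
  exact hC τ ⟨(le_min hs ht).trans hτ.1.le, hτ.2⟩

theorem trapi_chain {T δ : ℝ} {y g : ℝ → ℝ} (hT : 0 ≤ T) (hδ : 0 < δ) (h : Prim T y g)
    (hy : ∀ t, 0 ≤ y t) :
    Prim T (fun t => y t / (1 + δ * y t)) (fun t => 1 / (1 + δ * y t) ^ 2 * g t) := by
  refine h.chain (β := fun x => x / (1 + δ * x)) (β' := fun x => 1 / (1 + δ * x) ^ 2) hT
    (convex_Ici 0) (fun t _ => hy t) (fun x hx => ?_) ?_
  · have hx' : 0 ≤ x := hx
    have h1 : 1 + δ * x ≠ 0 := by positivity
    have h2 := (hasDerivAt_id x).div (((hasDerivAt_id x).const_mul δ).const_add 1) h1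
    refine HasDerivAt.hasDerivWithinAt ?_
    have e : 1 / (1 + δ * x) ^ 2 = (1 * (1 + δ * x) - x * (δ * 1)) / (1 + δ * x) ^ 2 := by
      congr 1
      ring
    rw [e]
    exact h2
  · refine ContinuousOn.div continuousOn_const (by fun_prop) fun x hx => ?_
    have hx' : 0 ≤ x := hx
    positivity

namespace TrSol

variable {n : ℕ} {f0 : Om → ℝ} {f : ℝ → Om → ℝ} (h : TrSol n f0 f)
include h

theorem zero (z : Om) : f 0 z = f0 z := by
  have := h.mild 0 le_rfl z
  simpa [sh_zero, LamN] using this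

theorem meas_t (t : ℝ) : Measurable (f t) := by
  exact h.meas.of_uncurry_left

theorem pos {t : ℝ} (ht : 0 ≤ t) (z : Om) : 0 < f t z := by
  obtain ⟨c, hc, hl⟩ := h.lb t
  exact (mul_pos hc (G0_pos _)).trans_le (hl t ⟨ht, le_rfl⟩ z)

theorem integrable_moment (j : ℕ) {t : ℝ} (ht : 0 ≤ t) :
    Integrable (fun z : Om => (1 + ‖z.2‖) ^ j * f t z) := by
  obtain ⟨C, hC⟩ := h.ub t
  refine ((integrable_G0_Om j).const_mul C).mono' ?_ (Eventually.of_forall fun z => ?_)
  · exact (((measurable_snd.norm.const_add 1).pow_const j).mul (h.meas_t t)).aestronglyMeasurable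
  · have h1 : 0 ≤ (1 + ‖z.2‖) ^ j := by positivity
    rw [Real.norm_eq_abs, abs_of_nonneg (mul_nonneg h1 (h.nonneg t z)), mul_left_comm]
    exact mul_le_mul_of_nonneg_left (hC t ⟨ht, le_rfl⟩ z) h1

theorem integrable_t {t : ℝ} (ht : 0 ≤ t) : Integrable (f t) := by
  simpa using h.integrable_moment 0 ht

theorem qn_bdd (T : ℝ) : ∃ C : ℝ, ∀ t ∈ Icc (0 : ℝ) T, ∀ z, qn n (f t) z ≤ C * G0 z.2 := by
  obtain ⟨C, hC⟩ := h.ub T
  exact ⟨_, fun t ht z => qn_le h.npos (h.meas_t t) (h.nonneg t) (hC t ht) z⟩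

theorem ln_bdd {t : ℝ} (ht : 0 ≤ t) (z : Om) : ln n (f t) z ≤ 26 * (n : ℝ) ^ 2 := by
  obtain ⟨C, hC⟩ := h.ub t
  exact ln_le h.npos (h.meas_t t) (h.nonneg t) (hC t ⟨ht, le_rfl⟩) z

theorem ofReal_qn' {t : ℝ} (ht : 0 ≤ t) (z : Om) : ENNReal.ofReal (qn n (f t) z) =
    ENNReal.ofReal (kap n (f t) z.1) * Qp (kN n) (eo (f t) z.1) (eo (f t) z.1) z.2 := by
  obtain ⟨C, hC⟩ := h.ub t
  exact ofReal_qn h.npos (h.meas_t t) (h.nonneg t) (hC t ⟨ht, le_rfl⟩) z

theorem ofReal_ln' {t : ℝ} (ht : 0 ≤ t) (z : Om) : ENNReal.ofReal (ln n (f t) z) =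
    ENNReal.ofReal (kap n (f t) z.1) * Lo (kN n) (eo (f t) z.1) z.2 := by
  obtain ⟨C, hC⟩ := h.ub t
  exact ofReal_ln h.npos (h.meas_t t) (h.nonneg t) (hC t ⟨ht, le_rfl⟩) z

theorem ii_ln {s t : ℝ} (hs : 0 ≤ s) (ht : 0 ≤ t) (z : Om) :
    IntervalIntegrable (fun τ => ln n (f τ) (sh τ z)) volume s t := by
  refine trapi_ii (measurable_ln n h.meas (measurable_sh measurable_id measurable_const)) hs ht
    (C := 26 * (n : ℝ) ^ 2) fun τ hτ => ?_
  rw [abs_of_nonneg (ln_nonneg n (h.nonneg τ) _)]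
  exact h.ln_bdd hτ.1 _

theorem ii_qn {s t : ℝ} (hs : 0 ≤ s) (ht : 0 ≤ t) (z : Om) :
    IntervalIntegrable (fun τ => qn n (f τ) (sh τ z)) volume s t := by
  obtain ⟨C, hC⟩ := h.qn_bdd (max s t)
  refine trapi_ii (measurable_qn n h.meas (measurable_sh measurable_id measurable_const)) hs ht
    (C := C * G0 z.2) fun τ hτ => ?_
  rw [abs_of_nonneg (qn_nonneg n (h.nonneg τ) _)]
  exact hC τ hτ (sh τ z)

theorem LamN_nonneg {s t : ℝ} (hs : 0 ≤ s) (hst : s ≤ t) (z : Om) : 0 ≤ LamN n f s t z := by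
  exact intervalIntegral.integral_nonneg hst fun τ _ => ln_nonneg n (h.nonneg τ) _

theorem prim {T : ℝ} (hT : 0 ≤ T) (z : Om) :
    Prim T (fun t => f t (sh t z))
      (fun t => qn n (f t) (sh t z) - ln n (f t) (sh t z) * f t (sh t z)) := by
  exact prim_of_mild (y := fun t => f t (sh t z)) hT (h.ii_qn le_rfl hT z) (h.ii_ln le_rfl hT z)
    fun t ht => h.mild t ht.1 z

theorem mild2 {s t : ℝ} (hs : 0 ≤ s) (hst : s ≤ t) (z : Om) :
    f t (sh t z) = f s (sh s z) * Real.exp (-LamN n f s t z) +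
      ∫ τ in s..t, Real.exp (-LamN n f τ t z) * qn n (f τ) (sh τ z) := by
  have ht : 0 ≤ t := hs.trans hst
  have := ((h.prim ht z).mild (h.ii_ln le_rfl ht z) hs hst le_rfl).2
  simpa only [sub_add_cancel, LamN] using this

theorem two_time {s t : ℝ} (hs : 0 ≤ s) (hst : s ≤ t) (z : Om) :
    f s (sh s z) * Real.exp (-LamN n f s t z) ≤ f t (sh t z) := by
  rw [h.mild2 hs hst z]
  exact le_add_of_nonneg_right (intervalIntegral.integral_nonneg hst fun τ _ =>
    mul_nonneg (Real.exp_pos _).le (qn_nonneg n (h.nonneg τ) _))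

/-- exponential form of the equation renormalised by `β(s) = s / (1 + δ s)` -/
theorem mild_beta {δ t : ℝ} (hδ : 0 < δ) (ht : 0 ≤ t) (z : Om) :
    f t (sh t z) / (1 + δ * f t (sh t z)) =
      f0 z / (1 + δ * f0 z) * Real.exp (-LamN n f 0 t z) +
      ∫ τ in (0 : ℝ)..t, Real.exp (-LamN n f τ t z) *
        (qn n (f τ) (sh τ z) / (1 + δ * f τ (sh τ z)) ^ 2 +
          ln n (f τ) (sh τ z) * (δ * f τ (sh τ z) ^ 2 / (1 + δ * f τ (sh τ z)) ^ 2)) := by
  have := ((trapi_chain ht hδ (h.prim ht z) fun t => h.nonneg t _).mild (h.ii_ln le_rfl ht z)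
    le_rfl ht le_rfl).2
  rw [this, sh_zero, h.zero]
  congr 1
  refine intervalIntegral.integral_congr fun τ _ => ?_
  have h0 := h.nonneg τ (sh τ z)
  have h1 : 1 + δ * f τ (sh τ z) ≠ 0 := by positivity
  simp only [LamN]
  congr 1
  field_simp
  ring

/-- time increments of `β(f)` along characteristics -/
theorem abs_beta_sub_le {δ s t : ℝ} (hδ : 0 < δ) (hs : 0 ≤ s) (hst : s ≤ t) (z : Om) :
    |f t (sh t z) / (1 + δ * f t (sh t z)) - f s (sh s z) / (1 + δ * f s (sh s z))| ≤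
      ∫ τ in s..t, (qn n (f τ) (sh τ z) / (1 + δ * f τ (sh τ z)) + ln n (f τ) (sh τ z) / δ) := by
  have ht : 0 ≤ t := hs.trans hst
  have e := (trapi_chain ht hδ (h.prim ht z) fun t => h.nonneg t _).sub_eq ⟨hs, hst⟩ ⟨ht, le_rfl⟩
  rw [e, ← Real.norm_eq_abs]
  refine intervalIntegral.norm_integral_le_of_norm_le hst (Eventually.of_forall fun τ _ => ?_) ?_
  · have h0 := h.nonneg τ (sh τ z)
    have hq := qn_nonneg n (h.nonneg τ) (sh τ z)
    have hl := ln_nonneg n (h.nonneg τ) (sh τ z)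
    generalize f τ (sh τ z) = y at *
    generalize qn n (f τ) (sh τ z) = q at *
    generalize ln n (f τ) (sh τ z) = l at *
    have h1 : 1 ≤ 1 + δ * y := by nlinarith
    have h2 : 1 + δ * y ≤ (1 + δ * y) ^ 2 := by nlinarith
    have a1 : q / (1 + δ * y) ^ 2 ≤ q / (1 + δ * y) :=
      div_le_div_of_nonneg_left hq (by linarith) h2
    have a2 : l * y / (1 + δ * y) ^ 2 ≤ l / δ := by
      rw [div_le_div_iff₀ (by positivity) hδ, mul_assoc]
      exact mul_le_mul_of_nonneg_left (by nlinarith) hl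
    have a3 : 0 ≤ q / (1 + δ * y) ^ 2 := by positivity
    have a4 : 0 ≤ l * y / (1 + δ * y) ^ 2 := by positivity
    have a5 : 1 / (1 + δ * y) ^ 2 * (q - l * y) =
        q / (1 + δ * y) ^ 2 - l * y / (1 + δ * y) ^ 2 := by ring
    rw [Real.norm_eq_abs, a5, abs_le]
    constructor <;> linarith
  · refine IntervalIntegrable.add ?_ ((h.ii_ln hs ht z).div_const δ)
    have hm : Measurable fun τ => f τ (sh τ z) :=
      h.meas.comp (measurable_id.prodMk (measurable_sh measurable_id measurable_const))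
    refine (h.ii_qn hs ht z).mono_fun' ?_ (Eventually.of_forall fun τ => ?_)
    · exact ((measurable_qn n h.meas (measurable_sh measurable_id measurable_const)).div
        ((hm.const_mul δ).const_add 1)).aestronglyMeasurable
    · have h0 := h.nonneg τ (sh τ z)
      have hq := qn_nonneg n (h.nonneg τ) (sh τ z)
      have h1 : 1 ≤ 1 + δ * f τ (sh τ z) := by nlinarith
      show ‖qn n (f τ) (sh τ z) / (1 + δ * f τ (sh τ z))‖ ≤ qn n (f τ) (sh τ z)
      rw [Real.norm_eq_abs, abs_of_nonneg (by positivity)]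
      exact div_le_self hq h1

end TrSol

end Vale.Agent.P140
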