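import Vale.Agent.P140.Sph
import Vale.Agent.P140.Tor

/-! Elementary bounds for the truncated normalised collision operators. -/

namespace Vale.Agent.P140

open MeasureTheory Set Filter Topology
open scoped ENNReal

theorem G0_pos (v : V) : 0 < G0 v := by
  exact Real.exp_pos _

theorem G0_le_one (v : V) : G0 v ≤ 1 := by
  unfold G0
  exact Real.exp_le_one_iff.mpr (by nlinarith [sq_nonneg ‖v‖])

@[fun_prop]
theorem continuous_G0 : Continuous G0 := by
  unfold G0
  fun_prop

theorem integrable_G0_moment (j : ℕ) : Integrable (fun v : V => (1 + ‖v‖) ^ j * G0 v) := by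
  have h := integrable_gauss_moment j 0 (b := 2) (by norm_num)
  simpa [G0] using h

theorem integrable_G0_Om (j : ℕ) : Integrable (fun z : Om => (1 + ‖z.2‖) ^ j * G0 z.2) := by
  exact (integrable_G0_moment j).comp_snd (volume : Measure X)

theorem measurable_eo {α : Type*} [MeasurableSpace α] {g : α → Om → ℝ} {x : α → X}
    (hg : Measurable (Function.uncurry g)) (hx : Measurable x) :
    Measurable (Function.uncurry (fun a => eo (g a) (x a))) := by
  have h : Measurable (fun p : α × V => Function.uncurry g (p.1, (x p.1, p.2))) :=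
    hg.comp (measurable_fst.prodMk ((hx.comp measurable_fst).prodMk measurable_snd))
  exact ENNReal.measurable_ofReal.comp h

theorem measurable_eo' {g : Om → ℝ} (hg : Measurable g) (x : X) : Measurable (eo g x) := by
  exact ENNReal.measurable_ofReal.comp (hg.comp (measurable_const.prodMk measurable_id))

theorem measurable_den {α : Type*} [MeasurableSpace α] {g : α → Om → ℝ} {x : α → X}
    (hg : Measurable (Function.uncurry g)) (hx : Measurable x) :
    Measurable (fun a => den (g a) (x a)) := by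
  have h : Measurable (fun p : α × V => Function.uncurry g (p.1, (x p.1, p.2))) :=
    hg.comp (measurable_fst.prodMk ((hx.comp measurable_fst).prodMk measurable_snd))
  exact (h.stronglyMeasurable.integral_prod_right' (ν := (volume : Measure V))).measurable

theorem measurable_kap (n : ℕ) {α : Type*} [MeasurableSpace α] {g : α → Om → ℝ} {x : α → X}
    (hg : Measurable (Function.uncurry g)) (hx : Measurable x) :
    Measurable (fun a => kap n (g a) (x a)) := by
  have h := measurable_den hg hx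
  unfold kap
  exact measurable_const.div (measurable_const.add (h.div_const _))

theorem measurable_qn (n : ℕ) {α : Type*} [MeasurableSpace α] {g : α → Om → ℝ} {z : α → Om}
    (hg : Measurable (Function.uncurry g)) (hz : Measurable z) :
    Measurable (fun a => qn n (g a) (z a)) := by
  have h1 := measurable_kap n hg (measurable_fst.comp hz)
  have h2 := measurable_eo hg (measurable_fst.comp hz)
  exact h1.mul (measurable_Qp (isKer_kN n) h2 h2 (measurable_snd.comp hz)).ennreal_toReal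

theorem measurable_ln (n : ℕ) {α : Type*} [MeasurableSpace α] {g : α → Om → ℝ} {z : α → Om}
    (hg : Measurable (Function.uncurry g)) (hz : Measurable z) :
    Measurable (fun a => ln n (g a) (z a)) := by
  have h1 := measurable_kap n hg (measurable_fst.comp hz)
  have h2 := measurable_eo hg (measurable_fst.comp hz)
  exact h1.mul (measurable_Lo (isKer_kN n) h2 (measurable_snd.comp hz)).ennreal_toReal

theorem measurable_LamN (n : ℕ) {f : ℝ → Om → ℝ} (hf : Measurable (Function.uncurry f)) :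
    Measurable (fun p : ℝ × ℝ × Om => LamN n f p.1 p.2.1 p.2.2) := by
  have hl : Measurable (fun q : (ℝ × ℝ × Om) × ℝ => ln n (f q.2) (sh q.2 q.1.2.2)) := by
    refine measurable_ln n (g := fun q : (ℝ × ℝ × Om) × ℝ => f q.2) ?_ ?_
    · exact hf.comp ((measurable_snd.comp measurable_fst).prodMk measurable_snd)
    · exact measurable_sh measurable_snd (by fun_prop)
  have key : ∀ a b : ℝ × ℝ × Om → ℝ, Measurable a → Measurable b →
      Measurable (fun p : ℝ × ℝ × Om => ∫ τ in Ioc (a p) (b p), ln n (f τ) (sh τ p.2.2)) := by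
    intro a b ha hb
    have hs : MeasurableSet {q : (ℝ × ℝ × Om) × ℝ | a q.1 < q.2 ∧ q.2 ≤ b q.1} :=
      (measurableSet_lt (ha.comp measurable_fst) measurable_snd).inter
        (measurableSet_le measurable_snd (hb.comp measurable_fst))
    have h2 := ((hl.indicator hs).stronglyMeasurable.integral_prod_right'
      (ν := (volume : Measure ℝ))).measurable
    convert h2 using 2 with p
    rw [← integral_indicator measurableSet_Ioc]
    refine integral_congr_ae (Eventually.of_forall fun τ => ?_)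
    simp only [Set.indicator, mem_Ioc, mem_ofPred_eq]
  unfold LamN intervalIntegral
  exact (key _ _ measurable_fst (by fun_prop)).sub (key _ _ (by fun_prop) measurable_fst)

theorem measurable_dissN (n : ℕ) {f : ℝ → Om → ℝ} (hf : Measurable (Function.uncurry f)) :
    Measurable (fun t => dissN n (f t)) := by
  unfold dissN
  refine Measurable.const_mul ?_ _
  have hk : Measurable (fun q : ℝ × X => kap n (f q.1) q.2) :=
    measurable_kap n (g := fun q : ℝ × X => f q.1)
      (hf.comp ((measurable_fst.comp measurable_fst).prodMk measurable_snd)) measurable_snd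
  have hev : ∀ u : (ℝ × X) × V × V × S2 → V, Measurable u →
      Measurable (fun p : (ℝ × X) × V × V × S2 => f p.1.1 (p.1.2, u p)) := fun u hu =>
    hf.comp ((measurable_fst.comp measurable_fst).prodMk
      ((measurable_snd.comp measurable_fst).prodMk hu))
  have hI : Measurable (fun q : ℝ × X => I3 (fun v w ω => kN n v w ω *
      jE (f q.1 (q.2, vp v w ω) * f q.1 (q.2, vq v w ω)) (f q.1 (q.2, v) * f q.1 (q.2, w)))) := by
    refine measurable_I3 (Φ := fun (q : ℝ × X) v w ω => kN n v w ω *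
      jE (f q.1 (q.2, vp v w ω) * f q.1 (q.2, vq v w ω)) (f q.1 (q.2, v) * f q.1 (q.2, w))) ?_
    refine Measurable.mul ((isKer_kN n).measurable_comp (by fun_prop) (by fun_prop) (by fun_prop)) ?_
    exact measurable_jE.comp (((hev _ (by fun_prop)).mul (hev _ (by fun_prop))).prodMk
      ((hev _ (by fun_prop)).mul (hev _ (by fun_prop))))
  exact ((ENNReal.measurable_ofReal.comp hk).mul hI).lintegral_prod_right'

theorem kap_pos (n : ℕ) {g : Om → ℝ} (hg : ∀ z, 0 ≤ g z) (x : X) : 0 < kap n g x := by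
  have h : 0 ≤ den g x / n := div_nonneg (integral_nonneg fun v => hg _) (Nat.cast_nonneg n)
  unfold kap
  positivity

theorem kap_le_one (n : ℕ) {g : Om → ℝ} (hg : ∀ z, 0 ≤ g z) (x : X) : kap n g x ≤ 1 := by
  have h : 0 ≤ den g x / n := div_nonneg (integral_nonneg fun v => hg _) (Nat.cast_nonneg n)
  unfold kap
  rw [div_le_one (by linarith)]
  linarith

theorem qn_nonneg (n : ℕ) {g : Om → ℝ} (hg : ∀ z, 0 ≤ g z) (z : Om) : 0 ≤ qn n g z := by
  exact mul_nonneg (kap_pos n hg _).le ENNReal.toReal_nonneg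

theorem ln_nonneg (n : ℕ) {g : Om → ℝ} (hg : ∀ z, 0 ≤ g z) (z : Om) : 0 ≤ ln n g z := by
  exact mul_nonneg (kap_pos n hg _).le ENNReal.toReal_nonneg

private theorem trb_den_nonneg {g : Om → ℝ} (hg : ∀ z, 0 ≤ g z) (x : X) : 0 ≤ den g x :=
  integral_nonneg fun _ => hg _

private theorem trb_M_nonneg {g : Om → ℝ} (h0 : ∀ z, 0 ≤ g z) {M : ℝ}
    (hM : ∀ z, g z ≤ M * G0 z.2) : 0 ≤ M := by
  have h := (h0 (0, 0)).trans (hM (0, 0))
  exact nonneg_of_mul_nonneg_left h (G0_pos _)

private theorem trb_kap_den {n : ℕ} (hn : 1 ≤ n) {g : Om → ℝ} (hg : ∀ z, 0 ≤ g z) (x : X) :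
    kap n g x * den g x ≤ n := by
  have hd := trb_den_nonneg hg x
  have hn' : (0 : ℝ) < n := by exact_mod_cast hn
  unfold kap
  rw [div_mul_eq_mul_div, one_mul, div_le_iff₀ (by positivity), mul_add, mul_div_cancel₀ _ hn'.ne']
  linarith

private theorem trb_one_le {n : ℕ} {v : V} (hz : ‖v‖ ≤ n) :
    1 ≤ Real.exp (2 * (n : ℝ) ^ 2) * G0 v := by
  unfold G0
  rw [← Real.exp_add]
  refine Real.one_le_exp ?_
  nlinarith [norm_nonneg v]

private theorem trb_kN_zero {n : ℕ} {v : V} (hz : (n : ℝ) < ‖v‖) (w : V) (ω : S2) :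
    kN n v w ω = 0 := by
  unfold kN
  rw [if_neg]
  rintro ⟨h, -⟩
  have hn : (0 : ℝ) ≤ n := Nat.cast_nonneg n
  nlinarith [sq_nonneg ‖w‖]

private theorem trb_prod_lip {k k' q q' a b c : ℝ} (hk0 : 0 ≤ k) (hk1 : k ≤ 1)
    (hk : |k - k'| ≤ a) (hq : |q - q'| ≤ b) (hq0 : 0 ≤ q') (hq1 : q' ≤ c) :
    |k * q - k' * q'| ≤ b + a * c := by
  have h : k * q - k' * q' = k * (q - q') + (k - k') * q' := by ring
  rw [h]
  refine (abs_add_le _ _).trans (add_le_add ?_ ?_)
  · rw [abs_mul, abs_of_nonneg hk0]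
    exact (mul_le_of_le_one_left (abs_nonneg _) hk1).trans hq
  · rw [abs_mul, abs_of_nonneg hq0]
    exact mul_le_mul hk hq1 hq0 ((abs_nonneg _).trans hk)

private theorem trb_intG : Integrable G0 := by simpa using integrable_G0_moment 0

private theorem trb_lintG {D : ℝ} (hD : 0 ≤ D) :
    ∫⁻ u, ENNReal.ofReal (D * G0 u) = ENNReal.ofReal (D * ∫ v, G0 v) := by
  rw [← integral_const_mul]
  exact (ofReal_integral_eq_lintegral_ofReal (trb_intG.const_mul D)
    (Eventually.of_forall fun v => mul_nonneg hD (G0_pos v).le)).symm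

section
variable {n : ℕ} (hn : 1 ≤ n) {g : Om → ℝ} (hm : Measurable g) (h0 : ∀ z, 0 ≤ g z) {M : ℝ}
  (hM : ∀ z, g z ≤ M * G0 z.2)
include hm h0 hM

theorem integrable_slice (x : X) : Integrable (fun v => g (x, v)) := by
  have hG : Integrable G0 := by simpa using integrable_G0_moment 0
  refine (hG.const_mul M).mono' (hm.comp (measurable_const.prodMk measurable_id)).aestronglyMeasurable
    (Eventually.of_forall fun v => ?_)
  rw [Real.norm_of_nonneg (h0 _)]
  exact hM (x, v)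

theorem lintegral_eo (x : X) : ∫⁻ v, eo g x v = ENNReal.ofReal (den g x) := by
  exact (ofReal_integral_eq_lintegral_ofReal (integrable_slice hm h0 hM x)
    (Eventually.of_forall fun v => h0 _)).symm

private theorem trb_den_le (x : X) : den g x ≤ M * ∫ v, G0 v := by
  rw [← integral_const_mul]
  exact integral_mono (integrable_slice hm h0 hM x) (trb_intG.const_mul M) fun v => hM (x, v)

private theorem trb_eo_le (x : X) (v : V) : eo g x v ≤ ENNReal.ofReal M := by
  refine ENNReal.ofReal_le_ofReal ((hM (x, v)).trans ?_)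
  exact mul_le_of_le_one_right (trb_M_nonneg h0 hM) (G0_le_one v)

private theorem trb_Lo_le (z : Om) : Lo (kN n) (eo g z.1) z.2 ≤
    (if ‖z.2‖ ≤ n then ENNReal.ofReal (26 * n * den g z.1) else 0) := by
  refine (Lo_kN_le n (measurable_eo' hm z.1) z.2).trans (le_of_eq ?_)
  rw [lintegral_eo hm h0 hM, ← ENNReal.ofReal_mul (by positivity)]

include hn

private theorem trb_Qp_le (z : Om) : Qp (kN n) (eo g z.1) (eo g z.1) z.2 ≤
    (if ‖z.2‖ ≤ n then ENNReal.ofReal (32 * (n : ℝ) ^ 3 * M * den g z.1) else 0) := by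
  have hM0 := trb_M_nonneg h0 hM
  refine (Qp_kN_le n hn (measurable_eo' hm z.1) (measurable_eo' hm z.1)
    (trb_eo_le hm h0 hM z.1) z.2).trans (le_of_eq ?_)
  rw [lintegral_eo hm h0 hM, ← ENNReal.ofReal_mul (by positivity),
    ← ENNReal.ofReal_mul (by positivity)]

theorem Qp_kN_lt_top (z : Om) : Qp (kN n) (eo g z.1) (eo g z.1) z.2 < ⊤ := by
  refine (trb_Qp_le hn hm h0 hM z).trans_lt ?_
  split_ifs
  · exact ENNReal.ofReal_lt_top
  · exact ENNReal.zero_lt_top

theorem Lo_kN_lt_top (z : Om) : Lo (kN n) (eo g z.1) z.2 < ⊤ := by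
  refine (trb_Lo_le hm h0 hM z).trans_lt ?_
  split_ifs
  · exact ENNReal.ofReal_lt_top
  · exact ENNReal.zero_lt_top

theorem ofReal_qn (z : Om) : ENNReal.ofReal (qn n g z) =
    ENNReal.ofReal (kap n g z.1) * Qp (kN n) (eo g z.1) (eo g z.1) z.2 := by
  unfold qn
  rw [ENNReal.ofReal_mul (kap_pos n h0 _).le,
    ENNReal.ofReal_toReal (Qp_kN_lt_top hn hm h0 hM z).ne]

theorem ofReal_ln (z : Om) : ENNReal.ofReal (ln n g z) =
    ENNReal.ofReal (kap n g z.1) * Lo (kN n) (eo g z.1) z.2 := by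
  unfold ln
  rw [ENNReal.ofReal_mul (kap_pos n h0 _).le,
    ENNReal.ofReal_toReal (Lo_kN_lt_top hn hm h0 hM z).ne]

theorem ln_le (z : Om) : ln n g z ≤ 26 * (n : ℝ) ^ 2 := by
  have hd := trb_den_nonneg h0 z.1
  have hn' : (1 : ℝ) ≤ n := by exact_mod_cast hn
  have h1 : (Lo (kN n) (eo g z.1) z.2).toReal ≤ 26 * n * den g z.1 := by
    refine ENNReal.toReal_le_of_le_ofReal (by positivity) ((trb_Lo_le hm h0 hM z).trans ?_)
    split_ifs
    · exact le_rfl
    · exact zero_le
  have h2 := trb_kap_den hn h0 z.1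
  have h3 := (kap_pos n h0 z.1).le
  unfold ln
  calc kap n g z.1 * (Lo (kN n) (eo g z.1) z.2).toReal
      ≤ kap n g z.1 * (26 * n * den g z.1) := mul_le_mul_of_nonneg_left h1 h3
    _ = 26 * n * (kap n g z.1 * den g z.1) := by ring
    _ ≤ 26 * n * n := mul_le_mul_of_nonneg_left h2 (by positivity)
    _ = 26 * (n : ℝ) ^ 2 := by ring

theorem qn_le (z : Om) :
    qn n g z ≤ 32 * (n : ℝ) ^ 4 * Real.exp (2 * (n : ℝ) ^ 2) * M * G0 z.2 := by
  have hd := trb_den_nonneg h0 z.1
  have hM0 := trb_M_nonneg h0 hM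
  have hG := G0_pos z.2
  by_cases hz : ‖z.2‖ ≤ n
  · have h1 : (Qp (kN n) (eo g z.1) (eo g z.1) z.2).toReal ≤ 32 * (n : ℝ) ^ 3 * M * den g z.1 := by
      refine ENNReal.toReal_le_of_le_ofReal (by positivity) ((trb_Qp_le hn hm h0 hM z).trans ?_)
      rw [if_pos hz]
    have h2 := trb_kap_den hn h0 z.1
    have h3 := (kap_pos n h0 z.1).le
    have h4 := trb_one_le hz
    unfold qn
    calc kap n g z.1 * (Qp (kN n) (eo g z.1) (eo g z.1) z.2).toReal
        ≤ kap n g z.1 * (32 * (n : ℝ) ^ 3 * M * den g z.1) := mul_le_mul_of_nonneg_left h1 h3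
      _ = 32 * (n : ℝ) ^ 3 * M * (kap n g z.1 * den g z.1) := by ring
      _ ≤ 32 * (n : ℝ) ^ 3 * M * n := mul_le_mul_of_nonneg_left h2 (by positivity)
      _ = 32 * (n : ℝ) ^ 4 * M * 1 := by ring
      _ ≤ 32 * (n : ℝ) ^ 4 * M * (Real.exp (2 * (n : ℝ) ^ 2) * G0 z.2) :=
          mul_le_mul_of_nonneg_left h4 (by positivity)
      _ = _ := by ring
  · have h1 := trb_Qp_le hn hm h0 hM z
    rw [if_neg hz, nonpos_iff_eq_zero] at h1
    unfold qn
    rw [h1, ENNReal.toReal_zero, mul_zero]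
    positivity

omit hm h0 hM hn in
theorem qn_eq_zero (z : Om) (hz : (n : ℝ) < ‖z.2‖) : qn n g z = 0 := by
  unfold qn Qp
  simp [trb_kN_zero hz]

omit hm h0 hM hn in
theorem ln_eq_zero (z : Om) (hz : (n : ℝ) < ‖z.2‖) : ln n g z = 0 := by
  unfold ln Lo
  simp [trb_kN_zero hz]

end

private theorem trb_eo_add {g g' : Om → ℝ} {D : ℝ}
    (hD : ∀ z, |g z - g' z| ≤ D * G0 z.2) (x : X) (v : V) :
    eo g x v ≤ eo g' x v + ENNReal.ofReal (D * G0 v) := by
  refine le_trans (ENNReal.ofReal_le_ofReal ?_) ENNReal.ofReal_add_le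
  have := (abs_le.mp (hD (x, v))).2
  linarith

private theorem trb_kap_lip {n : ℕ} (hn : 1 ≤ n) {g g' : Om → ℝ} {M D : ℝ}
    (hm : Measurable g) (hm' : Measurable g') (h0 : ∀ z, 0 ≤ g z) (h0' : ∀ z, 0 ≤ g' z)
    (hM : ∀ z, g z ≤ M * G0 z.2) (hM' : ∀ z, g' z ≤ M * G0 z.2)
    (hD : ∀ z, |g z - g' z| ≤ D * G0 z.2) (x : X) :
    |kap n g x - kap n g' x| ≤ D * ∫ v, G0 v := by
  have hn' : (1 : ℝ) ≤ n := by exact_mod_cast hn
  have h1 : |den g x - den g' x| ≤ D * ∫ v, G0 v := by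
    unfold den
    rw [← integral_sub (integrable_slice hm h0 hM x) (integrable_slice hm' h0' hM' x),
      ← integral_const_mul, ← Real.norm_eq_abs]
    exact norm_integral_le_of_norm_le (trb_intG.const_mul D)
      (Eventually.of_forall fun v => hD (x, v))
  refine le_trans ?_ h1
  have ha := trb_den_nonneg h0 x
  have hb := trb_den_nonneg h0' x
  unfold kap
  set a := den g x
  set b := den g' x
  have ha' : 0 ≤ a / n := by positivity
  have hb' : 0 ≤ b / n := by positivity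
  have h2 : 1 / (1 + a / n) - 1 / (1 + b / n) = (b - a) / (n * (1 + a / n) * (1 + b / n)) := by
    field_simp
    ring
  rw [h2, abs_div, abs_sub_comm, abs_of_pos (a := n * (1 + a / n) * (1 + b / n)) (by positivity)]
  refine div_le_self (abs_nonneg _) ?_
  exact one_le_mul_of_one_le_of_one_le (one_le_mul_of_one_le_of_one_le hn' (by linarith))
    (by linarith)

private theorem trb_Lo_lip {n : ℕ} (hn : 1 ≤ n) {g g' : Om → ℝ} {M D : ℝ}
    (hm' : Measurable g') (h0 : ∀ z, 0 ≤ g z) (h0' : ∀ z, 0 ≤ g' z)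
    (hM' : ∀ z, g' z ≤ M * G0 z.2) (hD : ∀ z, |g z - g' z| ≤ D * G0 z.2) (z : Om) :
    (Lo (kN n) (eo g z.1) z.2).toReal ≤
      (Lo (kN n) (eo g' z.1) z.2).toReal + 26 * n * (D * ∫ v, G0 v) := by
  have hD0 : 0 ≤ D := trb_M_nonneg (g := fun z => |g z - g' z|) (fun z => abs_nonneg _) hD
  have hc0 : 0 ≤ ∫ v, G0 v := integral_nonneg fun v => (G0_pos v).le
  have hδ : Measurable (fun u : V => ENNReal.ofReal (D * G0 u)) :=
    ENNReal.measurable_ofReal.comp (continuous_G0.measurable.const_mul D)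
  have h1 : Lo (kN n) (eo g z.1) z.2 ≤
      Lo (kN n) (eo g' z.1) z.2 + ENNReal.ofReal (26 * n * (D * ∫ v, G0 v)) := by
    refine (Lo_mono (fun _ _ _ => le_rfl) (trb_eo_add hD z.1) z.2).trans ?_
    rw [Lo_add (isKer_kN n) (measurable_eo' hm' z.1) hδ]
    refine add_le_add le_rfl ((Lo_kN_le n hδ z.2).trans ?_)
    split_ifs
    · rw [trb_lintG hD0, ← ENNReal.ofReal_mul (by positivity)]
    · exact zero_le
  refine ENNReal.toReal_le_of_le_ofReal (by positivity) (h1.trans (le_of_eq ?_))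
  rw [ENNReal.ofReal_add ENNReal.toReal_nonneg (by positivity),
    ENNReal.ofReal_toReal (Lo_kN_lt_top hn hm' h0' hM' z).ne]

private theorem trb_Qp_lip {n : ℕ} (hn : 1 ≤ n) {g g' : Om → ℝ} {M D : ℝ}
    (hm : Measurable g) (hm' : Measurable g') (h0 : ∀ z, 0 ≤ g z) (h0' : ∀ z, 0 ≤ g' z)
    (hM : ∀ z, g z ≤ M * G0 z.2) (hM' : ∀ z, g' z ≤ M * G0 z.2)
    (hD : ∀ z, |g z - g' z| ≤ D * G0 z.2) (z : Om) :
    (Qp (kN n) (eo g z.1) (eo g z.1) z.2).toReal ≤
      (Qp (kN n) (eo g' z.1) (eo g' z.1) z.2).toReal +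
        64 * (n : ℝ) ^ 3 * M * (D * ∫ v, G0 v) := by
  have hD0 : 0 ≤ D := trb_M_nonneg (g := fun z => |g z - g' z|) (fun z => abs_nonneg _) hD
  have hM0 := trb_M_nonneg h0 hM
  have hc0 : 0 ≤ ∫ v, G0 v := integral_nonneg fun v => (G0_pos v).le
  have hδ : Measurable (fun u : V => ENNReal.ofReal (D * G0 u)) :=
    ENNReal.measurable_ofReal.comp (continuous_G0.measurable.const_mul D)
  have hF := measurable_eo' hm z.1
  have hF' := measurable_eo' hm' z.1
  have h2 : Qp (kN n) (fun u : V => ENNReal.ofReal (D * G0 u)) (eo g z.1) z.2 ≤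
      ENNReal.ofReal (32 * (n : ℝ) ^ 3 * M * (D * ∫ v, G0 v)) := by
    refine (Qp_kN_le n hn hδ hF (trb_eo_le hm h0 hM z.1) z.2).trans ?_
    split_ifs
    · rw [trb_lintG hD0, ← ENNReal.ofReal_mul (by positivity), ← ENNReal.ofReal_mul (by positivity)]
    · exact zero_le
  have h3 : Qp (kN n) (eo g' z.1) (fun u : V => ENNReal.ofReal (D * G0 u)) z.2 ≤
      ENNReal.ofReal (32 * (n : ℝ) ^ 3 * M * (D * ∫ v, G0 v)) := by
    have hb : ∀ u : V, ENNReal.ofReal (D * G0 u) ≤ ENNReal.ofReal D := fun u =>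
      ENNReal.ofReal_le_ofReal (mul_le_of_le_one_right hD0 (G0_le_one u))
    refine (Qp_kN_le n hn hF' hδ hb z.2).trans ?_
    split_ifs
    · rw [lintegral_eo hm' h0' hM', ← ENNReal.ofReal_mul (by positivity),
        ← ENNReal.ofReal_mul (by positivity)]
      refine ENNReal.ofReal_le_ofReal ?_
      calc 32 * (n : ℝ) ^ 3 * D * den g' z.1 ≤ 32 * (n : ℝ) ^ 3 * D * (M * ∫ v, G0 v) :=
            mul_le_mul_of_nonneg_left (trb_den_le hm' h0' hM' z.1) (by positivity)
        _ = _ := by ring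
    · exact zero_le
  have h1 : Qp (kN n) (eo g z.1) (eo g z.1) z.2 ≤ Qp (kN n) (eo g' z.1) (eo g' z.1) z.2 +
      ENNReal.ofReal (64 * (n : ℝ) ^ 3 * M * (D * ∫ v, G0 v)) := by
    calc Qp (kN n) (eo g z.1) (eo g z.1) z.2
        ≤ Qp (kN n) (fun u => eo g' z.1 u + ENNReal.ofReal (D * G0 u)) (eo g z.1) z.2 :=
          Qp_mono (fun _ _ _ => le_rfl) (trb_eo_add hD z.1) (fun _ => le_rfl) z.2
      _ = Qp (kN n) (eo g' z.1) (eo g z.1) z.2 +
          Qp (kN n) (fun u : V => ENNReal.ofReal (D * G0 u)) (eo g z.1) z.2 :=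
          Qp_add_left (isKer_kN n) hF' hδ hF z.2
      _ ≤ Qp (kN n) (eo g' z.1) (fun u => eo g' z.1 u + ENNReal.ofReal (D * G0 u)) z.2 +
          ENNReal.ofReal (32 * (n : ℝ) ^ 3 * M * (D * ∫ v, G0 v)) :=
          add_le_add (Qp_mono (fun _ _ _ => le_rfl) (fun _ => le_rfl) (trb_eo_add hD z.1) z.2) h2
      _ ≤ Qp (kN n) (eo g' z.1) (eo g' z.1) z.2 +
          ENNReal.ofReal (32 * (n : ℝ) ^ 3 * M * (D * ∫ v, G0 v)) +
          ENNReal.ofReal (32 * (n : ℝ) ^ 3 * M * (D * ∫ v, G0 v)) := by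
          rw [Qp_add_right (isKer_kN n) hF' hF' hδ z.2]
          exact add_le_add (add_le_add le_rfl h3) le_rfl
      _ = _ := by
          rw [add_assoc, ← ENNReal.ofReal_add (by positivity) (by positivity)]
          congr 2
          ring
  refine ENNReal.toReal_le_of_le_ofReal (by positivity) (h1.trans (le_of_eq ?_))
  rw [ENNReal.ofReal_add ENNReal.toReal_nonneg (by positivity),
    ENNReal.ofReal_toReal (Qp_kN_lt_top hn hm' h0' hM' z).ne]

/-- Lipschitz bounds -/
theorem exists_lip (n : ℕ) (hn : 1 ≤ n) (M : ℝ) : ∃ K : ℝ, 0 ≤ K ∧ ∀ g g' : Om → ℝ,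
    Measurable g → Measurable g' → (∀ z, 0 ≤ g z) → (∀ z, 0 ≤ g' z) →
    (∀ z, g z ≤ M * G0 z.2) → (∀ z, g' z ≤ M * G0 z.2) →
    ∀ D : ℝ, (∀ z, |g z - g' z| ≤ D * G0 z.2) →
      ∀ z, |qn n g z - qn n g' z| ≤ K * D * G0 z.2 ∧ |ln n g z - ln n g' z| ≤ K * D := by
  obtain ⟨c, hc⟩ : ∃ c : ℝ, c = ∫ v, G0 v := ⟨_, rfl⟩
  have hc0 : 0 ≤ c := hc ▸ integral_nonneg fun v => (G0_pos v).le
  have hn' : (1 : ℝ) ≤ n := by exact_mod_cast hn
  obtain ⟨K1, hK1⟩ : ∃ K1 : ℝ, K1 =
      (64 * (n : ℝ) ^ 3 * |M| * c + c * (32 * (n : ℝ) ^ 3 * |M| * (|M| * c))) *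
        Real.exp (2 * (n : ℝ) ^ 2) := ⟨_, rfl⟩
  obtain ⟨K2, hK2⟩ : ∃ K2 : ℝ, K2 = 26 * n * c + c * (26 * n * (|M| * c)) := ⟨_, rfl⟩
  have hK10 : 0 ≤ K1 := by rw [hK1]; positivity
  have hK20 : 0 ≤ K2 := by rw [hK2]; positivity
  refine ⟨K1 + K2, by positivity, fun g g' hm hm' h0 h0' hM hM' D hD z => ?_⟩
  have hM0 := trb_M_nonneg h0 hM
  have hD0 : 0 ≤ D := trb_M_nonneg (g := fun z => |g z - g' z|) (fun z => abs_nonneg _) hD
  have hD' : ∀ z, |g' z - g z| ≤ D * G0 z.2 := fun z => by rw [abs_sub_comm]; exact hD z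
  rw [abs_of_nonneg hM0] at hK1 hK2
  have hG := G0_pos z.2
  have hk := trb_kap_lip hn hm hm' h0 h0' hM hM' hD z.1
  have hk0 := (kap_pos n h0 z.1).le
  have hk1 := kap_le_one n h0 z.1
  have hd' := trb_den_le hm' h0' hM' z.1
  have hd0' := trb_den_nonneg h0' z.1
  rw [← hc] at hk hd'
  constructor
  · by_cases hz : ‖z.2‖ ≤ n
    · have h1 := trb_Qp_lip hn hm hm' h0 h0' hM hM' hD z
      have h2 := trb_Qp_lip hn hm' hm h0' h0 hM' hM hD' z
      rw [← hc] at h1 h2
      have h3 : (Qp (kN n) (eo g' z.1) (eo g' z.1) z.2).toReal ≤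
          32 * (n : ℝ) ^ 3 * M * (M * c) := by
        have h6 : (Qp (kN n) (eo g' z.1) (eo g' z.1) z.2).toReal ≤
            32 * (n : ℝ) ^ 3 * M * den g' z.1 := by
          refine ENNReal.toReal_le_of_le_ofReal (by positivity)
            ((trb_Qp_le hn hm' h0' hM' z).trans ?_)
          rw [if_pos hz]
        exact h6.trans (mul_le_mul_of_nonneg_left hd' (by positivity))
      have h4 := trb_one_le hz
      have h5 := trb_prod_lip hk0 hk1 hk (abs_sub_le_iff.mpr ⟨sub_le_iff_le_add'.mpr h1,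
        sub_le_iff_le_add'.mpr h2⟩) ENNReal.toReal_nonneg h3
      unfold qn
      calc _ ≤ _ := h5
        _ = (64 * (n : ℝ) ^ 3 * M * c + c * (32 * (n : ℝ) ^ 3 * M * (M * c))) * D * 1 := by ring
        _ ≤ (64 * (n : ℝ) ^ 3 * M * c + c * (32 * (n : ℝ) ^ 3 * M * (M * c))) * D *
            (Real.exp (2 * (n : ℝ) ^ 2) * G0 z.2) := mul_le_mul_of_nonneg_left h4 (by positivity)
        _ = K1 * D * G0 z.2 := by rw [hK1]; ring
        _ ≤ (K1 + K2) * D * G0 z.2 :=
          mul_le_mul_of_nonneg_right (mul_le_mul_of_nonneg_right (by linarith) hD0) hG.le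
    · rw [qn_eq_zero z (not_le.mp hz), qn_eq_zero z (not_le.mp hz), sub_self, abs_zero]
      positivity
  · have h1 := trb_Lo_lip hn hm' h0 h0' hM' hD z
    have h2 := trb_Lo_lip hn hm h0' h0 hM hD' z
    rw [← hc] at h1 h2
    have h3 : (Lo (kN n) (eo g' z.1) z.2).toReal ≤ 26 * n * (M * c) := by
      have : (Lo (kN n) (eo g' z.1) z.2).toReal ≤ 26 * n * den g' z.1 := by
        refine ENNReal.toReal_le_of_le_ofReal (by positivity) ((trb_Lo_le hm' h0' hM' z).trans ?_)
        split_ifs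
        · exact le_rfl
        · exact zero_le
      exact this.trans (mul_le_mul_of_nonneg_left hd' (by positivity))
    have h5 := trb_prod_lip hk0 hk1 hk (abs_sub_le_iff.mpr ⟨sub_le_iff_le_add'.mpr h1,
      sub_le_iff_le_add'.mpr h2⟩) ENNReal.toReal_nonneg h3
    unfold ln
    calc _ ≤ _ := h5
      _ = K2 * D := by rw [hK2]; ring
      _ ≤ (K1 + K2) * D := mul_le_mul_of_nonneg_right (by linarith) hD0

end Vale.Agent.P140
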