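import Vale.Agent.P140.TrApi

/-! Conservation laws for the truncated equation. -/

namespace Vale.Agent.P140

open MeasureTheory Set Filter Topology
open scoped ENNReal

private theorem tc_bdd (n : ℕ) {ψ : V → ℝ} (hψ : Continuous ψ) :
    ∃ K, ∀ v : V, ‖v‖ ≤ n → |ψ v| ≤ K := by
  obtain ⟨K, hK⟩ := (isCompact_closedBall (0 : V) n).exists_bound_of_continuousOn hψ.continuousOn
  exact ⟨K, fun v hv => hK v (mem_closedBall_zero_iff.2 hv)⟩

private theorem tc_mq (n : ℕ) {g : Om → ℝ} (hm : Measurable g) (x : X) :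
    Measurable fun v : V => qn n g (x, v) :=
  measurable_qn n (g := fun _ : V => g) (z := fun v => (x, v)) (hm.comp measurable_snd)
    measurable_prodMk_left

private theorem tc_ml (n : ℕ) {g : Om → ℝ} (hm : Measurable g) (x : X) :
    Measurable fun v : V => ln n g (x, v) :=
  measurable_ln n (g := fun _ : V => g) (z := fun v => (x, v)) (hm.comp measurable_snd)
    measurable_prodMk_left

private theorem tc_int {n : ℕ} (hn : 1 ≤ n) {g : Om → ℝ} (hm : Measurable g)
    (h0 : ∀ z, 0 ≤ g z) {M : ℝ} (hM : ∀ z, g z ≤ M * G0 z.2) {χ : V → ℝ} (hχ : Continuous χ)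
    (x : X) : Integrable (fun v => qn n g (x, v) * χ v) ∧
      Integrable (fun v => ln n g (x, v) * g (x, v) * χ v) := by
  obtain ⟨K, hK⟩ := tc_bdd n hχ
  have hK0 : 0 ≤ K := (abs_nonneg _).trans (hK 0 (by simp))
  have hG : Integrable G0 := by simpa using integrable_G0_moment 0
  have hM0 : 0 ≤ M := by
    have h1 := (h0 (x, 0)).trans (hM (x, 0))
    exact nonneg_of_mul_nonneg_left h1 (G0_pos _)
  constructor
  · refine (hG.const_mul (32 * (n : ℝ) ^ 4 * Real.exp (2 * (n : ℝ) ^ 2) * M * K)).mono'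
      ((tc_mq n hm x).mul hχ.measurable).aestronglyMeasurable (Eventually.of_forall fun v => ?_)
    have hG0 := G0_pos v
    rcases le_or_gt ‖v‖ n with hv | hv
    · rw [Real.norm_eq_abs, abs_mul, abs_of_nonneg (qn_nonneg n h0 _)]
      refine (mul_le_mul (qn_le hn hm h0 hM (x, v)) (hK v hv) (abs_nonneg _)
        (by positivity)).trans (le_of_eq ?_)
      ring
    · rw [qn_eq_zero (x, v) hv, zero_mul, norm_zero]; positivity
  · refine (hG.const_mul (26 * (n : ℝ) ^ 2 * M * K)).mono'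
      (((tc_ml n hm x).mul (hm.comp measurable_prodMk_left)).mul
        hχ.measurable).aestronglyMeasurable (Eventually.of_forall fun v => ?_)
    have hG0 := G0_pos v
    rcases le_or_gt ‖v‖ n with hv | hv
    · rw [Real.norm_eq_abs, abs_mul, abs_of_nonneg (mul_nonneg (ln_nonneg n h0 _) (h0 _))]
      refine (mul_le_mul (mul_le_mul (ln_le hn hm h0 hM (x, v)) (hM (x, v)) (h0 _) (by positivity))
        (hK v hv) (abs_nonneg _) (by positivity)).trans (le_of_eq ?_)
      ring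
    · rw [ln_eq_zero (x, v) hv, zero_mul, zero_mul, norm_zero]; positivity

private theorem tc_le {n : ℕ} {a b : ℝ} (ha : 0 ≤ a) (h : a ^ 2 + b ^ 2 ≤ (n : ℝ) ^ 2) :
    a ≤ n :=
  (pow_le_pow_iff_left₀ ha (Nat.cast_nonneg n) two_ne_zero).1 (by nlinarith [sq_nonneg b])

private theorem tc_pos {n : ℕ} (hn : 1 ≤ n) {g : Om → ℝ} (hm : Measurable g)
    (h0 : ∀ z, 0 ≤ g z) {M : ℝ} (hM : ∀ z, g z ≤ M * G0 z.2) {ψ : V → ℝ} (hψ : Continuous ψ)
    (hinv : ∀ v w ω, ψ (vp v w ω) + ψ (vq v w ω) = ψ v + ψ w)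
    (hpos : ∀ v : V, ‖v‖ ≤ n → 0 ≤ ψ v) (x : X) :
    ∫ v, qn n g (x, v) * ψ v = ∫ v, ln n g (x, v) * g (x, v) * ψ v := by
  have hΨ : Measurable fun v => ENNReal.ofReal (ψ v) := hψ.measurable.ennreal_ofReal
  have hF := measurable_eo' hm x
  have h1 := two_lintegral_Qp_mul (isKer_kN n) hF hΨ
  have h2 := two_lintegral_Lo_mul (isKer_kN n) hF hΨ
  have h3 : (fun v w ω => kN n v w ω * (eo g x v * eo g x w) *
      (ENNReal.ofReal (ψ (vp v w ω)) + ENNReal.ofReal (ψ (vq v w ω)))) =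
      fun v w ω => kN n v w ω * (eo g x v * eo g x w) *
        (ENNReal.ofReal (ψ v) + ENNReal.ofReal (ψ w)) := by
    funext v w ω
    by_cases hk : ‖v‖ ^ 2 + ‖w‖ ^ 2 ≤ (n : ℝ) ^ 2
    · have hk' := hk
      rw [← energy_coll v w ω] at hk'
      rw [← ENNReal.ofReal_add (hpos _ (tc_le (norm_nonneg _) hk'))
        (hpos _ (tc_le (norm_nonneg _) (by rwa [add_comm] at hk'))),
        ← ENNReal.ofReal_add (hpos _ (tc_le (norm_nonneg _) hk))
        (hpos _ (tc_le (norm_nonneg _) (by rwa [add_comm] at hk))), hinv]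
    · simp only [kN, hk, false_and, if_false, zero_mul]
  rw [h3, ← h2] at h1
  have h4 := (ENNReal.mul_right_inj two_ne_zero ENNReal.ofNat_ne_top).1 h1
  have p1 : ∀ v, 0 ≤ qn n g (x, v) * ψ v := fun v => by
    rcases le_or_gt ‖v‖ n with hv | hv
    · exact mul_nonneg (qn_nonneg n h0 _) (hpos v hv)
    · rw [qn_eq_zero (x, v) hv, zero_mul]
  have p2 : ∀ v, 0 ≤ ln n g (x, v) * g (x, v) * ψ v := fun v => by
    rcases le_or_gt ‖v‖ n with hv | hv
    · exact mul_nonneg (mul_nonneg (ln_nonneg n h0 _) (h0 _)) (hpos v hv)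
    · rw [ln_eq_zero (x, v) hv, zero_mul, zero_mul]
  obtain ⟨i1, i2⟩ := tc_int hn hm h0 hM hψ x
  rw [integral_eq_lintegral_of_nonneg_ae (Eventually.of_forall p1) i1.aestronglyMeasurable,
    integral_eq_lintegral_of_nonneg_ae (Eventually.of_forall p2) i2.aestronglyMeasurable]
  congr 1
  have e1 : ∀ v, ENNReal.ofReal (qn n g (x, v) * ψ v) = ENNReal.ofReal (kap n g x) *
      (Qp (kN n) (eo g x) (eo g x) v * ENNReal.ofReal (ψ v)) := fun v => by
    rw [ENNReal.ofReal_mul (qn_nonneg n h0 _), ofReal_qn hn hm h0 hM, mul_assoc]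
  have e2 : ∀ v, ENNReal.ofReal (ln n g (x, v) * g (x, v) * ψ v) = ENNReal.ofReal (kap n g x) *
      (eo g x v * Lo (kN n) (eo g x) v * ENNReal.ofReal (ψ v)) := fun v => by
    rw [ENNReal.ofReal_mul (mul_nonneg (ln_nonneg n h0 _) (h0 _)),
      ENNReal.ofReal_mul (ln_nonneg n h0 _), ofReal_ln hn hm h0 hM]
    simp only [eo]; ring
  simp only [e1, e2]
  rw [lintegral_const_mul' _ _ ENNReal.ofReal_ne_top, lintegral_const_mul' _ _ ENNReal.ofReal_ne_top,
    h4]

/-- collision invariants annihilate the truncated collision operator -/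
theorem integral_coll_inv {n : ℕ} (hn : 1 ≤ n) {g : Om → ℝ} (hm : Measurable g)
    (h0 : ∀ z, 0 ≤ g z) {M : ℝ} (hM : ∀ z, g z ≤ M * G0 z.2) {ψ : V → ℝ} (hψ : Continuous ψ)
    (hinv : ∀ v w ω, ψ (vp v w ω) + ψ (vq v w ω) = ψ v + ψ w) (x : X) :
    ∫ v, (qn n g (x, v) - ln n g (x, v) * g (x, v)) * ψ v = 0 := by
  obtain ⟨K, hK⟩ := tc_bdd n hψ
  have h1 := tc_pos hn hm h0 hM (ψ := fun v => ψ v + K) (hψ.add continuous_const)
    (fun v w ω => by linarith [hinv v w ω]) (fun v hv => by linarith [abs_le.1 (hK v hv)]) x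
  have h2 := tc_pos hn hm h0 hM (ψ := fun _ => 1) continuous_const (fun _ _ _ => rfl)
    (fun _ _ => zero_le_one) x
  obtain ⟨i1, i2⟩ := tc_int hn hm h0 hM hψ x
  obtain ⟨i3, i4⟩ := tc_int hn hm h0 hM (χ := fun _ => 1) continuous_const x
  have e1 : ∫ v, qn n g (x, v) * (ψ v + K) =
      (∫ v, qn n g (x, v) * ψ v) + K * ∫ v, qn n g (x, v) * 1 := by
    rw [← integral_const_mul, ← integral_add i1 (i3.const_mul K)]
    exact integral_congr_ae (Eventually.of_forall fun v => by ring)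
  have e2 : ∫ v, ln n g (x, v) * g (x, v) * (ψ v + K) =
      (∫ v, ln n g (x, v) * g (x, v) * ψ v) + K * ∫ v, ln n g (x, v) * g (x, v) * 1 := by
    rw [← integral_const_mul, ← integral_add i2 (i4.const_mul K)]
    exact integral_congr_ae (Eventually.of_forall fun v => by ring)
  have e3 : ∫ v, (qn n g (x, v) - ln n g (x, v) * g (x, v)) * ψ v =
      (∫ v, qn n g (x, v) * ψ v) - ∫ v, ln n g (x, v) * g (x, v) * ψ v := by
    rw [← integral_sub i1 i2]
    exact integral_congr_ae (Eventually.of_forall fun v => by ring)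
  rw [e1, e2, h2] at h1
  rw [e3]; linarith

private theorem tc_transp {φ : ℝ × X × V → ℝ}
    (hφ : ContDiff ℝ (⊤ : ℕ∞) (fun p : ℝ × V × V => φ (p.1, pr p.2.1, p.2.2))) (t : ℝ) (y v : V) :
    transp φ t (pr y) v =
      fderiv ℝ (fun p : ℝ × V × V => φ (p.1, pr p.2.1, p.2.2)) (t, y, v) (1, v, 0) := by
  have hD := ((hφ.differentiable (by simp)) (t, y, v)).hasFDerivAt
  set D := fderiv ℝ (fun p : ℝ × V × V => φ (p.1, pr p.2.1, p.2.2)) (t, y, v) with hDdef
  have h1 : HasDerivAt (fun s => φ (s, pr y, v)) (D (1, 0, 0)) t := by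
    have hc : HasDerivAt (fun s : ℝ => (s, y, v)) ((1 : ℝ), (0 : V), (0 : V)) t :=
      (hasDerivAt_id t).prodMk ((hasDerivAt_const t y).prodMk (hasDerivAt_const t v))
    exact hD.comp_hasDerivAt t hc
  have h2 : ∀ i : Fin 3, HasDerivAt (fun s => φ (t, pr y + pr (EuclideanSpace.single i s), v))
      (D (0, EuclideanSpace.single i 1, 0)) 0 := by
    intro i
    have e : ∀ s : ℝ, (EuclideanSpace.single i s : V) = s • EuclideanSpace.single i 1 := by
      intro s; ext j; simp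
    have hc : HasDerivAt (fun s : ℝ => (t, y + s • (EuclideanSpace.single i 1 : V), v))
        ((0 : ℝ), (EuclideanSpace.single i 1 : V), (0 : V)) 0 := by
      refine (hasDerivAt_const 0 t).prodMk (HasDerivAt.prodMk ?_ (hasDerivAt_const 0 v))
      simpa using ((hasDerivAt_id (0 : ℝ)).smul_const (EuclideanSpace.single i 1 : V)).const_add y
    have hD' : HasFDerivAt (fun p : ℝ × V × V => φ (p.1, pr p.2.1, p.2.2)) D
        (t, y + (0 : ℝ) • (EuclideanSpace.single i 1 : V), v) := by simpa using hD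
    have h3 := hD'.comp_hasDerivAt 0 hc
    refine h3.congr_of_eventuallyEq (Eventually.of_forall fun s => ?_)
    simp only [Function.comp, pr_add, e s]
  unfold transp
  rw [h1.deriv]
  simp only [(h2 _).deriv]
  have e3 : ((1 : ℝ), v, (0 : V)) = (1, 0, 0) +
      ∑ i : Fin 3, v i • ((0 : ℝ), (EuclideanSpace.single i 1 : V), (0 : V)) := by
    simp only [Fin.sum_univ_three, Prod.smul_mk, Prod.mk_add_mk, smul_zero, add_zero, zero_add]
    congr 2
    ext j
    fin_cases j <;> simp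
  rw [e3, map_add, map_sum]
  simp only [map_smul, smul_eq_mul]

private theorem tc_quot : IsOpenQuotientMap
    (fun p : ℝ × V × V => ((p.1, pr p.2.1, p.2.2) : ℝ × X × V)) := by
  have h1 : IsOpenQuotientMap pr := by
    have h2 : IsOpenQuotientMap (Pi.map fun (_ : Fin 3) (a : ℝ) => (a : UnitAddCircle)) :=
      IsOpenQuotientMap.piMap fun _ => QuotientAddGroup.isOpenQuotientMap_mk
    exact h2.comp (EuclideanSpace.equiv (Fin 3) ℝ).toHomeomorph.isOpenQuotientMap
  exact IsOpenQuotientMap.id.prodMap (h1.prodMap IsOpenQuotientMap.id)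

private theorem tc_zero {φ : ℝ × X × V → ℝ} {t : ℝ} {x : X} {v : V}
    (h : φ =ᶠ[𝓝 (t, x, v)] fun _ => 0) : transp φ t x v = 0 := by
  have h1 : (fun s => φ (s, x, v)) =ᶠ[𝓝 t] fun _ => 0 :=
    (show Tendsto (fun s : ℝ => (s, x, v)) (𝓝 t) (𝓝 (t, x, v)) from
      (by fun_prop : Continuous fun s : ℝ => (s, x, v)).tendsto t).eventually h
  have h2 : ∀ i : Fin 3, (fun s => φ (t, x + pr (EuclideanSpace.single i s), v)) =ᶠ[𝓝 0]
      fun _ => 0 := by
    intro i
    have hc : Continuous fun s : ℝ => (t, x + pr (EuclideanSpace.single i s), v) := by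
      have : Continuous fun s : ℝ => (EuclideanSpace.single i s : V) := by
        have e : (fun s : ℝ => (EuclideanSpace.single i s : V)) =
            fun s : ℝ => s • (EuclideanSpace.single i 1 : V) := by
          funext s; ext j; simp
        rw [e]; fun_prop
      fun_prop
    have h3 := hc.tendsto 0
    have h4 : (EuclideanSpace.single i (0 : ℝ) : V) = 0 := by simp
    rw [h4, pr_zero, add_zero] at h3
    exact h3.eventually h
  unfold transp
  rw [h1.deriv_eq]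
  simp only [(h2 _).deriv_eq]
  simp

private theorem tc_time {α : Type*} [TopologicalSpace α] {φ : ℝ × α → ℝ}
    (hφ : HasCompactSupport φ) : ∃ T : ℝ, 0 ≤ T ∧ ∀ t a, T ≤ t → (t, a) ∉ tsupport φ := by
  obtain ⟨B, hB⟩ := (hφ.isCompact.image continuous_fst).bddAbove
  refine ⟨|B| + 1, by positivity, fun t a ht hm => ?_⟩
  have h1 : t ≤ B := hB ⟨(t, a), hm, rfl⟩
  linarith [le_abs_self B]

/-- derivative of a test function along the free flow -/
theorem IsTest.hasDerivAt {φ : ℝ × X × V → ℝ}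
    (hφ : ContDiff ℝ (⊤ : ℕ∞) (fun p : ℝ × V × V => φ (p.1, pr p.2.1, p.2.2))) (z : Om) (t : ℝ) :
    HasDerivAt (fun s => φ (s, (sh s z).1, z.2)) (transp φ t (sh t z).1 z.2) t := by
  obtain ⟨y, hy⟩ := pr_surj z.1
  have e : ∀ s : ℝ, (sh s z).1 = pr (y + s • z.2) := fun s => by rw [pr_add, hy]; rfl
  simp only [e]
  rw [tc_transp hφ]
  have hc : HasDerivAt (fun s : ℝ => (s, y + s • z.2, z.2)) (1, z.2, 0) t := by
    refine (hasDerivAt_id t).prodMk (HasDerivAt.prodMk ?_ (hasDerivAt_const t z.2))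
    simpa using ((hasDerivAt_id t).smul_const z.2).const_add y
  exact ((hφ.differentiable (by simp)) _).hasFDerivAt.comp_hasDerivAt t hc

theorem continuous_test {φ : ℝ × X × V → ℝ}
    (hφ : ContDiff ℝ (⊤ : ℕ∞) (fun p : ℝ × V × V => φ (p.1, pr p.2.1, p.2.2))) :
    Continuous φ := by
  exact tc_quot.continuous_comp_iff.1 hφ.continuous

theorem continuous_transp {φ : ℝ × X × V → ℝ}
    (hφ : ContDiff ℝ (⊤ : ℕ∞) (fun p : ℝ × V × V => φ (p.1, pr p.2.1, p.2.2))) :
    Continuous (fun p : ℝ × X × V => transp φ p.1 p.2.1 p.2.2) := by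
  refine tc_quot.continuous_comp_iff.1 ?_
  have e : ((fun p : ℝ × X × V => transp φ p.1 p.2.1 p.2.2) ∘
      fun p : ℝ × V × V => ((p.1, pr p.2.1, p.2.2) : ℝ × X × V)) =
      fun p : ℝ × V × V => fderiv ℝ (fun p : ℝ × V × V => φ (p.1, pr p.2.1, p.2.2)) p
        (1, p.2.2, 0) := by
    funext p
    exact tc_transp hφ p.1 p.2.1 p.2.2
  rw [e]
  exact (hφ.continuous_fderiv (by simp)).clm_apply (by fun_prop)

theorem IsTest.bdd {φ : ℝ × X × V → ℝ} (hφ : IsTest φ) : ∃ T C : ℝ, 0 ≤ T ∧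
    (∀ p, |φ p| ≤ C) ∧ (∀ t x v, |transp φ t x v| ≤ C) ∧
    (∀ t x v, T ≤ t → φ (t, x, v) = 0 ∧ transp φ t x v = 0) := by
  obtain ⟨T, hT, hT'⟩ := tc_time hφ.2
  obtain ⟨C1, h1⟩ := (continuous_test hφ.1).bounded_above_of_compact_support hφ.2
  have hs : HasCompactSupport (fun p : ℝ × X × V => transp φ p.1 p.2.1 p.2.2) :=
    HasCompactSupport.intro hφ.2.isCompact fun p hp =>
      tc_zero (notMem_tsupport_iff_eventuallyEq.1 hp)
  obtain ⟨C2, h2⟩ := (continuous_transp hφ.1).bounded_above_of_compact_support hs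
  refine ⟨T, max C1 C2, hT, fun p => (h1 p).trans (le_max_left _ _),
    fun t x v => (h2 (t, x, v)).trans (le_max_right _ _), fun t x v ht => ?_⟩
  exact ⟨image_eq_zero_of_notMem_tsupport (hT' t (x, v) ht),
    tc_zero (notMem_tsupport_iff_eventuallyEq.1 (hT' t (x, v) ht))⟩

theorem IsTestX.contDiff {φ : ℝ × X → ℝ} (hφ : IsTestX φ) :
    ContDiff ℝ (⊤ : ℕ∞) (fun p : ℝ × V × V => (fun q : ℝ × X × V => φ (q.1, q.2.1))
      (p.1, pr p.2.1, p.2.2)) := by
  exact hφ.1.comp (f := fun p : ℝ × V × V => (p.1, p.2.1)) (by fun_prop)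

private theorem tc_contX {φ : ℝ × X → ℝ} (hφ : IsTestX φ) : Continuous φ := by
  have h1 : Continuous (fun q : ℝ × X × V => φ (q.1, q.2.1)) :=
    continuous_test (φ := fun q : ℝ × X × V => φ (q.1, q.2.1)) hφ.contDiff
  exact h1.comp (f := fun q : ℝ × X => (q.1, q.2, (0 : V))) (by fun_prop)

theorem IsTestX.bdd {φ : ℝ × X → ℝ} (hφ : IsTestX φ) : ∃ T C : ℝ, 0 ≤ T ∧
    (∀ p, |φ p| ≤ C) ∧ (∀ t x v, |transp (fun q => φ (q.1, q.2.1)) t x v| ≤ C * (1 + ‖v‖)) ∧
    (∀ t x v, T ≤ t → φ (t, x) = 0 ∧ transp (fun q => φ (q.1, q.2.1)) t x v = 0) := by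
  obtain ⟨T, hT, hT'⟩ := tc_time hφ.2
  have hz : ∀ t x v, (t, x) ∉ tsupport φ → transp (fun q => φ (q.1, q.2.1)) t x v = 0 := by
    intro t x v hp
    refine tc_zero ?_
    exact ((by fun_prop : Continuous fun q : ℝ × X × V => (q.1, q.2.1)).tendsto
      (t, x, v)).eventually (notMem_tsupport_iff_eventuallyEq.1 hp)
  have hc : Continuous φ := tc_contX hφ
  obtain ⟨C1, h1⟩ := hc.bounded_above_of_compact_support hφ.2
  have hb : ∀ v : V, ∃ C, ∀ t x, |transp (fun q => φ (q.1, q.2.1)) t x v| ≤ C := by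
    intro v
    have hs : HasCompactSupport
        (fun p : ℝ × X => transp (fun q => φ (q.1, q.2.1)) p.1 p.2 v) :=
      HasCompactSupport.intro hφ.2.isCompact fun p hp => hz p.1 p.2 v hp
    have hcv : Continuous (fun p : ℝ × X => transp (fun q => φ (q.1, q.2.1)) p.1 p.2 v) :=
      (continuous_transp (φ := fun q : ℝ × X × V => φ (q.1, q.2.1)) hφ.contDiff).comp
        (f := fun q : ℝ × X => (q.1, q.2, v)) (by fun_prop)
    obtain ⟨C, hC⟩ := hcv.bounded_above_of_compact_support hs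
    exact ⟨C, fun t x => hC (t, x)⟩
  choose B hB using hb
  set K := |C1| + 4 * |B 0| + ∑ i : Fin 3, |B (EuclideanSpace.single i 1)| with hK
  have s0 : 0 ≤ ∑ i : Fin 3, |B (EuclideanSpace.single i 1)| :=
    Finset.sum_nonneg fun _ _ => abs_nonneg _
  refine ⟨T, K, hT, fun p => (h1 p).trans ?_, fun t x v => ?_, fun t x v ht => ?_⟩
  · linarith [le_abs_self C1, abs_nonneg (B 0)]
  · set a := deriv (fun s => φ (s, x)) t with ha
    set b : Fin 3 → ℝ := fun i => deriv (fun s => φ (t, x + pr (EuclideanSpace.single i s))) 0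
      with hb
    have e : ∀ u : V, transp (fun q => φ (q.1, q.2.1)) t x u = a + ∑ i, u i * b i := fun u => rfl
    have a0 : |a| ≤ |B 0| := by
      have := hB 0 t x
      rw [e] at this
      simp only [PiLp.zero_apply, zero_mul, Finset.sum_const_zero, add_zero] at this
      exact this.trans (le_abs_self _)
    have b0 : ∀ i, |b i| ≤ |B 0| + |B (EuclideanSpace.single i 1)| := by
      intro i
      have h2 := hB (EuclideanSpace.single i 1) t x
      rw [e] at h2
      have h3 : ∑ j, (EuclideanSpace.single i (1 : ℝ) : V) j * b j = b i := by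
        simp
      rw [h3] at h2
      have h4 : |b i| ≤ |a| + |a + b i| := by
        have := abs_sub (a + b i) a
        rw [add_sub_cancel_left] at this
        linarith
      linarith [le_abs_self (B (EuclideanSpace.single i 1))]
    rw [e]
    have h5 : |∑ i, v i * b i| ≤ ∑ i : Fin 3, ‖v‖ * (|B 0| + |B (EuclideanSpace.single i 1)|) := by
      refine (Finset.abs_sum_le_sum_abs _ _).trans (Finset.sum_le_sum fun i _ => ?_)
      rw [abs_mul]
      exact mul_le_mul (PiLp.norm_apply_le v i) (b0 i) (abs_nonneg _) (norm_nonneg _)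
    rw [← Finset.mul_sum, Finset.sum_add_distrib, Finset.sum_const, Finset.card_univ,
      Fintype.card_fin, nsmul_eq_mul] at h5
    have h6 := abs_add_le a (∑ i, v i * b i)
    have h7 := norm_nonneg v
    have h8 := abs_nonneg C1
    have h9 := abs_nonneg (B 0)
    push_cast at h5
    rw [hK]
    nlinarith [mul_nonneg h7 h8, mul_nonneg h7 h9]
  · exact ⟨image_eq_zero_of_notMem_tsupport (hT' t x ht), hz t x v (hT' t x ht)⟩

namespace TrSol

variable {n : ℕ} {f0 : Om → ℝ} {f : ℝ → Om → ℝ} (h : TrSol n f0 f)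
include h

private theorem tc_coll (T : ℝ) : ∃ K : ℝ, 0 ≤ K ∧ ∀ t ∈ Icc (0 : ℝ) T, ∀ z : Om,
    |qn n (f t) z - ln n (f t) z * f t z| ≤ K * G0 z.2 ∧ |f t z| ≤ K * G0 z.2 := by
  obtain ⟨A, hA⟩ := h.qn_bdd T
  obtain ⟨B, hB⟩ := h.ub T
  refine ⟨|A| + (26 * (n : ℝ) ^ 2 + 1) * |B|, by positivity, fun t ht z => ?_⟩
  have h1 := hA t ht z
  have h2 := hB t ht z
  have h3 := h.ln_bdd ht.1 z
  have h4 := qn_nonneg n (h.nonneg t) z
  have h5 := ln_nonneg n (h.nonneg t) z
  have h6 := h.nonneg t z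
  have hG := G0_pos z.2
  have a1 : A * G0 z.2 ≤ |A| * G0 z.2 := mul_le_mul_of_nonneg_right (le_abs_self A) hG.le
  have a2 : B * G0 z.2 ≤ |B| * G0 z.2 := mul_le_mul_of_nonneg_right (le_abs_self B) hG.le
  have a3 : ln n (f t) z * f t z ≤ 26 * (n : ℝ) ^ 2 * (|B| * G0 z.2) :=
    mul_le_mul h3 (h2.trans a2) h6 (by positivity)
  have a4 : 0 ≤ |A| * G0 z.2 := by positivity
  have a5 : 0 ≤ |B| * G0 z.2 := by positivity
  have a6 : 0 ≤ 26 * (n : ℝ) ^ 2 * (|B| * G0 z.2) := by positivity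
  have a7 := mul_nonneg h5 h6
  constructor
  · rw [abs_le]; constructor <;> nlinarith
  · rw [abs_of_nonneg h6]; nlinarith

private theorem tc_zero_coll {s : ℝ} (hs : 0 ≤ s) {ψ : V → ℝ} (hψ : Continuous ψ)
    (hinv : ∀ v w ω, ψ (vp v w ω) + ψ (vq v w ω) = ψ v + ψ w) (a : X → ℝ)
    (hi : Integrable fun z : Om => (qn n (f s) z - ln n (f s) z * f s z) * (a z.1 * ψ z.2)) :
    ∫ z : Om, (qn n (f s) z - ln n (f s) z * f s z) * (a z.1 * ψ z.2) = 0 := by
  obtain ⟨M, hM⟩ := h.ub s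
  rw [Measure.volume_eq_prod] at hi ⊢
  rw [integral_prod _ hi]
  refine integral_eq_zero_of_ae (Eventually.of_forall fun x => ?_)
  have h1 := integral_coll_inv h.npos (h.meas_t s) (h.nonneg s) (hM s ⟨hs, le_rfl⟩) hψ hinv x
  simp only [Pi.zero_apply]
  rw [← mul_zero (a x), ← h1, ← integral_const_mul]
  exact integral_congr_ae (Eventually.of_forall fun v => by ring)

private theorem tc_weak {T C : ℝ} (hT : 0 ≤ T) {Θ Θ' : ℝ × Om → ℝ} (m1 : Measurable Θ)
    (m2 : Measurable Θ') (b1 : ∀ p, |Θ p| ≤ C * (1 + ‖p.2.2‖) ^ 2)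
    (b2 : ∀ p, |Θ' p| ≤ C * (1 + ‖p.2.2‖) ^ 2)
    (hP : ∀ z, Prim T (fun s => Θ (s, sh s z)) (fun s => Θ' (s, sh s z)))
    (hz : ∀ s, 0 ≤ s → Integrable (fun z : Om => (qn n (f s) z - ln n (f s) z * f s z) * Θ (s, z)) →
      ∫ z : Om, (qn n (f s) z - ln n (f s) z * f s z) * Θ (s, z) = 0) :
    ∫ z, f T z * Θ (T, z) = (∫ z, f0 z * Θ (0, z)) + ∫ p, f p.1 p.2 * Θ' p ∂(mT T) := by
  obtain ⟨K, hK0, hK⟩ := h.tc_coll T
  have hC : 0 ≤ C := by
    have h1 := (abs_nonneg _).trans (b1 (0, 0, 0))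
    simpa using h1
  have hW := (integrable_G0_Om 2).const_mul (K * C)
  have hbd : ∀ {a b : ℝ} {v : V}, |a| ≤ K * G0 v → |b| ≤ C * (1 + ‖v‖) ^ 2 →
      ‖a * b‖ ≤ K * C * ((1 + ‖v‖) ^ 2 * G0 v) := by
    intro a b v ha hb
    rw [Real.norm_eq_abs, abs_mul]
    refine (mul_le_mul ha hb (abs_nonneg _) ((abs_nonneg _).trans ha)).trans (le_of_eq ?_)
    ring
  have mf : Measurable fun p : ℝ × Om => f p.1 p.2 := h.meas
  have mf' : Measurable (Function.uncurry fun p : ℝ × Om => f p.1) :=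
    mf.comp (f := fun q : (ℝ × Om) × Om => (q.1.1, q.2)) (by fun_prop)
  have mC : Measurable fun p : ℝ × Om => qn n (f p.1) p.2 - ln n (f p.1) p.2 * f p.1 p.2 :=
    (measurable_qn n mf' measurable_snd).sub ((measurable_ln n mf' measurable_snd).mul mf)
  have hae : ∀ᵐ p ∂(mT T), p.1 ∈ Icc (0 : ℝ) T := by
    unfold mT
    refine (Measure.quasiMeasurePreserving_fst).ae (p := fun t => t ∈ Icc (0 : ℝ) T) ?_
    exact (ae_restrict_mem measurableSet_Ioc).mono fun t ht => Ioc_subset_Icc_self ht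
  have hWT : Integrable (fun p : ℝ × Om => K * C * ((1 + ‖p.2.2‖) ^ 2 * G0 p.2.2)) (mT T) :=
    hW.comp_snd _
  have i1 : Integrable (fun p : ℝ × Om =>
      (qn n (f p.1) p.2 - ln n (f p.1) p.2 * f p.1 p.2) * Θ p) (mT T) :=
    hWT.mono' (mC.mul m1).aestronglyMeasurable (hae.mono fun p hp => hbd (hK _ hp _).1 (b1 p))
  have i2 : Integrable (fun p : ℝ × Om => f p.1 p.2 * Θ' p) (mT T) :=
    hWT.mono' (mf.mul m2).aestronglyMeasurable (hae.mono fun p hp => hbd (hK _ hp _).2 (b2 p))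
  have z1 : ∫ p, (qn n (f p.1) p.2 - ln n (f p.1) p.2 * f p.1 p.2) * Θ p ∂(mT T) = 0 := by
    unfold mT at i1 ⊢
    rw [integral_prod _ i1]
    refine integral_eq_zero_of_ae ?_
    filter_upwards [i1.prod_right_ae, ae_restrict_mem measurableSet_Ioc] with s hs hs'
    exact hz s hs'.1.le hs
  obtain ⟨G, hG⟩ : ∃ G : ℝ × Om → ℝ, G = fun p =>
      (qn n (f p.1) p.2 - ln n (f p.1) p.2 * f p.1 p.2) * Θ p + f p.1 p.2 * Θ' p := ⟨_, rfl⟩
  have iG : Integrable G (mT T) := hG ▸ i1.add i2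
  have eG : ∫ p, G p ∂(mT T) = ∫ p, f p.1 p.2 * Θ' p ∂(mT T) := by
    rw [hG, integral_add i1 i2, z1, zero_add]
  have hmp := measurePreserving_shST ((volume : Measure ℝ).restrict (Ioc 0 T))
  have iG' : Integrable (fun p : ℝ × Om => G (p.1, sh p.1 p.2))
      (((volume : Measure ℝ).restrict (Ioc 0 T)).prod volume) :=
    hmp.integrable_comp_of_integrable iG
  have eG' : ∫ p, G (p.1, sh p.1 p.2) ∂(((volume : Measure ℝ).restrict (Ioc 0 T)).prod volume)
      = ∫ p, G p ∂(mT T) := by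
    have h1 := integral_map (μ := ((volume : Measure ℝ).restrict (Ioc 0 T)).prod volume)
      hmp.measurable.aemeasurable (f := G) (by rw [hmp.map_eq]; exact iG.aestronglyMeasurable)
    rw [hmp.map_eq] at h1
    exact h1.symm
  have hpt : ∀ z, f T (sh T z) * Θ (T, sh T z) =
      f0 z * Θ (0, z) + ∫ s in Ioc 0 T, G (s, sh s z) := by
    intro z
    have h1 := ((h.prim hT z).mul hT (hP z)).2 T ⟨hT, le_rfl⟩
    simp only [sh_zero, h.zero] at h1
    rw [h1, intervalIntegral.integral_of_le hT, hG]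
  have i0 : Integrable fun z : Om => f0 z * Θ (0, z) := by
    refine hW.mono' (h.meas0.mul (m1.comp measurable_prodMk_left)).aestronglyMeasurable
      (Eventually.of_forall fun z => hbd ?_ (b1 (0, z)))
    rw [← h.zero]
    exact (hK 0 ⟨le_rfl, hT⟩ z).2
  rw [← integral_sh T (fun z => f T z * Θ (T, z))]
  simp only [hpt]
  rw [integral_add i0 iG'.integral_prod_right, ← eG, ← eG', integral_prod_symm _ iG']

theorem conserve {ψ : V → ℝ} (hψ : Continuous ψ) (hb : ∃ C, ∀ v, |ψ v| ≤ C * (1 + ‖v‖) ^ 2)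
    (hinv : ∀ v w ω, ψ (vp v w ω) + ψ (vq v w ω) = ψ v + ψ w) {t : ℝ} (ht : 0 ≤ t) :
    ∫ z, f t z * ψ z.2 = ∫ z, f0 z * ψ z.2 := by
  obtain ⟨C, hC⟩ := hb
  have h1 := h.tc_weak (C := C) ht (Θ := fun p => ψ p.2.2) (Θ' := fun _ => 0)
    (hψ.measurable.comp (measurable_snd.comp measurable_snd)) measurable_const
    (fun p => hC _) (fun p => by rw [abs_zero]; exact (abs_nonneg _).trans (hC _))
    (fun z => Prim.of_hasDerivAt ht (fun s _ => hasDerivAt_const s (ψ z.2)) continuousOn_const)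
    (fun s hs hi => by
      have h2 := h.tc_zero_coll hs hψ hinv (fun _ => 1) (by simpa only [one_mul] using hi)
      simpa only [one_mul] using h2)
  simpa using h1

theorem massLoc {φ : ℝ × X → ℝ} (hφ : IsTestX φ) {T : ℝ} (hT : 0 ≤ T)
    (hφT : ∀ x, φ (T, x) = 0) :
    (∫ p, f p.1 p.2 * transp (fun q => φ (q.1, q.2.1)) p.1 p.2.1 p.2.2 ∂(mT T)) +
      (∫ z, f0 z * φ (0, z.1)) = 0 := by
  obtain ⟨T', C, -, c1, c2, -⟩ := hφ.bdd
  have hC : 0 ≤ C := (abs_nonneg _).trans (c1 (0, 0))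
  have k1 : Continuous (fun q : ℝ × X × V => φ (q.1, q.2.1)) :=
    continuous_test (φ := fun q : ℝ × X × V => φ (q.1, q.2.1)) hφ.contDiff
  have k2 := continuous_transp (φ := fun q : ℝ × X × V => φ (q.1, q.2.1)) hφ.contDiff
  have h1 := h.tc_weak (C := C) hT (Θ := fun p => φ (p.1, p.2.1))
    (Θ' := fun p => transp (fun q => φ (q.1, q.2.1)) p.1 p.2.1 p.2.2) k1.measurable k2.measurable
    (fun p => (c1 _).trans (le_mul_of_one_le_right hC (one_le_pow₀ (by linarith [norm_nonneg p.2.2]))))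
    (fun p => (c2 _ _ _).trans (mul_le_mul_of_nonneg_left (by nlinarith [norm_nonneg p.2.2]) hC))
    (fun z => Prim.of_hasDerivAt hT
      (fun s _ => IsTest.hasDerivAt (φ := fun q : ℝ × X × V => φ (q.1, q.2.1)) hφ.contDiff z s)
      (k2.comp (f := fun s : ℝ => (s, sh s z)) (by fun_prop)).continuousOn)
    (fun s hs hi => by
      have h2 := h.tc_zero_coll hs (ψ := fun _ => 1) continuous_const (fun _ _ _ => rfl)
        (fun x => φ (s, x)) (by simpa only [mul_one] using hi)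
      simpa only [mul_one] using h2)
  simp only [hφT, mul_zero, integral_zero] at h1
  linarith

end TrSol

end Vale.Agent.P140
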