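import Vale.Agent.P140.TrApi

/-! Duhamel bounds, duality and balance inequalities (used in the instability estimates). -/

namespace Vale.Agent.P140

open MeasureTheory Set Filter Topology
open scoped ENNReal

/-- Duhamel integral along the backward free trajectory through `(t,x,v)` -/
noncomputable def Dh (S : ℝ → X → V → ℝ≥0∞) (t : ℝ) (x : X) (v : V) : ℝ≥0∞ :=
  ∫⁻ s in Ioc 0 t, S s (x + pr ((s - t) • v)) v

/-- attenuated integral along the forward free trajectory from `(s,x,v)` up to time `T` -/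
noncomputable def Fw (n : ℕ) (f : ℝ → Om → ℝ) (T : ℝ) (Θ : ℝ → X → V → ℝ≥0∞) (s : ℝ) (x : X)
    (v : V) : ℝ≥0∞ :=
  ∫⁻ s' in Ioc s T,
    ENNReal.ofReal (Real.exp (-∫ τ in s..s', ln n (f τ) (x + pr ((τ - s) • v), v))) *
      Θ s' (x + pr ((s' - s) • v)) v

theorem trDual_meas {α : Type*} [MeasurableSpace α] {a b : α → ℝ} {F : α × ℝ → ℝ≥0∞}
    (ha : Measurable a) (hb : Measurable b) (hF : Measurable F) :
    Measurable fun p => ∫⁻ s in Ioc (a p) (b p), F (p, s) := by
  have h : MeasurableSet {q : α × ℝ | a q.1 < q.2 ∧ q.2 ≤ b q.1} :=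
    (measurableSet_lt (ha.comp measurable_fst) measurable_snd).inter
      (measurableSet_le measurable_snd (hb.comp measurable_fst))
  simp only [← lintegral_indicator measurableSet_Ioc]
  exact (hF.indicator h).lintegral_prod_right'

theorem trDual_tri (T : ℝ) {F : ℝ → ℝ → ℝ≥0∞} (hF : Measurable (Function.uncurry F)) :
    ∫⁻ s in Ioc 0 T, ∫⁻ t in Ioc s T, F s t = ∫⁻ t in Ioc 0 T, ∫⁻ s in Ioc 0 t, F s t := by
  have h := lintegral_lintegral_swap (μ := volume.restrict (Ioc 0 T))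
    (ν := volume.restrict (Ioc 0 T))
    (f := fun s t => {q : ℝ × ℝ | q.1 ≤ q.2}.indicator (Function.uncurry F) (s, t))
    (hF.indicator (measurableSet_le measurable_fst measurable_snd)).aemeasurable
  refine Eq.trans (setLIntegral_congr_fun measurableSet_Ioc fun s hs => ?_)
    (h.trans (setLIntegral_congr_fun measurableSet_Ioc fun t ht => ?_))
  · refine Eq.trans ?_ (lintegral_indicator (measurableSet_Ici (a := s)) (F s)).symm
    rw [Measure.restrict_restrict measurableSet_Ici, ← restrict_Ioc_eq_restrict_Icc.symm]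
    refine congrArg (fun u => ∫⁻ t in u, F s t) (Set.ext fun t => ?_)
    exact ⟨fun h => ⟨h.1, hs.1.trans_le h.1, h.2⟩, fun h => ⟨h.1, h.2.2⟩⟩
  · refine (lintegral_indicator (measurableSet_Iic (a := t)) fun s => F s t).trans ?_
    rw [Measure.restrict_restrict measurableSet_Iic]
    refine congrArg (fun u => ∫⁻ s in u, F s t) (Set.ext fun s => ?_)
    exact ⟨fun h => ⟨h.2.1, h.1⟩, fun h => ⟨h.2, h.1, h.2.trans ht.2⟩⟩

theorem trDual_sh (s τ : ℝ) (z : Om) :
    (sh s z).1 + pr ((τ - s) • (sh s z).2) = (sh τ z).1 := by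
  have h := sh_sh (τ - s) s z
  rw [sub_add_cancel] at h
  exact congrArg Prod.fst h

theorem trDual_sh' (s τ : ℝ) (x : X) (v : V) :
    sh τ (sh (-s) (x, v)) = (x + pr ((τ - s) • v), v) := by
  rw [sh_sh, ← sub_eq_add_neg]
  rfl

theorem trDual_back (t : ℝ) (z : Om) : sh t (sh (-t) z) = z := by
  rw [sh_sh, add_neg_cancel, sh_zero]

theorem trDual_Fw (n : ℕ) (f : ℝ → Om → ℝ) (T : ℝ) (Θ : ℝ → X → V → ℝ≥0∞) (s : ℝ) (z : Om) :
    Fw n f T Θ s (sh s z).1 (sh s z).2 = ∫⁻ t in Ioc s T,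
      ENNReal.ofReal (Real.exp (-LamN n f s t z)) * Θ t (sh t z).1 (sh t z).2 := by
  simp only [Fw, trDual_sh]
  rfl

theorem measurable_Dh {S : ℝ → X → V → ℝ≥0∞}
    (hS : Measurable (fun p : ℝ × X × V => S p.1 p.2.1 p.2.2)) :
    Measurable (fun p : ℝ × X × V => Dh S p.1 p.2.1 p.2.2) :=   trDual_meas (F := fun q : (ℝ × X × V) × ℝ =>
      S q.2 (q.1.2.1 + pr ((q.2 - q.1.1) • q.1.2.2)) q.1.2.2) measurable_const measurable_fst
    (hS.comp (f := fun q : (ℝ × X × V) × ℝ =>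
      (q.2, q.1.2.1 + pr ((q.2 - q.1.1) • q.1.2.2), q.1.2.2)) (by fun_prop))

theorem Dh_mono {S S' : ℝ → X → V → ℝ≥0∞} {t : ℝ} (x : X) (v : V)
    (h : ∀ s ∈ Ioc 0 t, S s (x + pr ((s - t) • v)) v ≤ S' s (x + pr ((s - t) • v)) v) :
    Dh S t x v ≤ Dh S' t x v := setLIntegral_mono' measurableSet_Ioc h

theorem Dh_add {S S' : ℝ → X → V → ℝ≥0∞}
    (hS : Measurable (fun p : ℝ × X × V => S p.1 p.2.1 p.2.2)) (t : ℝ) (x : X) (v : V) :
    Dh (fun s y u => S s y u + S' s y u) t x v = Dh S t x v + Dh S' t x v :=   lintegral_add_left (hS.comp (f := fun s : ℝ => (s, x + pr ((s - t) • v), v)) (by fun_prop)) _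

theorem Dh_const_mul {S : ℝ → X → V → ℝ≥0∞}
    (hS : Measurable (fun p : ℝ × X × V => S p.1 p.2.1 p.2.2)) (c : ℝ≥0∞) (t : ℝ) (x : X) (v : V) :
    Dh (fun s y u => c * S s y u) t x v = c * Dh S t x v :=   lintegral_const_mul c (hS.comp (f := fun s : ℝ => (s, x + pr ((s - t) • v), v)) (by fun_prop))

namespace TrSol

variable {n : ℕ} {f0 : Om → ℝ} {f : ℝ → Om → ℝ} (h : TrSol n f0 f)
include h

theorem ii_ln' {s t : ℝ} (hs : 0 ≤ s) (ht : 0 ≤ t) (t0 : ℝ) (x : X) (v : V) :
    IntervalIntegrable (fun τ => ln n (f τ) (x + pr ((τ - t0) • v), v)) volume s t := by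
  simpa only [trDual_sh'] using h.ii_ln hs ht (sh (-t0) (x, v))

theorem measurable_Fw (T : ℝ) {Θ : ℝ → X → V → ℝ≥0∞}
    (hΘ : Measurable (fun p : ℝ × X × V => Θ p.1 p.2.1 p.2.2)) :
    Measurable (fun p : ℝ × X × V => Fw n f T Θ p.1 p.2.1 p.2.2) := by
  have h1 := (measurable_LamN n h.meas).comp (f := fun q : (ℝ × X × V) × ℝ =>
    (q.1.1, q.2, sh (-q.1.1) (q.1.2.1, q.1.2.2))) (by fun_prop)
  simp only [Function.comp_def, LamN, trDual_sh'] at h1
  exact trDual_meas (F := fun q : (ℝ × X × V) × ℝ => ENNReal.ofReal (Real.exp (-∫ τ in q.1.1..q.2,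
      ln n (f τ) (q.1.2.1 + pr ((τ - q.1.1) • q.1.2.2), q.1.2.2))) *
      Θ q.2 (q.1.2.1 + pr ((q.2 - q.1.1) • q.1.2.2)) q.1.2.2) measurable_fst measurable_const
    (h1.neg.exp.ennreal_ofReal.mul (hΘ.comp (f := fun q : (ℝ × X × V) × ℝ =>
      (q.2, q.1.2.1 + pr ((q.2 - q.1.1) • q.1.2.2), q.1.2.2)) (by fun_prop)))

theorem trDual_f0 (z : Om) : 0 ≤ f0 z := h.zero z ▸ h.nonneg 0 z

theorem trDual_E {s t : ℝ} (hs : 0 ≤ s) (hst : s ≤ t) (z : Om) :
    ENNReal.ofReal (Real.exp (-LamN n f s t z)) ≤ 1 :=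
  ENNReal.ofReal_le_one.2 (Real.exp_le_one_iff.2 (neg_nonpos.2 (h.LamN_nonneg hs hst z)))

theorem trDual_mild {t : ℝ} (ht : 0 ≤ t) (z : Om) :
    ENNReal.ofReal (f t (sh t z)) =
      ENNReal.ofReal (f0 z) * ENNReal.ofReal (Real.exp (-LamN n f 0 t z)) +
      ∫⁻ s in Ioc 0 t, ENNReal.ofReal (Real.exp (-LamN n f s t z)) *
        ENNReal.ofReal (qn n (f s) (sh s z)) := by
  have h1 := ((h.prim ht z).mild (h.ii_ln le_rfl ht z) le_rfl ht le_rfl).1
  simp only [sub_add_cancel] at h1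
  have h2 : ∀ s, 0 ≤ Real.exp (-LamN n f s t z) * qn n (f s) (sh s z) := fun s =>
    mul_nonneg (Real.exp_pos _).le (qn_nonneg n (h.nonneg s) _)
  rw [h.mild t ht z, intervalIntegral.integral_of_le ht, ENNReal.ofReal_add
    (mul_nonneg (h.trDual_f0 z) (Real.exp_pos _).le) (integral_nonneg h2),
    ENNReal.ofReal_mul (h.trDual_f0 z),
    ofReal_integral_eq_lintegral_ofReal (f := fun s => Real.exp (-LamN n f s t z) *
      qn n (f s) (sh s z)) h1.1 (Eventually.of_forall h2)]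
  simp only [ENNReal.ofReal_mul (Real.exp_pos _).le]

theorem trDual_one {s t : ℝ} (hs : 0 ≤ s) (hst : s ≤ t) (z : Om) :
    ENNReal.ofReal (Real.exp (-LamN n f s t z)) + ∫⁻ τ in Ioc s t,
      ENNReal.ofReal (Real.exp (-LamN n f s τ z)) * ENNReal.ofReal (ln n (f τ) (sh τ z)) = 1 := by
  obtain ⟨h1, h2⟩ := integral_exp_neg_primitive hst (h.ii_ln hs (hs.trans hst) z)
  have h3 : ∀ τ, 0 ≤ Real.exp (-LamN n f s τ z) * ln n (f τ) (sh τ z) := fun τ =>
    mul_nonneg (Real.exp_pos _).le (ln_nonneg n (h.nonneg τ) _)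
  rw [intervalIntegral.integral_of_le hst] at h2
  simp only [← ENNReal.ofReal_mul (Real.exp_pos _).le]
  unfold LamN at h3 ⊢
  rw [← ofReal_integral_eq_lintegral_ofReal h1.1 (Eventually.of_forall h3),
    ← ENNReal.ofReal_add (Real.exp_pos _).le (integral_nonneg h3), h2, add_sub_cancel,
    ENNReal.ofReal_one]

theorem trDual_mE {α : Type*} [MeasurableSpace α] {s t : α → ℝ} {z : α → Om} (hs : Measurable s)
    (ht : Measurable t) (hz : Measurable z) :
    Measurable fun a => ENNReal.ofReal (Real.exp (-LamN n f (s a) (t a) (z a))) :=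
  ((measurable_LamN n h.meas).comp (hs.prodMk (ht.prodMk hz))).neg.exp.ennreal_ofReal

theorem trDual_mq {α : Type*} [MeasurableSpace α] {s : α → ℝ} {z : α → Om} (hs : Measurable s)
    (hz : Measurable z) : Measurable fun a => ENNReal.ofReal (qn n (f (s a)) (z a)) :=
  (measurable_qn n (g := fun a => f (s a)) (h.meas.comp ((hs.comp measurable_fst).prodMk
    measurable_snd)) hz).ennreal_ofReal

theorem trDual_ml {α : Type*} [MeasurableSpace α] {s : α → ℝ} {z : α → Om} (hs : Measurable s)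
    (hz : Measurable z) : Measurable fun a => ENNReal.ofReal (ln n (f (s a)) (z a)) :=
  (measurable_ln n (g := fun a => f (s a)) (h.meas.comp ((hs.comp measurable_fst).prodMk
    measurable_snd)) hz).ennreal_ofReal

theorem trDual_mf {α : Type*} [MeasurableSpace α] {s : α → ℝ} {z : α → Om} (hs : Measurable s)
    (hz : Measurable z) : Measurable fun a => ENNReal.ofReal (f (s a) (z a)) :=
  (h.meas.comp (hs.prodMk hz)).ennreal_ofReal

omit h in
/-- following the characteristics in a space-time integral -/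
theorem trDual_flow (T : ℝ) {F : ℝ → Om → ℝ≥0∞} (hF : Measurable (Function.uncurry F)) :
    ∫⁻ t in Ioc 0 T, ∫⁻ z, F t z = ∫⁻ z, ∫⁻ t in Ioc 0 T, F t (sh t z) := by
  rw [← lintegral_lintegral_swap (f := fun t z => F t (sh t z))
    (hF.comp (f := fun p : ℝ × Om => (p.1, sh p.1 p.2)) (by fun_prop)).aemeasurable]
  exact lintegral_congr fun t => (lintegral_sh t hF.of_uncurry_left).symm

/-- the duality identity along one characteristic -/
theorem trDual_pt (T : ℝ) (z : Om) {W : ℝ → ℝ≥0∞} (hW : Measurable W) :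
    ∫⁻ t in Ioc 0 T, ENNReal.ofReal (f t (sh t z)) * W t =
      ENNReal.ofReal (f0 z) *
        (∫⁻ t in Ioc 0 T, ENNReal.ofReal (Real.exp (-LamN n f 0 t z)) * W t) +
      ∫⁻ s in Ioc 0 T, ENNReal.ofReal (qn n (f s) (sh s z)) *
        ∫⁻ t in Ioc s T, ENNReal.ofReal (Real.exp (-LamN n f s t z)) * W t := by
  have h1 : Measurable fun t => ENNReal.ofReal (Real.exp (-LamN n f 0 t z)) * W t :=
    (h.trDual_mE measurable_const measurable_id measurable_const).mul hW
  have h2 : Measurable fun s => ENNReal.ofReal (qn n (f s) (sh s z)) :=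
    h.trDual_mq measurable_id (by fun_prop)
  rw [← lintegral_const_mul _ h1, lintegral_congr fun s => (lintegral_const_mul' _ _
    ENNReal.ofReal_ne_top).symm, trDual_tri T (F := fun s t => ENNReal.ofReal (qn n (f s) (sh s z)) *
      (ENNReal.ofReal (Real.exp (-LamN n f s t z)) * W t))
      ((h2.comp measurable_fst).mul ((h.trDual_mE measurable_fst measurable_snd measurable_const).mul (hW.comp measurable_snd))),
    ← lintegral_add_left (h1.const_mul _)]
  refine setLIntegral_congr_fun measurableSet_Ioc fun t ht => ?_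
  rw [h.trDual_mild ht.1.le, add_mul, mul_assoc, ← lintegral_mul_const _
    ((h.trDual_mE measurable_id' measurable_const measurable_const).fun_mul h2)]
  refine congrArg _ (lintegral_congr fun s => ?_)
  ring

theorem upper {t : ℝ} (ht : 0 ≤ t) (x : X) (v : V) :
    ENNReal.ofReal (f t (x, v)) ≤ ENNReal.ofReal (f0 (x + pr ((-t) • v), v)) +
      Dh (fun s y u => Qp (kN n) (eo (f s) y) (eo (f s) y) u) t x v := by
  have h1 := h.trDual_mild ht (sh (-t) (x, v))
  rw [trDual_back] at h1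
  refine h1.trans_le (add_le_add (mul_le_of_le_one_right' (h.trDual_E le_rfl ht _))
    (setLIntegral_mono' measurableSet_Ioc fun s hs => ?_))
  rw [h.ofReal_qn' hs.1.le, trDual_sh']
  exact (mul_le_of_le_one_left' (h.trDual_E hs.1.le hs.2 _)).trans (mul_le_of_le_one_left'
    (ENNReal.ofReal_le_one.2 (kap_le_one n (h.nonneg s) _)))

theorem lower {t : ℝ} (ht : 0 ≤ t) (x : X) (v : V) :
    f0 (x + pr ((-t) • v), v) *
      Real.exp (-∫ τ in (0 : ℝ)..t, ln n (f τ) (x + pr ((τ - t) • v), v)) ≤ f t (x, v) := by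
  have h1 := h.two_time le_rfl ht (sh (-t) (x, v))
  rw [trDual_back, sh_zero, h.zero] at h1
  simp only [LamN, trDual_sh'] at h1
  exact h1

theorem dual {T : ℝ} (hT : 0 ≤ T) {Θ : ℝ → X → V → ℝ≥0∞}
    (hΘ : Measurable (fun p : ℝ × X × V => Θ p.1 p.2.1 p.2.2)) :
    (∫⁻ z : Om, ENNReal.ofReal (f0 z) * Fw n f T Θ 0 z.1 z.2) +
      (∫⁻ s in Ioc 0 T, ∫⁻ z : Om, ENNReal.ofReal (qn n (f s) z) * Fw n f T Θ s z.1 z.2) ≤
    ∫⁻ t in Ioc 0 T, ∫⁻ z : Om, ENNReal.ofReal (f t z) * Θ t z.1 z.2 := by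
  have h1 := h.measurable_Fw T hΘ
  have h3 : Measurable fun z : Om => ENNReal.ofReal (f0 z) * Fw n f T Θ 0 z.1 z.2 :=
    h.meas0.ennreal_ofReal.mul (h1.comp (f := fun z : Om => ((0 : ℝ), z)) (by fun_prop))
  rw [trDual_flow T (F := fun s z => ENNReal.ofReal (qn n (f s) z) * Fw n f T Θ s z.1 z.2)
      ((h.trDual_mq measurable_fst measurable_snd).mul h1),
    trDual_flow T (F := fun t z => ENNReal.ofReal (f t z) * Θ t z.1 z.2)
      ((h.trDual_mf measurable_fst measurable_snd).mul hΘ), ← lintegral_add_left h3]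
  refine lintegral_mono fun z => le_of_eq ?_
  have h2 := trDual_Fw n f T Θ 0 z
  rw [sh_zero] at h2
  dsimp only
  rw [h.trDual_pt T z (W := fun t => Θ t (sh t z).1 (sh t z).2)
    (hΘ.comp (f := fun t : ℝ => (t, sh t z)) (by fun_prop)), h2]
  simp only [trDual_Fw]

theorem balance {t : ℝ} (ht : 0 ≤ t) {e : ℝ → X → V → ℝ≥0∞}
    (he : Measurable (fun p : ℝ × X × V => e p.1 p.2.1 p.2.2))
    (hmono : ∀ s s', 0 ≤ s → s ≤ s' → s' ≤ t → ∀ x v, e s' x v ≤ e s (x + pr ((s - s') • v)) v) :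
    (∫⁻ z : Om, ENNReal.ofReal (f t z) * e t z.1 z.2) +
      (∫⁻ s in Ioc 0 t, ∫⁻ z : Om,
        ENNReal.ofReal (f s z) * ENNReal.ofReal (ln n (f s) z) * e s z.1 z.2) ≤
    (∫⁻ z : Om, ENNReal.ofReal (f0 z) * e 0 z.1 z.2) +
      (∫⁻ s in Ioc 0 t, ∫⁻ z : Om, ENNReal.ofReal (qn n (f s) z) * e s z.1 z.2) := by
  have h0 : Measurable fun z : Om => ENNReal.ofReal (f t z) * e t z.1 z.2 :=
    (h.meas_t t).ennreal_ofReal.mul (he.comp (f := fun z : Om => (t, z)) (by fun_prop))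
  have g0 : Measurable fun z : Om => ENNReal.ofReal (f0 z) * e 0 z.1 z.2 :=
    h.meas0.ennreal_ofReal.mul (he.comp (f := fun z : Om => ((0 : ℝ), z)) (by fun_prop))
  have g1 : Measurable fun z : Om => ENNReal.ofReal (f t (sh t z)) * e t (sh t z).1 (sh t z).2 :=
    h0.comp (f := sh t) (by fun_prop)
  rw [trDual_flow t (F := fun s z =>
      ENNReal.ofReal (f s z) * ENNReal.ofReal (ln n (f s) z) * e s z.1 z.2)
      (((h.trDual_mf measurable_fst measurable_snd).mul
      (h.trDual_ml measurable_fst measurable_snd)).mul he),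
    trDual_flow t (F := fun s z => ENNReal.ofReal (qn n (f s) z) * e s z.1 z.2)
      ((h.trDual_mq measurable_fst measurable_snd).mul he),
    ← lintegral_add_left g0, ← lintegral_sh t h0, ← lintegral_add_left g1]
  refine lintegral_mono fun z => ?_
  have h1 : Measurable fun s => ENNReal.ofReal (ln n (f s) (sh s z)) :=
    h.trDual_ml measurable_id (by fun_prop)
  have h2 : Measurable fun s => e s (sh s z).1 (sh s z).2 :=
    he.comp (f := fun t : ℝ => (t, sh t z)) (by fun_prop)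
  have h3 : ∀ s s', 0 ≤ s → s ≤ s' → s' ≤ t →
      e s' (sh s' z).1 (sh s' z).2 ≤ e s (sh s z).1 (sh s z).2 := fun s s' a b c =>
    (hmono s s' a b c _ _).trans_eq (by rw [trDual_sh]; rfl)
  have h4 : ∀ s, 0 ≤ s → s ≤ t →
      ENNReal.ofReal (Real.exp (-LamN n f s t z)) * e t (sh t z).1 (sh t z).2 +
        ∫⁻ τ in Ioc s t, ENNReal.ofReal (Real.exp (-LamN n f s τ z)) *
          (ENNReal.ofReal (ln n (f τ) (sh τ z)) * e τ (sh τ z).1 (sh τ z).2) ≤
      e s (sh s z).1 (sh s z).2 := fun s a b => by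
    rw [← one_mul (e s _ _), ← h.trDual_one a b z, add_mul, ← lintegral_mul_const _
      ((h.trDual_mE measurable_const measurable_id' measurable_const).fun_mul h1)]
    refine add_le_add (mul_le_mul_right (h3 s t a b le_rfl) _)
      (setLIntegral_mono' measurableSet_Ioc fun τ hτ => ?_)
    rw [← mul_assoc]
    exact mul_le_mul_right (h3 s τ a hτ.1.le hτ.2) _
  have h5 := h4 0 le_rfl ht
  rw [sh_zero] at h5
  have h6 : Measurable fun s => ENNReal.ofReal (Real.exp (-LamN n f s t z)) *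
      ENNReal.ofReal (qn n (f s) (sh s z)) :=
    (h.trDual_mE measurable_id measurable_const measurable_const).mul
      (h.trDual_mq measurable_id (by fun_prop))
  simp only [mul_assoc]
  rw [h.trDual_pt t z (h1.fun_mul h2), h.trDual_mild ht, add_mul, add_add_add_comm, mul_assoc,
    ← mul_add, ← lintegral_mul_const _ h6, ← lintegral_add_left (h6.mul_const _)]
  refine add_le_add (mul_le_mul_right h5 _) (setLIntegral_mono' measurableSet_Ioc fun s hs => ?_)
  rw [mul_comm (ENNReal.ofReal (Real.exp _)), mul_assoc, ← mul_add]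
  exact mul_le_mul_right (h4 s hs.1.le hs.2) _

end TrSol

end Vale.Agent.P140
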